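import Crest.Agent.R22.Princ
import Crest.Agent.R22.Special
import Crest.Agent.R22.Fix

namespace Crest.Agent.R22

variable {d : ℕ}

theorem al1_third (hd : 4 ≤ d) (i j : Fin d) : ∃ l, l ≠ i ∧ l ≠ j := by
  obtain ⟨l, -, hl⟩ := Finset.exists_mem_notMem_of_card_lt_card (s := {i, j}) (t := Finset.univ)
    (Finset.card_le_two.trans_lt (by simp; omega))
  exact ⟨l, by simpa using hl⟩

theorem al1_root {Ω : Type} [Field Ω] [Algebra ℂ Ω] {z : Ω} {k : ℕ} (hk : 1 ≤ k) {c : ℂ}
    (h : z ^ k = algebraMap ℂ Ω c) : ∃ c' : ℂ, algebraMap ℂ Ω c' = z :=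
  minpoly.mem_range_of_degree_eq_one ℂ z (IsAlgClosed.degree_eq_one_of_irreducible ℂ
    (minpoly.irreducible (IsIntegral.of_pow hk (h ▸ isIntegral_algebraMap))))

/-- `x` is a function of the ratios `b i / b j` unless these are constant.  For three distinct indices the
second divided difference of `nn - θ r` vanishes: `x ∑ w r A r b r^k + ∑ w r B r b r^k = 0`.  If some
`∑ w r A r b r^k ≠ 0`, divide by `b i^k`.  Otherwise `A r b r^k = u + v θ r` and `B r b r^k = u' + v' θ r` for all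
`r` (with `u, v, u', v' ∈ Ω`), so `(u, v, u', v')` solves the complex linear system
`B r (u + v θ r) = A r (u' + v' θ r)`.  Its complex solution space has dimension `≤ 1`: otherwise a nonzero
solution has `u + v θ 0 = 0`, hence `u' + v' θ 0 = 0` (`A 0 ≠ 0`), `(u, v, u', v') = (-s θ0, s, -s' θ0, s')`,
`B r s = A r s'` for `r ≠ 0`, and `PP ≠ 0` gives `s = s' = 0`.  (Apply `ℂ`-linear functionals `Ω → ℂ` to pass
from `Ω` to `ℂ`.)  So `(u, v, u', v')` is a multiple of a complex vector, the ratios `(b i / b j)^k` are complex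
numbers, and the `b i / b j` are algebraic over `ℂ`, hence in `ℂ`.
(The proof below is shorter: eliminating `b l^k` from the two equations of the triple `i, j, l` shows directly
that `(b i / b j)^k` is a complex number.) -/
theorem Rel.x_mem {N : NF d} {k : ℕ} (hk : 1 ≤ k) {e1 e2 : Fin d → ℤ} (h1 : e1 ≠ 0)
    (hnd : ∀ i j, i ≠ j → N.PP e1 e2 i j ≠ 0) {Ω : Type} [Field Ω] [Algebra ℂ Ω] {x nn : Ω}
    {b : Fin d → Ω} (h : Rel N k 1 e1 e2 x nn b) (hb : ∀ i, b i ≠ 0) :
    x ∈ IntermediateField.adjoin ℂ {z | ∃ i j, z = b i / b j} ∨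
      ∀ i j, ∃ c : ℂ, b i = algebraMap ℂ Ω c * b j := by
  refine or_iff_not_imp_left.2 fun hx i j => ?_
  by_cases hij : i = j
  · exact ⟨1, by rw [hij, map_one, one_mul]⟩
  obtain ⟨l, hli, hlj⟩ := al1_third N.four_le i j
  obtain ⟨S, hS⟩ : ∃ S : (Fin d → ℤ) → Ω, ∀ e, S e =
      algebraMap ℂ Ω ((N.θ j - N.θ l) * N.emb e i) * (b i / b j) ^ k +
      algebraMap ℂ Ω ((N.θ l - N.θ i) * N.emb e j) +
      algebraMap ℂ Ω ((N.θ i - N.θ j) * N.emb e l) * (b l / b j) ^ k := ⟨_, fun _ => rfl⟩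
  have hSm : ∀ e, S e ∈ IntermediateField.adjoin ℂ {z | ∃ i j, z = b i / b j} := fun e => by
    have h2 : ∀ r, b r / b j ∈ IntermediateField.adjoin ℂ {z | ∃ i j, z = b i / b j} := fun r =>
      IntermediateField.subset_adjoin _ _ ⟨r, j, rfl⟩
    rw [hS]
    exact add_mem (add_mem (mul_mem (IntermediateField.algebraMap_mem _ _) (pow_mem (h2 i) k))
      (IntermediateField.algebraMap_mem _ _))
      (mul_mem (IntermediateField.algebraMap_mem _ _) (pow_mem (h2 l) k))
  have hbj := pow_ne_zero k (hb j)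
  have h2 : S e1 * x + S e2 = 0 := by
    have a1 := h i
    have a2 := h j
    have a3 := h l
    rw [pow_one] at a1 a2 a3
    simp only [hS, map_mul, map_sub, div_pow]
    field_simp
    linear_combination (algebraMap ℂ Ω (N.θ j) - algebraMap ℂ Ω (N.θ l)) * a1 +
      (algebraMap ℂ Ω (N.θ l) - algebraMap ℂ Ω (N.θ i)) * a2 +
      (algebraMap ℂ Ω (N.θ i) - algebraMap ℂ Ω (N.θ j)) * a3
  have h3 : S e1 = 0 := by
    by_contra h4
    refine hx ?_
    rw [show x = - S e2 / S e1 by field_simp; linear_combination h2]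
    exact div_mem (neg_mem (hSm _)) (hSm _)
  rw [h3, zero_mul, zero_add] at h2
  have h4 : (N.θ j - N.θ l) * N.PP e1 e2 i l ≠ 0 :=
    mul_ne_zero (sub_ne_zero.2 fun e => hlj (N.inj e).symm) (hnd i l hli.symm)
  have h5 : (b i / b j) ^ k = algebraMap ℂ Ω
      (- ((N.θ l - N.θ i) * N.PP e1 e2 j l) / ((N.θ j - N.θ l) * N.PP e1 e2 i l)) := by
    rw [map_div₀, eq_div_iff ((map_ne_zero _).2 h4)]
    simp only [hS, map_mul, map_sub] at h2 h3
    simp only [NF.PP, map_mul, map_sub, map_neg]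
    linear_combination algebraMap ℂ Ω (N.emb e2 l) * h3 - algebraMap ℂ Ω (N.emb e1 l) * h2
  obtain ⟨c, hc⟩ := al1_root hk h5
  exact ⟨c, by rw [hc, div_mul_cancel₀ _ (hb j)]⟩

end Crest.Agent.R22
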