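import Crest.Agent.R22.Princ
import Crest.Agent.R22.Special
import Crest.Agent.R22.Fix

namespace Crest.Agent.R22

variable {d : ℕ}

/-- the linear polynomial of an integer form in the coordinates -/
noncomputable def a2form (N : NF d) (M : Fin d → ℤ) : MvPolynomial (Fin 2 ⊕ Fin d) ℂ :=
  ∑ s, MvPolynomial.C (M s : ℂ) * ∑ i, MvPolynomial.C (N.cinv s i) * MvPolynomial.X (Sum.inr i)

theorem a2form_deg (N : NF d) (M : Fin d → ℤ) : (a2form N M).totalDegree ≤ 1 := by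
  refine MvPolynomial.totalDegree_finsetSum_le fun s _ => ?_
  refine (MvPolynomial.totalDegree_mul _ _).trans ?_
  rw [MvPolynomial.totalDegree_C, zero_add]
  refine MvPolynomial.totalDegree_finsetSum_le fun i _ => ?_
  refine (MvPolynomial.totalDegree_mul _ _).trans ?_
  simp

theorem a2form_aeval (N : NF d) (M : Fin d → ℤ) {A : Type} [CommRing A] [Algebra ℂ A] (x nn : A)
    (b : Fin d → A) :
    MvPolynomial.aeval (gens x nn b) (a2form N M) = ∑ s, (M s : A) * N.co b s := by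
  simp [a2form, gens, NF.co]

theorem a2form_eval (N : NF d) (M : Fin d → ℤ) (l1 l2 : ℤ → ℤ) (g : ℤ → Fin d → ℤ) (κ : ℤ → ℂ)
    (n : ℤ) : MvPolynomial.eval (ptv N l1 l2 g κ n) (a2form N M) =
      κ n * ((∑ s, M s * g n s : ℤ) : ℂ) := by
  rw [← MvPolynomial.aeval_eq_eval, ptv, a2form_aeval]
  push_cast
  rw [Finset.mul_sum]
  refine Finset.sum_congr rfl fun s _ => ?_
  rw [← N.co_emb (g n) s]
  simp only [NF.co, Finset.mul_sum]
  exact Finset.sum_congr rfl fun i _ => by ring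

/-- If all ratios are constant, the relations `b i - c b j` hold at the points (V), so all `γ n` are parallel:
`PP (γ n) (γ n') = 0`, `minor_eq`, `Prim.eq_or_eq_neg`; at most one point. -/
theorem CurveCfg.card_le_one_of_const {N : NF d} {p q : ℕ} {c X s1 s2 : ℝ} {μ : ℤ}
    {e1 e2 : Fin d → ℤ} {S : Finset ℤ} {l1 l2 : ℤ → ℤ} {g : ℤ → Fin d → ℤ}
    (hL : LineCfg N p q c X s1 s2 μ e1 e2 S l1 l2 g) (hp : 1 ≤ p) {Ω : Type} [Field Ω] [Algebra ℂ Ω]
    {x nn : Ω} {b : Fin d → Ω} {κ : ℤ → ℂ} {C0 : ℕ}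
    (h : CurveCfg N p q μ e1 e2 S l1 l2 g x nn b κ C0)
    (hdist : ∀ n ∈ S, ∀ n' ∈ S, n ≠ n' → g n ≠ g n' ∧ g n ≠ -g n')
    (hc : ∀ i j, ∃ c : ℂ, b i = algebraMap ℂ Ω c * b j) : S.card ≤ 1 := by
  have hκ : ∀ n ∈ S, κ n ≠ 0 := by
    intro n hn h0
    have h1 := h.kap n hn
    rw [h0, zero_pow (by omega), zero_mul] at h1
    exact pow_ne_zero q (Int.cast_ne_zero.2 (hL.l2_ne n hn)) h1.symm
  choose cc hcc using hc
  have hrel : ∀ n ∈ S, ∀ i j, N.emb (g n) i = cc i j * N.emb (g n) j := by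
    intro n hn i j
    have h1 := h.vg.V (MvPolynomial.X (Sum.inr i) -
      MvPolynomial.C (cc i j) * MvPolynomial.X (Sum.inr j)) (by
        simp only [map_sub, map_mul, MvPolynomial.aeval_X, MvPolynomial.algHom_C, gens,
          Sum.elim_inr]
        exact sub_eq_zero.2 (hcc i j)) n hn
    simp only [map_sub, map_mul, MvPolynomial.eval_X, MvPolynomial.eval_C, ptv, gens,
      Sum.elim_inr] at h1
    apply mul_left_cancel₀ (hκ n hn)
    linear_combination h1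
  rw [Finset.card_le_one]
  intro n hn n' hn'
  by_contra hne
  have hm : ∀ s t, minor (g n) (g n') s t = 0 := by
    intro s t
    have h1 := N.minor_eq (g n) (g n') s t
    have h2 : ∀ i j, N.PP (g n) (g n') i j = 0 := by
      intro i j
      rw [NF.PP, hrel n hn i j, hrel n' hn' i j]
      ring
    simp only [h2, mul_zero, Finset.sum_const_zero] at h1
    exact_mod_cast h1
  obtain ⟨h1, h2⟩ := hdist n hn n' hn' hne
  exact ((hL.prim n hn).eq_or_eq_neg (hL.prim n' hn') hm).elim h1 h2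

/-- If `dg x K = 1` then `K ≤ ℂ(x)` (`relfinrank_eq_one_iff`): `τ = x`, `f = X_x`, `g0 = 1`, `(t1, t2) = (l1, l2)`. -/
theorem isRat_of_dg_x {N : NF d} {p q : ℕ} {c X s1 s2 : ℝ} {μ : ℤ}
    {e1 e2 : Fin d → ℤ} {S : Finset ℤ} {l1 l2 : ℤ → ℤ} {g : ℤ → Fin d → ℤ}
    (hL : LineCfg N p q c X s1 s2 μ e1 e2 S l1 l2 g) {Ω : Type} [Field Ω] [Algebra ℂ Ω]
    (x nn : Ω) (b : Fin d → Ω) (κ : ℤ → ℂ) (D : ℕ) (hD : 1 ≤ D) (Y : ℝ) (hY : X ^ s1 ≤ Y)
    (h : Kf x b ≤ IntermediateField.adjoin ℂ {x}) : IsRat N S l1 l2 g x nn b κ D Y := by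
  refine ⟨MvPolynomial.X (Sum.inl 0), 1, by simpa using hD, by simp, by simp, fun n hn _ => ?_, ?_⟩
  · have h2 : (l2 n : ℂ) ≠ 0 := Int.cast_ne_zero.2 (hL.l2_ne n hn)
    refine ⟨l1 n, l2 n, hL.l2_ne n hn, (hL.l1_le n hn).trans hY, (hL.sz1 n hn).1.trans hY, ?_⟩
    simp [ptv, gens, h2]
  · simpa [gens] using h

/-- If `K ≤ ℂ(M / M')` for two integer linear forms in the coordinates, the curve is rational. -/
theorem isRat_of_forms {N : NF d} {S : Finset ℤ} {l1 l2 : ℤ → ℤ} {g : ℤ → Fin d → ℤ}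
    {Ω : Type} [Field Ω] [Algebra ℂ Ω] (x nn : Ω) (b : Fin d → Ω) (κ : ℤ → ℂ) (M M' : Fin d → ℤ)
    (Y : ℝ) (hY : ∀ n ∈ S, |((∑ s, M s * g n s : ℤ) : ℝ)| ≤ Y ∧ |((∑ s, M' s * g n s : ℤ) : ℝ)| ≤ Y)
    (h0 : ∑ s, (M' s : Ω) * N.co b s ≠ 0)
    (h : Kf x b ≤ IntermediateField.adjoin ℂ
      {(∑ s, (M s : Ω) * N.co b s) / ∑ s, (M' s : Ω) * N.co b s}) :
    IsRat N S l1 l2 g x nn b κ 1 Y := by
  refine ⟨a2form N M, a2form N M', a2form_deg N M, a2form_deg N M', by rwa [a2form_aeval],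
    fun n hn h1 => ?_, by rwa [a2form_aeval, a2form_aeval]⟩
  refine ⟨∑ s, M s * g n s, ∑ s, M' s * g n s, fun h2 => h1 ?_, (hY n hn).1, (hY n hn).2, ?_⟩
  · rw [a2form_eval, h2, Int.cast_zero, mul_zero]
  · rw [a2form_eval, a2form_eval]
    ring

end Crest.Agent.R22
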