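import Crest.Agent.R22.Princ
import Crest.Agent.R22.Special
import Crest.Agent.R22.Fix
import Crest.Agent.R22.Alpha1
import Crest.Agent.R22.Alpha2

namespace Crest.Agent.R22

variable {d : ℕ}

namespace A3

variable {Ω : Type} [Field Ω] [Algebra ℂ Ω]

/-- the linear polynomial `∑ L i * X (inr i)` -/
noncomputable def lp (L : Fin d → ℂ) : MvPolynomial (Fin 2 ⊕ Fin d) ℂ :=
  ∑ i, MvPolynomial.C (L i) * MvPolynomial.X (Sum.inr i)

lemma lp_deg (L : Fin d → ℂ) : (lp L).totalDegree ≤ 1 := by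
  unfold lp
  refine MvPolynomial.totalDegree_finsetSum_le fun i _ => ?_
  refine (MvPolynomial.totalDegree_mul _ _).trans ?_
  simp

lemma aeval_lp {A : Type} [CommRing A] [Algebra ℂ A] (x nn : A) (b : Fin d → A) (L : Fin d → ℂ) :
    MvPolynomial.aeval (gens x nn b) (lp L) = lf L b := by
  simp [lp, lf, gens]

lemma lf_smul (L : Fin d → ℂ) (c : ℂ) (z : Fin d → ℂ) : lf L (fun i => c * z i) = c * lf L z := by
  unfold lf
  rw [Finset.mul_sum]
  refine Finset.sum_congr rfl fun i _ => ?_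
  ring

/-- (V) for polynomials in linear forms. -/
lemma V_lf {N : NF d} {p q : ℕ} {μ : ℤ} {e1 e2 : Fin d → ℤ} {S : Finset ℤ} {l1 l2 : ℤ → ℤ}
    {g : ℤ → Fin d → ℤ} {x nn : Ω} {b : Fin d → Ω} {κ : ℤ → ℂ} {C0 : ℕ}
    (h : CurveCfg N p q μ e1 e2 S l1 l2 g x nn b κ C0) {ι : Type} (L : ι → Fin d → ℂ)
    (Ψ : MvPolynomial ι ℂ) (hΨ : MvPolynomial.aeval (fun r => lf (L r) b) Ψ = 0) (n : ℤ) (hn : n ∈ S) :
    MvPolynomial.aeval (fun r => κ n * lf (L r) (N.emb (g n))) Ψ = 0 := by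
  have key : ∀ {A : Type} [CommRing A] [Algebra ℂ A] (x nn : A) (b : Fin d → A),
      MvPolynomial.aeval (gens x nn b) (MvPolynomial.aeval (fun r => lp (L r)) Ψ) =
        MvPolynomial.aeval (fun r => lf (L r) b) Ψ := by
    intro A _ _ x nn b
    rw [← AlgHom.comp_apply, MvPolynomial.comp_aeval]
    simp only [aeval_lp]
  have h1 := h.vg.V (MvPolynomial.aeval (fun r => lp (L r)) Ψ) (by rw [key, hΨ]) n hn
  rw [← MvPolynomial.coe_aeval_eq_eval, RingHom.coe_coe] at h1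
  unfold ptv at h1
  rw [key] at h1
  simpa only [lf_smul] using h1

/-- the complex form attached to an integer form in the coordinates -/
noncomputable def Lof (N : NF d) (M : Fin d → ℤ) : Fin d → ℂ := fun i => ∑ s, (M s : ℂ) * N.cinv s i

lemma lf_Lof (N : NF d) (M : Fin d → ℤ) {A : Type} [CommRing A] [Algebra ℂ A] (b : Fin d → A) :
    lf (Lof N M) b = ∑ s, (M s : A) * N.co b s := by
  unfold lf Lof NF.co
  simp only [map_sum, map_mul, map_intCast, Finset.sum_mul, Finset.mul_sum]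
  rw [Finset.sum_comm]
  refine Finset.sum_congr rfl fun s _ => Finset.sum_congr rfl fun i _ => ?_
  ring

lemma lf_Lof_emb (N : NF d) (M γ : Fin d → ℤ) :
    lf (Lof N M) (N.emb γ) = ((∑ s, M s * γ s : ℤ) : ℂ) := by
  rw [lf_Lof]
  simp [N.co_emb]

lemma lf_div_mem (x : Ω) (b : Fin d → Ω) (hb : ∀ i, b i ≠ 0) (i0 : Fin d) (L L' : Fin d → ℂ) :
    lf L b / lf L' b ∈ Kf x b := by
  have e : lf L b / lf L' b = (lf L b / b i0) / (lf L' b / b i0) := by
    rw [div_div_div_cancel_right₀ (hb i0)]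
  rw [e]
  exact div_mem (P3.lf_mem x b i0 L) (P3.lf_mem x b i0 L')

lemma Kf_le (x nn : Ω) (b : Fin d → Ω) :
    Kf x b ≤ IntermediateField.adjoin ℂ (Set.range (gens x nn b)) := by
  unfold Kf
  rw [IntermediateField.adjoin_le_iff]
  rintro z (rfl | ⟨i, j, rfl⟩)
  · exact IntermediateField.subset_adjoin ℂ _ ⟨Sum.inl 0, by simp [gens]⟩
  · exact div_mem (IntermediateField.subset_adjoin ℂ _ ⟨Sum.inr i, by simp [gens]⟩)
      (IntermediateField.subset_adjoin ℂ _ ⟨Sum.inr j, by simp [gens]⟩)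

lemma hom_scale {e : ℕ} {Ψ : MvPolynomial (Fin 3) ℂ} (h : Ψ.IsHomogeneous e) (c : ℂ) :
    MvPolynomial.aeval ![c, 0, 0] Ψ = c ^ e * MvPolynomial.aeval ![(1 : ℂ), 0, 0] Ψ := by
  refine p4_ind h (fun Ψ => MvPolynomial.aeval ![c, 0, 0] Ψ =
    c ^ e * MvPolynomial.aeval ![(1 : ℂ), 0, 0] Ψ) (by simp) (fun a b ha hb => ?_) (fun m a hm => ?_)
  · rw [map_add, map_add, ha, hb]; ring
  · rw [p4_mon, p4_mon, ← hm]
    simp only [Matrix.cons_val_zero, Matrix.cons_val_one, Matrix.cons_val]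
    rcases Nat.eq_zero_or_pos (m 1) with h1 | h1
    · rcases Nat.eq_zero_or_pos (m 2) with h2 | h2
      · rw [h1, h2]; ring
      · rw [zero_pow h2.ne']; ring
    · rw [zero_pow h1.ne']; ring

lemma exists_of_alg {z : Ω} (h : ¬Transcendental ℂ z) : ∃ c : ℂ, algebraMap ℂ Ω c = z := by
  have h1 : IsAlgebraic ℂ z := by simpa [Transcendental] using h
  exact RingHom.mem_range.1 (minpoly.mem_range_of_degree_eq_one ℂ z
    (IsAlgClosed.degree_eq_one_of_irreducible ℂ (minpoly.irreducible h1.isIntegral)))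

lemma HL_mono {x : Ω} {b : Fin d → Ω} {cx cg CH CH' : ℕ} (h : HL x b cx cg CH) (hle : CH ≤ CH') :
    HL x b cx cg CH' := fun a E ha hE => by
  have := h a E (hle.trans ha) (hle.trans hE)
  omega

/-- the form `β s0 * Y t - β t * Y s0` -/
def Mv (β : Fin d → ℤ) (s0 t : Fin d) : Fin d → ℤ := fun s =>
  β s0 * (if s = t then 1 else 0) - β t * (if s = s0 then 1 else 0)

/-- the form `Y s0` -/
def Ev (s0 : Fin d) : Fin d → ℤ := fun s => if s = s0 then 1 else 0

lemma sum_Mv {A : Type} [CommRing A] (β : Fin d → ℤ) (s0 t : Fin d) (Y : Fin d → A) :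
    ∑ s, (Mv β s0 t s : A) * Y s = (β s0 : A) * Y t - (β t : A) * Y s0 := by
  simp [Mv, sub_mul, Finset.sum_sub_distrib]

lemma sum_Ev {A : Type} [CommRing A] (s0 : Fin d) (Y : Fin d → A) :
    ∑ s, (Ev s0 s : A) * Y s = Y s0 := by
  simp [Ev]

end A3

open A3 in
/-- α-side degrees `(2, 3)`.  `K = Kf x b`; `VG.dg_le` gives `0 < dg x K ≤ C0`.  If `dg x K = 1`: `isRat_of_dg_x`.
If the ratios are constant: `card_le_one_of_const`.  Otherwise `K` is generated by the ratios (`x_mem`).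
Fix a point `n0`, `β0 = g n0`, `s0` with `β0 s0 ≠ 0`, and the forms `M_t = β0 s0 Y t - β0 t Y s0`
(`Y = co b`), which vanish at `n0`.  (A) Two of them have `M' ≠ 0` and `τ = M / M'` transcendental: if
`dg τ K = 1`, `isRat_of_forms`; else `step` with `f = (Y s0, M, M')` (hypothesis `hpt` from (V) at `n0`, where
`f = (κ β0 s0, 0, 0)`, and homogeneity) gives `z` with `dg z K ≥ 3`, and `HL_of_dg`.  (B) Otherwise all `M_t` are
complex multiples of one of them, `M` (algebraic over `ℂ` means in `ℂ`); then `Y s0 ≠ 0` by (V) at `n0`, every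
`Y t`, hence every `b i`, is a combination of `Y s0` and `M`, and `K ≤ ℂ(M / Y s0)`. -/
theorem alpha_deg (d k C0 : ℕ) (hk : 1 ≤ k) : ∃ CH : ℕ, ∀ (N : NF d) (c X s1 s2 : ℝ) (μ : ℤ)
    (e1 e2 : Fin d → ℤ) (S : Finset ℤ) (l1 l2 : ℤ → ℤ) (g : ℤ → Fin d → ℤ),
    LineCfg N k 1 c X s1 s2 μ e1 e2 S l1 l2 g →
    ∀ (Ω : Type) [Field Ω] [Algebra ℂ Ω] (x nn : Ω) (b : Fin d → Ω) (κ : ℤ → ℂ),
    CurveCfg N k 1 μ e1 e2 S l1 l2 g x nn b κ C0 → Transcendental ℂ x →
    (∀ n ∈ S, ∀ n' ∈ S, n ≠ n' → g n ≠ g n' ∧ g n ≠ -g n') →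
    ∀ Y : ℝ, 1 ≤ Y → X ^ s1 ≤ Y → X ^ s2 ≤ Y →
    S.card ≤ CH ∨ IsRat N S l1 l2 g x nn b κ 1 (24 * Y ^ 3) ∨ HL x b 2 3 CH := by
  obtain ⟨CH0, hCH0⟩ := HL_of_dg d 2 3 C0
  refine ⟨CH0 + 1, ?_⟩
  intro N c X s1 s2 μ e1 e2 S l1 l2 g hL Ω _ _ x nn b κ hC hx hdist Y hY1 hY2 hY3
  classical
  by_cases hS : S.card ≤ 1
  · exact Or.inl (by omega)
  obtain ⟨n0, hn0⟩ : S.Nonempty := Finset.card_pos.1 (by omega)
  have : CharZero Ω := charZero_of_injective_algebraMap (algebraMap ℂ Ω).injective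
  have hxK : x ∈ Kf x b := IntermediateField.subset_adjoin ℂ _ (Set.mem_insert _ _)
  have hY24 : 2 * Y ^ 2 ≤ 24 * Y ^ 3 := by nlinarith [sq_nonneg Y]
  have hY24' : Y ≤ 24 * Y ^ 3 := by nlinarith [sq_nonneg Y]
  obtain ⟨hdx0, hdx1⟩ : 0 < dg x (Kf x b) ∧ dg x (Kf x b) ≤ C0 := by
    have e : MvPolynomial.aeval (gens x nn b) (MvPolynomial.X (Sum.inl 0) :
        MvPolynomial (Fin 2 ⊕ Fin d) ℂ) / MvPolynomial.aeval (gens x nn b)
          (1 : MvPolynomial (Fin 2 ⊕ Fin d) ℂ) = x := by simp [gens]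
    have := hC.vg.dg_le (MvPolynomial.X (Sum.inl 0)) 1 1 (by simp) (by simp) (by simp)
      (by rw [e]; exact hx) (Kf x b) (Kf_le x nn b) (by rw [e]; exact hxK)
    rwa [e, mul_one] at this
  by_cases hdx : dg x (Kf x b) = 1
  · exact Or.inr (Or.inl (isRat_of_dg_x hL x nn b κ 1 le_rfl _ (hY2.trans hY24')
      (IntermediateField.relfinrank_eq_one_iff.1 hdx)))
  rcases Rel.x_mem hk hL.e1ne hL.nd hC.rel hC.bne with hxm | hconst
  swap
  · exact absurd (hC.card_le_one_of_const hL hk hdist hconst) hS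
  set β := g n0 with hβ
  obtain ⟨s0, hs0⟩ : ∃ s0, β s0 ≠ 0 := Function.ne_iff.1 (hL.prim n0 hn0).ne_zero
  have hκ : κ n0 ≠ 0 := by
    intro h0
    have h1 := hC.kap n0 hn0
    rw [h0, zero_pow (by omega), zero_mul, pow_one] at h1
    exact hL.l2_ne n0 hn0 (by exact_mod_cast h1.symm)
  have hg : ∀ n ∈ S, ∀ s, |(g n s : ℝ)| ≤ Y := fun n hn s => by
    have h1 := norm_le_pi_norm (g n) s
    rw [Int.norm_eq_abs] at h1
    exact h1.trans ((hL.sz2 n hn).trans hY3)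
  have hMb : ∀ t, ∀ n ∈ S, |((∑ s, Mv β s0 t s * g n s : ℤ) : ℝ)| ≤ 24 * Y ^ 3 := by
    intro t n hn
    have h1 := sum_Mv β s0 t (g n)
    simp only [Int.cast_id] at h1
    rw [h1]
    push_cast
    refine le_trans ?_ hY24
    have a1 := hg n0 hn0 s0
    have a2 := hg n0 hn0 t
    have a3 := hg n hn s0
    have a4 := hg n hn t
    calc _ ≤ |(β s0 : ℝ) * g n t| + |(β t : ℝ) * g n s0| := abs_sub _ _
      _ ≤ Y * Y + Y * Y := by
        rw [abs_mul, abs_mul]
        exact add_le_add (mul_le_mul a1 a4 (abs_nonneg _) (by linarith))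
          (mul_le_mul a2 a3 (abs_nonneg _) (by linarith))
      _ = 2 * Y ^ 2 := by ring
  have hEb : ∀ n ∈ S, |((∑ s, Ev s0 s * g n s : ℤ) : ℝ)| ≤ 24 * Y ^ 3 := by
    intro n hn
    have h1 := sum_Ev s0 (g n)
    simp only [Int.cast_id] at h1
    rw [h1]
    exact (hg n hn s0).trans hY24'
  have hM0 : ∀ t, lf (Lof N (Mv β s0 t)) (N.emb β) = 0 := by
    intro t
    have h1 := sum_Mv β s0 t β
    simp only [Int.cast_id] at h1
    rw [lf_Lof_emb, h1]
    push_cast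
    ring
  have hE0 : lf (Lof N (Ev s0)) (N.emb β) = β s0 := by
    have h1 := sum_Ev s0 β
    simp only [Int.cast_id] at h1
    rw [lf_Lof_emb, h1]
  have hne : κ n0 * (β s0 : ℂ) ≠ 0 := mul_ne_zero hκ (by exact_mod_cast hs0)
  by_cases hA : ∃ t t', lf (Lof N (Mv β s0 t')) b ≠ 0 ∧
      Transcendental ℂ (lf (Lof N (Mv β s0 t)) b / lf (Lof N (Mv β s0 t')) b)
  · obtain ⟨t, t', h0, hτ⟩ := hA
    have hdτ : 0 < dg (lf (Lof N (Mv β s0 t)) b / lf (Lof N (Mv β s0 t')) b) (Kf x b) := by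
      have := hC.vg.dg_le (lp (Lof N (Mv β s0 t))) (lp (Lof N (Mv β s0 t'))) 1 (lp_deg _) (lp_deg _)
        (by rw [aeval_lp]; exact h0) (by rw [aeval_lp, aeval_lp]; exact hτ) (Kf x b) (Kf_le x nn b)
        (by rw [aeval_lp, aeval_lp]; exact lf_div_mem x b hC.bne s0 _ _)
      rw [aeval_lp, aeval_lp] at this
      exact this.1
    by_cases hd1 : dg (lf (Lof N (Mv β s0 t)) b / lf (Lof N (Mv β s0 t')) b) (Kf x b) = 1
    · refine Or.inr (Or.inl (isRat_of_forms x nn b κ (Mv β s0 t) (Mv β s0 t') _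
        (fun n hn => ⟨hMb t n hn, hMb t' n hn⟩) (by rwa [← lf_Lof]) ?_))
      rw [← lf_Lof, ← lf_Lof]
      exact IntermediateField.relfinrank_eq_one_iff.1 hd1
    · let Ls : Fin 3 → Fin d → ℂ := ![Lof N (Ev s0), Lof N (Mv β s0 t), Lof N (Mv β s0 t')]
      obtain ⟨e, P, s, -, -, -, -, hz, hdz, -, -⟩ := step (fun r => lf (Ls r) b) (Kf x b) h0
        (lf_div_mem x b hC.bne s0 _ _) (lf_div_mem x b hC.bne s0 _ _) hτ hdτ (by
          intro e Ψ hΨ hf
          have h1 := V_lf hC Ls Ψ hf n0 hn0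
          have h2 : (fun r => κ n0 * lf (Ls r) (N.emb (g n0))) = ![κ n0 * (β s0 : ℂ), 0, 0] := by
            funext r
            fin_cases r
            · exact congrArg (κ n0 * ·) hE0
            · exact (congrArg (κ n0 * ·) (hM0 t)).trans (mul_zero _)
            · exact (congrArg (κ n0 * ·) (hM0 t')).trans (mul_zero _)
          rw [h2, hom_scale hΨ] at h1
          have h3 := (mul_eq_zero.1 h1).resolve_left (pow_ne_zero _ hne)
          rw [← MvPolynomial.coe_aeval_eq_eval, RingHom.coe_coe]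
          exact h3)
      have elf : lf (Ls 1) b + algebraMap ℂ Ω s * lf (Ls 0) b = lf (fun i => Ls 1 i + s * Ls 0 i) b := by
        unfold lf
        rw [Finset.mul_sum, ← Finset.sum_add_distrib]
        refine Finset.sum_congr rfl fun i _ => ?_
        rw [map_add, map_mul]
        ring
      simp only [elf] at hz hdz
      have hdτ' : 2 ≤ dg (lf (Ls 1) b / lf (Ls 2) b) (Kf x b) := by
        change 2 ≤ dg (lf (Lof N (Mv β s0 t)) b / lf (Lof N (Mv β s0 t')) b) (Kf x b)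
        omega
      exact Or.inr (Or.inr (HL_mono (hCH0 x b (fun i => Ls 1 i + s * Ls 0 i) (Ls 2) hC.bne h0 hx hz
        hdx0 hdx1 (by omega) (by omega) (by omega)) (Nat.le_succ _)))
  · push Not at hA
    obtain ⟨t0, ht0⟩ : ∃ t0, ∀ t, ∃ c : ℂ,
        lf (Lof N (Mv β s0 t)) b = algebraMap ℂ Ω c * lf (Lof N (Mv β s0 t0)) b := by
      by_cases hz : ∀ t, lf (Lof N (Mv β s0 t)) b = 0
      · exact ⟨s0, fun t => ⟨0, by simp [hz t]⟩⟩
      · push Not at hz
        obtain ⟨t0, ht0⟩ := hz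
        refine ⟨t0, fun t => ?_⟩
        obtain ⟨c, hc⟩ := exists_of_alg (hA t t0 ht0)
        exact ⟨c, by rw [hc, div_mul_cancel₀ _ ht0]⟩
    have hY0 : lf (Lof N (Ev s0)) b ≠ 0 := by
      intro h0
      have h1 := V_lf hC (fun _ : Unit => Lof N (Ev s0)) (MvPolynomial.X ()) (by simpa using h0) n0 hn0
      rw [MvPolynomial.aeval_X, hE0] at h1
      exact hne h1
    refine Or.inr (Or.inl (isRat_of_forms x nn b κ (Mv β s0 t0) (Ev s0) _
      (fun n hn => ⟨hMb t0 n hn, hEb n hn⟩) (by rwa [← lf_Lof]) ?_))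
    rw [← lf_Lof, ← lf_Lof]
    set w := lf (Lof N (Mv β s0 t0)) b / lf (Lof N (Ev s0)) b with hw
    set L : IntermediateField ℂ Ω := IntermediateField.adjoin ℂ {w} with hLdef
    have hwL : w ∈ L := IntermediateField.subset_adjoin ℂ _ rfl
    have hYs : lf (Lof N (Ev s0)) b = N.co b s0 := by rw [lf_Lof, sum_Ev]
    have hβ0 : (β s0 : Ω) ≠ 0 := by exact_mod_cast hs0
    have hco : ∀ t, N.co b t / N.co b s0 ∈ L := by
      intro t
      obtain ⟨c, hc⟩ := ht0 t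
      have e : N.co b t / N.co b s0 = (algebraMap ℂ Ω c * w + (β t : Ω)) / (β s0 : Ω) := by
        rw [hw, ← mul_div_assoc, ← hc, lf_Lof, sum_Mv, hYs]
        rw [hYs] at hY0
        field_simp
        ring
      rw [e]
      exact div_mem (add_mem (mul_mem (L.algebraMap_mem c) hwL) (intCast_mem L _)) (intCast_mem L _)
    have hbL : ∀ i, b i / N.co b s0 ∈ L := by
      intro i
      rw [← N.sum_co b i, Finset.sum_div]
      refine sum_mem fun s _ => ?_
      rw [mul_div_assoc]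
      exact mul_mem (L.algebraMap_mem _) (hco s)
    have hrat : ∀ i j, b i / b j ∈ L := by
      intro i j
      rw [hYs] at hY0
      rw [← div_div_div_cancel_right₀ hY0]
      exact div_mem (hbL i) (hbL j)
    have hadj : IntermediateField.adjoin ℂ {z | ∃ i j, z = b i / b j} ≤ L := by
      rw [IntermediateField.adjoin_le_iff]
      rintro z ⟨i, j, rfl⟩
      exact hrat i j
    unfold Kf
    rw [IntermediateField.adjoin_le_iff]
    rintro z (rfl | ⟨i, j, rfl⟩)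
    · exact hadj hxm
    · exact hrat i j

end Crest.Agent.R22
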