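import Crest.Agent.R22.Princ
import Crest.Agent.R22.Special
import Crest.Agent.R22.Fix
import Crest.Agent.R22.Alpha1
import Crest.Agent.R22.Alpha2

/-! # R22: linear forms on a curve (auxiliary lemmas for `alpha_deg4`) -/

namespace Crest.Agent.R22

open MvPolynomial

variable {d : ℕ}

/-- the linear form `L` as a polynomial in the generators -/
noncomputable def a4lp (L : Fin d → ℂ) : MvPolynomial (Fin 2 ⊕ Fin d) ℂ :=
  ∑ i, C (L i) * X (Sum.inr i)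

theorem a4lp_deg (L : Fin d → ℂ) : (a4lp L).totalDegree ≤ 1 := by
  unfold a4lp
  refine totalDegree_finsetSum_le fun i _ => (totalDegree_mul _ _).trans ?_
  rw [totalDegree_C, totalDegree_X]

theorem a4lp_aeval {R : Type} [CommRing R] [Algebra ℂ R] (x nn : R) (b : Fin d → R)
    (L : Fin d → ℂ) : aeval (gens x nn b) (a4lp L) = lf L b := by
  simp [a4lp, lf, gens]

theorem a4lp_eval (N : NF d) (l1 l2 : ℤ → ℤ) (g : ℤ → Fin d → ℤ) (κ : ℤ → ℂ) (n : ℤ)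
    (L : Fin d → ℂ) : eval (ptv N l1 l2 g κ n) (a4lp L) = κ n * lf L (N.emb (g n)) := by
  rw [← aeval_eq_eval, ptv, a4lp_aeval, lf, lf, Finset.mul_sum]
  refine Finset.sum_congr rfl fun i _ => ?_
  ring

theorem a4_lf_add {R : Type} [CommRing R] [Algebra ℂ R] (L L' : Fin d → ℂ) (b : Fin d → R) :
    lf (L + L') b = lf L b + lf L' b := by
  simp [lf, add_mul, Finset.sum_add_distrib]

theorem a4_lf_smul {R : Type} [CommRing R] [Algebra ℂ R] (c : ℂ) (L : Fin d → ℂ)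
    (b : Fin d → R) : lf (c • L) b = algebraMap ℂ R c * lf L b := by
  simp [lf, Finset.mul_sum, mul_assoc]

/-- the form in `b` given by integer coefficients in the coordinates -/
noncomputable def a4L (N : NF d) (M : Fin d → ℤ) : Fin d → ℂ := fun i => ∑ s, (M s : ℂ) * N.cinv s i

theorem a4L_lf (N : NF d) (M : Fin d → ℤ) {R : Type} [CommRing R] [Algebra ℂ R] (b : Fin d → R) :
    lf (a4L N M) b = ∑ s, (M s : R) * N.co b s := by
  simp only [lf, a4L, NF.co, map_sum, map_mul, map_intCast, Finset.sum_mul, Finset.mul_sum,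
    mul_assoc]
  exact Finset.sum_comm

theorem a4L_emb (N : NF d) (M a : Fin d → ℤ) :
    lf (a4L N M) (N.emb a) = ((∑ s, M s * a s : ℤ) : ℂ) := by
  rw [a4L_lf]
  push_cast
  exact Finset.sum_congr rfl fun s _ => by rw [N.co_emb]

theorem a4_hom_eval {e : ℕ} {Ψ : MvPolynomial (Fin 3) ℂ} (h : Ψ.IsHomogeneous e) (t : ℂ) :
    eval ![t, 0, 0] Ψ = t ^ e * eval ![1, 0, 0] Ψ := by
  refine p4_ind h (fun Ψ => eval ![t, 0, 0] Ψ = t ^ e * eval ![1, 0, 0] Ψ) (by simp)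
    (fun a b ha hb => ?_) fun m a hm => ?_
  · rw [map_add, map_add, ha, hb, mul_add]
  · rw [← aeval_eq_eval, ← aeval_eq_eval, p4_mon, p4_mon]
    simp only [Matrix.cons_val_zero, Matrix.cons_val_one, Matrix.cons_val_two, Matrix.tail_cons,
      Matrix.head_cons, one_pow, ← hm, pow_add]
    rcases Nat.eq_zero_or_pos (m 1) with h1 | h1
    · rcases Nat.eq_zero_or_pos (m 2) with h2 | h2
      · simp [h1, h2, mul_comm]
      · simp [zero_pow h2.ne']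
    · simp [zero_pow h1.ne']

section

variable {Ω : Type} [Field Ω] [Algebra ℂ Ω]

theorem a4_alg {z : Ω} (h : ¬ Transcendental ℂ z) : ∃ c : ℂ, z = algebraMap ℂ Ω c := by
  have h1 : IsAlgebraic ℂ z := not_not.1 h
  obtain ⟨c, hc⟩ := minpoly.mem_range_of_degree_eq_one ℂ z
    (IsAlgClosed.degree_eq_one_of_irreducible ℂ (minpoly.irreducible h1.isIntegral))
  exact ⟨c, hc.symm⟩

theorem a4_HL_mono {x : Ω} {b : Fin d → Ω} {cx cg CH CH' : ℕ} (h : HL x b cx cg CH)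
    (hle : CH ≤ CH') : HL x b cx cg CH' := fun a E ha hE =>
  (h a E (hle.trans ha) (hle.trans hE)).trans (by omega)

theorem a4_ratio_mem (x : Ω) {b : Fin d → Ω} (hb : ∀ i, b i ≠ 0) (i0 : Fin d)
    (L L' : Fin d → ℂ) : lf L b / lf L' b ∈ Kf x b := by
  have h : ∀ L : Fin d → ℂ, lf L b / b i0 ∈ Kf x b := fun L => by
    rw [lf, Finset.sum_div]
    refine sum_mem fun i _ => ?_
    rw [mul_div_assoc]
    exact mul_mem (IntermediateField.algebraMap_mem _ _)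
      (IntermediateField.subset_adjoin _ _ (Or.inr ⟨i, i0, rfl⟩))
  rw [← div_div_div_cancel_right₀ (hb i0)]
  exact div_mem (h L) (h L')

theorem a4_Kf_le_gens (x nn : Ω) (b : Fin d → Ω) :
    Kf x b ≤ IntermediateField.adjoin ℂ (Set.range (gens x nn b)) := by
  refine IntermediateField.adjoin_le_iff.2 ?_
  rintro z (rfl | ⟨i, j, rfl⟩)
  · exact IntermediateField.subset_adjoin _ _ ⟨Sum.inl 0, rfl⟩
  · exact div_mem (IntermediateField.subset_adjoin ℂ _ ⟨Sum.inr i, rfl⟩)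
      (IntermediateField.subset_adjoin ℂ _ ⟨Sum.inr j, rfl⟩)

theorem a4_Kf_le (N : NF d) {x : Ω} {b : Fin d → Ω}
    (hx : x ∈ IntermediateField.adjoin ℂ {z | ∃ i j, z = b i / b j}) (E : IntermediateField ℂ Ω)
    {w : Ω} (hw : w ≠ 0) (h : ∀ s, N.co b s / w ∈ E) : Kf x b ≤ E := by
  have h1 : ∀ i, b i / w ∈ E := fun i => by
    rw [← N.sum_co b i, Finset.sum_div]
    refine sum_mem fun s _ => ?_
    rw [mul_div_assoc]
    exact mul_mem (IntermediateField.algebraMap_mem _ _) (h s)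
  have h2 : IntermediateField.adjoin ℂ {z | ∃ i j, z = b i / b j} ≤ E := by
    refine IntermediateField.adjoin_le_iff.2 ?_
    rintro z ⟨i, j, rfl⟩
    rw [← div_div_div_cancel_right₀ hw]
    exact div_mem (h1 i) (h1 j)
  refine IntermediateField.adjoin_le_iff.2 ?_
  rintro z (rfl | hz)
  · exact h2 hx
  · exact h2 (IntermediateField.subset_adjoin _ _ hz)

variable {N : NF d} {p q : ℕ} {μ : ℤ} {e1 e2 : Fin d → ℤ} {S : Finset ℤ} {l1 l2 : ℤ → ℤ}
  {g : ℤ → Fin d → ℤ} {x nn : Ω} {b : Fin d → Ω} {κ : ℤ → ℂ} {C0 : ℕ}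

theorem a4_V (h : CurveCfg N p q μ e1 e2 S l1 l2 g x nn b κ C0) {ι : Type} (L : ι → Fin d → ℂ)
    (Ψ : MvPolynomial ι ℂ) (hΨ : aeval (fun r => lf (L r) b) Ψ = 0) {n : ℤ} (hn : n ∈ S) :
    eval (fun r => κ n * lf (L r) (N.emb (g n))) Ψ = 0 := by
  have h1 := h.vg.V (bind₁ (fun r => a4lp (L r)) Ψ) (by
    rw [aeval_bind₁]; simpa only [a4lp_aeval] using hΨ) n hn
  rw [← aeval_eq_eval, aeval_bind₁] at h1
  simpa only [aeval_eq_eval, a4lp_eval] using h1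

theorem a4_V1 (h : CurveCfg N p q μ e1 e2 S l1 l2 g x nn b κ C0) (hκ : ∀ n ∈ S, κ n ≠ 0)
    {L : Fin d → ℂ} (hL : lf L b = 0) {n : ℤ} (hn : n ∈ S) : lf L (N.emb (g n)) = 0 := by
  have h1 := h.vg.V (a4lp L) (by rw [a4lp_aeval, hL]) n hn
  rw [a4lp_eval] at h1
  exact (mul_eq_zero.1 h1).resolve_left (hκ n hn)

theorem a4_exists_pt (h : CurveCfg N p q μ e1 e2 S l1 l2 g x nn b κ C0) (hS : C0 < S.card)
    {L : Fin d → ℂ} (hL : lf L b ≠ 0) : ∃ n ∈ S, lf L (N.emb (g n)) ≠ 0 := by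
  by_contra hc
  push Not at hc
  have := h.vg.zero (a4lp L) 1 (a4lp_deg L) (by rwa [a4lp_aeval]) S (Finset.Subset.refl _)
    fun n hn => by rw [a4lp_eval, hc n hn, mul_zero]
  omega

theorem a4_dg_pos (h : CurveCfg N p q μ e1 e2 S l1 l2 g x nn b κ C0) {L L' : Fin d → ℂ}
    (hL' : lf L' b ≠ 0) (hτ : Transcendental ℂ (lf L b / lf L' b)) :
    0 < dg (lf L b / lf L' b) (Kf x b) := by
  have i0 : Fin d := ⟨0, by have := N.four_le; omega⟩
  have := h.vg.dg_le (a4lp L) (a4lp L') 1 (a4lp_deg L) (a4lp_deg L') (by rwa [a4lp_aeval])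
    (by rwa [a4lp_aeval, a4lp_aeval]) (Kf x b) (a4_Kf_le_gens x nn b)
    (by rw [a4lp_aeval, a4lp_aeval]; exact a4_ratio_mem x h.bne i0 L L')
  rw [a4lp_aeval, a4lp_aeval] at this
  exact this.1

theorem a4_dg_x (h : CurveCfg N p q μ e1 e2 S l1 l2 g x nn b κ C0) (hx : Transcendental ℂ x) :
    0 < dg x (Kf x b) ∧ dg x (Kf x b) ≤ C0 := by
  have e : aeval (gens x nn b) (X (Sum.inl 0) : MvPolynomial (Fin 2 ⊕ Fin d) ℂ) /
      aeval (gens x nn b) (1 : MvPolynomial (Fin 2 ⊕ Fin d) ℂ) = x := by simp [gens]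
  have := h.vg.dg_le (X (Sum.inl 0)) 1 1 (by rw [totalDegree_X]) (by simp) (by simp)
    (by rwa [e]) (Kf x b) (a4_Kf_le_gens x nn b)
    (by rw [e]; exact IntermediateField.subset_adjoin _ _ (Or.inl rfl))
  rw [e, mul_one] at this
  exact this

theorem a4_step (h : CurveCfg N p q μ e1 e2 S l1 l2 g x nn b κ C0) (hκ : ∀ n ∈ S, κ n ≠ 0)
    (L : Fin 3 → Fin d → ℂ) (h2 : lf (L 2) b ≠ 0)
    (hτ : Transcendental ℂ (lf (L 1) b / lf (L 2) b)) {n : ℤ} (hn : n ∈ S)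
    (hn0 : lf (L 0) (N.emb (g n)) ≠ 0) (hn1 : lf (L 1) (N.emb (g n)) = 0)
    (hn2 : lf (L 2) (N.emb (g n)) = 0) :
    ∃ (e : ℕ) (P : MvPolynomial (Fin 3) ℂ) (s : ℂ), P.IsHomogeneous e ∧ P ≠ 0 ∧
      aeval (fun r => lf (L r) b) P = 0 ∧
      (∀ (e' : ℕ) (Ψ : MvPolynomial (Fin 3) ℂ), Ψ.IsHomogeneous e' →
        aeval (fun r => lf (L r) b) Ψ = 0 → P ∣ Ψ) ∧
      Transcendental ℂ (lf (L 1 + s • L 0) b / lf (L 2) b) ∧
      dg (lf (L 1) b / lf (L 2) b) (Kf x b) + 1 ≤ dg (lf (L 1 + s • L 0) b / lf (L 2) b) (Kf x b) ∧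
      e ≤ dg (lf (L 1 + s • L 0) b / lf (L 2) b) (Kf x b) ∧
      (Kf x b ≤ IntermediateField.adjoin ℂ {lf (L 1) b / lf (L 2) b, lf (L 0) b / lf (L 2) b} →
        dg (lf (L 1) b / lf (L 2) b) (Kf x b) + 1 ≤ e) := by
  have i0 : Fin d := ⟨0, by have := N.four_le; omega⟩
  obtain ⟨e, P, s, H⟩ := step (fun r => lf (L r) b) (Kf x b) h2 (a4_ratio_mem x h.bne i0 _ _)
    (a4_ratio_mem x h.bne i0 _ _) hτ (a4_dg_pos h h2 hτ) fun e Ψ hΨ h0 => by
      have h1 := a4_V h L Ψ h0 hn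
      have h3 : (fun r => κ n * lf (L r) (N.emb (g n))) = ![κ n * lf (L 0) (N.emb (g n)), 0, 0] := by
        funext r
        fin_cases r <;> simp [hn1, hn2]
      rw [h3, a4_hom_eval hΨ] at h1
      exact (mul_eq_zero.1 h1).resolve_left (pow_ne_zero _ (mul_ne_zero (hκ n hn) hn0))
  refine ⟨e, P, s, ?_⟩
  rw [a4_lf_add, a4_lf_smul]
  exact H

end

end Crest.Agent.R22
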