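import Crest.Agent.R22.Princ
import Crest.Agent.R22.Special
import Crest.Agent.R22.Fix
import Crest.Agent.R22.Alpha1
import Crest.Agent.R22.Alpha2
import Crest.Agent.R22.Alpha4Aux

namespace Crest.Agent.R22

variable {d : ℕ}

/-- coefficients of the `3 × 3` minor of `(Y, v, w)` on the coordinates `s, t, r` -/
def a4d (s t r : Fin 4) (v w : Fin 4 → ℤ) : Fin 4 → ℤ :=
  Pi.single r (minor v w s t) + Pi.single s (minor v w t r) + Pi.single t (minor v w r s)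

theorem a4d_sum (s t r : Fin 4) (v w : Fin 4 → ℤ) {R : Type} [CommRing R] (Y : Fin 4 → R) :
    ∑ u, (a4d s t r v w u : R) * Y u = Y r * (v s * w t - v t * w s) +
      Y s * (v t * w r - v r * w t) + Y t * (v r * w s - v s * w r) := by
  have h : ∀ (i : Fin 4) (m : ℤ), ∑ u, (((Pi.single i m : Fin 4 → ℤ) u : ℤ) : R) * Y u = Y i * m :=
    fun i m => by
      rw [Finset.sum_eq_single i]
      · rw [Pi.single_eq_same, mul_comm]
      · intro u _ hu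
        rw [Pi.single_eq_of_ne hu, Int.cast_zero, zero_mul]
      · simp
  simp only [a4d, Pi.add_apply, Int.cast_add, add_mul, Finset.sum_add_distrib, h, minor]
  push_cast
  ring

theorem a4d_int (s t r : Fin 4) (v w Y : Fin 4 → ℤ) :
    ∑ u, a4d s t r v w u * Y u = Y r * (v s * w t - v t * w s) +
      Y s * (v t * w r - v r * w t) + Y t * (v r * w s - v s * w r) :=
  a4d_sum s t r v w Y

theorem a4d_le (s t r : Fin 4) {v w z : Fin 4 → ℤ} {Y : ℝ} (hv : ∀ u, |(v u : ℝ)| ≤ Y)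
    (hw : ∀ u, |(w u : ℝ)| ≤ Y) (hz : ∀ u, |(z u : ℝ)| ≤ Y) :
    |((∑ u, a4d s t r v w u * z u : ℤ) : ℝ)| ≤ 24 * Y ^ 3 := by
  have hY : 0 ≤ Y := (abs_nonneg _).trans (hv 0)
  have h : ∀ i j k, |(z i : ℝ) * (v j * w k - v k * w j)| ≤ 2 * Y ^ 3 := fun i j k => by
    have h1 : ∀ j k, |(v j : ℝ) * w k| ≤ Y * Y := fun j k => by
      rw [abs_mul]; exact mul_le_mul (hv j) (hw k) (abs_nonneg _) hY
    have h2 : |(v j : ℝ) * w k - v k * w j| ≤ Y * Y + Y * Y :=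
      (abs_sub _ _).trans (add_le_add (h1 j k) (h1 k j))
    rw [abs_mul]
    refine (mul_le_mul (hz i) h2 (abs_nonneg _) hY).trans (le_of_eq (by ring))
  rw [a4d_int]
  push_cast
  have h1 := abs_le.1 (h r s t)
  have h2 := abs_le.1 (h s t r)
  have h3 := abs_le.1 (h t r s)
  have h4 : 0 ≤ Y ^ 3 := by positivity
  rw [abs_le]
  constructor <;> linarith [h1.1, h1.2, h2.1, h2.2, h3.1, h3.2]

/-- coefficients of the `2 × 2` minor of `(Y, v)` on the coordinates `s, t` -/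
def a4e (s t : Fin 4) (v : Fin 4 → ℤ) : Fin 4 → ℤ := Pi.single s (v t) + Pi.single t (-v s)

theorem a4e_int (s t : Fin 4) (v Y : Fin 4 → ℤ) : ∑ u, a4e s t v u * Y u = minor Y v s t := by
  simp only [a4e, Pi.add_apply, add_mul, Finset.sum_add_distrib, Pi.single_apply, ite_mul,
    zero_mul, Finset.sum_ite_eq', Finset.mem_univ, if_true, minor]
  ring

section

variable {Ω : Type} [Field Ω] [Algebra ℂ Ω] {N : NF 4} {μ : ℤ} {e1 e2 : Fin 4 → ℤ} {S : Finset ℤ}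
  {l1 l2 : ℤ → ℤ} {g : ℤ → Fin 4 → ℤ} {x nn : Ω} {b : Fin 4 → Ω} {κ : ℤ → ℂ} {C0 : ℕ} {Y : ℝ}

/-- a linear projection of degree at least four -/
def a4Fin (x : Ω) (b : Fin 4 → Ω) : Prop :=
  ∃ L L' : Fin 4 → ℂ, lf L' b ≠ 0 ∧ Transcendental ℂ (lf L b / lf L' b) ∧
    4 ≤ dg (lf L b / lf L' b) (Kf x b)

theorem a4_rat (x nn : Ω) (κ : ℤ → ℂ) (M M' : Fin 4 → ℤ)
    (hY : ∀ n ∈ S, |((∑ s, M s * g n s : ℤ) : ℝ)| ≤ Y ∧ |((∑ s, M' s * g n s : ℤ) : ℝ)| ≤ Y)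
    (h0 : lf (a4L N M') b ≠ 0)
    (h : Kf x b ≤ IntermediateField.adjoin ℂ {lf (a4L N M) b / lf (a4L N M') b}) :
    IsRat N S l1 l2 g x nn b κ 1 Y := by
  rw [a4L_lf] at h0
  rw [a4L_lf, a4L_lf] at h
  exact isRat_of_forms x nn b κ M M' Y hY h0 h

theorem a4_caseA (h : CurveCfg N 2 1 μ e1 e2 S l1 l2 g x nn b κ C0) (hκ : ∀ n ∈ S, κ n ≠ 0)
    {n0 n1 : ℤ} (hn0 : n0 ∈ S) (hn1 : n1 ∈ S) {s t : Fin 4} (hst : minor (g n0) (g n1) s t ≠ 0)
    (M M' : Fin 4 → ℤ)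
    (hY : ∀ n ∈ S, |((∑ s, M s * g n s : ℤ) : ℝ)| ≤ Y ∧ |((∑ s, M' s * g n s : ℤ) : ℝ)| ≤ Y)
    (hM0 : ∑ s, M s * g n0 s = 0) (hM1 : ∑ s, M s * g n1 s = 0)
    (hM0' : ∑ s, M' s * g n0 s = 0) (hM1' : ∑ s, M' s * g n1 s = 0)
    (h0 : lf (a4L N M') b ≠ 0) (hτ : Transcendental ℂ (lf (a4L N M) b / lf (a4L N M') b)) :
    IsRat N S l1 l2 g x nn b κ 1 Y ∨ a4Fin x b := by
  have hpos := a4_dg_pos h h0 hτ
  by_cases h1 : dg (lf (a4L N M) b / lf (a4L N M') b) (Kf x b) = 1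
  · exact Or.inl (a4_rat x nn κ M M' hY h0 (IntermediateField.relfinrank_eq_one_iff.1 h1))
  right
  obtain ⟨-, -, c1, -, -, -, -, ht1, hd1, -, -⟩ := a4_step h hκ
    ![a4L N (a4e s t (g n0)), a4L N M, a4L N M'] h0 hτ hn1
    (by
      show lf (a4L N (a4e s t (g n0))) _ ≠ 0
      rw [a4L_emb, a4e_int]
      have : minor (g n1) (g n0) s t ≠ 0 := fun h0 => hst (by unfold minor at h0 ⊢; linarith)
      exact_mod_cast this)
    (by show lf (a4L N M) _ = 0; rw [a4L_emb, hM1, Int.cast_zero])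
    (by show lf (a4L N M') _ = 0; rw [a4L_emb, hM1', Int.cast_zero])
  obtain ⟨-, -, c2, -, -, -, -, ht2, hd2, -, -⟩ := a4_step h hκ
    ![a4L N (a4e s t (g n1)), a4L N M + c1 • a4L N (a4e s t (g n0)), a4L N M'] h0 ht1 hn0
    (by
      show lf (a4L N (a4e s t (g n1))) _ ≠ 0
      rw [a4L_emb, a4e_int]
      exact_mod_cast hst)
    (by
      show lf (a4L N M + c1 • a4L N (a4e s t (g n0))) _ = 0
      rw [a4_lf_add, a4_lf_smul, a4L_emb, a4L_emb, hM0, a4e_int]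
      simp [minor, mul_comm])
    (by show lf (a4L N M') _ = 0; rw [a4L_emb, hM0', Int.cast_zero])
  refine ⟨_, _, h0, ht2, ?_⟩
  have e1 : dg (lf (a4L N M) b / lf (a4L N M') b) (Kf x b) + 1 ≤
      dg (lf (a4L N M + c1 • a4L N (a4e s t (g n0))) b / lf (a4L N M') b) (Kf x b) := hd1
  have e2 : dg (lf (a4L N M + c1 • a4L N (a4e s t (g n0))) b / lf (a4L N M') b) (Kf x b) + 1 ≤ _ :=
    hd2
  exact le_trans (by omega) e2

theorem a4_caseB1 (h : CurveCfg N 2 1 μ e1 e2 S l1 l2 g x nn b κ C0) (hκ : ∀ n ∈ S, κ n ≠ 0)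
    (hx : x ∈ IntermediateField.adjoin ℂ {z | ∃ i j, z = b i / b j}) (hY1 : 1 ≤ Y)
    (hY : ∀ n ∈ S, ∀ u, |(g n u : ℝ)| ≤ Y)
    {n0 n1 : ℤ} (hn0 : n0 ∈ S) (hn1 : n1 ∈ S) {s t : Fin 4} (hst : minor (g n0) (g n1) s t ≠ 0)
    (h0 : ∀ r, lf (a4L N (a4d s t r (g n0) (g n1))) b = 0) :
    IsRat N S l1 l2 g x nn b κ 1 (24 * Y ^ 3) := by
  have : CharZero Ω := charZero_of_injective_algebraMap (algebraMap ℂ Ω).injective
  have hs : ∀ (i : Fin 4) (z : Fin 4 → ℤ), ∑ u, (Pi.single i 1 : Fin 4 → ℤ) u * z u = z i :=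
    fun i z => by simp [Pi.single_apply]
  have hl : ∀ i : Fin 4, lf (a4L N (Pi.single i 1)) b = N.co b i := fun i => by
    rw [a4L_lf]; simp [Pi.single_apply]
  have hYY : Y ≤ 24 * Y ^ 3 := by nlinarith [pow_le_pow_right₀ hY1 (show 1 ≤ 3 by norm_num)]
  have ht : lf (a4L N (Pi.single t 1)) b ≠ 0 := fun h1 => by
    have a0 := a4_V1 h hκ h1 hn0
    have a1 := a4_V1 h hκ h1 hn1
    rw [a4L_emb, hs, Int.cast_eq_zero] at a0 a1
    exact hst (by rw [minor, a0, a1]; ring)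
  refine a4_rat x nn κ (Pi.single s 1) (Pi.single t 1)
    (fun n hn => by rw [hs, hs]; exact ⟨(hY n hn s).trans hYY, (hY n hn t).trans hYY⟩) ht ?_
  rw [hl] at ht
  rw [hl, hl]
  refine a4_Kf_le N hx _ ht fun r => ?_
  have h1 := h0 r
  rw [a4L_lf, a4d_sum] at h1
  have hδ : ((g n0 s : Ω) * g n1 t - g n0 t * g n1 s) ≠ 0 := by exact_mod_cast hst
  have h2 : N.co b r / N.co b t =
      -(N.co b s / N.co b t * ((g n0 t * g n1 r - g n0 r * g n1 t : ℤ) : Ω) +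
        ((g n0 r * g n1 s - g n0 s * g n1 r : ℤ) : Ω)) /
        ((g n0 s * g n1 t - g n0 t * g n1 s : ℤ) : Ω) := by
    push_cast
    rw [eq_div_iff hδ]
    field_simp
    linear_combination h1
  rw [h2]
  exact div_mem (neg_mem (add_mem (mul_mem (IntermediateField.mem_adjoin_simple_self _ _)
    (intCast_mem _ _)) (intCast_mem _ _))) (intCast_mem _ _)

theorem a4_caseB2 {Sp : Prop} (h : CurveCfg N 2 1 μ e1 e2 S l1 l2 g x nn b κ C0)
    (hκ : ∀ n ∈ S, κ n ≠ 0)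
    (hx : x ∈ IntermediateField.adjoin ℂ {z | ∃ i j, z = b i / b j})
    (hY : ∀ n ∈ S, ∀ u, |(g n u : ℝ)| ≤ Y)
    (hSp : ∀ (β : Fin 3 → Fin 4 → ℤ) (M : Fin 3 → Fin 4 → ℂ) (δ : ℤ) (φ : Fin 3 → ℤ → ℤ), δ ≠ 0 →
      LinearIndependent ℤ β → (∀ s, N.co b s = ∑ r, (β r s : Ω) * lf (M r) b) →
      (∀ n ∈ S, ∀ r, (δ : ℂ) * lf (M r) (N.emb (g n)) = φ r n) →
      ∀ P : MvPolynomial (Fin 3) ℂ, P.IsHomogeneous 3 → P ≠ 0 →
      MvPolynomial.aeval (fun r => lf (M r) b) P = 0 →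
      (∀ (e' : ℕ) (Ψ : MvPolynomial (Fin 3) ℂ), Ψ.IsHomogeneous e' →
        MvPolynomial.aeval (fun r => lf (M r) b) Ψ = 0 → P ∣ Ψ) → (∀ n ∈ S, κ n ≠ 0) → Sp)
    {n0 n1 n2 : ℤ} (hn0 : n0 ∈ S) (hn1 : n1 ∈ S) (hn2 : n2 ∈ S) {s t r1 r2 : Fin 4}
    (hcov : ∀ u, u = s ∨ u = t ∨ u = r1 ∨ u = r2) (hst : minor (g n0) (g n1) s t ≠ 0)
    (hδ : ∑ u, a4d s t r1 (g n0) (g n1) u * g n2 u ≠ 0)
    (hrel : ((∑ u, a4d s t r2 (g n0) (g n1) u * g n2 u : ℤ) : Ω) *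
        lf (a4L N (a4d s t r1 (g n0) (g n1))) b =
      ((∑ u, a4d s t r1 (g n0) (g n1) u * g n2 u : ℤ) : Ω) *
        lf (a4L N (a4d s t r2 (g n0) (g n1))) b) :
    IsRat N S l1 l2 g x nn b κ 1 (24 * Y ^ 3) ∨ a4Fin x b ∨ Sp := by
  have : CharZero Ω := charZero_of_injective_algebraMap (algebraMap ℂ Ω).injective
  obtain ⟨δ, hδd⟩ : ∃ δ, δ = ∑ u, a4d s t r1 (g n0) (g n1) u * g n2 u := ⟨_, rfl⟩
  rw [← hδd] at hδ hrel
  let β : Fin 3 → Fin 4 → ℤ := ![g n0, g n1, g n2]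
  let F : Fin 3 → Fin 4 → ℤ :=
    ![a4d s t r1 (g n1) (g n2), a4d s t r1 (g n2) (g n0), a4d s t r1 (g n0) (g n1)]
  let M : Fin 3 → Fin 4 → ℂ := fun r => (δ : ℂ)⁻¹ • a4L N (F r)
  have hδC : (δ : ℂ) ≠ 0 := by exact_mod_cast hδ
  have hδΩ : (δ : Ω) ≠ 0 := by exact_mod_cast hδ
  have hFβ : ∀ i j, ∑ u, F j u * β i u = if i = j then δ else 0 := by
    intro i j
    rw [hδd]
    fin_cases i <;> fin_cases j <;> simp [F, β, a4d_int] <;> ring
  have hMp : ∀ (z : Fin 4 → ℤ) r, (δ : ℂ) * lf (M r) (N.emb z) = ((∑ u, F r u * z u : ℤ) : ℂ) :=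
    fun z r => by
      rw [a4_lf_smul, a4L_emb, ← mul_assoc]
      simp [hδC]
  have hMβ : ∀ i j, lf (M j) (N.emb (β i)) = if i = j then 1 else 0 := fun i j => by
    have h1 := hMp (β i) j
    rw [hFβ] at h1
    apply mul_left_cancel₀ hδC
    rw [h1]
    split_ifs <;> simp
  have hMb : ∀ r, lf (M r) b = lf (a4L N (F r)) b / (δ : Ω) := fun r => by
    rw [a4_lf_smul, map_inv₀, map_intCast, div_eq_inv_mul]
  have hco : ∀ u, N.co b u = ∑ r, (β r u : Ω) * lf (M r) b := by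
    intro u
    have hδ' : (δ : Ω) = g n2 r1 * (g n0 s * g n1 t - g n0 t * g n1 s) +
        g n2 s * (g n0 t * g n1 r1 - g n0 r1 * g n1 t) +
        g n2 t * (g n0 r1 * g n1 s - g n0 s * g n1 r1) := by
      rw [hδd, a4d_int]; push_cast; ring
    have hδ2 : ((g n0 s : Ω) * g n1 t - g n0 t * g n1 s) ≠ 0 := by exact_mod_cast hst
    rw [a4d_int, a4L_lf, a4L_lf, a4d_sum, a4d_sum] at hrel
    push_cast at hrel
    simp only [Fin.sum_univ_three, hMb, F, β, a4L_lf, a4d_sum, Matrix.cons_val_zero,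
      Matrix.cons_val_one, Matrix.cons_val_two, Matrix.tail_cons, Matrix.head_cons]
    rw [← mul_div_assoc, ← mul_div_assoc, ← mul_div_assoc, ← add_div, ← add_div,
      eq_div_iff hδΩ]
    rcases hcov u with rfl | rfl | rfl | rfl
    · rw [hδ']; ring
    · rw [hδ']; ring
    · rw [hδ']; ring
    · apply mul_left_cancel₀ hδ2
      rw [hδ'] at hrel ⊢
      linear_combination -hrel
  have h2 : lf (M 2) b ≠ 0 := fun h0 => by
    have h1 := a4_V1 h hκ h0 hn2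
    have h3 := hMβ 2 2
    rw [if_pos rfl] at h3
    exact one_ne_zero (h3.symm.trans h1)
  have hτ : Transcendental ℂ (lf (M 1) b / lf (M 2) b) := by
    by_contra hc
    obtain ⟨c, hc⟩ := a4_alg hc
    have h0 : lf (M 1 + (-c) • M 2) b = 0 := by
      rw [a4_lf_add, a4_lf_smul (-c), map_neg, ← hc]
      field_simp
      ring
    have h1 := a4_V1 h hκ h0 hn1
    have h3 := hMβ 1 1
    have h4 := hMβ 1 2
    rw [if_pos rfl] at h3
    rw [if_neg (by decide)] at h4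
    rw [a4_lf_add, a4_lf_smul (-c)] at h1
    have h3' : lf (M 1) (N.emb (g n1)) = 1 := h3
    have h4' : lf (M 2) (N.emb (g n1)) = 0 := h4
    rw [h3', h4'] at h1
    simp at h1
  have hpos := a4_dg_pos h h2 hτ
  by_cases h1 : dg (lf (M 1) b / lf (M 2) b) (Kf x b) = 1
  · left
    have hle := IntermediateField.relfinrank_eq_one_iff.1 h1
    rw [hMb, hMb, div_div_div_cancel_right₀ hδΩ] at hle
    refine a4_rat x nn κ (F 1) (F 2) (fun n hn => ⟨a4d_le s t r1 (hY _ hn2) (hY _ hn0) (hY _ hn),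
      a4d_le s t r1 (hY _ hn0) (hY _ hn1) (hY _ hn)⟩) (fun h0 => h2 ?_) hle
    rw [hMb, h0, zero_div]
  right
  obtain ⟨e, P, c, hP, hP0, hPf, hdiv, ht, -, hd, hK⟩ := a4_step h hκ M h2 hτ hn0
    (by have := hMβ 0 0; rw [if_pos rfl] at this; exact fun h0 => one_ne_zero (this.symm.trans h0))
    (by have := hMβ 0 1; rw [if_neg (by decide)] at this; exact this)
    (by have := hMβ 0 2; rw [if_neg (by decide)] at this; exact this)
  have he := hK (a4_Kf_le N hx _ h2 fun u => by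
    have e0 : N.co b u / lf (M 2) b = (β 0 u : Ω) * (lf (M 0) b / lf (M 2) b) +
        (β 1 u : Ω) * (lf (M 1) b / lf (M 2) b) + (β 2 u : Ω) := by
      rw [hco u, Fin.sum_univ_three]
      field_simp
    rw [e0]
    exact add_mem (add_mem
      (mul_mem (intCast_mem _ _) (IntermediateField.subset_adjoin _ _ (Or.inr rfl)))
      (mul_mem (intCast_mem _ _) (IntermediateField.subset_adjoin _ _ (Or.inl rfl))))
      (intCast_mem _ _))
  by_cases he3 : e = 3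
  · right
    subst he3
    refine hSp β M δ (fun r n => ∑ u, F r u * g n u) hδ ?_ hco (fun n _ r => hMp _ r) P hP hP0 hPf
      hdiv hκ
    rw [Fintype.linearIndependent_iff]
    intro a ha j
    have h3 : ∑ u, F j u * (∑ i, a i • β i) u = a j * δ := by
      simp only [Finset.sum_apply, Pi.smul_apply, smul_eq_mul, Finset.mul_sum]
      rw [Finset.sum_comm]
      have : ∀ i, ∑ u, F j u * (a i * β i u) = a i * if i = j then δ else 0 := fun i => by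
        rw [← hFβ, Finset.mul_sum]
        exact Finset.sum_congr rfl fun u _ => by ring
      simp [this]
    rw [ha] at h3
    simp only [Pi.zero_apply, mul_zero, Finset.sum_const_zero] at h3
    exact (mul_eq_zero.1 h3.symm).resolve_right hδ
  · exact Or.inl ⟨_, _, h2, ht, by omega⟩

end

/-- `d = 4`: degrees `(2, 4)` off the special lines.  As in `alpha_deg`, assume `dg x K ≥ 2` and `K` generated by
the ratios.  Fix two points with vectors `β0, β1` (not parallel) and the four forms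
`M^(r) = det (Y, β0, β1, unit r)`, which span the plane of forms vanishing at both.  (A) Two of them give a
transcendental `τ`: `dg τ K = 1` is rational; otherwise apply `step` twice: first with `f 0` a form vanishing
at `β0` but not at `β1` (point `n1`), then with `f 0 = Y s0` (point `n0`; the new numerator and denominator
still vanish at `n0`); `dg z K ≥ 4`.  (B) Otherwise there is a nonzero form `W` in that plane with
`W(b) = 0`.  If all `M^(r)(b) = 0` then `Y = u β0 + v β1` with `u, v` quotients of `2 × 2` minors: rational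
(or constant ratios).  Else at most `C0` points lie in the span of `β0, β1` (`VG.zero`); take `β2` outside.  By
(V) `W` vanishes at `β0, β1, β2`, so `W` is a multiple of `det (Y, β0, β1, β2)` and `Y = ∑ f r β r` with `f r`
quotients of `3 × 3` minors by `δ ≠ 0`.  (V) at the three points shows that the `f r` are independent; so
`τ = f 1 / f 2` is transcendental and `K = ℂ(f 1 / f 2, f 0 / f 2)`.  `dg τ K = 1` is rational; otherwise
`step` gives `e ≥ 3`; `e ≥ 4` gives `HL`, `e = 3` gives `special_of_cubic`. -/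
theorem alpha_deg4 (N : NF 4) : ∃ 𝒮 : Finset ℂ, ∀ C0 : ℕ, ∃ CH : ℕ, ∀ (c X s1 s2 : ℝ) (μ : ℤ)
    (e1 e2 : Fin 4 → ℤ) (S : Finset ℤ) (l1 l2 : ℤ → ℤ) (g : ℤ → Fin 4 → ℤ),
    LineCfg N 2 1 c X s1 s2 μ e1 e2 S l1 l2 g →
    ∀ (Ω : Type) [Field Ω] [Algebra ℂ Ω] (x nn : Ω) (b : Fin 4 → Ω) (κ : ℤ → ℂ),
    CurveCfg N 2 1 μ e1 e2 S l1 l2 g x nn b κ C0 → Transcendental ℂ x →
    (∀ n ∈ S, ∀ n' ∈ S, n ≠ n' → g n ≠ g n' ∧ g n ≠ -g n') →
    ∀ Y : ℝ, 1 ≤ Y → X ^ s1 ≤ Y → X ^ s2 ≤ Y →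
    S.card ≤ CH ∨ IsRat N S l1 l2 g x nn b κ 1 (24 * Y ^ 3) ∨ HL x b 2 4 CH ∨
      Special N 𝒮 e1 e2 := by
  obtain ⟨𝒮, h𝒮⟩ := N.special_of_cubic
  refine ⟨𝒮, fun C0 => ?_⟩
  obtain ⟨CH, hCH⟩ := HL_of_dg 4 2 4 C0
  refine ⟨CH + 3 * C0 + 1, ?_⟩
  intro c X s1 s2 μ e1 e2 S l1 l2 g hL Ω _ _ x nn b κ h hx hdist Y hY1 hY2 hY3
  by_cases hS : S.card ≤ CH + 3 * C0 + 1
  · exact Or.inl hS
  right
  have : CharZero Ω := charZero_of_injective_algebraMap (algebraMap ℂ Ω).injective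
  have hYY : Y ≤ 24 * Y ^ 3 := by nlinarith [pow_le_pow_right₀ hY1 (show 1 ≤ 3 by norm_num)]
  obtain ⟨hx0, hxC⟩ := a4_dg_x h hx
  by_cases hx1 : dg x (Kf x b) = 1
  · exact Or.inl (isRat_of_dg_x hL x nn b κ 1 le_rfl _ (hY2.trans hYY)
      (IntermediateField.relfinrank_eq_one_iff.1 hx1))
  have hκ : ∀ n ∈ S, κ n ≠ 0 := fun n hn h0 => by
    have h1 := h.kap n hn
    rw [h0, pow_one, zero_pow two_ne_zero, zero_mul] at h1
    exact hL.l2_ne n hn (by exact_mod_cast h1.symm)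
  have hY : ∀ n ∈ S, ∀ u, |(g n u : ℝ)| ≤ Y := fun n hn u => by
    have h1 := norm_le_pi_norm (g n) u
    rw [Int.norm_eq_abs] at h1
    exact h1.trans ((hL.sz2 n hn).trans hY3)
  rcases h.rel.x_mem (by norm_num) hL.e1ne hL.nd h.bne with hxm | hc
  swap
  · have := h.card_le_one_of_const hL (by norm_num) hdist hc
    omega
  suffices H : IsRat N S l1 l2 g x nn b κ 1 (24 * Y ^ 3) ∨ a4Fin x b ∨ Special N 𝒮 e1 e2 by
    rcases H with H | ⟨L, L', hL', hτ, hd⟩ | H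
    · exact Or.inl H
    · exact Or.inr (Or.inl (a4_HL_mono
        (hCH x b L L' h.bne hL' hx hτ hx0 hxC (by omega) (by omega) hd) (by omega)))
    · exact Or.inr (Or.inr H)
  have hSp := h𝒮 C0 μ e1 e2 S l1 l2 g Ω x nn b κ h hL.nd (by omega)
  obtain ⟨n0, hn0, n1, hn1, hne⟩ := Finset.one_lt_card.1 (show 1 < S.card by omega)
  obtain ⟨s, t, hst⟩ : ∃ s t, minor (g n0) (g n1) s t ≠ 0 := by
    by_contra hc
    push Not at hc
    rcases (hL.prim n0 hn0).eq_or_eq_neg (hL.prim n1 hn1) hc with h1 | h1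
    · exact (hdist n0 hn0 n1 hn1 hne).1 h1
    · exact (hdist n0 hn0 n1 hn1 hne).2 h1
  have hst' : s ≠ t := by
    rintro rfl
    exact hst (by simp [minor])
  obtain ⟨r1, r2, hcov⟩ : ∃ r1 r2 : Fin 4, ∀ u, u = s ∨ u = t ∨ u = r1 ∨ u = r2 := by
    revert hst'
    generalize s = s
    generalize t = t
    revert s t
    decide
  have hv0 : ∀ r, ∑ u, a4d s t r (g n0) (g n1) u * g n0 u = 0 := fun r => by
    rw [a4d_int]; ring
  have hv1 : ∀ r, ∑ u, a4d s t r (g n0) (g n1) u * g n1 u = 0 := fun r => by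
    rw [a4d_int]; ring
  have hbd : ∀ r, ∀ n ∈ S, |((∑ u, a4d s t r (g n0) (g n1) u * g n u : ℤ) : ℝ)| ≤ 24 * Y ^ 3 :=
    fun r n hn => a4d_le s t r (hY _ hn0) (hY _ hn1) (hY _ hn)
  -- the symmetric core: the first form is nonzero
  have core : ∀ r1 r2 : Fin 4, (∀ u, u = s ∨ u = t ∨ u = r1 ∨ u = r2) →
      lf (a4L N (a4d s t r1 (g n0) (g n1))) b ≠ 0 →
      IsRat N S l1 l2 g x nn b κ 1 (24 * Y ^ 3) ∨ a4Fin x b ∨ Special N 𝒮 e1 e2 := by
    intro r1 r2 hcov hA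
    by_cases hτ : Transcendental ℂ (lf (a4L N (a4d s t r2 (g n0) (g n1))) b /
        lf (a4L N (a4d s t r1 (g n0) (g n1))) b)
    · rcases a4_caseA h hκ hn0 hn1 hst _ _ (fun n hn => ⟨hbd r2 n hn, hbd r1 n hn⟩)
        (hv0 r2) (hv1 r2) (hv0 r1) (hv1 r1) hA hτ with H | H
      · exact Or.inl H
      · exact Or.inr (Or.inl H)
    obtain ⟨a, ha⟩ := a4_alg hτ
    obtain ⟨n2, hn2, hδ⟩ := a4_exists_pt h (by omega) hA
    rw [div_eq_iff hA] at ha
    have h0 : lf (a4L N (a4d s t r2 (g n0) (g n1)) + (-a) • a4L N (a4d s t r1 (g n0) (g n1))) b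
        = 0 := by
      rw [a4_lf_add, a4_lf_smul, ha, map_neg]; ring
    have h1 := a4_V1 h hκ h0 hn2
    rw [a4_lf_add, a4_lf_smul, a4L_emb, a4L_emb] at h1
    rw [a4L_emb] at hδ
    refine a4_caseB2 h hκ hxm hY hSp hn0 hn1 hn2 hcov hst (by exact_mod_cast hδ) ?_
    have h2 := congrArg (algebraMap ℂ Ω) h1
    rw [map_add, map_mul, map_intCast, map_intCast, map_zero, Algebra.algebraMap_self_apply,
      map_neg] at h2
    rw [ha]
    linear_combination (lf (a4L N (a4d s t r1 (g n0) (g n1))) b) * h2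
  by_cases hA : lf (a4L N (a4d s t r1 (g n0) (g n1))) b = 0
  swap
  · exact core r1 r2 hcov hA
  by_cases hB : lf (a4L N (a4d s t r2 (g n0) (g n1))) b = 0
  swap
  · exact core r2 r1 (fun u => by rcases hcov u with h | h | h | h <;> simp [h]) hB
  refine Or.inl (a4_caseB1 h hκ hxm hY1 hY hn0 hn1 hst fun r => ?_)
  rcases hcov r with rfl | rfl | rfl | rfl
  · rw [a4L_lf, a4d_sum]; ring
  · rw [a4L_lf, a4d_sum]; ring
  · exact hA
  · exact hB

end Crest.Agent.R22
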