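import Crest.Agent.R22.Fix

namespace Crest.Agent.R22

open Polynomial

variable {d : ℕ}

/-- Formal `p`-th roots: for `P ∈ ℂ[U]` with `P(0) = 1` there is `B` with `B(0) = 1` and
`B^p P ≡ 1 (mod U^M)`, `deg B < M` or `B = 1` (induction on `M`: add `c U^M`, `c = - (error) / p`). -/
theorem exists_formal_root (p M : ℕ) (hp : 1 ≤ p) (P : ℂ[X]) (hP : P.eval 0 = 1) :
    ∃ B : ℂ[X], B.eval 0 = 1 ∧ B.natDegree ≤ M ∧ X ^ M ∣ B ^ p * P - 1 := by
  have key : ∀ M : ℕ, ∃ B : ℂ[X], B.eval 0 = 1 ∧ B.natDegree ≤ M ∧ X ^ (M + 1) ∣ B ^ p * P - 1 := by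
    intro M
    induction M with
    | zero => exact ⟨1, by simp, by simp, by simp [X_dvd_iff, coeff_zero_eq_eval_zero, hP]⟩
    | succ M ih =>
      obtain ⟨B, h0, h1, R, h2⟩ := ih
      obtain ⟨k, hk⟩ := powAddExpansion B (C (-R.eval 0 / p) * X ^ (M + 1)) p
      have h3 : (p : ℂ) ≠ 0 := Nat.cast_ne_zero.2 (by omega)
      obtain ⟨S, hS⟩ : X ∣ R + (p : ℂ[X]) * B ^ (p - 1) * C (-R.eval 0 / p) * P := by
        simp only [X_dvd_iff, coeff_zero_eq_eval_zero, eval_add, eval_mul, eval_natCast, eval_pow,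
          eval_C, h0, hP]
        field_simp
        ring
      refine ⟨B + C (-R.eval 0 / p) * X ^ (M + 1), by simp [h0], natDegree_add_le_of_degree_le
        (h1.trans M.le_succ) (natDegree_C_mul_X_pow_le _ _),
        S + k * C (-R.eval 0 / p) ^ 2 * X ^ M * P, ?_⟩
      rw [hk]
      linear_combination h2 + X ^ (M + 1) * hS
  obtain ⟨B, h0, h1, h2⟩ := key M
  exact ⟨B, h0, h1, (pow_dvd_pow _ M.le_succ).trans h2⟩

/-- Rescaling the variables of a polynomial. -/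
theorem appr1_scale (Q0 : MvPolynomial (Fin 2) ℂ) (K : ℝ) (s : Fin 2 → ℂ) (hs : ∀ i, ‖s i‖ ≤ K) :
    ∃ Q : MvPolynomial (Fin 2) ℂ, Q.totalDegree ≤ Q0.totalDegree ∧
      ∑ e ∈ Q.support, ‖Q.coeff e‖ ≤ ∑ e ∈ Q0.support, ‖Q0.coeff e‖ * ∏ i, K ^ e i ∧
      ∀ v, MvPolynomial.eval v Q = MvPolynomial.eval (fun i => s i * v i) Q0 := by
  classical
  let Q : MvPolynomial (Fin 2) ℂ :=
    ∑ e ∈ Q0.support, MvPolynomial.monomial e (Q0.coeff e * ∏ i, s i ^ e i)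
  have h1 : ∀ e, Q.coeff e = Q0.coeff e * ∏ i, s i ^ e i := fun e => by
    simp only [Q, MvPolynomial.coeff_sum, MvPolynomial.coeff_monomial, Finset.sum_ite_eq',
      MvPolynomial.mem_support_iff, ne_eq, ite_not]
    split_ifs with h
    · rw [h, zero_mul]
    · rfl
  have h2 : Q.support ⊆ Q0.support := fun e he => by
    rw [MvPolynomial.mem_support_iff] at he ⊢
    exact left_ne_zero_of_mul (h1 e ▸ he)
  refine ⟨Q, MvPolynomial.totalDegree_le_of_support_subset h2,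
    (Finset.sum_le_sum_of_subset_of_nonneg h2 fun _ _ _ => norm_nonneg _).trans
      (Finset.sum_le_sum fun e _ => ?_), fun v => ?_⟩
  · rw [h1, norm_mul, norm_prod]
    gcongr with i
    rw [norm_pow]
    gcongr
    exact hs i
  · simp only [Q, map_sum, MvPolynomial.eval_monomial, MvPolynomial.eval_eq' _ Q0, Finsupp.prod_pow,
      mul_pow, Finset.prod_mul_distrib, mul_assoc]

/-- The local statement. -/
theorem appr1_local (p q M : ℕ) (hp : 1 ≤ p) : ∃ (B1 B2 : ℂ[X]) (δ C : ℝ), 0 < δ ∧ 0 ≤ C ∧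
    ∀ y a b : ℂ, ‖y - 1‖ < δ → ‖a‖ < δ → ‖b‖ < δ → y ^ p * (1 + a) ^ q = 1 - b →
      ‖y - B1.eval a * B2.eval b‖ ≤ C * (‖a‖ ^ M + ‖b‖ ^ M) := by
  obtain ⟨B1, e1, -, R1, h1⟩ := exists_formal_root p M hp ((1 + X) ^ q) (by simp)
  obtain ⟨B2, e2, -, R2, h2⟩ := exists_formal_root p M hp ((1 - X) ^ (p - 1)) (by simp)
  let G : ℂ × ℂ × ℂ → ℂ := fun z => (∑ i ∈ Finset.range p,
    z.1 ^ i * (B1.eval z.2.1 * (B2 * (1 - X)).eval z.2.2) ^ (p - 1 - i)) * (1 + z.2.1) ^ q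
  let H : ℂ × ℂ × ℂ → ℝ := fun z => ‖(1 - z.2.2) * R1.eval z.2.1 * (1 + z.2.2 ^ M * R2.eval z.2.2)‖ +
    ‖(1 - z.2.2) * R2.eval z.2.2‖
  have hG : Continuous fun z => ‖G z‖ := by fun_prop
  have hH : Continuous H := by fun_prop
  have hG0 : 1 / 2 < ‖G (1, 0, 0)‖ := by
    have : (1 : ℝ) ≤ p := by exact_mod_cast hp
    simp only [G, eval_mul, e1, e2, eval_sub, eval_one, eval_X, sub_zero, add_zero, one_pow, mul_one,
      Finset.sum_const, Finset.card_range, nsmul_eq_mul, Complex.norm_natCast]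
    linarith
  obtain ⟨δ, hδ, h⟩ := Metric.eventually_nhds_iff.1
    ((hG.continuousAt.eventually (lt_mem_nhds hG0)).and
      (hH.continuousAt.eventually (gt_mem_nhds (lt_add_one (H (1, 0, 0))))))
  refine ⟨B1, B2 * (1 - X), δ, 2 * (H (1, 0, 0) + 1), hδ, by positivity, fun y a b hy ha hb e => ?_⟩
  obtain ⟨h3, h4⟩ := h (y := (y, a, b)) (by simp [dist_eq_norm, hy, ha, hb])
  have h5 : (y - B1.eval a * (B2 * (1 - X)).eval b) * G (y, a, b) =
      -(a ^ M * ((1 - b) * R1.eval a * (1 + b ^ M * R2.eval b)) + b ^ M * ((1 - b) * R2.eval b)) := by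
    have f1 := congrArg (eval a) h1
    have f2 := congrArg (eval b) h2
    have f3 : (1 - b) ^ p = (1 - b) ^ (p - 1) * (1 - b) := (pow_sub_one_mul (by omega) _).symm
    simp only [eval_sub, eval_mul, eval_pow, eval_add, eval_one, eval_X] at f1 f2
    simp only [G]
    rw [← mul_assoc, mul_comm (y - _), (Commute.all _ _).geom_sum₂_mul]
    simp only [eval_mul, eval_sub, eval_one, eval_X, mul_pow, f3]
    linear_combination e - (1 - b) * (B2.eval b ^ p * (1 - b) ^ (p - 1)) * f1 -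
      (1 - b) * (1 + a ^ M * R1.eval a) * f2
  have h6 := congrArg norm h5
  rw [norm_mul, norm_neg] at h6
  have h7 := norm_add_le (a ^ M * ((1 - b) * R1.eval a * (1 + b ^ M * R2.eval b)))
    (b ^ M * ((1 - b) * R2.eval b))
  rw [norm_mul (a ^ M), norm_mul (b ^ M), norm_pow, norm_pow, ← h6] at h7
  simp only [H] at h4 ⊢
  nlinarith [norm_nonneg (y - B1.eval a * (B2 * (1 - X)).eval b), pow_nonneg (norm_nonneg a) M,
    pow_nonneg (norm_nonneg b) M, norm_nonneg ((1 - b) * R1.eval a * (1 + b ^ M * R2.eval b)),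
    norm_nonneg ((1 - b) * R2.eval b)]

/-- Approximation of one conjugate.  Let `B1^p (1 + U)^q ≡ 1` and `B2^p (1 - U)^(p-1) ≡ 1`
(so `(B2 (1 - U))^p ≡ 1 - U`) modulo `U^M` with `m M ≥ T`, `M ≥ T`, and
`Q = B1(A u) * B2(θ ε) * (1 - θ ε)`, a polynomial in `(u, ε)` of bounded degree and `ℓ¹`-norm.  For `X` large
`Q(u, ε) = 1 + O(X^(-m))`, and `(y / Q)^p = 1 + O(X^(-T))`; by `exists_root_near` `y / Q` is within
`O(X^(-T))` of a root of unity `ζ`; since `y / Q = 1 + O(X^(-m))` and distinct `p`-th roots of unity are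
at distance `≥ c_p` (finite set), `ζ = 1`. -/
theorem appr_root (p q T : ℕ) (hp : 1 ≤ p) (K m : ℝ) (hK : 1 ≤ K) (hm : 0 < m) (hm1 : m ≤ 1) :
    ∃ (Dg : ℕ) (C X0 : ℝ), ∀ A θ : ℂ, ‖A‖ ≤ K → ‖θ‖ ≤ K → ∃ Q : MvPolynomial (Fin 2) ℂ,
      Q.totalDegree ≤ Dg ∧ ∑ e ∈ Q.support, ‖Q.coeff e‖ ≤ C ∧ ∀ X ≥ X0, ∀ y u ε : ℂ,
        ‖u‖ ≤ K * X ^ (-m) → ‖ε‖ ≤ X⁻¹ → y ^ p * (1 + A * u) ^ q = 1 - θ * ε →
        ‖y - 1‖ ≤ K * X ^ (-m) → ‖y - MvPolynomial.eval ![u, ε] Q‖ ≤ C * X ^ (-(T : ℝ)) := by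
  obtain ⟨M, hM⟩ := exists_nat_ge (T / m)
  obtain ⟨B1, B2, δ, C, hδ, hC, h⟩ := appr1_local p q M hp
  let Q0 : MvPolynomial (Fin 2) ℂ := aeval (MvPolynomial.X 0) B1 * aeval (MvPolynomial.X 1) B2
  obtain ⟨X0, hX0⟩ := Filter.eventually_atTop.1 ((Filter.eventually_ge_atTop (1 : ℝ)).and
    (((tendsto_rpow_neg_atTop hm).const_mul (K * K)).eventually
      (gt_mem_nhds (show K * K * 0 < δ by simpa using hδ))))
  refine ⟨Q0.totalDegree, max (∑ e ∈ Q0.support, ‖Q0.coeff e‖ * ∏ i, K ^ e i)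
    (C * (2 * (K * K) ^ M)), X0, fun A θ hA hθ => ?_⟩
  obtain ⟨Q, h1, h2, h3⟩ := appr1_scale Q0 K ![A, θ] (by simp [Fin.forall_fin_two, hA, hθ])
  refine ⟨Q, h1, h2.trans (le_max_left _ _), fun X hX y u ε hu hε e hy => ?_⟩
  obtain ⟨h4, h5⟩ := hX0 X hX
  have h6 : 0 ≤ X ^ (-m) := by positivity
  have h7 : K * X ^ (-m) ≤ K * K * X ^ (-m) := by gcongr; nlinarith
  have ha : ‖A * u‖ ≤ K * K * X ^ (-m) := by rw [norm_mul, mul_assoc]; gcongr
  have hb : ‖θ * ε‖ ≤ K * K * X ^ (-m) := by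
    refine le_trans ?_ h7
    rw [norm_mul]
    gcongr
    exact hε.trans (Real.rpow_neg_one X ▸ Real.rpow_le_rpow_of_exponent_le h4 (by linarith))
  have h8 : (K * K * X ^ (-m)) ^ M ≤ (K * K) ^ M * X ^ (-(T : ℝ)) := by
    rw [mul_pow, ← Real.rpow_mul_natCast (by linarith)]
    gcongr
    rw [div_le_iff₀ hm] at hM
    linarith
  have h9 : MvPolynomial.eval ![u, ε] Q = B1.eval (A * u) * B2.eval (θ * ε) := by
    rw [h3, ← MvPolynomial.aeval_eq_eval]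
    simp only [Q0, map_mul, ← aeval_algHom_apply]
    simp
  rw [h9]
  refine (h y _ _ ((hy.trans h7).trans_lt h5) (ha.trans_lt h5) (hb.trans_lt h5) e).trans ?_
  calc C * (‖A * u‖ ^ M + ‖θ * ε‖ ^ M)
      ≤ C * ((K * K * X ^ (-m)) ^ M + (K * K * X ^ (-m)) ^ M) := by gcongr
    _ ≤ C * (2 * (K * K) ^ M) * X ^ (-(T : ℝ)) := by
      rw [mul_assoc C]; gcongr; linarith
    _ ≤ _ := by gcongr; exact le_max_right _ _

end Crest.Agent.R22
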