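import Crest.Agent.R22.Fix
import Crest.Agent.R22.Appr1

namespace Crest.Agent.R22

open Polynomial

variable {d : ℕ}

/-- The `ℓ¹`-norm of the coefficients. -/
noncomputable def ap2L (Q : MvPolynomial (Fin 2) ℂ) : ℝ := ∑ m ∈ Q.support, ‖Q.coeff m‖

lemma ap2L_nonneg (Q : MvPolynomial (Fin 2) ℂ) : 0 ≤ ap2L Q :=
  Finset.sum_nonneg fun _ _ => norm_nonneg _

lemma ap2L_eq {Q : MvPolynomial (Fin 2) ℂ} {s : Finset (Fin 2 →₀ ℕ)} (h : Q.support ⊆ s) :
    ap2L Q = ∑ m ∈ s, ‖Q.coeff m‖ :=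
  Finset.sum_subset h fun m _ hm => by rw [MvPolynomial.notMem_support_iff.1 hm, norm_zero]

lemma ap2L_add (P Q : MvPolynomial (Fin 2) ℂ) : ap2L (P + Q) ≤ ap2L P + ap2L Q := by
  classical
  rw [ap2L_eq (MvPolynomial.support_add (p := P) (q := Q)),
    ap2L_eq (Finset.subset_union_left (s₁ := P.support) (s₂ := Q.support)),
    ap2L_eq (Finset.subset_union_right (s₁ := P.support) (s₂ := Q.support)),
    ← Finset.sum_add_distrib]
  exact Finset.sum_le_sum fun m _ => by rw [MvPolynomial.coeff_add]; exact norm_add_le _ _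

lemma ap2L_sum {ι : Type} (s : Finset ι) (P : ι → MvPolynomial (Fin 2) ℂ) :
    ap2L (∑ i ∈ s, P i) ≤ ∑ i ∈ s, ap2L (P i) :=
  Finset.le_sum_of_subadditive ap2L (by simp [ap2L]) ap2L_add s P

lemma ap2L_monomial (m : Fin 2 →₀ ℕ) (c : ℂ) : ap2L (MvPolynomial.monomial m c) = ‖c‖ := by
  classical
  rw [ap2L_eq (MvPolynomial.support_monomial_subset (s := m) (a := c))]
  simp

lemma ap2L_mul (P Q : MvPolynomial (Fin 2) ℂ) : ap2L (P * Q) ≤ ap2L P * ap2L Q := by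
  conv_lhs => rw [P.as_sum, Q.as_sum, Finset.sum_mul_sum]
  unfold ap2L
  rw [Finset.sum_mul_sum]
  refine (ap2L_sum _ _).trans (Finset.sum_le_sum fun m _ => (ap2L_sum _ _).trans
    (Finset.sum_le_sum fun m' _ => ?_))
  rw [MvPolynomial.monomial_mul, ap2L_monomial, norm_mul]

lemma ap2L_eval (Q : MvPolynomial (Fin 2) ℂ) {x : Fin 2 → ℂ} (hx : ∀ j, ‖x j‖ ≤ 1) :
    ‖MvPolynomial.eval x Q‖ ≤ ap2L Q := by
  rw [MvPolynomial.eval_eq']
  refine (norm_sum_le _ _).trans (Finset.sum_le_sum fun m _ => ?_)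
  rw [norm_mul, norm_prod]
  refine mul_le_of_le_one_right (norm_nonneg _) (Finset.prod_le_one (fun _ _ => norm_nonneg _)
    fun j _ => ?_)
  rw [norm_pow]
  exact pow_le_one₀ (norm_nonneg _) (hx j)

/-- Approximable functions. -/
def Ap2 (S : Finset ℤ) (x : ℤ → Fin 2 → ℂ) (ρ : ℝ) (D : ℕ) (C : ℝ) (f : ℤ → ℂ) : Prop :=
  ∃ (Q : MvPolynomial (Fin 2) ℂ) (L : ℝ), Q.totalDegree ≤ D ∧ ap2L Q ≤ L ∧ L ≤ C ∧
    ∀ n ∈ S, ‖f n - MvPolynomial.eval (x n) Q‖ ≤ (C - L) * ρ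

section
variable {S : Finset ℤ} {x : ℤ → Fin 2 → ℂ} {ρ C C' : ℝ} {D D' : ℕ} {f g : ℤ → ℂ}

lemma Ap2.mono (hρ : 0 ≤ ρ) (h : Ap2 S x ρ D C f) (hD : D ≤ D') (hC : C ≤ C') :
    Ap2 S x ρ D' C' f := by
  obtain ⟨Q, L, h1, h2, h3, h4⟩ := h
  exact ⟨Q, L, h1.trans hD, h2, h3.trans hC, fun n hn => (h4 n hn).trans (by gcongr)⟩

lemma Ap2.const {c : ℂ} (hc : ‖c‖ ≤ C) : Ap2 S x ρ 0 C fun _ => c :=
  ⟨MvPolynomial.C c, C, (MvPolynomial.totalDegree_C c).le,
    (ap2L_monomial 0 c).le.trans hc, le_rfl, fun n _ => by simp⟩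

lemma Ap2.var (j : Fin 2) : Ap2 S x ρ 1 1 fun n => x n j :=
  ⟨MvPolynomial.X j, 1, (MvPolynomial.totalDegree_X j).le,
    (ap2L_monomial _ 1).le.trans (by simp), le_rfl, fun n _ => by simp⟩

lemma Ap2.add (h : Ap2 S x ρ D C f) (h' : Ap2 S x ρ D C' g) :
    Ap2 S x ρ D (C + C') fun n => f n + g n := by
  obtain ⟨Q, L, h1, h2, h3, h4⟩ := h
  obtain ⟨Q', L', h1', h2', h3', h4'⟩ := h'
  refine ⟨Q + Q', L + L', (MvPolynomial.totalDegree_add _ _).trans (max_le h1 h1'),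
    (ap2L_add _ _).trans (add_le_add h2 h2'), add_le_add h3 h3', fun n hn => ?_⟩
  rw [map_add, add_sub_add_comm]
  refine (norm_add_le _ _).trans ?_
  linarith [h4 n hn, h4' n hn]

lemma Ap2.mul (hρ : 0 ≤ ρ) (hρ1 : ρ ≤ 1) (hx : ∀ n ∈ S, ∀ j, ‖x n j‖ ≤ 1) (h : Ap2 S x ρ D C f)
    (h' : Ap2 S x ρ D' C' g) : Ap2 S x ρ (D + D') (C * C') fun n => f n * g n := by
  obtain ⟨Q, L, h1, h2, h3, h4⟩ := h
  obtain ⟨Q', L', h1', h2', h3', h4'⟩ := h'
  have l0 := (ap2L_nonneg Q).trans h2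
  have l0' := (ap2L_nonneg Q').trans h2'
  refine ⟨Q * Q', L * L', (MvPolynomial.totalDegree_mul _ _).trans (add_le_add h1 h1'),
    (ap2L_mul _ _).trans (mul_le_mul h2 h2' (ap2L_nonneg _) l0),
    mul_le_mul h3 h3' l0' (l0.trans h3), fun n hn => ?_⟩
  have e1 := (ap2L_eval Q (hx n hn)).trans h2
  have e2 := (ap2L_eval Q' (hx n hn)).trans h2'
  have e3 := h4 n hn
  have e4 := h4' n hn
  have e5 : ‖f n‖ ≤ C := by
    have := norm_le_norm_add_norm_sub' (f n) (MvPolynomial.eval (x n) Q)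
    have : (C - L) * ρ ≤ C - L := mul_le_of_le_one_right (by linarith) hρ1
    linarith
  rw [map_mul, show f n * g n - MvPolynomial.eval (x n) Q * MvPolynomial.eval (x n) Q' =
    f n * (g n - MvPolynomial.eval (x n) Q') +
      (f n - MvPolynomial.eval (x n) Q) * MvPolynomial.eval (x n) Q' by ring]
  refine (norm_add_le _ _).trans ?_
  rw [norm_mul, norm_mul]
  have : 0 ≤ C - L := by linarith
  calc _ ≤ C * ((C' - L') * ρ) + (C - L) * ρ * L' := by gcongr; linarith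
    _ = _ := by ring

lemma Ap2.sum {ι : Type} (s : Finset ι) {F : ι → ℤ → ℂ} (h : ∀ i ∈ s, Ap2 S x ρ D C (F i))
    (hρ : 0 ≤ ρ) : Ap2 S x ρ D (s.card * C) fun n => ∑ i ∈ s, F i n := by
  classical
  induction s using Finset.induction_on with
  | empty => simpa using (Ap2.const (c := 0) (C := 0) (by simp)).mono hρ (Nat.zero_le D) le_rfl
  | insert i s hi ih =>
    have := (h i (Finset.mem_insert_self _ _)).add
      (ih fun j hj => h j (Finset.mem_insert_of_mem hj))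
    simp only [Finset.sum_insert hi, Finset.card_insert_of_notMem hi]
    convert this using 1
    push_cast; ring

lemma Ap2.pow (hρ : 0 ≤ ρ) (hρ1 : ρ ≤ 1) (hx : ∀ n ∈ S, ∀ j, ‖x n j‖ ≤ 1) (h : Ap2 S x ρ D C f)
    (k : ℕ) : Ap2 S x ρ (k * D) (C ^ k) fun n => f n ^ k := by
  induction k with
  | zero => simpa using (Ap2.const (c := 1) (C := 1) (by simp))
  | succ k ih => simpa only [pow_succ, Nat.succ_mul] using ih.mul hρ hρ1 hx h

lemma Ap2.prod (hρ : 0 ≤ ρ) (hρ1 : ρ ≤ 1) (hx : ∀ n ∈ S, ∀ j, ‖x n j‖ ≤ 1) {ι : Type}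
    (s : Finset ι) {F : ι → ℤ → ℂ} (h : ∀ i ∈ s, Ap2 S x ρ D C (F i)) (m : ι → ℕ) :
    Ap2 S x ρ ((∑ i ∈ s, m i) * D) (C ^ ∑ i ∈ s, m i) fun n => ∏ i ∈ s, F i n ^ m i := by
  classical
  induction s using Finset.induction_on with
  | empty => simpa using (Ap2.const (c := 1) (C := 1) (by simp))
  | insert i s hi ih =>
    have := ((h i (Finset.mem_insert_self _ _)).pow hρ hρ1 hx (m i)).mul hρ hρ1 hx
      (ih fun j hj => h j (Finset.mem_insert_of_mem hj))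
    simpa only [Finset.sum_insert hi, Finset.prod_insert hi, add_mul, pow_add] using this

end

/-- All rows are approximable.  Column factor `col = ν^a κ'^E`, row factor `r = r1^i r2^(a-i)`.  With
`y i = γ̂ i / (κ' W i)` (if `κ' n = 0` then `γ̂ = 0` by `cls`, `γ = 0`, and both sides are handled
directly: the row is `0` unless `E = 0`), `appr_root` (with `K²` for `K`) gives `Q i`;
`(U γ) s = κ' ∑ t i, U s t cinv t i W i y i` (`co_emb`).  The row divided by `r col` is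
`(a1 + a1' u)^i (a2 + a2' u)^(a-i) ∏ s (∑ …)^(m s)`; replace `y i` by `Q i (u, ε)`.  Use that the `ℓ¹`-norm of
coefficients is submultiplicative and bounds the values when `|u|, |ε| ≤ 1`, and a telescoping bound for
the difference of two products of bounded factors. -/
theorem NF.all_appr (N : NF d) (p q a E T : ℕ) (hp : 1 ≤ p) (K KU m : ℝ) (hK : 1 ≤ K) (hm : 0 < m)
    (hm1 : m ≤ 1) : ∃ (Dg : ℕ) (C X0 : ℝ), 1 ≤ C ∧ ∀ X ≥ X0, ∀ (s1 s2 : ℝ) (S : Finset ℤ)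
    (l1 l2 : ℤ → ℤ) (g : ℤ → Fin d → ℤ) (u ν κ' : ℤ → ℂ) (A W : Fin d → ℂ)
    (r1 r2 a1 a1' a2 a2' : ℂ), Chart N p q K X m s1 s2 S l1 l2 g u ν κ' A W r1 r2 a1 a1' a2 a2' →
    ∀ U : Matrix (Fin d) (Fin d) ℤ, (∀ s t, |(U s t : ℝ)| ≤ KU) →
    AllAppr S U l1 l2 g u X s1 s2 a E T Dg C := by
  classical
  obtain ⟨CN, hCN, hθ, hci, -⟩ := N.exists_C
  have hK2 : K ≤ K ^ 2 := by nlinarith
  have hK3 : K ^ 2 ≤ K ^ 2 * CN := le_mul_of_one_le_right (by positivity) hCN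
  have hK4 : CN ≤ K ^ 2 * CN := le_mul_of_one_le_left (by linarith) (by linarith)
  obtain ⟨D0, C0, X0, hQ⟩ := appr_root p q T hp (K ^ 2 * CN) m (by linarith) hm hm1
  refine ⟨a + E * D0, max (K ^ (a + E)) ((K + K) ^ a * (d * (d * (|KU| * CN * K * (2 * C0)))) ^ E),
    max X0 (max 1 (K ^ (1 / m))), le_max_of_le_left (one_le_pow₀ hK), ?_⟩
  intro X hX s1 s2 S l1 l2 g u ν κ' A W r1 r2 a1 a1' a2 a2' h U hU
  have hX0 : X0 ≤ X := (le_max_left _ _).trans hX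
  have hX1 : 1 ≤ X := ((le_max_left _ _).trans (le_max_right _ _)).trans hX
  have hX2 : K ^ (1 / m) ≤ X := ((le_max_right _ _).trans (le_max_right _ _)).trans hX
  have hXm : 0 < X ^ (-m) := by positivity
  have hX3 : K * X ^ (-m) ≤ 1 := by
    rw [Real.rpow_neg (by linarith), ← div_eq_mul_inv, div_le_one (by positivity)]
    calc K = (K ^ (1 / m)) ^ m := by
          rw [← Real.rpow_mul (by linarith), one_div_mul_cancel hm.ne', Real.rpow_one]
      _ ≤ X ^ m := by gcongr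
  set ρ := X ^ (-(T : ℝ)) with hρ
  have hρ0 : 0 ≤ ρ := by positivity
  have hρ1 : ρ ≤ 1 := Real.rpow_le_one_of_one_le_of_nonpos hX1 (by simp)
  set x : ℤ → Fin 2 → ℂ := fun n => ![u n, (n : ℂ)⁻¹] with hxdef
  have hε : ∀ n ∈ S, ‖(n : ℂ)⁻¹‖ ≤ X⁻¹ := fun n hn => by
    rw [norm_inv, Complex.norm_intCast]
    exact inv_anti₀ (by linarith) (h.rng n hn)
  have hx : ∀ n ∈ S, ∀ j, ‖x n j‖ ≤ 1 := fun n hn j => by
    fin_cases j
    · exact (h.usz n hn).trans hX3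
    · exact (hε n hn).trans (inv_le_one_of_one_le₀ hX1)
  choose Q hQ1 hQ2 hQ3 using fun i => hQ (A i) (N.θ i) (by linarith [h.Asz i]) (by linarith [hθ i])
  have hW0 : ∀ i, W i ≠ 0 := fun i h0 => by
    have := (h.Wsz i).2
    rw [h0, norm_zero, mul_zero] at this
    linarith
  set y : Fin d → ℤ → ℂ := fun i n =>
    if κ' n = 0 then MvPolynomial.eval (x n) (Q i) else N.emb (g n) i / (κ' n * W i) with hy
  have hy1 : ∀ n ∈ S, ∀ i, N.emb (g n) i = κ' n * (W i * y i n) := fun n hn i => by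
    by_cases h0 : κ' n = 0
    · have := h.cls n hn i
      rw [h0] at this ⊢
      simpa using this
    · have := hW0 i
      simp only [hy, h0, if_false]; field_simp
  have hy2 : ∀ i, Ap2 S x ρ D0 (2 * C0) (y i) := fun i => by
    have c0 : 0 ≤ C0 := (ap2L_nonneg (Q i)).trans (hQ2 i)
    refine ⟨Q i, C0, hQ1 i, hQ2 i, by linarith, fun n hn => ?_⟩
    rw [show 2 * C0 - C0 = C0 by ring]
    by_cases h0 : κ' n = 0
    · simp only [hy, h0, if_true, sub_self, norm_zero]; positivity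
    · have hne : κ' n * W i ≠ 0 := mul_ne_zero h0 (hW0 i)
      refine hQ3 i X hX0 (y i n) (u n) _ ((h.usz n hn).trans (by gcongr; linarith)) (hε n hn) ?_ ?_
      · have := h.geq n hn i
        rw [hy1 n hn i, ← mul_assoc, mul_pow, mul_assoc] at this
        exact mul_left_cancel₀ (pow_ne_zero p hne) this
      · have a1 := h.cls n hn i
        rw [hy1 n hn i, show κ' n * (W i * y i n) - κ' n * W i = κ' n * (W i * (y i n - 1)) by ring,
          norm_mul, norm_mul, mul_comm] at a1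
        have a2 := le_of_mul_le_mul_right a1 (norm_pos_iff.2 h0)
        calc ‖y i n - 1‖ ≤ (K * ‖W i‖) * ‖y i n - 1‖ :=
              le_mul_of_one_le_left (norm_nonneg _) (h.Wsz i).2
          _ = K * (‖W i‖ * ‖y i n - 1‖) := by ring
          _ ≤ K * (K * X ^ (-m)) := by gcongr
          _ = K ^ 2 * X ^ (-m) := by ring
          _ ≤ _ := by gcongr
  set z : Fin d → ℤ → ℂ := fun s n => ∑ t, ∑ i, ((U s t : ℂ) * N.cinv t i * W i) * y i n with hz
  have hz1 : ∀ n ∈ S, ∀ s, ((U.mulVec (g n) s : ℤ) : ℂ) = κ' n * z s n := fun n hn s => by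
    simp only [Matrix.mulVec, dotProduct, hz, Finset.mul_sum]
    push_cast
    refine Finset.sum_congr rfl fun t _ => ?_
    rw [← N.co_emb (g n) t, NF.co, Finset.mul_sum]
    refine Finset.sum_congr rfl fun i _ => ?_
    rw [hy1 n hn i]
    simp only [Algebra.algebraMap_self, RingHom.id_apply]
    ring
  have hz2 : ∀ s, Ap2 S x ρ D0 (d * (d * (|KU| * CN * K * (2 * C0)))) (z s) := fun s => by
    have := Ap2.sum (S := S) (x := x) (ρ := ρ) (D := D0) Finset.univ (fun t _ =>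
      Ap2.sum (D := D0) Finset.univ (fun i _ => by
        have c1 : ‖(U s t : ℂ) * N.cinv t i * W i‖ ≤ |KU| * CN * K := by
          rw [norm_mul, norm_mul, Complex.norm_intCast]
          have := (hU s t).trans (le_abs_self KU)
          have := hci t i
          have := (h.Wsz i).1
          gcongr
        simpa only [zero_add] using (Ap2.const c1).mul hρ0 hρ1 hx (hy2 i)) hρ0) hρ0
    simpa only [Finset.card_univ, Fintype.card_fin] using this
  have hlin : ∀ b b' : ℂ, ‖b‖ ≤ K → ‖b'‖ ≤ K → Ap2 S x ρ 1 (K + K) fun n => b + b' * u n := by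
    intro b b' hb hb'
    have := ((Ap2.const (S := S) (x := x) hb).mono hρ0 (Nat.zero_le 1) le_rfl).add
      ((Ap2.const hb').mul hρ0 hρ1 hx (Ap2.var 0))
    simpa [hxdef] using this
  refine ⟨fun n => ν n ^ a * κ' n ^ E, fun i hi mm hmm => ?_⟩
  obtain ⟨j, rfl⟩ := Nat.exists_eq_add_of_le hi
  obtain ⟨P, L, p1, p2, p3, p4⟩ :=
    (((hlin a1 a1' h.asz.1 h.asz.2.1).pow hρ0 hρ1 hx i).mul hρ0 hρ1 hx
      ((hlin a2 a2' h.asz.2.2.1 h.asz.2.2.2).pow hρ0 hρ1 hx j)).mul hρ0 hρ1 hx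
      (Ap2.prod hρ0 hρ1 hx Finset.univ (fun s _ => hz2 s) mm)
  rw [hmm] at p1 p3 p4
  rw [← pow_add] at p3 p4
  have l0 := (ap2L_nonneg P).trans p2
  set Cf := (K + K) ^ (i + j) * (d * (d * (|KU| * CN * K * (2 * C0)))) ^ E
  set CC := max (K ^ (i + j + E)) Cf
  have c1 : K ^ (i + j + E) ≤ CC := le_max_left _ _
  have c2 : Cf ≤ CC := le_max_right _ _
  refine ⟨r1 ^ i * r2 ^ j, P, by simpa using p1, p2.trans (p3.trans c2), fun n hn => ?_⟩
  have b1 : ‖r1 ^ i * r2 ^ j * (ν n ^ (i + j) * κ' n ^ E)‖ ≤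
      CC * X ^ (((i + j : ℕ) : ℝ) * s1 + E * s2) := by
    have e : r1 ^ i * r2 ^ j * (ν n ^ (i + j) * κ' n ^ E) =
        (r1 * ν n) ^ i * (r2 * ν n) ^ j * κ' n ^ E := by ring
    have e2 : X ^ (((i + j : ℕ) : ℝ) * s1 + E * s2) = (X ^ s1) ^ (i + j) * (X ^ s2) ^ E := by
      rw [Real.rpow_add (by linarith), mul_comm _ s1, mul_comm _ s2,
        Real.rpow_mul_natCast (by linarith), Real.rpow_mul_natCast (by linarith)]
    rw [e, e2, norm_mul, norm_mul, norm_pow, norm_pow, norm_pow]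
    have n1 := (h.nusz n hn).1
    have n2 := (h.nusz n hn).2
    have n3 := h.ksz n hn
    calc _ ≤ (K * X ^ s1) ^ i * (K * X ^ s1) ^ j * (K * X ^ s2) ^ E := by gcongr
      _ = K ^ (i + j + E) * ((X ^ s1) ^ (i + j) * (X ^ s2) ^ E) := by ring
      _ ≤ _ := by gcongr
  refine ⟨b1, ?_⟩
  have e3 : ((rowv U l1 l2 g (i + j) i mm n : ℤ) : ℂ) =
      r1 ^ i * r2 ^ j * (ν n ^ (i + j) * κ' n ^ E) *
        ((a1 + a1' * u n) ^ i * (a2 + a2' * u n) ^ j * ∏ s, z s n ^ mm s) := by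
    unfold rowv
    push_cast
    simp only [hz1 n hn, mul_pow, Finset.prod_mul_distrib, Finset.prod_pow_eq_pow_sum, hmm,
      h.l1eq n hn, h.l2eq n hn, Nat.add_sub_cancel_left]
    ring
  beta_reduce
  rw [e3, ← mul_sub, norm_mul]
  have b2 := p4 n hn
  calc _ ≤ CC * X ^ (((i + j : ℕ) : ℝ) * s1 + E * s2) * (CC * ρ) := by
        have : 0 ≤ CC := le_trans (by positivity) c1
        gcongr
        exact b2.trans (by gcongr; linarith)
    _ = _ := by ring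

end Crest.Agent.R22
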