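import Crest.Agent.R22.Fix

namespace Crest.Agent.R22

open Polynomial

variable {d : ℕ}

theorem appr3_pow {w : ℂ} (hw : ‖w‖ ≤ 1) (q : ℕ) : ‖(1 + w) ^ q - 1‖ ≤ 3 ^ q * ‖w‖ := by
  induction q with
  | zero => simp
  | succ q ih =>
    have e : (1 + w) ^ (q + 1) - 1 = (1 + w) * ((1 + w) ^ q - 1) + w := by ring
    have h1 : ‖1 + w‖ ≤ 2 := (norm_add_le _ _).trans (by rw [norm_one]; linarith)
    have h2 : ‖(1 + w) * ((1 + w) ^ q - 1)‖ ≤ 2 * (3 ^ q * ‖w‖) := by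
      rw [norm_mul]
      exact mul_le_mul h1 ih (norm_nonneg _) (by norm_num)
    have h3 : ‖w‖ ≤ 3 ^ q * ‖w‖ := le_mul_of_one_le_left (norm_nonneg _) (one_le_pow₀ (by norm_num))
    rw [e, pow_succ]
    refine (norm_add_le _ _).trans ?_
    linarith

theorem appr3_W {W l : ℂ} {p q : ℕ} (hp : 1 ≤ p) {c C : ℝ} (hc : 0 < c) (h1 : c ≤ ‖l‖) (h2 : ‖l‖ ≤ C)
    (h : W ^ p = (l ^ q)⁻¹) : ‖W‖ ≤ c⁻¹ ^ q + C ^ q + 1 ∧ 1 ≤ (c⁻¹ ^ q + C ^ q + 1) * ‖W‖ := by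
  have hl : 0 < ‖l‖ := hc.trans_le h1
  have hC : 0 < C := hl.trans_le h2
  have e : ‖W‖ ^ p * ‖l‖ ^ q = 1 := by
    rw [← norm_pow, h, norm_inv, norm_pow, inv_mul_cancel₀ (by positivity)]
  have a1 : 0 ≤ c⁻¹ ^ q := by positivity
  have a2 : 0 ≤ C ^ q := by positivity
  have hW := norm_nonneg W
  constructor
  · rcases le_total ‖W‖ 1 with h3 | h3
    · linarith
    · have b1 : ‖W‖ ≤ ‖W‖ ^ p := le_self_pow₀ h3 (by omega)
      have b2 : ‖W‖ ^ p * c ^ q ≤ 1 :=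
        e ▸ mul_le_mul_of_nonneg_left (pow_le_pow_left₀ hc.le h1 q) (by positivity)
      have b3 : ‖W‖ ^ p ≤ c⁻¹ ^ q := by
        rw [inv_pow, ← one_div, le_div_iff₀ (by positivity)]
        exact b2
      linarith
  · rcases le_total ‖W‖ 1 with h3 | h3
    · have b1 : ‖W‖ ^ p ≤ ‖W‖ := pow_le_of_le_one hW h3 (by omega)
      have b2 : ‖W‖ ^ p * ‖l‖ ^ q ≤ ‖W‖ * C ^ q :=
        mul_le_mul b1 (pow_le_pow_left₀ hl.le h2 q) (by positivity) hW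
      nlinarith [mul_nonneg a1 hW]
    · nlinarith [mul_nonneg a1 hW, mul_nonneg a2 hW]

theorem appr3_z {z w t : ℂ} {p q : ℕ} (h : z ^ p * (1 + w) ^ q = 1 - t) (hw : ‖w‖ ≤ 1 / 2) :
    ‖z ^ p - 1‖ ≤ 2 ^ q * (‖t‖ + 3 ^ q * ‖w‖) := by
  have h1 : 1 / 2 ≤ ‖1 + w‖ := by
    have := norm_sub_le (1 + w) w
    rw [add_sub_cancel_right, norm_one] at this
    linarith
  have e : (z ^ p - 1) * (1 + w) ^ q = -t - ((1 + w) ^ q - 1) := by linear_combination h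
  have h2 : ‖z ^ p - 1‖ * ‖1 + w‖ ^ q ≤ ‖t‖ + 3 ^ q * ‖w‖ := by
    rw [← norm_pow, ← norm_mul, e]
    refine (norm_sub_le _ _).trans ?_
    rw [norm_neg]
    have := appr3_pow (w := w) (by linarith) q
    linarith
  have h3 : (1 : ℝ) ≤ 2 ^ q * ‖1 + w‖ ^ q := by
    rw [← mul_pow]
    exact one_le_pow₀ (by linarith)
  calc ‖z ^ p - 1‖ ≤ ‖z ^ p - 1‖ * (2 ^ q * ‖1 + w‖ ^ q) :=
        le_mul_of_one_le_right (norm_nonneg _) h3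
    _ = 2 ^ q * (‖z ^ p - 1‖ * ‖1 + w‖ ^ q) := by ring
    _ ≤ _ := mul_le_mul_of_nonneg_left h2 (by positivity)

/-- The `σ`-chart.  If `S` is empty everything is trivial.  Fix `n0 ∈ S`, `σ0 = σ n0`, `u = σ - σ0`,
`E_s = ‖e_s‖`, `Â i = ê1 i / E1`, `B̂ i = ê2 i / E2`, `ℓ i (σ) = Â i σ + B̂ i`, so that
`ê1 i l1 + ê2 i l2 = l2 E2 ℓ i (σ)` and `c ≤ |ℓ i (σ n)| ≤ 2 C` (`low`, `chart`).  Take `ν = l2`, `r2 = 1`,
`a2 = 1`, `a2' = 0`, `r1 = E2 / E1`, `a1 = σ0`, `a1' = 1`, `A i = Â i / ℓ i (σ0)`,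
`W0 i ^ p = ℓ i (σ0)^(-q)`, `κ'^p = μ n / (l2 E2)^q` (`IsAlgClosed.exists_pow_nat_eq`).  Then
`z = γ̂ i / (κ' W0 i)` has `z^p = (1 - θ ε)(1 + A u)^(-q) = 1 + O(X^(-m))`, and `cls n i` is the root of unity
given by `exists_root_near`.  `|κ'| ≤ K X^s2` since `|γ̂ i| ≥ |κ' W0 i| / 2`. -/
theorem NF.sigma_chart (N : NF d) (p q : ℕ) (hp : 1 ≤ p) {c m : ℝ} (hc : 0 < c) (hm : 0 < m)
    (hm1 : m ≤ 1) : ∃ K X0 : ℝ, 1 ≤ K ∧ ∀ X ≥ X0, ∀ (s1 s2 : ℝ) (μ : ℤ) (e1 e2 : Fin d → ℤ)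
    (S : Finset ℤ) (l1 l2 : ℤ → ℤ) (g : ℤ → Fin d → ℤ),
    LineCfg N p q c X s1 s2 μ e1 e2 S l1 l2 g → Diam e1 e2 l1 l2 X m S →
    ∃ (u ν κ' : ℤ → ℂ) (A W0 : Fin d → ℂ) (r1 r2 a1 a1' a2 a2' r σ0 : ℂ) (cls : ℤ → Fin d → ℂ),
      r ≠ 0 ∧ (∀ n ∈ S, u n = r * ((l1 n : ℂ) / l2 n) - σ0) ∧ (∀ n ∈ S, ∀ i, cls n i ^ p = 1) ∧
      ∀ (ζ : Fin d → ℂ) (T : Finset ℤ), T ⊆ S → (∀ i, ζ i ^ p = 1) → (∀ n ∈ T, cls n = ζ) →
        Chart N p q K X m s1 s2 T l1 l2 g u ν κ' A (fun i => W0 i * ζ i) r1 r2 a1 a1' a2 a2' := by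
  obtain ⟨C, hC, hθ, -, hemb, -, -⟩ := N.exists_C
  obtain ⟨Cr, hCr, hroot⟩ := exists_root_near p hp
  choose rt hrt1 hrt2 using hroot
  obtain ⟨D, hD⟩ : ∃ D : ℝ, D = C / c := ⟨_, rfl⟩
  obtain ⟨KW, hKW⟩ : ∃ KW : ℝ, KW = c⁻¹ ^ q + (2 * C) ^ q + 1 := ⟨_, rfl⟩
  obtain ⟨K1, hK1⟩ : ∃ K1 : ℝ, K1 = Cr * (2 ^ q * (C + 3 ^ q * D)) := ⟨_, rfl⟩
  have hD0 : 0 < D := by rw [hD]; positivity
  have hKW1 : 1 ≤ KW := by
    have : 0 ≤ c⁻¹ ^ q + (2 * C) ^ q := by positivity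
    linarith
  have hK10 : 0 < K1 := by rw [hK1]; positivity
  obtain ⟨K, hK⟩ : ∃ K : ℝ, K = KW * K1 + KW * (2 * C) + D + KW := ⟨_, rfl⟩
  have p1 : 0 ≤ KW * K1 := by positivity
  have p2 : 0 ≤ KW * (2 * C) := by positivity
  have hKa : 1 ≤ K := by linarith
  have hev : ∀ᶠ X : ℝ in Filter.atTop, 1 ≤ X ∧ X ^ (-m) ≤ 1 / (2 * (K1 + D)) :=
    (Filter.eventually_ge_atTop 1).and
      ((tendsto_rpow_neg_atTop hm).eventually (ge_mem_nhds (by positivity)))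
  obtain ⟨X0, hX0⟩ := Filter.eventually_atTop.1 hev
  refine ⟨K, X0, hKa, fun X hX s1 s2 μ e1 e2 S l1 l2 g h hdm => ?_⟩
  obtain ⟨hX1, hXm⟩ := hX0 X hX
  have hX0' : 0 < X := by linarith
  have hXp : 0 < X ^ (-m) := Real.rpow_pos_of_pos hX0' _
  rw [le_div_iff₀ (by positivity)] at hXm
  have hζ : ∀ z : ℂ, z ^ p = 1 → ‖z‖ = 1 := fun z hz =>
    Complex.norm_eq_one_of_pow_eq_one hz (by omega)
  rcases S.eq_empty_or_nonempty with rfl | ⟨n0, hn0⟩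
  · refine ⟨0, 0, 0, 0, 1, 0, 0, 0, 0, 0, 0, 1, 0, 0, one_ne_zero, by simp, by simp,
      fun ζ T hT h1 _ => ?_⟩
    obtain rfl := Finset.subset_empty.1 hT
    have h0 : (0 : ℝ) ≤ K := by linarith
    exact ⟨by simp, by simp, by simpa using fun _ => h0, fun i => by simp [hζ _ (h1 i), hKa],
      by simpa using h0, by simp, by simp, by simp, by simp, by simp, by simp⟩
  have hE1 : 0 < ‖e1‖ := norm_pos_iff.2 h.e1ne
  have hE2 : 0 < ‖e2‖ := norm_pos_iff.2 h.e2ne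
  have hE1c : ((‖e1‖ : ℝ) : ℂ) ≠ 0 := by exact_mod_cast hE1.ne'
  have hE2c : ((‖e2‖ : ℝ) : ℂ) ≠ 0 := by exact_mod_cast hE2.ne'
  have hl2 : ∀ n ∈ S, (l2 n : ℂ) ≠ 0 := fun n hn => by exact_mod_cast h.l2_ne n hn
  have hl2r : ∀ n ∈ S, 0 < |(l2 n : ℝ)| := fun n hn =>
    abs_pos.2 (by exact_mod_cast h.l2_ne n hn)
  obtain ⟨σ, hσ⟩ : ∃ σ : ℤ → ℂ, σ = fun n =>
    ((‖e1‖ : ℝ) : ℂ) / ((‖e2‖ : ℝ) : ℂ) * ((l1 n : ℂ) / l2 n) := ⟨_, rfl⟩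
  have hσr : ∀ n, σ n = ((sig e1 e2 l1 l2 n : ℝ) : ℂ) := fun n => by
    rw [hσ]
    unfold sig
    push_cast
    ring
  have hσ1 : ∀ n ∈ S, ‖σ n‖ ≤ 1 := fun n hn => by
    rw [hσr, Complex.norm_real, Real.norm_eq_abs]
    unfold sig
    rw [abs_div, abs_mul, abs_mul, abs_of_pos hE1, abs_of_pos hE2,
      div_le_one (mul_pos (hl2r n hn) hE2)]
    exact h.chart n hn
  obtain ⟨Ah, hAh⟩ : ∃ Ah : Fin d → ℂ, Ah = fun i => N.emb e1 i / ((‖e1‖ : ℝ) : ℂ) := ⟨_, rfl⟩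
  obtain ⟨ℓ, hℓ⟩ : ∃ ℓ : ℤ → Fin d → ℂ,
    ℓ = fun n i => Ah i * σ n + N.emb e2 i / ((‖e2‖ : ℝ) : ℂ) := ⟨_, rfl⟩
  have hAh1 : ∀ i, ‖Ah i‖ ≤ C := fun i => by
    rw [hAh]
    simp only [norm_div, Complex.norm_real, norm_norm]
    rw [div_le_iff₀ hE1]
    exact hemb e1 i
  have hfac : ∀ n ∈ S, ∀ i, N.emb e1 i * (l1 n : ℂ) + N.emb e2 i * (l2 n : ℂ) =
      (l2 n : ℂ) * ((‖e2‖ : ℝ) : ℂ) * ℓ n i := fun n hn i => by
    have := hl2 n hn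
    simp only [hℓ, hAh, hσ]
    field_simp
  have hℓ1 : ∀ n ∈ S, ∀ i, c ≤ ‖ℓ n i‖ := fun n hn i => by
    have h1 := h.low n hn i
    rw [hfac n hn, norm_mul, norm_mul, Complex.norm_intCast, Complex.norm_real, norm_norm,
      mul_comm c] at h1
    exact le_of_mul_le_mul_left h1 (mul_pos (hl2r n hn) hE2)
  have hℓ2 : ∀ n ∈ S, ∀ i, ‖ℓ n i‖ ≤ 2 * C := fun n hn i => by
    have h1 : ‖Ah i * σ n‖ ≤ C * 1 := by
      rw [norm_mul]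
      exact mul_le_mul (hAh1 i) (hσ1 n hn) (norm_nonneg _) (by linarith)
    have h2 : ‖N.emb e2 i / ((‖e2‖ : ℝ) : ℂ)‖ ≤ C := by
      simp only [norm_div, Complex.norm_real, norm_norm]
      rw [div_le_iff₀ hE2]
      exact hemb e2 i
    simp only [hℓ]
    refine (norm_add_le _ _).trans ?_
    linarith
  have hℓ0 : ∀ i, ℓ n0 i ≠ 0 := fun i => norm_pos_iff.1 (hc.trans_le (hℓ1 n0 hn0 i))
  choose W0 hW0 using fun i => IsAlgClosed.exists_pow_nat_eq ((ℓ n0 i ^ q)⁻¹) (n := p) (by omega)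
  choose κ hκ using fun n : ℤ => IsAlgClosed.exists_pow_nat_eq
    ((μ : ℂ) * n / ((l2 n : ℂ) * ((‖e2‖ : ℝ) : ℂ)) ^ q) (n := p) (by omega)
  have hW : ∀ i, ‖W0 i‖ ≤ KW ∧ 1 ≤ KW * ‖W0 i‖ := fun i =>
    hKW ▸ appr3_W hp hc (hℓ1 n0 hn0 i) (hℓ2 n0 hn0 i) (hW0 i)
  have hWne : ∀ i, W0 i ≠ 0 := fun i e => by
    have := (hW i).2
    rw [e, norm_zero, mul_zero] at this
    linarith
  have hn : ∀ n ∈ S, (n : ℂ) ≠ 0 := fun n hn e => by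
    have h1 := (h.rng n hn).1
    have h2 : n = 0 := by exact_mod_cast e
    rw [h2] at h1
    simp at h1
    linarith
  have hμ : (μ : ℂ) ≠ 0 := by exact_mod_cast h.mu0
  have hκne : ∀ n ∈ S, κ n ≠ 0 := fun n hn' e => by
    have h1 := hκ n
    rw [e, zero_pow (by omega)] at h1
    exact div_ne_zero (mul_ne_zero hμ (hn n hn')) (pow_ne_zero _ (mul_ne_zero (hl2 n hn') hE2c))
      h1.symm
  have hA : ∀ i, ‖Ah i / ℓ n0 i‖ ≤ D := fun i => by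
    rw [norm_div, hD]
    exact div_le_div₀ (by linarith) (hAh1 i) hc (hℓ1 n0 hn0 i)
  have hu : ∀ n ∈ S, ‖σ n - σ n0‖ ≤ X ^ (-m) := fun n hn => by
    rw [hσr, hσr, ← Complex.ofReal_sub, Complex.norm_real, Real.norm_eq_abs]
    exact hdm n hn n0 hn0
  have hgeq : ∀ n ∈ S, ∀ i, N.emb (g n) i ^ p * (1 + Ah i / ℓ n0 i * (σ n - σ n0)) ^ q =
      (κ n * W0 i) ^ p * (1 - N.θ i * (n : ℂ)⁻¹) := fun n hn' i => by
    have h1 := h.eq n hn' i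
    have e : ℓ n i = ℓ n0 i * (1 + Ah i / ℓ n0 i * (σ n - σ n0)) := by
      have := hℓ0 i
      field_simp
      simp only [hℓ]
      ring
    rw [hfac n hn', e, mul_pow, mul_pow (ℓ n0 i)] at h1
    have a1 := hn n hn'
    have a2 := pow_ne_zero q (hℓ0 i)
    have a3 := pow_ne_zero q (mul_ne_zero (hl2 n hn') hE2c)
    rw [mul_pow (κ n), hκ, hW0]
    generalize ((l2 n : ℂ) * ((‖e2‖ : ℝ) : ℂ)) ^ q = b at *
    generalize ℓ n0 i ^ q = b' at *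
    field_simp
    linear_combination h1
  have hz : ∀ n ∈ S, ∀ i, ‖N.emb (g n) i / (κ n * W0 i) - rt (N.emb (g n) i / (κ n * W0 i))‖ ≤
      K1 * X ^ (-m) := fun n hn' i => by
    have a1 := pow_ne_zero p (mul_ne_zero (hκne n hn') (hWne i))
    have h1 : (N.emb (g n) i / (κ n * W0 i)) ^ p * (1 + Ah i / ℓ n0 i * (σ n - σ n0)) ^ q =
        1 - N.θ i * (n : ℂ)⁻¹ := by
      rw [div_pow, div_mul_eq_mul_div, hgeq n hn', mul_div_cancel_left₀ _ a1]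
    have h2 : ‖Ah i / ℓ n0 i * (σ n - σ n0)‖ ≤ D * X ^ (-m) := by
      rw [norm_mul]
      exact mul_le_mul (hA i) (hu n hn') (norm_nonneg _) hD0.le
    have h3 : ‖N.θ i * (n : ℂ)⁻¹‖ ≤ C * X ^ (-m) := by
      rw [norm_mul, norm_inv, Complex.norm_intCast]
      refine mul_le_mul (hθ i) ?_ (by positivity) (by linarith)
      refine (inv_anti₀ hX0' (h.rng n hn').1).trans ?_
      rw [← Real.rpow_neg_one]
      exact Real.rpow_le_rpow_of_exponent_le hX1 (by linarith)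
    have h4 := appr3_z h1 (by nlinarith [mul_pos hK10 hXp])
    refine (hrt2 _).trans ?_
    rw [hK1, mul_assoc, mul_assoc]
    refine mul_le_mul_of_nonneg_left (h4.trans (mul_le_mul_of_nonneg_left ?_ (by positivity)))
      (by linarith)
    have h5 := mul_le_mul_of_nonneg_left h2 (by positivity : (0 : ℝ) ≤ 3 ^ q)
    linarith
  refine ⟨fun n => σ n - σ n0, fun n => l2 n, κ, fun i => Ah i / ℓ n0 i, W0,
    ((‖e2‖ : ℝ) : ℂ) / ((‖e1‖ : ℝ) : ℂ), 1, σ n0, 1, 1, 0, ((‖e1‖ : ℝ) : ℂ) / ((‖e2‖ : ℝ) : ℂ), σ n0,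
    fun n i => rt (N.emb (g n) i / (κ n * W0 i)), div_ne_zero hE1c hE2c,
    fun n _ => by simp only [hσ], fun n _ i => hrt1 _, fun ζ T hT hζ1 hcls => ?_⟩
  have hs1 : 0 < X ^ s1 := Real.rpow_pos_of_pos hX0' _
  have hs2 : 0 < X ^ s2 := Real.rpow_pos_of_pos hX0' _
  have hdiff : ∀ n ∈ T, ∀ i, N.emb (g n) i - κ n * (W0 i * ζ i) = κ n * W0 i *
      (N.emb (g n) i / (κ n * W0 i) - rt (N.emb (g n) i / (κ n * W0 i))) := fun n hn' i => by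
    have a1 := mul_ne_zero (hκne n (hT hn')) (hWne i)
    rw [← congrFun (hcls n hn') i, mul_sub, mul_div_cancel₀ _ a1, mul_assoc]
  refine ⟨fun n hn => (h.rng n (hT hn)).1,
    fun n hn => (hu n (hT hn)).trans (le_mul_of_one_le_left hXp.le hKa),
    fun i => (hA i).trans (by linarith), fun i => ?_,
    ⟨(hσ1 n0 hn0).trans hKa, by simpa using hKa, by simpa using hKa, by simp; linarith⟩,
    fun n hn => ?_, fun n hn => by simp, fun n hn => ⟨?_, ?_⟩, fun n hn i => ?_, fun n hn i => ?_,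
    fun n hn => ?_⟩
  · rw [norm_mul, hζ _ (hζ1 i), mul_one]
    refine ⟨(hW i).1.trans (by linarith), (hW i).2.trans ?_⟩
    exact mul_le_mul_of_nonneg_right (by linarith) (norm_nonneg _)
  · have := hl2 n (hT hn)
    simp only [hσ]
    field_simp
    ring
  · refine le_trans ?_ (le_mul_of_one_le_left hs1.le hKa)
    rw [norm_mul, norm_div, Complex.norm_intCast, Complex.norm_real, Complex.norm_real, norm_norm,
      norm_norm, div_mul_eq_mul_div, div_le_iff₀ hE1, mul_comm]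
    exact (h.sz1 n (hT hn)).2
  · refine le_trans ?_ (le_mul_of_one_le_left hs1.le hKa)
    rw [one_mul, Complex.norm_intCast]
    exact (h.sz1 n (hT hn)).1
  · rw [hgeq n (hT hn), ← mul_assoc, mul_pow _ (ζ i), hζ1, mul_one]
  · rw [hdiff n hn, norm_mul, norm_mul]
    have h1 : ‖W0 i‖ * ‖N.emb (g n) i / (κ n * W0 i) - rt (N.emb (g n) i / (κ n * W0 i))‖ ≤
        KW * (K1 * X ^ (-m)) := mul_le_mul (hW i).1 (hz n (hT hn) i) (norm_nonneg _) (by linarith)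
    have h2 : KW * K1 * X ^ (-m) ≤ K * X ^ (-m) := mul_le_mul_of_nonneg_right (by linarith) hXp.le
    rw [mul_assoc, mul_comm (K * X ^ (-m))]
    exact mul_le_mul_of_nonneg_left (by linarith) (norm_nonneg _)
  · have h4 := N.four_le
    obtain ⟨i⟩ : Nonempty (Fin d) := ⟨⟨0, by omega⟩⟩
    have h1 := hz n (hT hn) i
    have h2 : K1 * X ^ (-m) ≤ 1 / 2 := by nlinarith [mul_pos hD0 hXp]
    have h3 := norm_sub_le (N.emb (g n) i) (N.emb (g n) i - κ n * (W0 i * ζ i))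
    rw [sub_sub_cancel, hdiff n hn, norm_mul, norm_mul, norm_mul, norm_mul, hζ _ (hζ1 i),
      mul_one] at h3
    have h5 := mul_le_mul_of_nonneg_left (h1.trans h2)
      (mul_nonneg (norm_nonneg (κ n)) (norm_nonneg (W0 i)))
    have h6 : ‖N.emb (g n) i‖ ≤ C * X ^ s2 :=
      (hemb _ i).trans (mul_le_mul_of_nonneg_left (h.sz2 n (hT hn)) (by linarith))
    have h7 : ‖κ n‖ * ‖W0 i‖ ≤ 2 * C * X ^ s2 := by linarith
    have h8 := mul_le_mul_of_nonneg_left (hW i).2 (norm_nonneg (κ n))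
    have h9 := mul_le_mul_of_nonneg_left h7 (by linarith : 0 ≤ KW)
    have h10 : KW * (2 * C) * X ^ s2 ≤ K * X ^ s2 := mul_le_mul_of_nonneg_right (by linarith) hs2.le
    linarith

end Crest.Agent.R22
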