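import Crest.Agent.R22.Princ
import Crest.Agent.R22.Ker
import Crest.Agent.R22.Fix

namespace Crest.Agent.R22

open Polynomial
open scoped Polynomial.Bivariate

variable {d : ℕ}

/-- The linear polynomial `ê1 i X + ê2 i`. -/
noncomputable def NF.ell (N : NF d) (e1 e2 : Fin d → ℤ) (i : Fin d) : ℂ[X] :=
  C (N.emb e1 i) * X + C (N.emb e2 i)

/-- A reduced basis of the module `{(U, V) : ℓ i^k ∣ U + θ i V}`. -/
structure Scroll (N : NF d) (k : ℕ) (e1 e2 : Fin d → ℤ) (U1 V1 U2 V2 : ℂ[X]) (a1 a2 : Fin d → ℂ[X])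
    (g1 g2 : ℕ) : Prop where
  le : g1 ≤ g2
  sum : g1 + g2 = k * (d - 2)
  eq1 : ∀ i, U1 + C (N.θ i) * V1 = N.ell e1 e2 i ^ k * a1 i
  eq2 : ∀ i, U2 + C (N.θ i) * V2 = N.ell e1 e2 i ^ k * a2 i
  deg1 : U1.natDegree ≤ g1 + k ∧ V1.natDegree ≤ g1 + k ∧ ∀ i, (a1 i).natDegree ≤ g1
  deg2 : U2.natDegree ≤ g2 + k ∧ V2.natDegree ≤ g2 + k ∧ ∀ i, (a2 i).natDegree ≤ g2
  det : ∃ c : ℂ, c ≠ 0 ∧ U1 * V2 - U2 * V1 = C c * (∏ i, N.ell e1 e2 i) ^ k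

end Crest.Agent.R22
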