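import Crest.Agent.R22.Princ
import Crest.Agent.R22.Ker
import Crest.Agent.R22.Fix
import Crest.Agent.R22.Beta0

namespace Crest.Agent.R22

open Polynomial
open scoped Polynomial.Bivariate

variable {d : ℕ}

namespace B1

lemma natDegree_ell (N : NF d) {e1 : Fin d → ℤ} (e2 : Fin d → ℤ) (h1 : e1 ≠ 0) (i : Fin d) :
    (N.ell e1 e2 i).natDegree = 1 :=
  Polynomial.natDegree_linear (N.emb_ne_zero h1 i)

lemma ell_ne (N : NF d) {e1 : Fin d → ℤ} (e2 : Fin d → ℤ) (h1 : e1 ≠ 0) (i : Fin d) :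
    N.ell e1 e2 i ≠ 0 := by
  intro h
  have := natDegree_ell N e2 h1 i
  rw [h] at this
  simp at this

lemma cop (N : NF d) {e1 e2 : Fin d → ℤ} {i j : Fin d} (h : N.PP e1 e2 i j ≠ 0) :
    IsCoprime (N.ell e1 e2 i) (N.ell e1 e2 j) := by
  refine ⟨C (-N.emb e1 j / N.PP e1 e2 i j), C (N.emb e1 i / N.PP e1 e2 i j), ?_⟩
  have e : (1 : ℂ[X]) = C ((N.PP e1 e2 i j)⁻¹) * C (N.PP e1 e2 i j) := by
    rw [← C_mul, inv_mul_cancel₀ h, C_1]
  rw [e]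
  simp only [NF.ell, div_eq_mul_inv, C_mul, C_neg]
  generalize C ((N.PP e1 e2 i j)⁻¹) = w
  simp only [NF.PP, C_sub, C_mul]
  ring

lemma natDegree_prod_ell (N : NF d) {e1 : Fin d → ℤ} (e2 : Fin d → ℤ) (h1 : e1 ≠ 0)
    (s : Finset (Fin d)) : (∏ i ∈ s, N.ell e1 e2 i).natDegree = s.card := by
  rw [Polynomial.natDegree_prod _ _ fun i _ => ell_ne N e2 h1 i]
  simp [natDegree_ell N e2 h1]

lemma reduce {U V : ℂ[X]} {n : ℕ} (hU : U.natDegree ≤ n) (hV : V.natDegree ≤ n)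
    (hU0 : U.coeff n = 0) (hV0 : V.coeff n = 0) :
    (U = 0 ∧ V = 0) ∨ ∃ n', n = n' + 1 ∧ U.natDegree ≤ n' ∧ V.natDegree ≤ n' := by
  have key : ∀ W : ℂ[X], W.natDegree ≤ n → W.coeff n = 0 → W = 0 ∨ W.natDegree < n := by
    intro W hW hW0
    rcases hW.eq_or_lt with h | h
    · left
      rw [← Polynomial.leadingCoeff_eq_zero, Polynomial.leadingCoeff, h, hW0]
    · exact Or.inr h
  rcases n with _ | n
  · left
    exact ⟨(key U hU hU0).resolve_right (by omega), (key V hV hV0).resolve_right (by omega)⟩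
  · refine Or.inr ⟨n, rfl, ?_, ?_⟩
    · rcases key U hU hU0 with h | h
      · rw [h]; simp
      · omega
    · rcases key V hV hV0 with h | h
      · rw [h]; simp
      · omega

/-- a basis of a module `M` of pairs, with degree bounds -/
def Bas (M : ℂ[X] → ℂ[X] → Prop) (Δ : ℂ[X]) (n1 n2 : ℕ) : Prop :=
  ∃ U1 V1 U2 V2 : ℂ[X], M U1 V1 ∧ M U2 V2 ∧ (∃ c : ℂ, c ≠ 0 ∧ U1 * V2 - U2 * V1 = C c * Δ) ∧
    U1.natDegree ≤ n1 ∧ V1.natDegree ≤ n1 ∧ U2.natDegree ≤ n2 ∧ V2.natDegree ≤ n2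

lemma Bas.swap {M : ℂ[X] → ℂ[X] → Prop} {Δ : ℂ[X]} {n1 n2 : ℕ} (h : Bas M Δ n1 n2) :
    Bas M Δ n2 n1 := by
  obtain ⟨U1, V1, U2, V2, m1, m2, ⟨c, hc, hd⟩, a1, a2, a3, a4⟩ := h
  exact ⟨U2, V2, U1, V1, m2, m1, ⟨-c, neg_ne_zero.2 hc, by rw [C_neg, neg_mul, ← hd]; ring⟩,
    a3, a4, a1, a2⟩

lemma Bas.step {M : ℂ[X] → ℂ[X] → Prop} {Δ : ℂ[X]} (hΔ : Δ ≠ 0)
    (hM : ∀ U1 V1 U2 V2 w, M U1 V1 → M U2 V2 → M (U2 - w * U1) (V2 - w * V1)) {n1 n2 : ℕ}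
    (hn : n1 ≤ n2) (h : Bas M Δ n1 n2) :
    Δ.natDegree = n1 + n2 ∨ ∃ m1 m2, m1 + m2 < n1 + n2 ∧ Bas M Δ m1 m2 := by
  obtain ⟨U1, V1, U2, V2, m1, m2, ⟨c, hc, hd⟩, a1, a2, a3, a4⟩ := h
  have hne : C c * Δ ≠ 0 := mul_ne_zero (C_ne_zero.2 hc) hΔ
  have hco : (C c * Δ).coeff (n1 + n2) = U1.coeff n1 * V2.coeff n2 - U2.coeff n2 * V1.coeff n1 := by
    rw [← hd, coeff_sub, coeff_mul_add_eq_of_natDegree_le a1 a4, add_comm n1 n2,
      coeff_mul_add_eq_of_natDegree_le a3 a2]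
  by_cases h0 : U1.coeff n1 * V2.coeff n2 - U2.coeff n2 * V1.coeff n1 = 0
  · right
    by_cases ht : U1.coeff n1 = 0 ∧ V1.coeff n1 = 0
    · rcases reduce a1 a2 ht.1 ht.2 with ⟨hU, hV⟩ | ⟨n', hn', b1, b2⟩
      · exact absurd (by rw [← hd, hU, hV]; ring) hne
      · exact ⟨n', n2, by omega, U1, V1, U2, V2, m1, m2, ⟨c, hc, hd⟩, b1, b2, a3, a4⟩
    · obtain ⟨t, t1, t2⟩ : ∃ t : ℂ, U2.coeff n2 = t * U1.coeff n1 ∧ V2.coeff n2 = t * V1.coeff n1 := by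
        by_cases hu : U1.coeff n1 = 0
        · have hv : V1.coeff n1 ≠ 0 := fun hv => ht ⟨hu, hv⟩
          refine ⟨V2.coeff n2 / V1.coeff n1, ?_, by field_simp⟩
          rw [hu, zero_mul, zero_sub, neg_eq_zero, mul_eq_zero] at h0
          rw [hu, h0.resolve_right hv, mul_zero]
        · refine ⟨U2.coeff n2 / U1.coeff n1, by field_simp, ?_⟩
          field_simp
          linear_combination h0
      obtain ⟨r, rfl⟩ := Nat.exists_eq_add_of_le hn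
      have hw : (C t * X ^ r : ℂ[X]).natDegree ≤ r := natDegree_C_mul_X_pow_le t r
      have hwc : (C t * X ^ r : ℂ[X]).coeff r = t := by simp
      have dg : ∀ W W' : ℂ[X], W.natDegree ≤ n1 → W'.natDegree ≤ n1 + r →
          W'.coeff (n1 + r) = t * W.coeff n1 →
          (W' - C t * X ^ r * W).natDegree ≤ n1 + r ∧ (W' - C t * X ^ r * W).coeff (n1 + r) = 0 := by
        intro W W' hW hW' hc'
        constructor
        · refine (natDegree_sub_le _ _).trans (max_le hW' (natDegree_mul_le.trans (by omega)))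
        · rw [coeff_sub, hc', add_comm n1 r, coeff_mul_add_eq_of_natDegree_le hw hW, hwc, sub_self]
      obtain ⟨b1, b2⟩ := dg U1 U2 a1 a3 t1
      obtain ⟨b3, b4⟩ := dg V1 V2 a2 a4 t2
      have hd' : U1 * (V2 - C t * X ^ r * V1) - (U2 - C t * X ^ r * U1) * V1 = C c * Δ := by
        rw [← hd]; ring
      rcases reduce b1 b3 b2 b4 with ⟨hU, hV⟩ | ⟨n', hn', c1, c2⟩
      · exact absurd (by rw [← hd', hU, hV]; ring) hne
      · exact ⟨n1, n', by omega, U1, V1, _, _, m1, hM _ _ _ _ _ m1 m2, ⟨c, hc, hd'⟩, a1, a2, c1, c2⟩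
  · left
    rw [← natDegree_C_mul (p := Δ) hc]
    refine le_antisymm ?_ (le_natDegree_of_ne_zero (by rwa [hco]))
    rw [← hd]
    exact (natDegree_sub_le _ _).trans (max_le (natDegree_mul_le.trans (by omega))
      (natDegree_mul_le.trans (by omega)))

lemma Bas.reduced {M : ℂ[X] → ℂ[X] → Prop} {Δ : ℂ[X]} (hΔ : Δ ≠ 0)
    (hM : ∀ U1 V1 U2 V2 w, M U1 V1 → M U2 V2 → M (U2 - w * U1) (V2 - w * V1)) (n : ℕ) :
    ∀ n1 n2 : ℕ, n1 + n2 = n → Bas M Δ n1 n2 →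
      ∃ m1 m2, m1 ≤ m2 ∧ Δ.natDegree = m1 + m2 ∧ Bas M Δ m1 m2 := by
  induction n using Nat.strong_induction_on with
  | _ n ih =>
    intro n1 n2 hn h
    rcases le_total n1 n2 with hle | hle
    · rcases h.step hΔ hM hle with h' | ⟨m1, m2, hm, h'⟩
      · exact ⟨n1, n2, hle, h', h⟩
      · exact ih _ (by omega) m1 m2 rfl h'
    · rcases h.swap.step hΔ hM hle with h' | ⟨m1, m2, hm, h'⟩
      · exact ⟨n2, n1, hle, h', h.swap⟩
      · exact ih _ (by omega) m1 m2 rfl h'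

lemma deg_quot (N : NF d) (k : ℕ) {e1 : Fin d → ℤ} (e2 : Fin d → ℤ) (h1 : e1 ≠ 0) {U V : ℂ[X]}
    {a : Fin d → ℂ[X]} {n : ℕ} (hU : U.natDegree ≤ n) (hV : V.natDegree ≤ n)
    (hne : ¬ (U = 0 ∧ V = 0)) (h : ∀ i, U + C (N.θ i) * V = N.ell e1 e2 i ^ k * a i) :
    k ≤ n ∧ ∀ i, (a i).natDegree ≤ n - k := by
  have key : ∀ i, a i ≠ 0 → k + (a i).natDegree ≤ n := by
    intro i hi
    have h2 : (N.ell e1 e2 i ^ k * a i).natDegree = k + (a i).natDegree := by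
      rw [natDegree_mul (pow_ne_zero _ (ell_ne N e2 h1 i)) hi, natDegree_pow,
        natDegree_ell N e2 h1, mul_one]
    rw [← h2, ← h i]
    exact (natDegree_add_le _ _).trans (max_le hU ((natDegree_C_mul_le _ _).trans hV))
  have : Nontrivial (Fin d) := Fin.nontrivial_iff_two_le.2 (by have := N.four_le; omega)
  obtain ⟨i, j, hij⟩ := exists_pair_ne (Fin d)
  have hex : ∃ i, a i ≠ 0 := by
    by_contra hall
    push Not at hall
    have hi := h i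
    have hj := h j
    rw [hall, mul_zero] at hi hj
    have h3 : C (N.θ i - N.θ j) * V = 0 := by rw [C_sub]; linear_combination hi - hj
    have hV0 : V = 0 := (mul_eq_zero.1 h3).resolve_left
      (C_ne_zero.2 (sub_ne_zero.2 fun h' => hij (N.inj h')))
    rw [hV0, mul_zero, add_zero] at hi
    exact hne ⟨hi, hV0⟩
  obtain ⟨i0, hi0⟩ := hex
  refine ⟨by have := key i0 hi0; omega, fun i => ?_⟩
  by_cases hi : a i = 0
  · rw [hi]; simp
  · have := key i hi; omega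

lemma minor_eq {N : NF d} {k : ℕ} {e1 e2 : Fin d → ℤ} (h1 : e1 ≠ 0) {U1 V1 U2 V2 : ℂ[X]}
    {a1 a2 : Fin d → ℂ[X]} {g1 g2 : ℕ} (h : Scroll N k e1 e2 U1 V1 U2 V2 a1 a2 g1 g2) {i j : Fin d}
    (hij : i ≠ j) : ∃ c : ℂ, c ≠ 0 ∧ a1 i * a2 j - a1 j * a2 i =
      C c * (∏ l ∈ (Finset.univ.erase i).erase j, N.ell e1 e2 l) ^ k := by
  obtain ⟨c, hc, hd⟩ := h.det
  refine ⟨(N.θ j - N.θ i) * c, mul_ne_zero (sub_ne_zero.2 fun h' => hij (N.inj h').symm) hc, ?_⟩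
  have e : ∏ l, N.ell e1 e2 l = N.ell e1 e2 i * (N.ell e1 e2 j *
      ∏ l ∈ (Finset.univ.erase i).erase j, N.ell e1 e2 l) := by
    rw [Finset.mul_prod_erase _ _ (Finset.mem_erase.2 ⟨hij.symm, Finset.mem_univ j⟩),
      Finset.mul_prod_erase _ _ (Finset.mem_univ i)]
  apply mul_left_cancel₀ (mul_ne_zero (pow_ne_zero k (ell_ne N e2 h1 i))
    (pow_ne_zero k (ell_ne N e2 h1 j)))
  rw [e, mul_pow, mul_pow] at hd
  rw [C_mul, C_sub]
  linear_combination (C (N.θ j) - C (N.θ i)) * hd -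
    (N.ell e1 e2 j ^ k * a2 j) * h.eq1 i - (U1 + C (N.θ i) * V1) * h.eq2 j +
    (N.ell e1 e2 i ^ k * a2 i) * h.eq1 j + (U1 + C (N.θ j) * V1) * h.eq2 i

end B1

/-- Let `M` be the module, `deg (U, V) = max`.  Take `(U1, V1) ≠ 0` in `M` of least degree `n1`, and `(U2, V2)` in
`M` with `Δ = U1 V2 - U2 V1 ≠ 0` of least degree `n2 ≥ n1` (they exist: `(Π^k, 0)`, `(0, Π^k)`, `Π = ∏ ℓ i`).  The
vectors of top coefficients are independent (else subtract `c X^(n2-n1) (U1, V1)`), so `deg Δ = n1 + n2`.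
`ℓ i^k ∣ Δ = (U1 + θ V1) V2 - (U2 + θ V2) V1`, and the `ℓ i` are pairwise coprime, so `Δ = Π^k D'`.  If `D'` had a
root `y`, a nontrivial constant combination of the two pairs is divisible by `X - y` with quotient in `M`:
if `ℓ i (y) ≠ 0` for all `i` use `Δ(y) = 0`; if `ℓ i (y) = 0` use `(a1 i V2 - a2 i V1)(y) = 0`, so that a combination
has `a i` and `V` vanishing at `y`.  This contradicts minimality (of `n2`, or of `n1` if the coefficient of the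
second pair is `0`).  So `n1 + n2 = d k`; `n1 ≥ k` since some `U1 + θ i V1 ≠ 0`; `g_s = n_s - k`. -/
theorem NF.exists_scroll (N : NF d) (k : ℕ) {e1 e2 : Fin d → ℤ} (h1 : e1 ≠ 0)
    (hnd : ∀ i j, i ≠ j → N.PP e1 e2 i j ≠ 0) :
    ∃ U1 V1 U2 V2 a1 a2 g1 g2, Scroll N k e1 e2 U1 V1 U2 V2 a1 a2 g1 g2 := by
  let M : ℂ[X] → ℂ[X] → Prop := fun U V => ∀ i, N.ell e1 e2 i ^ k ∣ U + C (N.θ i) * V
  have hM : ∀ U1 V1 U2 V2 w, M U1 V1 → M U2 V2 → M (U2 - w * U1) (V2 - w * V1) := by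
    intro U1 V1 U2 V2 w m1 m2 i
    have e : U2 - w * U1 + C (N.θ i) * (V2 - w * V1) =
        (U2 + C (N.θ i) * V2) - w * (U1 + C (N.θ i) * V1) := by ring
    rw [e]
    exact dvd_sub (m2 i) (Dvd.dvd.mul_left (m1 i) w)
  have hΔ : (∏ i, N.ell e1 e2 i) ^ k ≠ 0 :=
    pow_ne_zero _ (Finset.prod_ne_zero_iff.2 fun i _ => B1.ell_ne N e2 h1 i)
  obtain ⟨W, hW⟩ := Ideal.exists_forall_sub_mem_ideal
    (I := fun i => Ideal.span {N.ell e1 e2 i ^ k})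
    (fun i j hij => (Ideal.isCoprime_span_singleton_iff _ _).2 (B1.cop N (hnd i j hij)).pow)
    (fun i => -C (N.θ i))
  have h0 : B1.Bas M ((∏ i, N.ell e1 e2 i) ^ k) ((∏ i, N.ell e1 e2 i) ^ k).natDegree W.natDegree := by
    refine ⟨(∏ i, N.ell e1 e2 i) ^ k, 0, W, 1, fun i => ?_, fun i => ?_, ⟨1, one_ne_zero, by simp⟩,
      le_rfl, by simp, le_rfl, by simp⟩
    · rw [mul_zero, add_zero]
      exact pow_dvd_pow_of_dvd (Finset.dvd_prod_of_mem _ (Finset.mem_univ i)) k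
    · have := Ideal.mem_span_singleton.1 (hW i)
      rwa [sub_neg_eq_add, ← mul_one (C (N.θ i))] at this
  obtain ⟨n1, n2, hn, hdeg, U1, V1, U2, V2, m1, m2, ⟨c, hc, hd⟩, a1, a2, a3, a4⟩ :=
    B1.Bas.reduced hΔ hM _ _ _ rfl h0
  rw [natDegree_pow, B1.natDegree_prod_ell N e2 h1, Finset.card_univ, Fintype.card_fin] at hdeg
  choose q1 hq1 using m1
  choose q2 hq2 using m2
  have hne : C c * (∏ i, N.ell e1 e2 i) ^ k ≠ 0 := mul_ne_zero (C_ne_zero.2 hc) hΔ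
  obtain ⟨k1, d1⟩ := B1.deg_quot N k e2 h1 a1 a2
    (fun h => hne (by rw [← hd, h.1, h.2]; ring)) hq1
  obtain ⟨k2, d2⟩ := B1.deg_quot N k e2 h1 a3 a4
    (fun h => hne (by rw [← hd, h.1, h.2]; ring)) hq2
  refine ⟨U1, V1, U2, V2, q1, q2, n1 - k, n2 - k, by omega, ?_, hq1, hq2,
    ⟨by omega, by omega, d1⟩, ⟨by omega, by omega, d2⟩, ⟨c, hc, hd⟩⟩
  have h4 := N.four_le
  obtain ⟨d', rfl⟩ : ∃ d', d = d' + 2 := ⟨d - 2, by omega⟩
  rw [Nat.add_sub_cancel]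
  have : k * (d' + 2) = k * d' + 2 * k := by ring
  omega

/-- The vectors `a1(x0), a2(x0) ∈ ℂ^d` are independent for every `x0`, and so are the vectors of top
coefficients: `a1 i a2 j - a1 j a2 i = c (θ j - θ i) ∏_{l ≠ i, j} ℓ l^k` has degree `g1 + g2`, and is nonzero at
`x0` if `{i, j}` contains the only index with `ℓ l (x0) = 0`. -/
theorem Scroll.indep {N : NF d} {k : ℕ} {e1 e2 : Fin d → ℤ} (h1 : e1 ≠ 0)
    (hnd : ∀ i j, i ≠ j → N.PP e1 e2 i j ≠ 0) {U1 V1 U2 V2 : ℂ[X]} {a1 a2 : Fin d → ℂ[X]}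
    {g1 g2 : ℕ} (h : Scroll N k e1 e2 U1 V1 U2 V2 a1 a2 g1 g2) :
    (∀ x0 : ℂ, ∃ i j, (a1 i).eval x0 * (a2 j).eval x0 - (a1 j).eval x0 * (a2 i).eval x0 ≠ 0) ∧
      ∃ i j, (a1 i).coeff g1 * (a2 j).coeff g2 - (a1 j).coeff g1 * (a2 i).coeff g2 ≠ 0 := by
  have : Nontrivial (Fin d) := Fin.nontrivial_iff_two_le.2 (by have := N.four_le; omega)
  constructor
  · intro x0
    obtain ⟨i, hi⟩ : ∃ i, ∀ l, l ≠ i → (N.ell e1 e2 l).eval x0 ≠ 0 := by
      by_cases hex : ∃ i, (N.ell e1 e2 i).eval x0 = 0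
      · obtain ⟨i, hi⟩ := hex
        refine ⟨i, fun l hl h0 => ?_⟩
        obtain ⟨u, v, huv⟩ := B1.cop N (hnd l i hl)
        have := congrArg (Polynomial.eval x0) huv
        simp [hi, h0] at this
      · push Not at hex
        exact ⟨Classical.arbitrary _, fun l _ => hex l⟩
    obtain ⟨j, hj⟩ := exists_ne i
    obtain ⟨c, hc, hm⟩ := B1.minor_eq h1 h hj.symm
    refine ⟨i, j, ?_⟩
    have h2 := congrArg (Polynomial.eval x0) hm
    simp only [eval_sub, eval_mul, eval_C, eval_pow, eval_prod] at h2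
    rw [h2]
    refine mul_ne_zero hc (pow_ne_zero _ (Finset.prod_ne_zero_iff.2 fun l hl => hi l ?_))
    exact (Finset.mem_erase.1 (Finset.mem_erase.1 hl).2).1
  · obtain ⟨i, j, hij⟩ := exists_pair_ne (Fin d)
    obtain ⟨c, hc, hm⟩ := B1.minor_eq h1 h hij
    refine ⟨i, j, ?_⟩
    rw [← coeff_mul_add_eq_of_natDegree_le (h.deg1.2.2 i) (h.deg2.2.2 j),
      ← coeff_mul_add_eq_of_natDegree_le (h.deg1.2.2 j) (h.deg2.2.2 i), ← coeff_sub, hm]
    have hdeg : (C c * (∏ l ∈ (Finset.univ.erase i).erase j, N.ell e1 e2 l) ^ k).natDegree =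
        g1 + g2 := by
      rw [natDegree_C_mul hc, natDegree_pow, B1.natDegree_prod_ell N e2 h1, h.sum,
        Finset.card_erase_of_mem (Finset.mem_erase.2 ⟨hij.symm, Finset.mem_univ j⟩),
        Finset.card_erase_of_mem (Finset.mem_univ i), Finset.card_univ, Fintype.card_fin]
      rfl
    rw [← hdeg]
    exact leadingCoeff_ne_zero.2 (mul_ne_zero (C_ne_zero.2 hc) (pow_ne_zero _
      (Finset.prod_ne_zero_iff.2 fun l _ => B1.ell_ne N e2 h1 l)))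

end Crest.Agent.R22
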