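import Crest.Agent.R22.Princ
import Crest.Agent.R22.Ker
import Crest.Agent.R22.Fix
import Crest.Agent.R22.Beta1

namespace Crest.Agent.R22

open Polynomial
open scoped Polynomial.Bivariate

variable {d : ℕ}

/-- binary form `∑ α j u^j v^(n-j)` -/
def b2f {R : Type} [CommRing R] (n : ℕ) (α : ℕ → R) (u v : R) : R :=
  ∑ j ∈ Finset.range (n + 1), α j * u ^ j * v ^ (n - j)

theorem b2f_map {R S F : Type} [CommRing R] [CommRing S] [FunLike F R S] [RingHomClass F R S]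
    (φ : F) (n : ℕ) (α : ℕ → R) (u v : R) :
    φ (b2f n α u v) = b2f n (fun j => φ (α j)) (φ u) (φ v) := by
  simp only [b2f, map_sum, map_mul, map_pow]

theorem b2f_congr {R : Type} [CommRing R] {n : ℕ} {α β : ℕ → R} (h : ∀ j ≤ n, α j = β j)
    (u v : R) : b2f n α u v = b2f n β u v :=
  Finset.sum_congr rfl fun j hj => by rw [h j (Nat.lt_succ_iff.1 (Finset.mem_range.1 hj))]

theorem b2f_mul {R : Type} [CommRing R] (n : ℕ) (α : ℕ → R) (t v : R) :
    b2f n α (t * v) v = v ^ n * ∑ j ∈ Finset.range (n + 1), α j * t ^ j := by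
  rw [b2f, Finset.mul_sum]
  refine Finset.sum_congr rfl fun j hj => ?_
  have hj' : j ≤ n := Nat.lt_succ_iff.1 (Finset.mem_range.1 hj)
  have e : v ^ n = v ^ j * v ^ (n - j) := by rw [← pow_add, Nat.add_sub_cancel' hj']
  rw [e, mul_pow]
  ring

theorem b2f_natDegree_le {R : Type} [CommRing R] (n : ℕ) (α : ℕ → R[X]) (u v : R[X])
    (g1 g2 c : ℕ) (hu : u.natDegree ≤ g2) (hv : v.natDegree ≤ g1)
    (hα : ∀ j ≤ n, α j ≠ 0 → (α j).natDegree + j * g2 + (n - j) * g1 ≤ c) :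
    (b2f n α u v).natDegree ≤ c := by
  refine natDegree_sum_le_of_forall_le _ _ fun j hj => ?_
  have hj' : j ≤ n := Nat.lt_succ_iff.1 (Finset.mem_range.1 hj)
  by_cases h0 : α j = 0
  · simp [h0]
  · exact (natDegree_mul_le_of_le (natDegree_mul_le_of_le le_rfl (natDegree_pow_le_of_le j hu))
      (natDegree_pow_le_of_le _ hv)).trans (hα j hj' h0)

theorem b2f_coeff {R : Type} [CommRing R] (n : ℕ) (α : ℕ → R[X]) (u v : R[X])
    (g1 g2 c : ℕ) (hu : u.natDegree ≤ g2) (hv : v.natDegree ≤ g1)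
    (hα : ∀ j ≤ n, α j ≠ 0 → (α j).natDegree + j * g2 + (n - j) * g1 ≤ c) :
    (b2f n α u v).coeff c =
      b2f n (fun j => (α j).coeff (c - j * g2 - (n - j) * g1)) (u.coeff g2) (v.coeff g1) := by
  rw [b2f, b2f, finsetSum_coeff]
  refine Finset.sum_congr rfl fun j hj => ?_
  have hj' : j ≤ n := Nat.lt_succ_iff.1 (Finset.mem_range.1 hj)
  by_cases h0 : α j = 0
  · simp [h0]
  · have h1 := hα j hj' h0
    have h2 : (α j).natDegree ≤ c - j * g2 - (n - j) * g1 := by omega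
    have e : c = (c - j * g2 - (n - j) * g1) + j * g2 + (n - j) * g1 := by omega
    conv_lhs => rw [e]
    rw [coeff_mul_add_eq_of_natDegree_le (natDegree_mul_le_of_le h2 (natDegree_pow_le_of_le j hu))
      (natDegree_pow_le_of_le _ hv),
      coeff_mul_add_eq_of_natDegree_le h2 (natDegree_pow_le_of_le j hu),
      coeff_pow_of_natDegree_le hu, coeff_pow_of_natDegree_le hv]

theorem b2_exists_ne {p : ℂ[X]} (hp : p ≠ 0) : ∃ t, p.eval t ≠ 0 := by
  by_contra h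
  exact hp (zero_of_eval_zero p fun t => by simpa using not_exists.1 h t)

theorem b2_poly_ne {n : ℕ} {α : ℕ → ℂ} (h : ∃ j ≤ n, α j ≠ 0) :
    (∑ j ∈ Finset.range (n + 1), C (α j) * X ^ j : ℂ[X]) ≠ 0 := by
  obtain ⟨j, hj, h0⟩ := h
  intro hz
  apply h0
  have := congrArg (fun p : ℂ[X] => p.coeff j) hz
  simpa [finsetSum_coeff, coeff_X_pow, Nat.lt_succ_iff, hj] using this

theorem b2f_exists_ne {n : ℕ} {α : ℕ → ℂ} (h : ∃ j ≤ n, α j ≠ 0) :
    ∃ t : ℂ, b2f n α t 1 ≠ 0 := by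
  obtain ⟨t, ht⟩ := b2_exists_ne (b2_poly_ne h)
  refine ⟨t, ?_⟩
  simpa [b2f, eval_finsetSum] using ht

theorem b2_surj {u1 u2 : Fin d → ℂ} (hu : ∃ i j, u1 i * u2 j - u1 j * u2 i ≠ 0) (p q : ℂ) :
    ∃ L : Fin d → ℂ, ∑ i, L i * u1 i = p ∧ ∑ i, L i * u2 i = q := by
  classical
  obtain ⟨i, j, h⟩ := hu
  set D := u1 i * u2 j - u1 j * u2 i with hD
  refine ⟨fun l => (if l = i then (p * u2 j - q * u1 j) / D else 0) +
    (if l = j then (q * u1 i - p * u2 i) / D else 0), ?_, ?_⟩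
  · simp only [add_mul, Finset.sum_add_distrib, ite_mul, zero_mul, Finset.sum_ite_eq',
      Finset.mem_univ, if_true]
    field_simp
    rw [hD]; ring
  · simp only [add_mul, Finset.sum_add_distrib, ite_mul, zero_mul, Finset.sum_ite_eq',
      Finset.mem_univ, if_true]
    field_simp
    rw [hD]; ring

/-- the polynomial function `L ↦ b2f n α (L · u2) (-(L · u1))` -/
theorem b2_mv {n : ℕ} {α : ℕ → ℂ} (h : ∃ j ≤ n, α j ≠ 0) {u1 u2 : Fin d → ℂ}
    (hu : ∃ i j, u1 i * u2 j - u1 j * u2 i ≠ 0) :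
    ∃ F : MvPolynomial (Fin d) ℂ, F ≠ 0 ∧ ∀ L : Fin d → ℂ,
      MvPolynomial.eval L F = b2f n α (∑ i, L i * u2 i) (-∑ i, L i * u1 i) := by
  have key : ∀ L : Fin d → ℂ, MvPolynomial.eval L (b2f n (fun j => MvPolynomial.C (α j))
      (∑ i, MvPolynomial.X i * MvPolynomial.C (u2 i))
      (-∑ i, MvPolynomial.X i * MvPolynomial.C (u1 i))) =
      b2f n α (∑ i, L i * u2 i) (-∑ i, L i * u1 i) := by
    intro L
    rw [b2f_map]
    simp
  refine ⟨_, fun h0 => ?_, key⟩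
  obtain ⟨t, ht⟩ := b2f_exists_ne h
  obtain ⟨L, h1, h2⟩ := b2_surj hu (-1) t
  have := key L
  rw [h0, h1, h2, neg_neg, map_zero] at this
  exact ht this.symm

theorem b2_mv_pt {F : MvPolynomial (Fin d) ℂ} (hF : F ≠ 0) : ∃ L, MvPolynomial.eval L F ≠ 0 := by
  by_contra h
  exact hF (MvPolynomial.funext fun L => by simpa using not_exists.1 h L)

theorem b2_aeval {Ω : Type} [Field Ω] [Algebra ℂ Ω] (x y : Ω) (P : ℂ[X][Y]) {n : ℕ}
    (hn : P.natDegree ≤ n) :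
    aevalAeval x y P = ∑ j ∈ Finset.range (n + 1), aeval x (P.coeff j) * y ^ j := by
  conv_lhs => rw [P.as_sum_range_C_mul_X_pow' (Nat.lt_succ_of_le hn)]
  simp only [map_sum, map_mul, map_pow, aevalAeval_C, aevalAeval_Y]

theorem b2_isAlg {Ω : Type} [Field Ω] [Algebra ℂ Ω] {x z : Ω} (hx : Transcendental ℂ x)
    {G : ℂ[X][Y]} (hG : G ≠ 0) (h : aevalAeval x z G = 0) :
    IsAlgebraic (IntermediateField.adjoin ℂ {x}) z := by
  set φ : ℂ[X] →ₐ[ℂ] IntermediateField.adjoin ℂ {x} :=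
    aeval (IntermediateField.AdjoinSimple.gen ℂ x) with hφ
  have hφ' : ∀ p, algebraMap (IntermediateField.adjoin ℂ {x}) Ω (φ p) = aeval x p := by
    intro p
    rw [hφ, ← aeval_algebraMap_apply]
    rfl
  have hinj : Function.Injective φ := by
    intro p q hpq
    apply transcendental_iff_injective.1 hx
    rw [← hφ', ← hφ', hpq]
  refine ⟨G.map φ.toRingHom, (Polynomial.map_ne_zero_iff hinj).2 hG, ?_⟩
  rw [aeval_eq_sum_range' (Nat.lt_succ_of_le natDegree_map_le), ← h, b2_aeval x z G le_rfl]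
  refine Finset.sum_congr rfl fun j _ => ?_
  rw [coeff_map, Algebra.smul_def, ← hφ']
  rfl

/-- the polynomial `∑ L i a i` -/
noncomputable def b2L (L : Fin d → ℂ) (a : Fin d → ℂ[X]) : ℂ[X] := ∑ i, C (L i) * a i

theorem b2L_eval (L : Fin d → ℂ) (a : Fin d → ℂ[X]) (x0 : ℂ) :
    (b2L L a).eval x0 = ∑ i, L i * (a i).eval x0 := by
  simp [b2L, eval_finsetSum]

theorem b2L_coeff (L : Fin d → ℂ) (a : Fin d → ℂ[X]) (g : ℕ) :
    (b2L L a).coeff g = ∑ i, L i * (a i).coeff g := by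
  simp [b2L]

theorem b2L_natDegree_le (L : Fin d → ℂ) (a : Fin d → ℂ[X]) {g : ℕ}
    (h : ∀ i, (a i).natDegree ≤ g) : (b2L L a).natDegree ≤ g :=
  natDegree_sum_le_of_forall_le _ _ fun i _ => (natDegree_C_mul_le _ _).trans (h i)

theorem b2_lf {Ω : Type} [Field Ω] [Algebra ℂ Ω] {a1 a2 : Fin d → ℂ[X]} {x ρ ν : Ω}
    {b : Fin d → Ω} (hb : ∀ i, b i = ν * (ρ * aeval x (a1 i) + aeval x (a2 i))) (L : Fin d → ℂ) :
    lf L b = ν * (ρ * aeval x (b2L L a1) + aeval x (b2L L a2)) := by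
  simp only [lf, b2L, map_sum, map_mul, aeval_C, hb, Finset.mul_sum, ← Finset.sum_add_distrib]
  exact Finset.sum_congr rfl fun i _ => by ring

theorem b2_lin_natDegree (p q : ℂ[X]) : (Y * C p + C q : ℂ[X][Y]).natDegree ≤ 1 := by
  compute_degree

/-- a primitive relation of `(x, z)` has degree at least `natDegree A` -/
theorem b2_deg_ge {Ω : Type} [Field Ω] [Algebra ℂ Ω] {x ρ z : Ω} {A P : ℂ[X][Y]}
    (hA : ∀ Ψ : ℂ[X][Y], aevalAeval x ρ Ψ = 0 ↔ A ∣ Ψ) {L1 L2 M1 M2 : ℂ[X]}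
    (hz : ρ * aeval x L1 + aeval x L2 = z * (ρ * aeval x M1 + aeval x M2))
    (h1 : L1.eval 0 = 1) (hD : M2.eval 0 - L2.eval 0 * M1.eval 0 ≠ 0)
    (hP : aevalAeval x z P = 0) (hP0 : ∃ j, (P.coeff j).eval 0 ≠ 0) :
    A.natDegree ≤ P.natDegree := by
  by_contra hlt
  push Not at hlt
  set n := P.natDegree with hn
  set Q : ℂ[X][Y] := b2f n (fun j => C (P.coeff j)) (Y * C L1 + C L2) (Y * C M1 + C M2) with hQ
  have hQd : Q.natDegree ≤ n :=
    b2f_natDegree_le n _ _ _ 1 1 n (b2_lin_natDegree _ _) (b2_lin_natDegree _ _)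
      fun j hj _ => by rw [natDegree_C]; omega
  have hQr : aevalAeval x ρ Q = 0 := by
    rw [hQ, b2f_map]
    simp only [map_add, map_mul, aevalAeval_C, aevalAeval_Y]
    rw [hz, b2f_mul, ← b2_aeval x z P le_rfl, hP, mul_zero]
  have hQ0 : Q = 0 := eq_zero_of_dvd_of_natDegree_lt ((hA Q).1 hQr) (hQd.trans_lt hlt)
  have hP1 : ∃ j ≤ n, (P.coeff j).eval 0 ≠ 0 := by
    obtain ⟨j, hj⟩ := hP0
    refine ⟨j, le_natDegree_of_ne_zero fun h0 => hj ?_, hj⟩
    rw [h0, eval_zero]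
  have hq : (1 - C (M1.eval 0) * X : ℂ[X]) ≠ 0 := by
    intro h0
    have := congrArg (eval 0) h0
    simp at this
  obtain ⟨t, ht⟩ := b2_exists_ne (mul_ne_zero (b2_poly_ne hP1) hq)
  rw [eval_mul] at ht
  have ht1 := left_ne_zero_of_mul ht
  have ht2 := right_ne_zero_of_mul ht
  simp only [eval_finsetSum, eval_mul, eval_C, eval_pow, eval_X, eval_sub, eval_one] at ht1 ht2
  set y : ℂ := -(L2.eval 0 - t * M2.eval 0) / (1 - M1.eval 0 * t) with hy
  have hy' : y * (1 - M1.eval 0 * t) = -(L2.eval 0 - t * M2.eval 0) := div_mul_cancel₀ _ ht2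
  have hw : y * M1.eval 0 + M2.eval 0 =
      (M2.eval 0 - L2.eval 0 * M1.eval 0) / (1 - M1.eval 0 * t) := by
    rw [eq_div_iff ht2]
    linear_combination (M1.eval 0) * hy'
  have hw' : y * L1.eval 0 + L2.eval 0 = t * (y * M1.eval 0 + M2.eval 0) := by
    rw [h1]
    linear_combination hy'
  have hev := congrArg (evalEvalRingHom (0 : ℂ) y) hQ0
  rw [hQ, b2f_map, map_zero] at hev
  simp only [map_add, map_mul, coe_evalEvalRingHom, evalEval_C, evalEval_X] at hev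
  rw [hw', b2f_mul] at hev
  refine mul_ne_zero (pow_ne_zero _ ?_) ht1 hev
  rw [hw]
  exact div_ne_zero hD ht2

/-- Generic projection of a curve on the scroll.  `A = ∑ A j ρ^j` is the primitive minimal polynomial of `ρ`
over `ℂ(x)`, of degree `c2 ≥ 2`, and `b = ν (ρ a1(x) + a2(x))`.  For `L : Fin d → ℂ` put `L_s = ∑ L i a_s i`
(polynomials of degree `≤ g_s`).  For `x0 ∈ ℂ` let `A_{x0}(r1, r2) = ∑ A j (x0) r1^j r2^(c2-j)`, a nonzero binary
form; for `x0 = ∞` replace `A j (x0)` by the coefficient of `X^(c1 - j g2 - (c2-j) g1)` in `A j` and `a_s i (x0)`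
by the coefficient of `X^(g_s)` (nonzero form by `heq`; `Scroll.indep`).  Choose `L` with `lf L b ≠ 0`; then
`(L_1, L_2) ≠ 0` and `R_L = ∑ A j (-L_2)^j L_1^(c2-j) ≠ 0` (else `A` has the root `-L_2 / L_1` in `ℂ(X)`, or
`L_1 = 0` and `A c2 = 0`; but `A` divides every relation, and `A / (L_1 Y + L_2)` or `L_1 Y + L_2` would be a
relation of smaller degree).  Choose `L'` nonzero at the finitely many nonzero vectors `r1 a1(x0) + r2 a2(x0)`
where `x0` is `∞` or a root of `R_L` and `(r1 : r2)` is a zero of `A_{x0}`, and at `-L_2 a1 + L_1 a2` at one `x0` with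
`(L_1, L_2)(x0) ≠ 0` (`ℂ^d` is not a finite union of hyperplanes; e.g. `L' i = t^i` for a suitable `t`).  With
`z = lf L b / lf L' b`: `ρ (L_1 - z L'_1) + (L_2 - z L'_2) = 0`, `L_1 L'_2 - L'_1 L_2 ≠ 0`, so `ℂ(x, z) = ℂ(x, ρ)`
has degree `c2` over `ℂ(x)`, and `G(X, Z) = ∑ A j (-(L_2 - Z L'_2))^j (L_1 - Z L'_1)^(c2-j)` is a relation of
`X`-degree `≤ c1`, `Z`-degree `≤ c2`.  The coefficient of `X^c1 Z^c2` is `A_∞(L'_2, -L'_1) ≠ 0`, and
`G(x0, Z) ≠ 0` for every `x0`: `G(x0, 0) = R_L(x0)`, and at a root of `R_L` the coefficient of `Z^c2` is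
`A_{x0}(L'_2, -L'_1)(x0) ≠ 0` (`L'` does not vanish at the zeros of `A_{x0}`, of which there is at least one, and
it vanishes at `(L'_2 : -L'_1)`).  So `G` is a constant multiple of the generator of `exists_princ x z`; finish with
`indep_corner` (replace `(L, L')` by `(L', L - s L')`). -/
theorem Scroll.indep_proj {N : NF d} {k : ℕ} {e1 e2 : Fin d → ℤ} (h1 : e1 ≠ 0)
    (hnd : ∀ i j, i ≠ j → N.PP e1 e2 i j ≠ 0) {U1 V1 U2 V2 : ℂ[X]} {a1 a2 : Fin d → ℂ[X]}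
    {g1 g2 : ℕ} (h : Scroll N k e1 e2 U1 V1 U2 V2 a1 a2 g1 g2) {Ω : Type} [Field Ω] [Algebra ℂ Ω]
    (x ρ ν : Ω) (b : Fin d → Ω) (hx : Transcendental ℂ x) (hν : ν ≠ 0)
    (hb : ∀ i, b i = ν * (ρ * aeval x (a1 i) + aeval x (a2 i))) (A : ℂ[X][Y])
    (hA : ∀ Ψ : ℂ[X][Y], aevalAeval x ρ Ψ = 0 ↔ A ∣ Ψ) (hA2 : 2 ≤ A.natDegree)
    (hprim : ∀ z : ℂ, ∃ j, (A.coeff j).eval z ≠ 0) (c1 : ℕ)
    (hle : ∀ j ≤ A.natDegree, A.coeff j ≠ 0 →
      (A.coeff j).natDegree + j * g2 + (A.natDegree - j) * g1 ≤ c1)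
    (heq : ∃ j ≤ A.natDegree, A.coeff j ≠ 0 ∧
      (A.coeff j).natDegree + j * g2 + (A.natDegree - j) * g1 = c1) :
    ∃ L L' : Fin d → ℂ, lf L' b ≠ 0 ∧ LinearIndependent ℂ
      (fun e : {e : ℕ × ℕ // e.1 < c1 ∨ e.2 < A.natDegree} =>
        x ^ e.1.1 * (lf L b / lf L' b) ^ e.1.2) := by
  classical
  obtain ⟨hind, hinf⟩ := h.indep h1 hnd
  set c2 := A.natDegree with hc2
  have hprim' : ∀ z : ℂ, ∃ j ≤ c2, (A.coeff j).eval z ≠ 0 := by
    intro z
    obtain ⟨j, hj⟩ := hprim z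
    refine ⟨j, le_natDegree_of_ne_zero fun h0 => hj ?_, hj⟩
    rw [h0, eval_zero]
  -- the first form
  obtain ⟨t0, ht0⟩ := b2f_exists_ne (hprim' 0)
  obtain ⟨L, hL1, hL2⟩ := b2_surj (hind 0) 1 (-t0)
  rw [← b2L_eval] at hL1 hL2
  set L1 := b2L L a1 with hL1d
  set L2 := b2L L a2 with hL2d
  set RL : ℂ[X] := b2f c2 A.coeff (-L2) L1 with hRL
  have hRL0 : RL ≠ 0 := by
    intro h0
    have := congrArg (evalRingHom (0 : ℂ)) h0
    rw [hRL, b2f_map, map_zero] at this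
    simp only [coe_evalRingHom, eval_neg, hL1, hL2, neg_neg] at this
    exact ht0 this
  -- the second form
  obtain ⟨F1, hF1, eF1⟩ := b2_mv (n := 1) (α := fun j => if j = 0 then L2.eval 0 else 1)
    ⟨1, le_rfl, by simp⟩ (hind 0)
  obtain ⟨F2, hF2, eF2⟩ := b2_mv (n := c2)
    (α := fun j => (A.coeff j).coeff (c1 - j * g2 - (c2 - j) * g1)) (by
      obtain ⟨j, hj, hj0, hje⟩ := heq
      refine ⟨j, hj, ?_⟩
      have e : c1 - j * g2 - (c2 - j) * g1 = (A.coeff j).natDegree := by omega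
      rw [e]
      exact leadingCoeff_ne_zero.2 hj0) hinf
  choose F3 hF3 eF3 using fun z : ℂ => b2_mv (hprim' z) (hind z)
  obtain ⟨M, hM⟩ := b2_mv_pt (F := F1 * F2 * ∏ z ∈ RL.roots.toFinset, F3 z)
    (mul_ne_zero (mul_ne_zero hF1 hF2) (Finset.prod_ne_zero_iff.2 fun z _ => hF3 z))
  rw [map_mul, map_mul, map_prod] at hM
  have hM1 := left_ne_zero_of_mul (left_ne_zero_of_mul hM)
  have hM2 := right_ne_zero_of_mul (left_ne_zero_of_mul hM)
  have hM3 := Finset.prod_ne_zero_iff.1 (right_ne_zero_of_mul hM)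
  rw [eF1, ← b2L_eval, ← b2L_eval] at hM1
  rw [eF2, ← b2L_coeff, ← b2L_coeff] at hM2
  set M1 := b2L M a1 with hM1d
  set M2 := b2L M a2 with hM2d
  have hD : M2.eval 0 - L2.eval 0 * M1.eval 0 ≠ 0 := by
    intro h0
    apply hM1
    simp only [b2f, Finset.sum_range_succ, Finset.range_one, Finset.sum_singleton]
    simp only [if_true, one_ne_zero, if_false]
    linear_combination h0
  have hw : ρ * aeval x M1 + aeval x M2 ≠ 0 := by
    intro h0
    have hr : aevalAeval x ρ (Y * C M1 + C M2 : ℂ[X][Y]) = 0 := by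
      simpa only [map_add, map_mul, aevalAeval_C, aevalAeval_Y] using h0
    have hz0 : (Y * C M1 + C M2 : ℂ[X][Y]) = 0 :=
      eq_zero_of_dvd_of_natDegree_lt ((hA _).1 hr) ((b2_lin_natDegree _ _).trans_lt (by omega))
    have e0 := congrArg (fun p : ℂ[X][Y] => p.coeff 0) hz0
    have e1 := congrArg (fun p : ℂ[X][Y] => p.coeff 1) hz0
    simp [coeff_C] at e0 e1
    exact hD (by simp [e0, e1])
  have hlfM : lf M b ≠ 0 := by
    rw [b2_lf hb]
    exact mul_ne_zero hν hw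
  set z := lf L b / lf M b with hzd
  have hz : ρ * aeval x L1 + aeval x L2 = z * (ρ * aeval x M1 + aeval x M2) := by
    rw [hzd, b2_lf hb, b2_lf hb, ← hL1d, ← hL2d, ← hM1d, ← hM2d, mul_div_mul_left _ _ hν,
      div_mul_cancel₀ _ hw]
  -- the relation `G`
  set G : ℂ[X][Y] := b2f c2 (fun j => C (A.coeff j)) (Y * C M2 + C (-L2)) (Y * C (-M1) + C L1)
    with hG
  have hcond : ∀ j ≤ c2, (C (A.coeff j) : ℂ[X][Y]) ≠ 0 →
      (C (A.coeff j) : ℂ[X][Y]).natDegree + j * 1 + (c2 - j) * 1 ≤ c2 := fun j hj _ => by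
    rw [natDegree_C]; omega
  have hGd : G.natDegree ≤ c2 :=
    b2f_natDegree_le c2 _ _ _ 1 1 c2 (b2_lin_natDegree _ _) (b2_lin_natDegree _ _) hcond
  set T : ℂ[X] := b2f c2 A.coeff M2 (-M1) with hT
  have hGT : G.coeff c2 = T := by
    rw [hG, b2f_coeff c2 _ _ _ 1 1 c2 (b2_lin_natDegree _ _) (b2_lin_natDegree _ _) hcond, hT]
    have e1 : ∀ p q : ℂ[X], (Y * C p + C q : ℂ[X][Y]).coeff 1 = p := by
      intro p q
      simp [coeff_C]
    rw [e1, e1]
    refine b2f_congr (fun j hj => ?_) _ _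
    have e : c2 - j * 1 - (c2 - j) * 1 = 0 := by omega
    rw [e, coeff_C_zero]
  have hG0 : G.coeff 0 = RL := by
    rw [coeff_zero_eq_eval_zero, ← coe_evalRingHom, hG, b2f_map, hRL]
    simp
  have hGr : aevalAeval x z G = 0 := by
    rw [hG, b2f_map]
    simp only [map_add, map_mul, aevalAeval_C, aevalAeval_Y, map_neg]
    have e : z * aeval x M2 + -aeval x L2 = ρ * (z * -aeval x M1 + aeval x L1) := by
      linear_combination -hz
    rw [e, b2f_mul, ← b2_aeval x ρ A le_rfl, (hA A).2 dvd_rfl, mul_zero]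
  have hTc : T.coeff c1 ≠ 0 := by
    rw [hT, b2f_coeff c2 _ _ _ g1 g2 c1 (b2L_natDegree_le _ _ h.deg2.2.2)
      (by rw [natDegree_neg]; exact b2L_natDegree_le _ _ h.deg1.2.2) hle, coeff_neg]
    exact hM2
  have hT0 : T ≠ 0 := fun h0 => hTc (by rw [h0, coeff_zero])
  have hGne : G ≠ 0 := fun h0 => hT0 (by rw [← hGT, h0, coeff_zero])
  obtain ⟨P, hP0, -, hPp, hP⟩ := exists_princ x z hx (b2_isAlg hx hGne hGr)
  have hPd : c2 ≤ P.natDegree := b2_deg_ge hA hz hL1 hD ((hP P).2 dvd_rfl) (hPp 0)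
  obtain ⟨Q, hQ⟩ := (hP G).1 hGr
  have hQ0 : Q ≠ 0 := fun h0 => hGne (by rw [hQ, h0, mul_zero])
  have hQd : Q.natDegree = 0 := by
    have := natDegree_mul hP0 hQ0
    rw [← hQ] at this
    omega
  obtain ⟨q, rfl⟩ := natDegree_eq_zero.1 hQd
  have hcoef : ∀ j, G.coeff j = P.coeff j * q := fun j => by rw [hQ, coeff_mul_C]
  have hqd : q.natDegree = 0 := by
    by_contra hne
    obtain ⟨x0, hx0⟩ := IsAlgClosed.exists_root q (fun h0 => hne (natDegree_eq_zero_iff_degree_le_zero.2 h0.le))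
    have r1 : RL.eval x0 = 0 := by rw [← hG0, hcoef, eval_mul, hx0.eq_zero, mul_zero]
    have r2 : T.eval x0 = 0 := by rw [← hGT, hcoef, eval_mul, hx0.eq_zero, mul_zero]
    apply hM3 x0 (Multiset.mem_toFinset.2 ((mem_roots hRL0).2 r1))
    rw [eF3, ← b2L_eval, ← b2L_eval, ← r2, hT, ← coe_evalRingHom, b2f_map]
    simp only [map_neg]
    rfl
  have hPc : c1 ≤ (P.coeff c2).natDegree := by
    have h1 : c1 ≤ T.natDegree := le_natDegree_of_ne_zero hTc
    rw [← hGT, hcoef] at h1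
    have h2 := natDegree_mul_le (p := P.coeff c2) (q := q)
    omega
  obtain ⟨j0, hj0, hmax⟩ := P.support.exists_max_image (fun j => (P.coeff j).natDegree)
    (support_nonempty.2 hP0)
  have hle' : ∀ j, (P.coeff j).natDegree ≤ (P.coeff j0).natDegree := by
    intro j
    by_cases hj : j ∈ P.support
    · exact hmax j hj
    · rw [notMem_support_iff.1 hj, natDegree_zero]
      exact Nat.zero_le _
  obtain ⟨s, hs, hli⟩ := indep_corner x z P hP0 hP _ ⟨j0, rfl, mem_support_iff.1 hj0⟩ hle'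
  have hlf : lf (fun i => L i - s * M i) b = lf L b - algebraMap ℂ Ω s * lf M b := by
    simp only [lf, map_sub, map_mul, Finset.mul_sum, ← Finset.sum_sub_distrib]
    exact Finset.sum_congr rfl fun i _ => by ring
  have hlf' : lf (fun i => L i - s * M i) b = (z - algebraMap ℂ Ω s) * lf M b := by
    rw [hlf, hzd]
    field_simp
  refine ⟨M, fun i => L i - s * M i, by rw [hlf']; exact mul_ne_zero hs hlfM, ?_⟩
  have e : lf M b / lf (fun i => L i - s * M i) b = (z - algebraMap ℂ Ω s)⁻¹ := by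
    rw [hlf']
    field_simp
  rw [e]
  have hc := hPc.trans (hle' c2)
  exact hli.comp (fun e : {e : ℕ × ℕ // e.1 < c1 ∨ e.2 < c2} =>
    (⟨e.1, e.2.imp (fun h => h.trans_le hc) (fun h => h.trans_le hPd)⟩ :
      {e : ℕ × ℕ // e.1 < (P.coeff j0).natDegree ∨ e.2 < P.natDegree}))
    fun e e' hee => Subtype.ext (Subtype.mk.inj hee)

end Crest.Agent.R22
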