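import Crest.Agent.R22.Princ
import Crest.Agent.R22.Ker
import Crest.Agent.R22.Fix
import Crest.Agent.R22.Beta2

namespace Crest.Agent.R22

open Polynomial
open scoped Polynomial.Bivariate

variable {d : ℕ}

section aux

variable {Ω : Type} [Field Ω] [Algebra ℂ Ω]

theorem b3_sum (x y : Ω) (A : ℂ[X][Y]) :
    aevalAeval x y A = ∑ j ∈ Finset.range (A.natDegree + 1), aeval x (A.coeff j) * y ^ j := by
  conv_lhs => rw [A.as_sum_range_C_mul_X_pow, map_sum]
  exact Finset.sum_congr rfl fun j _ => by rw [map_mul, map_pow, aevalAeval_C, aevalAeval_Y]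

theorem b3_map (x y : Ω) (A : ℂ[X][Y]) :
    aevalAeval x y A = (A.map (aeval x : ℂ[X] →ₐ[ℂ] Ω).toRingHom).eval y := by
  rw [b3_sum, eval_map, eval₂_eq_sum_range]
  rfl

theorem b3_mem (K : IntermediateField ℂ Ω) {x : Ω} (hx : x ∈ K) (p : ℂ[X]) : aeval x p ∈ K := by
  rw [aeval_eq_sum_range]
  exact K.sum_mem fun j _ => K.smul_mem (pow_mem hx _)

/-- the binary form of `A` evaluated at `(P, Q)` -/
noncomputable def b3H (A P Q : ℂ[X][Y]) : ℂ[X][Y] :=
  ∑ j ∈ Finset.range (A.natDegree + 1), C (A.coeff j) * (P ^ j * Q ^ (A.natDegree - j))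

theorem b3H_eval (A P Q : ℂ[X][Y]) (x w r : Ω) (h : aevalAeval x w P = r * aevalAeval x w Q) :
    aevalAeval x w (b3H A P Q) = aevalAeval x w Q ^ A.natDegree * aevalAeval x r A := by
  rw [b3H, map_sum, b3_sum x r, Finset.mul_sum]
  refine Finset.sum_congr rfl fun j hj => ?_
  obtain ⟨m, hm⟩ := Nat.exists_eq_add_of_le (Nat.lt_succ_iff.1 (Finset.mem_range.1 hj))
  rw [map_mul, map_mul, map_pow, map_pow, aevalAeval_C, h, hm, Nat.add_sub_cancel_left]
  ring

theorem b3H_natDegree (A : ℂ[X][Y]) {P Q : ℂ[X][Y]} (hP : P.natDegree ≤ 1) (hQ : Q.natDegree ≤ 1) :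
    (b3H A P Q).natDegree ≤ A.natDegree := by
  refine natDegree_sum_le_of_forall_le _ _ fun j hj => (natDegree_C_mul_le _ _).trans ?_
  have h1 := Nat.lt_succ_iff.1 (Finset.mem_range.1 hj)
  have h2 := natDegree_pow_le_of_le j hP
  have h3 := natDegree_pow_le_of_le (A.natDegree - j) hQ
  exact natDegree_mul_le.trans (by omega)

/-- all coefficients have degree at most `n` -/
def b3CD (n : ℕ) (p : ℂ[X][Y]) : Prop := ∀ j, (p.coeff j).natDegree ≤ n

theorem b3CD.mul {n m : ℕ} {p q : ℂ[X][Y]} (hp : b3CD n p) (hq : b3CD m q) :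
    b3CD (n + m) (p * q) := fun j => by
  rw [coeff_mul]
  exact natDegree_sum_le_of_forall_le _ _ fun c _ =>
    natDegree_mul_le.trans (add_le_add (hp _) (hq _))

theorem b3CD_C {n : ℕ} {a : ℂ[X]} (ha : a.natDegree ≤ n) : b3CD n (C a) := fun j => by
  rw [coeff_C]
  split_ifs
  · exact ha
  · simp

theorem b3CD.pow {n : ℕ} {p : ℂ[X][Y]} (hp : b3CD n p) (m : ℕ) : b3CD (m * n) (p ^ m) := by
  induction m with
  | zero => simpa using b3CD_C (n := 0) (a := 1) (by simp)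
  | succ m ih => rw [pow_succ, Nat.succ_mul]; exact ih.mul hp

theorem b3CD_lin {n : ℕ} {U V : ℂ[X]} (hU : U.natDegree ≤ n) (hV : V.natDegree ≤ n) :
    b3CD n (C V * Y + C U) := fun j => by
  rw [coeff_add]
  refine (natDegree_add_le _ _).trans (max_le ?_ (b3CD_C hU j))
  rw [coeff_C_mul, coeff_X]
  split_ifs
  · simpa using hV
  · simp

theorem b3H_CD {A P Q : ℂ[X][Y]} {n m c : ℕ} (hP : b3CD n P) (hQ : b3CD m Q)
    (h : ∀ j ≤ A.natDegree, A.coeff j ≠ 0 →
      (A.coeff j).natDegree + (j * n + (A.natDegree - j) * m) ≤ c) : b3CD c (b3H A P Q) := by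
  intro l
  rw [b3H, finsetSum_coeff]
  refine natDegree_sum_le_of_forall_le _ _ fun j hj => ?_
  by_cases h0 : A.coeff j = 0
  · simp [h0]
  · exact (((b3CD_C le_rfl).mul ((hP.pow j).mul (hQ.pow _))) l).trans
      (h j (Nat.lt_succ_iff.1 (Finset.mem_range.1 hj)) h0)

/-- vanishing to order `a` (value and first derivative) -/
def b3V (π t : ℂ[X]) (a : ℕ) (p : ℂ[X][Y]) : Prop :=
  π ^ a ∣ p.eval t ∧ π ^ (a - 1) ∣ (derivative p).eval t

theorem b3V.mul {π t : ℂ[X]} {a b : ℕ} {p q : ℂ[X][Y]} (hp : b3V π t a p) (hq : b3V π t b q) :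
    b3V π t (a + b) (p * q) := by
  refine ⟨by rw [eval_mul, pow_add]; exact mul_dvd_mul hp.1 hq.1, ?_⟩
  rw [derivative_mul, eval_add, eval_mul, eval_mul]
  refine dvd_add (dvd_trans ?_ (mul_dvd_mul hp.2 hq.1)) (dvd_trans ?_ (mul_dvd_mul hp.1 hq.2))
  · rw [← pow_add]; exact pow_dvd_pow _ (by omega)
  · rw [← pow_add]; exact pow_dvd_pow _ (by omega)

theorem b3V.pow {π t : ℂ[X]} {p : ℂ[X][Y]} (hp : π ∣ p.eval t) (m : ℕ) : b3V π t m (p ^ m) := by
  induction m with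
  | zero => exact ⟨by simp, by simp⟩
  | succ m ih => rw [pow_succ]; exact ih.mul ⟨by simpa using hp, by simp⟩

theorem b3H_V (A : ℂ[X][Y]) {π t : ℂ[X]} {P Q : ℂ[X][Y]} (hP : π ∣ P.eval t) (hQ : π ∣ Q.eval t) :
    b3V π t A.natDegree (b3H A P Q) := by
  have key : ∀ j ∈ Finset.range (A.natDegree + 1),
      b3V π t A.natDegree (C (A.coeff j) * (P ^ j * Q ^ (A.natDegree - j))) := fun j hj => by
    have h1 := (show b3V π t 0 (C (A.coeff j)) from ⟨by simp, by simp⟩).mul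
      ((b3V.pow hP j).mul (b3V.pow hQ (A.natDegree - j)))
    rwa [zero_add, Nat.add_sub_cancel' (Nat.lt_succ_iff.1 (Finset.mem_range.1 hj))] at h1
  constructor
  · rw [b3H, eval_finsetSum]
    exact Finset.dvd_sum fun j hj => (key j hj).1
  · rw [b3H, derivative_sum, eval_finsetSum]
    exact Finset.dvd_sum fun j hj => (key j hj).2

theorem b3_two_le {x ρ : Ω} (hx : Transcendental ℂ x) (hρ : ρ ∉ IntermediateField.adjoin ℂ {x})
    {A : ℂ[X][Y]} (hA : A ≠ 0) (h : aevalAeval x ρ A = 0) : 2 ≤ A.natDegree := by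
  by_contra hlt
  have hxK := IntermediateField.mem_adjoin_simple_self ℂ x
  have h1 := eq_X_add_C_of_natDegree_le_one (p := A) (by omega)
  rw [h1, map_add, map_mul, aevalAeval_C, aevalAeval_C, aevalAeval_Y] at h
  by_cases h2 : aeval x (A.coeff 1) = 0
  · rw [h2, zero_mul, zero_add] at h
    rw [transcendental_iff.1 hx _ h2, transcendental_iff.1 hx _ h] at h1
    exact hA (by simpa using h1)
  · refine hρ ?_
    rw [show ρ = - aeval x (A.coeff 0) / aeval x (A.coeff 1) by field_simp; linear_combination h]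
    exact div_mem (neg_mem (b3_mem _ hxK _)) (b3_mem _ hxK _)

theorem b3_rat {x ρ : Ω} (hρ : Transcendental ℂ ρ) {A : ℂ[X][Y]} (hA : A ≠ 0)
    (h : aevalAeval x ρ A = 0) (hd : b3CD 1 A) (F : IntermediateField ℂ Ω) (hF : ρ ∈ F) : x ∈ F := by
  obtain ⟨p, hp⟩ : ∃ p : ℕ → ℂ[X], ∀ i,
      p i = ∑ j ∈ Finset.range (A.natDegree + 1), monomial j ((A.coeff j).coeff i) :=
    ⟨_, fun _ => rfl⟩
  have h1 : aeval ρ (p 1) * x + aeval ρ (p 0) = 0 := by
    rw [← h, b3_sum, hp, hp, map_sum, map_sum, Finset.sum_mul, ← Finset.sum_add_distrib]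
    refine Finset.sum_congr rfl fun j _ => ?_
    conv_rhs => rw [eq_X_add_C_of_natDegree_le_one (hd j)]
    simp only [aeval_monomial, map_add, map_mul, aeval_C, aeval_X]
    ring
  by_cases h2 : aeval ρ (p 1) = 0
  · rw [h2, zero_mul, zero_add] at h1
    have h3 : ∀ i, p i = 0 → (A.coeff A.natDegree).coeff i = 0 := fun i hi => by
      have h4 := congrArg (fun q => q.coeff A.natDegree) ((hp i).symm.trans hi)
      simpa [coeff_monomial] using h4
    have h4 := eq_X_add_C_of_natDegree_le_one (hd A.natDegree)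
    rw [h3 1 (transcendental_iff.1 hρ _ h2), h3 0 (transcendental_iff.1 hρ _ h1)] at h4
    exact absurd (by simpa using h4) hA
  · rw [show x = - aeval ρ (p 0) / aeval ρ (p 1) by field_simp; linear_combination h1]
    exact div_mem (neg_mem (b3_mem _ hF _)) (b3_mem _ hF _)

theorem b3_ell {N : NF d} {e1 : Fin d → ℤ} (h1 : e1 ≠ 0) (e2 : Fin d → ℤ) {x : Ω}
    (hx : Transcendental ℂ x) (i : Fin d) : aeval x (N.ell e1 e2 i) ≠ 0 := fun h => by
  have h2 := congrArg (fun p : ℂ[X] => p.coeff 1) (transcendental_iff.1 hx _ h)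
  exact N.emb_ne_zero h1 i (by simpa [NF.ell] using h2)

theorem b3_rel {N : NF d} {k : ℕ} {e1 e2 : Fin d → ℤ} {x nn : Ω} {b : Fin d → Ω}
    (hrel : Rel N 1 k e1 e2 x nn b) (i : Fin d) :
    b i * aeval x (N.ell e1 e2 i) ^ k = nn - algebraMap ℂ Ω (N.θ i) := by
  simpa [NF.ell] using hrel i

end aux

/-- β-side degrees.  Put `ρ1 = nn V2 + U2`, `ρ2 = -(nn V1 + U1)` (at `x`); then `ρ1 a1 + ρ2 a2 = Δ b`, `ρ2 ≠ 0`
(`nn ∉ ℂ(x)` and `(U1, V1) ≠ 0`), `ρ = ρ1 / ρ2`, `ν = ρ2 / Δ`, `ℂ(x, ρ) = ℂ(x, nn)`.  `A` from `exists_princ x ρ`,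
`c2 = natDegree A ≥ 2`, `c1 = max (deg A j + j g2 + (c2 - j) g1) ≥ c2 g2`.
`ĝ = ∑ A j (Y V2 + U2)^j (-(Y V1 + U1))^(c2-j)`; it is nonzero (an invertible linear substitution over
`ℂ(X)`; or: at a complex `x0` with `Δ(x0) ≠ 0` the binary form `A_{x0} ≠ 0`).  At `Y = θ i` both factors are divisible
by `ℓ i^k`.  If `g1 = g2` and `c1 ≤ g2 c2 + 1` then all `deg A j ≤ 1`, so `x A¹(ρ) + A⁰(ρ) = 0`; `ρ` is
transcendental over `ℂ` (else `ρ ∈ ℂ`, `c2 = 1`), `A¹ ≠ 0`, so `x ∈ ℂ(ρ)`. -/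
theorem Scroll.beta_deg {N : NF d} {k : ℕ} {e1 e2 : Fin d → ℤ} (h1 : e1 ≠ 0)
    (hnd : ∀ i j, i ≠ j → N.PP e1 e2 i j ≠ 0) {U1 V1 U2 V2 : ℂ[X]} {a1 a2 : Fin d → ℂ[X]}
    {g1 g2 : ℕ} (h : Scroll N k e1 e2 U1 V1 U2 V2 a1 a2 g1 g2) {Ω : Type} [Field Ω] [Algebra ℂ Ω]
    {x nn : Ω} {b : Fin d → Ω} (hrel : Rel N 1 k e1 e2 x nn b) (hx : Transcendental ℂ x)
    (halg : IsAlgebraic (IntermediateField.adjoin ℂ {x}) nn)
    (hn : nn ∉ IntermediateField.adjoin ℂ {x}) :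
    ∃ (c1 c2 : ℕ) (L L' : Fin d → ℂ) (gh : ℂ[X][Y]), 2 ≤ c2 ∧ g2 * c2 ≤ c1 ∧ lf L' b ≠ 0 ∧
      LinearIndependent ℂ (fun e : {e : ℕ × ℕ // e.1 < c1 ∨ e.2 < c2} =>
        x ^ e.1.1 * (lf L b / lf L' b) ^ e.1.2) ∧
      gh ≠ 0 ∧ gh.natDegree ≤ c2 ∧ (∀ j, (gh.coeff j).natDegree ≤ c1 + k * c2) ∧
      aevalAeval x nn gh = 0 ∧
      (∀ i, N.ell e1 e2 i ^ (k * c2) ∣ gh.eval (C (N.θ i))) ∧
      (∀ i, N.ell e1 e2 i ^ (k * (c2 - 1)) ∣ (derivative gh).eval (C (N.θ i))) ∧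
      (g1 = g2 → c1 ≤ g2 * c2 + 1 → x ∈ IntermediateField.adjoin ℂ
        {(nn * aeval x V2 + aeval x U2) / (nn * aeval x V1 + aeval x U1)}) := by
  have hxK := IntermediateField.mem_adjoin_simple_self ℂ x
  have hmem := b3_mem _ hxK
  have hl := b3_ell (N := N) h1 e2 hx
  have hΔ : aeval x U1 * aeval x V2 - aeval x U2 * aeval x V1 ≠ 0 := by
    obtain ⟨c, hc, hdet⟩ := h.det
    rw [← map_mul, ← map_mul, ← map_sub, hdet, map_mul, map_pow, map_prod, aeval_C]
    exact mul_ne_zero ((_root_.map_ne_zero _).2 hc) (pow_ne_zero _ (Finset.prod_ne_zero_iff.2 fun i _ => hl i))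
  have hρ2 : nn * aeval x V1 + aeval x U1 ≠ 0 := fun h0 => by
    by_cases hv : aeval x V1 = 0
    · rw [hv, mul_zero, zero_add] at h0
      exact hΔ (by rw [hv, h0]; ring)
    · refine hn ?_
      rw [show nn = - aeval x U1 / aeval x V1 by field_simp; linear_combination h0]
      exact div_mem (neg_mem (hmem _)) (hmem _)
  obtain ⟨ρ, hρ⟩ : ∃ ρ, ρ = - ((nn * aeval x V2 + aeval x U2) / (nn * aeval x V1 + aeval x U1)) :=
    ⟨_, rfl⟩
  have hρ' : nn * aeval x V2 + aeval x U2 = ρ * - (nn * aeval x V1 + aeval x U1) := by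
    rw [hρ]
    field_simp
  have hρK : ρ ∉ IntermediateField.adjoin ℂ {x} := fun hK => by
    by_cases hv : aeval x V2 + ρ * aeval x V1 = 0
    · refine hΔ ?_
      have h2 : aeval x U2 + ρ * aeval x U1 = 0 := by linear_combination hρ' - nn * hv
      linear_combination aeval x U1 * hv - aeval x V1 * h2
    · refine hn ?_
      rw [show nn = - (aeval x U2 + ρ * aeval x U1) / (aeval x V2 + ρ * aeval x V1) by
        field_simp; linear_combination hρ']
      exact div_mem (neg_mem (add_mem (hmem _) (mul_mem hK (hmem _))))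
        (add_mem (hmem _) (mul_mem hK (hmem _)))
  have hρa : IsAlgebraic (IntermediateField.adjoin ℂ {x}) ρ := by
    have h2 : ∀ p : ℂ[X], aeval x p ∈ algebraicClosure (IntermediateField.adjoin ℂ {x}) Ω :=
      fun p => (algebraicClosure _ Ω).algebraMap_mem (⟨_, hmem p⟩ : IntermediateField.adjoin ℂ {x})
    have h3 := mem_algebraicClosure_iff.2 halg
    rw [← mem_algebraicClosure_iff, hρ]
    exact neg_mem (div_mem (add_mem (mul_mem h3 (h2 _)) (h2 _)) (add_mem (mul_mem h3 (h2 _)) (h2 _)))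
  have hρt : Transcendental ℂ ρ := fun ha => by
    obtain ⟨z, hz⟩ := minpoly.mem_range_of_degree_eq_one ℂ ρ
      (IsAlgClosed.degree_eq_one_of_irreducible ℂ (minpoly.irreducible ha.isIntegral))
    exact hρK (hz ▸ IntermediateField.algebraMap_mem _ z)
  obtain ⟨A, hA0, -, hprim, hA⟩ := exists_princ x ρ hx hρa
  have hAρ := (hA A).2 dvd_rfl
  have hA2 := b3_two_le hx hρK hA0 hAρ
  obtain ⟨j0, hj0, hmax⟩ := Finset.exists_max_image A.support
    (fun j => (A.coeff j).natDegree + j * g2 + (A.natDegree - j) * g1) (support_nonempty.2 hA0)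
  have hle : ∀ j, A.coeff j ≠ 0 → (A.coeff j).natDegree + j * g2 + (A.natDegree - j) * g1 ≤
      (A.coeff j0).natDegree + j0 * g2 + (A.natDegree - j0) * g1 := fun j hj =>
    hmax j (mem_support_iff.2 hj)
  have hb : ∀ i, b i = - (nn * aeval x V1 + aeval x U1) /
      (aeval x U1 * aeval x V2 - aeval x U2 * aeval x V1) *
        (ρ * aeval x (a1 i) + aeval x (a2 i)) := fun i => by
    have e1' := congrArg (aeval x) (h.eq1 i)
    have e2' := congrArg (aeval x) (h.eq2 i)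
    have e3 := b3_rel hrel i
    simp only [map_add, map_mul, map_pow, aeval_C] at e1' e2'
    rw [div_mul_eq_mul_div, eq_div_iff hΔ]
    refine mul_left_cancel₀ (pow_ne_zero k (hl i)) ?_
    linear_combination (aeval x U1 * aeval x V2 - aeval x U2 * aeval x V1) * e3 +
      (nn * aeval x V2 + aeval x U2) * e1' - (nn * aeval x V1 + aeval x U1) * e2' +
      aeval x (N.ell e1 e2 i) ^ k * aeval x (a1 i) * hρ'
  obtain ⟨L, L', hL', hli⟩ := h.indep_proj h1 hnd x ρ _ b hx (div_ne_zero (neg_ne_zero.2 hρ2) hΔ) hb A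
    hA hA2 hprim _ (fun j _ => hle j) ⟨j0, le_natDegree_of_mem_supp _ hj0, mem_support_iff.1 hj0, rfl⟩
  generalize (A.coeff j0).natDegree + j0 * g2 + (A.natDegree - j0) * g1 = c1 at hle hli
  have hP : ∀ w : Ω, aevalAeval x w (C V2 * Y + C U2) = w * aeval x V2 + aeval x U2 := fun w => by
    rw [map_add, map_mul, aevalAeval_C, aevalAeval_C, aevalAeval_Y, mul_comm]
  have hQ : ∀ w : Ω, aevalAeval x w (C (-V1) * Y + C (-U1)) = - (w * aeval x V1 + aeval x U1) :=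
    fun w => by
      rw [map_add, map_mul, aevalAeval_C, aevalAeval_C, aevalAeval_Y, map_neg, map_neg]
      ring
  have hV : ∀ i, b3V (N.ell e1 e2 i ^ k) (C (N.θ i)) A.natDegree
      (b3H A (C V2 * Y + C U2) (C (-V1) * Y + C (-U1))) := fun i => by
    refine b3H_V A ⟨a2 i, ?_⟩ ⟨- a1 i, ?_⟩
    · simp only [eval_add, eval_mul, eval_C, eval_X]
      linear_combination h.eq2 i
    · simp only [eval_add, eval_mul, eval_C, eval_X]
      linear_combination - h.eq1 i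
  refine ⟨c1, A.natDegree, L, L', b3H A (C V2 * Y + C U2) (C (-V1) * Y + C (-U1)), hA2, ?_, hL', hli,
    fun h0 => ?_, b3H_natDegree A natDegree_linear_le natDegree_linear_le, ?_, ?_,
    fun i => pow_mul (N.ell e1 e2 i) k _ ▸ (hV i).1, fun i => pow_mul (N.ell e1 e2 i) k _ ▸ (hV i).2,
    fun hg hc => ?_⟩
  · have := hle A.natDegree (leadingCoeff_ne_zero.2 hA0)
    rw [mul_comm]
    omega
  · have : Infinite Ω := Infinite.of_injective _ (algebraMap ℂ Ω).injective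
    have h2 : A.map (aeval x : ℂ[X] →ₐ[ℂ] Ω).toRingHom ≠ 0 :=
      (Polynomial.map_ne_zero_iff (transcendental_iff_injective.1 hx)).2 hA0
    have h3 : C (aeval x V1) * X + C (aeval x V2) ≠ 0 := fun h4 => by
      have h5 := congrArg (fun p => coeff p 0) h4
      have h6 := congrArg (fun p => coeff p 1) h4
      simp only [coeff_add, coeff_C_mul, coeff_X, coeff_C, coeff_zero] at h5 h6
      norm_num at h5 h6
      exact hΔ (by rw [h5, h6]; ring)
    refine mul_ne_zero h2 h3 (zero_of_eval_zero _ fun r => ?_)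
    rw [eval_mul, ← b3_map]
    simp only [eval_add, eval_mul, eval_C, eval_X]
    refine mul_eq_zero.2 (or_iff_not_imp_right.2 fun h4 => ?_)
    obtain ⟨w, hw⟩ : ∃ w, w * (aeval x V1 * r + aeval x V2) = - (aeval x U2 + r * aeval x U1) :=
      ⟨_, div_mul_cancel₀ _ h4⟩
    have h5 := b3H_eval A (C V2 * Y + C U2) (C (-V1) * Y + C (-U1)) x w r (by
      rw [hP, hQ]
      linear_combination hw)
    rw [h0, map_zero, hQ] at h5
    refine (mul_eq_zero.1 h5.symm).resolve_left (pow_ne_zero _ (neg_ne_zero.2 fun h6 => hΔ ?_))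
    linear_combination (aeval x V1 * r + aeval x V2) * h6 - aeval x V1 * hw
  · refine b3H_CD (b3CD_lin h.deg2.1 h.deg2.2.1)
      (b3CD_lin ((natDegree_neg _).trans_le h.deg1.1) ((natDegree_neg _).trans_le h.deg1.2.1))
      fun j hj h0 => ?_
    obtain ⟨m, hm⟩ := Nat.exists_eq_add_of_le hj
    have h2 := hle j h0
    rw [hm, Nat.add_sub_cancel_left] at h2 ⊢
    nlinarith
  · rw [b3H_eval A _ _ x nn ρ (by rw [hP, hQ, hρ']), hAρ, mul_zero]
  · refine b3_rat hρt hA0 hAρ (fun j => ?_) _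
      (hρ ▸ neg_mem (IntermediateField.mem_adjoin_simple_self ℂ _))
    by_cases h0 : A.coeff j = 0
    · simp [h0]
    · obtain ⟨m, hm⟩ := Nat.exists_eq_add_of_le (le_natDegree_of_ne_zero h0)
      have h2 := hle j h0
      rw [hm, Nat.add_sub_cancel_left, hg] at h2
      rw [hm] at hc
      nlinarith

/-- If `nn ∈ ℂ(x)` then all `b i = (nn - θ i) / ℓ i^k ∈ ℂ(x)` (`ℓ i ≠ 0` as `x` is transcendental). -/
theorem Rel.Kf_le {N : NF d} {k : ℕ} {e1 e2 : Fin d → ℤ} (h1 : e1 ≠ 0) {Ω : Type} [Field Ω]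
    [Algebra ℂ Ω] {x nn : Ω} {b : Fin d → Ω} (hrel : Rel N 1 k e1 e2 x nn b)
    (hx : Transcendental ℂ x) (K : IntermediateField ℂ Ω) (hxK : x ∈ K) (hn : nn ∈ K) :
    Kf x b ≤ K := by
  have hb : ∀ i, b i ∈ K := fun i => by
    rw [eq_div_of_mul_eq (pow_ne_zero k (b3_ell h1 e2 hx i)) (b3_rel hrel i)]
    exact div_mem (sub_mem hn (K.algebraMap_mem _)) (pow_mem (b3_mem K hxK _) _)
  refine IntermediateField.adjoin_le_iff.2 ?_
  rintro z (rfl | ⟨i, j, rfl⟩)
  · exact hxK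
  · exact div_mem (hb i) (hb j)

end Crest.Agent.R22
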