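import Crest.Agent.R22.Princ
import Crest.Agent.R22.Ker
import Crest.Agent.R22.Fix
import Crest.Agent.R22.Beta1

namespace Crest.Agent.R22

open Polynomial
open scoped Polynomial.Bivariate

variable {d : ℕ}

namespace B4

lemma lin_iff (N : NF d) {ι : Type} [Fintype ι] (W : ι → Fin d → ℤ) (v : ι → ℂ) :
    (∀ i, ∑ x, v x * N.emb (W x) i = 0) ↔ ∀ s, ∑ x, (W x s : ℂ) * v x = 0 := by
  have e : ∀ i, ∑ x, v x * N.emb (W x) i =
      ∑ t : Fin d, algebraMap ℂ ℂ (N.θ i ^ (t : ℕ)) * ∑ x, (W x t : ℂ) * v x := fun i => by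
    simp only [NF.emb, Finset.mul_sum, Algebra.algebraMap_self, RingHom.id_apply]
    rw [Finset.sum_comm]
    exact Finset.sum_congr rfl fun t _ => Finset.sum_congr rfl fun x _ => by ring
  constructor
  · intro h s
    rw [← N.co_sum (fun t => ∑ x, (W x t : ℂ) * v x) s]
    simp only [← e, h, NF.co, mul_zero, Finset.sum_const_zero]
  · intro h i
    simp only [e, h, mul_zero, Finset.sum_const_zero]

/-- Families of polynomials with coefficients in `ℤ[θ]` of bounded size. -/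
def Good (N : NF d) (M : ℝ) (p : Fin d → ℂ[X]) : Prop :=
  ∀ j, (fun i => (p i).coeff j) ∈ N.R ∧ ∀ i, ‖(p i).coeff j‖ ≤ M

lemma good_mono (N : NF d) {M : ℝ} {z : Fin d → ℂ} (hz : z ∈ N.R) (h : ∀ i, ‖z i‖ ≤ M) (n : ℕ) :
    Good N M fun i => C (z i) * X ^ n := fun j => by
  simp only [coeff_C_mul_X_pow]
  split_ifs
  · exact ⟨hz, h⟩
  · exact ⟨N.R.zero_mem, fun i => by simpa using (norm_nonneg _).trans (h i)⟩

lemma Good.add {N : NF d} {M M' : ℝ} {p q : Fin d → ℂ[X]} (hp : Good N M p) (hq : Good N M' q) :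
    Good N (M + M') fun i => p i + q i := fun j => by
  simp only [coeff_add]
  exact ⟨N.R.add_mem (hp j).1 (hq j).1, fun i =>
    (norm_add_le _ _).trans (add_le_add ((hp j).2 i) ((hq j).2 i))⟩

lemma Good.le {N : NF d} {M M' : ℝ} {p : Fin d → ℂ[X]} (hp : Good N M p) (h : M ≤ M') :
    Good N M' p := fun j => ⟨(hp j).1, fun i => ((hp j).2 i).trans h⟩

lemma int_sol (N : NF d) {ι : Type} [Fintype ι] (P : ι → Fin d → ℂ[X]) {M C0 : ℝ}
    (hC : ∀ (a : Fin d → ℤ) (M : ℝ), (∀ i, ‖N.emb a i‖ ≤ M) → ‖a‖ ≤ C0 * M) (hY : 1 ≤ C0 * M)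
    (hP : ∀ x, Good N M (P x)) (L : ι → ℤ) (hL : ∀ x, |(L x : ℝ)| ≤ 1) (v : ι → ℂ) (j0 : ι)
    (hv : v j0 ≠ 0) (h : ∀ i, ∑ x, C (v x) * P x i = 0) (hLv : ∑ x, (L x : ℂ) * v x = 0) :
    ∃ t : ι → ℤ, t j0 ≠ 0 ∧ (∀ i, ∑ x, C (t x : ℂ) * P x i = 0) ∧ ∑ x, L x * t x = 0 ∧
      ∀ x, |(t x : ℝ)| ≤ (Fintype.card ι * (C0 * M)) ^ Fintype.card ι := by
  classical
  choose W hW using fun x j => (N.mem_R _).1 (hP x j).1
  have hW' : ∀ x j i, N.emb (W x j) i = (P x i).coeff j := fun x j i => congrFun (hW x j) i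
  set D := (Finset.univ : Finset (ι × Fin d)).sup fun p => (P p.1 p.2).natDegree with hD
  have hDle : ∀ x i, (P x i).natDegree ≤ D := fun x i =>
    Finset.le_sup (f := fun p : ι × Fin d => (P p.1 p.2).natDegree) (Finset.mem_univ (x, i))
  have key : ∀ (u : ι → ℂ) j, (∀ i, (∑ x, C (u x) * P x i).coeff j = 0) ↔
      ∀ s, ∑ x, (W x j s : ℂ) * u x = 0 := fun u j => by
    rw [← lin_iff N (fun x => W x j) u]
    simp only [finsetSum_coeff, coeff_C_mul, hW']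
  obtain ⟨t, ht0, ht, hb⟩ := exists_int_ker_coord
    (Finset.univ : Finset (Option (Fin (D + 1) × Fin d)))
    (fun o x => o.elim (L x) fun p => W x p.1 p.2) (C0 * M) hY (fun o _ x => by
      rcases o with _ | ⟨j, s⟩
      · exact (hL x).trans hY
      · have h1 := hC (W x j) M fun i => by rw [hW']; exact (hP x j).2 i
        have h2 := norm_le_pi_norm (W x j) s
        rw [Int.norm_eq_abs] at h2
        exact h2.trans h1) v j0 hv (fun o _ => by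
      rcases o with _ | ⟨j, s⟩
      · exact hLv
      · exact (key v j).1 (fun i => by rw [h i, coeff_zero]) s)
  refine ⟨t, ht0, fun i => ?_, ht none (Finset.mem_univ _), hb⟩
  ext j
  rcases lt_or_ge D j with hj | hj
  · simp only [finsetSum_coeff, coeff_C_mul, coeff_zero]
    exact Finset.sum_eq_zero fun x _ => by
      rw [coeff_eq_zero_of_natDegree_lt ((hDle x i).trans_lt hj), mul_zero]
  · refine (key (fun x => (t x : ℂ)) j).2 (fun s => ?_) i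
    exact_mod_cast ht (some (⟨j, Nat.lt_succ_of_le hj⟩, s)) (Finset.mem_univ _)

lemma coprime_ell (N : NF d) {e1 e2 : Fin d → ℤ} {i j : Fin d} (h : N.PP e1 e2 i j ≠ 0) :
    IsCoprime (N.ell e1 e2 i) (N.ell e1 e2 j) := by
  refine ⟨C (-N.emb e1 j / N.PP e1 e2 i j), C (N.emb e1 i / N.PP e1 e2 i j), ?_⟩
  have e : (1 : ℂ[X]) = C (N.PP e1 e2 i j)⁻¹ * C (N.PP e1 e2 i j) := by
    rw [← C_mul, inv_mul_cancel₀ h, C_1]
  rw [e]
  simp only [NF.ell, div_eq_mul_inv, C_mul, C_neg]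
  generalize C (N.PP e1 e2 i j)⁻¹ = q
  simp only [NF.PP, C_sub, C_mul]
  ring

lemma natDegree_Pi (N : NF d) {e1 : Fin d → ℤ} (e2 : Fin d → ℤ) (h1 : e1 ≠ 0) :
    (∏ i, N.ell e1 e2 i) ≠ 0 ∧ (∏ i, N.ell e1 e2 i).natDegree = d := by
  have hd : ∀ i, (N.ell e1 e2 i).natDegree = 1 := fun i => natDegree_linear (N.emb_ne_zero h1 i)
  have hne : ∀ i, N.ell e1 e2 i ≠ 0 := fun i h => by simpa [h] using hd i
  refine ⟨Finset.prod_ne_zero_iff.2 fun i _ => hne i, ?_⟩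
  rw [natDegree_prod _ _ fun i _ => hne i]
  simp [hd]

lemma cross (N : NF 4) {e1 e2 : Fin 4 → ℤ} (h1 : e1 ≠ 0) (hnd : ∀ i j, i ≠ j → N.PP e1 e2 i j ≠ 0)
    {U V U' V' : ℂ[X]} (hU : U.natDegree ≤ 4) (hV : V.natDegree ≤ 4) (hU' : U'.natDegree ≤ 4)
    (hV' : V'.natDegree ≤ 4) (h : ∀ i, N.ell e1 e2 i ^ 2 ∣ U + C (N.θ i) * V)
    (h' : ∀ i, N.ell e1 e2 i ^ 2 ∣ U' + C (N.θ i) * V') :
    ∃ a : ℂ, U * V' - U' * V = C a * (∏ i, N.ell e1 e2 i) ^ 2 := by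
  obtain ⟨hne, hdeg⟩ := natDegree_Pi N e2 h1
  have hd : (∏ i, N.ell e1 e2 i) ^ 2 ∣ U * V' - U' * V := by
    rw [← Finset.prod_pow]
    refine Finset.prod_dvd_of_coprime (fun i _ j _ hij => (coprime_ell N (hnd i j hij)).pow)
      fun i _ => ?_
    have e : U * V' - U' * V = (U + C (N.θ i) * V) * V' - (U' + C (N.θ i) * V') * V := by ring
    rw [e]
    exact dvd_sub ((h i).mul_right _) ((h' i).mul_right _)
  obtain ⟨q, hq⟩ := hd
  have hle : (U * V' - U' * V).natDegree ≤ 8 :=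
    (natDegree_sub_le _ _).trans (max_le (natDegree_mul_le.trans (by omega))
      (natDegree_mul_le.trans (by omega)))
  refine ⟨q.coeff 0, ?_⟩
  rw [hq, mul_comm, ← eq_C_of_natDegree_eq_zero]
  rcases eq_or_ne q 0 with h0 | h0
  · simp [h0]
  · rw [hq, natDegree_mul (pow_ne_zero _ hne) h0, natDegree_pow, hdeg] at hle
    omega

lemma decomp (N : NF 4) {e1 e2 : Fin 4 → ℤ} (h1 : e1 ≠ 0) (hnd : ∀ i j, i ≠ j → N.PP e1 e2 i j ≠ 0)
    {U1 V1 U2 V2 : ℂ[X]} {a1 a2 : Fin 4 → ℂ[X]} (hs : Scroll N 2 e1 e2 U1 V1 U2 V2 a1 a2 2 2)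
    {U V : ℂ[X]} (hU : U.natDegree ≤ 4) (hV : V.natDegree ≤ 4)
    (h : ∀ i, N.ell e1 e2 i ^ 2 ∣ U + C (N.θ i) * V) :
    ∃ r1 r2 : ℂ, U = C r1 * U1 + C r2 * U2 ∧ V = C r1 * V1 + C r2 * V2 := by
  obtain ⟨c, hc, hdet⟩ := hs.det
  obtain ⟨a, ha⟩ := cross N h1 hnd hU hV hs.deg2.1 hs.deg2.2.1 h fun i => ⟨_, hs.eq2 i⟩
  obtain ⟨b, hb⟩ := cross N h1 hnd hs.deg1.1 hs.deg1.2.1 hU hV (fun i => ⟨_, hs.eq1 i⟩) h
  have hne : C c * (∏ i, N.ell e1 e2 i) ^ 2 ≠ 0 :=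
    mul_ne_zero (C_ne_zero.2 hc) (pow_ne_zero _ (natDegree_Pi N e2 h1).1)
  have ea : C a = C c * C (a / c) := by rw [← C_mul, mul_div_cancel₀ _ hc]
  have eb : C b = C c * C (b / c) := by rw [← C_mul, mul_div_cancel₀ _ hc]
  rw [ea] at ha
  rw [eb] at hb
  refine ⟨a / c, b / c, mul_left_cancel₀ hne ?_, mul_left_cancel₀ hne ?_⟩
  · linear_combination U1 * ha + U2 * hb - U * hdet
  · linear_combination V1 * ha + V2 * hb - V * hdet

/-- The unknowns. -/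
abbrev I : Type := (Fin 5 ⊕ Fin 5) ⊕ Fin 3 × Fin 4

/-- The polynomials multiplying the unknowns. -/
noncomputable def PI (N : NF 4) (e1 e2 : Fin 4 → ℤ) : I → Fin 4 → ℂ[X] :=
  Sum.elim (Sum.elim (fun j _ => X ^ (j : ℕ)) fun j i => C (N.θ i) * X ^ (j : ℕ))
    fun p i => -(N.ell e1 e2 i ^ 2 * (C (N.θ i ^ (p.2 : ℕ)) * X ^ (p.1 : ℕ)))

lemma sum_PI (N : NF 4) (e1 e2 : Fin 4 → ℤ) (v : I → ℂ) (i : Fin 4) :
    ∑ x, C (v x) * PI N e1 e2 x i = ∑ j : Fin 5, C (v (.inl (.inl j))) * X ^ (j : ℕ) +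
      C (N.θ i) * ∑ j : Fin 5, C (v (.inl (.inr j))) * X ^ (j : ℕ) -
      N.ell e1 e2 i ^ 2 * ∑ t : Fin 3, C (∑ s : Fin 4, N.θ i ^ (s : ℕ) * v (.inr (t, s))) *
        X ^ (t : ℕ) := by
  rw [Fintype.sum_sum_type, Fintype.sum_sum_type, Fintype.sum_prod_type, sub_eq_add_neg,
    Finset.mul_sum, Finset.mul_sum, ← Finset.sum_neg_distrib]
  refine congrArg₂ (· + ·) (congrArg₂ (· + ·) rfl (Finset.sum_congr rfl fun j _ => ?_))
    (Finset.sum_congr rfl fun t _ => ?_)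
  · exact mul_left_comm _ _ _
  · rw [map_sum, Finset.sum_mul, Finset.mul_sum, ← Finset.sum_neg_distrib]
    refine Finset.sum_congr rfl fun s _ => ?_
    simp only [PI, Sum.elim_inr, C_mul]
    ring

lemma as_sum {p : ℂ[X]} {n : ℕ} (h : p.natDegree < n) :
    ∑ j : Fin n, C (p.coeff j) * X ^ (j : ℕ) = p := by
  rw [Fin.sum_univ_eq_sum_range (fun j => C (p.coeff j) * X ^ j)]
  exact (p.as_sum_range_C_mul_X_pow' h).symm

/-- The complex solution attached to an element of the module. -/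
noncomputable def sol (N : NF 4) (U V : ℂ[X]) (a : Fin 4 → ℂ[X]) : I → ℂ :=
  Sum.elim (Sum.elim (fun j => U.coeff j) fun j => V.coeff j)
    fun p => N.co (fun i => (a i).coeff p.1) p.2

lemma sol_eq (N : NF 4) (e1 e2 : Fin 4 → ℤ) {U V : ℂ[X]} {a : Fin 4 → ℂ[X]}
    (hd : U.natDegree ≤ 2 + 2 ∧ V.natDegree ≤ 2 + 2 ∧ ∀ i, (a i).natDegree ≤ 2)
    (h : ∀ i, U + C (N.θ i) * V = N.ell e1 e2 i ^ 2 * a i) (i : Fin 4) :
    ∑ x, C (sol N U V a x) * PI N e1 e2 x i = 0 := by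
  have e : ∀ t : Fin 3, ∑ s : Fin 4, N.θ i ^ (s : ℕ) * N.co (fun i => (a i).coeff t) s =
      (a i).coeff t := fun t => N.sum_co (fun i => (a i).coeff t) i
  rw [sum_PI]
  simp only [sol, Sum.elim_inl, Sum.elim_inr, e]
  rw [as_sum (Nat.lt_succ_of_le hd.1), as_sum (Nat.lt_succ_of_le hd.2.1),
    as_sum (Nat.lt_succ_of_le (hd.2.2 i)), h, sub_self]

lemma good_PI (N : NF 4) {C0 Yb : ℝ} (hC : 1 ≤ C0) (hY : 1 ≤ Yb) (hθ : ∀ i, ‖N.θ i‖ ≤ C0)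
    {e1 e2 : Fin 4 → ℤ} (h1 : ∀ i, ‖N.emb e1 i‖ ≤ C0 * Yb) (h2 : ∀ i, ‖N.emb e2 i‖ ≤ C0 * Yb)
    (x : I) : Good N (4 * C0 ^ 5 * Yb ^ 2) (PI N e1 e2 x) := by
  have hY2 : 1 ≤ Yb ^ 2 := one_le_pow₀ hY
  have hC5 : C0 ≤ C0 ^ 5 := le_self_pow₀ hC (by norm_num)
  have hM : C0 ≤ 4 * C0 ^ 5 * Yb ^ 2 := by nlinarith
  rcases x with (j | j) | ⟨t, s⟩
  · have := good_mono N (M := 4 * C0 ^ 5 * Yb ^ 2) N.R.one_mem
      (fun i => by simpa using hC.trans hM) j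
    simp only [Pi.one_apply, C_1, one_mul] at this
    exact this
  · exact good_mono N N.theta_mem_R (fun i => (hθ i).trans hM) j
  · have m1 : N.emb e1 ∈ N.R := ⟨e1, rfl⟩
    have m2 : N.emb e2 ∈ N.R := ⟨e2, rfl⟩
    have key : ∀ u w : Fin 4 → ℂ, u ∈ N.R → w ∈ N.R → (∀ i, ‖u i‖ ≤ C0 * Yb) →
        (∀ i, ‖w i‖ ≤ C0 * Yb) → ∀ n, Good N (C0 ^ 5 * Yb ^ 2)
          fun i => C ((-(u * w * N.θ ^ (s : ℕ))) i) * X ^ n := fun u w hu hw bu bw n => by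
      refine good_mono N (N.R.neg_mem (N.R.mul_mem (N.R.mul_mem hu hw)
        (N.R.pow_mem N.theta_mem_R _))) (fun i => ?_) n
      have h3 : ‖N.θ i‖ ^ (s : ℕ) ≤ C0 ^ 3 :=
        (pow_le_pow_left₀ (norm_nonneg _) (hθ i) _).trans (pow_le_pow_right₀ hC (by omega))
      simp only [Pi.neg_apply, Pi.mul_apply, Pi.pow_apply, norm_neg, norm_mul, norm_pow]
      calc ‖u i‖ * ‖w i‖ * ‖N.θ i‖ ^ (s : ℕ) ≤ (C0 * Yb) * (C0 * Yb) * C0 ^ 3 := by
            gcongr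
            exacts [bu i, bw i]
        _ = _ := by ring
    have := (((key _ _ m1 m1 h1 h1 (t + 2)).add (key _ _ m1 m2 h1 h2 (t + 1))).add
      (key _ _ m1 m2 h1 h2 (t + 1))).add (key _ _ m2 m2 h2 h2 t)
    convert this using 1
    · ring
    · funext i
      simp only [PI, NF.ell, Sum.elim_inr, Pi.neg_apply, Pi.mul_apply, Pi.pow_apply, C_neg, C_mul]
      ring

/-- The integer polynomial with given coefficients. -/
noncomputable def ip (t : Fin 5 → ℤ) : ℤ[X] := ∑ j : Fin 5, C (t j) * X ^ (j : ℕ)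

lemma ip_map (t : Fin 5 → ℤ) :
    (ip t).map (Int.castRingHom ℂ) = ∑ j : Fin 5, C (t j : ℂ) * X ^ (j : ℕ) := by
  simp [ip, Polynomial.map_sum]

lemma ip_coeff (t : Fin 5 → ℤ) (j : ℕ) : (ip t).coeff j = if h : j < 5 then t ⟨j, h⟩ else 0 := by
  simp only [ip, finsetSum_coeff, coeff_C_mul_X_pow]
  split_ifs with h
  · rw [Finset.sum_eq_single ⟨j, h⟩ (fun b _ hb => if_neg fun e => hb (Fin.ext e.symm)) (by simp),
      if_pos rfl]
  · exact Finset.sum_eq_zero fun b _ => if_neg fun (e : j = b) => h (e ▸ b.2)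

lemma ip_le (t : Fin 5 → ℤ) {B : ℝ} (h : ∀ j, |(t j : ℝ)| ≤ B) (j : ℕ) :
    |((ip t).coeff j : ℝ)| ≤ B := by
  rw [ip_coeff]
  split_ifs
  · exact h _
  · simpa using (abs_nonneg _).trans (h 0)

lemma ip_deg (t : Fin 5 → ℤ) : ((ip t).map (Int.castRingHom ℂ)).natDegree ≤ 4 := by
  rw [ip_map]
  exact natDegree_sum_le_of_forall_le _ _ fun j _ =>
    (natDegree_C_mul_X_pow_le _ _).trans (by omega)

lemma of_int (N : NF 4) {e1 e2 : Fin 4 → ℤ} (h1 : e1 ≠ 0) (hnd : ∀ i j, i ≠ j → N.PP e1 e2 i j ≠ 0)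
    {U1 V1 U2 V2 : ℂ[X]} {a1 a2 : Fin 4 → ℂ[X]} (hs : Scroll N 2 e1 e2 U1 V1 U2 V2 a1 a2 2 2)
    {t : I → ℤ} (ht : ∀ i, ∑ x, C (t x : ℂ) * PI N e1 e2 x i = 0) :
    ∃ r1 r2 : ℂ, (ip fun j => t (.inl (.inl j))).map (Int.castRingHom ℂ) = C r1 * U1 + C r2 * U2 ∧
      (ip fun j => t (.inl (.inr j))).map (Int.castRingHom ℂ) = C r1 * V1 + C r2 * V2 ∧
      ∀ j, (t (.inl j) : ℂ) = r1 * sol N U1 V1 a1 (.inl j) + r2 * sol N U2 V2 a2 (.inl j) := by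
  obtain ⟨r1, r2, hU, hV⟩ := decomp N h1 hnd hs (ip_deg fun j => t (.inl (.inl j)))
    (ip_deg fun j => t (.inl (.inr j))) fun i => by
      have := ht i
      rw [sum_PI, sub_eq_zero] at this
      rw [ip_map, ip_map]
      exact ⟨_, this⟩
  refine ⟨r1, r2, hU, hV, fun j => ?_⟩
  rcases j with j | j
  · simpa [ip_coeff, sol] using congrArg (coeff · j) hU
  · simpa [ip_coeff, sol] using congrArg (coeff · j) hV

lemma exists_ne (N : NF 4) {U V : ℂ[X]} (a : Fin 4 → ℂ[X]) (hU : U.natDegree ≤ 4)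
    (hV : V.natDegree ≤ 4) (h : ¬(U = 0 ∧ V = 0)) : ∃ j, sol N U V a (.inl j) ≠ 0 := by
  by_contra hc
  push Not at hc
  refine h ⟨?_, ?_⟩
  · rw [← as_sum (Nat.lt_succ_of_le hU)]
    exact Finset.sum_eq_zero fun j _ => by
      rw [show U.coeff j = 0 from hc (.inl j), C_0, zero_mul]
  · rw [← as_sum (Nat.lt_succ_of_le hV)]
    exact Finset.sum_eq_zero fun j _ => by
      rw [show V.coeff j = 0 from hc (.inr j), C_0, zero_mul]

end B4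

/-- `d = 4`, balanced scroll: an integer basis of bounded height.  Unknowns: the `12` coordinates of
`α(X) = ∑_{t ≤ 2} α_t X^t`; equations: the coordinates `2, 3` of the coefficients of `α(X) (e1 X + e2)²` vanish
(`10` equations whose coefficients are coordinates of the integer vectors `θ^s e2²`, `2 θ^s e1 e2`, `θ^s e1²`, of
size `≤ C Y²`).  The coordinates (`N.co`) of `a1` and `a2` are two independent complex solutions; every complex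
solution gives an element `(U, V)` of the module, of degree `≤ 4`.  Pick two unknowns `j1, j2` on which the two
solutions have a nonzero minor; add the equation `α_{j2} = 0` (resp. `α_{j1} = 0`) and apply
`exists_int_ker_coord` at `j1` (resp. `j2`).  The two integer solutions are independent.  Any `(U, V)` in the
module of degree `≤ 4` is `r1 (U1, V1) + r2 (U2, V2)` with constants (`U V2 - U2 V` is divisible by `Π²`, of degree
`≤ 8`), which gives the matrix `r`. -/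
theorem NF.scroll_int (N : NF 4) : ∃ Cx : ℝ, ∀ (e1 e2 : Fin 4 → ℤ) (Yb : ℝ), 2 ≤ Yb → ‖e1‖ ≤ Yb →
    ‖e2‖ ≤ Yb → e1 ≠ 0 → (∀ i j, i ≠ j → N.PP e1 e2 i j ≠ 0) →
    ∀ (U1 V1 U2 V2 : ℂ[X]) (a1 a2 : Fin 4 → ℂ[X]), Scroll N 2 e1 e2 U1 V1 U2 V2 a1 a2 2 2 →
    ∃ (u1 v1 u2 v2 : ℤ[X]) (r11 r12 r21 r22 : ℂ), r11 * r22 - r12 * r21 ≠ 0 ∧
      u1.map (Int.castRingHom ℂ) = C r11 * U1 + C r12 * U2 ∧
      v1.map (Int.castRingHom ℂ) = C r11 * V1 + C r12 * V2 ∧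
      u2.map (Int.castRingHom ℂ) = C r21 * U1 + C r22 * U2 ∧
      v2.map (Int.castRingHom ℂ) = C r21 * V1 + C r22 * V2 ∧
      ∀ j, |(u1.coeff j : ℝ)| ≤ Yb ^ Cx ∧ |(v1.coeff j : ℝ)| ≤ Yb ^ Cx ∧ |(u2.coeff j : ℝ)| ≤ Yb ^ Cx ∧
        |(v2.coeff j : ℝ)| ≤ Yb ^ Cx := by
  classical
  obtain ⟨C0, hC, hθ, -, hemb, hco, -⟩ := N.exists_C
  obtain ⟨m, hm⟩ := pow_unbounded_of_one_lt (22 * (C0 * (4 * C0 ^ 5))) (one_lt_two (α := ℝ))
  refine ⟨((m + 2) * 22 : ℕ), fun e1 e2 Yb hY he1 he2 h1 hnd U1 V1 U2 V2 a1 a2 hs => ?_⟩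
  have hY1 : 1 ≤ Yb := by linarith
  have hC0 : 0 ≤ C0 := by linarith
  have hg := B4.good_PI N hC hY1 hθ
    (fun i => (hemb e1 i).trans (mul_le_mul_of_nonneg_left he1 hC0))
    (fun i => (hemb e2 i).trans (mul_le_mul_of_nonneg_left he2 hC0))
  have hM : 1 ≤ C0 * (4 * C0 ^ 5 * Yb ^ 2) := by
    have h2 : 1 ≤ Yb ^ 2 := one_le_pow₀ hY1
    have h3 : 1 ≤ C0 ^ 5 := one_le_pow₀ hC
    exact one_le_mul_of_one_le_of_one_le hC
      (one_le_mul_of_one_le_of_one_le (by linarith) h2)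
  have hB : (Fintype.card B4.I * (C0 * (4 * C0 ^ 5 * Yb ^ 2))) ^ Fintype.card B4.I ≤
      Yb ^ (((m + 2) * 22 : ℕ) : ℝ) := by
    have hc : Fintype.card B4.I = 22 := by simp
    rw [hc, Real.rpow_natCast, pow_mul]
    refine pow_le_pow_left₀ (by positivity) ?_ _
    have h2 : (2 : ℝ) ^ m ≤ Yb ^ m := pow_le_pow_left₀ zero_le_two hY m
    calc ((22 : ℕ) : ℝ) * (C0 * (4 * C0 ^ 5 * Yb ^ 2)) = 22 * (C0 * (4 * C0 ^ 5)) * Yb ^ 2 := by
          push_cast; ring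
      _ ≤ Yb ^ m * Yb ^ 2 := mul_le_mul_of_nonneg_right (hm.le.trans h2) (by positivity)
      _ = _ := by ring
  obtain ⟨c, hc, hdet⟩ := hs.det
  have hne : U1 * V2 - U2 * V1 ≠ 0 := hdet ▸
    mul_ne_zero (C_ne_zero.2 hc) (pow_ne_zero _ (B4.natDegree_Pi N e2 h1).1)
  obtain ⟨j1, hj1⟩ := B4.exists_ne N a1 hs.deg1.1 hs.deg1.2.1 fun h => hne (by simp [h.1, h.2])
  obtain ⟨ρ, hρ⟩ : ∃ ρ, ρ = B4.sol N U2 V2 a2 (.inl j1) / B4.sol N U1 V1 a1 (.inl j1) := ⟨_, rfl⟩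
  have hdg : ∀ {p q : ℂ[X]} {n : ℕ}, p.natDegree ≤ n → q.natDegree ≤ n →
      (p - C ρ * q).natDegree ≤ n := fun hp hq =>
    (natDegree_sub_le _ _).trans (max_le hp ((natDegree_C_mul_le _ _).trans hq))
  obtain ⟨j2, hj2⟩ := B4.exists_ne N (fun i => a2 i - C ρ * a1 i) (hdg hs.deg2.1 hs.deg1.1)
    (hdg hs.deg2.2.1 hs.deg1.2.1) fun h => hne (by
      rw [sub_eq_zero.1 h.1, sub_eq_zero.1 h.2]; ring)
  obtain ⟨t1, ht1, hs1, -, hb1⟩ := B4.int_sol N _ hco hM hg 0 (by simp) _ _ hj1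
    (B4.sol_eq N e1 e2 hs.deg1 hs.eq1) (by simp)
  obtain ⟨t2, ht2, hs2, hz2, hb2⟩ := B4.int_sol N _ hco hM hg (Pi.single (.inl j1) 1)
    (fun x => by rw [Pi.single_apply]; split_ifs <;> simp) _ _ hj2
    (B4.sol_eq N e1 e2 ⟨hdg hs.deg2.1 hs.deg1.1, hdg hs.deg2.2.1 hs.deg1.2.1,
      fun i => hdg (hs.deg2.2.2 i) (hs.deg1.2.2 i)⟩ fun i => by
        linear_combination hs.eq2 i - C ρ * hs.eq1 i) (by
      have e : B4.sol N (U2 - C ρ * U1) (V2 - C ρ * V1) (fun i => a2 i - C ρ * a1 i) (.inl j1) =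
          B4.sol N U2 V2 a2 (.inl j1) - ρ * B4.sol N U1 V1 a1 (.inl j1) := by
        rcases j1 with j | j <;> simp [B4.sol]
      simp only [Pi.single_apply, Int.cast_ite, Int.cast_one, Int.cast_zero, ite_mul, one_mul,
        zero_mul, Finset.sum_ite_eq', Finset.mem_univ, if_true]
      rw [e, hρ, div_mul_cancel₀ _ hj1, sub_self])
  have hz : t2 (.inl j1) = 0 := by simpa [Pi.single_apply] using hz2
  obtain ⟨r11, r12, hu1, hv1, hr1⟩ := B4.of_int N h1 hnd hs hs1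
  obtain ⟨r21, r22, hu2, hv2, hr2⟩ := B4.of_int N h1 hnd hs hs2
  refine ⟨_, _, _, _, r11, r12, r21, r22, fun h0 => ?_, hu1, hv1, hu2, hv2, fun j =>
    ⟨B4.ip_le _ (fun _ => (hb1 _).trans hB) j, B4.ip_le _ (fun _ => (hb1 _).trans hB) j,
      B4.ip_le _ (fun _ => (hb2 _).trans hB) j, B4.ip_le _ (fun _ => (hb2 _).trans hB) j⟩⟩
  have h3 : (t1 (.inl j1) : ℂ) * t2 (.inl j2) - t1 (.inl j2) * t2 (.inl j1) = 0 := by
    rw [hr1, hr1, hr2, hr2]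
    linear_combination (B4.sol N U1 V1 a1 (.inl j1) * B4.sol N U2 V2 a2 (.inl j2) -
      B4.sol N U1 V1 a1 (.inl j2) * B4.sol N U2 V2 a2 (.inl j1)) * h0
  rw [hz, Int.cast_zero, mul_zero, sub_zero] at h3
  exact mul_ne_zero ht1 ht2 (by exact_mod_cast h3)

end Crest.Agent.R22
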