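import Crest.Agent.R22.Princ
import Crest.Agent.R22.Ker
import Crest.Agent.R22.Fix
import Crest.Agent.R22.Beta3
import Crest.Agent.R22.Beta4
import Crest.Agent.R22.Alpha2

namespace Crest.Agent.R22

open Polynomial
open scoped Polynomial.Bivariate

variable {d : ℕ}

theorem b5_alg {N : NF d} {p q : ℕ} {μ : ℤ} {e1 e2 : Fin d → ℤ} {S : Finset ℤ} {l1 l2 : ℤ → ℤ}
    {g : ℤ → Fin d → ℤ} {Ω : Type} [Field Ω] [Algebra ℂ Ω] {x nn : Ω} {b : Fin d → Ω} {κ : ℤ → ℂ}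
    {C0 : ℕ} (h : CurveCfg N p q μ e1 e2 S l1 l2 g x nn b κ C0) (hx : Transcendental ℂ x) :
    IsAlgebraic (IntermediateField.adjoin ℂ {x}) nn := by
  have e : MvPolynomial.aeval (gens x nn b) (MvPolynomial.X (Sum.inl 0) : MvPolynomial _ ℂ) /
      MvPolynomial.aeval (gens x nn b) (1 : MvPolynomial (Fin 2 ⊕ Fin d) ℂ) = x := by
    simp [gens]
  have hxK : x ∈ IntermediateField.adjoin ℂ (Set.range (gens x nn b)) :=
    IntermediateField.subset_adjoin _ _ ⟨Sum.inl 0, by simp [gens]⟩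
  have hnK : nn ∈ IntermediateField.adjoin ℂ (Set.range (gens x nn b)) :=
    IntermediateField.subset_adjoin _ _ ⟨Sum.inl 1, by simp [gens]⟩
  have h1 := h.vg.dg_le (MvPolynomial.X (Sum.inl 0)) 1 1 (by simp) (by simp) (by simp)
    (by rw [e]; exact hx) _ le_rfl (by rw [e]; exact hxK)
  rw [e] at h1
  exact isAlgebraic_of_dg_pos x _ hxK h1.1 hnK

theorem b5_comp {A B : Type} [CommRing A] [Algebra ℂ A] [CommRing B] [Algebra ℂ B]
    (φ : A →ₐ[ℂ] B) (x y : A) (P : ℂ[X][Y]) :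
    φ (aevalAeval x y P) = aevalAeval (φ x) (φ y) P := by
  have : φ.comp (aevalAeval x y) = aevalAeval (φ x) (φ y) := by
    apply (aevalAevalEquiv ℂ B).symm.injective
    simp
  exact congr($this P)

theorem b5_pts {N : NF d} {p q : ℕ} {μ : ℤ} {e1 e2 : Fin d → ℤ} {S : Finset ℤ} {l1 l2 : ℤ → ℤ}
    {g : ℤ → Fin d → ℤ} {Ω : Type} [Field Ω] [Algebra ℂ Ω] {x nn : Ω} {b : Fin d → Ω} {κ : ℤ → ℂ}
    {C0 : ℕ} (h : CurveCfg N p q μ e1 e2 S l1 l2 g x nn b κ C0) (P : ℂ[X][Y])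
    (hP : aevalAeval x nn P = 0) : ∀ n ∈ S, P.evalEval ((l1 n : ℂ) / l2 n) (n : ℂ) = 0 := by
  intro n hn
  have h1 := h.vg.V (aevalAeval (MvPolynomial.X (Sum.inl 0)) (MvPolynomial.X (Sum.inl 1)) P)
    (by rw [b5_comp]; simpa [gens] using hP) n hn
  rw [← MvPolynomial.coe_aeval_eq_eval] at h1
  have h2 := b5_comp (MvPolynomial.aeval (R := ℂ) (ptv N l1 l2 g κ n))
    (MvPolynomial.X (Sum.inl 0)) (MvPolynomial.X (Sum.inl 1)) P
  rw [coe_aevalAeval_eq_evalEval] at h2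
  have h3 := h2.symm.trans h1
  simpa [ptv, gens] using h3

theorem b5_mob {Ω : Type} [Field Ω] [Algebra ℂ Ω] (K : IntermediateField ℂ Ω) {τ a b c e w : Ω}
    (hτ : τ ∈ K) (ha : a ∈ K) (hb : b ∈ K) (hc : c ∈ K) (he : e ∈ K)
    (h : τ * (w * a + b) = w * c + e) (hd : b * c - e * a ≠ 0) : w ∈ K := by
  have h1 : τ * a - c ≠ 0 := by
    intro h0
    apply hd
    have h2 : c = τ * a := by linear_combination -h0
    have h3 : e = τ * b := by linear_combination -h + w * h0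
    rw [h2, h3]; ring
  have h2 : w = (e - τ * b) / (τ * a - c) := by
    rw [eq_div_iff h1]
    linear_combination h
  rw [h2]
  exact div_mem (sub_mem he (mul_mem hτ hb)) (sub_mem (mul_mem hτ ha) hc)

theorem b5_aeval_mem {Ω : Type} [Field Ω] [Algebra ℂ Ω] (K : IntermediateField ℂ Ω) {x : Ω}
    (hx : x ∈ K) (P : ℂ[X]) : aeval x P ∈ K := by
  rw [aeval_eq_sum_range]
  exact sum_mem fun i _ => K.smul_mem (pow_mem hx _)

theorem b5_ne {Ω : Type} [Field Ω] [Algebra ℂ Ω] {x nn : Ω} (hx : Transcendental ℂ x)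
    (hn : nn ∉ IntermediateField.adjoin ℂ {x}) (U V : ℂ[X])
    (h : nn * aeval x V + aeval x U = 0) : U = 0 ∧ V = 0 := by
  have hxK := IntermediateField.mem_adjoin_simple_self ℂ x
  have hV : aeval x V = 0 := by
    by_contra hV
    apply hn
    have : nn = -aeval x U / aeval x V := by
      rw [eq_div_iff hV]
      linear_combination h
    rw [this]
    exact div_mem (neg_mem (b5_aeval_mem _ hxK _)) (b5_aeval_mem _ hxK _)
  rw [hV, mul_zero, zero_add] at h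
  constructor
  · by_contra h0
    exact hx ⟨U, h0, h⟩
  · by_contra h0
    exact hx ⟨V, h0, hV⟩

theorem b5_deg {ι : Type} (i : ι) (P : ℂ[X]) (n : ℕ) (hP : P.natDegree ≤ n) :
    (aeval (MvPolynomial.X i : MvPolynomial ι ℂ) P).totalDegree ≤ n := by
  rw [aeval_eq_sum_range]
  refine (MvPolynomial.totalDegree_finsetSum _ _).trans (Finset.sup_le fun j hj => ?_)
  refine (MvPolynomial.totalDegree_smul_le _ _).trans ?_
  rw [MvPolynomial.totalDegree_X_pow]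
  have := Finset.mem_range.1 hj
  omega

theorem b5_hom (v : ℤ[X]) (hv : (v.map (Int.castRingHom ℂ)).natDegree ≤ 4) (l1 l2 : ℤ)
    (h2 : l2 ≠ 0) : ((hom 4 v.coeff l1 l2 : ℤ) : ℂ) =
      (l2 : ℂ) ^ 4 * (v.map (Int.castRingHom ℂ)).eval ((l1 : ℂ) / l2) := by
  have h2' : (l2 : ℂ) ≠ 0 := by exact_mod_cast h2
  rw [eval_eq_sum_range' (Nat.lt_succ_of_le hv)]
  simp only [hom, Finset.sum_range_succ, Finset.sum_range_zero, coeff_map]
  simp
  field_simp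

theorem b5_bd (v : ℤ[X]) (l1 l2 : ℤ) (W B : ℝ) (h1 : |(l1 : ℝ)| ≤ W) (h2 : |(l2 : ℝ)| ≤ W)
    (hv : ∀ j, |(v.coeff j : ℝ)| ≤ B) : |((hom 4 v.coeff l1 l2 : ℤ) : ℝ)| ≤ 5 * (B * W ^ 4) := by
  have hB : 0 ≤ B := (abs_nonneg _).trans (hv 0)
  have hY : 0 ≤ W := (abs_nonneg _).trans h1
  unfold hom
  push_cast
  refine (Finset.abs_sum_le_sum_abs _ _).trans ?_
  refine (Finset.sum_le_card_nsmul _ _ (B * W ^ 4) fun j hj => ?_).trans (by simp)
  have hj' : j ≤ 4 := Nat.lt_succ_iff.1 (Finset.mem_range.1 hj)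
  rw [abs_mul, abs_mul, abs_pow, abs_pow]
  calc |(v.coeff j : ℝ)| * |(l1 : ℝ)| ^ j * |(l2 : ℝ)| ^ (4 - j) ≤ B * W ^ j * W ^ (4 - j) := by
        gcongr
        exact hv j
    _ = B * W ^ 4 := by rw [mul_assoc, ← pow_add]; congr 2; omega

theorem b5_bd2 (u v : ℤ[X]) (n l1 l2 : ℤ) (W E : ℝ) (hY : 2 ≤ W) (hn : |(n : ℝ)| ≤ 2 * W)
    (h1 : |(l1 : ℝ)| ≤ W) (h2 : |(l2 : ℝ)| ≤ W)
    (hu : ∀ j, |(u.coeff j : ℝ)| ≤ W ^ E) (hv : ∀ j, |(v.coeff j : ℝ)| ≤ W ^ E) :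
    |((n * hom 4 v.coeff l1 l2 + hom 4 u.coeff l1 l2 : ℤ) : ℝ)| ≤ W ^ (max E 0 + 9) := by
  have hY0 : 0 < W := by linarith
  have a1 := b5_bd u l1 l2 W _ h1 h2 hu
  have a2 := b5_bd v l1 l2 W _ h1 h2 hv
  have a3 : W ^ E ≤ W ^ max E 0 := Real.rpow_le_rpow_of_exponent_le (by linarith) (le_max_left _ _)
  have a4 : W ^ (max E 0 + 9) = W ^ max E 0 * W ^ 9 := by
    rw [Real.rpow_add hY0]
    norm_cast
  have a5 : 0 ≤ W ^ E := Real.rpow_nonneg hY0.le _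
  have a6 : (16 : ℝ) ≤ W ^ 4 := by
    calc (16 : ℝ) = 2 ^ 4 := by norm_num
      _ ≤ W ^ 4 := pow_le_pow_left₀ (by norm_num) hY _
  rw [Int.cast_add, Int.cast_mul, a4]
  refine (abs_add_le _ _).trans ?_
  rw [abs_mul]
  calc |(n : ℝ)| * |((hom 4 v.coeff l1 l2 : ℤ) : ℝ)| + |((hom 4 u.coeff l1 l2 : ℤ) : ℝ)|
      ≤ 2 * W * (5 * (W ^ E * W ^ 4)) + 5 * (W ^ E * W ^ 4) := by gcongr
    _ = (10 * W + 5) * (W ^ E * W ^ 4) := by ring
    _ ≤ (W ^ 4 * W) * (W ^ max E 0 * W ^ 4) := by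
        gcongr
        nlinarith
    _ = W ^ max E 0 * W ^ 9 := by ring


/-- `d = 4`: the four alternatives.  `nn` is algebraic over `ℂ(x)` (`VG.dg_le`, `isAlgebraic_of_dg_pos` with `K`
the whole function field).  If `nn ∈ ℂ(x)`: `Kf_le`, `isRat_of_dg_x`-like argument (`τ = x`).  Otherwise
`exists_scroll`, `beta_deg`; `g1 + g2 = 4`, `g1 ≤ g2`.  If `g1 = g2 = 2` and `c1 ≤ 2 c2 + 1`, `x ∈ ℂ(ρ)`; with
`scroll_int`, `τ = (nn v2 + u2) / (nn v1 + u1)` is a Möbius transform of `ρ` with constant coefficients, so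
`ℂ(τ) = ℂ(ρ) ∋ x, nn`; at a point multiply numerator and denominator by `l2⁴` to get integers of size
`≤ 10 · 2X · Y^(C+4)`.  Otherwise `c1 ≥ 6`, and `c1 ≥ 8` unless `c2 = 2` and `c1 ∈ {6, 7}`. -/
theorem NF.beta_deg4 (N : NF 4) : ∃ Cx : ℝ, ∀ (C0 : ℕ) (c X s1 s2 : ℝ) (μ : ℤ)
    (e1 e2 : Fin 4 → ℤ) (S : Finset ℤ) (l1 l2 : ℤ → ℤ) (g : ℤ → Fin 4 → ℤ),
    LineCfg N 1 2 c X s1 s2 μ e1 e2 S l1 l2 g →
    ∀ (Ω : Type) [Field Ω] [Algebra ℂ Ω] (x nn : Ω) (b : Fin 4 → Ω) (κ : ℤ → ℂ),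
    CurveCfg N 1 2 μ e1 e2 S l1 l2 g x nn b κ C0 → Transcendental ℂ x →
    ∀ Yb : ℝ, 2 ≤ X → X ≤ Yb → X ^ s1 ≤ Yb →
    IsRat N S l1 l2 g x nn b κ 5 (Yb ^ Cx) ∨ HL x b 2 8 26 ∨
      ∃ c1 : ℕ, (c1 = 6 ∨ c1 = 7) ∧ HL x b 2 c1 (3 * c1 + 2) ∧ ∃ gh : ℂ[X][Y], gh ≠ 0 ∧
        gh.natDegree ≤ 2 ∧ (∀ j, (gh.coeff j).natDegree ≤ c1 + 4) ∧
        (∀ n ∈ S, gh.evalEval ((l1 n : ℂ) / l2 n) (n : ℂ) = 0) ∧
        (∀ i, N.ell e1 e2 i ^ 4 ∣ gh.eval (C (N.θ i))) ∧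
        (∀ i, N.ell e1 e2 i ^ 2 ∣ (derivative gh).eval (C (N.θ i))) := by
  obtain ⟨Cx, hCx⟩ := N.scroll_int
  refine ⟨max Cx 0 + 9, ?_⟩
  intro C0 c X s1 s2 μ e1 e2 S l1 l2 g hL Ω _ _ x nn b κ h hx Yb hX hXY hs1
  have hY : 2 ≤ Yb := hX.trans hXY
  by_cases hn : nn ∈ IntermediateField.adjoin ℂ {x}
  · left
    refine isRat_of_dg_x hL x nn b κ 5 (by norm_num) _ (hs1.trans ?_)
      (h.rel.Kf_le hL.e1ne hx _ (IntermediateField.mem_adjoin_simple_self ℂ x) hn)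
    calc Yb = Yb ^ (1 : ℝ) := (Real.rpow_one _).symm
      _ ≤ _ := Real.rpow_le_rpow_of_exponent_le (by linarith)
          (by have := le_max_right Cx 0; linarith)
  obtain ⟨U1, V1, U2, V2, a1, a2, g1, g2, hS⟩ := N.exists_scroll 2 hL.e1ne hL.nd
  obtain ⟨c1, c2, L, L', gh, hc2, hc1, hL', hli, hgh0, hghd, hghc, hghz, hd1, hd2, hrat⟩ :=
    hS.beta_deg hL.e1ne hL.nd h.rel hx (b5_alg h hx) hn
  have hle := hS.le
  have hsum : g1 + g2 = 4 := hS.sum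
  by_cases hcase : g1 = g2 ∧ c1 ≤ g2 * c2 + 1
  · left
    have hxρ := hrat hcase.1 hcase.2
    have hg1 : g1 = 2 := by omega
    have hg2 : g2 = 2 := by omega
    subst hg1 hg2
    obtain ⟨u1, v1, u2, v2, r11, r12, r21, r22, hr, hu1, hv1, hu2, hv2, hb⟩ :=
      hCx e1 e2 Yb hY (hL.esz.1.trans hXY) (hL.esz.2.trans hXY) hL.e1ne hL.nd U1 V1 U2 V2 a1 a2 hS
    have hΔ : U1 * V2 - U2 * V1 ≠ 0 := by
      obtain ⟨c', hc', hd⟩ := hS.det
      rw [hd]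
      refine mul_ne_zero (C_ne_zero.2 hc') (pow_ne_zero _ (Finset.prod_ne_zero_iff.2 fun i _ => ?_))
      intro h0
      have := congrArg (fun P => P.coeff 1) h0
      simp only [NF.ell, coeff_add, coeff_C_mul, coeff_X_one, mul_one, coeff_C, coeff_zero] at this
      exact N.emb_ne_zero hL.e1ne i (by simpa using this)
    have hdeg : ∀ (r r' : ℂ) (P P' : ℂ[X]), P.natDegree ≤ 2 + 2 → P'.natDegree ≤ 2 + 2 →
        (C r * P + C r' * P').natDegree ≤ 4 := by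
      intro r r' P P' hP hP'
      exact (natDegree_add_le _ _).trans (max_le ((natDegree_C_mul_le _ _).trans hP)
        ((natDegree_C_mul_le _ _).trans hP'))
    have du1 : (u1.map (Int.castRingHom ℂ)).natDegree ≤ 4 := by
      rw [hu1]; exact hdeg _ _ _ _ hS.deg1.1 hS.deg2.1
    have dv1 : (v1.map (Int.castRingHom ℂ)).natDegree ≤ 4 := by
      rw [hv1]; exact hdeg _ _ _ _ hS.deg1.2.1 hS.deg2.2.1
    have du2 : (u2.map (Int.castRingHom ℂ)).natDegree ≤ 4 := by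
      rw [hu2]; exact hdeg _ _ _ _ hS.deg1.1 hS.deg2.1
    have dv2 : (v2.map (Int.castRingHom ℂ)).natDegree ≤ 4 := by
      rw [hv2]; exact hdeg _ _ _ _ hS.deg1.2.1 hS.deg2.2.1
    set Pm : ℂ[X] → ℂ[X] → MvPolynomial (Fin 2 ⊕ Fin 4) ℂ := fun U V =>
      MvPolynomial.X (Sum.inl 1) * aeval (MvPolynomial.X (Sum.inl 0)) V +
        aeval (MvPolynomial.X (Sum.inl 0)) U with hPm
    have hPd : ∀ U V : ℂ[X], U.natDegree ≤ 4 → V.natDegree ≤ 4 → (Pm U V).totalDegree ≤ 5 := by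
      intro U V hU hV
      refine (MvPolynomial.totalDegree_add _ _).trans (max_le ?_ ?_)
      · refine (MvPolynomial.totalDegree_mul _ _).trans ?_
        rw [MvPolynomial.totalDegree_X]
        have := b5_deg (Sum.inl 0 : Fin 2 ⊕ Fin 4) V 4 hV
        omega
      · exact (b5_deg _ U 4 hU).trans (by norm_num)
    have hPa : ∀ U V : ℂ[X], MvPolynomial.aeval (gens x nn b) (Pm U V) =
        nn * aeval x V + aeval x U := by
      intro U V
      simp only [hPm, map_add, map_mul, ← aeval_algHom_apply, MvPolynomial.aeval_X]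
      simp [gens]
    have hPe : ∀ (U V : ℂ[X]) (n : ℤ), MvPolynomial.eval (ptv N l1 l2 g κ n) (Pm U V) =
        n * V.eval ((l1 n : ℂ) / l2 n) + U.eval ((l1 n : ℂ) / l2 n) := by
      intro U V n
      rw [← MvPolynomial.coe_aeval_eq_eval]
      show MvPolynomial.aeval (R := ℂ) (ptv N l1 l2 g κ n) (Pm U V) = _
      simp only [hPm, map_add, map_mul, ← aeval_algHom_apply, MvPolynomial.aeval_X]
      simp [ptv, gens]
    have hP1 : nn * aeval x V1 + aeval x U1 ≠ 0 := by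
      intro h0
      obtain ⟨e1, e2⟩ := b5_ne hx hn _ _ h0
      apply hΔ
      rw [e1, e2]; ring
    have hg0 : nn * aeval x (v1.map (Int.castRingHom ℂ)) + aeval x (u1.map (Int.castRingHom ℂ))
        ≠ 0 := by
      intro h0
      obtain ⟨e1, e2⟩ := b5_ne hx hn _ _ h0
      rw [hu1] at e1
      rw [hv1] at e2
      have f1 : C r11 * (U1 * V2 - U2 * V1) = 0 := by linear_combination V2 * e1 - U2 * e2
      have f2 : C r12 * (U1 * V2 - U2 * V1) = 0 := by linear_combination U1 * e2 - V1 * e1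
      have f3 : r11 = 0 := C_eq_zero.1 ((mul_eq_zero.1 f1).resolve_right hΔ)
      have f4 : r12 = 0 := C_eq_zero.1 ((mul_eq_zero.1 f2).resolve_right hΔ)
      apply hr
      rw [f3, f4]; ring
    refine ⟨Pm (u2.map (Int.castRingHom ℂ)) (v2.map (Int.castRingHom ℂ)),
      Pm (u1.map (Int.castRingHom ℂ)) (v1.map (Int.castRingHom ℂ)), hPd _ _ du2 dv2,
      hPd _ _ du1 dv1, by rw [hPa]; exact hg0, ?_, ?_⟩
    · intro n hn' hne
      have hl2 := hL.l2_ne n hn'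
      have hl2' : (l2 n : ℂ) ≠ 0 := by exact_mod_cast hl2
      have b0 : |(n : ℝ)| ≤ 2 * Yb := (hL.rng n hn').2.trans (by linarith)
      have b1 : |(l1 n : ℝ)| ≤ Yb := (hL.l1_le n hn').trans hs1
      have b2 : |(l2 n : ℝ)| ≤ Yb := (hL.sz1 n hn').1.trans hs1
      have key : ∀ u v : ℤ[X], (u.map (Int.castRingHom ℂ)).natDegree ≤ 4 →
          (v.map (Int.castRingHom ℂ)).natDegree ≤ 4 →
          ((n * hom 4 v.coeff (l1 n) (l2 n) + hom 4 u.coeff (l1 n) (l2 n) : ℤ) : ℂ) =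
            (l2 n : ℂ) ^ 4 * MvPolynomial.eval (ptv N l1 l2 g κ n)
              (Pm (u.map (Int.castRingHom ℂ)) (v.map (Int.castRingHom ℂ))) := by
        intro u v hu hv
        rw [hPe, Int.cast_add, Int.cast_mul, b5_hom u hu _ _ hl2, b5_hom v hv _ _ hl2]
        ring
      refine ⟨n * hom 4 v2.coeff (l1 n) (l2 n) + hom 4 u2.coeff (l1 n) (l2 n),
        n * hom 4 v1.coeff (l1 n) (l2 n) + hom 4 u1.coeff (l1 n) (l2 n), ?_,
        b5_bd2 _ _ _ _ _ _ _ hY b0 b1 b2 (fun j => (hb j).2.2.1) (fun j => (hb j).2.2.2),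
        b5_bd2 _ _ _ _ _ _ _ hY b0 b1 b2 (fun j => (hb j).1) (fun j => (hb j).2.1), ?_⟩
      · intro h0
        have := key u1 v1 du1 dv1
        rw [h0, Int.cast_zero] at this
        exact mul_ne_zero (pow_ne_zero _ hl2') hne this.symm
      · rw [key u1 v1 du1 dv1, key u2 v2 du2 dv2]
        ring
    · rw [hPa, hPa]
      set τ := (nn * aeval x (v2.map (Int.castRingHom ℂ)) + aeval x (u2.map (Int.castRingHom ℂ))) /
        (nn * aeval x (v1.map (Int.castRingHom ℂ)) + aeval x (u1.map (Int.castRingHom ℂ))) with hτ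
      set ρ := (nn * aeval x V2 + aeval x U2) / (nn * aeval x V1 + aeval x U1) with hρ
      have hτK := IntermediateField.mem_adjoin_simple_self ℂ τ
      have e1 : τ * (nn * aeval x (v1.map (Int.castRingHom ℂ)) +
          aeval x (u1.map (Int.castRingHom ℂ))) =
          nn * aeval x (v2.map (Int.castRingHom ℂ)) + aeval x (u2.map (Int.castRingHom ℂ)) :=
        div_mul_cancel₀ _ hg0
      have e2 : ρ * (nn * aeval x V1 + aeval x U1) = nn * aeval x V2 + aeval x U2 :=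
        div_mul_cancel₀ _ hP1
      rw [hu1, hv1, hu2, hv2] at e1
      simp only [map_add, map_mul, aeval_C] at e1
      have hρK : ρ ∈ IntermediateField.adjoin ℂ {τ} := by
        refine b5_mob _ hτK (IntermediateField.algebraMap_mem _ r12)
          (IntermediateField.algebraMap_mem _ r11) (IntermediateField.algebraMap_mem _ r22)
          (IntermediateField.algebraMap_mem _ r21) ?_ ?_
        · apply mul_right_cancel₀ hP1
          linear_combination e1 + (τ * algebraMap ℂ Ω r12 - algebraMap ℂ Ω r22) * e2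
        · rw [← map_mul, ← map_mul, ← map_sub]
          refine (_root_.map_ne_zero _).2 ?_
          rwa [mul_comm r21]
      have hxK : x ∈ IntermediateField.adjoin ℂ {τ} :=
        (IntermediateField.adjoin_simple_le_iff.2 hρK) hxρ
      refine h.rel.Kf_le hL.e1ne hx _ hxK ?_
      refine b5_mob _ hρK (b5_aeval_mem _ hxK V1) (b5_aeval_mem _ hxK U1) (b5_aeval_mem _ hxK V2)
        (b5_aeval_mem _ hxK U2) e2 ?_
      rw [← map_mul, ← map_mul, ← map_sub]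
      intro h0
      exact hx ⟨_, hΔ, h0⟩
  right
  by_cases h8 : 8 ≤ c1
  · left
    exact HL_of_indep x b L L' hL' c1 c2 2 8 hc2 h8 hli
  right
  have hg2 : 2 ≤ g2 := by omega
  have hc : c2 = 2 ∧ (c1 = 6 ∨ c1 = 7) := by
    have hg4 : g2 ≤ 4 := by omega
    interval_cases g2 <;> omega
  obtain ⟨rfl, hc⟩ := hc
  refine ⟨c1, hc, ?_, gh, hgh0, hghd, hghc, b5_pts h gh hghz, hd1, hd2⟩
  have := HL_of_indep x b L L' hL' c1 2 2 c1 le_rfl le_rfl hli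
  rwa [show 2 * c1 + 2 + c1 = 3 * c1 + 2 by ring] at this

/-- General `d`: `c1 ≥ 2 g2` and `2 g2 ≥ k (d - 2)`. -/
theorem NF.beta_deg (N : NF d) (k cg : ℕ) (hcg : ∀ g2, k * (d - 2) ≤ 2 * g2 → cg ≤ 2 * g2)
    (C0 : ℕ) (c X s1 s2 : ℝ) (μ : ℤ) (e1 e2 : Fin d → ℤ) (S : Finset ℤ) (l1 l2 : ℤ → ℤ)
    (g : ℤ → Fin d → ℤ) (hL : LineCfg N 1 k c X s1 s2 μ e1 e2 S l1 l2 g)
    (Ω : Type) [Field Ω] [Algebra ℂ Ω] (x nn : Ω) (b : Fin d → Ω) (κ : ℤ → ℂ)
    (h : CurveCfg N 1 k μ e1 e2 S l1 l2 g x nn b κ C0) (hx : Transcendental ℂ x) :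
    IsRat N S l1 l2 g x nn b κ 1 (X ^ s1) ∨ HL x b 2 cg (3 * cg + 2) := by
  by_cases hn : nn ∈ IntermediateField.adjoin ℂ {x}
  · left
    exact isRat_of_dg_x hL x nn b κ 1 le_rfl _ le_rfl
      (h.rel.Kf_le hL.e1ne hx _ (IntermediateField.mem_adjoin_simple_self ℂ x) hn)
  right
  obtain ⟨U1, V1, U2, V2, a1, a2, g1, g2, hS⟩ := N.exists_scroll k hL.e1ne hL.nd
  obtain ⟨c1, c2, L, L', gh, hc2, hc1, hL', hli, -⟩ :=
    hS.beta_deg hL.e1ne hL.nd h.rel hx (b5_alg h hx) hn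
  have h1 := hS.le
  have h2 := hS.sum
  have h3 := hcg g2 (by omega)
  have h4 : g2 * 2 ≤ g2 * c2 := Nat.mul_le_mul_left _ hc2
  have := HL_of_indep x b L L' hL' c1 c2 2 cg hc2 (by omega) hli
  rwa [show 2 * cg + 2 + cg = 3 * cg + 2 by ring] at this

end Crest.Agent.R22
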