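import Crest.Agent.R22.Appr
import Crest.Agent.R22.Ker

namespace Crest.Agent.R22

variable {d : ℕ}

theorem box1_inner {m : ℝ} (hm : 0 < m) (hm1 : m ≤ 1) (y : ℝ) (I : ℕ) :
    ∑ i ∈ Finset.range I, max 0 (y - m * i) ≤ max 0 (y + 1) ^ 2 / (2 * m) := by
  have h : ∑ i ∈ Finset.range I, max 0 (y - m * i) ≤
      (max 0 (y + m) ^ 2 - max 0 (y + m - m * I) ^ 2) / (2 * m) := by
    induction I with
    | zero => simp
    | succ I ih =>
      rw [Finset.sum_range_succ]
      have h1 : max 0 (y - m * I) ≤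
          (max 0 (y + m - m * I) ^ 2 - max 0 (y + m - m * ((I + 1 : ℕ) : ℝ)) ^ 2) / (2 * m) := by
        have e : y + m - m * ((I + 1 : ℕ) : ℝ) = y - m * I := by push_cast; ring
        rw [e, le_div_iff₀ (by positivity)]
        rcases le_total 0 (y - m * I) with h0 | h0
        · rw [max_eq_right h0, max_eq_right (by linarith)]
          nlinarith
        · rw [max_eq_left h0]
          nlinarith [sq_nonneg (max 0 (y + m - m * I))]
      refine (add_le_add ih h1).trans (le_of_eq (by ring))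
  refine h.trans (div_le_div_of_nonneg_right ?_ (by positivity))
  have h1 : max 0 (y + m) ≤ max 0 (y + 1) := max_le_max le_rfl (by linarith)
  have h2 := pow_le_pow_left₀ (le_max_left _ _) h1 2
  nlinarith [sq_nonneg (max 0 (y + m - m * I))]

theorem box1_outer (y : ℝ) (L : ℕ) :
    ∑ l ∈ Finset.range L, max 0 (y - l + 1) ^ 2 ≤ max 0 (y + 2) ^ 3 / 3 := by
  have h : ∑ l ∈ Finset.range L, max 0 (y - l + 1) ^ 2 ≤
      (max 0 (y + 2) ^ 3 - max 0 (y + 2 - L) ^ 3) / 3 := by
    induction L with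
    | zero => simp
    | succ L ih =>
      rw [Finset.sum_range_succ]
      have h1 : max 0 (y - L + 1) ^ 2 ≤
          (max 0 (y + 2 - L) ^ 3 - max 0 (y + 2 - ((L + 1 : ℕ) : ℝ)) ^ 3) / 3 := by
        have e : y + 2 - ((L + 1 : ℕ) : ℝ) = y - L + 1 := by push_cast; ring
        rw [e]
        rcases le_total 0 (y - L + 1) with h0 | h0
        · rw [max_eq_right h0, max_eq_right (by linarith)]
          nlinarith
        · rw [max_eq_left h0]
          have : 0 ≤ max 0 (y + 2 - L) ^ 3 := pow_nonneg (le_max_left _ _) 3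
          norm_num
          positivity
      refine (add_le_add ih h1).trans (le_of_eq (by ring))
  refine h.trans (div_le_div_of_nonneg_right ?_ (by positivity))
  have : 0 ≤ max 0 (y + 2 - L) ^ 3 := pow_nonneg (le_max_left _ _) 3
  linarith

theorem box1_set {m : ℝ} (hm : 0 < m) (hm1 : m ≤ 1) (T : ℕ) (E : Finset (ℕ × ℕ)) :
    ∑ e ∈ E, max 0 ((T : ℝ) - e.2 - m * e.1) ≤ ((T : ℝ) + 2) ^ 3 / (6 * m) := by
  have hsub : E ⊆ Finset.range (E.sup Prod.fst + 1) ×ˢ Finset.range (E.sup Prod.snd + 1) := by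
    intro e he
    rw [Finset.mem_product, Finset.mem_range, Finset.mem_range, Nat.lt_succ_iff, Nat.lt_succ_iff]
    exact ⟨Finset.le_sup (f := Prod.fst) he, Finset.le_sup (f := Prod.snd) he⟩
  refine (Finset.sum_le_sum_of_subset_of_nonneg hsub fun _ _ _ => le_max_left _ _).trans ?_
  rw [Finset.sum_product_right]
  refine (Finset.sum_le_sum fun (l : ℕ) _ => box1_inner hm hm1 ((T : ℝ) - l) _).trans ?_
  rw [← Finset.sum_div]
  refine (div_le_div_of_nonneg_right (box1_outer (T : ℝ) _) (by positivity)).trans (le_of_eq ?_)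
  rw [max_eq_right (by positivity)]
  field_simp
  ring

/-- `∑_{i, l ≥ 0} (T - m i - l)₊ ≤ (T + 2)³ / (6 m)`: for fixed `l`, with `y = T - l > 0`,
`∑_i (y - m i)₊ ≤ (y + m)² / (2 m) ≤ (y + 1)² / (2 m)`, and `∑_l (T - l + 1)² ≤ (T + 2)³ / 3`
(telescoping: `3 z² ≤ (z + 1)³ - z³`).  Hence an assignment of `H` rows to monomials or to the remainder
(weight `T`), injective on monomials, has total weight `≥ T H - (T + 2)³ / (6 m)`. -/
theorem weight_sum {ι : Type} [Fintype ι] (m : ℝ) (hm : 0 < m) (hm1 : m ≤ 1) (T : ℕ)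
    (φ : ι → Option (ℕ × ℕ)) (hφ : ∀ r r' e, φ r = some e → φ r' = some e → r = r') :
    (T : ℝ) * Fintype.card ι - ((T : ℝ) + 2) ^ 3 / (6 * m) ≤
      ∑ r, (φ r).elim (T : ℝ) (fun e => m * e.1 + e.2) := by
  classical
  let A : Finset ι := Finset.univ.filter fun r => (φ r).isSome
  let ψ : ι → ℕ × ℕ := fun r => (φ r).getD (0, 0)
  have hinj : Set.InjOn ψ A := by
    intro r hr r' hr' h
    obtain ⟨e, he⟩ := Option.isSome_iff_exists.1 (Finset.mem_filter.1 hr).2
    obtain ⟨e', he'⟩ := Option.isSome_iff_exists.1 (Finset.mem_filter.1 hr').2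
    simp only [ψ, he, he', Option.getD_some] at h
    exact hφ r r' e he (h ▸ he')
  have h1 := box1_set hm hm1 T (A.image ψ)
  rw [Finset.sum_image hinj, Finset.sum_filter] at h1
  have h2 : ∑ r, ((T : ℝ) - (φ r).elim (T : ℝ) (fun e => m * e.1 + e.2)) ≤
      ∑ r, if (φ r).isSome then max 0 ((T : ℝ) - (ψ r).2 - m * (ψ r).1) else 0 := by
    refine Finset.sum_le_sum fun r _ => ?_
    cases h : φ r with
    | none => simp
    | some e =>
      simp only [ψ, h, Option.elim_some, Option.isSome_some, if_true, Option.getD_some]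
      exact le_max_of_le_right (le_of_eq (by ring))
  rw [Finset.sum_sub_distrib, Finset.sum_const, Finset.card_univ, nsmul_eq_mul] at h2
  linarith

/-- the exponent vector `(i, l)` -/
noncomputable def box1m {D : ℕ} (e : Fin (D + 1) × Fin (D + 1)) : Fin 2 →₀ ℕ :=
  Finsupp.equivFunOnFinite.symm ![e.1, e.2]

theorem box1_eval {D : ℕ} {Q : MvPolynomial (Fin 2) ℂ} (hQ : Q.totalDegree ≤ D) (u v : ℂ) :
    MvPolynomial.eval ![u, v] Q = ∑ e : Fin (D + 1) × Fin (D + 1),
      Q.coeff (box1m e) * (u ^ (e.1 : ℕ) * v ^ (e.2 : ℕ)) := by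
  classical
  have hinj : Set.InjOn (box1m (D := D)) (Finset.univ : Finset (Fin (D + 1) × Fin (D + 1))) := by
    intro e _ e' _ h
    have h0 := DFunLike.congr_fun h 0
    have h1 := DFunLike.congr_fun h 1
    simp only [box1m, Finsupp.equivFunOnFinite_symm_apply_apply, Matrix.cons_val_zero,
      Matrix.cons_val_one] at h0 h1
    exact Prod.ext (Fin.ext h0) (Fin.ext h1)
  have hsub : Q.support ⊆ Finset.univ.image (box1m (D := D)) := by
    intro s hs
    have h1 := (MvPolynomial.le_totalDegree hs).trans hQ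
    rw [Finsupp.sum_fintype _ _ (by simp), Fin.sum_univ_two] at h1
    refine Finset.mem_image.2 ⟨(⟨s 0, by omega⟩, ⟨s 1, by omega⟩), Finset.mem_univ _, ?_⟩
    ext i
    fin_cases i <;> simp [box1m]
  rw [MvPolynomial.eval_eq', Finset.sum_subset hsub fun s _ hs => by
    rw [MvPolynomial.notMem_support_iff.1 hs, zero_mul], Finset.sum_image hinj]
  refine Finset.sum_congr rfl fun e _ => ?_
  simp [box1m]

/-- The determinant bound.  Pieces of the row `r`: for `(i, l)` with `i, l ≤ Dg` the function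
`r col coeff u^i ε^l` (size `≤ Y |coeff| K^i X^(-(m i + l))`), and the error (size `C Y X^(-T)`).  Two rows
using the same monomial are proportional (`Matrix.det_zero_of_row_eq` after pulling out scalars).  Apply
`det_real` with `τ = Option (Fin (Dg+1) × Fin (Dg+1))` and `weight_sum`. -/
theorem det_box (Dg T H : ℕ) (K C m : ℝ) (hK : 1 ≤ K) (hC : 1 ≤ C) (hm : 0 < m) (hm1 : m ≤ 1) :
    ∃ C' : ℝ, ∀ X ≥ (1 : ℝ), ∀ (Y : ℝ) (S : Finset ℤ) (u col : ℤ → ℂ), 0 ≤ Y →
    (∀ n ∈ S, X ≤ |(n : ℝ)| ∧ ‖u n‖ ≤ K * X ^ (-m)) →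
    ∀ (ι : Type) [Fintype ι] [DecidableEq ι], Fintype.card ι = H → ∀ row : ι → ℤ → ℂ,
    (∀ r, RowAppr S u col (row r) Y (X ^ (-(T : ℝ))) Dg C) → ∀ P : ι → ℤ, (∀ r, P r ∈ S) →
    ‖(Matrix.of fun r r' => row r (P r')).det‖ ≤
      C' * Y ^ H * X ^ (-((T : ℝ) * H - ((T : ℝ) + 2) ^ 3 / (6 * m))) := by
  refine ⟨H.factorial * ((Fintype.card (Option (Fin (Dg + 1) × Fin (Dg + 1))) : ℝ) *
    (C * K ^ Dg)) ^ H, ?_⟩
  intro X hX Y S u col hY hS ι _ _ hH row hrow P hP
  choose rr Q hQd hQ1 hQ2 using hrow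
  have hX0 : 0 < X := by linarith
  have hKD : 1 ≤ K ^ Dg := one_le_pow₀ hK
  let cf : ι → Option (Fin (Dg + 1) × Fin (Dg + 1)) → ℂ := fun r t =>
    t.elim 1 fun e => rr r * (Q r).coeff (box1m e)
  let M : ι → Option (Fin (Dg + 1) × Fin (Dg + 1)) → ι → ℂ := fun r t r' =>
    t.elim (row r (P r') - rr r * col (P r') * MvPolynomial.eval ![u (P r'), (P r' : ℂ)⁻¹] (Q r))
      fun e => col (P r') * (u (P r') ^ (e.1 : ℕ) * ((P r' : ℂ)⁻¹) ^ (e.2 : ℕ))
  let nt : Option (Fin (Dg + 1) × Fin (Dg + 1)) → Option (ℕ × ℕ) :=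
    Option.map fun e => (e.1, e.2)
  have key := det_real (fun r t r' => cf r t * M r t r') (fun _ _ => Y * (C * K ^ Dg))
    (fun _ t => (nt t).elim (T : ℝ) (fun e => m * e.1 + e.2)) X
    ((T : ℝ) * H - ((T : ℝ) + 2) ^ 3 / (6 * m)) hX (fun _ _ => by positivity) ?_ ?_
  · have e1 : (Matrix.of fun r r' => ∑ t, cf r t * M r t r') =
        Matrix.of fun r r' => row r (P r') := by
      ext r r'
      simp only [Matrix.of_apply, Fintype.sum_option, cf, M, Option.elim_none, Option.elim_some,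
        one_mul]
      rw [box1_eval (hQd r), Finset.mul_sum, sub_add, ← Finset.sum_sub_distrib,
        Finset.sum_eq_zero fun e _ => by ring, sub_zero]
    rw [e1, hH] at key
    refine key.trans (le_of_eq ?_)
    rw [Finset.prod_const, Finset.sum_const, Finset.card_univ, Finset.card_univ, hH, nsmul_eq_mul]
    congr 1
    rw [mul_assoc, ← mul_pow]
    congr 2
    ring
  · intro r t r'
    obtain ⟨h1, h2⟩ := hQ2 r _ (hP r')
    obtain ⟨h3, h4⟩ := hS _ (hP r')
    cases t with
    | none =>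
      simp only [cf, M, nt, Option.elim_none, one_mul, Option.map_none]
      refine h2.trans (mul_le_mul_of_nonneg_right ?_ (by positivity))
      rw [mul_comm C Y]
      exact mul_le_mul_of_nonneg_left (le_mul_of_one_le_right (by linarith) hKD) hY
    | some e =>
      simp only [cf, M, nt, Option.elim_some, Option.map_some]
      have h5 : ‖(Q r).coeff (box1m e)‖ ≤ C := by
        by_cases h : box1m e ∈ (Q r).support
        · exact (Finset.single_le_sum (f := fun s => ‖(Q r).coeff s‖)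
            (fun _ _ => norm_nonneg _) h).trans (hQ1 r)
        · rw [MvPolynomial.notMem_support_iff.1 h, norm_zero]; linarith
      have h6 : ‖u (P r') ^ (e.1 : ℕ)‖ ≤ K ^ Dg * X ^ (-(m * (e.1 : ℕ))) := by
        rw [norm_pow]
        refine (pow_le_pow_left₀ (norm_nonneg _) h4 _).trans ?_
        rw [mul_pow, ← Real.rpow_natCast (X ^ (-m)), ← Real.rpow_mul hX0.le, neg_mul]
        exact mul_le_mul_of_nonneg_right (pow_le_pow_right₀ hK (Nat.lt_succ_iff.1 e.1.2))
          (by positivity)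
      have h7 : ‖((P r' : ℂ)⁻¹) ^ (e.2 : ℕ)‖ ≤ X ^ (-((e.2 : ℕ) : ℝ)) := by
        rw [norm_pow, norm_inv, Complex.norm_intCast, Real.rpow_neg hX0.le, Real.rpow_natCast,
          ← inv_pow]
        exact pow_le_pow_left₀ (by positivity) (inv_anti₀ hX0 h3) _
      have e1 : rr r * (Q r).coeff (box1m e) *
          (col (P r') * (u (P r') ^ (e.1 : ℕ) * ((P r' : ℂ)⁻¹) ^ (e.2 : ℕ))) =
          rr r * col (P r') * ((Q r).coeff (box1m e) *
            (u (P r') ^ (e.1 : ℕ) * ((P r' : ℂ)⁻¹) ^ (e.2 : ℕ))) := by ring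
      rw [e1, norm_mul (rr r * col (P r')), norm_mul ((Q r).coeff _), norm_mul (u (P r') ^ _),
        neg_add, Real.rpow_add hX0]
      refine (mul_le_mul h1 (mul_le_mul h5 (mul_le_mul h6 h7 (norm_nonneg _) (by positivity))
        (by positivity) (by linarith)) (by positivity) hY).trans (le_of_eq (by ring))
  · intro φ hφ
    by_contra hdet
    have := weight_sum m hm hm1 T (fun r => nt (φ r)) fun r r' e h h' => by
      by_contra hne
      apply hdet
      have e1 := Matrix.det_mul_column (fun r => cf r (φ r)) (Matrix.of fun r r' => M r (φ r) r')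
      simp only [Matrix.of_apply] at e1
      rw [e1, Matrix.det_zero_of_row_eq hne, mul_zero]
      obtain ⟨a, ha, ha'⟩ := Option.map_eq_some_iff.1 h
      obtain ⟨b, hb, hb'⟩ := Option.map_eq_some_iff.1 h'
      have hab : a = b := by
        rw [← hb'] at ha'
        exact Prod.ext (Fin.ext (congrArg Prod.fst ha')) (Fin.ext (congrArg Prod.snd ha'))
      funext r''
      simp only [Matrix.of_apply, M, ha, hb, hab, Option.elim_some]
    rw [hH] at this
    exact absurd hφ (not_lt.2 this)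

end Crest.Agent.R22
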