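import Crest.Agent.R22.Appr
import Crest.Agent.R22.Ker
import Crest.Agent.R22.Box1

namespace Crest.Agent.R22

variable {d : ℕ}

theorem box2_card {α β : Type} [DecidableEq β] (S : Finset α) (f : α → β) (Z : Finset β)
    (hf : ∀ n ∈ S, f n ∈ Z) (B : ℝ) (hB : ∀ z ∈ Z, ((S.filter fun n => f n = z).card : ℝ) ≤ B) :
    (S.card : ℝ) ≤ Z.card * B := by
  rw [Finset.card_eq_sum_card_fiberwise hf, Nat.cast_sum, ← nsmul_eq_mul]
  exact Finset.sum_le_card_nsmul _ _ _ hB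

/-- One box: `sigma_chart` splits the points into `≤ p^d` classes; in a class `all_appr` and `det_box`
bound every `H × H` determinant of rows by `C X^(H (a s1 + E s2) - T H + (T+2)³/(6m)) < X^G`, so all
vanish, and `exists_rel_of_det` gives the relation. -/
theorem NF.box (N : NF d) (p q a E H T : ℕ) (hp : 1 ≤ p) (hH : 1 ≤ H) {c m : ℝ} (s1 s2 G KU : ℝ)
    (hc : 0 < c) (hm : 0 < m) (hm1 : m ≤ 1)
    (hineq : H * (a * s1 + E * s2) - (T : ℝ) * H + ((T : ℝ) + 2) ^ 3 / (6 * m) < G) :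
    ∃ X0 : ℝ, ∀ X ≥ X0, ∀ (μ : ℤ) (e1 e2 : Fin d → ℤ) (S : Finset ℤ) (l1 l2 : ℤ → ℤ)
    (g : ℤ → Fin d → ℤ), LineCfg N p q c X s1 s2 μ e1 e2 S l1 l2 g → Diam e1 e2 l1 l2 X m S →
    ∀ U : Matrix (Fin d) (Fin d) ℤ, (∀ s t, |(U s t : ℝ)| ≤ KU) →
    ∀ (ι : Type) [Fintype ι] [DecidableEq ι], Fintype.card ι = H →
    ∀ (i : ι → ℕ) (mm : ι → Fin d → ℕ), (∀ r, i r ≤ a ∧ ∑ s, mm r s = E) →
    (∀ P : ι → ℤ, (∀ r, P r ∈ S) →
      (Matrix.of fun r r' => rowv U l1 l2 g a (i r) (mm r) (P r')).det ≠ 0 →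
      X ^ G ≤ |((Matrix.of fun r r' => rowv U l1 l2 g a (i r) (mm r) (P r')).det : ℝ)|) →
    ∀ B : ℝ, 0 ≤ B → (∀ T' ⊆ S, (∃ cf : ι → ℂ, cf ≠ 0 ∧
      ∀ n ∈ T', ∑ r, cf r * (rowv U l1 l2 g a (i r) (mm r) n : ℂ) = 0) → (T'.card : ℝ) ≤ B) →
    (S.card : ℝ) ≤ (p : ℝ) ^ d * B := by
  classical
  obtain ⟨K, X1, hK, hch⟩ := N.sigma_chart p q hp hc hm hm1
  obtain ⟨Dg, C, X2, hC, hap⟩ := N.all_appr p q a E T hp K KU m hK hm hm1
  obtain ⟨C', hdet⟩ := det_box Dg T H K C m hK hC hm hm1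
  obtain ⟨X3, hX3⟩ := Filter.eventually_atTop.1
    ((tendsto_rpow_atTop (sub_pos.2 hineq)).eventually_gt_atTop (C' * C ^ H))
  refine ⟨max (max X1 X2) (max X3 1), fun X hX μ e1 e2 S l1 l2 g hL hD U hU ι _ _ hι i mm hr hG B hB0
    hB => ?_⟩
  simp only [ge_iff_le, max_le_iff] at hX
  obtain ⟨⟨h1, h2⟩, h3, h4⟩ := hX
  have hX0 : 0 < X := by linarith
  obtain ⟨u, ν, κ', A, W0, r1, r2, a1, a1', a2, a2', r, σ0, cls, -, -, hcls, hchart⟩ :=
    hch X h1 s1 s2 μ e1 e2 S l1 l2 g hL hD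
  have hne : Nonempty ι := Fintype.card_pos_iff.1 (by omega)
  refine (box2_card S cls (Fintype.piFinset fun _ => Polynomial.nthRootsFinset p (1 : ℂ))
    (fun n hn => Fintype.mem_piFinset.2 fun j =>
      (Polynomial.mem_nthRootsFinset hp 1).2 (hcls n hn j)) B fun ζ hζ => ?_).trans ?_
  · have hT := Finset.filter_subset (fun n => cls n = ζ) S
    have hc' := hchart ζ _ hT
      (fun j => (Polynomial.mem_nthRootsFinset hp 1).1 (Fintype.mem_piFinset.1 hζ j))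
      fun n hn => (Finset.mem_filter.1 hn).2
    obtain ⟨col, hcol⟩ := hap X h2 s1 s2 _ l1 l2 g u ν κ' A _ r1 r2 a1 a1' a2 a2' hc' U hU
    refine hB _ hT (exists_rel_of_det _ (fun r n => (rowv U l1 l2 g a (i r) (mm r) n : ℂ))
      fun P hP => ?_)
    have e1 : (Matrix.of fun r r' => (rowv U l1 l2 g a (i r) (mm r) (P r') : ℂ)).det =
        ((Matrix.of fun r r' => rowv U l1 l2 g a (i r) (mm r) (P r')).det : ℤ) :=
      ((Int.castRingHom ℂ).map_det _).symm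
    have e2 := hdet X h4 (C * X ^ (a * s1 + E * s2)) _ u col (by positivity)
      (fun n hn => ⟨hc'.rng n hn, hc'.usz n hn⟩) ι hι
      (fun r n => (rowv U l1 l2 g a (i r) (mm r) n : ℂ))
      (fun r => hcol (i r) (hr r).1 (mm r) (hr r).2) P hP
    rw [e1, Complex.norm_intCast] at e2
    rw [e1, Int.cast_eq_zero]
    by_contra h0
    have e3 := (hG P (fun r => hT (hP r)) h0).trans e2
    have e4 := mul_lt_mul_of_pos_right (hX3 X h3) (Real.rpow_pos_of_pos hX0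
      (H * (a * s1 + E * s2) - (T : ℝ) * H + ((T : ℝ) + 2) ^ 3 / (6 * m)))
    rw [← Real.rpow_add hX0, sub_add_cancel] at e4
    refine absurd (e3.trans_eq ?_) (not_le.2 e4)
    rw [mul_pow, ← Real.rpow_natCast (X ^ _), ← Real.rpow_mul hX0.le, ← mul_assoc, mul_assoc,
      ← Real.rpow_add hX0]
    congr 2
    ring
  · refine mul_le_mul_of_nonneg_right ?_ hB0
    have h5 : (Polynomial.nthRootsFinset p (1 : ℂ)).card ≤ p :=
      (Multiset.toFinset_card_le _).trans (Polynomial.card_nthRoots p 1)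
    rw [Fintype.card_piFinset, Finset.prod_const, Finset.card_univ, Fintype.card_fin]
    exact_mod_cast Nat.pow_le_pow_left h5 d

/-- Cutting `[-1, 1]` into `≤ 2 X^m + 1` intervals (class of `n`: `⌊σ n * X^m⌋`). -/
theorem LineCfg.card_le_of_diam {N : NF d} {p q : ℕ} {c X s1 s2 m : ℝ} {μ : ℤ}
    {e1 e2 : Fin d → ℤ} {S : Finset ℤ} {l1 l2 : ℤ → ℤ} {g : ℤ → Fin d → ℤ}
    (h : LineCfg N p q c X s1 s2 μ e1 e2 S l1 l2 g) (hX : 1 ≤ X) (hm : 0 ≤ m) (B : ℝ) (hB0 : 0 ≤ B)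
    (hB : ∀ T ⊆ S, Diam e1 e2 l1 l2 X m T → (T.card : ℝ) ≤ B) :
    (S.card : ℝ) ≤ 4 * X ^ m * B := by
  have hY : 1 ≤ X ^ m := Real.one_le_rpow hX hm
  have hY0 : 0 < X ^ m := by linarith
  refine (box2_card S (fun n => ⌊sig e1 e2 l1 l2 n * X ^ m⌋) (Finset.Icc ⌊-X ^ m⌋ ⌊X ^ m⌋)
    (fun n hn => ?_) B fun z _ => hB _ (Finset.filter_subset _ _) fun n hn n' hn' => ?_).trans
    (mul_le_mul_of_nonneg_right ?_ hB0)
  · have h1 : |sig e1 e2 l1 l2 n| ≤ 1 := by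
      rw [sig, abs_div, abs_mul, abs_mul, abs_norm, abs_norm]
      exact div_le_one_of_le₀ (h.chart n hn) (by positivity)
    obtain ⟨h2, h3⟩ := abs_le.1 h1
    exact Finset.mem_Icc.2 ⟨Int.floor_mono (by nlinarith), Int.floor_mono (by nlinarith)⟩
  · have h1 := Int.abs_sub_lt_one_of_floor_eq_floor
      ((Finset.mem_filter.1 hn).2.trans (Finset.mem_filter.1 hn').2.symm)
    rw [← sub_mul, abs_mul, abs_of_pos hY0] at h1
    rw [Real.rpow_neg (by linarith), inv_eq_one_div, le_div_iff₀ hY0]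
    exact h1.le
  · have h1 := Int.floor_le (X ^ m)
    have h2 := Int.lt_floor_add_one (-X ^ m)
    have h3 : ⌊-X ^ m⌋ ≤ ⌊X ^ m⌋ := Int.floor_mono (by linarith)
    have h4 : ((Finset.Icc ⌊-X ^ m⌋ ⌊X ^ m⌋).card : ℝ) = ⌊X ^ m⌋ + 1 - ⌊-X ^ m⌋ := by
      exact_mod_cast Int.card_Icc_of_le _ _ (h3.trans (Int.le_add_one le_rfl))
    linarith

end Crest.Agent.R22
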