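import Crest.Agent.R22.NFBasic

namespace Crest.Agent.R22

open Polynomial

variable {d : ℕ}

private theorem exists_qpoly (N : NF d) (a : Fin d → ℤ) :
    ∃ A : ℚ[X], ∀ l, aeval (N.θ l) A = N.emb a l :=
  ⟨∑ s : Fin d, C (a s : ℚ) * X ^ (s : ℕ), fun l => by simp [NF.emb, map_sum]⟩

private theorem aeval_F (N : NF d) (l : Fin d) :
    aeval (N.θ l) (N.F.map (Int.castRingHom ℚ)) = 0 := by
  have := aeval_map_algebraMap ℚ (N.θ l) N.F
  rw [N.root l] at this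
  exact this

private theorem exists_qinv (N : NF d) {η : Fin d → ℤ} (hη : η ≠ 0) (i : Fin d) :
    ∃ B : ℚ[X], ∀ l, aeval (N.θ l) B = (N.emb η l)⁻¹ := by
  obtain ⟨A, hA⟩ := exists_qpoly N η
  have h1 : ¬ N.F.map (Int.castRingHom ℚ) ∣ A := by
    rintro ⟨G, hG⟩
    apply N.emb_ne_zero hη i
    rw [← hA, hG, map_mul, aeval_F, zero_mul]
  obtain ⟨U, V, h⟩ := (N.irr.coprime_iff_not_dvd).2 h1
  refine ⟨V, fun l => ?_⟩
  have := congrArg (aeval (N.θ l)) h
  rw [map_add, map_mul, map_mul, aeval_F, mul_zero, zero_add, hA, map_one] at this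
  exact eq_inv_of_mul_eq_one_left this

private theorem isIntegral_conj (N : NF d) (P : ℚ[X]) (i l : Fin d)
    (h : IsIntegral ℤ (aeval (N.θ i) P)) : IsIntegral ℤ (aeval (N.θ l) P) := by
  obtain ⟨M, hM, hM0⟩ := h
  have key : ∀ j, aeval (N.θ j) ((M.map (algebraMap ℤ ℚ)).comp P)
      = aeval (aeval (N.θ j) P) M := fun j => by
    rw [aeval_comp, aeval_map_algebraMap]
  refine ⟨M, hM, ?_⟩
  rw [← aeval_def] at hM0 ⊢
  rw [← key] at hM0 ⊢
  obtain ⟨G, hG⟩ := N.dvd_of_root _ i hM0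
  rw [hG, map_mul, aeval_F, zero_mul]

/-- If one conjugate of `t e / η` is an algebraic integer then `|N η| ≤ |t|^d |N e|`.
Proof: `F` is irreducible and `η ≠ 0`, so there is `P ∈ ℚ[X]` with `P(θ l) = t ê l / η̂ l` for all `l`
(Bezout in `ℚ[X]`).  If the monic `M ∈ ℤ[X]` kills `P(θ i)` then `F ∣ M.comp P` (`dvd_of_root`), so all
conjugates are integral, hence so is their product, which is the nonzero rational
`t^d N(e) / N(η)` (`norm_int`); a rational algebraic integer is an integer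
(`IsIntegrallyClosed.isIntegral_iff`), of absolute value `≥ 1`. -/
theorem NF.norm_le_of_integral (N : NF d) {e η : Fin d → ℤ} (he : e ≠ 0) (hη : η ≠ 0) {t : ℤ}
    (ht : t ≠ 0) (i : Fin d) (h : IsIntegral ℤ ((t : ℂ) * N.emb e i / N.emb η i)) :
    ∏ l, ‖N.emb η l‖ ≤ ∏ l, (|(t : ℝ)| * ‖N.emb e l‖) := by
  obtain ⟨E, hE⟩ := exists_qpoly N e
  obtain ⟨B, hB⟩ := exists_qinv N hη i
  have hP : ∀ l, aeval (N.θ l) (C (t : ℚ) * E * B) = (t : ℂ) * N.emb e l / N.emb η l := by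
    intro l
    rw [map_mul, map_mul, hE, hB, div_eq_mul_inv]
    simp
  have hall : ∀ l, IsIntegral ℤ ((t : ℂ) * N.emb e l / N.emb η l) := by
    intro l
    rw [← hP] at h ⊢
    exact isIntegral_conj N _ i l h
  have hprod : IsIntegral ℤ (∏ l, (t : ℂ) * N.emb e l / N.emb η l) :=
    IsIntegral.prod _ fun l _ => hall l
  obtain ⟨m1, hm1⟩ := N.norm_int (t • e)
  obtain ⟨m2, hm2⟩ := N.norm_int η
  simp only [N.emb_smul] at hm1
  have hm20 : (m2 : ℂ) ≠ 0 := by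
    rw [← hm2]; exact Finset.prod_ne_zero_iff.2 fun l _ => N.emb_ne_zero hη l
  have hm10 : (m1 : ℂ) ≠ 0 := by
    rw [← hm1]
    exact Finset.prod_ne_zero_iff.2 fun l _ =>
      mul_ne_zero (by exact_mod_cast ht) (N.emb_ne_zero he l)
  rw [Finset.prod_div_distrib, hm1, hm2] at hprod
  have hq : ((m1 : ℂ) / (m2 : ℂ)) = algebraMap ℚ ℂ ((m1 : ℚ) / (m2 : ℚ)) := by simp
  rw [hq, isIntegral_algebraMap_iff (algebraMap ℚ ℂ).injective] at hprod
  obtain ⟨z, hz⟩ := IsIntegrallyClosed.isIntegral_iff.1 hprod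
  have hz' : (z : ℂ) * m2 = m1 := by
    have := congrArg (algebraMap ℚ ℂ) hz
    rw [← hq] at this
    rw [← div_mul_cancel₀ (m1 : ℂ) hm20, ← this]
    simp
  have hz0 : z ≠ 0 := by
    rintro rfl
    apply hm10
    rw [← hz']; simp
  have h1 : ∏ l, (|(t : ℝ)| * ‖N.emb e l‖) = ‖(m1 : ℂ)‖ := by
    rw [← hm1, norm_prod]
    refine Finset.prod_congr rfl fun l _ => ?_
    rw [norm_mul, Complex.norm_intCast]
  rw [h1, ← norm_prod, hm2, ← hz', norm_mul]
  have : (1 : ℝ) ≤ ‖(z : ℂ)‖ := by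
    rw [Complex.norm_intCast]
    exact_mod_cast Int.one_le_abs hz0
  nlinarith [norm_nonneg (m2 : ℂ)]

/-- Non-degeneracy of the lines.  If `ê i η̂ j = ê j η̂ i` (`i ≠ j`), put `r = ê i / η̂ i = ê j / η̂ j`.
Since `η̂ l * ŵ l = μ (n - θ l)`, `r μ (n - θ i) = ê i ŵ i` and `r μ (n - θ j) = ê j ŵ j` are integral, so
`r μ (θ j - θ i)` and (with `D` from `exists_den`) `r μ D` are integral.  By `norm_le_of_integral`,
`(c ‖η‖)^d ≤ (D C ‖e‖ / c)^d`, impossible when `‖e‖ < c' ‖η‖` with `c' = c² / (D C)`. -/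
theorem NF.nondeg (N : NF d) {c : ℝ} (hc : 0 < c) : ∃ c' : ℝ, 0 < c' ∧
    ∀ (e η w : Fin d → ℤ) (μ n : ℤ), e ≠ 0 → μ ≠ 0 → c * |(μ : ℝ)| ≤ 1 →
      (∀ l, N.emb η l * N.emb w l = (μ : ℂ) * ((n : ℂ) - N.θ l)) →
      (∀ l, c * ‖η‖ ≤ ‖N.emb η l‖) → ‖e‖ < c' * ‖η‖ →
      ∀ i j, i ≠ j → N.PP e η i j ≠ 0 := by
  obtain ⟨D, hD, -, hDen⟩ := N.exists_den
  obtain ⟨C, hC1, -, -, hCe, -, -⟩ := N.exists_C
  have hD' : (0 : ℝ) < D := by exact_mod_cast hD
  refine ⟨c ^ 2 / (D * C), by positivity, ?_⟩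
  intro e η w μ n he hμ hcμ hw hlow hsm i j hij hPP
  have hη : η ≠ 0 := by
    rintro rfl
    rw [norm_zero, mul_zero] at hsm
    exact absurd hsm (not_lt.2 (norm_nonneg _))
  have hi := N.emb_ne_zero hη i
  have hj := N.emb_ne_zero hη j
  have hθ : N.θ i - N.θ j ≠ 0 := sub_ne_zero.2 fun h => hij (N.inj h)
  unfold NF.PP at hPP
  have ht : μ * (D : ℤ) ≠ 0 := mul_ne_zero hμ (by exact_mod_cast hD.ne')
  have hint : IsIntegral ℤ (((μ * (D : ℤ) : ℤ) : ℂ) * N.emb e i / N.emb η i) := by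
    have h1 : ((μ * (D : ℤ) : ℤ) : ℂ) * N.emb e i / N.emb η i
        = (N.emb e j * N.emb w j - N.emb e i * N.emb w i) * ((D : ℂ) / (N.θ i - N.θ j)) := by
      have hwi : N.emb w i = (μ : ℂ) * ((n : ℂ) - N.θ i) / N.emb η i := by
        rw [← hw i]; field_simp
      have hwj : N.emb w j = (μ : ℂ) * ((n : ℂ) - N.θ j) / N.emb η j := by
        rw [← hw j]; field_simp
      have hej : N.emb e j = N.emb e i * N.emb η j / N.emb η i := by
        field_simp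
        linear_combination -hPP
      rw [hwi, hwj, hej]
      push_cast
      field_simp
      ring
    rw [h1]
    exact (((N.emb_isIntegral e j).mul (N.emb_isIntegral w j)).sub
      ((N.emb_isIntegral e i).mul (N.emb_isIntegral w i))).mul (hDen i j hij)
  have h2 := N.norm_le_of_integral he hη ht i hint
  refine absurd h2 (not_le.2 ?_)
  refine Finset.prod_lt_prod_of_nonempty (fun l _ => ?_) (fun l _ => ?_) ⟨i, Finset.mem_univ i⟩
  · exact mul_pos (abs_pos.2 (by exact_mod_cast ht)) (norm_pos_iff.2 (N.emb_ne_zero he l))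
  · refine lt_of_lt_of_le ?_ (hlow l)
    push_cast
    rw [abs_mul, abs_of_pos hD']
    have h3 : D * C * ‖e‖ < c ^ 2 * ‖η‖ := by
      have : 0 < (D : ℝ) * C := by positivity
      calc D * C * ‖e‖ < D * C * (c ^ 2 / (D * C) * ‖η‖) := mul_lt_mul_of_pos_left hsm this
        _ = c ^ 2 * ‖η‖ := by field_simp
    have h4 : c * (|(μ : ℝ)| * D * ‖N.emb e l‖) < c * (c * ‖η‖) := by
      calc c * (|(μ : ℝ)| * D * ‖N.emb e l‖) = (c * |(μ : ℝ)|) * (D * ‖N.emb e l‖) := by ring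
        _ ≤ 1 * (D * (C * ‖e‖)) := by
          gcongr
          exact hCe e l
        _ < c * (c * ‖η‖) := by nlinarith
    exact lt_of_mul_lt_mul_left h4 hc.le

end Crest.Agent.R22
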