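import Crest.Agent.R22.Num
import Crest.Agent.R22.Lines
import Crest.Agent.R22.Nondeg

/-! Distributing the solutions of one cell over lines. -/

namespace Crest.Agent.R22

variable {d : ℕ}

/-- A pair `(e1, e2)` in the cell `‖e1‖ ≈ X^ε`, where `‖η‖ ≈ X^h`. -/
structure PairOK (N : NF d) (c' X h ε : ℝ) (e : (Fin d → ℤ) × (Fin d → ℤ)) : Prop where
  good : GoodPair e.1 e.2
  lo : X ^ ε ≤ ‖e.1‖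
  hi : ‖e.1‖ ≤ X ^ (ε + nu)
  hi2 : ‖e.2‖ ≤ X ^ (h * (((d : ℝ) - 2) / ((d : ℝ) - 1)) + 3 * nu - ε)
  low : ∀ i, c' * ‖e.1‖ ≤ ‖N.emb e.1 i‖ ∨ c' * ‖e.2‖ ≤ ‖N.emb e.2 i‖

/-- `B` bounds the points of `S` on the line `e` in each of the two charts. -/
def LineBound (N : NF d) (p q : ℕ) (c' X s1 s2 : ℝ) (μ : ℤ) (S : Finset ℤ) (η γ : ℤ → Fin d → ℤ)
    (e : (Fin d → ℤ) × (Fin d → ℤ)) (B : ℝ) : Prop :=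
  ∀ (f1 f2 : Fin d → ℤ) (k1 k2 : ℤ → ℤ) (T : Finset ℤ), ((f1 = e.1 ∧ f2 = e.2) ∨ (f1 = e.2 ∧ f2 = e.1)) →
    T ⊆ S → (∀ n ∈ T, η n = k1 n • f1 + k2 n • f2) → LineCfg N p q c' X s1 s2 μ f1 f2 T k1 k2 γ →
    (T.card : ℝ) ≤ B

/-- The data of a cell: `γ^p η^q = μ (n - θ)`, `‖η‖ ≈ X^h`, `‖γ‖ ≤ X^s2`. -/
structure CellCfg (N : NF d) (p q : ℕ) (c X h s2 : ℝ) (μ : ℤ) (S : Finset ℤ)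
    (η γ : ℤ → Fin d → ℤ) : Prop where
  mu0 : μ ≠ 0
  mule : c * |(μ : ℝ)| ≤ 1
  rng : ∀ n ∈ S, X ≤ |(n : ℝ)| ∧ |(n : ℝ)| ≤ 2 * X
  eq : ∀ n ∈ S, ∀ i, N.emb (γ n) i ^ p * N.emb (η n) i ^ q = (μ : ℂ) * ((n : ℂ) - N.θ i)
  primE : ∀ n ∈ S, Prim (η n)
  primG : ∀ n ∈ S, Prim (γ n)
  low : ∀ n ∈ S, ∀ i, c * ‖η n‖ ≤ ‖N.emb (η n) i‖
  szE : ∀ n ∈ S, X ^ h ≤ ‖η n‖ ∧ ‖η n‖ ≤ X ^ (h + nu)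
  szG : ∀ n ∈ S, ‖γ n‖ ≤ X ^ s2

end Crest.Agent.R22
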