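import Crest.Agent.R22.Cell0

namespace Crest.Agent.R22

variable {d : ℕ}

theorem ev_const_le_rpow (C ε : ℝ) (hε : 0 < ε) : ∃ X0 : ℝ, ∀ X ≥ X0, C ≤ X ^ ε := by
  have := (tendsto_rpow_atTop hε).eventually_ge_atTop C
  exact Filter.eventually_atTop.1 this

theorem nu_pos : 0 < nu := by unfold nu; norm_num

theorem one_le_norm_of_ne_zero {a : Fin d → ℤ} (h : a ≠ 0) : 1 ≤ ‖a‖ := by
  obtain ⟨s, hs⟩ := Function.ne_iff.1 h
  refine le_trans ?_ (norm_le_pi_norm a s)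
  rw [Int.norm_eq_abs]
  exact_mod_cast Int.one_le_abs hs

theorem NF.PP_swap (N : NF d) (e1 e2 : Fin d → ℤ) (i j : Fin d) :
    N.PP e2 e1 i j = -N.PP e1 e2 i j := by
  unfold NF.PP; ring

/-- One point on its line.  With `t = (d-2)/(d-1)`: `‖e1‖ ‖e2‖ ≤ CL X^((h+ν) t)`; so `X^(2ε) ≤ ‖e1‖² ≤ X^(h t + 2ν)` and
`‖e2‖ ≤ X^(h t + 3ν - ε)` for large `X` (`ν t < ν`), and `‖e2‖ ≤ X` as `h + ν ≤ 1`, `t < 1`, `‖e1‖ ≥ 1`.  `low`: from
`c ‖η‖ ≤ |l1| |ê1 i| + |l2| |ê2 i|` and `|l_s| ‖e_s‖ ≤ 4 ‖η‖`, with `c' ≤ c / 8`.  Non-degeneracy: `nondeg` with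
`e = e1`, `w = γ^p η^(q-1)` (`N.R`), `‖e1‖² ≤ CL ‖η‖^t` so `‖e1‖ < c'' ‖η‖` for `‖η‖ ≥ X^h` large; and
`PP e1 η i j = l2 PP e1 e2 i j`, `PP e2 e1 = - PP e1 e2`.  In the chart `|l1| ‖e1‖ ≤ |l2| ‖e2‖` use `(e1, e2, l1, l2)`,
otherwise `(e2, e1, l2, l1)`; `sz1` follows from `4 ‖η‖ ≤ X^(h + 2ν) ≤ X^(h + 2ν - ε) ‖e1‖`. -/
theorem NF.point_line (N : NF d) (p q : ℕ) (hq : 1 ≤ q) (c h CL : ℝ) (hc : 0 < c) (hh : 0 < h)
    (hh1 : h + nu ≤ 1) : ∃ c' X0 : ℝ, 0 < c' ∧ ∀ X ≥ X0, ∀ (s2 ε : ℝ) (μ : ℤ) (S : Finset ℤ)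
    (η γ : ℤ → Fin d → ℤ), CellCfg N p q c X h s2 μ S η γ → ∀ (e1 e2 : Fin d → ℤ) (l1 l2 : ℤ → ℤ)
    (T : Finset ℤ), T ⊆ S → T.Nonempty → GoodPair e1 e2 → X ^ ε ≤ ‖e1‖ → ‖e1‖ ≤ X ^ (ε + nu) →
    (∀ n ∈ T, η n = l1 n • e1 + l2 n • e2 ∧ IsCoprime (l1 n) (l2 n) ∧
      ‖e1‖ * ‖e2‖ ≤ CL * ‖η n‖ ^ (((d : ℝ) - 2) / ((d : ℝ) - 1)) ∧
      |(l1 n : ℝ)| * ‖e1‖ ≤ 4 * ‖η n‖ ∧ |(l2 n : ℝ)| * ‖e2‖ ≤ 4 * ‖η n‖) →
    PairOK N c' X h ε (e1, e2) ∧ 2 * ε ≤ h * (((d : ℝ) - 2) / ((d : ℝ) - 1)) + 2 * nu ∧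
      LineCfg N p q c' X (h + 2 * nu - ε) s2 μ e1 e2
        (T.filter fun n => |(l1 n : ℝ)| * ‖e1‖ ≤ |(l2 n : ℝ)| * ‖e2‖) l1 l2 γ ∧
      LineCfg N p q c' X (h + 2 * nu - ε) s2 μ e2 e1
        (T.filter fun n => ¬ |(l1 n : ℝ)| * ‖e1‖ ≤ |(l2 n : ℝ)| * ‖e2‖) l2 l1 γ := by
  obtain ⟨c'', hc'', hnd⟩ := N.nondeg hc
  set t : ℝ := ((d : ℝ) - 2) / ((d : ℝ) - 1) with ht
  have hd4 : (4 : ℝ) ≤ d := by exact_mod_cast N.four_le
  have ht0 : 0 ≤ t := div_nonneg (by linarith) (by linarith)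
  have ht1 : t < 1 := by rw [ht, div_lt_one (by linarith)]; linarith
  have hnu := nu_pos
  obtain ⟨X1, hX1⟩ := ev_const_le_rpow CL nu hnu
  obtain ⟨X2, hX2⟩ := ev_const_le_rpow 4 nu hnu
  obtain ⟨X3, hX3⟩ := ev_const_le_rpow CL (1 - t) (by linarith)
  obtain ⟨X4, hX4⟩ := ev_const_le_rpow (|CL| / c'' ^ 2 + 1) h hh
  refine ⟨c / 8, max (max X1 X2) (max (max X3 X4) 2), by positivity, ?_⟩
  intro X hX s2 ε μ S η γ hcell e1 e2 l1 l2 T hTS hne hgood hlo hhi hpt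
  simp only [ge_iff_le, max_le_iff] at hX
  obtain ⟨⟨h1, h2⟩, ⟨h3, h4⟩, h5⟩ := hX
  replace hX1 := hX1 X h1
  replace hX2 := hX2 X h2
  replace hX3 := hX3 X h3
  replace hX4 := hX4 X h4
  have hX0 : 0 < X := by linarith
  have hXo : 1 ≤ X := by linarith
  have he1 : 1 ≤ ‖e1‖ := one_le_norm_of_ne_zero hgood.ne
  have he12 := hgood.le
  have he2ne : e2 ≠ 0 := by
    intro h0; rw [h0, norm_zero] at he12; linarith
  obtain ⟨n0, hn0⟩ := hne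
  obtain ⟨hη0, hcop0, hprod0, hl10, hl20⟩ := hpt n0 hn0
  have hsz0 := hcell.szE n0 (hTS hn0)
  have hηone : 1 ≤ ‖η n0‖ := (hcell.primE n0 (hTS hn0)).one_le_norm
  have hCL : 0 ≤ CL := by
    by_contra hneg
    push Not at hneg
    have : 0 < ‖η n0‖ ^ t := Real.rpow_pos_of_pos (by linarith) _
    have : 0 ≤ ‖e1‖ * ‖e2‖ := by positivity
    nlinarith
  have hηt : ‖η n0‖ ^ t ≤ X ^ ((h + nu) * t) := by
    rw [Real.rpow_mul hX0.le]
    exact Real.rpow_le_rpow (norm_nonneg _) hsz0.2 ht0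
  have hprod : ‖e1‖ * ‖e2‖ ≤ X ^ (h * t + 2 * nu) := by
    calc _ ≤ CL * ‖η n0‖ ^ t := hprod0
      _ ≤ X ^ nu * X ^ ((h + nu) * t) := by gcongr
      _ = X ^ (nu + (h + nu) * t) := (Real.rpow_add hX0 _ _).symm
      _ ≤ _ := Real.rpow_le_rpow_of_exponent_le hXo (by nlinarith)
  have hXε : 0 < X ^ ε := Real.rpow_pos_of_pos hX0 _
  have heps : 2 * ε ≤ h * t + 2 * nu := by
    have : X ^ (2 * ε) ≤ X ^ (h * t + 2 * nu) := by
      calc X ^ (2 * ε) = X ^ ε * X ^ ε := by rw [← Real.rpow_add hX0]; ring_nf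
        _ ≤ ‖e1‖ * ‖e2‖ := by gcongr; linarith
        _ ≤ _ := hprod
    exact (Real.rpow_le_rpow_left_iff (by linarith)).1 this
  have he2 : ‖e2‖ ≤ X ^ (h * t + 3 * nu - ε) := by
    rw [Real.rpow_sub hX0, le_div_iff₀ hXε]
    calc ‖e2‖ * X ^ ε ≤ ‖e2‖ * ‖e1‖ := by gcongr
      _ ≤ X ^ (h * t + 2 * nu) := by rw [mul_comm]; exact hprod
      _ ≤ _ := Real.rpow_le_rpow_of_exponent_le hXo (by linarith)
  have he2X : ‖e2‖ ≤ X := by
    calc ‖e2‖ ≤ ‖e1‖ * ‖e2‖ := le_mul_of_one_le_left (norm_nonneg _) he1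
      _ ≤ CL * ‖η n0‖ ^ t := hprod0
      _ ≤ X ^ (1 - t) * X ^ ((h + nu) * t) := by gcongr
      _ = X ^ (1 - t + (h + nu) * t) := (Real.rpow_add hX0 _ _).symm
      _ ≤ X ^ (1 : ℝ) := Real.rpow_le_rpow_of_exponent_le hXo (by nlinarith)
      _ = X := Real.rpow_one X
  have hemb : ∀ n ∈ T, ∀ i, N.emb (η n) i = N.emb e1 i * (l1 n : ℂ) + N.emb e2 i * (l2 n : ℂ) := by
    intro n hn i
    rw [(hpt n hn).1, N.emb_add, N.emb_smul, N.emb_smul]; ring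
  -- non-degeneracy
  have hsmall : ‖e1‖ < c'' * ‖η n0‖ := by
    have hA : ‖e1‖ ^ 2 ≤ CL * ‖η n0‖ := by
      calc ‖e1‖ ^ 2 = ‖e1‖ * ‖e1‖ := sq _
        _ ≤ ‖e1‖ * ‖e2‖ := by gcongr
        _ ≤ CL * ‖η n0‖ ^ t := hprod0
        _ ≤ CL * ‖η n0‖ ^ (1 : ℝ) := by
            have := Real.rpow_le_rpow_of_exponent_le hηone ht1.le
            gcongr
        _ = _ := by rw [Real.rpow_one]
    have hB : CL < c'' ^ 2 * ‖η n0‖ := by
      have : |CL| / c'' ^ 2 + 1 ≤ ‖η n0‖ := hX4.trans hsz0.1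
      have h2 : |CL| / c'' ^ 2 < ‖η n0‖ := by linarith
      rw [div_lt_iff₀ (by positivity)] at h2
      linarith [le_abs_self CL]
    have : ‖e1‖ ^ 2 < (c'' * ‖η n0‖) ^ 2 := by nlinarith
    exact lt_of_pow_lt_pow_left₀ 2 (by positivity) this
  have hPP : ∀ i j, i ≠ j → N.PP e1 e2 i j ≠ 0 := by
    obtain ⟨w, hw⟩ : N.emb (γ n0) ^ p * N.emb (η n0) ^ (q - 1) ∈ N.R :=
      N.R.mul_mem (N.R.pow_mem ⟨_, rfl⟩ _) (N.R.pow_mem ⟨_, rfl⟩ _)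
    have := hnd e1 (η n0) w μ n0 hgood.ne hcell.mu0 hcell.mule (fun l => by
      rw [← hcell.eq n0 (hTS hn0) l, hw]
      obtain ⟨q', rfl⟩ : ∃ q', q = q' + 1 := ⟨q - 1, by omega⟩
      simp only [Pi.mul_apply, Pi.pow_apply, Nat.add_sub_cancel]
      ring) (hcell.low n0 (hTS hn0)) hsmall
    intro i j hij h0
    apply this i j hij
    have : N.PP e1 (η n0) i j = (l2 n0 : ℂ) * N.PP e1 e2 i j := by
      unfold NF.PP; rw [hemb n0 hn0, hemb n0 hn0]; ring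
    rw [this, h0, mul_zero]
  have h4η : ∀ n ∈ T, 4 * ‖η n‖ ≤ X ^ (h + 2 * nu - ε) * ‖e1‖ := by
    intro n hn
    calc 4 * ‖η n‖ ≤ X ^ nu * X ^ (h + nu) := by gcongr; exact (hcell.szE n (hTS hn)).2
      _ = X ^ (h + 2 * nu - ε) * X ^ ε := by
          rw [← Real.rpow_add hX0, ← Real.rpow_add hX0]; ring_nf
      _ ≤ _ := by gcongr
  have hXs : 0 < X ^ (h + 2 * nu - ε) := Real.rpow_pos_of_pos hX0 _
  have hmule : c / 8 * |(μ : ℝ)| ≤ 1 := by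
    have := hcell.mule
    have : 0 ≤ c * |(μ : ℝ)| := by positivity
    linarith
  refine ⟨⟨hgood, hlo, hhi, he2, fun i => ?_⟩, heps, ?_, ?_⟩
  · by_contra hcon
    push Not at hcon
    obtain ⟨ha, hb⟩ := hcon
    have hl := hcell.low n0 (hTS hn0) i
    rw [hemb n0 hn0] at hl
    have h6 : ‖N.emb e1 i * (l1 n0 : ℂ) + N.emb e2 i * (l2 n0 : ℂ)‖ ≤
        ‖N.emb e1 i‖ * |(l1 n0 : ℝ)| + ‖N.emb e2 i‖ * |(l2 n0 : ℝ)| := by
      refine le_trans (norm_add_le _ _) ?_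
      simp [Complex.norm_intCast]
    have hlne : l1 n0 ≠ 0 ∨ l2 n0 ≠ 0 := by
      by_contra h0
      push Not at h0
      rw [h0.1, h0.2] at hcop0
      exact not_isCoprime_zero_zero hcop0
    simp only at ha hb
    have ha' : ‖N.emb e1 i‖ * |(l1 n0 : ℝ)| ≤ c / 8 * ‖e1‖ * |(l1 n0 : ℝ)| := by gcongr
    have hb' : ‖N.emb e2 i‖ * |(l2 n0 : ℝ)| ≤ c / 8 * ‖e2‖ * |(l2 n0 : ℝ)| := by gcongr
    have hstrict : ‖N.emb e1 i‖ * |(l1 n0 : ℝ)| + ‖N.emb e2 i‖ * |(l2 n0 : ℝ)| <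
        c / 8 * ‖e1‖ * |(l1 n0 : ℝ)| + c / 8 * ‖e2‖ * |(l2 n0 : ℝ)| := by
      rcases hlne with h0 | h0
      · have : (0 : ℝ) < |(l1 n0 : ℝ)| := abs_pos.2 (by exact_mod_cast h0)
        have := mul_lt_mul_of_pos_right ha this
        linarith
      · have : (0 : ℝ) < |(l2 n0 : ℝ)| := abs_pos.2 (by exact_mod_cast h0)
        have := mul_lt_mul_of_pos_right hb this
        linarith
    nlinarith
  · refine ⟨hcell.mu0, hmule, fun n hn => hcell.rng n (hTS (Finset.mem_filter.1 hn).1),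
      fun n hn i => ?_, fun n hn => (hpt n (Finset.mem_filter.1 hn).1).2.1,
      fun n hn => hcell.primG n (hTS (Finset.mem_filter.1 hn).1),
      fun n hn => (Finset.mem_filter.1 hn).2, fun n hn i => ?_, fun n hn => ?_,
      fun n hn => hcell.szG n (hTS (Finset.mem_filter.1 hn).1), hgood.ne, he2ne,
      ⟨he12.trans he2X, he2X⟩, hPP⟩
    · have hn' := (Finset.mem_filter.1 hn).1
      rw [← hemb n hn', hcell.eq n (hTS hn') i]
    · have hn' := (Finset.mem_filter.1 hn).1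
      rw [← hemb n hn']
      refine le_trans ?_ (hcell.low n (hTS hn') i)
      have := (hpt n hn').2.2.2.2
      have h0 : 0 ≤ ‖η n‖ := norm_nonneg _
      nlinarith
    · have hn' := (Finset.mem_filter.1 hn).1
      have h6 := (hpt n hn').2.2.2.2
      have h7 := h4η n hn'
      refine ⟨?_, h6.trans h7⟩
      have : |(l2 n : ℝ)| * ‖e1‖ ≤ X ^ (h + 2 * nu - ε) * ‖e1‖ :=
        le_trans (by gcongr) (h6.trans h7)
      exact le_of_mul_le_mul_right this (by linarith)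
  · refine ⟨hcell.mu0, hmule, fun n hn => hcell.rng n (hTS (Finset.mem_filter.1 hn).1),
      fun n hn i => ?_, fun n hn => (hpt n (Finset.mem_filter.1 hn).1).2.1.symm,
      fun n hn => hcell.primG n (hTS (Finset.mem_filter.1 hn).1),
      fun n hn => (not_le.1 (Finset.mem_filter.1 hn).2).le, fun n hn i => ?_, fun n hn => ?_,
      fun n hn => hcell.szG n (hTS (Finset.mem_filter.1 hn).1), he2ne, hgood.ne,
      ⟨he2X, he12.trans he2X⟩, fun i j hij => ?_⟩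
    · have hn' := (Finset.mem_filter.1 hn).1
      rw [add_comm, ← hemb n hn', hcell.eq n (hTS hn') i]
    · have hn' := (Finset.mem_filter.1 hn).1
      rw [add_comm, ← hemb n hn']
      refine le_trans ?_ (hcell.low n (hTS hn') i)
      have := (hpt n hn').2.2.2.1
      have h0 : 0 ≤ ‖η n‖ := norm_nonneg _
      nlinarith
    · have hn' := (Finset.mem_filter.1 hn).1
      have h6 := (hpt n hn').2.2.2.1
      have h7 := h4η n hn'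
      refine ⟨le_of_mul_le_mul_right (h6.trans h7) (by linarith), ?_⟩
      exact le_trans (h6.trans h7) (by gcongr)
    · rw [N.PP_swap]; exact neg_ne_zero.2 (hPP i j hij)

/-- From a bound for each `ε` to a bound for the cell.  Choose line data for every `n` (`exists_line`).  Since
`1 ≤ ‖e1‖ ≤ X`, there is `j ≤ 100000` with `X^(jν) ≤ ‖e1‖ ≤ X^(jν + ν)` (`j = min ⌊log ‖e1‖ / (ν log X)⌋ …`).  For each
`j` with `2 j ν ≤ h t + 2ν` take the constants of the hypothesis at `ε = j ν` and the maximum over these finitely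
many `j`.  For fixed `j` let `Ps` be the image of the points of `S` in the `j`-th class under `n ↦ (e1 n, e2 n)`; by
`point_line` each fibre has at most `2 B e` points (`Finset.card_eq_sum_card_image` / `card_le_sum…`). -/
theorem NF.cell_of_eps (N : NF d) (p q : ℕ) (hq : 1 ≤ q) (c h s2 : ℝ) (hc : 0 < c) (hh : 0 < h)
    (hh1 : h + nu ≤ 1) : ∃ c' : ℝ, 0 < c' ∧
    ∀ Q : ℝ → ℤ → Finset ℤ → (ℤ → Fin d → ℤ) → (ℤ → Fin d → ℤ) → Prop,
    (∀ ε : ℝ, 0 ≤ ε → 2 * ε ≤ h * (((d : ℝ) - 2) / ((d : ℝ) - 1)) + 2 * nu →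
      ∃ C X0 : ℝ, ∀ X ≥ X0, ∀ (μ : ℤ) (S : Finset ℤ) (η γ : ℤ → Fin d → ℤ), Q X μ S η γ →
        ∀ Ps : Finset ((Fin d → ℤ) × (Fin d → ℤ)), (∀ e ∈ Ps, PairOK N c' X h ε e) →
        ∃ B : (Fin d → ℤ) × (Fin d → ℤ) → ℝ,
          (∀ e ∈ Ps, LineBound N p q c' X (h + 2 * nu - ε) s2 μ S η γ e (B e)) ∧
          ∑ e ∈ Ps, B e ≤ C * X ^ (1 - del)) →
    ∃ C X0 : ℝ, ∀ X ≥ X0, ∀ (μ : ℤ) (S : Finset ℤ) (η γ : ℤ → Fin d → ℤ), Q X μ S η γ →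
      CellCfg N p q c X h s2 μ S η γ → (S.card : ℝ) ≤ C * X ^ (1 - del) := by
  classical
  have hd2 : 2 ≤ d := by have := N.four_le; omega
  obtain ⟨CL, -, hline⟩ := exists_line (d := d) hd2
  obtain ⟨c', X1, hc', hpl⟩ := N.point_line p q hq c h CL hc hh hh1
  refine ⟨c', hc', fun Q H => ?_⟩
  set t : ℝ := ((d : ℝ) - 2) / ((d : ℝ) - 1) with ht
  have hnu := nu_pos
  have H' : ∀ j : ℕ, ∃ C X0 : ℝ, 0 ≤ C ∧ (2 * (j * nu) ≤ h * t + 2 * nu → ∀ X ≥ X0, ∀ (μ : ℤ)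
      (S : Finset ℤ) (η γ : ℤ → Fin d → ℤ), Q X μ S η γ →
      ∀ Ps : Finset ((Fin d → ℤ) × (Fin d → ℤ)), (∀ e ∈ Ps, PairOK N c' X h (j * nu) e) →
        ∃ B : (Fin d → ℤ) × (Fin d → ℤ) → ℝ,
          (∀ e ∈ Ps, LineBound N p q c' X (h + 2 * nu - j * nu) s2 μ S η γ e (B e)) ∧
          ∑ e ∈ Ps, B e ≤ C * X ^ (1 - del)) := by
    intro j
    by_cases hj : 2 * (j * nu) ≤ h * t + 2 * nu
    · obtain ⟨C, X0, hC⟩ := H (j * nu) (by positivity) hj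
      refine ⟨|C|, max X0 0, abs_nonneg _, fun _ X hX μ S η γ hQ Ps hPs => ?_⟩
      obtain ⟨B, hB, hs⟩ := hC X (le_trans (le_max_left _ _) hX) μ S η γ hQ Ps hPs
      refine ⟨B, hB, hs.trans ?_⟩
      have : 0 ≤ X ^ (1 - del) := Real.rpow_nonneg (le_trans (le_max_right _ _) hX) _
      gcongr
      exact le_abs_self C
    · exact ⟨0, 0, le_rfl, fun h => absurd h hj⟩
  choose Cf Xf hCf H' using H'
  set J : ℕ := 100001 with hJ
  refine ⟨∑ j ∈ Finset.range J, 2 * Cf j, max (max X1 2) (∑ j ∈ Finset.range J, |Xf j|), ?_⟩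
  intro X hX μ S η γ hQ hcell
  simp only [ge_iff_le, max_le_iff] at hX
  obtain ⟨⟨hX1, hX2⟩, hX3⟩ := hX
  have hX0 : 0 < X := by linarith
  have hlog : 0 < Real.log X := Real.log_pos (by linarith)
  have hXf : ∀ j ∈ Finset.range J, Xf j ≤ X := fun j hj =>
    (le_abs_self _).trans ((Finset.single_le_sum (f := fun j => |Xf j|)
      (fun _ _ => abs_nonneg _) hj).trans hX3)
  have hdata : ∀ n, ∃ (e1 e2 : Fin d → ℤ) (l1 l2 : ℤ), n ∈ S → GoodPair e1 e2 ∧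
      η n = l1 • e1 + l2 • e2 ∧ IsCoprime l1 l2 ∧ ‖e1‖ * ‖e2‖ ≤ CL * ‖η n‖ ^ t ∧
      |(l1 : ℝ)| * ‖e1‖ ≤ 4 * ‖η n‖ ∧ |(l2 : ℝ)| * ‖e2‖ ≤ 4 * ‖η n‖ := by
    intro n
    by_cases hn : n ∈ S
    · obtain ⟨e1, e2, l1, l2, hh⟩ := hline (η n) (hcell.primE n hn)
      exact ⟨e1, e2, l1, l2, fun _ => hh⟩
    · exact ⟨0, 0, 0, 0, fun h => absurd h hn⟩
  choose e1 e2 l1 l2 hdata using hdata
  set jj : ℤ → ℕ := fun n => ⌊Real.log ‖e1 n‖ / (nu * Real.log X)⌋₊ with hjj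
  have hj : ∀ n ∈ S, X ^ ((jj n : ℝ) * nu) ≤ ‖e1 n‖ ∧ ‖e1 n‖ ≤ X ^ ((jj n : ℝ) * nu + nu) := by
    intro n hn
    have h1 : 1 ≤ ‖e1 n‖ := one_le_norm_of_ne_zero (hdata n hn).1.ne
    have hl : 0 ≤ Real.log ‖e1 n‖ := Real.log_nonneg h1
    have hden : 0 < nu * Real.log X := by positivity
    have ha : (jj n : ℝ) ≤ Real.log ‖e1 n‖ / (nu * Real.log X) := Nat.floor_le (by positivity)
    have hb : Real.log ‖e1 n‖ / (nu * Real.log X) < jj n + 1 := Nat.lt_floor_add_one _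
    rw [le_div_iff₀ hden] at ha
    rw [div_lt_iff₀ hden] at hb
    constructor
    · rw [Real.rpow_le_iff_le_log hX0 (by linarith)]; linarith
    · rw [Real.le_rpow_iff_log_le (by linarith) hX0]; linarith
  -- the fibres
  have hfib : ∀ (j : ℕ) (e : (Fin d → ℤ) × (Fin d → ℤ)),
      ((S.filter fun n => jj n = j).filter fun n => (e1 n, e2 n) = e).Nonempty →
      PairOK N c' X h (j * nu) e ∧ 2 * (j * nu) ≤ h * t + 2 * nu ∧ ∀ B : ℝ,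
        LineBound N p q c' X (h + 2 * nu - j * nu) s2 μ S η γ e B →
        ((((S.filter fun n => jj n = j).filter fun n => (e1 n, e2 n) = e).card : ℝ) ≤ 2 * B) := by
    intro j e hne
    set T := (S.filter fun n => jj n = j).filter fun n => (e1 n, e2 n) = e with hT
    have hmem : ∀ n ∈ T, n ∈ S ∧ jj n = j ∧ e1 n = e.1 ∧ e2 n = e.2 := by
      intro n hn
      simp only [hT, Finset.mem_filter] at hn
      obtain ⟨⟨a, b⟩, c⟩ := hn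
      exact ⟨a, b, congrArg Prod.fst c, congrArg Prod.snd c⟩
    have hTS : T ⊆ S := fun n hn => (hmem n hn).1
    obtain ⟨n0, hn0⟩ := hne
    obtain ⟨hS0, hj0, h10, h20⟩ := hmem n0 hn0
    have hgood : GoodPair e.1 e.2 := by rw [← h10, ← h20]; exact (hdata n0 hS0).1
    have hlo := hj n0 hS0
    rw [hj0, h10] at hlo
    have hptT : ∀ n ∈ T, η n = l1 n • e.1 + l2 n • e.2 ∧ IsCoprime (l1 n) (l2 n) ∧
        ‖e.1‖ * ‖e.2‖ ≤ CL * ‖η n‖ ^ t ∧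
        |(l1 n : ℝ)| * ‖e.1‖ ≤ 4 * ‖η n‖ ∧ |(l2 n : ℝ)| * ‖e.2‖ ≤ 4 * ‖η n‖ := by
      intro n hn
      obtain ⟨hS, -, h1, h2⟩ := hmem n hn
      rw [← h1, ← h2]; exact (hdata n hS).2
    obtain ⟨hok, heps, hA, hB⟩ := hpl X hX1 s2 (j * nu) μ S η γ hcell e.1 e.2 l1 l2 T hTS ⟨n0, hn0⟩
      hgood hlo.1 hlo.2 hptT
    refine ⟨hok, heps, fun B hLB => ?_⟩
    have h1 := hLB e.1 e.2 l1 l2 _ (Or.inl ⟨rfl, rfl⟩) ((Finset.filter_subset _ _).trans hTS)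
      (fun n hn => (hptT n (Finset.mem_filter.1 hn).1).1) hA
    have h2 := hLB e.2 e.1 l2 l1 _ (Or.inr ⟨rfl, rfl⟩) ((Finset.filter_subset _ _).trans hTS)
      (fun n hn => by rw [add_comm]; exact (hptT n (Finset.mem_filter.1 hn).1).1) hB
    have h3 := Finset.card_filter_add_card_filter_not (s := T)
      (fun n => |(l1 n : ℝ)| * ‖e.1‖ ≤ |(l2 n : ℝ)| * ‖e.2‖)
    rw [← h3]; push_cast; linarith
  have hjJ : ∀ n ∈ S, jj n ∈ Finset.range J := by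
    intro n hn
    have := (hfib (jj n) (e1 n, e2 n) ⟨n, by simp [hn]⟩).2.1
    have hd4 : (4 : ℝ) ≤ d := by exact_mod_cast N.four_le
    have ht1 : t < 1 := by rw [ht, div_lt_one (by linarith)]; linarith
    rw [Finset.mem_range, hJ]
    have h5 : (jj n : ℝ) < 100001 := by
      have h6 : h * t ≤ 1 := by nlinarith
      unfold nu at this
      linarith
    exact_mod_cast h5
  rw [Finset.card_eq_sum_card_fiberwise hjJ, Finset.sum_mul]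
  push_cast
  refine Finset.sum_le_sum fun j hjr => ?_
  set Sj := S.filter fun n => jj n = j with hSj
  set Ps := Sj.image fun n => (e1 n, e2 n) with hPs
  have hne : ∀ e ∈ Ps, (Sj.filter fun n => (e1 n, e2 n) = e).Nonempty := by
    intro e he
    obtain ⟨n, hn, rfl⟩ := Finset.mem_image.1 he
    exact ⟨n, by simp [hn]⟩
  rcases Ps.eq_empty_or_nonempty with h0 | ⟨e0, he0⟩
  · have : Sj = ∅ := Finset.image_eq_empty.1 h0
    rw [this]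
    have := hCf j
    have : 0 ≤ X ^ (1 - del) := by positivity
    simp only [Finset.card_empty, Nat.cast_zero]
    positivity
  obtain ⟨B, hB, hsum⟩ := H' j (hfib j e0 (hne e0 he0)).2.1 X (hXf j hjr) μ S η γ hQ Ps
    (fun e he => (hfib j e (hne e he)).1)
  rw [Finset.card_eq_sum_card_image (fun n => (e1 n, e2 n)) Sj]
  push_cast
  calc _ ≤ ∑ e ∈ Ps, 2 * B e :=
        Finset.sum_le_sum fun e he => (hfib j e (hne e he)).2.2 (B e) (hB e he)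
    _ = 2 * ∑ e ∈ Ps, B e := by rw [Finset.mul_sum]
    _ ≤ _ := by linarith

end Crest.Agent.R22
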