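import Crest.Agent.R22.Cell1
import Crest.Agent.R22.PairCount
import Crest.Agent.R22.Fix

/-! Common steps of the cell theorems. -/

namespace Crest.Agent.R22

variable {d : ℕ}

theorem PairOK.card_le {N : NF d} {c' X h ε : ℝ} (hX : 1 ≤ X) (hε : 0 ≤ ε)
    (hε1 : 2 * ε ≤ h * (((d : ℝ) - 2) / ((d : ℝ) - 1)) + 2 * nu)
    (Ps : Finset ((Fin d → ℤ) × (Fin d → ℤ))) (hPs : ∀ e ∈ Ps, PairOK N c' X h ε e) :
    (Ps.card : ℝ) ≤ d * 9 ^ d * X ^ ((d + 1) * (ε + nu) +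
      (d - 1) * (h * (((d : ℝ) - 2) / ((d : ℝ) - 1)) + 3 * nu - ε)) := by
  have hd := N.four_le
  have hnu := nu_pos
  have hX0 : 0 < X := by linarith
  have := card_pairs (d := d) (by omega) (X ^ (ε + nu))
    (X ^ (h * (((d : ℝ) - 2) / ((d : ℝ) - 1)) + 3 * nu - ε)) (Real.one_le_rpow hX (by linarith))
    (Real.one_le_rpow hX (by linarith)) Ps
    (fun e he => ⟨(hPs e he).hi, (hPs e he).hi2, (hPs e he).good.red⟩)
  refine this.trans (le_of_eq ?_)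
  rw [← Real.rpow_natCast (X ^ (ε + nu)), ← Real.rpow_natCast (X ^ (_ - ε)), ← Real.rpow_mul hX0.le,
    ← Real.rpow_mul hX0.le, mul_assoc, ← Real.rpow_add hX0]
  congr 2
  rw [Nat.cast_sub (by omega)]
  push_cast; ring

theorem sum_const_le {ι : Type} (Ps : Finset ι) {X A C a b σ : ℝ} (hX : 1 ≤ X) (hA : 0 ≤ A)
    (hC : 0 ≤ C) (h : (Ps.card : ℝ) ≤ A * X ^ a) (hσ : a + b ≤ σ) :
    ∑ _e ∈ Ps, C * X ^ b ≤ A * C * X ^ σ := by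
  have hX0 : 0 < X := by linarith
  rw [Finset.sum_const, nsmul_eq_mul]
  calc (Ps.card : ℝ) * (C * X ^ b) ≤ A * X ^ a * (C * X ^ b) := by gcongr
    _ = A * C * X ^ (a + b) := by rw [Real.rpow_add hX0]; ring
    _ ≤ _ := by gcongr

theorem NF.cellCfg_beta (N : NF d) {c : ℝ} (hc : 0 < c) (hc8 : c ≤ 1 / 8) (h : ℝ) : ∃ X0 : ℝ,
    ∀ X ≥ X0, ∀ (μ : ℤ) (S : Finset ℤ) (α β : ℤ → Fin d → ℤ) (pr : ℤ → ℕ), SolSet N c X μ S α β pr →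
    (∀ n ∈ S, X ^ h ≤ ‖β n‖ ∧ ‖β n‖ ≤ X ^ (h + nu)) →
    CellCfg N 1 (d - 2) c X h (1 - (d - 2) * h + nu) μ S β α := by
  obtain ⟨Cs, -, hsz⟩ := N.sol_size hc (by linarith)
  obtain ⟨X2, hX2⟩ := ev_const_le_rpow Cs nu nu_pos
  refine ⟨max X2 1, fun X hX μ S α β pr hsol hβ => ?_⟩
  simp only [ge_iff_le, max_le_iff] at hX
  have hX0 : 0 < X := by linarith [hX.2]
  refine ⟨hsol.mu0, hsol.mule, hsol.rng, fun n hn i => by rw [pow_one]; exact hsol.eq n hn i,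
    hsol.primB, hsol.primA, hsol.lowB, hβ, fun n hn => ?_⟩
  have h1 := (hsz X hX.2 μ S α β pr hsol n hn).1
  have hd := N.four_le
  have h2 : X ^ (((d : ℝ) - 2) * h) ≤ ‖β n‖ ^ (d - 2) := by
    have : X ^ (((d : ℝ) - 2) * h) = (X ^ h) ^ (d - 2) := by
      rw [← Real.rpow_natCast, ← Real.rpow_mul hX0.le, Nat.cast_sub (by omega)]
      congr 1; push_cast; ring
    rw [this]
    exact pow_le_pow_left₀ (by positivity) (hβ n hn).1 _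
  have h3 : X ^ (1 - ((d : ℝ) - 2) * h + nu) * X ^ (((d : ℝ) - 2) * h) = X ^ nu * X := by
    rw [← Real.rpow_add hX0, ← Real.rpow_add_one hX0.ne']; congr 1; ring
  have h4 : 0 < X ^ (((d : ℝ) - 2) * h) := by positivity
  refine le_of_mul_le_mul_right ?_ h4
  rw [h3]
  calc _ ≤ ‖α n‖ * ‖β n‖ ^ (d - 2) := by gcongr
    _ ≤ Cs * X := h1
    _ ≤ _ := by gcongr; exact hX2 X hX.1

theorem NF.cellCfg_alpha (N : NF d) {c : ℝ} (hc : 0 < c) (hc8 : c ≤ 1 / 8) (h : ℝ) : ∃ X0 : ℝ,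
    ∀ X ≥ X0, ∀ (μ : ℤ) (S : Finset ℤ) (α β : ℤ → Fin d → ℤ) (pr : ℤ → ℕ), SolSet N c X μ S α β pr →
    (∀ n ∈ S, X ^ h ≤ ‖α n‖ ∧ ‖α n‖ ≤ X ^ (h + nu)) →
    CellCfg N (d - 2) 1 c X h ((1 - h) / (d - 2) + nu) μ S α β := by
  obtain ⟨Cs, -, hsz⟩ := N.sol_size hc (by linarith)
  obtain ⟨X2, hX2⟩ := ev_const_le_rpow Cs nu nu_pos
  refine ⟨max X2 1, fun X hX μ S α β pr hsol hα => ?_⟩
  simp only [ge_iff_le, max_le_iff] at hX
  have hX0 : 0 < X := by linarith [hX.2]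
  refine ⟨hsol.mu0, hsol.mule, hsol.rng,
    fun n hn i => by rw [pow_one, mul_comm]; exact hsol.eq n hn i,
    hsol.primA, hsol.primB, hsol.lowA, hα, fun n hn => ?_⟩
  have h1 := (hsz X hX.2 μ S α β pr hsol n hn).1
  have hd := N.four_le
  have hd4 : (4 : ℝ) ≤ d := by exact_mod_cast hd
  have hnu := nu_pos
  refine le_of_pow_le_pow_left₀ (n := d - 2) (by omega) (by positivity) ?_
  have h2 : (X ^ ((1 - h) / ((d : ℝ) - 2) + nu)) ^ (d - 2) = X ^ (1 - h + (d - 2) * nu) := by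
    rw [← Real.rpow_natCast, ← Real.rpow_mul hX0.le, Nat.cast_sub (by omega)]
    congr 1
    have : (d : ℝ) - 2 ≠ 0 := by linarith
    push_cast; field_simp
  rw [h2]
  have h4 : 0 < X ^ h := by positivity
  refine le_of_mul_le_mul_left ?_ h4
  calc X ^ h * ‖β n‖ ^ (d - 2) ≤ ‖α n‖ * ‖β n‖ ^ (d - 2) := by gcongr; exact (hα n hn).1
    _ ≤ Cs * X := h1
    _ ≤ X ^ nu * X := by gcongr; exact hX2 X hX.1
    _ = X ^ (nu + 1) := (Real.rpow_add_one hX0.ne' _).symm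
    _ ≤ X ^ (h + (1 - h + (d - 2) * nu)) :=
        Real.rpow_le_rpow_of_exponent_le hX.2 (by nlinarith)
    _ = _ := Real.rpow_add hX0 _ _

theorem minor_swap (e1 e2 : Fin d → ℤ) (s t : Fin d) : minor e2 e1 s t = minor e1 e2 t s := by
  unfold minor; ring

theorem GoodPair.sym {e1 e2 f1 f2 : Fin d → ℤ} (h : GoodPair e1 e2)
    (hf : (f1 = e1 ∧ f2 = e2) ∨ (f1 = e2 ∧ f2 = e1)) :
    (∃ u : Fin d → Fin d → ℤ, ∑ s, ∑ t, u s t * minor f1 f2 s t = 1) ∧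
      (∃ s t, ‖f1‖ * ‖f2‖ ≤ 2 * |(minor f1 f2 s t : ℝ)|) ∧ ‖f1‖ * ‖f2‖ = ‖e1‖ * ‖e2‖ := by
  rcases hf with ⟨rfl, rfl⟩ | ⟨rfl, rfl⟩
  · exact ⟨h.gcd, h.big, rfl⟩
  · obtain ⟨u, hu⟩ := h.gcd
    obtain ⟨s, t, hst⟩ := h.big
    refine ⟨⟨fun s t => u t s, ?_⟩, ⟨t, s, ?_⟩, mul_comm _ _⟩
    · rw [Finset.sum_comm]
      simpa only [minor_swap f2 f1] using hu
    · rw [minor_swap, mul_comm]; exact hst

theorem Sep.swap {N : NF d} {η : ℝ} {e1 e2 : Fin d → ℤ} (h : Sep N η e1 e2) : Sep N η e2 e1 := by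
  intro i j hij
  rw [N.PP_swap, norm_neg, mul_comm ‖e2‖]
  exact h i j hij

theorem Special.swap {N : NF 4} {𝒮 : Finset ℂ} {e1 e2 : Fin 4 → ℤ} (h : Special N 𝒮 e1 e2) :
    Special N 𝒮 e2 e1 := by
  obtain ⟨s, hs, h⟩ := h
  refine ⟨s, hs, ?_⟩
  simp only [N.PP_swap e1 e2]
  linear_combination h

end Crest.Agent.R22
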