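import Crest.Agent.R22.Surf
import Crest.Agent.R22.AlphaDeg
import Crest.Agent.R22.Geo
import Crest.Agent.R22.CurveThm
import Crest.Agent.R22.Rat

/-! Points on one line, α-side. -/

namespace Crest.Agent.R22

variable {d : ℕ}

theorem IsRat.mono {N : NF d} {S : Finset ℤ} {l1 l2 : ℤ → ℤ} {g : ℤ → Fin d → ℤ} {Ω : Type}
    [Field Ω] [Algebra ℂ Ω] {x nn : Ω} {b : Fin d → Ω} {κ : ℤ → ℂ} {D : ℕ} {Y Y' : ℝ}
    (h : IsRat N S l1 l2 g x nn b κ D Y) (hY : Y ≤ Y') : IsRat N S l1 l2 g x nn b κ D Y' := by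
  obtain ⟨f, g0, h1, h2, h3, h4, h5⟩ := h
  refine ⟨f, g0, h1, h2, h3, fun n hn h0 => ?_, h5⟩
  obtain ⟨t1, t2, a, b, c, e⟩ := h4 n hn h0
  exact ⟨t1, t2, a, b.trans hY, c.trans hY, e⟩

theorem height_aux {X s : ℝ} (hX : 24 ≤ X) : 24 * (X ^ s) ^ 3 ≤ X ^ (3 * s + 1) := by
  have hX0 : 0 < X := by linarith
  rw [Real.rpow_add hX0, Real.rpow_one, mul_comm 3 s, Real.rpow_mul hX0.le]
  have : (X ^ s) ^ (3 : ℝ) = (X ^ s) ^ 3 := by norm_num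
  rw [this]
  have : 0 ≤ (X ^ s) ^ 3 := by positivity
  nlinarith

/-- `NF.surf` with `(p, q) = (d - 2, 1)`; on a curve: `const_curve`, or `alpha_deg` (the vectors `β n` are pairwise
non-proportional by `fixB`; `Y = X^(max (max s1 s2) 0)`, `24 Y³ ≤ X^Cx` for large `X`; `IsRat` is monotone in the
height), then `rat_curve` or `curve_thm` with `appr_trivial`. -/
theorem NF.line_alpha (N : NF d) (a1 e' wn wd : ℕ) (he : 1 ≤ e') (hwd : 1 ≤ wd)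
    (c c' s1 s2 m π : ℝ) (hc : 0 < c) (hc8 : c ≤ 1 / 8) (hc' : 0 < c') (hs1 : 0 ≤ s1) (hs2 : 0 < s2)
    (hm : 0 < m) (hm1 : m ≤ 1) (hπ : 0 < π) (hS : SurfIneq d (d - 2) 1 a1 e' s1 s2 m)
    (hC : CurveIneq (d - 2) 1 2 3 ((wn : ℝ) / wd) s1 s2 0 1 π) :
    ∃ C X0 : ℝ, 0 ≤ C ∧ ∀ X ≥ X0, ∀ (μ : ℤ) (S : Finset ℤ) (α β : ℤ → Fin d → ℤ) (pr : ℤ → ℕ)
    (e1 e2 : Fin d → ℤ) (l1 l2 : ℤ → ℤ), SolSet N c X μ S α β pr →
    LineCfg N (d - 2) 1 c' X s1 s2 μ e1 e2 S l1 l2 β → (∀ n ∈ S, α n = l1 n • e1 + l2 n • e2) →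
    (S.card : ℝ) ≤ C * X ^ (m + π) := by
  have hk : 1 ≤ d - 2 := by have := N.four_le; omega
  obtain ⟨C0, C1, X1, hC1, hsurf⟩ := N.surf (d - 2) 1 a1 e' hk he s1 s2 hc' hs1 hs2 hm hm1 hS
  obtain ⟨C2, hC2, hconst⟩ := N.const_curve hc hc8
  obtain ⟨CH, hdeg⟩ := alpha_deg d (d - 2) C0 hk
  obtain ⟨C3, X3, hC3, hrat⟩ := N.rat_curve (d - 2) 1 C0 1 hk c c' (3 * max s1 s2 + 1) π hc hc8 hπ
  obtain ⟨a0, b0, T0, hcur⟩ := N.curve_thm (d - 2) 1 C0 2 3 CH wn wd hk hwd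
    (by norm_num) (by norm_num) c' s1 s2 0 1 0 π hc' le_rfl one_pos le_rfl hπ hC
  obtain ⟨C4, X4, hC4, hcur⟩ := hcur 1
  refine ⟨C1 * (C2 + C3 + C4 + CH), max (max X1 X3) (max X4 24), by positivity, ?_⟩
  intro X hX μ S α β pr e1 e2 l1 l2 hsol hL hα
  have hX1 : X1 ≤ X := le_trans (le_trans (le_max_left _ _) (le_max_left _ _)) hX
  have hX3 : X3 ≤ X := le_trans (le_trans (le_max_right _ _) (le_max_left _ _)) hX
  have hX4 : X4 ≤ X := le_trans (le_trans (le_max_left _ _) (le_max_right _ _)) hX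
  have hX2 : 24 ≤ X := le_trans (le_trans (le_max_right _ _) (le_max_right _ _)) hX
  have hX0 : 1 ≤ X := by linarith
  have hXπ : 1 ≤ X ^ π := Real.one_le_rpow hX0 hπ.le
  have hCH : (0 : ℝ) ≤ CH := Nat.cast_nonneg _
  have key := hsurf X hX1 μ e1 e2 S l1 l2 β hL ((C2 + C3 + C4 + CH) * X ^ π) (by positivity) ?_
  · rw [Real.rpow_add (by linarith)]
    calc _ ≤ _ := key
      _ = _ := by ring
  rintro T hT - ⟨Ω, _, _, x, nn, b, κ, hcv⟩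
  have hside : (∀ n ∈ T, β n = l1 n • e1 + l2 n • e2 ∧ α n = β n) ∨
      (∀ n ∈ T, α n = l1 n • e1 + l2 n • e2 ∧ β n = β n) :=
    Or.inr fun n hn => ⟨hα n (hT hn), rfl⟩
  have hLT := hL.mono hT
  have hdist : ∀ n ∈ T, ∀ n' ∈ T, n ≠ n' → β n ≠ β n' ∧ β n ≠ -β n' := fun n hn n' hn' hne =>
    ⟨fun h => hne (hsol.fixB hc hc8 hX0 (hT hn) (hT hn') (Or.inl h)),
      fun h => hne (hsol.fixB hc hc8 hX0 (hT hn) (hT hn') (Or.inr h))⟩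
  have hY0 : 1 ≤ X ^ max s1 s2 := Real.one_le_rpow hX0 (le_trans hs1 (le_max_left _ _))
  have hY1 : X ^ s1 ≤ X ^ max s1 s2 := Real.rpow_le_rpow_of_exponent_le hX0 (le_max_left _ _)
  have hY2 : X ^ s2 ≤ X ^ max s1 s2 := Real.rpow_le_rpow_of_exponent_le hX0 (le_max_right _ _)
  by_cases hx : Transcendental ℂ x
  · rcases hdeg N c' X s1 s2 μ e1 e2 T l1 l2 β hLT Ω x nn b κ hcv hx hdist (X ^ max s1 s2) hY0
      hY1 hY2 with h | h | h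
    · have : (T.card : ℝ) ≤ CH := by exact_mod_cast h
      nlinarith
    · have := hrat X hX3 s1 s2 μ T α β pr e1 e2 l1 l2 β (hsol.mono hT) hLT hside Ω x nn b κ
        hcv hx (h.mono (height_aux hX2))
      nlinarith
    · have := hcur X hX4 μ e1 e2 T l1 l2 β hLT Ω x nn b κ hcv hx h
        (hLT.appr_trivial hX0 a0 b0 T0)
      nlinarith
  · have := hconst X hX0 (d - 2) 1 C0 c' s1 s2 μ T α β pr e1 e2 l1 l2 β (hsol.mono hT) hLT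
      hside Ω x nn b κ hcv (not_not.mp hx)
    nlinarith

/-- `d = 4`, lines that are not special: the same with `alpha_deg4`. -/
theorem NF.line_alpha4 (N : NF 4) : ∃ 𝒮 : Finset ℂ, ∀ (a1 e' wn wd : ℕ), 1 ≤ e' → 1 ≤ wd →
    ∀ (c c' s1 s2 m π : ℝ), 0 < c → c ≤ 1 / 8 → 0 < c' → 0 ≤ s1 → 0 < s2 → 0 < m → m ≤ 1 → 0 < π →
    SurfIneq 4 2 1 a1 e' s1 s2 m → CurveIneq 2 1 2 4 ((wn : ℝ) / wd) s1 s2 0 1 π →
    ∃ C X0 : ℝ, 0 ≤ C ∧ ∀ X ≥ X0, ∀ (μ : ℤ) (S : Finset ℤ) (α β : ℤ → Fin 4 → ℤ) (pr : ℤ → ℕ)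
    (e1 e2 : Fin 4 → ℤ) (l1 l2 : ℤ → ℤ), SolSet N c X μ S α β pr →
    LineCfg N 2 1 c' X s1 s2 μ e1 e2 S l1 l2 β → (∀ n ∈ S, α n = l1 n • e1 + l2 n • e2) →
    ¬ Special N 𝒮 e1 e2 → (S.card : ℝ) ≤ C * X ^ (m + π) := by
  obtain ⟨𝒮, hdeg⟩ := alpha_deg4 N
  refine ⟨𝒮, ?_⟩
  intro a1 e' wn wd he hwd c c' s1 s2 m π hc hc8 hc' hs1 hs2 hm hm1 hπ hS hC
  have hk : 1 ≤ 2 := by norm_num
  obtain ⟨C0, C1, X1, hC1, hsurf⟩ := N.surf 2 1 a1 e' hk he s1 s2 hc' hs1 hs2 hm hm1 hS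
  obtain ⟨C2, hC2, hconst⟩ := N.const_curve hc hc8
  obtain ⟨CH, hdeg⟩ := hdeg C0
  obtain ⟨C3, X3, hC3, hrat⟩ := N.rat_curve 2 1 C0 1 hk c c' (3 * max s1 s2 + 1) π hc hc8 hπ
  obtain ⟨a0, b0, T0, hcur⟩ := N.curve_thm 2 1 C0 2 4 CH wn wd hk hwd
    (by norm_num) (by norm_num) c' s1 s2 0 1 0 π hc' le_rfl one_pos le_rfl hπ hC
  obtain ⟨C4, X4, hC4, hcur⟩ := hcur 1
  refine ⟨C1 * (C2 + C3 + C4 + CH), max (max X1 X3) (max X4 24), by positivity, ?_⟩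
  intro X hX μ S α β pr e1 e2 l1 l2 hsol hL hα hsp
  have hX1 : X1 ≤ X := le_trans (le_trans (le_max_left _ _) (le_max_left _ _)) hX
  have hX3 : X3 ≤ X := le_trans (le_trans (le_max_right _ _) (le_max_left _ _)) hX
  have hX4 : X4 ≤ X := le_trans (le_trans (le_max_left _ _) (le_max_right _ _)) hX
  have hX2 : 24 ≤ X := le_trans (le_trans (le_max_right _ _) (le_max_right _ _)) hX
  have hX0 : 1 ≤ X := by linarith
  have hXπ : 1 ≤ X ^ π := Real.one_le_rpow hX0 hπ.le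
  have hCH : (0 : ℝ) ≤ CH := Nat.cast_nonneg _
  have key := hsurf X hX1 μ e1 e2 S l1 l2 β hL ((C2 + C3 + C4 + CH) * X ^ π) (by positivity) ?_
  · rw [Real.rpow_add (by linarith)]
    calc _ ≤ _ := key
      _ = _ := by ring
  rintro T hT - ⟨Ω, _, _, x, nn, b, κ, hcv⟩
  have hside : (∀ n ∈ T, β n = l1 n • e1 + l2 n • e2 ∧ α n = β n) ∨
      (∀ n ∈ T, α n = l1 n • e1 + l2 n • e2 ∧ β n = β n) :=
    Or.inr fun n hn => ⟨hα n (hT hn), rfl⟩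
  have hLT := hL.mono hT
  have hdist : ∀ n ∈ T, ∀ n' ∈ T, n ≠ n' → β n ≠ β n' ∧ β n ≠ -β n' := fun n hn n' hn' hne =>
    ⟨fun h => hne (hsol.fixB hc hc8 hX0 (hT hn) (hT hn') (Or.inl h)),
      fun h => hne (hsol.fixB hc hc8 hX0 (hT hn) (hT hn') (Or.inr h))⟩
  have hY0 : 1 ≤ X ^ max s1 s2 := Real.one_le_rpow hX0 (le_trans hs1 (le_max_left _ _))
  have hY1 : X ^ s1 ≤ X ^ max s1 s2 := Real.rpow_le_rpow_of_exponent_le hX0 (le_max_left _ _)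
  have hY2 : X ^ s2 ≤ X ^ max s1 s2 := Real.rpow_le_rpow_of_exponent_le hX0 (le_max_right _ _)
  by_cases hx : Transcendental ℂ x
  · rcases hdeg c' X s1 s2 μ e1 e2 T l1 l2 β hLT Ω x nn b κ hcv hx hdist (X ^ max s1 s2) hY0
      hY1 hY2 with h | h | h | h
    · have : (T.card : ℝ) ≤ CH := by exact_mod_cast h
      nlinarith
    · have := hrat X hX3 s1 s2 μ T α β pr e1 e2 l1 l2 β (hsol.mono hT) hLT hside Ω x nn b κ
        hcv hx (h.mono (height_aux hX2))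
      nlinarith
    · have := hcur X hX4 μ e1 e2 T l1 l2 β hLT Ω x nn b κ hcv hx h
        (hLT.appr_trivial hX0 a0 b0 T0)
      nlinarith
    · exact absurd h hsp
  · have := hconst X hX0 2 1 C0 c' s1 s2 μ T α β pr e1 e2 l1 l2 β (hsol.mono hT) hLT
      hside Ω x nn b κ hcv (not_not.mp hx)
    nlinarith

end Crest.Agent.R22
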