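import Crest.Agent.R22.Cell2
import Crest.Agent.R22.LineA
import Crest.Agent.R22.PairCount

namespace Crest.Agent.R22

variable {d : ℕ}

/-- α-cells, `d ≥ 5`.  `cell_of_eps` with `(p, q) = (d - 2, 1)`, `η = α`, `γ = β`, `s2 = (1 - h) / (d-2) + ν`
(`‖β‖^(d-2) ≤ C X / ‖α‖`), `Q X μ S η γ = ∃ pr, SolSet N c X μ S η γ pr`; `num_alpha`, `line_alpha`
(`a1 = 0`, `e' = 1`, `wn = 0`, `wd = 1`), `card_pairs`. -/
theorem NF.cell_alpha (N : NF d) (h5 : 5 ≤ d) (h8 : d ≤ 8) {c : ℝ} (hc : 0 < c) (hc8 : c ≤ 1 / 8)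
    (h : ℝ) (hh : 9 / 10 / (d : ℝ) ≤ h) (hh0 : h ≤ 1 - (d - 2) * hb0 d + nu) :
    ∃ C X0 : ℝ, ∀ X ≥ X0, ∀ (μ : ℤ)
    (S : Finset ℤ) (α β : ℤ → Fin d → ℤ) (pr : ℤ → ℕ), SolSet N c X μ S α β pr →
    (∀ n ∈ S, X ^ h ≤ ‖α n‖ ∧ ‖α n‖ ≤ X ^ (h + nu)) → (S.card : ℝ) ≤ C * X ^ (1 - del) := by
  have hd5 : (5 : ℝ) ≤ d := by exact_mod_cast h5
  have hhpos : 0 < h := lt_of_lt_of_le (by positivity) hh
  have hh1 : h + nu ≤ 1 := by
    have : 1 / 10 ≤ hb0 d := by unfold hb0; split_ifs <;> norm_num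
    have : 1 / 10 ≤ ((d : ℝ) - 2) * hb0 d := by nlinarith
    unfold nu at *; linarith
  obtain ⟨c', hc', hcell⟩ := N.cell_of_eps (d - 2) 1 le_rfl c h ((1 - h) / (d - 2) + nu) hc hhpos hh1
  obtain ⟨C, X1, hC⟩ := hcell (fun X μ S η γ => ∃ pr, SolSet N c X μ S η γ pr) (by
    intro ε hε hε1
    obtain ⟨hs1, hs2, m, π, hm, hm1, hπ, hS, hCi, htot⟩ := num_alpha d h5 h8 h ε hh hh0 hε hε1
    obtain ⟨C1, X1, hC1, hline⟩ := N.line_alpha 0 1 0 1 le_rfl le_rfl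
      c c' _ _ m π hc hc8 hc' hs1 hs2 hm hm1 hπ hS hCi
    refine ⟨d * 9 ^ d * C1, max X1 1, ?_⟩
    rintro X hX μ S η γ ⟨pr, hsol⟩ Ps hPs
    simp only [ge_iff_le, max_le_iff] at hX
    refine ⟨fun _ => C1 * X ^ (m + π), fun e he f1 f2 k1 k2 T _ hT hη hL =>
      hline X hX.1 μ T η γ pr f1 f2 k1 k2 (hsol.mono hT) hL hη, ?_⟩
    exact sum_const_le Ps hX.2 (by positivity) hC1 (PairOK.card_le hX.2 hε hε1 Ps hPs) htot)
  obtain ⟨X2, hcfg⟩ := N.cellCfg_alpha hc hc8 h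
  refine ⟨C, max X1 X2, fun X hX μ S α β pr hsol hα => ?_⟩
  simp only [ge_iff_le, max_le_iff] at hX
  exact hC X hX.1 μ S α β ⟨pr, hsol⟩ (hcfg X hX.2 μ S α β pr hsol hα)

/-- α-cells, `d = 4`.  `num_alpha4`; `𝒮` from `line_alpha4` (`a1 = 6`, `e' = 5`, `wn = 1`, `wd = 8`);
`B e = C X^(m+π)` if `¬ Special N 𝒮 e.1 e.2` (`Special` is symmetric in `e1, e2`), else `C X^(m+π')` (`line_alpha`
with `wn = 0`, `wd = 1`); `card_pairs` and `card_special`. -/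
theorem NF.cell_alpha4 (N : NF 4) {c : ℝ} (hc : 0 < c) (hc8 : c ≤ 1 / 8) (h : ℝ)
    (hh : 9 / 40 ≤ h) (hh0 : h ≤ 1 - 2 * hb0 4 + nu) : ∃ C X0 : ℝ, ∀ X ≥ X0, ∀ (μ : ℤ)
    (S : Finset ℤ) (α β : ℤ → Fin 4 → ℤ) (pr : ℤ → ℕ), SolSet N c X μ S α β pr →
    (∀ n ∈ S, X ^ h ≤ ‖α n‖ ∧ ‖α n‖ ≤ X ^ (h + nu)) → (S.card : ℝ) ≤ C * X ^ (1 - del) := by
  classical
  have hhpos : 0 < h := by linarith
  have hh1 : h + nu ≤ 1 := by
    have : 1 / 10 ≤ hb0 4 := by unfold hb0; norm_num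
    unfold nu at *; linarith
  have ht : (((4 : ℕ) : ℝ) - 2) / (((4 : ℕ) : ℝ) - 1) = 2 / 3 := by norm_num
  have hnu := nu_pos
  obtain ⟨𝒮, hl4⟩ := N.line_alpha4
  obtain ⟨c', hc', hcell⟩ := N.cell_of_eps 2 1 le_rfl c h ((1 - h) / 2 + nu) hc hhpos hh1
  obtain ⟨C, X1, hC⟩ := hcell (fun X μ S η γ => ∃ pr, SolSet N c X μ S η γ pr) (by
    intro ε hε hε1
    have hε2 := hε1
    rw [ht] at hε2
    obtain ⟨hs1, hs2, m, π, π', hm, hm1, hπ, hπ', hS, hC4, hC3, htot, hsp⟩ :=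
      num_alpha4 h ε hh hh0 hε hε2
    obtain ⟨C1, X1, hC1, hgen⟩ := hl4 6 5 1 8 (by norm_num) (by norm_num) c c' _ _ m π hc hc8 hc' hs1
      hs2 hm hm1 hπ hS hC4
    obtain ⟨C2, X2, hC2, hall⟩ := N.line_alpha 6 5 0 1 (by norm_num) le_rfl c c' _ _ m π' hc hc8 hc'
      hs1 hs2 hm hm1 hπ' hS hC3
    obtain ⟨C3, hC3, hsc⟩ := N.card_special 𝒮
    refine ⟨C3 * C2 + 4 * 9 ^ 4 * C1, max (max X1 X2) 1, ?_⟩
    rintro X hX μ S η γ ⟨pr, hsol⟩ Ps hPs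
    simp only [ge_iff_le, max_le_iff] at hX
    obtain ⟨⟨hX1, hX2⟩, hXo⟩ := hX
    have hX0 : 0 < X := by linarith
    refine ⟨fun e => if Special N 𝒮 e.1 e.2 then C2 * X ^ (m + π')
      else C1 * X ^ (m + π), fun e he f1 f2 k1 k2 T hf hT hη hL => ?_, ?_⟩
    · dsimp only
      split_ifs with hs
      · exact hall X hX2 μ T η γ pr f1 f2 k1 k2 (hsol.mono hT) hL hη
      · refine hgen X hX1 μ T η γ pr f1 f2 k1 k2 (hsol.mono hT) hL hη ?_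
        rcases hf with ⟨rfl, rfl⟩ | ⟨rfl, rfl⟩
        · exact hs
        · exact fun h' => hs h'.swap
    · rw [Finset.sum_ite]
      have hcard : ((Ps.filter fun e => ¬ Special N 𝒮 e.1 e.2).card : ℝ) ≤
          4 * 9 ^ 4 * X ^ (5 * (ε + nu) + 3 * (h * (2 / 3) + 3 * nu - ε)) := by
        have := PairOK.card_le hXo hε hε1 (Ps.filter fun e => ¬ Special N 𝒮 e.1 e.2)
          (fun e he => hPs e (Finset.mem_filter.1 he).1)
        rw [ht] at this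
        convert this using 3 <;> norm_num
      have hA := sum_const_le _ hXo (by positivity) hC1 hcard htot
      have hcs := hsc (X ^ (ε + nu)) (X ^ (h * (2 / 3) + 3 * nu - ε))
        (Real.one_le_rpow hXo (by linarith)) (Real.one_le_rpow hXo (by linarith))
        (Ps.filter fun e => Special N 𝒮 e.1 e.2) (by
          intro e he
          obtain ⟨he, hs⟩ := Finset.mem_filter.1 he
          have h1 := hPs e he
          have h2 := h1.hi2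
          rw [ht] at h2
          exact ⟨h1.good.ne, h1.hi, h2, hs⟩)
      have hcs' : ((Ps.filter fun e => Special N 𝒮 e.1 e.2).card : ℝ) ≤
          C3 * X ^ (4 * (ε + nu) + 3 * (h * (2 / 3) + 3 * nu - ε)) := by
        refine hcs.trans (le_of_eq ?_)
        have e1 : (X ^ (ε + nu)) ^ 4 = X ^ (4 * (ε + nu)) := by
          rw [mul_comm, Real.rpow_mul hX0.le]; norm_num
        have e2 : (X ^ (h * (2 / 3) + 3 * nu - ε)) ^ 3 = X ^ (3 * (h * (2 / 3) + 3 * nu - ε)) := by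
          rw [mul_comm (3 : ℝ) (_ - ε), Real.rpow_mul hX0.le]; norm_num
        rw [e1, e2, Real.rpow_add hX0]; ring
      have hB := sum_const_le _ hXo hC3 hC2 hcs' hsp
      linarith)
  obtain ⟨X2, hcfg⟩ := N.cellCfg_alpha hc hc8 h
  refine ⟨C, max X1 X2, fun X hX μ S α β pr hsol hα => ?_⟩
  simp only [ge_iff_le, max_le_iff] at hX
  have := hcfg X hX.2 μ S α β pr hsol hα
  exact hC X hX.1 μ S α β ⟨pr, hsol⟩ (by convert this using 3; norm_num)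

/-- Few `α`: `card_box` and `fixA` (fibres of `n ↦ α n`). -/
theorem NF.cell_triv (N : NF d) (h8 : d ≤ 8) {c : ℝ} (hc : 0 < c) (hc8 : c ≤ 1 / 8) :
    ∃ C : ℝ, ∀ X ≥ (1 : ℝ), ∀ (μ : ℤ) (S : Finset ℤ) (α β : ℤ → Fin d → ℤ) (pr : ℤ → ℕ),
    SolSet N c X μ S α β pr → (∀ n ∈ S, ‖α n‖ ≤ X ^ (9 / 10 / (d : ℝ) + nu)) →
    (S.card : ℝ) ≤ C * X ^ (1 - del) := by
  classical
  obtain ⟨C, hC, hfix⟩ := N.fixA hc hc8
  refine ⟨3 ^ d * C, fun X hX μ S α β pr hsol hα => ?_⟩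
  have hX0 : 0 < X := by linarith
  have hd := N.four_le
  have hd4 : (4 : ℝ) ≤ d := by exact_mod_cast hd
  have hd8 : (d : ℝ) ≤ 8 := by exact_mod_cast h8
  have hnu := nu_pos
  have h1 := card_box (X ^ (9 / 10 / (d : ℝ) + nu)) (Real.one_le_rpow hX (by positivity)) (S.image α)
    (by intro a ha; obtain ⟨n, hn, rfl⟩ := Finset.mem_image.1 ha; exact hα n hn)
  have h2 : (3 * X ^ (9 / 10 / (d : ℝ) + nu)) ^ d = 3 ^ d * X ^ (9 / 10 + d * nu) := by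
    rw [mul_pow, ← Real.rpow_natCast (X ^ _), ← Real.rpow_mul hX0.le]
    congr 2
    field_simp
  rw [h2] at h1
  rw [Finset.card_eq_sum_card_image α S]
  push_cast
  calc _ ≤ ∑ _a ∈ S.image α, C * X ^ (0 : ℝ) := Finset.sum_le_sum fun a _ => by
        rw [Real.rpow_zero, mul_one]
        exact hfix X hX μ _ α β pr (hsol.mono (Finset.filter_subset _ _)) a
          (fun n hn => (Finset.mem_filter.1 hn).2)
    _ ≤ _ := sum_const_le _ hX (by positivity) hC h1 (by unfold nu del; linarith)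

end Crest.Agent.R22
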