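import Crest.Agent.R22.Cell2
import Crest.Agent.R22.LineB
import Crest.Agent.R22.PairCount

namespace Crest.Agent.R22

variable {d : ℕ}

/-- β-cells, `d ≥ 5`.  `cell_of_eps` with `(p, q) = (1, d - 2)`, `η = β`, `γ = α`, `s2 = 1 - (d-2) h + ν`
(`‖α‖ ≤ C X / ‖β‖^(d-2)`, `sol_size`), `Q X μ S η γ = ∃ pr, SolSet N c X μ S γ η pr`.  For each `ε`: `num_beta`,
`line_beta` (`cg = cgB d`, `wn = wd = 1`), constant `B e = C X^(m+π)`, and `card_pairs` with `M1 = X^(ε+ν)`,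
`M2 = X^(h t + 3ν - ε)`. -/
theorem NF.cell_beta (N : NF d) (h5 : 5 ≤ d) (h8 : d ≤ 8) {c : ℝ} (hc : 0 < c) (hc8 : c ≤ 1 / 8)
    (h : ℝ) (hh : 1 / (d : ℝ) - nu ≤ h) (hh0 : h ≤ hb0 d) : ∃ C X0 : ℝ, ∀ X ≥ X0, ∀ (μ : ℤ)
    (S : Finset ℤ) (α β : ℤ → Fin d → ℤ) (pr : ℤ → ℕ), SolSet N c X μ S α β pr →
    (∀ n ∈ S, X ^ h ≤ ‖β n‖ ∧ ‖β n‖ ≤ X ^ (h + nu)) → (S.card : ℝ) ≤ C * X ^ (1 - del) := by
  have hd5 : (5 : ℝ) ≤ d := by exact_mod_cast h5
  have hd8 : (d : ℝ) ≤ 8 := by exact_mod_cast h8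
  have hhpos : 0 < h := by
    have : (1 : ℝ) / 8 ≤ 1 / d := one_div_le_one_div_of_le (by linarith) hd8
    unfold nu at hh; linarith
  have hh1 : h + nu ≤ 1 := by
    have : hb0 d ≤ 1 / 2 := by unfold hb0; split_ifs <;> norm_num
    unfold nu; linarith
  obtain ⟨c', hc', hcell⟩ := N.cell_of_eps 1 (d - 2) (by omega) c h (1 - (d - 2) * h + nu) hc hhpos hh1
  obtain ⟨C, X1, hC⟩ := hcell (fun X μ S η γ => ∃ pr, SolSet N c X μ S γ η pr) (by
    intro ε hε hε1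
    obtain ⟨hs1, hs2, m, π, hm, hm1, hπ, hS, hCi, htot⟩ := num_beta d h5 h8 h ε hh hh0 hε hε1
    obtain ⟨C1, X1, hC1, hline⟩ := N.line_beta (cgB d) 1 1 le_rfl
      (by unfold cgB; split_ifs <;> norm_num)
      (by intro g2 hg; interval_cases d <;> simp [cgB] at hg ⊢ <;> omega)
      c c' _ _ m π hc hc8 hc' hs1 hs2 hm hm1 hπ hS hCi
    refine ⟨d * 9 ^ d * C1, max X1 1, ?_⟩
    rintro X hX μ S η γ ⟨pr, hsol⟩ Ps hPs
    simp only [ge_iff_le, max_le_iff] at hX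
    refine ⟨fun _ => C1 * X ^ (m + π), fun e he f1 f2 k1 k2 T _ hT hη hL =>
      hline X hX.1 μ T γ η pr f1 f2 k1 k2 (hsol.mono hT) hL hη, ?_⟩
    exact sum_const_le Ps hX.2 (by positivity) hC1 (PairOK.card_le hX.2 hε hε1 Ps hPs) htot)
  obtain ⟨X2, hcfg⟩ := N.cellCfg_beta hc hc8 h
  refine ⟨C, max X1 X2, fun X hX μ S α β pr hsol hβ => ?_⟩
  simp only [ge_iff_le, max_le_iff] at hX
  exact hC X hX.1 μ S β α ⟨pr, hsol⟩ (hcfg X hX.2 μ S α β pr hsol hβ)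

/-- β-cells, `d = 4`.  For each `ε`: `num_beta4`; `Hh = 2 ε` (`X^(2ε) ≤ ‖e1‖² ≤ ‖e1‖ ‖e2‖`), `g0 = 1/50`.
`B e = C X^(m+π)` if `Sep N (X^(-g0)) e.1 e.2` (`line_beta4_sep`), else `C X^(m+π')` (`line_beta4` with
`wn = 4`, `wd = 5`).  `Sep`, the gcd condition and the lower bound for a minor are symmetric in `e1, e2`
(`PP` and `minor` change sign).  Count all pairs by `card_pairs`, and the non-separated ones by `card_rare`
(`X^(-g0) + X^(-(ε+ν)) ≤ 2 X^(-g0)` if `g0 ≤ ε`) or by `card_pairs`. -/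
theorem NF.cell_beta4 (N : NF 4) {c : ℝ} (hc : 0 < c) (hc8 : c ≤ 1 / 8) (h : ℝ)
    (hh : 1 / 4 - nu ≤ h) (hh0 : h ≤ hb0 4) : ∃ C X0 : ℝ, ∀ X ≥ X0, ∀ (μ : ℤ)
    (S : Finset ℤ) (α β : ℤ → Fin 4 → ℤ) (pr : ℤ → ℕ), SolSet N c X μ S α β pr →
    (∀ n ∈ S, X ^ h ≤ ‖β n‖ ∧ ‖β n‖ ≤ X ^ (h + nu)) → (S.card : ℝ) ≤ C * X ^ (1 - del) := by
  classical
  have hhpos : 0 < h := by unfold nu at hh; linarith
  have hh1 : h + nu ≤ 1 := by
    have : hb0 4 ≤ 1 / 2 := by unfold hb0; norm_num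
    unfold nu; linarith
  have ht : (((4 : ℕ) : ℝ) - 2) / (((4 : ℕ) : ℝ) - 1) = 2 / 3 := by norm_num
  have hnu := nu_pos
  obtain ⟨c', hc', hcell⟩ := N.cell_of_eps 1 2 (by omega) c h (1 - 2 * h + nu) hc hhpos hh1
  obtain ⟨C, X1, hC⟩ := hcell (fun X μ S η γ => ∃ pr, SolSet N c X μ S γ η pr) (by
    intro ε hε hε1
    have hε2 := hε1
    rw [ht] at hε2
    obtain ⟨hσ, m, π, π', hm, hm1, hπ, hπ', hS, hC8, hC7, hC6, hC6', htot, hrare⟩ :=
      num_beta4 h ε hh hh0 hε hε2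
    obtain ⟨C1, X1, hC1, hsep⟩ := N.line_beta4_sep c c' (h + 2 * nu - ε) (1 - 2 * h + nu) (2 * ε) m π
      (1 / 50) hc hc8 hc' (by linarith) hσ hm hm1 hπ (by norm_num) (by norm_num) hS hC8 hC7 hC6
    obtain ⟨C2, X2, hC2, hall⟩ := N.line_beta4 4 5 (by norm_num) c c' (h + 2 * nu - ε)
      (1 - 2 * h + nu) (2 * ε) m π' hc hc8 hc' (by linarith) hσ hm hm1 hπ' hS hC6'
    obtain ⟨C3, hC3, hrc⟩ := N.card_rare hc'
    refine ⟨4 * 9 ^ 4 * C1 + (4 * 9 ^ 4 + 2 * C3) * C2, max (max X1 X2) 1, ?_⟩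
    rintro X hX μ S η γ ⟨pr, hsol⟩ Ps hPs
    simp only [ge_iff_le, max_le_iff] at hX
    obtain ⟨⟨hX1, hX2⟩, hXo⟩ := hX
    have hX0 : 0 < X := by linarith
    refine ⟨fun e => if Sep N (X ^ (-(1 / 50 : ℝ))) e.1 e.2 then C1 * X ^ (m + π)
      else C2 * X ^ (m + π'), fun e he f1 f2 k1 k2 T hf hT hη hL => ?_, ?_⟩
    · obtain ⟨hg, hb, hpr⟩ := (hPs e he).good.sym hf
      have hH : X ^ (2 * ε) ≤ ‖f1‖ * ‖f2‖ := by
        rw [hpr]
        have h1 := (hPs e he).lo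
        have h2 := (hPs e he).good.le
        calc X ^ (2 * ε) = X ^ ε * X ^ ε := by rw [← Real.rpow_add hX0]; ring_nf
          _ ≤ _ := by gcongr; linarith
      dsimp only
      split_ifs with hs
      · refine hsep X hX1 μ T γ η pr f1 f2 k1 k2 (hsol.mono hT) hL hη hg hb hH ?_
        rcases hf with ⟨rfl, rfl⟩ | ⟨rfl, rfl⟩
        · exact hs
        · exact hs.swap
      · exact hall X hX2 μ T γ η pr f1 f2 k1 k2 (hsol.mono hT) hL hη hg hb hH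
    · rw [Finset.sum_ite]
      have hcard : ∀ P' : Finset ((Fin 4 → ℤ) × (Fin 4 → ℤ)), P' ⊆ Ps → (P'.card : ℝ) ≤
          4 * 9 ^ 4 * X ^ (5 * (ε + nu) + 3 * (h * (2 / 3) + 3 * nu - ε)) := by
        intro P' hP'
        have := PairOK.card_le hXo hε hε1 P' (fun e he => hPs e (hP' he))
        rw [ht] at this
        convert this using 3 <;> norm_num
      have hA := sum_const_le _ hXo (by positivity) hC1
        (hcard _ (Finset.filter_subset (fun e => Sep N (X ^ (-(1 / 50 : ℝ))) e.1 e.2) Ps)) htot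
      have hXd : 0 ≤ X ^ (1 - del) := by positivity
      rcases hrare with ⟨hg0, hr⟩ | hr
      · have hcr := hrc (X ^ (ε + nu)) (X ^ (h * (2 / 3) + 3 * nu - ε)) (X ^ (-(1 / 50 : ℝ)))
          (Real.one_le_rpow hXo (by linarith)) (Real.rpow_le_rpow_of_exponent_le hXo (by linarith))
          (by positivity) (Ps.filter fun e => ¬ Sep N (X ^ (-(1 / 50 : ℝ))) e.1 e.2) (by
            intro e he
            obtain ⟨he, hns⟩ := Finset.mem_filter.1 he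
            have h1 := hPs e he
            have h2 := h1.hi2
            rw [ht] at h2
            refine ⟨h1.good.ne, ?_, h1.hi, h2, hns, h1.low⟩
            intro h0
            have h3 := h1.good.le
            have h4 := one_le_norm_of_ne_zero h1.good.ne
            rw [h0, norm_zero] at h3
            linarith)
        have h5 : 1 / X ^ (ε + nu) ≤ X ^ (-(1 / 50 : ℝ)) := by
          rw [one_div, ← Real.rpow_neg hX0.le]
          exact Real.rpow_le_rpow_of_exponent_le hXo (by linarith)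
        have hcr' : ((Ps.filter fun e => ¬ Sep N (X ^ (-(1 / 50 : ℝ))) e.1 e.2).card : ℝ) ≤
            2 * C3 * X ^ (4 * (ε + nu) + 4 * (h * (2 / 3) + 3 * nu - ε) - 1 / 50) := by
          refine hcr.trans ?_
          have e1 : (X ^ (ε + nu)) ^ 4 = X ^ (4 * (ε + nu)) := by
            rw [mul_comm, Real.rpow_mul hX0.le]; norm_num
          have e2 : (X ^ (h * (2 / 3) + 3 * nu - ε)) ^ 4 = X ^ (4 * (h * (2 / 3) + 3 * nu - ε)) := by
            rw [mul_comm (4 : ℝ), Real.rpow_mul hX0.le]; norm_num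
          have e3 : X ^ (4 * (ε + nu) + 4 * (h * (2 / 3) + 3 * nu - ε) - 1 / 50) =
              X ^ (4 * (ε + nu)) * X ^ (4 * (h * (2 / 3) + 3 * nu - ε)) * X ^ (-(1 / 50 : ℝ)) := by
            rw [← Real.rpow_add hX0, ← Real.rpow_add hX0]; congr 1
          rw [e1, e2, e3]
          have h6 : X ^ (-(1 / 50 : ℝ)) + 1 / X ^ (ε + nu) ≤ 2 * X ^ (-(1 / 50 : ℝ)) := by linarith
          calc _ ≤ C3 * X ^ (4 * (ε + nu)) * X ^ (4 * (h * (2 / 3) + 3 * nu - ε)) *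
                (2 * X ^ (-(1 / 50 : ℝ))) := mul_le_mul_of_nonneg_left h6 (by positivity)
            _ = _ := by ring
        have hB := sum_const_le _ hXo (by positivity) hC2 hcr' hr
        nlinarith [mul_nonneg hC2 hXd]
      · have hB := sum_const_le _ hXo (by positivity) hC2
          (hcard _ (Finset.filter_subset (fun e => ¬ Sep N (X ^ (-(1 / 50 : ℝ))) e.1 e.2) Ps)) hr
        nlinarith [mul_nonneg (mul_nonneg hC3 hC2) hXd])
  obtain ⟨X2, hcfg⟩ := N.cellCfg_beta hc hc8 h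
  refine ⟨C, max X1 X2, fun X hX μ S α β pr hsol hβ => ?_⟩
  simp only [ge_iff_le, max_le_iff] at hX
  have := hcfg X hX.2 μ S α β pr hsol hβ
  exact hC X hX.1 μ S β α ⟨pr, hsol⟩ (by convert this using 3; norm_num)

end Crest.Agent.R22
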