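import Crest.Agent.R22.Kummer
import Crest.Agent.R22.RelParam
import Crest.Agent.R22.QClass
import Crest.Agent.R22.Fix

namespace Crest.Agent.R22

variable {d : ℕ}

theorem cur1_seq {V : Type} [AddCommGroup V] [Module ℂ V] (G : ℕ → Set V) (lev : ℕ → ℕ) (M : ℕ)
    (h : ∀ k < M, k < Module.finrank ℂ (Submodule.span ℂ (G (lev k)))) :
    ∃ v : Fin M → V, (∀ k : Fin M, v k ∈ G (lev k)) ∧ LinearIndependent ℂ v := by
  induction M with
  | zero => exact ⟨Fin.elim0, fun k => k.elim0, linearIndependent_empty_type⟩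
  | succ M ih =>
    obtain ⟨v, hv, hli⟩ := ih fun k hk => h k (by omega)
    have h1 := h M (by omega)
    have : ∃ z ∈ G (lev M), z ∉ Submodule.span ℂ (Set.range v) := by
      by_contra hc
      push Not at hc
      have h2 : Submodule.span ℂ (G (lev M)) ≤ Submodule.span ℂ (Set.range v) :=
        Submodule.span_le.2 hc
      have : Module.Finite ℂ (Submodule.span ℂ (Set.range v)) :=
        Module.Finite.span_of_finite ℂ (Set.finite_range v)
      have h3 := Submodule.finrank_mono h2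
      rw [finrank_span_eq_card hli, Fintype.card_fin] at h3
      omega
    obtain ⟨z, hz, hz'⟩ := this
    refine ⟨Fin.snoc v z, fun k => ?_, linearIndependent_finSnoc.2 ⟨hli, hz'⟩⟩
    refine Fin.lastCases ?_ (fun k => ?_) k
    · simpa using hz
    · simpa using hv k

/-- Nested selection of rows.  `W ρ = Wsp x c (a0 + ρ q) (b0 + ρ p)` increases with `ρ` and has dimension
`≥ n0 + ρ δ`.  Induct on `J`: an independent family of `n0 + ρ δ` elements of `W ρ ≤ W (ρ+1)` is extended by `δ`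
generators (monomials) of `W (ρ+1)` (`LinearIndependent.extend` / `exists_linearIndepOn_extension`). -/
theorem exists_level_rows {Ω : Type} [Field Ω] [Algebra ℂ Ω] (x : Ω) (c : Fin d → Ω)
    (p q a0 b0 n0 δ J : ℕ) (hmono : ∀ a E, Wsp x c a E ≤ Wsp x c (a + q) (E + p))
    (hdim : ∀ ρ ≤ J, n0 + ρ * δ ≤ Module.finrank ℂ (Wsp x c (a0 + ρ * q) (b0 + ρ * p))) :
    ∃ (i : Fin n0 ⊕ (Fin J × Fin δ) → ℕ) (mm : Fin n0 ⊕ (Fin J × Fin δ) → Fin d → ℕ),
      (∀ r, i r ≤ a0 + (r.elim (fun _ => 0) (fun e => (e.1 : ℕ) + 1)) * q ∧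
        ∑ s, mm r s = b0 + (r.elim (fun _ => 0) (fun e => (e.1 : ℕ) + 1)) * p) ∧
      LinearIndependent ℂ (fun r => x ^ i r * ∏ s, c s ^ mm r s) := by
  have _ := hmono
  obtain ⟨lev, hl⟩ : ∃ lev : ℕ → ℕ, ∀ k, lev k = if k < n0 then 0 else (k - n0) / δ + 1 :=
    ⟨_, fun _ => rfl⟩
  have hk : ∀ k < n0 + J * δ, lev k ≤ J ∧ k < n0 + lev k * δ := fun k hk => by
    rw [hl]
    split_ifs with h1
    · omega
    · have hδ : 0 < δ := Nat.pos_of_ne_zero (by rintro rfl; omega)
      have h2 : (k - n0) / δ < J := Nat.div_lt_of_lt_mul (by rw [mul_comm]; omega)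
      have := Nat.lt_div_mul_add (a := k - n0) hδ
      rw [Nat.succ_mul]
      omega
  obtain ⟨v, hv, hli⟩ := cur1_seq (fun ρ => {z | ∃ i ≤ a0 + ρ * q, ∃ m : Fin d → ℕ,
      ∑ s, m s = b0 + ρ * p ∧ z = x ^ i * ∏ s, c s ^ m s}) lev (n0 + J * δ)
    fun k h => (hk k h).2.trans_le (hdim _ (hk k h).1)
  choose i hi m hm hvm using hv
  let e : Fin n0 ⊕ (Fin J × Fin δ) ≃ Fin (n0 + J * δ) :=
    (Equiv.sumCongr (Equiv.refl _) finProdFinEquiv).trans finSumFinEquiv
  have hlev : ∀ r, lev (e r) = r.elim (fun _ => 0) (fun e => (e.1 : ℕ) + 1) := by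
    rintro (r | ⟨j, r⟩)
    · simp [e, hl]
    · have hr := r.2
      have e1 : ((e (Sum.inr (j, r)) : Fin _) : ℕ) = n0 + (r + δ * j) := by simp [e]
      rw [e1, hl, if_neg (by omega), Nat.add_sub_cancel_left, Nat.add_mul_div_left _ _ (by omega),
        Nat.div_eq_of_lt hr]
      simp
  refine ⟨fun r => i (e r), fun r => m (e r), fun r => ⟨?_, ?_⟩, ?_⟩
  · rw [← hlev]
    exact hi _
  · rw [← hlev]
    exact hm _
  · have := hli.comp e e.injective
    simpa only [Function.comp_def, hvm] using this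

/-- If at most `Γ t + Γ0` of `n` numbers in `[0, T]` are `≤ t` for each `t < T`, their sum
`∑_{t<T} #{r : φ r > t}` is `≥ ∑_{t<T} (n - Γ t - Γ0)₊ ≥ (n - Γ0)² / (2 Γ)` when `Γ T ≥ n ≥ Γ0`. -/
theorem level_weight (n T : ℕ) (Γ Γ0 : ℝ) (hΓ : 0 < Γ) (hΓ0 : 0 ≤ Γ0) (hn : Γ0 ≤ n)
    (hT : (n : ℝ) ≤ Γ * T) (φ : Fin n → ℕ)
    (h : ∀ t < T, ((Finset.univ.filter fun r => φ r ≤ t).card : ℝ) ≤ Γ * t + Γ0) :
    ((n : ℝ) - Γ0) ^ 2 / (2 * Γ) ≤ ∑ r, (φ r : ℝ) := by
  have h1 : ∀ T : ℕ, ((n : ℝ) - Γ0) ^ 2 - (max 0 ((n : ℝ) - Γ0 - Γ * T)) ^ 2 ≤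
      2 * Γ * ∑ t ∈ Finset.range T, max 0 ((n : ℝ) - Γ0 - Γ * t) := by
    intro T
    induction T with
    | zero => simp [max_eq_right (sub_nonneg.2 hn)]
    | succ T ih =>
      rw [Finset.sum_range_succ, mul_add]
      have e : (n : ℝ) - Γ0 - Γ * ((T + 1 : ℕ) : ℝ) = (n : ℝ) - Γ0 - Γ * T - Γ := by
        push_cast
        ring
      rw [e]
      generalize (n : ℝ) - Γ0 - Γ * T = y at *
      have : (max 0 y) ^ 2 - (max 0 (y - Γ)) ^ 2 ≤ 2 * Γ * max 0 y := by
        rcases le_total y 0 with a | a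
        · rw [max_eq_left a, max_eq_left (by linarith)]
          simp
        · rw [max_eq_right a]
          rcases le_total (y - Γ) 0 with b | b
          · rw [max_eq_left b]
            nlinarith
          · rw [max_eq_right b]
            nlinarith
      linarith
  have h2 := h1 T
  rw [max_eq_left (by linarith)] at h2
  have h3 : ∑ t ∈ Finset.range T, max 0 ((n : ℝ) - Γ0 - Γ * t) ≤
      ∑ t ∈ Finset.range T, ∑ r, (if φ r ≤ t then (0 : ℝ) else 1) := by
    refine Finset.sum_le_sum fun t ht => max_le ?_ ?_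
    · exact Finset.sum_nonneg fun r _ => by split_ifs <;> norm_num
    · have h4 := h t (Finset.mem_range.1 ht)
      have h5 := Finset.card_filter_add_card_filter_not (s := Finset.univ) fun r => φ r ≤ t
      rw [Finset.card_univ, Fintype.card_fin] at h5
      have h6 : ((Finset.univ.filter fun r => φ r ≤ t).card : ℝ) +
          (Finset.univ.filter fun r => ¬ φ r ≤ t).card = n := by exact_mod_cast h5
      rw [Finset.sum_ite]
      simp only [Finset.sum_const, smul_zero, zero_add, nsmul_eq_mul, mul_one]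
      linarith
  have h4 : ∑ t ∈ Finset.range T, ∑ r, (if φ r ≤ t then (0 : ℝ) else 1) ≤ ∑ r, (φ r : ℝ) := by
    rw [Finset.sum_comm]
    refine Finset.sum_le_sum fun r _ => ?_
    rw [Finset.sum_ite]
    simp only [Finset.sum_const, smul_zero, zero_add, nsmul_eq_mul, mul_one]
    have : ((Finset.range T).filter fun t => ¬ φ r ≤ t) ⊆ Finset.range (φ r) := fun t ht => by
      have := (Finset.mem_filter.1 ht).2
      exact Finset.mem_range.2 (by omega)
    have h5 := Finset.card_le_card this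
    rw [Finset.card_range] at h5
    exact_mod_cast h5
  rw [div_le_iff₀ (by positivity)]
  have h5 := mul_le_mul_of_nonneg_left (h3.trans h4) (by positivity : (0 : ℝ) ≤ 2 * Γ)
  linarith

end Crest.Agent.R22
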