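import Crest.Agent.R22.Kummer
import Crest.Agent.R22.RelParam
import Crest.Agent.R22.QClass
import Crest.Agent.R22.Fix
import Crest.Agent.R22.Cur1

namespace Crest.Agent.R22

variable {d : ℕ}

/-- The archimedean bound.  `det_real` with `τ = Fin (T + 1)`: a bottom row is split by `ApprHyp` (times `μ^J`), a
row of level `ρ ≥ 1` is put into the piece `0` (the other pieces are `0`).  Normalise each row by its size
`X^(a s1 + E s2)` (put the size into `R`, weight `ϖ t` for bottom rows and `0` for the others).  If more than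
`dim Fl t` bottom rows use pieces `≤ t` they are dependent and the determinant vanishes; `level_weight`. -/
theorem det_curve (d p q a0 b0 n0 δ J T : ℕ) (c ϖ Γ Γ0 Cap : ℝ) (hc : 0 < c) (hϖ : 0 ≤ ϖ)
    (hΓ : 0 < Γ) (hΓ0 : 0 ≤ Γ0) (hn : Γ0 ≤ n0) (hT : (n0 : ℝ) ≤ Γ * T) : ∃ C : ℝ, ∀ X ≥ (1 : ℝ),
    ∀ (N : NF d) (s1 s2 : ℝ) (μ : ℤ) (e1 e2 : Fin d → ℤ) (S : Finset ℤ) (l1 l2 : ℤ → ℤ)
    (g : ℤ → Fin d → ℤ), LineCfg N p q c X s1 s2 μ e1 e2 S l1 l2 g →
    ApprHyp S l1 l2 g X s1 s2 ϖ Γ Γ0 a0 b0 T Cap →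
    ∀ (i : Fin n0 ⊕ (Fin J × Fin δ) → ℕ) (mm : Fin n0 ⊕ (Fin J × Fin δ) → Fin d → ℕ)
      (ρ : Fin n0 ⊕ (Fin J × Fin δ) → ℕ), (∀ r, ρ r = r.elim (fun _ => 0) (fun e => (e.1 : ℕ) + 1)) →
    (∀ r, i r ≤ a0 + ρ r * q ∧ ∑ s, mm r s = b0 + ρ r * p) →
    ∀ P : Fin n0 ⊕ (Fin J × Fin δ) → ℤ, (∀ r, P r ∈ S) →
    |((Matrix.of fun r r' => μ ^ (J - ρ r) * rowv 1 l1 l2 g (a0 + ρ r * q) (i r) (mm r) (P r')).det : ℝ)|
      ≤ C * X ^ ((n0 + J * δ : ℕ) * (a0 * s1 + b0 * s2) + δ * (q * s1 + p * s2) * (J * (J + 1) / 2)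
        - ϖ * ((n0 : ℝ) - Γ0) ^ 2 / (2 * Γ)) := by
  classical
  refine ⟨(n0 + J * δ).factorial * ((T + 1) * ((max 1 c⁻¹) ^ J * max 1 Cap)) ^ (n0 + J * δ), ?_⟩
  intro X hX N s1 s2 μ e1 e2 S l1 l2 g hL hAp i mm ρ hρ hi P hP
  obtain ⟨Fl, hFl, hFd, hG⟩ := hAp
  have hX0 : 0 < X := by linarith
  choose G hG1 hG2 hG3 using fun k : Fin n0 => hG (i (Sum.inl k))
    (by simpa [hρ] using (hi (Sum.inl k)).1) (mm (Sum.inl k))
    (by simpa [hρ] using (hi (Sum.inl k)).2)
  set K : ℝ := (max 1 c⁻¹) ^ J * max 1 Cap with hK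
  have hμ : ∀ k ≤ J, ‖(μ : ℂ) ^ k‖ ≤ (max 1 c⁻¹) ^ J := fun k hk => by
    rw [norm_pow, Complex.norm_intCast]
    refine (pow_le_pow_left₀ (abs_nonneg _) (le_max_of_le_right ?_) k).trans
      (pow_le_pow_right₀ (le_max_left _ _) hk)
    rw [← one_div, le_div_iff₀' hc]
    exact hL.mule
  have hrow : ∀ r, ∀ n ∈ S, ‖((rowv 1 l1 l2 g (a0 + ρ r * q) (i r) (mm r) n : ℤ) : ℂ)‖ ≤
      X ^ ((a0 + ρ r * q : ℕ) * s1 + (b0 + ρ r * p : ℕ) * s2) := by
    intro r n hn
    have h1 : ∀ s, |(g n s : ℝ)| ≤ X ^ s2 := fun s => by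
      refine le_trans ?_ (hL.sz2 n hn)
      rw [← Int.norm_eq_abs]
      exact norm_le_pi_norm (g n) s
    rw [Complex.norm_intCast, Real.rpow_add hX0, mul_comm _ s1, mul_comm _ s2,
      Real.rpow_mul_natCast hX0.le, Real.rpow_mul_natCast hX0.le, ← (hi r).2,
      ← Finset.prod_pow_eq_pow_sum]
    conv_rhs => rw [← Nat.add_sub_cancel' (hi r).1, pow_add]
    simp only [rowv, Matrix.one_mulVec, Int.cast_mul, Int.cast_pow, Int.cast_prod, abs_mul, abs_pow,
      Finset.abs_prod]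
    gcongr with s
    · exact hL.l1_le n hn
    · exact (hL.sz1 n hn).1
    · exact h1 s
  set gg : Fin n0 ⊕ (Fin J × Fin δ) → Fin (T + 1) → Fin n0 ⊕ (Fin J × Fin δ) → ℂ := fun r t r' =>
    r.elim (fun k => (μ : ℂ) ^ J * G k t ⟨P r', hP r'⟩) fun _ => if t = 0 then
      (μ : ℂ) ^ (J - ρ r) * (rowv 1 l1 l2 g (a0 + ρ r * q) (i r) (mm r) (P r') : ℤ) else 0 with hgg
  have key := det_real gg (fun r _ => K * X ^ ((a0 + ρ r * q : ℕ) * s1 + (b0 + ρ r * p : ℕ) * s2))
    (fun r t => r.elim (fun _ => ϖ * (t : ℕ)) fun _ => 0) X (ϖ * ((n0 : ℝ) - Γ0) ^ 2 / (2 * Γ)) hX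
    (fun r t => by positivity) (by
      rintro (k | e) t r'
      · have h1 := hG3 k t (Nat.lt_succ_iff.1 t.2) ⟨P r', hP r'⟩
        simp only [hgg, Sum.elim_inl, hρ, zero_mul, add_zero, norm_mul, hK]
        rw [mul_assoc, mul_assoc, ← Real.rpow_add hX0, ← sub_eq_add_neg]
        refine mul_le_mul (hμ J le_rfl) (h1.trans ?_) (norm_nonneg _) (by positivity)
        exact mul_le_mul_of_nonneg_right (le_max_right _ _) (by positivity)
      · simp only [hgg, Sum.elim_inr, neg_zero, Real.rpow_zero, mul_one]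
        split_ifs
        · rw [norm_mul, hK, mul_assoc]
          refine mul_le_mul (hμ _ (Nat.sub_le _ _)) ((hrow _ _ (hP r')).trans ?_) (norm_nonneg _)
            (by positivity)
          exact le_mul_of_one_le_left (by positivity) (le_max_left _ _)
        · rw [norm_zero]
          positivity) (by
      intro φ hφ
      by_contra hdet
      have hli := Matrix.linearIndependent_rows_of_det_ne_zero hdet
      have h1 := level_weight n0 T Γ Γ0 hΓ hΓ0 hn hT (fun k => φ (Sum.inl k)) fun t ht => by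
        refine le_trans (Nat.cast_le.2 ?_) (hFd t)
        rw [← Fintype.card_coe]
        refine LinearIndependent.fintype_card_le_finrank
          (b := fun k : (Finset.univ.filter fun k => (φ (Sum.inl k) : ℕ) ≤ t) =>
            (⟨G k (φ (Sum.inl k)), hFl (Finset.mem_filter.1 k.2).2
              (hG1 k _ ((Finset.mem_filter.1 k.2).2.trans_lt ht))⟩ : Fl t)) ?_
        refine LinearIndependent.of_comp ((((μ : ℂ) ^ J) • LinearMap.funLeft ℂ ℂ
          fun r' => (⟨P r', hP r'⟩ : S)) ∘ₗ (Fl t).subtype) ?_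
        exact hli.comp (fun k : (Finset.univ.filter fun k => (φ (Sum.inl k) : ℕ) ≤ t) =>
          Sum.inl k.1) (Sum.inl_injective.comp Subtype.val_injective)
      simp only [Fintype.sum_sum_type, Sum.elim_inl, Sum.elim_inr, Finset.sum_const_zero, add_zero,
        ← Finset.mul_sum] at hφ
      rw [mul_div_assoc] at hφ
      exact hφ.not_ge (mul_le_mul_of_nonneg_left h1 hϖ))
  have e1 : (Matrix.of fun r r' => ∑ t, gg r t r') = (Matrix.of fun r r' =>
      μ ^ (J - ρ r) * rowv 1 l1 l2 g (a0 + ρ r * q) (i r) (mm r) (P r')).map fun a => (a : ℂ) := by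
    ext r r'
    rcases r with k | e
    · have h1 := hG2 k ⟨P r', hP r'⟩
      simp only [hgg, Matrix.of_apply, Matrix.map_apply, Sum.elim_inl, hρ, zero_mul, add_zero,
        Nat.sub_zero, Int.cast_mul, Int.cast_pow, ← Finset.mul_sum]
      rw [h1, Finset.sum_range fun t => G k t ⟨P r', hP r'⟩]
    · simp [hgg]
  have e2 : ∑ r, (ρ r : ℝ) = δ * (J * (J + 1) / 2) := by
    have h1 : ∀ m : ℕ, ∑ j ∈ Finset.range m, ((j : ℝ) + 1) = m * (m + 1) / 2 := fun m => by
      induction m with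
      | zero => simp
      | succ m ih => rw [Finset.sum_range_succ, ih]; push_cast; ring
    rw [← h1, Finset.sum_range fun j => (j : ℝ) + 1, Finset.mul_sum]
    simp [hρ, Fintype.sum_sum_type, Fintype.sum_prod_type, mul_add]
  rw [e1, ← Int.cast_det, Complex.norm_intCast] at key
  refine key.trans (le_of_eq ?_)
  simp only [Finset.sum_const, Finset.card_univ, Fintype.card_fin, nsmul_eq_mul, ← mul_assoc,
    Finset.prod_mul_distrib, Finset.prod_const, Fintype.card_sum, Fintype.card_prod,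
    ← Real.rpow_sum_of_pos hX0]
  rw [mul_assoc _ (X ^ _), ← Real.rpow_add hX0, hK]
  congr 1
  · simp only [mul_pow]
    push_cast
    ring
  · congr 1
    have e3 : ∀ r, ((a0 + ρ r * q : ℕ) : ℝ) * s1 + (b0 + ρ r * p : ℕ) * s2 =
        a0 * s1 + b0 * s2 + (q * s1 + p * s2) * ρ r := fun r => by push_cast; ring
    simp only [e3, Finset.sum_add_distrib, ← Finset.mul_sum, e2, Finset.sum_const, Finset.card_univ,
      Fintype.card_sum, Fintype.card_prod, Fintype.card_fin, nsmul_eq_mul]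
    ring

end Crest.Agent.R22
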