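import Crest.Agent.R22.Kummer
import Crest.Agent.R22.RelParam
import Crest.Agent.R22.QClass
import Crest.Agent.R22.Fix

namespace Crest.Agent.R22

variable {d : ℕ}

private lemma c3_quad (α β γ : ℝ) (hα : 0 < α) : ∃ t : ℕ, 0 < α * t ^ 2 + β * t + γ := by
  obtain ⟨t, ht⟩ := exists_nat_gt ((|β| + |γ|) / α + 1)
  refine ⟨t, ?_⟩
  have h0 : 0 ≤ (|β| + |γ|) / α := by positivity
  have h1 : (1 : ℝ) ≤ t := by linarith
  have h2 : |β| + |γ| < α * t := by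
    have : (|β| + |γ|) / α < t := by linarith
    rwa [div_lt_iff₀' hα] at this
  have h3 := neg_abs_le β
  have h4 := neg_abs_le γ
  have h5 := abs_nonneg γ
  have h6 : (|β| + |γ|) * t < α * t * t := mul_lt_mul_of_pos_right h2 (by linarith)
  nlinarith

/-- Numerics.  `w = wn / wd`; `J = wd t`, `a0 = CH`, `b0 = CH + ⌈Γ0⌉ + wn t`, `n0 = cx a0 + cg b0 - CH`,
`H = n0 + J δ = (cg w + δ) J + O(1)`; divide by `J²` and let `t → ∞`. -/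
theorem curve_num (p q cx cg CH wn wd : ℕ) (hwd : 1 ≤ wd) (hcx : 1 ≤ cx) (hcg : 1 ≤ cg)
    (s1 s2 ϖ Γ Γ0 π : ℝ) (hΓ : 0 < Γ) (hΓ0 : 0 ≤ Γ0)
    (h : CurveIneq p q cx cg ((wn : ℝ) / wd) s1 s2 ϖ Γ π) : ∃ b0 n0 J T : ℕ, CH ≤ b0 ∧
      n0 + CH = cx * CH + cg * b0 ∧ Γ0 ≤ n0 ∧ (n0 : ℝ) ≤ Γ * T ∧ 1 ≤ n0 + J * (q * cx + p * cg) ∧
      ((n0 + J * (q * cx + p * cg) : ℕ) : ℝ) * (CH * s1 + b0 * s2)
        + ((q * cx + p * cg : ℕ) : ℝ) * (q * s1 + p * s2) * (J * (J + 1) / 2)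
        - ϖ * ((n0 : ℝ) - Γ0) ^ 2 / (2 * Γ)
      < π * ((((n0 + J * (q * cx + p * cg)) * (n0 + J * (q * cx + p * cg) - 1) / 2 : ℕ)) : ℝ) := by
  obtain ⟨cx', rfl⟩ : ∃ cx', cx = cx' + 1 := ⟨cx - 1, by omega⟩
  set G : ℕ := ⌈Γ0⌉₊ with hG
  have hGΓ : Γ0 ≤ G := Nat.le_ceil _
  set w : ℝ := (wn : ℝ) / wd with hw
  have hwd0 : (wd : ℝ) ≠ 0 := by positivity
  have hwn : (wn : ℝ) = w * wd := by rw [hw]; field_simp
  set δ : ℝ := q * (cx' + 1) + p * cg with hδ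
  set b : ℝ := CH + G + 1 with hb
  set A : ℝ := cx' * CH + cg * b with hA
  set α : ℝ := (wd : ℝ) ^ 2 * (π * (cg * w + δ) ^ 2 / 2 -
    ((cg * w + δ) * (w * s2) + δ * (q * s1 + p * s2) / 2 - ϖ * (cg * w) ^ 2 / (2 * Γ))) with hα
  have hα0 : 0 < α := by
    refine mul_pos (by positivity) (sub_pos.2 ?_)
    unfold CurveIneq at h
    push_cast at h
    exact h
  let f : ℝ → ℝ := fun t => π * ((A + (cg * w + δ) * wd * t) * (A + (cg * w + δ) * wd * t - 1) / 2) -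
    ((A + (cg * w + δ) * wd * t) * (CH * s1 + (b + w * wd * t) * s2) +
      δ * (q * s1 + p * s2) * (wd * t * (wd * t + 1) / 2) - ϖ * (A + cg * w * wd * t - Γ0) ^ 2 / (2 * Γ))
  have hf : ∀ t, f t = α * t ^ 2 + (f 1 - f 0 - α) * t + f 0 := by
    intro t
    simp only [f, hα]
    ring
  obtain ⟨t, ht⟩ := c3_quad α (f 1 - f 0 - α) (f 0) hα0
  rw [← hf] at ht
  have hn1 : G + 1 ≤ cx' * CH + cg * (CH + G + 1 + wn * t) := by
    have : CH + G + 1 + wn * t ≤ cg * (CH + G + 1 + wn * t) := Nat.le_mul_of_pos_left _ hcg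
    omega
  refine ⟨CH + G + 1 + wn * t, cx' * CH + cg * (CH + G + 1 + wn * t), wd * t,
    ⌈((cx' * CH + cg * (CH + G + 1 + wn * t) : ℕ) : ℝ) / Γ⌉₊, by omega, by ring, ?_, ?_, by omega, ?_⟩
  · have : ((G + 1 : ℕ) : ℝ) ≤ ((cx' * CH + cg * (CH + G + 1 + wn * t) : ℕ) : ℝ) := by
      exact_mod_cast hn1
    push_cast at this ⊢
    linarith
  · rw [← div_le_iff₀' hΓ]
    exact Nat.le_ceil _
  · rw [← Nat.choose_two_right, Nat.cast_choose_two, ← sub_pos]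
    refine ht.trans_eq ?_
    simp only [f, hA, hb, hδ]
    push_cast
    rw [hwn]
    ring

end Crest.Agent.R22
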