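import Crest.Agent.R22.Kummer
import Crest.Agent.R22.RelParam
import Crest.Agent.R22.QClass
import Crest.Agent.R22.Fix
import Crest.Agent.R22.Cur2
import Crest.Agent.R22.Cur3

namespace Crest.Agent.R22

variable {d : ℕ}

/-- The coordinate `co b s` as a polynomial in the generators. -/
noncomputable def NF.c4P (N : NF d) (s : Fin d) : MvPolynomial (Fin 2 ⊕ Fin d) ℂ :=
  ∑ i, MvPolynomial.C (N.cinv s i) * MvPolynomial.X (Sum.inr i)

theorem NF.c4P_deg (N : NF d) (s : Fin d) : (N.c4P s).totalDegree ≤ 1 :=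
  MvPolynomial.totalDegree_finsetSum_le fun i _ =>
    (MvPolynomial.totalDegree_mul _ _).trans (by simp)

theorem NF.c4P_aeval (N : NF d) {Ω : Type} [Field Ω] [Algebra ℂ Ω] (x nn : Ω) (b : Fin d → Ω)
    (s : Fin d) : MvPolynomial.aeval (gens x nn b) (N.c4P s) = N.co b s := by
  simp [NF.c4P, NF.co, gens]

theorem NF.c4P_eval (N : NF d) (l1 l2 : ℤ → ℤ) (g : ℤ → Fin d → ℤ) (κ : ℤ → ℂ) (n : ℤ)
    (s : Fin d) : MvPolynomial.eval (ptv N l1 l2 g κ n) (N.c4P s) = κ n * g n s := by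
  rw [← N.co_emb, NF.co, Finset.mul_sum]
  simp only [NF.c4P, map_sum, map_mul, MvPolynomial.eval_C, MvPolynomial.eval_X, ptv, gens,
    Sum.elim_inr, Algebra.algebraMap_self, RingHom.id_apply]
  exact Finset.sum_congr rfl fun i _ => by ring

/-- A class on which all determinants vanish is small. -/
theorem c4_class {N : NF d} {p q C0 : ℕ} {μ : ℤ} {e1 e2 : Fin d → ℤ} {S : Finset ℤ}
    {l1 l2 : ℤ → ℤ} {g : ℤ → Fin d → ℤ} {Ω : Type} [Field Ω] [Algebra ℂ Ω] {x nn : Ω}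
    {b : Fin d → Ω} {κ : ℤ → ℂ} (hC : CurveCfg N p q μ e1 e2 S l1 l2 g x nn b κ C0)
    (hl2 : ∀ n ∈ S, l2 n ≠ 0) {ι : Type} [Fintype ι] [DecidableEq ι] [Nonempty ι] (a0 b0 J : ℕ)
    (i ρ : ι → ℕ) (mm : ι → Fin d → ℕ) (hρ : ∀ r, ρ r ≤ J)
    (hi : ∀ r, i r ≤ a0 + ρ r * q ∧ ∑ s, mm r s = b0 + ρ r * p)
    (hli : LinearIndependent ℂ fun r => x ^ i r * ∏ s, N.co b s ^ mm r s) (T : Finset ℤ)
    (hT : T ⊆ S) (hdet : ∀ P : ι → ℤ, (∀ r, P r ∈ T) → (Matrix.of fun r r' =>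
      μ ^ (J - ρ r) * rowv 1 l1 l2 g (a0 + ρ r * q) (i r) (mm r) (P r')).det = 0) :
    T.card ≤ C0 * (a0 + J * q + (b0 + J * p)) := by
  obtain ⟨cf, hcf, hrel⟩ := exists_rel_of_det T
    (fun r n => ((μ ^ (J - ρ r) * rowv 1 l1 l2 g (a0 + ρ r * q) (i r) (mm r) n : ℤ) : ℂ))
    fun P hP => by
      have h := congrArg (Int.castRingHom ℂ) (hdet P hP)
      rw [RingHom.map_det, map_zero] at h
      exact h
  refine hC.vg.zero (∑ r, MvPolynomial.C (cf r) *
    (MvPolynomial.X (Sum.inl 0) ^ i r * ∏ s, N.c4P s ^ mm r s)) _ ?_ ?_ T hT fun n hn => ?_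
  · refine MvPolynomial.totalDegree_finsetSum_le fun r _ =>
      (MvPolynomial.totalDegree_mul _ _).trans ?_
    rw [MvPolynomial.totalDegree_C, zero_add]
    refine (MvPolynomial.totalDegree_mul _ _).trans (add_le_add ?_ ?_)
    · rw [MvPolynomial.totalDegree_X_pow]
      exact (hi r).1.trans (by gcongr; exact hρ r)
    · refine (MvPolynomial.totalDegree_finsetProd _ _).trans ?_
      refine le_trans (Finset.sum_le_sum fun s _ => (MvPolynomial.totalDegree_pow _ _).trans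
        ((Nat.mul_le_mul_left _ (N.c4P_deg s)).trans (mul_one _).le)) ?_
      rw [(hi r).2]
      gcongr
      exact hρ r
  · intro h0
    simp only [map_sum, map_mul, map_pow, map_prod, MvPolynomial.aeval_C, MvPolynomial.aeval_X,
      NF.c4P_aeval, ← Algebra.smul_def] at h0
    exact hcf (funext (Fintype.linearIndependent_iff.1 hli cf h0))
  · have h2 : (l2 n : ℂ) ≠ 0 := Int.cast_ne_zero.2 (hl2 n (hT hn))
    have h3 := hC.kap n (hT hn)
    have h4 := congrArg (κ n ^ (b0 + J * p) * ·) (hrel n hn)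
    simp only [mul_zero, Finset.mul_sum] at h4
    refine mul_left_cancel₀ (pow_ne_zero (a0 + J * q) h2) ?_
    rw [mul_zero, ← h4, map_sum, Finset.mul_sum]
    refine Finset.sum_congr rfl fun r _ => ?_
    obtain ⟨t, ht⟩ := Nat.exists_eq_add_of_le (hρ r)
    obtain ⟨k, hk⟩ := Nat.exists_eq_add_of_le (hi r).1
    have e1 : a0 + J * q = i r + k + q * t := by rw [ht, ← hk]; ring
    have e2 : b0 + J * p = ∑ s, mm r s + p * t := by rw [ht, (hi r).2]; ring
    have e3 : J - ρ r = t := by omega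
    have e4 : a0 + ρ r * q - i r = k := by omega
    simp only [map_mul, map_pow, map_prod, MvPolynomial.eval_C, MvPolynomial.eval_X, NF.c4P_eval]
    simp only [rowv, Matrix.one_mulVec, e1, e2, e3, e4, mul_pow, Finset.prod_mul_distrib,
      Finset.prod_pow_eq_pow_sum, pow_add, pow_mul, ← h3, ptv, gens, Sum.elim_inl,
      Matrix.cons_val_zero, div_pow]
    push_cast
    field_simp

theorem c4_der_le (R Z : ℕ) {Y : ℝ} (hY : 2 ≤ Y) (ψ : ℕ → ℕ → ℤ)
    (hψ : ∀ i j, |(ψ i j : ℝ)| ≤ Y ^ Z) {u v w z : ℤ} (hu : |(u : ℝ)| ≤ Y) (hv : |(v : ℝ)| ≤ Y)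
    (hw : |(w : ℝ)| ≤ Y) (hz : |(z : ℝ)| ≤ Y) :
    |((∑ i ∈ Finset.range (R + 1), ∑ j ∈ Finset.range (R + 1),
      j * ψ i j * u ^ i * v ^ (R - i) * w ^ (j - 1) * z ^ (R - j) : ℤ) : ℝ)| ≤ Y ^ (7 * R + Z) := by
  have h1 : (1 : ℝ) ≤ Y := by linarith
  have hR : ((R + 1 : ℕ) : ℝ) ≤ Y ^ R := by
    refine le_trans ?_ (pow_le_pow_left₀ (by norm_num) hY R)
    exact_mod_cast Nat.lt_two_pow_self
  have hp : ∀ {t : ℤ} {k : ℕ}, |(t : ℝ)| ≤ Y → k ≤ R → |(t : ℝ) ^ k| ≤ Y ^ R := fun ht hk => by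
    rw [abs_pow]
    exact (pow_le_pow_left₀ (abs_nonneg _) ht _).trans (pow_le_pow_right₀ h1 hk)
  push_cast
  refine (Finset.abs_sum_le_sum_abs _ _).trans ((Finset.sum_le_card_nsmul _ _
    (Y ^ R * (Y ^ R * Y ^ Z * Y ^ R * Y ^ R * Y ^ R * Y ^ R)) fun i hi => ?_).trans ?_)
  · refine (Finset.abs_sum_le_sum_abs _ _).trans ((Finset.sum_le_card_nsmul _ _
      (Y ^ R * Y ^ Z * Y ^ R * Y ^ R * Y ^ R * Y ^ R) fun j hj => ?_).trans ?_)
    · rw [Finset.mem_range] at hi hj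
      have hj' : |(j : ℝ)| ≤ Y ^ R := by
        rw [Nat.abs_cast]
        exact le_trans (by exact_mod_cast hj.le) hR
      simp only [abs_mul]
      gcongr
      · exact hψ i j
      · exact hp hu (by omega)
      · exact hp hv (by omega)
      · exact hp hw (by omega)
      · exact hp hz (by omega)
    · rw [Finset.card_range, nsmul_eq_mul]
      gcongr
  · rw [Finset.card_range, nsmul_eq_mul]
    refine (mul_le_mul_of_nonneg_right hR (by positivity)).trans (le_of_eq ?_)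
    ring

/-- The curve theorem.  Take `b0, n0, J, T` from `curve_num`, `a0 = CH`, `δ = q cx + p cg`, `H = n0 + J δ`, rows from
`exists_level_rows` with `c = N.co b` (`Wsp_co`, `Rel.Wsp_le`, `HL`).  Choose `s0` with `co b s0 ≠ 0` and discard the
`≤ C0` points with `γ s0 = 0` (`VG.zero`; `κ ≠ 0`).  Functions: `y s = co b s / co b s0` (value `γ s / γ s0`) and
`y ⋆ = 1 / (co b s0)^p` (value `μ / (l2^q γ s0^p)`), index type `σ = Option (Fin d)`.  `exists_int_rel` (with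
`f1 = X_x`, `g1 = 1`, `Y = X^C`) gives `ψ s`; discard the exceptional points.  For each remaining point the
nonzero integer `l2 * γ s0 * ∏ (derivative values)` has size `< X^(C') ≤ (X^π)^K`, so one of the `K` primes of
`exists_primes K (X^π)` does not divide it (`exists_prime_not_dvd`).  For a fixed prime apply `qclass` with
`B = max`-bound `C0 (a0 + J q + b0 + J p)`: the integer rows `μ^(J-ρ) rowv …` equal
`l2^a γ s0^E * x^i ∏ y^m * (y ⋆)^(J-ρ)` with `(a, E) = (a0 + J q, b0 + J p)`, so on a class every determinant is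
divisible by `q^(H(H-1)/2) ≥ X^(π H(H-1)/2)` and smaller by `det_curve` for large `X`, hence zero.
`exists_rel_of_det` gives a relation; the polynomial `∑ cf r X_x^i ∏ (co X_b)^m` is nonzero in `Ω`, and its value at a
point is `κ^E l2^(-a) ∑ cf r row r` (use `κ^p μ = l2^q`); `VG.zero` bounds the class. -/
theorem NF.curve_thm (N : NF d) (p q C0 cx cg CH wn wd : ℕ) (hp : 1 ≤ p) (hwd : 1 ≤ wd)
    (hcx : 1 ≤ cx) (hcg : 1 ≤ cg) (c s1 s2 ϖ Γ Γ0 π : ℝ) (hc : 0 < c) (hϖ : 0 ≤ ϖ) (hΓ : 0 < Γ)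
    (hΓ0 : 0 ≤ Γ0) (hπ : 0 < π) (h : CurveIneq p q cx cg ((wn : ℝ) / wd) s1 s2 ϖ Γ π) :
    ∃ a0 b0 T : ℕ, ∀ Cap : ℝ, ∃ C X0 : ℝ, 0 ≤ C ∧ ∀ X ≥ X0, ∀ (μ : ℤ) (e1 e2 : Fin d → ℤ)
    (S : Finset ℤ) (l1 l2 : ℤ → ℤ) (g : ℤ → Fin d → ℤ), LineCfg N p q c X s1 s2 μ e1 e2 S l1 l2 g →
    ∀ (Ω : Type) [Field Ω] [Algebra ℂ Ω] (x nn : Ω) (b : Fin d → Ω) (κ : ℤ → ℂ),
    CurveCfg N p q μ e1 e2 S l1 l2 g x nn b κ C0 → Transcendental ℂ x → HL x b cx cg CH →
    ApprHyp S l1 l2 g X s1 s2 ϖ Γ Γ0 a0 b0 T Cap → (S.card : ℝ) ≤ C * X ^ π := by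
  classical
  obtain ⟨b0, n0, J, T, hb0, hn0, hΓn, hT, hH1, hnum⟩ :=
    curve_num p q cx cg CH wn wd hwd hcx hcg s1 s2 ϖ Γ Γ0 π hΓ hΓ0 h
  refine ⟨CH, b0, T, fun Cap => ?_⟩
  set δ := q * cx + p * cg with hδ
  obtain ⟨Cd, hCd⟩ := det_curve d p q CH b0 n0 δ J T c ϖ Γ Γ0 Cap hc hϖ hΓ hΓ0 hΓn hT
  obtain ⟨R, Z, hRZ⟩ := exists_int_rel C0 p
  set e₁ : ℝ := (n0 + J * δ : ℕ) * (CH * s1 + b0 * s2) + δ * (q * s1 + p * s2) * (J * (J + 1) / 2)
    - ϖ * ((n0 : ℝ) - Γ0) ^ 2 / (2 * Γ) with he₁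
  set Hh : ℕ := (n0 + J * δ) * (n0 + J * δ - 1) / 2 with hHh
  obtain ⟨X1, hX1⟩ := Filter.eventually_atTop.1
    ((tendsto_rpow_atTop (sub_pos.2 hnum)).eventually_gt_atTop Cd)
  set A : ℕ := ⌈s1⌉₊ + ⌈s2⌉₊ + 1 with hA
  set E' : ℕ := A * (q + p) * (2 + (d + 1) * (7 * R + Z)) with hE'
  set K : ℕ := ⌈E' / π⌉₊ + 1 with hK
  set B : ℕ := C0 * (CH + J * q + (b0 + J * p)) with hB
  refine ⟨C0 + (d + 1) * Z + K * (2 ^ (K + 1) * (R ^ (d + 1) * B)), max X1 (max 2 c⁻¹),
    by positivity, ?_⟩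
  intro X hX μ e1 e2 S l1 l2 g hL Ω _ _ x nn b κ hC hx hHL hAp
  have hXa : X1 ≤ X := (le_max_left _ _).trans hX
  have hX2 : 2 ≤ X := (le_max_left _ _).trans ((le_max_right _ _).trans hX)
  have hXc : c⁻¹ ≤ X := (le_max_right _ _).trans ((le_max_right _ _).trans hX)
  have hX1' : 1 ≤ X := by linarith
  have hXπ : 1 ≤ X ^ π := Real.one_le_rpow hX1' hπ.le
  -- rows
  obtain ⟨i, mm, hi, hli⟩ := exists_level_rows x (N.co b) p q CH b0 n0 δ J
    (fun a E => by rw [N.Wsp_co, N.Wsp_co]; exact hC.rel.Wsp_le a E) fun ρ _ => by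
      have h1 := hHL (CH + ρ * q) (b0 + ρ * p) (by omega) (by omega)
      have h2 : cx * (CH + ρ * q) + cg * (b0 + ρ * p) = cx * CH + cg * b0 + ρ * δ := by
        rw [hδ]; ring
      rw [N.Wsp_co]
      omega
  set ρ : Fin n0 ⊕ (Fin J × Fin δ) → ℕ := fun r => r.elim (fun _ => 0) (fun e => (e.1 : ℕ) + 1)
    with hρ
  have hρJ : ∀ r, ρ r ≤ J := by
    rintro (r | r)
    · exact Nat.zero_le _
    · exact r.1.2
  have hcard : Fintype.card (Fin n0 ⊕ (Fin J × Fin δ)) = n0 + J * δ := by simp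
  have : Nonempty (Fin n0 ⊕ (Fin J × Fin δ)) := Fintype.card_pos_iff.1 (by omega)
  -- the coordinate `s0`
  obtain ⟨s0, hs0⟩ : ∃ s0, N.co b s0 ≠ 0 := by
    by_contra h0
    push Not at h0
    have h1 := N.sum_co b ⟨0, by have := N.four_le; omega⟩
    simp only [h0, mul_zero, Finset.sum_const_zero] at h1
    exact hC.bne _ h1.symm
  have hl2 := hL.l2_ne
  have hκ : ∀ n ∈ S, κ n ≠ 0 := fun n hn h0 => by
    have h1 := hC.kap n hn
    rw [h0, zero_pow (by omega), zero_mul] at h1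
    exact pow_ne_zero q (Int.cast_ne_zero.2 (hl2 n hn)) h1.symm
  have hS0 : (S.filter fun n => g n s0 = 0).card ≤ C0 * 1 :=
    hC.vg.zero (N.c4P s0) 1 (N.c4P_deg s0) (by rwa [N.c4P_aeval]) _ (Finset.filter_subset _ _)
      fun n hn => by rw [N.c4P_eval, (Finset.mem_filter.1 hn).2, Int.cast_zero, mul_zero]
  set S1 := S.filter fun n => ¬g n s0 = 0 with hS1
  have hS1S : S1 ⊆ S := Finset.filter_subset _ _
  -- sizes
  have hY1 : X ≤ X ^ A := le_self_pow₀ hX1' (by omega)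
  have hY2 : X ^ A ≤ (X ^ A) ^ (q + p) := le_self_pow₀ (hX1'.trans hY1) (by omega)
  have hs1 : X ^ s1 ≤ X ^ A := by
    rw [← Real.rpow_natCast]
    refine Real.rpow_le_rpow_of_exponent_le hX1' ((Nat.le_ceil s1).trans ?_)
    exact_mod_cast (by omega)
  have hs2 : X ^ s2 ≤ X ^ A := by
    rw [← Real.rpow_natCast]
    refine Real.rpow_le_rpow_of_exponent_le hX1' ((Nat.le_ceil s2).trans ?_)
    exact_mod_cast (by omega)
  have hgs : ∀ n ∈ S, ∀ s, |(g n s : ℝ)| ≤ X ^ A := fun n hn s => by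
    refine le_trans ?_ ((hL.sz2 n hn).trans hs2)
    rw [← Int.norm_eq_abs]
    exact norm_le_pi_norm (g n) s
  set Y := (X ^ A) ^ (q + p) with hY
  have hY2' : 2 ≤ Y := hX2.trans (hY1.trans hY2)
  set num : Option (Fin d) → ℤ → ℤ := fun o n => o.elim μ fun s => g n s with hnum'
  set den : Option (Fin d) → ℤ → ℤ := fun o n => o.elim (l2 n ^ q * g n s0 ^ p) fun _ => g n s0
    with hden
  have hl1Y : ∀ n ∈ S, |(l1 n : ℝ)| ≤ Y := fun n hn => (hL.l1_le n hn).trans (hs1.trans hY2)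
  have hl2Y : ∀ n ∈ S, |(l2 n : ℝ)| ≤ Y := fun n hn => (hL.sz1 n hn).1.trans (hs1.trans hY2)
  have hnumY : ∀ o, ∀ n ∈ S, |(num o n : ℝ)| ≤ Y := by
    rintro (_ | s) n hn
    · refine le_trans ?_ (hXc.trans (hY1.trans hY2))
      rw [← one_div, le_div_iff₀' hc]
      exact hL.mule
    · exact (hgs n hn s).trans hY2
  have hdenY : ∀ o, ∀ n ∈ S, |(den o n : ℝ)| ≤ Y := by
    rintro (_ | s) n hn
    · simp only [hden, Option.elim_none, Int.cast_mul, Int.cast_pow, abs_mul, abs_pow, hY, pow_add]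
      gcongr
      · exact (hL.sz1 n hn).1.trans hs1
      · exact hgs n hn s0
    · exact (hgs n hn s0).trans hY2
  have hrel := fun o : Option (Fin d) => hRZ (gens x nn b) S1 (ptv N l1 l2 g κ)
    (hC.vg.mono hS1S) (MvPolynomial.X (Sum.inl 0)) 1 (o.elim 1 N.c4P)
    (o.elim (N.c4P s0 ^ p) fun _ => N.c4P s0) (by simpa using hp) (by simp)
    (by
      rcases o with _ | s
      · simp
      · exact (N.c4P_deg s).trans hp)
    (by
      rcases o with _ | s
      · exact (MvPolynomial.totalDegree_pow _ _).trans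
          ((Nat.mul_le_mul_left _ (N.c4P_deg s0)).trans (mul_one _).le)
      · exact (N.c4P_deg s0).trans hp)
    (by simp)
    (by
      rcases o with _ | s
      · simpa only [Option.elim_none, map_pow, N.c4P_aeval] using pow_ne_zero p hs0
      · simpa only [Option.elim_some, N.c4P_aeval] using hs0)
    (by simpa [gens] using hx) Y l1 l2 (num o) (den o) hY2' fun n hn => by
      have hn' := hS1S hn
      have h1 : g n s0 ≠ 0 := (Finset.mem_filter.1 hn).2
      have h2 : (g n s0 : ℂ) ≠ 0 := Int.cast_ne_zero.2 h1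
      have h3 := hκ n hn'
      have h4 := hl2 n hn'
      have h5 : (l2 n : ℂ) ≠ 0 := Int.cast_ne_zero.2 h4
      refine ⟨by simp, ?_, h4, ?_, by simp [ptv, gens, h5], ?_, hl1Y n hn', hl2Y n hn',
        hnumY o n hn', hdenY o n hn'⟩
      · rcases o with _ | s
        · simpa only [Option.elim_none, map_pow, N.c4P_eval] using pow_ne_zero p (mul_ne_zero h3 h2)
        · simpa only [Option.elim_some, N.c4P_eval] using mul_ne_zero h3 h2
      · rcases o with _ | s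
        · exact mul_ne_zero (pow_ne_zero _ h4) (pow_ne_zero _ h1)
        · exact h1
      · rcases o with _ | s
        · simp only [Option.elim_none, map_pow, N.c4P_eval, map_one, hden, hnum', Int.cast_mul,
            Int.cast_pow, ← hC.kap n hn']
          ring
        · simp only [Option.elim_some, N.c4P_eval, hden, hnum']
          ring
  choose ψ Ex hEx hψ hΨ using hrel
  set der : Option (Fin d) → ℤ → ℤ := fun o n => ∑ i ∈ Finset.range (R + 1),
    ∑ j ∈ Finset.range (R + 1),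
      j * ψ o i j * l1 n ^ i * l2 n ^ (R - i) * num o n ^ (j - 1) * den o n ^ (R - j) with hder
  set M : ℤ → ℤ := fun n => l2 n * g n s0 * ∏ o, der o n with hM
  set S2 := S1.filter fun n => ∀ o, n ∉ Ex o with hS2
  obtain ⟨Q, hQK, hQ⟩ := exists_primes K (X ^ π) hXπ
  have hcov : S ⊆ ((S.filter fun n => g n s0 = 0) ∪ Finset.univ.biUnion Ex) ∪
      Q.biUnion fun r => S2.filter fun n => ¬(r : ℤ) ∣ M n := by
    intro n hn
    simp only [Finset.mem_union, Finset.mem_biUnion, Finset.mem_filter, Finset.mem_univ, true_and]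
    by_cases h1 : g n s0 = 0
    · exact Or.inl (Or.inl ⟨hn, h1⟩)
    by_cases h2 : ∃ o, n ∈ Ex o
    · exact Or.inl (Or.inr h2)
    push Not at h2
    have hn1 : n ∈ S1 := Finset.mem_filter.2 ⟨hn, h1⟩
    obtain ⟨r, hr, hr'⟩ := exists_prime_not_dvd Q (X ^ π) hXπ (fun r hr => ⟨(hQ r hr).1, (hQ r hr).2.1⟩)
      (M n) (mul_ne_zero (mul_ne_zero (hl2 n hn) h1)
        (Finset.prod_ne_zero_iff.2 fun o _ => (hΨ o n hn1 (h2 o)).2)) (by
      have h3 : |(M n : ℝ)| ≤ Y * Y * (Y ^ (7 * R + Z)) ^ (d + 1) := by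
        simp only [hM, Int.cast_mul, Int.cast_prod, abs_mul, Finset.abs_prod]
        refine mul_le_mul (mul_le_mul (hl2Y n hn) ((hgs n hn s0).trans hY2) (abs_nonneg _)
          (by linarith)) ?_ (Finset.prod_nonneg fun _ _ => abs_nonneg _) (by positivity)
        refine (Finset.prod_le_prod (fun _ _ => abs_nonneg _) fun o _ => c4_der_le R Z hY2' (ψ o)
          (hψ o) (hl1Y n hn) (hl2Y n hn) (hnumY o n hn) (hdenY o n hn)).trans (by simp)
      refine h3.trans_lt ?_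
      have h4 : Y * Y * (Y ^ (7 * R + Z)) ^ (d + 1) = X ^ (E' : ℝ) := by
        rw [Real.rpow_natCast, hE', hY]
        ring
      rw [h4, hQK, ← Real.rpow_natCast (X ^ π), ← Real.rpow_mul (by linarith)]
      refine Real.rpow_lt_rpow_of_exponent_lt (by linarith) ?_
      rw [← div_lt_iff₀' hπ, hK]
      push_cast
      linarith [Nat.le_ceil ((E' : ℝ) / π)])
    exact Or.inr ⟨r, hr, Finset.mem_filter.2 ⟨hn1, h2⟩, hr'⟩
  have hcls : ∀ r ∈ Q, ((S2.filter fun n => ¬(r : ℤ) ∣ M n).card : ℝ) ≤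
      2 ^ (K + 1) * (R ^ (d + 1) * B) * X ^ π := by
    intro r hr
    obtain ⟨hrp, hr1, hr2⟩ := hQ r hr
    have hrp' : Prime (r : ℤ) := Nat.prime_iff_prime_int.1 hrp
    have hmem : ∀ n ∈ S2.filter fun n => ¬(r : ℤ) ∣ M n, n ∈ S1 ∧ (∀ o, n ∉ Ex o) ∧
        ¬(r : ℤ) ∣ l2 n ∧ ¬(r : ℤ) ∣ g n s0 ∧ ∀ o, ¬(r : ℤ) ∣ der o n := by
      intro n hn
      obtain ⟨h1, h2⟩ := Finset.mem_filter.1 hn
      obtain ⟨h3, h4⟩ := Finset.mem_filter.1 h1
      exact ⟨h3, h4, fun h5 => h2 ((h5.mul_right _).mul_right _),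
        fun h5 => h2 ((h5.mul_left _).mul_right _),
        fun o h5 => h2 ((h5.trans (Finset.dvd_prod_of_mem (fun o => der o n)
          (Finset.mem_univ o))).mul_left _)⟩
    have hq := qclass r R hrp _ l1 l2 num den ψ (fun n hn => (hmem n hn).2.2.1)
      (fun o n hn => by
        rcases o with _ | s
        · intro h5
          rcases hrp'.dvd_or_dvd h5 with h6 | h6
          · exact (hmem n hn).2.2.1 (hrp'.dvd_of_dvd_pow h6)
          · exact (hmem n hn).2.2.2.1 (hrp'.dvd_of_dvd_pow h6)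
        · exact (hmem n hn).2.2.2.1)
      (fun o n hn => (hΨ o n (hmem n hn).1 ((hmem n hn).2.1 o)).1)
      (fun o n hn => (hmem n hn).2.2.2.2 o) B (Nat.cast_nonneg _) fun T' hT' hdiv => by
        have hT'S : T' ⊆ S := fun n hn => hS1S (hmem n (hT' hn)).1
        refine Nat.cast_le.2 (c4_class hC hl2 CH b0 J i ρ mm hρJ hi hli T' hT'S fun P hP => ?_)
        have h1 := hdiv _ P hP (fun r => MvPolynomial.X none ^ i r *
          (∏ s, MvPolynomial.X (some (some s)) ^ mm r s) * MvPolynomial.X (some none) ^ (J - ρ r))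
          (fun n => l2 n ^ (CH + J * q) * g n s0 ^ (b0 + J * p)) (Matrix.of fun r r' =>
            μ ^ (J - ρ r) * rowv 1 l1 l2 g (CH + ρ r * q) (i r) (mm r) (P r')) fun r r' => by
          have h2 : (l2 (P r') : ℚ) ≠ 0 := Int.cast_ne_zero.2 (hl2 _ (hT'S (hP r')))
          have h3 : (g (P r') s0 : ℚ) ≠ 0 :=
            Int.cast_ne_zero.2 (Finset.mem_filter.1 (hmem _ (hT' (hP r'))).1).2
          obtain ⟨t, ht⟩ := Nat.exists_eq_add_of_le (hρJ r)
          obtain ⟨k, hk⟩ := Nat.exists_eq_add_of_le (show i r ≤ CH + ρ r * q from (hi r).1)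
          have e0 : ∑ s, mm r s = b0 + ρ r * p := (hi r).2
          have e1 : CH + J * q = i r + k + q * t := by rw [ht, ← hk]; ring
          have e2 : b0 + J * p = ∑ s, mm r s + p * t := by rw [ht, e0]; ring
          have e3 : J - ρ r = t := by omega
          have e4 : CH + ρ r * q - i r = k := by omega
          simp only [Matrix.of_apply, map_mul, map_pow, map_prod, MvPolynomial.aeval_X,
            Option.elim_none, Option.elim_some, rowv, Matrix.one_mulVec, e1, e2, e3, e4, hnum',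
            hden, div_pow, Finset.prod_div_distrib, Finset.prod_pow_eq_pow_sum, pow_add, pow_mul]
          push_cast
          simp only [mul_pow]
          field_simp
        have h2 := hCd X hX1' N s1 s2 μ e1 e2 S l1 l2 g hL hAp i mm ρ (fun _ => rfl) hi P
          fun r => hT'S (hP r)
        rw [hcard] at h1
        refine Int.eq_zero_of_abs_lt_dvd h1 ?_
        have h3 : Cd * X ^ e₁ < X ^ (π * Hh) := by
          have h4 := mul_lt_mul_of_pos_right (hX1 X hXa) 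
            (Real.rpow_pos_of_pos (show (0 : ℝ) < X by linarith) e₁)
          rwa [← Real.rpow_add (by linarith), sub_add_cancel] at h4
        have h4 : X ^ (π * Hh) ≤ (r : ℝ) ^ Hh := by
          rw [Real.rpow_mul (by linarith), Real.rpow_natCast]
          exact pow_le_pow_left₀ (by linarith) hr1 _
        exact_mod_cast (h2.trans_lt h3).trans_le h4
    rw [Fintype.card_option, Fintype.card_fin] at hq
    refine hq.trans ?_
    calc (r : ℝ) * R ^ (d + 1) * B ≤ 2 ^ (K + 1) * X ^ π * R ^ (d + 1) * B := by gcongr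
      _ = _ := by ring
  have h1 : (Finset.univ.biUnion Ex).card ≤ (d + 1) * Z :=
    (Finset.card_biUnion_le_card_mul _ _ _ fun o _ => hEx o).trans (by simp)
  have h2 : ((Q.biUnion fun r => S2.filter fun n => ¬(r : ℤ) ∣ M n).card : ℝ) ≤
      K * (2 ^ (K + 1) * (R ^ (d + 1) * B) * X ^ π) := by
    refine (Nat.cast_le.2 Finset.card_biUnion_le).trans ?_
    rw [Nat.cast_sum, ← hQK, ← nsmul_eq_mul]
    exact Finset.sum_le_card_nsmul _ _ _ (hQK ▸ hcls)
  have h3 := (Finset.card_le_card hcov).trans ((Finset.card_union_le _ _).trans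
    (Nat.add_le_add_right ((Finset.card_union_le _ _).trans (Nat.add_le_add hS0 h1)) _))
  have h4 : (S.card : ℝ) ≤ C0 + (d + 1) * Z +
      ((Q.biUnion fun r => S2.filter fun n => ¬(r : ℤ) ∣ M n).card : ℝ) := by
    rw [mul_one] at h3
    exact_mod_cast h3
  have h5 : (C0 + (d + 1) * Z : ℝ) ≤ (C0 + (d + 1) * Z) * X ^ π :=
    le_mul_of_one_le_right (by positivity) hXπ
  linarith

end Crest.Agent.R22
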