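import Crest.Agent.R22.Defs

namespace Crest.Agent.R22

open MvPolynomial

/-- Plücker duality.  `Rel * M = 0`; `s, t : κ → α` and `s', t' : ρ → α` are complementary injections.
Let `W_s` be the square matrix with rows `Rel` and the unit rows selecting `s`, and `Q = [M | columns
selecting t']`.  `W_s Q` and `W_t Q` are block triangular; `det W_s = ± det Rel[s']`,
`det W_t = ± det Rel[t']`, `det Q = ± det M[t]`; comparing determinants gives the claim.
(Reindex `α` by `κ ⊕ ρ` through the two equivalences; `Matrix.det_fromBlocks_zero₂₁`.) -/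
theorem det_duality {α κ ρ : Type} [Fintype α] [DecidableEq α] [Fintype κ] [DecidableEq κ]
    [Fintype ρ] [DecidableEq ρ] (Rl : Matrix ρ α ℤ) (M : Matrix α κ ℤ) (h : Rl * M = 0)
    (es et : κ ⊕ ρ ≃ α) :
    |(Rl.submatrix id (fun r => es (Sum.inr r))).det * (M.submatrix (fun k => et (Sum.inl k)) id).det|
      = |(Rl.submatrix id (fun r => et (Sum.inr r))).det *
          (M.submatrix (fun k => es (Sum.inl k)) id).det| := by
  set W : Matrix (κ ⊕ ρ) α ℤ :=
    Matrix.fromRows (Matrix.of fun k a => if a = es (Sum.inl k) then 1 else 0) Rl with hW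
  set Q : Matrix α (κ ⊕ ρ) ℤ :=
    Matrix.fromCols M (Matrix.of fun a r => if a = et (Sum.inr r) then 1 else 0) with hQ
  have h1 : (W * Q).det = (M.submatrix (fun k => es (Sum.inl k)) id).det *
      (Rl.submatrix id (fun r => et (Sum.inr r))).det := by
    rw [hW, hQ, Matrix.fromRows_mul_fromCols, h, Matrix.det_fromBlocks_zero₂₁]
    congr 2
    · ext k k'; simp [Matrix.mul_apply]
    · ext r r'; simp [Matrix.mul_apply]
  have h2 : (W.submatrix id es).det = (Rl.submatrix id (fun r => es (Sum.inr r))).det := by
    have : W.submatrix id es = Matrix.fromBlocks 1 0 (Rl.submatrix id (fun k => es (Sum.inl k)))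
        (Rl.submatrix id (fun r => es (Sum.inr r))) := by
      ext (k | r) (k' | r') <;> simp [hW, Matrix.one_apply, eq_comm]
    rw [this, Matrix.det_fromBlocks_zero₁₂, Matrix.det_one, one_mul]
  have h3 : (Q.submatrix et id).det = (M.submatrix (fun k => et (Sum.inl k)) id).det := by
    have : Q.submatrix et id = Matrix.fromBlocks (M.submatrix (fun k => et (Sum.inl k)) id) 0
        (M.submatrix (fun r => et (Sum.inr r)) id) 1 := by
      ext (k | r) (k' | r') <;> simp [hQ, Matrix.one_apply]
    rw [this, Matrix.det_fromBlocks_zero₁₂, Matrix.det_one, mul_one]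
  have h4 : |(Q.submatrix es id).det| = |(Q.submatrix et id).det| := by
    rw [← Matrix.abs_det_submatrix_equiv_equiv (es.trans et.symm) (Equiv.refl _)
      (Q.submatrix et id)]
    congr 2
    ext i j; simp
  have h5 : W * Q = W.submatrix id es * Q.submatrix es id := by
    rw [Matrix.submatrix_mul_equiv, Matrix.submatrix_id_id]
  rw [mul_comm (Rl.submatrix id (fun r => et (Sum.inr r))).det, ← h1, h5, Matrix.det_mul, abs_mul,
    abs_mul, h4, h2, h3]

/-- `#` monomials of degree `E` in four variables is `C(E+3, 3)` (`Finset.card_piAntidiag`-like lemma,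
`Sym.card_sym_eq_choose`, or a direct induction). -/
theorem card_piAntidiag_four (E : ℕ) :
    6 * (Finset.piAntidiag (Finset.univ : Finset (Fin 4)) E).card = (E + 1) * (E + 2) * (E + 3) := by
  have h1 := Finset.card_finsuppAntidiag_nat_eq_choose (s := (Finset.univ : Finset (Fin 4))) E
  rw [Finset.finsuppAntidiag, Finset.card_map, Finset.card_attach, Finset.card_univ,
    Fintype.card_fin, show 4 + E - 1 = E + 3 by omega, Nat.choose_symm_add] at h1
  have h2 := Nat.descFactorial_eq_factorial_mul_choose (E + 3) 3
  rw [h1, show 6 = Nat.factorial 3 from rfl, ← h2]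
  simp only [Nat.descFactorial_succ, Nat.descFactorial_zero, Nat.sub_zero, mul_one,
    show E + 3 - 2 = E + 1 by omega, show E + 3 - 1 = E + 2 by omega, mul_assoc]

/-- The non-standard monomials of degree `E + 4` are `Z 0 ^ 4` times the monomials of degree `E`. -/
theorem card_Std (E : ℕ) : (Std (E + 4)).card = 2 * (E + 4) ^ 2 + 2 := by
  have h1 := card_piAntidiag_four E
  have h2 := card_piAntidiag_four (E + 4)
  have h3 := Finset.card_filter_add_card_filter_not
    (s := Finset.piAntidiag (Finset.univ : Finset (Fin 4)) (E + 4)) fun m => m 0 < 4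
  have h4 : ((Finset.piAntidiag (Finset.univ : Finset (Fin 4)) (E + 4)).filter
      fun m => ¬ m 0 < 4).card = (Finset.piAntidiag (Finset.univ : Finset (Fin 4)) E).card := by
    refine Finset.card_bij' (fun m _ => m - Pi.single 0 4) (fun m _ => m + Pi.single 0 4) ?_ ?_ ?_ ?_
    · intro m hm
      simp [Finset.mem_piAntidiag, Fin.sum_univ_four] at hm ⊢
      omega
    · intro m hm
      simp [Finset.mem_piAntidiag, Fin.sum_univ_four] at hm ⊢
      omega
    · intro m hm
      simp only [Finset.mem_filter, not_lt] at hm
      funext i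
      fin_cases i <;> simp [hm.2]
    · intro m _
      funext i
      simp
  unfold Std
  rw [h4] at h3
  nlinarith

end Crest.Agent.R22
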