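import Crest.Agent.R22.Defs
import Crest.Agent.R22.DetDiv1

namespace Crest.Agent.R22

open MvPolynomial

namespace DD2

lemma dvd_of_local (a D : ℤ) (h : ∀ l : ℕ, l.Prime → ∃ u : ℤ, ¬ (l : ℤ) ∣ u ∧ a ∣ u * D) :
    a ∣ D := by
  let I : Ideal ℤ := Submodule.comap (LinearMap.mulRight ℤ D) (Ideal.span {a})
  have hI : ∀ u, u ∈ I ↔ a ∣ u * D := fun u => Ideal.mem_span_singleton
  have hg : (Submodule.IsPrincipal.generator I).natAbs = 1 := by
    by_contra hne
    obtain ⟨l, hl, hdvd⟩ := Nat.exists_prime_and_dvd hne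
    obtain ⟨u, hu, hu'⟩ := h l hl
    exact hu ((Int.natCast_dvd.2 hdvd).trans
      ((Submodule.IsPrincipal.mem_iff_generator_dvd I).1 ((hI u).2 hu')))
  have h1 : (1 : ℤ) ∈ I :=
    (Submodule.IsPrincipal.mem_iff_generator_dvd I).2 (Int.isUnit_iff_natAbs_eq.2 hg).dvd
  simpa using (hI 1).1 h1

lemma det_tri {ρ : Type} [Fintype ρ] [DecidableEq ρ] (T : Matrix ρ ρ ℤ) (b : ρ → ℕ) (c : ℤ)
    (hd : ∀ i, T i i = c) (h : ∀ i j, T i j ≠ 0 → i = j ∨ b j < b i) :
    T.det = c ^ Fintype.card ρ := by
  rw [Matrix.det_apply, Finset.sum_eq_single (1 : Equiv.Perm ρ)]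
  · simp [hd]
  · intro σ _ hσ
    have : ∃ i, T (σ i) i = 0 := by
      by_contra hne
      push Not at hne
      obtain ⟨i, hi⟩ : ∃ i, σ i ≠ i := by
        by_contra h'
        push Not at h'
        exact hσ (Equiv.ext h')
      have h1 : ∑ i, b i < ∑ i, b (σ i) := by
        refine Finset.sum_lt_sum (fun j _ => ?_) ⟨i, Finset.mem_univ _, ?_⟩
        · rcases h _ _ (hne j) with h' | h'
          · rw [h']
          · exact h'.le
        · exact (h _ _ (hne i)).resolve_left hi
      rw [Equiv.sum_comp σ b] at h1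
      exact lt_irrefl _ h1
    obtain ⟨i, hi⟩ := this
    have h0 : ∏ i, T (σ i) i = 0 := Finset.prod_eq_zero (Finset.mem_univ i) hi
    rw [h0, smul_zero]
  · simp

lemma exists_minor {ρ α K : Type} [Field K] [Fintype ρ] [Fintype α] [DecidableEq ρ]
    (A : Matrix ρ α K) (h : LinearIndependent K A.row) :
    ∃ t : ρ → α, Function.Injective t ∧ (A.submatrix id t).det ≠ 0 := by
  have h1 := h.rank_matrix
  rw [Matrix.rank_eq_finrank_span_cols] at h1
  obtain ⟨f, hf, -, hli⟩ := Submodule.exists_fun_fin_finrank_span_eq K (Set.range A.col)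
  choose a ha using hf
  let e : ρ ≃ Fin (Module.finrank K (Submodule.span K (Set.range A.col))) :=
    Fintype.equivFinOfCardEq h1.symm
  have hli' : LinearIndependent K (A.submatrix id (a ∘ e)).col := by
    have : (A.submatrix id (a ∘ e)).col = f ∘ e := by
      funext r
      rw [Function.comp_apply, ← ha]
      rfl
    rw [this]
    exact hli.comp e e.injective
  refine ⟨a ∘ e, ?_, ?_⟩
  · intro r r' hr
    apply hli'.injective
    funext i
    exact congrArg (A i) hr
  · rw [Matrix.linearIndependent_cols_iff_isUnit, Matrix.isUnit_iff_isUnit_det] at hli'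
    exact hli'.ne_zero

/-- exponent vectors as finitely supported functions -/
noncomputable def fs (m : Fin 4 → ℕ) : Fin 4 →₀ ℕ := Finsupp.equivFunOnFinite.symm m

@[simp] lemma fs_apply (m : Fin 4 → ℕ) (i : Fin 4) : fs m i = m i := rfl

lemma fs_coe (d : Fin 4 →₀ ℕ) : fs d = d := by ext i; rfl

lemma fs_inj : Function.Injective fs := Finsupp.equivFunOnFinite.symm.injective

/-- monomials of degree `n` -/
abbrev Mon (n : ℕ) : Finset (Fin 4 → ℕ) := Finset.piAntidiag (Finset.univ : Finset (Fin 4)) n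

lemma mem_Mon {n : ℕ} {m : Fin 4 → ℕ} : m ∈ Mon n ↔ ∑ i, m i = n := by
  simp [Finset.mem_piAntidiag]

lemma sum_eq_of_coeff {K : Type} [CommRing K] {F : MvPolynomial (Fin 4) K} {n : ℕ}
    (hF : F.IsHomogeneous n) {d : Fin 4 →₀ ℕ} (hd : coeff d F ≠ 0) : ∑ i, d i = n := by
  by_contra hne
  exact hd (hF.coeff_eq_zero (by rwa [Finsupp.degree_eq_sum]))

lemma eval_hom {F : MvPolynomial (Fin 4) ℤ} {n : ℕ} (hF : F.IsHomogeneous n) (z : Fin 4 → ℤ) :
    ∑ m : Mon n, coeff (fs m) F * ∏ s, z s ^ (m : Fin 4 → ℕ) s = eval z F := by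
  classical
  rw [Finset.sum_coe_sort (Mon n) (fun m => coeff (fs m) F * ∏ s, z s ^ m s), eval_eq']
  have e : ∑ m ∈ Mon n, coeff (fs m) F * ∏ s, z s ^ m s =
      ∑ d ∈ (Mon n).image fs, coeff d F * ∏ s, z s ^ d s := by
    rw [Finset.sum_image fun _ _ _ _ h => fs_inj h]
    rfl
  rw [e]
  symm
  refine Finset.sum_subset (fun d hd => ?_) fun d _ hd => ?_
  · exact Finset.mem_image.2 ⟨d, mem_Mon.2 (sum_eq_of_coeff hF (mem_support_iff.1 hd)), fs_coe d⟩
  · rw [notMem_support_iff.1 hd, zero_mul]

lemma isHom_mon {K : Type} [CommRing K] {n : ℕ} (r : Mon n) (c : K) :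
    (monomial (fs r) c : MvPolynomial (Fin 4) K).IsHomogeneous n :=
  isHomogeneous_monomial c (by rw [Finsupp.degree_eq_sum]; exact mem_Mon.1 r.2)

/-- the matrix of multiplication by `G` -/
noncomputable def Rm {K : Type} [CommRing K] (E : ℕ) (G : MvPolynomial (Fin 4) K) :
    Matrix (Mon E) (Mon (E + 4)) K :=
  Matrix.of fun r m => coeff (fs m) (G * monomial (fs r) 1)

lemma Rm_indep {K : Type} [Field K] (E : ℕ) (G : MvPolynomial (Fin 4) K) (hG : G.IsHomogeneous 4)
    (h0 : G ≠ 0) : LinearIndependent K (Rm E G).row := by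
  classical
  rw [Fintype.linearIndependent_iff]
  intro c hc
  set H : MvPolynomial (Fin 4) K := ∑ r : Mon E, monomial (fs r) (c r) with hH
  have hHh : H.IsHomogeneous E := IsHomogeneous.sum _ _ _ fun r _ => isHom_mon r _
  have hGH : G * H = 0 := by
    ext d
    by_contra hd
    have hd' : coeff d (G * H) ≠ 0 := by simpa using hd
    have h1 := sum_eq_of_coeff (hG.mul hHh) hd'
    have h2 := congrFun hc ⟨d, mem_Mon.2 (by omega)⟩
    apply hd'
    rw [hH, Finset.mul_sum, coeff_sum]
    rw [Finset.sum_apply] at h2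
    refine Eq.trans (Finset.sum_congr rfl fun r _ => ?_) h2
    simp only [Pi.smul_apply, Matrix.row, Rm, Matrix.of_apply, fs_coe, smul_eq_mul]
    rw [show (monomial (fs r) (c r) : MvPolynomial (Fin 4) K) = C (c r) * monomial (fs r) 1 by
      rw [C_mul_monomial, mul_one], mul_left_comm, coeff_C_mul]
  have hH0 : H = 0 := (mul_eq_zero.1 hGH).resolve_left h0
  intro r
  have h3 := congrArg (coeff (fs r)) hH0
  rw [hH, coeff_sum, Finset.sum_eq_single r] at h3
  · simpa using h3
  · intro r' _ hr'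
    rw [coeff_monomial, if_neg fun h => hr' (Subtype.ext (fs_inj h))]
  · simp

/-- standard monomials and multiples of `Z 0 ^ 4` -/
def esFun (E : ℕ) : Std (E + 4) ⊕ Mon E → Mon (E + 4) :=
  Sum.elim (fun k => ⟨k.1, (Finset.mem_filter.1 k.2).1⟩)
    (fun r => ⟨fun i => r.1 i + if i = 0 then 4 else 0, by
      have := mem_Mon.1 r.2
      rw [mem_Mon, Finset.sum_add_distrib, this]
      simp⟩)

lemma esFun_bij (E : ℕ) : Function.Bijective (esFun E) := by
  constructor
  · rintro (k | r) (k' | r') h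
    · exact congrArg Sum.inl (Subtype.ext (congrArg Subtype.val h :))
    · have h1 := congrFun (congrArg Subtype.val h) 0
      have h2 := (Finset.mem_filter.1 k.2).2
      simp [esFun] at h1
      omega
    · have h1 := congrFun (congrArg Subtype.val h) 0
      have h2 := (Finset.mem_filter.1 k'.2).2
      simp [esFun] at h1
      omega
    · refine congrArg Sum.inr (Subtype.ext (funext fun i => ?_))
      have h1 := congrFun (congrArg Subtype.val h) i
      simpa [esFun] using h1
  · intro m
    by_cases h : m.1 0 < 4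
    · exact ⟨Sum.inl ⟨m.1, Finset.mem_filter.2 ⟨m.2, h⟩⟩, rfl⟩
    · refine ⟨Sum.inr ⟨fun i => m.1 i - if i = 0 then 4 else 0, ?_⟩, Subtype.ext (funext fun i => ?_)⟩
      · have := mem_Mon.1 m.2
        rw [mem_Mon]
        simp only [Fin.sum_univ_four] at this ⊢
        simp
        omega
      · simp only [esFun, Sum.elim_inr]
        split_ifs with hi
        · subst hi; omega
        · simp

lemma det_top (E : ℕ) (G0 : MvPolynomial (Fin 4) ℤ) (hG : G0.IsHomogeneous 4) :
    ((Rm E G0).submatrix id (fun r => esFun E (Sum.inr r))).det =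
      G0.coeff (Finsupp.single 0 4) ^ (Mon E).card := by
  rw [← Fintype.card_coe]
  refine det_tri _ (fun r => r.1 0) _ (fun r => ?_) fun r r' h => ?_
  · simp only [Matrix.submatrix_apply, id, Rm, Matrix.of_apply]
    have e : fs (esFun E (Sum.inr r)) = Finsupp.single 0 4 + fs r := by
      ext i
      simp only [fs_apply, esFun, Sum.elim_inr, Finsupp.add_apply, Finsupp.single_apply, add_comm,
        eq_comm]
    rw [e, coeff_mul_monomial, mul_one]
  · simp only [Matrix.submatrix_apply, id, Rm, Matrix.of_apply] at h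
    rw [coeff_mul_monomial'] at h
    split_ifs at h with hle
    · rw [mul_one] at h
      have h1 := sum_eq_of_coeff hG h
      have h2 := fun i => hle i
      have a0 := h2 0
      have a1 := h2 1
      have a2 := h2 2
      have a3 := h2 3
      simp only [Fin.sum_univ_four, Finsupp.tsub_apply, fs_apply, esFun, Sum.elim_inr] at h1 a0 a1 a2 a3
      simp at h1 a0 a1 a2 a3
      by_cases hlt : r'.1 0 < r.1 0
      · exact Or.inr hlt
      · left
        refine Subtype.ext (funext fun i => ?_)
        fin_cases i <;> simp <;> omega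
    · exact absurd rfl h

end DD2

/-- The determinant of the standard monomials at points of `G0 = 0` is divisible by a large power of the
coefficient `c0` of `Z 0 ^ 4`.  `α` = monomials of degree `E + 4`, `ρ` = monomials of degree `E`, `Rl` = matrix
of multiplication by `G0`, `M` = values of all monomials at the points.  The minor of `Rl` on the monomials
divisible by `Z 0 ^ 4` is triangular (order by the exponent of `Z 0`; `Matrix.BlockTriangular.det` or
induction) with diagonal `c0`.  For a prime `l`, multiplication by `G0 mod l ≠ 0` is injective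
(`MvPolynomial (Fin 4) (ZMod l)` is a domain), so the rows of `Rl mod l` are independent and some maximal
minor `Rl[t']` is prime to `l`; `det_duality` gives `c0^N' ∣ det Rl[t'] * det M[std]`.  Conclude prime power
by prime power (`Int.dvd_iff_prime_pow_dvd…` / `Nat.dvd_iff_prime_pow_dvd_dvd`); the case `c0 = 0` needs
`det M[std] = 0` when `N' > 0`, which follows in the same way (`0 ∣ …`) from one prime `l`. -/
theorem det_std_dvd (E : ℕ) (G0 : MvPolynomial (Fin 4) ℤ) (hG : G0.IsHomogeneous 4)
    (hprim : ∀ l : ℕ, l.Prime → ∃ e, ¬ (l : ℤ) ∣ G0.coeff e)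
    (hc : G0.coeff (Finsupp.single 0 4) ≠ 0) (Z : Std (E + 4) → Fin 4 → ℤ)
    (hZ : ∀ P, eval (Z P) G0 = 0) :
    G0.coeff (Finsupp.single 0 4) ^ (Finset.piAntidiag (Finset.univ : Finset (Fin 4)) E).card ∣
      (Matrix.of fun r P : Std (E + 4) => ∏ s, Z P s ^ (r : Fin 4 → ℕ) s).det := by
  classical
  let M : Matrix (DD2.Mon (E + 4)) (Std (E + 4)) ℤ :=
    Matrix.of fun m P => ∏ s, Z P s ^ (m : Fin 4 → ℕ) s
  have hRM : DD2.Rm E G0 * M = 0 := by
    ext r P
    have h1 := DD2.eval_hom (n := E + 4) (F := G0 * monomial (DD2.fs r) 1)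
      (by rw [add_comm]; exact hG.mul (DD2.isHom_mon r 1)) (Z P)
    rw [map_mul, hZ, zero_mul] at h1
    exact h1
  let es : Std (E + 4) ⊕ DD2.Mon E ≃ DD2.Mon (E + 4) := Equiv.ofBijective _ (DD2.esFun_bij E)
  refine DD2.dvd_of_local _ _ fun l hl => ?_
  have : Fact l.Prime := ⟨hl⟩
  have hG' : (map (Int.castRingHom (ZMod l)) G0).IsHomogeneous 4 := hG.map _
  have hG0 : map (Int.castRingHom (ZMod l)) G0 ≠ 0 := by
    obtain ⟨e, he⟩ := hprim l hl
    intro h
    apply he
    have h1 := congrArg (coeff e) h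
    rw [coeff_map] at h1
    exact (ZMod.intCast_zmod_eq_zero_iff_dvd _ _).1 (by simpa using h1)
  obtain ⟨t, ht, hdet⟩ := DD2.exists_minor _ (DD2.Rm_indep E _ hG' hG0)
  obtain ⟨π, hπ⟩ := Equiv.Perm.exists_extending_pair (f := fun r => es (Sum.inr r)) (g := t)
    (es.injective.comp Sum.inr_injective) ht
  have hdual := det_duality (DD2.Rm E G0) M hRM es (es.trans π)
  have e1 : (fun r => es (Sum.inr r)) = fun r => DD2.esFun E (Sum.inr r) := rfl
  have e2 : (fun r => (es.trans π) (Sum.inr r)) = t := funext fun r => hπ r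
  rw [e1, e2, DD2.det_top E G0 hG] at hdual
  refine ⟨((DD2.Rm E G0).submatrix id t).det, fun hdvd => hdet ?_, ?_⟩
  · have h1 := (ZMod.intCast_zmod_eq_zero_iff_dvd _ _).2 hdvd
    have h2 := (Int.castRingHom (ZMod l)).map_det ((DD2.Rm E G0).submatrix id t)
    rw [eq_intCast, h1] at h2
    rw [h2]
    congr 1
    ext r r'
    simp only [Matrix.submatrix_apply, id, DD2.Rm, Matrix.of_apply, RingHom.mapMatrix_apply,
      Matrix.map_apply]
    rw [← coeff_map (Int.castRingHom (ZMod l)), map_mul, map_monomial,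
      (Int.castRingHom (ZMod l)).map_one]
  · have h1 : G0.coeff (Finsupp.single 0 4) ^ (DD2.Mon E).card ∣
        ((DD2.Rm E G0).submatrix id t).det * (M.submatrix (fun k => es (Sum.inl k)) id).det := by
      rw [← dvd_abs, ← hdual, dvd_abs]
      exact Dvd.intro _ rfl
    exact h1

end Crest.Agent.R22
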