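import Crest.Agent.R22.Defs

namespace Crest.Agent.R22

open Polynomial

/-- At most `o` classes suffice for `f` modulo `l ^ e`. -/
private def disc2Q (l e : ℕ) (f : ℤ[X]) (o : ℕ) : Prop :=
  ∃ (S : Finset ℕ) (cl : ℤ → ℕ), S.card ≤ o ∧ ∀ t : ℤ, (l : ℤ) ^ e ∣ f.eval t → cl t ∈ S ∧
    ∀ t' : ℤ, (l : ℤ) ^ e ∣ f.eval t' → cl t = cl t' →
      (l : ℤ) ^ e ∣ (t - t') * (derivative f).eval t

private theorem disc2_mono {l e : ℕ} {f : ℤ[X]} {o o' : ℕ} (h : disc2Q l e f o) (ho : o ≤ o') :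
    disc2Q l e f o' := by
  obtain ⟨S, cl, h1, h2⟩ := h
  exact ⟨S, cl, h1.trans ho, h2⟩

private theorem disc2_big {l e s : ℕ} (g : ℤ[X]) (hs : e ≤ s) :
    disc2Q l e (C (l : ℤ) ^ s * g) 1 := by
  refine ⟨{0}, fun _ => 0, by simp, fun t _ => ⟨by simp, fun t' _ _ => ?_⟩⟩
  rw [← C_pow, derivative_C_mul, eval_mul, eval_C]
  exact Dvd.dvd.mul_left (Dvd.dvd.mul_right (pow_dvd_pow _ hs) _) _

private theorem disc2_scale {l e s o : ℕ} (hl : l ≠ 0) (g : ℤ[X]) (hs : s ≤ e)
    (h : disc2Q l (e - s) g o) : disc2Q l e (C (l : ℤ) ^ s * g) o := by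
  obtain ⟨S, cl, h1, h2⟩ := h
  have hl' : (l : ℤ) ^ s ≠ 0 := pow_ne_zero _ (by exact_mod_cast hl)
  have he : (l : ℤ) ^ e = (l : ℤ) ^ s * (l : ℤ) ^ (e - s) := by
    rw [← pow_add, Nat.add_sub_cancel' hs]
  have key : ∀ t : ℤ, (l : ℤ) ^ e ∣ (C (l : ℤ) ^ s * g).eval t → (l : ℤ) ^ (e - s) ∣ g.eval t := by
    intro t ht
    rw [← C_pow, eval_mul, eval_C, he] at ht
    exact (mul_dvd_mul_iff_left hl').1 ht
  refine ⟨S, cl, h1, fun t ht => ⟨(h2 t (key t ht)).1, fun t' ht' hc => ?_⟩⟩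
  have := (h2 t (key t ht)).2 t' (key t' ht') hc
  rw [← C_pow, derivative_C_mul, eval_mul, eval_C, he, mul_left_comm]
  exact mul_dvd_mul_left _ this

private theorem disc2_map_ne {l : ℕ} {g : ℤ[X]} (h : ¬ C (l : ℤ) ∣ g) :
    g.map (Int.castRingHom (ZMod l)) ≠ 0 := by
  intro h0
  apply h
  rw [C_dvd_iff_dvd_coeff]
  intro i
  have := congrArg (fun p => coeff p i) h0
  simpa [coeff_map, ZMod.intCast_zmod_eq_zero_iff_dvd] using this

private theorem disc2_factor {l : ℕ} (hl : l.Prime) {f : ℤ[X]} (hf : f ≠ 0) :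
    ∃ (s : ℕ) (g : ℤ[X]), ¬ C (l : ℤ) ∣ g ∧ f = C (l : ℤ) ^ s * g := by
  apply WfDvdMonoid.max_power_factor' hf
  rw [isUnit_C, Int.isUnit_iff_natAbs_eq]
  simpa using hl.ne_one

private theorem disc2_step {l e : ℕ} (hl : l.Prime) (he : 1 ≤ e)
    (ih : ∀ e' < e, 1 ≤ e' → ∀ g : ℤ[X], g.map (Int.castRingHom (ZMod l)) ≠ 0 →
      disc2Q l e' g (g.map (Int.castRingHom (ZMod l))).natDegree)
    (h : ℤ[X]) (o : ℕ) (ho : ¬ (l : ℤ) ∣ h.coeff o) (h0 : 1 ≤ o → (l : ℤ) ∣ h.coeff 0) :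
    disc2Q l e (h.comp (C (l : ℤ) * X)) o := by
  have hl0 : (l : ℤ) ≠ 0 := by exact_mod_cast hl.ne_zero
  rcases Nat.eq_zero_or_pos o with rfl | hpos
  · refine ⟨∅, fun _ => 0, le_rfl, fun t ht => ?_⟩
    exfalso
    apply ho
    have h1 : (l : ℤ) ∣ h.eval ((l : ℤ) * t) := by
      have := (dvd_pow_self (l : ℤ) (by omega : e ≠ 0)).trans ht
      simpa [eval_comp] using this
    have h2 : (l : ℤ) ∣ h.eval ((l : ℤ) * t) - h.eval 0 :=
      (Dvd.intro t (by ring)).trans (sub_dvd_eval_sub ((l : ℤ) * t) 0 h)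
    rw [coeff_zero_eq_eval_zero]
    have := dvd_sub h1 h2
    simpa using this
  have hne : h.comp (C (l : ℤ) * X) ≠ 0 := by
    intro h1
    have := congrArg (fun p => coeff p o) h1
    simp only [comp_C_mul_X_coeff, coeff_zero, mul_eq_zero, pow_eq_zero_iff', hl0, false_and,
      or_false] at this
    exact ho (this ▸ dvd_zero _)
  obtain ⟨s, g, hg, hfg⟩ := disc2_factor hl hne
  have hc : ∀ j, h.coeff j * (l : ℤ) ^ j = (l : ℤ) ^ s * g.coeff j := by
    intro j
    have := congrArg (fun p => coeff p j) hfg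
    simpa only [comp_C_mul_X_coeff, ← C_pow, coeff_C_mul] using this
  have hso : s ≤ o := by
    by_contra hlt
    push Not at hlt
    apply ho
    have h1 : (l : ℤ) ^ o * (l : ℤ) ∣ (l : ℤ) ^ o * h.coeff o := by
      rw [← pow_succ, mul_comm, hc o]
      exact Dvd.dvd.mul_right (pow_dvd_pow _ hlt) _
    exact (mul_dvd_mul_iff_left (pow_ne_zero _ hl0)).1 h1
  have hs1 : 1 ≤ s := by
    by_contra hlt
    have hs0 : s = 0 := by omega
    subst hs0
    apply hg
    rw [C_dvd_iff_dvd_coeff]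
    intro j
    have := hc j
    rw [pow_zero, one_mul] at this
    rw [← this]
    rcases Nat.eq_zero_or_pos j with rfl | hj
    · exact Dvd.dvd.mul_right (h0 hpos) _
    · exact Dvd.dvd.mul_left (dvd_pow_self _ hj.ne') _
  have hdeg : (g.map (Int.castRingHom (ZMod l))).natDegree ≤ o := by
    rw [natDegree_le_iff_coeff_eq_zero]
    intro j hj
    have h1 : (l : ℤ) ^ s * (l : ℤ) ∣ (l : ℤ) ^ s * g.coeff j := by
      rw [← pow_succ, ← hc j]
      exact Dvd.dvd.mul_left (pow_dvd_pow _ (by omega)) _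
    have h2 := (mul_dvd_mul_iff_left (pow_ne_zero _ hl0)).1 h1
    simpa [coeff_map, ZMod.intCast_zmod_eq_zero_iff_dvd] using h2
  rw [hfg]
  rcases le_or_gt e s with hes | hes
  · exact disc2_mono (disc2_big g hes) hpos
  · exact disc2_scale hl.ne_zero g hes.le
      (disc2_mono (ih (e - s) (by omega) (by omega) g (disc2_map_ne hg)) hdeg)

private theorem disc2_main {l : ℕ} (hl : l.Prime) (e : ℕ) : 1 ≤ e → ∀ f : ℤ[X],
    f.map (Int.castRingHom (ZMod l)) ≠ 0 →
      disc2Q l e f (f.map (Int.castRingHom (ZMod l))).natDegree := by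
  induction e using Nat.strong_induction_on with
  | _ e ih =>
  intro he f hf
  classical
  have : Fact l.Prime := ⟨hl⟩
  have hl0 : (l : ℤ) ≠ 0 := by exact_mod_cast hl.ne_zero
  set fb := f.map (Int.castRingHom (ZMod l)) with hfb
  have hQ : ∀ a : ZMod l, disc2Q l e ((taylor (a.val : ℤ) f).comp (C (l : ℤ) * X))
      (rootMultiplicity a fb) := by
    intro a
    have hmap : (taylor (a.val : ℤ) f).map (Int.castRingHom (ZMod l)) = fb.comp (X + C a) := by
      rw [taylor_apply, map_comp, Polynomial.map_add, map_X, map_C]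
      simp [hfb]
    have hne : fb.comp (X + C a) ≠ 0 := by
      rw [← taylor_apply]
      exact fun h => hf (taylor_injective a (by simpa using h))
    have hco : ∀ j, (fb.comp (X + C a)).coeff j = 0 ↔ (l : ℤ) ∣ (taylor (a.val : ℤ) f).coeff j := by
      intro j
      rw [← hmap, coeff_map]
      exact ZMod.intCast_zmod_eq_zero_iff_dvd _ _
    apply disc2_step hl he ih
    · rw [← hco, rootMultiplicity_eq_natTrailingDegree]
      exact trailingCoeff_nonzero_iff_nonzero.2 hne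
    · intro h1
      rw [← hco]
      rw [rootMultiplicity_eq_natTrailingDegree] at h1
      exact coeff_eq_zero_of_lt_natTrailingDegree h1
  choose S cl hS hcl using hQ
  have hdec : ∀ t : ℤ, (l : ℤ) * ((t - ((t : ZMod l).val : ℤ)) / l) + ((t : ZMod l).val : ℤ) = t := by
    intro t
    have : (l : ℤ) ∣ t - ((t : ZMod l).val : ℤ) := by
      rw [← ZMod.intCast_zmod_eq_zero_iff_dvd]
      simp
    rw [Int.mul_ediv_cancel' this]
    ring
  have hev : ∀ (a : ZMod l) (u : ℤ), ((taylor (a.val : ℤ) f).comp (C (l : ℤ) * X)).eval u =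
      f.eval ((l : ℤ) * u + (a.val : ℤ)) := by
    intro a u
    simp [eval_comp, taylor_eval]
  have hder : ∀ (a : ZMod l) (u : ℤ),
      (derivative ((taylor (a.val : ℤ) f).comp (C (l : ℤ) * X))).eval u =
      l * (derivative f).eval ((l : ℤ) * u + (a.val : ℤ)) := by
    intro a u
    generalize (a.val : ℤ) = b
    simp [derivative_comp, eval_comp, taylor_apply, -eq_intCast]
  refine ⟨Finset.univ.biUnion fun a : ZMod l => (S a).image (Nat.pair a.val),
    fun t => Nat.pair (t : ZMod l).val (cl (t : ZMod l) ((t - ((t : ZMod l).val : ℤ)) / l)), ?_, ?_⟩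
  · calc _ ≤ ∑ a : ZMod l, ((S a).image (Nat.pair a.val)).card := Finset.card_biUnion_le
      _ ≤ ∑ a : ZMod l, rootMultiplicity a fb :=
          Finset.sum_le_sum fun a _ => Finset.card_image_le.trans (hS a)
      _ = ∑ a : ZMod l, fb.roots.count a := by simp only [count_roots]
      _ = fb.roots.card := Multiset.sum_count_eq_card fun a _ => Finset.mem_univ a
      _ ≤ fb.natDegree := card_roots' fb
  · intro t ht
    have h1 := hcl (t : ZMod l) ((t - ((t : ZMod l).val : ℤ)) / l) (by rw [hev, hdec]; exact ht)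
    refine ⟨Finset.mem_biUnion.2 ⟨(t : ZMod l), Finset.mem_univ _,
      Finset.mem_image_of_mem _ h1.1⟩, fun t' ht' hc => ?_⟩
    obtain ⟨hc1, hc2⟩ := Nat.pair_eq_pair.1 hc
    have ha : (t' : ZMod l) = (t : ZMod l) := (ZMod.val_injective l hc1).symm
    have hd' := hdec t'
    rw [ha] at hc2 hd'
    have h2 := h1.2 ((t' - ((t : ZMod l).val : ℤ)) / l) (by rw [hev, hd']; exact ht') hc2
    rw [hder, hdec] at h2
    convert h2 using 1
    have hd := hdec t
    linear_combination (-(derivative f).eval t) * (hd - hd')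

/-- `ℓ`-adic discs.  Prove the stronger claim by induction on `e - s`: if `f = ℓ^s f0`, `s < e`, and
`f0 mod ℓ` is nonzero of degree `≤ o`, then `≤ o` sets suffice (if `ℓ^e` divides all coefficients one set
suffices).  For each root `a` of `f0 mod ℓ`, of multiplicity `o_a ≥ 1` (`∑ o_a ≤ o`), put
`f_a(T) = f(a + ℓ T)`.  The coefficient of `T^j` in `f0(a + ℓ T)` is `ℓ^j (taylor a f0).coeff j`: divisible by
`ℓ` for all `j`, of valuation exactly `o_a` for `j = o_a`, and `> o_a` for `j > o_a`; so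
`f_a = ℓ^(s') f0'` with `s' > s` and `f0' mod ℓ` nonzero of degree `≤ o_a` (or `s' ≥ e`).  For `t = a + ℓ u`,
`t' = a + ℓ u'`: `(t - t') f'(t) = (u - u') f_a'(u)`. -/
theorem exists_discs (l e D : ℕ) (hl : l.Prime) (f : ℤ[X]) (hf : f.natDegree ≤ D) :
    ∃ cl : ℤ → Fin (D + 1), ∀ t t' : ℤ, (l : ℤ) ^ e ∣ f.eval t → (l : ℤ) ^ e ∣ f.eval t' →
      cl t = cl t' → (l : ℤ) ^ e ∣ (t - t') * (derivative f).eval t := by
  classical
  have hQ : disc2Q l e f (D + 1) := by
    rcases eq_or_ne f 0 with rfl | hf0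
    · exact ⟨{0}, fun _ => 0, by simp, fun t _ => ⟨by simp, fun t' _ _ => by simp⟩⟩
    obtain ⟨s, g, hg, hfg⟩ := disc2_factor hl hf0
    have hg0 : g ≠ 0 := fun h => hg (h ▸ dvd_zero _)
    have hdeg : g.natDegree ≤ D :=
      (natDegree_le_of_dvd (Dvd.intro_left _ hfg.symm) hf0).trans hf
    rw [hfg]
    rcases le_or_gt e s with hes | hes
    · exact disc2_mono (disc2_big g hes) (by omega)
    · exact disc2_scale hl.ne_zero g hes.le
        (disc2_mono (disc2_main hl (e - s) (by omega) g (disc2_map_ne hg))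
          (natDegree_map_le.trans (by omega)))
  obtain ⟨S, cl, hS, h⟩ := hQ
  obtain ⟨ι⟩ : Nonempty (S ↪ Fin (D + 1)) :=
    Function.Embedding.nonempty_of_card_le (by simpa using hS)
  refine ⟨fun t => if ht : cl t ∈ S then ι ⟨cl t, ht⟩ else 0, fun t t' ht ht' hc => ?_⟩
  apply (h t ht).2 t' ht'
  simp only [dif_pos (h t ht).1, dif_pos (h t' ht').1] at hc
  exact congrArg Subtype.val (ι.injective hc)

end Crest.Agent.R22
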