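import Crest.Agent.R22.Defs
import Crest.Agent.R22.Disc2

namespace Crest.Agent.R22

open Polynomial

theorem disc3_homD (D : ℕ) (a : ℕ → ℤ) (t1 t2 σ1 σ2 : ℤ) :
    homD D a t1 t2 σ1 σ2 = ∑ j ∈ Finset.range (D + 1), a j *
      (j * σ1 * t1 ^ (j - 1) * t2 ^ (D - j) + ((D - j : ℕ) : ℤ) * σ2 * t1 ^ j * t2 ^ (D - j - 1)) := by
  unfold homD hom
  have e : ∀ P : ℤ[X], P.coeff 1 = (derivative P).eval 0 := fun P => by
    rw [← coeff_zero_eq_eval_zero, coeff_derivative]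
    simp
  rw [e, derivative_sum, eval_finsetSum]
  refine Finset.sum_congr rfl fun j _ => ?_
  simp [derivative_mul, derivative_pow]
  ring

theorem disc3_swap {R : Type} [CommRing R] (D : ℕ) (a : ℕ → ℤ) (t1 t2 : R) :
    hom D a t1 t2 = hom D (fun j => a (D - j)) t2 t1 := by
  unfold hom
  rw [← Finset.sum_flip]
  refine Finset.sum_congr rfl fun j hj => ?_
  have := Finset.mem_range.1 hj
  have e : D - (D - j) = j := by omega
  rw [e]
  ring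

theorem disc3_local (l e D : ℕ) (hl : l.Prime) (a : ℕ → ℤ) :
    ∃ cl : ℤ → ℤ → Fin (D + 1), ∀ t1 t2 t1' t2' σ1 σ2 : ℤ, ¬ (l : ℤ) ∣ t2 → ¬ (l : ℤ) ∣ t2' →
      (l : ℤ) ^ e ∣ hom D a t1 t2 → (l : ℤ) ^ e ∣ hom D a t1' t2' → cl t1 t2 = cl t1' t2' →
      (l : ℤ) ^ e ∣ (t1 * t2' - t2 * t1') * homD D a t1 t2 σ1 σ2 := by
  have hlp : Prime (l : ℤ) := Nat.prime_iff_prime_int.1 hl
  have hcop : ∀ t : ℤ, ¬ (l : ℤ) ∣ t → IsCoprime ((l : ℤ) ^ e) t := fun t ht =>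
    ((hlp.irreducible.coprime_iff_not_dvd).2 ht).pow_left
  obtain ⟨cl, hcl⟩ := exists_discs l e D hl (∑ j ∈ Finset.range (D + 1), C (a j) * X ^ j)
    (natDegree_sum_le_of_forall_le _ _ fun j hj =>
      (natDegree_C_mul_X_pow_le _ _).trans (by have := Finset.mem_range.1 hj; omega))
  have hex : ∀ t1 t2 : ℤ, ∃ t : ℤ, ¬ (l : ℤ) ∣ t2 → (l : ℤ) ^ e ∣ t1 - t * t2 := fun t1 t2 => by
    by_cases h : (l : ℤ) ∣ t2
    · exact ⟨0, fun h' => absurd h h'⟩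
    · obtain ⟨u, v, huv⟩ := hcop t2 h
      exact ⟨t1 * v, fun _ => ⟨t1 * u, by linear_combination (-t1) * huv⟩⟩
  choose τ hτ using hex
  have hz : ∀ x : ℤ, (l : ℤ) ^ e ∣ x ↔ (x : ZMod (l ^ e)) = 0 := fun x => by
    rw [ZMod.intCast_zmod_eq_zero_iff_dvd]
    push_cast
    rfl
  have hτ' : ∀ t1 t2 : ℤ, ¬ (l : ℤ) ∣ t2 → (t1 : ZMod (l ^ e)) = τ t1 t2 * t2 := fun t1 t2 h => by
    have := (hz _).1 (hτ t1 t2 h)
    push_cast at this
    exact sub_eq_zero.1 this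
  have hf : ∀ t1 t2 : ℤ, ¬ (l : ℤ) ∣ t2 → (l : ℤ) ^ e ∣ hom D a t1 t2 →
      (l : ℤ) ^ e ∣ (∑ j ∈ Finset.range (D + 1), C (a j) * X ^ j : ℤ[X]).eval (τ t1 t2) := by
    intro t1 t2 h h1
    refine (hcop t2 h).pow_right (n := D).dvd_of_dvd_mul_right ?_
    rw [hz] at h1 ⊢
    rw [← h1, eval_finsetSum]
    unfold hom
    push_cast
    rw [Finset.sum_mul]
    refine Finset.sum_congr rfl fun j hj => ?_
    obtain ⟨k, rfl⟩ : ∃ k, D = j + k := ⟨D - j, by have := Finset.mem_range.1 hj; omega⟩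
    rw [hτ' t1 t2 h]
    simp only [eval_mul, eval_C, eval_pow, eval_X, Nat.add_sub_cancel_left]
    push_cast
    ring
  refine ⟨fun t1 t2 => cl (τ t1 t2), fun t1 t2 t1' t2' σ1 σ2 h2 h2' h1 h1' hc => ?_⟩
  have a1 := hf t1 t2 h2 h1
  have a2 := hcl _ _ a1 (hf t1' t2' h2' h1') hc
  rw [hz] at a1 a2 ⊢
  have b1 := hτ' t1 t2 h2
  have b2 := hτ' t1' t2' h2'
  rw [derivative_sum, eval_finsetSum] at a2
  rw [eval_finsetSum] at a1
  simp only [derivative_mul, derivative_C, derivative_X_pow, zero_mul, zero_add, eval_mul, eval_C,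
    eval_pow, eval_X] at a1 a2
  push_cast at a1 a2
  generalize τ t1 t2 = t at *
  generalize τ t1' t2' = t' at *
  have key : (t2 : ZMod (l ^ e)) * (homD D a t1 t2 σ1 σ2 : ℤ) = (t2 : ZMod (l ^ e)) ^ D *
      (((σ1 : ZMod (l ^ e)) - σ2 * t) * ∑ j ∈ Finset.range (D + 1),
        (a j : ZMod (l ^ e)) * ((j : ZMod (l ^ e)) * (t : ZMod (l ^ e)) ^ (j - 1)) +
        σ2 * D * ∑ j ∈ Finset.range (D + 1), (a j : ZMod (l ^ e)) * (t : ZMod (l ^ e)) ^ j) := by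
    rw [disc3_homD]
    push_cast
    rw [Finset.mul_sum, Finset.mul_sum, Finset.mul_sum, ← Finset.sum_add_distrib, Finset.mul_sum]
    refine Finset.sum_congr rfl fun j hj => ?_
    obtain ⟨k, rfl⟩ : ∃ k, D = j + k := ⟨D - j, by have := Finset.mem_range.1 hj; omega⟩
    rw [b1, Nat.add_sub_cancel_left]
    rcases j with _ | j <;> rcases k with _ | k <;>
      simp only [Nat.add_sub_cancel, Nat.zero_sub, Nat.cast_zero, Nat.cast_add, Nat.cast_one,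
        pow_zero] <;> ring
  push_cast
  rw [a1, mul_zero, add_zero] at key
  rw [b1, b2]
  linear_combination ((t2' : ZMod (l ^ e)) * (t - t')) * key +
    ((t2' : ZMod (l ^ e)) * t2 ^ D * (σ1 - σ2 * t)) * a2

/-- Projective and global version.  At a prime `ℓ` with `ℓ^e ∥ κ` record whether `ℓ ∤ t2` or not.  If
`ℓ ∤ t2` let `t ≡ t1 / t2 (mod ℓ^e)` and `f = hom D a X 1`; modulo `ℓ^e`, `hom D a t1 t2 ≡ t2^D f(t)`,
`t1 t2' - t2 t1' ≡ t2 t2' (t - t')` and `t2² homD ≡ t2^D (D t2 σ2 f(t) / t2 ... )`, precisely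
`t2 * homD = σ2 D hom + (σ1 t2 - σ2 t1) ∂₁hom` (Euler), with `∂₁hom (t1, t2) ≡ t2^(D-1) f'(t)`.  If `ℓ ∣ t2`
exchange the variables.  The class is the tuple of the local classes; prime powers are combined by
`Nat.factorization` / `Finset.prod_dvd_of_coprime`. -/
theorem exists_disc_classes (D : ℕ) (a : ℕ → ℤ) (κ : ℤ) (hκ : κ ≠ 0) :
    ∃ cl : ℤ → ℤ → (κ.natAbs.primeFactors → Bool × Fin (D + 1)), ∀ t1 t2 t1' t2' σ1 σ2 : ℤ,
      t1 * σ2 - t2 * σ1 = 1 → IsCoprime t1' t2' → κ ∣ hom D a t1 t2 → κ ∣ hom D a t1' t2' →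
      cl t1 t2 = cl t1' t2' → κ ∣ (t1 * t2' - t2 * t1') * homD D a t1 t2 σ1 σ2 := by
  classical
  choose c1 hc1 using fun l : κ.natAbs.primeFactors =>
    disc3_local l (κ.natAbs.factorization l) D (Nat.prime_of_mem_primeFactors l.2) a
  choose c2 hc2 using fun l : κ.natAbs.primeFactors =>
    disc3_local l (κ.natAbs.factorization l) D (Nat.prime_of_mem_primeFactors l.2) fun j => a (D - j)
  refine ⟨fun t1 t2 l => if ((l : ℕ) : ℤ) ∣ t2 then (true, c2 l t2 t1) else (false, c1 l t1 t2),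
    fun t1 t2 t1' t2' σ1 σ2 hσ hcop h1 h1' hc => ?_⟩
  have hκ' : κ.natAbs ≠ 0 := Int.natAbs_ne_zero.2 hκ
  rw [← Int.natAbs_dvd_natAbs, Nat.dvd_iff_prime_pow_dvd_dvd]
  intro p k hp hk
  rcases k with _ | k
  · simp
  have hm : p ∈ κ.natAbs.primeFactors :=
    Nat.mem_primeFactors.2 ⟨hp, (dvd_pow_self p (by omega)).trans hk, hκ'⟩
  have hle := (hp.pow_dvd_iff_le_factorization hκ').1 hk
  have hd : (p : ℤ) ^ κ.natAbs.factorization p ∣ κ := by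
    rw [← Int.dvd_natAbs]
    exact_mod_cast Nat.ordProj_dvd κ.natAbs p
  have hlp : Prime (p : ℤ) := Nat.prime_iff_prime_int.1 hp
  refine (pow_dvd_pow p hle).trans ?_
  rw [← Int.natCast_dvd_natCast, Int.dvd_natAbs]
  push_cast
  have hc' := congrFun hc ⟨p, hm⟩
  simp only at hc'
  by_cases a2 : (p : ℤ) ∣ t2 <;> by_cases a2' : (p : ℤ) ∣ t2'
  · rw [if_pos a2, if_pos a2'] at hc'
    have a1 : ¬ (p : ℤ) ∣ t1 := fun h =>
      hlp.not_dvd_one (hσ ▸ dvd_sub (h.mul_right _) (a2.mul_right _))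
    have a1' : ¬ (p : ℤ) ∣ t1' := fun h => hlp.not_isUnit (hcop.isUnit_of_dvd' h a2')
    have := hc2 ⟨p, hm⟩ t2 t1 t2' t1' σ2 σ1 a1 a1' (disc3_swap D a t1 t2 ▸ hd.trans h1)
      (disc3_swap D a t1' t2' ▸ hd.trans h1') (Prod.ext_iff.1 hc').2
    have e : homD D a t1 t2 σ1 σ2 = homD D (fun j => a (D - j)) t2 t1 σ2 σ1 := by
      unfold homD
      rw [disc3_swap]
    rw [e, ← neg_sub, neg_mul, dvd_neg]
    exact this
  · rw [if_pos a2, if_neg a2'] at hc'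
    simp at hc'
  · rw [if_neg a2, if_pos a2'] at hc'
    simp at hc'
  · rw [if_neg a2, if_neg a2'] at hc'
    exact hc1 ⟨p, hm⟩ t1 t2 t1' t2' σ1 σ2 a2 a2' (hd.trans h1) (hd.trans h1')
      (Prod.ext_iff.1 hc').2

end Crest.Agent.R22
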