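import Crest.Agent.R22.Defs

namespace Crest.Agent.R22

open Polynomial

theorem d4_main (u v W1 W2 : ℝ[X]) (h1 : W1 = derivative u * v - u * derivative v)
    (h2 : W2 = derivative W1 * v - 2 * W1 * derivative v) {t t' : ℝ} (htt : t < t')
    (hv : ∀ x ∈ Set.Icc t t', v.eval x ≠ 0) (hW1 : ∀ x ∈ Set.Icc t t', W1.eval x ≠ 0)
    (hW2 : W2 = 0 ∨ ∀ x ∈ Set.Icc t t', W2.eval x ≠ 0) :
    min |W1.eval t / v.eval t ^ 2| |W1.eval t' / v.eval t' ^ 2| * |t - t'|
      ≤ |u.eval t / v.eval t - u.eval t' / v.eval t'| := by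
  have dφ : ∀ x ∈ Set.Icc t t', HasDerivAt (fun x => u.eval x / v.eval x)
      (W1.eval x / v.eval x ^ 2) x := fun x hx => by
    refine ((u.hasDerivAt x).div (v.hasDerivAt x) (hv x hx)).congr_deriv ?_
    simp [h1]
  have dg : ∀ x ∈ Set.Icc t t', HasDerivAt (fun x => (W1.eval x / v.eval x ^ 2) ^ 2)
      (2 * W1.eval x * W2.eval x / v.eval x ^ 5) x := fun x hx => by
    have := hv x hx
    refine (((W1.hasDerivAt x).div ((v.hasDerivAt x).pow 2)
      (pow_ne_zero 2 this)).pow 2).congr_deriv ?_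
    simp only [h2, eval_sub, eval_mul, eval_ofNat, Pi.div_apply, Pi.pow_apply]
    norm_num
    field_simp
  obtain ⟨ξ, hξ, e⟩ := exists_hasDerivAt_eq_slope _ _ htt
    (fun x hx => (dφ x hx).continuousAt.continuousWithinAt)
    fun x hx => dφ x (Set.Ioo_subset_Icc_self hx)
  have e' : u.eval t / v.eval t - u.eval t' / v.eval t' =
      W1.eval ξ / v.eval ξ ^ 2 * (t - t') := by
    rw [e]
    field_simp [(sub_pos.2 htt).ne']
    ring
  rw [e', abs_mul]
  refine mul_le_mul_of_nonneg_right ?_ (abs_nonneg _)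
  by_contra hc
  rw [not_le, lt_min_iff, ← sq_lt_sq, ← sq_lt_sq] at hc
  have s1 : Set.Icc t ξ ⊆ Set.Icc t t' := Set.Icc_subset_Icc_right hξ.2.le
  have s2 : Set.Icc ξ t' ⊆ Set.Icc t t' := Set.Icc_subset_Icc_left hξ.1.le
  obtain ⟨a, ha, ea⟩ := exists_hasDerivAt_eq_slope _ _ hξ.1
    (fun x hx => (dg x (s1 hx)).continuousAt.continuousWithinAt)
    fun x hx => dg x (s1 (Set.Ioo_subset_Icc_self hx))
  obtain ⟨b, hb, eb⟩ := exists_hasDerivAt_eq_slope _ _ hξ.2
    (fun x hx => (dg x (s2 hx)).continuousAt.continuousWithinAt)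
    fun x hx => dg x (s2 (Set.Ioo_subset_Icc_self hx))
  have na : 2 * W1.eval a * W2.eval a / v.eval a ^ 5 < 0 := by
    rw [ea]; exact div_neg_of_neg_of_pos (sub_neg.2 hc.1) (sub_pos.2 hξ.1)
  have pb : 0 < 2 * W1.eval b * W2.eval b / v.eval b ^ 5 := by
    rw [eb]; exact div_pos (sub_pos.2 hc.2) (sub_pos.2 hξ.2)
  rcases hW2 with h0 | h0
  · simp [h0] at pb
  · have s3 : Set.Icc a b ⊆ Set.Icc t t' := Set.Icc_subset_Icc ha.1.le hb.2.le
    have hcont : ContinuousOn (fun x => 2 * W1.eval x * W2.eval x / v.eval x ^ 5) (Set.Icc a b) :=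
      ((continuousOn_const.mul W1.continuousOn).mul W2.continuousOn).div (v.continuousOn.pow 5)
        fun x hx => pow_ne_zero 5 (hv x (s3 hx))
    obtain ⟨c, hc', ec⟩ := intermediate_value_Icc (ha.2.trans hb.1).le hcont ⟨na.le, pb.le⟩
    exact div_ne_zero (mul_ne_zero (mul_ne_zero two_ne_zero (hW1 c (s3 hc'))) (h0 c (s3 hc')))
      (pow_ne_zero 5 (hv c (s3 hc'))) ec

/-- Pieces on which `φ = u / v` has a monotone derivative of constant sign.  Let `W1 = u' v - u v'`
(`φ' = W1 / v²`), `W2 = W1' v - 2 W1 v'` (`φ'' = W2 / v³`) and let `Z` be the product of `v`, `W1` and (if it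
is nonzero) `W2`, of degree `≤ 6 D`.  The class of `t` is (number of real roots of `Z` that are `< t`,
whether `t` is a root).  For `t < t'` in one class `Z` has no root in `[t, t']`; the mean value theorem
(`exists_hasDerivAt_eq_slope`) gives `φ t' - φ t = φ'(ξ) (t' - t)`, and `φ'` is monotone without zero
on `[t, t']`, so `|φ' ξ| ≥ min |φ' t| |φ' t'|`. -/
theorem two_point (D : ℕ) (u v : ℝ[X]) (hu : u.natDegree ≤ D) (hv : v.natDegree ≤ D) (hv0 : v ≠ 0)
    (hW : derivative u * v - u * derivative v ≠ 0) :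
    ∃ cl : ℝ → Fin (6 * D + 1) × Bool, ∀ t t' : ℝ, cl t = cl t' → v.eval t ≠ 0 → v.eval t' ≠ 0 →
      min |(derivative u * v - u * derivative v).eval t / v.eval t ^ 2|
          |(derivative u * v - u * derivative v).eval t' / v.eval t' ^ 2| * |t - t'|
        ≤ |u.eval t / v.eval t - u.eval t' / v.eval t'| := by
  classical
  set W1 := derivative u * v - u * derivative v with h1
  set W2 := derivative W1 * v - 2 * W1 * derivative v with h2
  have dd : ∀ p : ℝ[X], (derivative p).natDegree ≤ p.natDegree := fun p =>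
    (natDegree_derivative_le p).trans (Nat.sub_le _ _)
  have d1 : W1.natDegree ≤ 2 * D := by
    refine (natDegree_sub_le _ _).trans (max_le (natDegree_mul_le.trans ?_) (natDegree_mul_le.trans ?_))
    · have := dd u; omega
    · have := dd v; omega
  have d2 : W2.natDegree ≤ 3 * D := by
    refine (natDegree_sub_le _ _).trans (max_le (natDegree_mul_le.trans ?_) (natDegree_mul_le.trans ?_))
    · have := dd W1; omega
    · have := dd v
      have h3 : (2 * W1).natDegree ≤ W1.natDegree := natDegree_mul_le.trans (by simp)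
      omega
  set Z := v * W1 * (if W2 = 0 then 1 else W2) with hZ
  have hZ0 : Z ≠ 0 := mul_ne_zero (mul_ne_zero hv0 hW) (by split_ifs with h <;> simp [h])
  have d3 : Z.natDegree ≤ 6 * D := by
    have h3 : (if W2 = 0 then 1 else W2).natDegree ≤ 3 * D := by split_ifs <;> simp [d2]
    have h4 : (v * W1).natDegree ≤ _ := natDegree_mul_le
    refine natDegree_mul_le.trans ?_
    omega
  set R := Z.roots.toFinset with hR
  have hRc : R.card ≤ 6 * D := ((Multiset.toFinset_card_le _).trans (card_roots' Z)).trans d3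
  have key : ∀ t t' : ℝ, t < t' → (R.filter (· < t)).card = (R.filter (· < t')).card →
      (t ∈ R ↔ t' ∈ R) → min |W1.eval t / v.eval t ^ 2| |W1.eval t' / v.eval t' ^ 2| * |t - t'|
        ≤ |u.eval t / v.eval t - u.eval t' / v.eval t'| := by
    intro t t' htt hc hm
    have e : R.filter (· < t) = R.filter (· < t') :=
      Finset.eq_of_subset_of_card_le (Finset.monotone_filter_right _ fun x _ hx => hx.trans htt) hc.ge
    have n1 : ∀ x, t ≤ x → x < t' → x ∉ R := fun x h3 h4 hx => by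
      have h5 : x ∈ R.filter (· < t') := Finset.mem_filter.2 ⟨hx, h4⟩
      rw [← e] at h5
      exact absurd (Finset.mem_filter.1 h5).2 h3.not_gt
    have n2 : ∀ x ∈ Set.Icc t t', Z.eval x ≠ 0 := fun x hx h0 => by
      have h5 : x ∈ R := Multiset.mem_toFinset.2 ((mem_roots hZ0).2 h0)
      rcases hx.2.lt_or_eq with h6 | h6
      · exact n1 x hx.1 h6 h5
      · exact n1 t le_rfl htt (hm.2 (h6 ▸ h5))
    simp only [hZ, eval_mul] at n2
    refine d4_main u v W1 W2 h1 h2 htt
      (fun x hx => left_ne_zero_of_mul (left_ne_zero_of_mul (n2 x hx)))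
      (fun x hx => right_ne_zero_of_mul (left_ne_zero_of_mul (n2 x hx))) ?_
    by_cases h0 : W2 = 0
    · exact Or.inl h0
    · refine Or.inr fun x hx => ?_
      have := right_ne_zero_of_mul (n2 x hx)
      rwa [if_neg h0] at this
  refine ⟨fun t => (⟨(R.filter (· < t)).card,
    Nat.lt_succ_of_le ((Finset.card_filter_le _ _).trans hRc)⟩, decide (t ∈ R)),
    fun t t' hc _ _ => ?_⟩
  simp only [Prod.mk.injEq, Fin.mk.injEq, decide_eq_decide] at hc
  rcases lt_trichotomy t t' with h | h | h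
  · exact key t t' h hc.1 hc.2
  · simp [h]
  · rw [min_comm, abs_sub_comm t, abs_sub_comm (u.eval t / _)]
    exact key t' t h hc.1.symm hc.2.symm

end Crest.Agent.R22
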