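import Crest.Agent.R22.Main1
import Crest.Agent.R22.Sol

namespace Crest.Agent.R22

variable {d : ℕ}

theorem m2_card (S : Finset ℤ) (Z : ℝ) (hZ : 0 ≤ Z) (h : ∀ n ∈ S, |(n : ℝ)| ≤ Z) :
    (S.card : ℝ) ≤ 2 * Z + 1 := by
  have h1 : S ⊆ Finset.Icc (-⌊Z⌋) ⌊Z⌋ := by
    intro n hn
    have h2 := abs_le.1 (h n hn)
    rw [Finset.mem_Icc]
    constructor
    · rw [neg_le, Int.le_floor]
      push_cast
      linarith
    · exact Int.le_floor.2 h2.2
  have h2 := Finset.card_le_card h1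
  rw [Int.card_Icc] at h2
  have h3 : 0 ≤ ⌊Z⌋ := Int.floor_nonneg.2 hZ
  have h4 : (S.card : ℤ) ≤ 2 * ⌊Z⌋ + 1 := by omega
  have h5 : (S.card : ℝ) ≤ 2 * (⌊Z⌋ : ℝ) + 1 := by exact_mod_cast h4
  have := Int.floor_le Z
  linarith


/-- Large primes in a dyadic range.  `c` from `exists_sol`, `C1 = 1 / c²`.  Choose `P n`, then `μ n, α n, β n`; there
are `≤ 2 / c + 1` values of `μ`; the fibre over `μ` is a `SolSet` (fieldwise from the singletons); `sol_count`. -/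
theorem NF.main_dyadic (N : NF d) (h8 : d ≤ 8) : ∃ C1 C X0 : ℝ, 0 < C1 ∧ ∀ X ≥ X0, ∀ S : Finset ℤ,
    (∀ n ∈ S, X ≤ |(n : ℝ)| ∧ |(n : ℝ)| ≤ 2 * X ∧
      ∃ P : ℕ, P.Prime ∧ C1 * X < P ∧ (P : ℤ) ^ (d - 2) ∣ N.F.eval n) →
    (S.card : ℝ) ≤ C * X ^ (1 - del) := by
  classical
  obtain ⟨c, X0, hc, hc8, hsol⟩ := N.exists_sol
  obtain ⟨C, X1, hcount⟩ := N.sol_count h8 hc hc8
  refine ⟨1 / c ^ 2, (2 * (1 / c) + 1) * |C|, max (max X0 X1) 1, by positivity, ?_⟩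
  intro X hX S hS
  have hX0 : X0 ≤ X := le_trans (le_trans (le_max_left _ _) (le_max_left _ _)) hX
  have hX1 : X1 ≤ X := le_trans (le_trans (le_max_right _ _) (le_max_left _ _)) hX
  have hX2 : 1 ≤ X := le_trans (le_max_right _ _) hX
  have key : ∀ n ∈ S, ∃ (P : ℕ) (μ : ℤ) (α β : Fin d → ℤ),
      SolSet N c X μ {n} (fun _ => α) (fun _ => β) (fun _ => P) := by
    intro n hn
    obtain ⟨h1, h2, P, hP, h3, h4⟩ := hS n hn
    refine ⟨P, hsol X hX0 n P h1 h2 hP ?_ h4⟩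
    rwa [one_div_mul_eq_div, div_lt_iff₀' (by positivity)] at h3
  choose! P μ α β hs using key
  have hpos : 0 ≤ X ^ (1 - del) := Real.rpow_nonneg (by linarith) _
  have hfib : ∀ m ∈ S.image μ, ((S.filter fun n => μ n = m).card : ℝ) ≤ |C| * X ^ (1 - del) := by
    intro m hm
    obtain ⟨n0, hn0, rfl⟩ := Finset.mem_image.1 hm
    refine (hcount X hX1 (μ n0) _ α β P ?_).trans
      (mul_le_mul_of_nonneg_right (le_abs_self _) hpos)
    have hm : ∀ n ∈ S.filter fun n => μ n = μ n0,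
        SolSet N c X (μ n0) {n} (fun _ => α n) (fun _ => β n) (fun _ => P n) := by
      intro n hn
      obtain ⟨h1, h2⟩ := Finset.mem_filter.1 hn
      rw [← h2]
      exact hs n h1
    have e : ∀ n : ℤ, n ∈ ({n} : Finset ℤ) := Finset.mem_singleton_self
    exact ⟨(hs n0 hn0).mu0, (hs n0 hn0).mule, fun n hn => (hm n hn).rng n (e n),
      fun n hn => (hm n hn).eq n (e n), fun n hn => (hm n hn).primA n (e n),
      fun n hn => (hm n hn).primB n (e n), fun n hn => (hm n hn).prime n (e n),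
      fun n hn => (hm n hn).big n (e n), fun n hn => (hm n hn).dvdF n (e n),
      fun n hn => (hm n hn).dvdB n (e n), fun n hn => (hm n hn).lowA n (e n),
      fun n hn => (hm n hn).lowB n (e n), fun n hn => (hm n hn).szB n (e n)⟩
  have himg : ((S.image μ).card : ℝ) ≤ 2 * (1 / c) + 1 := by
    refine m2_card _ _ (by positivity) fun m hm => ?_
    obtain ⟨n0, hn0, rfl⟩ := Finset.mem_image.1 hm
    rw [le_div_iff₀' hc]
    exact (hs n0 hn0).mule
  rw [Finset.card_eq_sum_card_image μ S, Nat.cast_sum]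
  refine (Finset.sum_le_card_nsmul _ _ _ hfib).trans ?_
  rw [nsmul_eq_mul, mul_assoc]
  exact mul_le_mul_of_nonneg_right himg (by positivity)

/-- Large primes contribute `o(Y)`.  Given `ε`, the `n` with `|n| ≤ 2^(-L) Y` number `≤ 2^(1-L) Y + 1`; the others lie in
the `L` dyadic ranges `X = 2^(-j) Y`, `1 ≤ j ≤ L`, each with `≤ |C| Y^(1-δ)` points (`P > C1 Y ≥ C1 X`). -/
theorem NF.main_large (N : NF d) (h8 : d ≤ 8) : ∃ C1 : ℝ, 0 < C1 ∧ ∀ ε : ℝ, 0 < ε → ∃ Y0 : ℝ,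
    ∀ Y ≥ Y0, ∀ S : Finset ℤ, (∀ n ∈ S, |(n : ℝ)| ≤ Y ∧
      ∃ P : ℕ, P.Prime ∧ C1 * Y < P ∧ (P : ℤ) ^ (d - 2) ∣ N.F.eval n) → (S.card : ℝ) ≤ ε * Y := by
  classical
  obtain ⟨C1, C, X0, hC1, hdy⟩ := N.main_dyadic h8
  refine ⟨C1, hC1, fun ε hε => ?_⟩
  obtain ⟨L, hL⟩ : ∃ L : ℕ, 6 / ε < 2 ^ L := pow_unbounded_of_one_lt _ (by norm_num)
  have hdel : 0 < del := by unfold del; norm_num
  have hdel1 : 0 ≤ 1 - del := by unfold del; norm_num
  have t1 : Filter.Tendsto (fun Y : ℝ => (L * |C|) * Y ^ (-del)) Filter.atTop (nhds 0) := by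
    simpa using (tendsto_rpow_neg_atTop hdel).const_mul (L * |C|)
  have ev := ((t1.eventually (ge_mem_nhds (show (0 : ℝ) < ε / 3 by positivity))).and
    (Filter.eventually_ge_atTop (3 / ε))).and (Filter.eventually_ge_atTop (max X0 1 * 2 ^ L))
  obtain ⟨Y0, hY0⟩ := Filter.eventually_atTop.1 ev
  refine ⟨Y0, fun Y hY S hS => ?_⟩
  obtain ⟨⟨e1, e2⟩, e3⟩ := hY0 Y hY
  have hY1 : 0 < Y := lt_of_lt_of_le (by positivity) e2
  have hpos : 0 ≤ Y ^ (1 - del) := Real.rpow_nonneg hY1.le _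
  have key : ∀ j ≤ L, (S.card : ℝ) ≤
      ((S.filter fun n : ℤ => |(n : ℝ)| ≤ Y / 2 ^ j).card : ℝ) + j * (|C| * Y ^ (1 - del)) := by
    intro j
    induction j with
    | zero =>
      intro _
      rw [Finset.filter_true_of_mem fun n hn => by simpa using (hS n hn).1]
      simp
    | succ j ih =>
      intro hj
      have h1 := ih (by omega)
      have hX : max X0 1 ≤ Y / 2 ^ (j + 1) := by
        rw [le_div_iff₀ (by positivity)]
        refine le_trans ?_ e3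
        exact mul_le_mul_of_nonneg_left (pow_le_pow_right₀ (by norm_num) hj)
          (le_trans zero_le_one (le_max_right _ _))
      have hXY : Y / 2 ^ (j + 1) ≤ Y := div_le_self hY1.le (one_le_pow₀ (by norm_num))
      have h2 := hdy (Y / 2 ^ (j + 1)) (le_trans (le_max_left _ _) hX)
        (S.filter fun n : ℤ => Y / 2 ^ (j + 1) ≤ |(n : ℝ)| ∧ |(n : ℝ)| ≤ Y / 2 ^ j) (by
          intro n hn
          obtain ⟨a1, a2, a3⟩ := Finset.mem_filter.1 hn
          obtain ⟨-, P, hP, b1, b2⟩ := hS n a1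
          refine ⟨a2, a3.trans (le_of_eq (by field_simp; ring)), P, hP, lt_of_le_of_lt ?_ b1, b2⟩
          exact mul_le_mul_of_nonneg_left hXY hC1.le)
      have h3 : C * (Y / 2 ^ (j + 1)) ^ (1 - del) ≤ |C| * Y ^ (1 - del) :=
        mul_le_mul (le_abs_self _) (Real.rpow_le_rpow (by positivity) hXY hdel1)
          (Real.rpow_nonneg (by positivity) _) (abs_nonneg _)
      have h4 : (S.filter fun n : ℤ => |(n : ℝ)| ≤ Y / 2 ^ j) ⊆
          (S.filter fun n : ℤ => |(n : ℝ)| ≤ Y / 2 ^ (j + 1)) ∪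
          (S.filter fun n : ℤ => Y / 2 ^ (j + 1) ≤ |(n : ℝ)| ∧ |(n : ℝ)| ≤ Y / 2 ^ j) := by
        intro n hn
        obtain ⟨a1, a2⟩ := Finset.mem_filter.1 hn
        rw [Finset.mem_union, Finset.mem_filter, Finset.mem_filter]
        rcases le_total |(n : ℝ)| (Y / 2 ^ (j + 1)) with h | h
        · exact Or.inl ⟨a1, h⟩
        · exact Or.inr ⟨a1, h, a2⟩
      have h5 := (Finset.card_le_card h4).trans (Finset.card_union_le _ _)
      have h6 : ((S.filter fun n : ℤ => |(n : ℝ)| ≤ Y / 2 ^ j).card : ℝ) ≤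
          ((S.filter fun n : ℤ => |(n : ℝ)| ≤ Y / 2 ^ (j + 1)).card : ℝ) +
          ((S.filter fun n : ℤ => Y / 2 ^ (j + 1) ≤ |(n : ℝ)| ∧ |(n : ℝ)| ≤ Y / 2 ^ j).card : ℝ) := by
        exact_mod_cast h5
      push_cast
      linarith
  have h1 := key L le_rfl
  have h2 := m2_card (S.filter fun n : ℤ => |(n : ℝ)| ≤ Y / 2 ^ L) (Y / 2 ^ L) (by positivity)
    fun n hn => (Finset.mem_filter.1 hn).2
  have h3 : 2 * (Y / 2 ^ L) ≤ ε / 3 * Y := by
    rw [div_lt_iff₀ hε] at hL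
    rw [← mul_div_assoc, div_le_iff₀ (by positivity)]
    nlinarith
  have h4 : 1 ≤ ε / 3 * Y := by
    rw [div_le_iff₀ hε] at e2
    linarith
  have h5 : L * (|C| * Y ^ (1 - del)) ≤ ε / 3 * Y := by
    rw [sub_eq_add_neg, Real.rpow_add hY1, Real.rpow_one]
    calc L * (|C| * (Y * Y ^ (-del))) = (L * |C| * Y ^ (-del)) * Y := by ring
      _ ≤ _ := mul_le_mul_of_nonneg_right e1 hY1.le
  linarith

end Crest.Agent.R22
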