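import Crest.Agent.R22.Defs

namespace Crest.Agent.R22

open Polynomial

private theorem coe_norm_eq (f : ℤ[X]) (hd : 1 ≤ f.natDegree) :
    ((integralNormalization f).map (Int.castRingHom ℚ)).comp (C (f.leadingCoeff : ℚ) * X)
      = C ((f.leadingCoeff : ℚ) ^ (f.natDegree - 1)) * f.map (Int.castRingHom ℚ) := by
  apply Polynomial.funext
  intro x
  have h := integralNormalization_eval₂_leadingCoeff_mul (p := f) (by
    have : f ≠ 0 := by rintro rfl; simp at hd
    exact hd) (Int.castRingHom ℚ) x
  rw [eval_comp, eval_mul, eval_mul, eval_C, eval_C, eval_X, eval_map, eval_map]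
  simpa using h

/-- Take `F = integralNormalization f` (`Polynomial.integralNormalization`, monic, same degree,
`F (a n) = a^(d-1) f n` with `a` the leading coefficient: compare coefficients or use
`integralNormalization_eval₂_leadingCoeff_mul`).  Over `ℚ`, `F = a^(d-1) f(X / a)` is irreducible
(image of `f` under the automorphism `X ↦ C a⁻¹ * X`, `Polynomial.algEquivCMulXAddC`, times a unit).
An irreducible polynomial in characteristic zero is separable, so it has `d` distinct complex
roots (`Polynomial.card_rootSet_eq_natDegree`); enumerate them by `Fin d`. -/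
theorem exists_NF (f : ℤ[X]) (hirr : Irreducible (f.map (Int.castRingHom ℚ)))
    (hd : 4 ≤ f.natDegree) : ∃ N : NF f.natDegree, ∀ n : ℤ,
      N.F.eval (f.leadingCoeff * n) = f.leadingCoeff ^ (f.natDegree - 1) * f.eval n := by
  have hf : f ≠ 0 := by rintro rfl; simp at hd
  have ha : (f.leadingCoeff : ℚ) ≠ 0 := by exact_mod_cast leadingCoeff_ne_zero.2 hf
  have hmon : (integralNormalization f).Monic := monic_integralNormalization hf
  have hdeg : (integralNormalization f).natDegree = f.natDegree :=
    natDegree_integralNormalization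
  set G : ℚ[X] := (integralNormalization f).map (Int.castRingHom ℚ) with hG
  have hGirr : Irreducible G := by
    let _ : Invertible (f.leadingCoeff : ℚ) := invertibleOfNonzero ha
    have h1 : algEquivCMulXAddC (f.leadingCoeff : ℚ) 0 G
        = C ((f.leadingCoeff : ℚ) ^ (f.natDegree - 1)) * f.map (Int.castRingHom ℚ) := by
      rw [← coe_norm_eq f (by omega)]
      simp [algEquivCMulXAddC, comp_eq_aeval, hG]
    have h2 : Irreducible (algEquivCMulXAddC (f.leadingCoeff : ℚ) 0 G) := by
      rw [h1]
      exact (irreducible_isUnit_mul (isUnit_C.2 (isUnit_iff_ne_zero.2 (pow_ne_zero _ ha)))).2 hirr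
    exact (MulEquiv.irreducible_iff _).1 h2
  have hGdeg : G.natDegree = f.natDegree := by rw [hG, hmon.natDegree_map, hdeg]
  have hcard : Fintype.card (G.rootSet ℂ) = f.natDegree := by
    rw [← hGdeg]
    exact card_rootSet_eq_natDegree hGirr.separable (IsAlgClosed.splits _)
  let e : G.rootSet ℂ ≃ Fin f.natDegree := Fintype.equivFinOfCardEq hcard
  refine ⟨⟨integralNormalization f, fun i => (e.symm i : ℂ), hmon, hGirr, hdeg, ?_, ?_, hd⟩, ?_⟩
  · intro i j h
    exact e.symm.injective (Subtype.ext h)
  · intro i
    have h1 := aeval_eq_zero_of_mem_rootSet (e.symm i).2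
    have := aeval_map_algebraMap ℚ (e.symm i : ℂ) (integralNormalization f)
    rw [← this]
    exact h1
  · intro n
    have h := integralNormalization_eval₂_leadingCoeff_mul (p := f) (by omega) (RingHom.id ℤ) n
    simpa [eval₂_id] using h

end Crest.Agent.R22
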