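import Mathlib
import Crest.Prelude.Def_PowerFree

namespace Crest.Agent.R22

open Polynomial Crest.NumberTheoryR

private theorem card_crt {m n : ℕ} (h : Nat.Coprime m n) (Q R : ℕ → Prop) [DecidablePred Q]
    [DecidablePred R] (hQ : Function.Periodic Q m) (hR : Function.Periodic R n) :
    ((Finset.range (m * n)).filter fun a => Q a ∧ R a).card
      = ((Finset.range m).filter Q).card * ((Finset.range n).filter R).card := by
  rw [← Finset.card_product]
  refine Finset.card_bij (fun a _ => (a % m, a % n)) ?_ ?_ ?_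
  · intro a ha
    rw [Finset.mem_filter, Finset.mem_range] at ha
    have hm : 0 < m := Nat.pos_of_mul_pos_right (by omega : 0 < m * n)
    have hn : 0 < n := Nat.pos_of_mul_pos_left (by omega : 0 < m * n)
    simp only [Finset.mem_product, Finset.mem_filter, Finset.mem_range]
    exact ⟨⟨Nat.mod_lt _ hm, by rw [hQ.map_mod_nat]; exact ha.2.1⟩,
      Nat.mod_lt _ hn, by rw [hR.map_mod_nat]; exact ha.2.2⟩
  · intro a ha b hb hab
    rw [Finset.mem_filter, Finset.mem_range] at ha hb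
    rw [Prod.mk.injEq] at hab
    exact Nat.ModEq.eq_of_lt_of_lt ((Nat.modEq_and_modEq_iff_modEq_mul h).1 hab) ha.1 hb.1
  · rintro ⟨x, y⟩ hxy
    simp only [Finset.mem_product, Finset.mem_filter, Finset.mem_range] at hxy
    obtain ⟨⟨hx, hQx⟩, hy, hRy⟩ := hxy
    have h1 : (Nat.chineseRemainder h x y : ℕ) % m = x := by
      rw [(Nat.chineseRemainder h x y).2.1, Nat.mod_eq_of_lt hx]
    have h2 : (Nat.chineseRemainder h x y : ℕ) % n = y := by
      rw [(Nat.chineseRemainder h x y).2.2, Nat.mod_eq_of_lt hy]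
    refine ⟨Nat.chineseRemainder h x y, ?_, by rw [h1, h2]⟩
    rw [Finset.mem_filter, Finset.mem_range]
    refine ⟨Nat.chineseRemainder_lt_mul h x y (by omega) (by omega), ?_, ?_⟩
    · rw [← hQ.map_mod_nat, h1]; exact hQx
    · rw [← hR.map_mod_nat, h2]; exact hRy

private theorem card_Ico_mul {M : ℕ} (Q : ℕ → Prop) [DecidablePred Q]
    (hQ : Function.Periodic Q M) (q : ℕ) :
    ((Finset.Ico 1 (1 + q * M)).filter Q).card = q * ((Finset.range M).filter Q).card := by
  induction q with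
  | zero => simp
  | succ q ih =>
    have h1 : Finset.Ico 1 (1 + (q + 1) * M)
        = Finset.Ico 1 (1 + q * M) ∪ Finset.Ico (1 + q * M) (1 + q * M + M) := by
      rw [Finset.Ico_union_Ico_eq_Ico (by omega) (by omega)]
      congr 1; ring
    rw [h1, Finset.filter_union, Finset.card_union_of_disjoint
      (Finset.disjoint_filter_filter (Finset.Ico_disjoint_Ico_consecutive _ _ _)), ih,
      Nat.filter_Ico_card_eq_of_periodic _ _ _ hQ, Nat.count_eq_card_filter_range]
    ring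

private theorem card_Icc_bounds {M : ℕ} (hM : 0 < M) (Q : ℕ → Prop) [DecidablePred Q]
    (hQ : Function.Periodic Q M) (N : ℕ) :
    ((N : ℝ) / M - 1) * ((Finset.range M).filter Q).card ≤ ((Finset.Icc 1 N).filter Q).card ∧
    (((Finset.Icc 1 N).filter Q).card : ℝ)
      ≤ ((N : ℝ) / M + 1) * ((Finset.range M).filter Q).card := by
  have hM' : (0 : ℝ) < M := by exact_mod_cast hM
  have h1 : N / M * M ≤ N := Nat.div_mul_le_self N M
  have h2 : N < (N / M + 1) * M := by
    have := Nat.lt_div_mul_add (a := N) hM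
    nlinarith
  have h1' : ((N / M : ℕ) : ℝ) ≤ (N : ℝ) / M := Nat.cast_div_le
  have h2' : (N : ℝ) / M - 1 ≤ ((N / M : ℕ) : ℝ) := by
    rw [sub_le_iff_le_add, div_le_iff₀ hM']
    exact_mod_cast h2.le
  constructor
  · refine (mul_le_mul_of_nonneg_right h2' (Nat.cast_nonneg _)).trans ?_
    rw [← Nat.cast_mul, ← card_Ico_mul Q hQ, Nat.cast_le]
    refine Finset.card_le_card (Finset.filter_subset_filter _ fun x hx => ?_)
    rw [Finset.mem_Ico] at hx
    rw [Finset.mem_Icc]
    omega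
  · have h3 : ((Finset.Icc 1 N).filter Q).card
        ≤ (N / M + 1) * ((Finset.range M).filter Q).card := by
      rw [← card_Ico_mul Q hQ]
      refine Finset.card_le_card (Finset.filter_subset_filter _ fun x hx => ?_)
      rw [Finset.mem_Icc] at hx
      rw [Finset.mem_Ico]
      omega
    calc (((Finset.Icc 1 N).filter Q).card : ℝ)
        ≤ (((N / M : ℕ) : ℝ) + 1) * ((Finset.range M).filter Q).card := by exact_mod_cast h3
      _ ≤ _ := by gcongr

private theorem tendsto_periodic {M : ℕ} (hM : 0 < M) (Q : ℕ → Prop) [DecidablePred Q]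
    (hQ : Function.Periodic Q M) :
    Filter.Tendsto (fun N : ℕ => (((Finset.Icc 1 N).filter Q).card : ℝ) / (N : ℝ)) Filter.atTop
      (nhds ((((Finset.range M).filter Q).card : ℝ) / M)) := by
  have hM' : (0 : ℝ) < M := by exact_mod_cast hM
  set c : ℝ := (((Finset.range M).filter Q).card : ℝ) with hc
  have h0 : Filter.Tendsto (fun N : ℕ => c / (N : ℝ)) Filter.atTop (nhds 0) :=
    tendsto_const_div_atTop_nhds_zero_nat c
  have hl := (tendsto_const_nhds (x := c / M)).sub h0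
  have hu := (tendsto_const_nhds (x := c / M)).add h0
  rw [sub_zero] at hl
  rw [add_zero] at hu
  refine tendsto_of_tendsto_of_tendsto_of_le_of_le' hl hu ?_ ?_
  · filter_upwards [Filter.eventually_gt_atTop 0] with N hN
    have hN' : (0 : ℝ) < N := by exact_mod_cast hN
    rw [le_div_iff₀ hN']
    refine le_trans (le_of_eq ?_) (card_Icc_bounds hM Q hQ N).1
    rw [← hc]
    field_simp
  · filter_upwards [Filter.eventually_gt_atTop 0] with N hN
    have hN' : (0 : ℝ) < N := by exact_mod_cast hN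
    rw [div_le_iff₀ hN']
    refine le_trans (card_Icc_bounds hM Q hQ N).2 (le_of_eq ?_)
    rw [← hc]
    field_simp

private theorem periodic_dvd (f : ℤ[X]) (q : ℤ) (M : ℕ) (h : q ∣ (M : ℤ)) :
    Function.Periodic (fun n : ℕ => q ∣ f.eval (n : ℤ)) M := by
  intro n
  have h1 : q ∣ f.eval ((n + M : ℕ) : ℤ) - f.eval (n : ℤ) := by
    refine h.trans ?_
    have := sub_dvd_eval_sub ((n + M : ℕ) : ℤ) (n : ℤ) f
    simpa using this
  exact propext (dvd_iff_dvd_of_dvd_sub h1)

open Classical in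
private theorem card_prod (f : ℤ[X]) (k : ℕ) (A : Finset ℕ) (hA : ∀ p ∈ A, p.Prime) :
    (((Finset.range (∏ p ∈ A, p ^ k)).filter fun n : ℕ =>
        ∀ p ∈ A, ¬ ((p : ℤ) ^ k ∣ f.eval (n : ℤ))).card : ℝ)
      = ∏ p ∈ A, ((p : ℝ) ^ k - polyRootCountMod f (p ^ k)) := by
  induction A using Finset.induction_on with
  | empty => simp
  | insert p A hp ih =>
    have hA' : ∀ q ∈ A, q.Prime := fun q hq => hA q (Finset.mem_insert_of_mem hq)
    have hpp := hA p (Finset.mem_insert_self _ _)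
    rw [Finset.prod_insert hp, Finset.prod_insert hp, ← ih hA']
    have hcop : Nat.Coprime (p ^ k) (∏ q ∈ A, q ^ k) := by
      refine Nat.Coprime.prod_right fun q hq => Nat.Coprime.pow _ _ ?_
      refine (Nat.coprime_primes hpp (hA' q hq)).2 ?_
      rintro rfl
      exact hp hq
    have h1 := card_crt hcop (fun n : ℕ => ¬ ((p : ℤ) ^ k ∣ f.eval (n : ℤ)))
      (fun n : ℕ => ∀ q ∈ A, ¬ ((q : ℤ) ^ k ∣ f.eval (n : ℤ)))
      (fun n => by
        have := periodic_dvd f ((p : ℤ) ^ k) (p ^ k) (by simp) n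
        simp only at this ⊢
        rw [this])
      (fun n => by
        refine propext (forall₂_congr fun q hq => ?_)
        have := periodic_dvd f ((q : ℤ) ^ k) (∏ q ∈ A, q ^ k) (by
          exact_mod_cast Finset.dvd_prod_of_mem (fun q => q ^ k) hq) n
        simp only at this
        rw [this])
    have h2 : (((Finset.range (p ^ k)).filter
        fun n : ℕ => ¬ ((p : ℤ) ^ k ∣ f.eval (n : ℤ))).card : ℝ)
          = (p : ℝ) ^ k - polyRootCountMod f (p ^ k) := by
      have := Finset.card_filter_add_card_filter_not (s := Finset.range (p ^ k))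
        (fun n : ℕ => (p : ℤ) ^ k ∣ f.eval (n : ℤ))
      rw [Finset.card_range] at this
      have h3 : polyRootCountMod f (p ^ k) = ((Finset.range (p ^ k)).filter
          fun n : ℕ => (p : ℤ) ^ k ∣ f.eval (n : ℤ)).card := by
        unfold polyRootCountMod
        push_cast
        rfl
      rw [h3, eq_sub_iff_add_eq, add_comm]
      exact_mod_cast this
    rw [← h2, ← Nat.cast_mul, ← h1]
    congr 2
    refine Finset.filter_congr fun n _ => ?_
    exact Finset.forall_mem_insert _ _ _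

open Classical in
/-- The finite sieve.  The condition is periodic mod `M = ∏ p^k`; by the Chinese remainder theorem (induction on the
set of primes, `Nat.chineseRemainder` / `ZMod.chineseRemainder`) it holds for `∏ (p^k - ρ(p^k))` residues; the count up
to `N` differs from `N / M` times this number by at most `M` (`Nat.count_modEq_card`, `Nat.filter_Ico_card_eq_of_periodic`). -/
theorem finite_sieve (f : ℤ[X]) (k : ℕ) (A : Finset ℕ) (hA : ∀ p ∈ A, p.Prime) :
    Filter.Tendsto (fun N : ℕ => ((((Finset.Icc 1 N).filter fun n : ℕ =>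
        ∀ p ∈ A, ¬ ((p : ℤ) ^ k ∣ f.eval (n : ℤ))).card : ℝ) / (N : ℝ))) Filter.atTop
      (nhds (∏ p ∈ A, (1 - (polyRootCountMod f (p ^ k) : ℝ) / (p : ℝ) ^ k))) := by
  have hM : 0 < ∏ p ∈ A, p ^ k := Finset.prod_pos fun p hp => pow_pos (hA p hp).pos _
  have h := tendsto_periodic hM (fun n : ℕ => ∀ p ∈ A, ¬ ((p : ℤ) ^ k ∣ f.eval (n : ℤ)))
    (fun n => by
      refine propext (forall₂_congr fun q hq => ?_)
      have := periodic_dvd f ((q : ℤ) ^ k) (∏ q ∈ A, q ^ k) (by
        exact_mod_cast Finset.dvd_prod_of_mem (fun q => q ^ k) hq) n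
      simp only at this
      rw [this])
  rw [card_prod f k A hA] at h
  convert h using 2
  push_cast
  rw [← Finset.prod_div_distrib]
  refine Finset.prod_congr rfl fun p hp => ?_
  have : (0 : ℝ) < p := by exact_mod_cast (hA p hp).pos
  field_simp

private theorem primeCounting_small (C δ : ℝ) (hδ : 0 < δ) :
    ∀ᶠ N : ℕ in Filter.atTop, (Nat.primeCounting ⌊C * N⌋₊ : ℝ) ≤ δ * N := by
  set C' := max C 1 with hC'
  have hC0 : 0 < C' := lt_of_lt_of_le one_pos (le_max_right _ _)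
  have h1 : Filter.Tendsto (fun N : ℕ => C' * (N : ℝ)) Filter.atTop Filter.atTop :=
    tendsto_natCast_atTop_atTop.const_mul_atTop hC0
  have h2 := h1.eventually (Chebyshev.eventually_primeCounting_le one_pos)
  have h3 := (Real.tendsto_log_atTop.comp h1).eventually_ge_atTop
    (max 1 ((Real.log 4 + 1) * C' / δ))
  filter_upwards [h2, h3] with N hN hL
  simp only [Function.comp] at hL
  have hL1 : 0 < Real.log (C' * N) := lt_of_lt_of_le one_pos ((le_max_left _ _).trans hL)
  have hL2 : (Real.log 4 + 1) * C' ≤ δ * Real.log (C' * N) := by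
    have := (le_max_right _ _).trans hL
    rw [div_le_iff₀ hδ] at this
    linarith
  calc (Nat.primeCounting ⌊C * N⌋₊ : ℝ) ≤ Nat.primeCounting ⌊C' * N⌋₊ := by
        exact_mod_cast Nat.monotone_primeCounting (Nat.floor_le_floor
          (mul_le_mul_of_nonneg_right (le_max_left _ _) (Nat.cast_nonneg N)))
    _ ≤ (Real.log 4 + 1) * (C' * N) / Real.log (C' * N) := hN
    _ ≤ δ * N := by
        rw [div_le_iff₀ hL1]
        nlinarith [mul_le_mul_of_nonneg_right hL2 (Nat.cast_nonneg (α := ℝ) N)]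

open Classical in
/-- Middle primes: for `p ≥ P0` at most `D (N / p^k + 1)` integers `n ≤ N` have `p^k ∣ f n`; `∑_{p > ξ} 1 / p² ≤ 1 / ξ`
(`sum_Ioc_inv_sq_le_sub`), and `π(C1 N) = o(N)` (`Chebyshev.eventually_primeCounting_le`). -/
theorem middle_primes (f : ℤ[X]) (k D P0 : ℕ) (hk : 2 ≤ k)
    (hD : ∀ p : ℕ, p.Prime → P0 ≤ p → polyRootCountMod f (p ^ k) ≤ D) (C1 ε : ℝ) (hε : 0 < ε) :
    ∃ ξ0 : ℕ, ∀ ξ ≥ ξ0, ∀ᶠ N : ℕ in Filter.atTop, ((((Finset.Icc 1 N).filter fun n : ℕ =>
      ∃ p : ℕ, p.Prime ∧ ξ < p ∧ (p : ℝ) ≤ C1 * N ∧ (p : ℤ) ^ k ∣ f.eval (n : ℤ)).card : ℝ) ≤ ε * N) := by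
  refine ⟨P0 + ⌈2 * D / ε⌉₊ + 1, fun ξ hξ => ?_⟩
  have hξ0 : 0 < ξ := by omega
  have hξ0' : (0 : ℝ) < ξ := by exact_mod_cast hξ0
  have hξD : (D : ℝ) * (ξ : ℝ)⁻¹ ≤ ε / 2 := by
    have h0 : ⌈2 * (D : ℝ) / ε⌉₊ ≤ ξ := by omega
    have h1 : 2 * D / ε ≤ (ξ : ℝ) := (Nat.le_ceil _).trans (Nat.cast_le.2 h0)
    rw [div_le_iff₀ hε] at h1
    rw [← div_eq_mul_inv, div_le_iff₀ hξ0']
    linarith
  filter_upwards [primeCounting_small C1 (ε / (2 * (D + 1))) (by positivity)] with N hN
  set L := ⌊C1 * N⌋₊ with hL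
  set S := (Finset.Ioc ξ L).filter Nat.Prime with hS
  have hsub : ((Finset.Icc 1 N).filter fun n : ℕ =>
      ∃ p : ℕ, p.Prime ∧ ξ < p ∧ (p : ℝ) ≤ C1 * N ∧ (p : ℤ) ^ k ∣ f.eval (n : ℤ))
      ⊆ S.biUnion fun p => (Finset.Icc 1 N).filter fun n : ℕ => (p : ℤ) ^ k ∣ f.eval (n : ℤ) := by
    intro n hn
    rw [Finset.mem_filter] at hn
    obtain ⟨hn, p, hp, h1, h2, h3⟩ := hn
    rw [Finset.mem_biUnion]
    refine ⟨p, ?_, Finset.mem_filter.2 ⟨hn, h3⟩⟩
    rw [hS, Finset.mem_filter, Finset.mem_Ioc]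
    exact ⟨⟨h1, Nat.le_floor h2⟩, hp⟩
  have hone : ∀ p ∈ S, (((Finset.Icc 1 N).filter
      fun n : ℕ => (p : ℤ) ^ k ∣ f.eval (n : ℤ)).card : ℝ) ≤ D * N * ((p : ℝ) ^ 2)⁻¹ + D := by
    intro p hp
    rw [hS, Finset.mem_filter, Finset.mem_Ioc] at hp
    have hp1 : (1 : ℝ) ≤ p := by exact_mod_cast hp.2.one_le
    have h1 := (card_Icc_bounds (pow_pos hp.2.pos k) _
      (periodic_dvd f ((p : ℤ) ^ k) (p ^ k) (by simp)) N).2
    have h3 : polyRootCountMod f (p ^ k) = ((Finset.range (p ^ k)).filter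
        fun n : ℕ => (p : ℤ) ^ k ∣ f.eval (n : ℤ)).card := by
      unfold polyRootCountMod
      push_cast
      rfl
    rw [← h3] at h1
    have h4 : (polyRootCountMod f (p ^ k) : ℝ) ≤ D := by
      exact_mod_cast hD p hp.2 (by omega)
    have h5 : (N : ℝ) / ((p ^ k : ℕ) : ℝ) ≤ N * ((p : ℝ) ^ 2)⁻¹ := by
      push_cast
      rw [← div_eq_mul_inv]
      exact div_le_div_of_nonneg_left (Nat.cast_nonneg _) (by positivity)
        (pow_le_pow_right₀ hp1 hk)
    calc _ ≤ _ := h1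
      _ ≤ (N * ((p : ℝ) ^ 2)⁻¹ + 1) * D := by gcongr
      _ = _ := by ring
  have hsum : ∑ p ∈ S, ((p : ℝ) ^ 2)⁻¹ ≤ (ξ : ℝ)⁻¹ := by
    refine (Finset.sum_le_sum_of_subset_of_nonneg (Finset.filter_subset _ _)
      fun _ _ _ => by positivity).trans ?_
    rcases le_total ξ L with h | h
    · refine (sum_Ioc_inv_sq_le_sub hξ0.ne' h).trans ?_
      have : (0 : ℝ) ≤ (L : ℝ)⁻¹ := by positivity
      linarith
    · rw [Finset.Ioc_eq_empty (by omega), Finset.sum_empty]
      positivity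
  have hcard : (S.card : ℝ) ≤ Nat.primeCounting L := by
    rw [Nat.cast_le, Nat.primeCounting, Nat.primeCounting', Nat.count_eq_card_filter_range]
    refine Finset.card_le_card (Finset.filter_subset_filter _ fun x hx => ?_)
    rw [Finset.mem_Ioc] at hx
    rw [Finset.mem_range]
    omega
  have hD0 : (0 : ℝ) ≤ D := Nat.cast_nonneg D
  have hN0 : (0 : ℝ) ≤ N := Nat.cast_nonneg N
  calc _ ≤ (((S.biUnion fun p => (Finset.Icc 1 N).filter
          fun n : ℕ => (p : ℤ) ^ k ∣ f.eval (n : ℤ)).card : ℕ) : ℝ) := by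
        exact_mod_cast Finset.card_le_card hsub
    _ ≤ ∑ p ∈ S, (((Finset.Icc 1 N).filter
          fun n : ℕ => (p : ℤ) ^ k ∣ f.eval (n : ℤ)).card : ℝ) := by
        exact_mod_cast Finset.card_biUnion_le
    _ ≤ ∑ p ∈ S, (D * N * ((p : ℝ) ^ 2)⁻¹ + D) := Finset.sum_le_sum hone
    _ = D * N * ∑ p ∈ S, ((p : ℝ) ^ 2)⁻¹ + D * S.card := by
        rw [Finset.sum_add_distrib, ← Finset.mul_sum, Finset.sum_const, nsmul_eq_mul, mul_comm _ (D : ℝ)]
    _ ≤ D * N * (ξ : ℝ)⁻¹ + (D + 1) * (ε / (2 * (D + 1)) * N) := by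
        gcongr
        · linarith
        · exact hcard.trans hN
    _ ≤ ε * N := by
        have h1 : ((D : ℝ) + 1) * (ε / (2 * (D + 1)) * N) = ε / 2 * N := by field_simp
        rw [h1]
        nlinarith [mul_le_mul_of_nonneg_right hξD hN0]

end Crest.Agent.R22
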