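import Crest.Agent.R22.Sieve1
import Crest.Agent.R22.Sieve2
import Crest.Agent.R22.Main2
import Crest.Agent.R22.NFExists

namespace Crest.Agent.R22

open Polynomial Crest.NumberTheoryR Filter Topology

open Classical in
/-- Large primes for `f`: with `N` from `exists_NF`, `a` the leading coefficient (`a ≠ 0`), map `n ↦ a n`
(injective) and use `main_large` with `Y = |a| N`; `C2 = C1 |a|`. -/
theorem large_primes (f : ℤ[X]) (k : ℕ) (hirr : Irreducible (f.map (Int.castRingHom ℚ)))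
    (hdeg : 4 ≤ f.natDegree ∧ f.natDegree ≤ 8) (hk : k + 2 = f.natDegree) : ∃ C2 : ℝ, ∀ ε : ℝ, 0 < ε →
    ∀ᶠ N : ℕ in atTop, ((((Finset.Icc 1 N).filter fun n : ℕ =>
      ∃ p : ℕ, p.Prime ∧ C2 * N < (p : ℝ) ∧ (p : ℤ) ^ k ∣ f.eval (n : ℤ)).card : ℝ) ≤ ε * N) := by
  obtain ⟨M, hM⟩ := exists_NF f hirr hdeg.1
  obtain ⟨C1, hC1, h⟩ := M.main_large hdeg.2
  have hf : f ≠ 0 := by rintro rfl; simp at hdeg
  have ha : f.leadingCoeff ≠ 0 := leadingCoeff_ne_zero.2 hf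
  have ha1 : (1 : ℝ) ≤ |(f.leadingCoeff : ℝ)| := by exact_mod_cast Int.one_le_abs ha
  have ha0 : (0 : ℝ) < |(f.leadingCoeff : ℝ)| := by linarith
  refine ⟨C1 * |(f.leadingCoeff : ℝ)|, fun ε hε => ?_⟩
  obtain ⟨Y0, hY⟩ := h (ε / |(f.leadingCoeff : ℝ)|) (div_pos hε ha0)
  filter_upwards [tendsto_natCast_atTop_atTop.eventually_ge_atTop Y0] with N hN
  have hN0 : (0 : ℝ) ≤ N := Nat.cast_nonneg N
  have hinj : Function.Injective fun n : ℕ => f.leadingCoeff * (n : ℤ) := fun a b hab =>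
    Nat.cast_injective (mul_left_cancel₀ ha hab)
  rw [← Finset.card_image_of_injective _ hinj]
  refine (hY (|(f.leadingCoeff : ℝ)| * N) (hN.trans (le_mul_of_one_le_left hN0 ha1)) _ ?_).trans
    (le_of_eq (by field_simp))
  intro m hm
  obtain ⟨n, hn, rfl⟩ := Finset.mem_image.1 hm
  obtain ⟨hn1, p, hp, hp1, hp2⟩ := Finset.mem_filter.1 hn
  refine ⟨?_, p, hp, by rw [← mul_assoc]; exact hp1, ?_⟩
  · push_cast
    rw [abs_mul, Nat.abs_cast]
    exact mul_le_mul_of_nonneg_left (by exact_mod_cast (Finset.mem_Icc.1 hn1).2) ha0.le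
  · rw [hM, show f.natDegree - 2 = k by omega]
    exact hp2.mul_left _

/-- The theorem.  `N_ξ(N) - middle - large ≤ count ≤ N_ξ(N)`, where `N_ξ` is the count of `finite_sieve` for the primes
`≤ ξ`; given `ε` choose `ξ` with the partial product within `ε` of `c` and `ξ ≥ ξ0`. -/
theorem final (f : ℤ[X]) (k : ℕ)
    (hirr : Irreducible (f.map (Int.castRingHom ℚ))) (hdeg : 4 ≤ f.natDegree ∧ f.natDegree ≤ 8)
    (hk : k + 2 = f.natDegree) (hloc : ∀ p : ℕ, p.Prime → polyRootCountMod f (p ^ k) < p ^ k) :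
    ∃ c : ℝ, 0 < c ∧
      HasProd (fun p : Nat.Primes => 1 - (polyRootCountMod f ((p : ℕ) ^ k) : ℝ) / ((p : ℕ) : ℝ) ^ k) c ∧
      Tendsto (fun N : ℕ => (powerFreeValueCount f k N : ℝ) / (N : ℝ)) atTop (𝓝 c) := by
  classical
  have hk2 : 2 ≤ k := by omega
  obtain ⟨P0, hP0⟩ := rho_le f hirr k (by omega)
  obtain ⟨c, hc, hprod, hlim⟩ := euler_prod f k f.natDegree P0 hk2 hloc hP0
  obtain ⟨C2, hC2⟩ := large_primes f k hirr hdeg hk
  refine ⟨c, hc, hprod, Metric.tendsto_nhds.2 fun ε hε => ?_⟩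
  have hε4 : 0 < ε / 4 := by positivity
  obtain ⟨ξ0, hξ0⟩ := middle_primes f k f.natDegree P0 hk2 hP0 C2 (ε / 4) hε4
  obtain ⟨ξ, hξ1, hξ2⟩ := ((eventually_ge_atTop ξ0).and (Metric.tendsto_nhds.1 hlim (ε / 4) hε4)).exists
  have hfs := finite_sieve f k ((Finset.range (ξ + 1)).filter Nat.Prime)
    fun p hp => (Finset.mem_filter.1 hp).2
  filter_upwards [hξ0 ξ hξ1, hC2 (ε / 4) hε4, Metric.tendsto_nhds.1 hfs (ε / 4) hε4,
    eventually_gt_atTop 0] with N h1 h2 h3 hN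
  have hN' : (0 : ℝ) < N := by exact_mod_cast hN
  set A := (Finset.Icc 1 N).filter fun n : ℕ => ∀ p ∈ (Finset.range (ξ + 1)).filter Nat.Prime,
    ¬ ((p : ℤ) ^ k ∣ f.eval (n : ℤ)) with hA
  set B := (Finset.Icc 1 N).filter fun n : ℕ =>
    ∃ p : ℕ, p.Prime ∧ ξ < p ∧ (p : ℝ) ≤ C2 * N ∧ (p : ℤ) ^ k ∣ f.eval (n : ℤ) with hB
  set D := (Finset.Icc 1 N).filter fun n : ℕ =>
    ∃ p : ℕ, p.Prime ∧ C2 * N < (p : ℝ) ∧ (p : ℤ) ^ k ∣ f.eval (n : ℤ) with hD
  have h4 : powerFreeValueCount f k N ≤ A.card := by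
    refine Finset.card_le_card fun n hn => ?_
    rw [Finset.mem_filter] at hn
    exact Finset.mem_filter.2 ⟨hn.1, fun p hp => hn.2 p (Finset.mem_filter.1 hp).2⟩
  have h5 : A.card ≤ powerFreeValueCount f k N + (B.card + D.card) := by
    refine le_trans (Finset.card_le_card (t := _ ∪ (B ∪ D)) fun n hn => ?_)
      ((Finset.card_union_le _ _).trans (Nat.add_le_add_left (Finset.card_union_le _ _) _))
    rw [Finset.mem_filter] at hn
    rw [Finset.mem_union, Finset.mem_union, Finset.mem_filter]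
    by_cases h : IsPowerFree k (f.eval (n : ℤ))
    · exact Or.inl ⟨hn.1, h⟩
    · right
      unfold IsPowerFree at h
      push Not at h
      obtain ⟨p, hp, hd⟩ := h
      have hpξ : ξ < p := by
        by_contra h'
        exact hn.2 p (Finset.mem_filter.2 ⟨Finset.mem_range.2 (by omega), hp⟩) hd
      rcases le_or_gt (p : ℝ) (C2 * N) with h' | h'
      · exact Or.inl (Finset.mem_filter.2 ⟨hn.1, p, hp, hpξ, h', hd⟩)
      · exact Or.inr (Finset.mem_filter.2 ⟨hn.1, p, hp, h', hd⟩)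
  have h4' : (powerFreeValueCount f k N : ℝ) / N ≤ A.card / N :=
    div_le_div_of_nonneg_right (by exact_mod_cast h4) hN'.le
  have h5' : (A.card : ℝ) / N ≤ powerFreeValueCount f k N / N + ε / 2 := by
    have h6 : (A.card : ℝ) ≤ powerFreeValueCount f k N + (B.card + D.card) := by exact_mod_cast h5
    rw [div_le_iff₀ hN', add_mul, div_mul_cancel₀ _ hN'.ne']
    linarith
  rw [Real.dist_eq, abs_lt] at h3 hξ2 ⊢
  constructor <;> linarith [h3.1, h3.2, hξ2.1, hξ2.2]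

end Crest.Agent.R22
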