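import Crest.Agent.R22.NFBasic

namespace Crest.Agent.R22

variable {d : ℕ}

theorem SolSet.mono {N : NF d} {c X : ℝ} {μ : ℤ} {S T : Finset ℤ} {α β : ℤ → Fin d → ℤ}
    {pr : ℤ → ℕ} (h : SolSet N c X μ S α β pr) (hT : T ⊆ S) : SolSet N c X μ T α β pr := by
  exact ⟨h.mu0, h.mule, fun n hn => h.rng n (hT hn), fun n hn => h.eq n (hT hn),
    fun n hn => h.primA n (hT hn), fun n hn => h.primB n (hT hn), fun n hn => h.prime n (hT hn),
    fun n hn => h.big n (hT hn), fun n hn => h.dvdF n (hT hn), fun n hn => h.dvdB n (hT hn),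
    fun n hn => h.lowA n (hT hn), fun n hn => h.lowB n (hT hn), fun n hn => h.szB n (hT hn)⟩

theorem LineCfg.mono {N : NF d} {p q : ℕ} {c X s1 s2 : ℝ} {μ : ℤ} {e1 e2 : Fin d → ℤ}
    {S T : Finset ℤ} {l1 l2 : ℤ → ℤ} {g : ℤ → Fin d → ℤ}
    (h : LineCfg N p q c X s1 s2 μ e1 e2 S l1 l2 g) (hT : T ⊆ S) :
    LineCfg N p q c X s1 s2 μ e1 e2 T l1 l2 g := by
  exact ⟨h.mu0, h.mule, fun n hn => h.rng n (hT hn), fun n hn => h.eq n (hT hn),
    fun n hn => h.cop n (hT hn), fun n hn => h.prim n (hT hn), fun n hn => h.chart n (hT hn),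
    fun n hn => h.low n (hT hn), fun n hn => h.sz1 n (hT hn), fun n hn => h.sz2 n (hT hn),
    h.e1ne, h.e2ne, h.esz, h.nd⟩

/-- `l2 = 0` forces `l1 = 0` by `chart`, contradicting coprimality. -/
theorem LineCfg.l2_ne {N : NF d} {p q : ℕ} {c X s1 s2 : ℝ} {μ : ℤ} {e1 e2 : Fin d → ℤ}
    {S : Finset ℤ} {l1 l2 : ℤ → ℤ} {g : ℤ → Fin d → ℤ}
    (h : LineCfg N p q c X s1 s2 μ e1 e2 S l1 l2 g) : ∀ n ∈ S, l2 n ≠ 0 := by
  intro n hn h2
  have h1 := h.chart n hn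
  have he : 0 < ‖e1‖ := norm_pos_iff.2 h.e1ne
  rw [h2, Int.cast_zero, abs_zero, zero_mul] at h1
  have h3 : |(l1 n : ℝ)| ≤ 0 := by
    by_contra h4
    have := mul_pos (not_le.1 h4) he
    linarith
  have h4 : l1 n = 0 := by exact_mod_cast abs_nonpos_iff.1 h3
  have h5 := h.cop n hn
  rw [h2, h4] at h5
  exact not_isCoprime_zero_zero h5

theorem LineCfg.l1_le {N : NF d} {p q : ℕ} {c X s1 s2 : ℝ} {μ : ℤ} {e1 e2 : Fin d → ℤ}
    {S : Finset ℤ} {l1 l2 : ℤ → ℤ} {g : ℤ → Fin d → ℤ}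
    (h : LineCfg N p q c X s1 s2 μ e1 e2 S l1 l2 g) : ∀ n ∈ S, |(l1 n : ℝ)| ≤ X ^ s1 := by
  intro n hn
  exact le_of_mul_le_mul_right ((h.chart n hn).trans (h.sz1 n hn).2) (norm_pos_iff.2 h.e1ne)

/-- `‖α‖ ‖β‖^k ≤ C X` (from `lowA`, `lowB`, `eq` at one index, `|μ| ≤ 1/c`, `|n - θ| ≤ 2X + C ≤ C' X`),
and `X ≤ ‖β‖^d` (`X < c² P ≤ c ‖β‖^d`). -/
theorem NF.sol_size (N : NF d) {c : ℝ} (hc : 0 < c) (hc1 : c ≤ 1) : ∃ C : ℝ, 1 ≤ C ∧ ∀ X ≥ (1 : ℝ),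
    ∀ (μ : ℤ) (S : Finset ℤ) (α β : ℤ → Fin d → ℤ) (pr : ℤ → ℕ), SolSet N c X μ S α β pr →
    ∀ n ∈ S, ‖α n‖ * ‖β n‖ ^ (d - 2) ≤ C * X ∧ X ≤ ‖β n‖ ^ d := by
  obtain ⟨C₀, hC₀, hθ, -⟩ := N.exists_C
  have h4 := N.four_le
  have hcd : 0 < c ^ d := by positivity
  have hcd1 : c ^ d ≤ 1 := pow_le_one₀ hc.le hc1
  refine ⟨(2 + C₀) / c ^ d, by rw [le_div_iff₀ hcd]; linarith, fun X hX μ S α β pr h n hn => ⟨?_, ?_⟩⟩
  · let i : Fin d := ⟨0, by omega⟩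
    have h1 := congrArg norm (h.eq n hn i)
    rw [norm_mul, norm_pow, norm_mul, Complex.norm_intCast] at h1
    have h2 : ‖(n : ℂ) - N.θ i‖ ≤ (2 + C₀) * X := by
      refine (norm_sub_le _ _).trans ?_
      rw [Complex.norm_intCast]
      have := (h.rng n hn).2
      have := hθ i
      nlinarith
    have h3 : (c * ‖α n‖) * (c * ‖β n‖) ^ (d - 2) ≤ ‖N.emb (α n) i‖ * ‖N.emb (β n) i‖ ^ (d - 2) :=
      mul_le_mul (h.lowA n hn i) (pow_le_pow_left₀ (by positivity) (h.lowB n hn i) _) (by positivity)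
        (norm_nonneg _)
    have h5 : c * (|(μ : ℝ)| * ‖(n : ℂ) - N.θ i‖) ≤ 1 * ((2 + C₀) * X) := by
      rw [← mul_assoc]
      exact mul_le_mul h.mule h2 (norm_nonneg _) zero_le_one
    have h6 := mul_le_mul_of_nonneg_left h3 hc.le
    have e : c * ((c * ‖α n‖) * (c * ‖β n‖) ^ (d - 2)) = c ^ d * (‖α n‖ * ‖β n‖ ^ (d - 2)) := by
      have : c ^ d = c ^ (d - 2) * c ^ 2 := by rw [← pow_add]; congr 1; omega
      rw [this, mul_pow]; ring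
    rw [e, h1] at h6
    rw [div_mul_eq_mul_div, le_div_iff₀ hcd]
    linarith
  · have h1 := h.big n hn
    have h2 := h.szB n hn
    have h3 : (0 : ℝ) ≤ c * pr n := by positivity
    nlinarith

/-- `β` determines `n`.  `β n * (± α n' β n'^(k-1)) = μ (n' - θ)`, so `psi_lin` gives `P ∣ μ (n' - n)` for
`P = pr n`.  `X < c² P` and `X ≥ 1`, `c ≤ 1/8` give `P > 64 X ≥ |n' - n|` and `P > 1 / c ≥ |μ|`. -/
theorem SolSet.fixB {N : NF d} {c X : ℝ} (hc : 0 < c) (hc8 : c ≤ 1 / 8) (hX : 1 ≤ X) {μ : ℤ}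
    {S : Finset ℤ} {α β : ℤ → Fin d → ℤ} {pr : ℤ → ℕ} (h : SolSet N c X μ S α β pr)
    {n n' : ℤ} (hn : n ∈ S) (hn' : n' ∈ S) (hβ : β n = β n' ∨ β n = -β n') : n = n' := by
  have h4 := N.four_le
  have hP := h.prime n hn
  have hbig := h.big n hn
  have hP0 : (0 : ℝ) ≤ pr n := Nat.cast_nonneg _
  have hw : ∃ w : Fin d → ℤ, ∀ i, N.emb (β n) i * N.emb w i =
      ((μ * n' : ℤ) : ℂ) + ((-μ : ℤ) : ℂ) * N.θ i := by
    obtain ⟨w, hw⟩ := (N.mem_R _).1 (N.R.mul_mem ((N.mem_R _).2 ⟨α n', rfl⟩)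
      (N.R.pow_mem ((N.mem_R _).2 ⟨β n', rfl⟩) (d - 3)))
    have key : ∀ i, N.emb (β n') i * N.emb w i = ((μ * n' : ℤ) : ℂ) + ((-μ : ℤ) : ℂ) * N.θ i := by
      intro i
      have h1 := h.eq n' hn' i
      have e : d - 2 = d - 3 + 1 := by omega
      rw [e, pow_succ] at h1
      rw [hw, Pi.mul_apply, Pi.pow_apply]
      push_cast
      linear_combination h1
    rcases hβ with h1 | h1
    · exact ⟨w, fun i => by rw [h1]; exact key i⟩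
    · exact ⟨-w, fun i => by rw [h1, N.emb_neg, N.emb_neg, neg_mul_neg]; exact key i⟩
  obtain ⟨w, hw⟩ := hw
  have h1 := N.psi_lin (h.dvdF n hn) (h.dvdB n hn) hw
  have e : μ * n' + -μ * n = μ * (n' - n) := by ring
  rw [e] at h1
  have hc2 : c ^ 2 ≤ c * (1 / 8) := by rw [sq]; exact mul_le_mul_of_nonneg_left hc8 hc.le
  rcases (Nat.prime_iff_prime_int.1 hP).dvd_or_dvd h1 with h2 | h2
  · exfalso
    have h3 : ((pr n : ℤ) : ℝ) ≤ |(μ : ℝ)| := by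
      exact_mod_cast Int.le_of_dvd (abs_pos.2 h.mu0) ((dvd_abs _ _).2 h2)
    push_cast at h3
    have h5 := h.mule
    have h6 : c * pr n ≤ 1 := (mul_le_mul_of_nonneg_left h3 hc.le).trans h5
    nlinarith
  · by_contra hne
    have h3 : ((pr n : ℤ) : ℝ) ≤ |((n' - n : ℤ) : ℝ)| := by
      exact_mod_cast Int.le_of_dvd (abs_pos.2 (sub_ne_zero.2 (Ne.symm hne))) ((dvd_abs _ _).2 h2)
    push_cast at h3
    have h5 := abs_sub (n' : ℝ) n
    have h6 := (h.rng n hn).2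
    have h7 := (h.rng n' hn').2
    have h8 : c ^ 2 ≤ 1 / 64 := by nlinarith
    have h9 := mul_le_mul_of_nonneg_right h8 hP0
    linarith

private theorem fix1_exists_pos {ι : Type} (s : Finset ι) (f : ι → ℝ) (hf : ∀ i ∈ s, 0 < f i) :
    ∃ c : ℝ, 0 < c ∧ c ≤ 1 ∧ ∀ i ∈ s, c ≤ f i := by
  classical
  induction s using Finset.induction_on with
  | empty => exact ⟨1, one_pos, le_rfl, by simp⟩
  | insert a s _ ih =>
    obtain ⟨c, h0, h1, h2⟩ := ih fun i hi => hf i (Finset.mem_insert_of_mem hi)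
    refine ⟨min c (f a), lt_min h0 (hf a (Finset.mem_insert_self _ _)), (min_le_left _ _).trans h1,
      fun i hi => ?_⟩
    rcases Finset.mem_insert.1 hi with rfl | hi
    · exact min_le_right _ _
    · exact (min_le_left _ _).trans (h2 i hi)

private theorem fix1_near (R : Finset ℂ) (hR : R.Nonempty) : ∃ C : ℝ, 1 ≤ C ∧ ∀ z : ℂ,
    ∃ ζ ∈ R, ‖z - ζ‖ ≤ C * ‖∏ w ∈ R, (z - w)‖ := by
  classical
  obtain ⟨c, h0, h1, h2⟩ := fix1_exists_pos R.offDiag (fun p => ‖p.1 - p.2‖ / 2) fun p hp =>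
    half_pos (norm_pos_iff.2 (sub_ne_zero.2 (Finset.mem_offDiag.1 hp).2.2))
  have hc : 0 < c ^ R.card := by positivity
  refine ⟨(c ^ R.card)⁻¹, (one_le_inv₀ hc).2 (pow_le_one₀ h0.le h1), fun z => ?_⟩
  obtain ⟨ζ, hζ, hmin⟩ := R.exists_min_image (fun w => ‖z - w‖) hR
  refine ⟨ζ, hζ, ?_⟩
  rw [le_inv_mul_iff₀ hc, ← Finset.mul_prod_erase R _ hζ, norm_mul, mul_comm, norm_prod]
  refine mul_le_mul_of_nonneg_left ?_ (norm_nonneg _)
  calc c ^ R.card ≤ c ^ (R.erase ζ).card := pow_le_pow_of_le_one h0.le h1 Finset.card_erase_le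
    _ = ∏ _w ∈ R.erase ζ, c := (Finset.prod_const c).symm
    _ ≤ _ := by
      refine Finset.prod_le_prod (fun _ _ => h0.le) fun w hw => ?_
      rw [Finset.mem_erase] at hw
      have h3 := h2 (w, ζ) (Finset.mem_offDiag.2 ⟨hw.2, hζ, hw.1⟩)
      have h4 := hmin w hw.2
      have h5 : ‖w - ζ‖ ≤ ‖z - ζ‖ + ‖z - w‖ := by
        have : w - ζ = (z - ζ) - (z - w) := by ring
        rw [this]; exact norm_sub_le _ _
      simp only at h3 h4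
      linarith

/-- A point with `z^k = 1 + δ` is within `C |δ|` of a `k`-th root of unity: `∏_ζ (z - ζ) = δ`; if `ζ0`
is the nearest root, `|z - ζ| ≥ |ζ - ζ0| / 2 ≥ c_k` for the other roots. -/
theorem exists_root_near (k : ℕ) (hk : 1 ≤ k) : ∃ C : ℝ, 1 ≤ C ∧ ∀ z : ℂ,
    ∃ ζ : ℂ, ζ ^ k = 1 ∧ ‖z - ζ‖ ≤ C * ‖z ^ k - 1‖ := by
  have hprim := Complex.isPrimitiveRoot_exp k (by omega)
  obtain ⟨C, hC, h⟩ := fix1_near (Polynomial.nthRootsFinset k (1 : ℂ))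
    ⟨1, (Polynomial.mem_nthRootsFinset hk _).2 (one_pow k)⟩
  refine ⟨C, hC, fun z => ?_⟩
  obtain ⟨ζ, hζ, h1⟩ := h z
  refine ⟨ζ, (Polynomial.mem_nthRootsFinset hk _).1 hζ, ?_⟩
  have h2 := congrArg (Polynomial.eval z) (Polynomial.X_pow_sub_one_eq_prod hk hprim)
  simp only [Polynomial.eval_sub, Polynomial.eval_pow, Polynomial.eval_X, Polynomial.eval_one,
    Polynomial.eval_prod, Polynomial.eval_C] at h2
  rwa [h2]

end Crest.Agent.R22
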