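import Crest.Agent.R22.NFBasic
import Crest.Agent.R22.Fix1

namespace Crest.Agent.R22

variable {d : ℕ}

theorem fix2_cross {z z' w w' ζ ξ : ℂ} {k : ℕ} (hk : k ≠ 0) {ε : ℝ} (hε : ε ≤ 1) (hζ : ζ ^ k = 1)
    (hξ : ξ ^ k = 1) (h1 : ‖z - ζ‖ ≤ ε) (h2 : ‖z' - ζ‖ ≤ ε) (h3 : ‖w - ξ‖ ≤ ε) (h4 : ‖w' - ξ‖ ≤ ε) :
    ‖z * w' - w * z'‖ ≤ 8 * ε := by
  have hζ1 : ‖ζ‖ = 1 := Complex.norm_eq_one_of_pow_eq_one hζ hk
  have hξ1 : ‖ξ‖ = 1 := Complex.norm_eq_one_of_pow_eq_one hξ hk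
  have h5 : ‖z'‖ ≤ 2 := by linarith [norm_sub_norm_le z' ζ]
  have h6 : ‖w'‖ ≤ 2 := by linarith [norm_sub_norm_le w' ξ]
  have h7 : ‖z - z'‖ ≤ 2 * ε := by
    have := norm_sub_le (z - ζ) (z' - ζ)
    rw [sub_sub_sub_cancel_right] at this
    linarith
  have h8 : ‖w - w'‖ ≤ 2 * ε := by
    have := norm_sub_le (w - ξ) (w' - ξ)
    rw [sub_sub_sub_cancel_right] at this
    linarith
  have h0 : 0 ≤ ε := (norm_nonneg _).trans h1
  have e : z * w' - w * z' = (z - z') * w' - (w - w') * z' := by ring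
  rw [e]
  refine (norm_sub_le _ _).trans ?_
  rw [norm_mul, norm_mul]
  have := mul_le_mul h7 h6 (norm_nonneg _) (by linarith)
  have := mul_le_mul h8 h5 (norm_nonneg _) (by linarith)
  linarith

theorem fix2_local (N : NF d) {c : ℝ} (hc : 0 < c) (hc8 : c ≤ 1 / 8) : ∃ (B : ℕ) (δ X0 : ℝ), 0 < δ ∧
    ∀ X ≥ (1 : ℝ), X0 ≤ X → ∀ (μ : ℤ) (S : Finset ℤ) (α β : ℤ → Fin d → ℤ) (pr : ℤ → ℕ),
    SolSet N c X μ S α β pr → ∀ α0 : Fin d → ℤ, (∀ n ∈ S, α n = α0) →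
    (∀ n ∈ S, ∀ n' ∈ S, |(n : ℝ) - n'| ≤ δ * X) → S.card ≤ B := by
  classical
  have hd := N.four_le
  obtain ⟨C, hC1, hθ, hcinv, hemb, -, -⟩ := N.exists_C
  obtain ⟨C1, hC11, hsz⟩ := N.sol_size hc (by linarith)
  obtain ⟨Ck, hCk1, hroot⟩ := exists_root_near (d - 2) (by omega)
  obtain ⟨K, hK⟩ : ∃ K : ℝ, K = (d : ℝ) ^ 2 * C ^ 2 * (C ^ 2 * C1 * (C / c) ^ 2 * 8) := ⟨_, rfl⟩
  have hK0 : 0 ≤ K := by rw [hK]; positivity
  refine ⟨(Fintype.piFinset fun _ : Fin d => Polynomial.nthRootsFinset (d - 2) (1 : ℂ)).card,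
    1 / (8 * C * Ck * (K + 1)), 2 * C, by positivity, fun X hX hXC μ S α β pr h α0 hα hS => ?_⟩
  rcases S.eq_empty_or_nonempty with rfl | ⟨n0, hn0⟩
  · simp
  let i0 : Fin d := ⟨0, by omega⟩
  have hb0 : ∀ n ∈ S, ∀ i, N.emb (β n) i ≠ 0 := fun n hn i => N.emb_ne_zero (h.primB n hn).ne_zero i
  have ha0 : ∀ i, N.emb α0 i ≠ 0 := fun i => N.emb_ne_zero (hα n0 hn0 ▸ (h.primA n0 hn0).ne_zero) i
  have hμ : (μ : ℂ) ≠ 0 := by exact_mod_cast h.mu0
  have hlow : ∀ n ∈ S, ∀ i, X / 2 ≤ ‖(n : ℂ) - N.θ i‖ := fun n hn i => by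
    have h1 := norm_sub_norm_le (n : ℂ) (N.θ i)
    rw [Complex.norm_intCast] at h1
    linarith [(h.rng n hn).1, hθ i]
  have hpow : ∀ n ∈ S, ∀ i, N.emb (β n) i ^ (d - 2) = μ * (n - N.θ i) / N.emb α0 i := fun n hn i => by
    rw [eq_div_iff (ha0 i), mul_comm, ← h.eq n hn i, hα n hn]
  let z : ℤ → Fin d → ℂ := fun n i =>
    N.emb (β n) i / N.emb (β n) i0 / (N.emb (β n0) i / N.emb (β n0) i0)
  have hz : ∀ n ∈ S, ∀ i, Ck * ‖z n i ^ (d - 2) - 1‖ ≤ 1 / ((K + 1) * X) := fun n hn i => by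
    have h1 : (n0 : ℂ) - N.θ i ≠ 0 := sub_ne_zero.2 (N.theta_ne_int n0 i)
    have h2 : (n : ℂ) - N.θ i0 ≠ 0 := sub_ne_zero.2 (N.theta_ne_int n i0)
    have h3 : (n0 : ℂ) - N.θ i0 ≠ 0 := sub_ne_zero.2 (N.theta_ne_int n0 i0)
    have e : z n i ^ (d - 2) - 1 =
        ((n : ℂ) - n0) * (N.θ i - N.θ i0) / ((n0 - N.θ i) * (n - N.θ i0)) := by
      simp only [z, div_pow, hpow n hn, hpow n0 hn0]
      have := ha0 i
      have := ha0 i0
      field_simp
      ring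
    have h4 : ‖(n : ℂ) - n0‖ ≤ 1 / (8 * C * Ck * (K + 1)) * X := by
      have := hS n hn n0 hn0
      rwa [← Int.cast_sub, ← Complex.norm_intCast, Int.cast_sub] at this
    have h5 : ‖N.θ i - N.θ i0‖ ≤ 2 * C := by linarith [norm_sub_le (N.θ i) (N.θ i0), hθ i, hθ i0]
    rw [e, norm_div, norm_mul, norm_mul]
    calc _ ≤ Ck * (1 / (8 * C * Ck * (K + 1)) * X * (2 * C) / (X / 2 * (X / 2))) := by
          gcongr
          · exact hlow n0 hn0 i
          · exact hlow n hn i0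
      _ = _ := by field_simp; ring
  choose ζ hζ1 hζ2 using hroot
  refine Finset.card_le_card_of_injOn (fun n i => ζ (z n i)) (fun n _ => ?_) fun n hn n' hn' hnn => ?_
  · exact Finset.mem_coe.2 (Fintype.mem_piFinset.2 fun i =>
      (Polynomial.mem_nthRootsFinset (by omega) _).2 (hζ1 _))
  replace hn : n ∈ S := hn
  replace hn' : n' ∈ S := hn'
  refine h.fixB hc hc8 hX hn hn' ((h.primB n hn).eq_or_eq_neg (h.primB n' hn') fun s t => ?_)
  have hε : 1 / ((K + 1) * X) ≤ 1 := by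
    rw [div_le_one (by positivity)]
    nlinarith
  have hR : ∀ i, ‖N.emb (β n0) i / N.emb (β n0) i0‖ ≤ C / c := fun i => by
    have h1 := (h.primB n0 hn0).one_le_norm
    rw [norm_div]
    calc _ ≤ C * ‖β n0‖ / (c * ‖β n0‖) := by
          gcongr
          · exact hemb _ _
          · exact h.lowB n0 hn0 i0
      _ = _ := by field_simp
  have hsq : ∀ m ∈ S, ‖β m‖ ^ 2 ≤ C1 * X := fun m hm => by
    have h1 := (hsz X hX μ S α β pr h m hm).1
    have h2 := (h.primA m hm).one_le_norm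
    have h3 : ‖β m‖ ^ 2 ≤ ‖β m‖ ^ (d - 2) := pow_le_pow_right₀ (h.primB m hm).one_le_norm (by omega)
    nlinarith [sq_nonneg ‖β m‖]
  have hAA : ‖N.emb (β n) i0‖ * ‖N.emb (β n') i0‖ ≤ C ^ 2 * C1 * X := by
    have h1 := mul_le_mul (hemb (β n) i0) (hemb (β n') i0) (norm_nonneg _) (by positivity)
    have h2 : ‖β n‖ * ‖β n'‖ ≤ C1 * X := by
      nlinarith [hsq n hn, hsq n' hn', sq_nonneg (‖β n‖ - ‖β n'‖)]
    nlinarith [mul_le_mul_of_nonneg_left h2 (sq_nonneg C)]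
  have hPP : ∀ i j, ‖N.PP (β n) (β n') i j‖ ≤ C ^ 2 * C1 * (C / c) ^ 2 * 8 / (K + 1) := fun i j => by
    have e : N.PP (β n) (β n') i j = N.emb (β n) i0 * N.emb (β n') i0 *
        (N.emb (β n0) i / N.emb (β n0) i0 * (N.emb (β n0) j / N.emb (β n0) i0)) *
        (z n i * z n' j - z n j * z n' i) := by
      have := hb0 n hn i0
      have := hb0 n' hn' i0
      have := hb0 n0 hn0 i0
      have := hb0 n0 hn0 i
      have := hb0 n0 hn0 j
      simp only [NF.PP, z]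
      field_simp
    have hi : ζ (z n i) = ζ (z n' i) := congrFun hnn i
    have hj : ζ (z n j) = ζ (z n' j) := congrFun hnn j
    have h1 := fix2_cross (by omega) hε (hζ1 (z n i)) (hζ1 (z n j)) ((hζ2 _).trans (hz n hn i))
      (hi ▸ (hζ2 _).trans (hz n' hn' i)) ((hζ2 _).trans (hz n hn j)) (hj ▸ (hζ2 _).trans (hz n' hn' j))
    rw [e, norm_mul, norm_mul, norm_mul, norm_mul]
    calc _ ≤ C ^ 2 * C1 * X * (C / c * (C / c)) * (8 * (1 / ((K + 1) * X))) := by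
          gcongr
          · exact hR i
          · exact hR j
      _ = _ := by field_simp
  have h1 : ‖(minor (β n) (β n') s t : ℂ)‖ ≤ K / (K + 1) := by
    rw [N.minor_eq]
    refine (norm_sum_le_of_le (n := fun _ => ∑ _j : Fin d,
      C * C * (C ^ 2 * C1 * (C / c) ^ 2 * 8 / (K + 1))) _ fun i _ =>
        norm_sum_le_of_le _ fun j _ => ?_).trans (le_of_eq ?_)
    · rw [norm_mul, norm_mul]
      gcongr
      · exact hcinv s i
      · exact hcinv t j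
      · exact hPP i j
    · simp only [Finset.sum_const, Finset.card_univ, Fintype.card_fin, nsmul_eq_mul]
      nth_rewrite 2 [hK]
      ring
  have h2 : K / (K + 1) < 1 := (div_lt_one (by positivity)).2 (lt_add_one K)
  rw [Complex.norm_intCast] at h1
  have h3 : |minor (β n) (β n') s t| < 1 := by exact_mod_cast h1.trans_lt h2
  exact Int.abs_lt_one_iff.1 h3

/-- `α` determines `n` up to boundedly many choices.  Cut `[-2X, 2X]` into `O(1/δ)` intervals of length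
`δ X`.  In one interval fix a base point `n0`; for `n` in it let `ρ > 0`, `ρ^k = n / n0`; then
`(β̂ n i / (ρ β̂ n0 i))^k = (1 - θ i / n) / (1 - θ i / n0) = 1 + O(δ / X)`, so (`exists_root_near`)
`β̂ n i = ρ β̂ n0 i (ζ i + O(δ / X))`.  For two points with the same `ζ ∈ μ_k^d` the conjugate minors
`PP (β n) (β n')` are `O(‖β‖² δ / X) = O(δ)` because `‖β‖² ≤ ‖β‖^k ≤ C X` (`sol_size`); by `minor_eq` the
integer minors are `< 1` for small `δ`, so they vanish, `β n = ± β n'` and `n = n'` (`fixB`).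
For `X` bounded the claim is trivial (`card S ≤ 4 X + 1`). -/
theorem NF.fixA (N : NF d) {c : ℝ} (hc : 0 < c) (hc8 : c ≤ 1 / 8) : ∃ C : ℝ, 0 ≤ C ∧
    ∀ X ≥ (1 : ℝ), ∀ (μ : ℤ) (S : Finset ℤ) (α β : ℤ → Fin d → ℤ) (pr : ℤ → ℕ),
    SolSet N c X μ S α β pr → ∀ α0 : Fin d → ℤ, (∀ n ∈ S, α n = α0) → (S.card : ℝ) ≤ C := by
  obtain ⟨B, δ, X0, hδ, hB⟩ := fix2_local N hc hc8
  refine ⟨max (Finset.Icc (-⌈2 * X0⌉) ⌈2 * X0⌉).card (B * (Finset.Icc ⌊-(2 / δ)⌋ ⌊2 / δ⌋).card : ℕ),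
    le_max_of_le_left (Nat.cast_nonneg _), fun X hX μ S α β pr h α0 hα => ?_⟩
  rcases le_total X X0 with hX0 | hX0
  · refine le_max_of_le_left (Nat.cast_le.2 (Finset.card_le_card fun n hn => ?_))
    have h1 := abs_le.1 (h.rng n hn).2
    have h2 := Int.le_ceil (2 * X0)
    rw [Finset.mem_Icc]
    constructor
    · have : ((-⌈2 * X0⌉ : ℤ) : ℝ) ≤ n := by push_cast; linarith [h1.1]
      exact_mod_cast this
    · have : (n : ℝ) ≤ (⌈2 * X0⌉ : ℤ) := by linarith [h1.2]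
      exact_mod_cast this
  · have hδX : 0 < δ * X := by positivity
    refine le_max_of_le_right (Nat.cast_le.2 (Finset.card_le_mul_card_image_of_maps_to
      (f := fun n : ℤ => ⌊(n : ℝ) / (δ * X)⌋) (fun n hn => ?_) B fun m _ => ?_))
    · have h1 := abs_le.1 (h.rng n hn).2
      have e : 2 / δ * (δ * X) = 2 * X := by field_simp
      refine Finset.mem_Icc.2 ⟨Int.floor_mono ?_, Int.floor_mono ?_⟩
      · rw [le_div_iff₀ hδX]
        linarith [h1.1]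
      · rw [div_le_iff₀ hδX]
        linarith [h1.2]
    · refine hB X hX hX0 μ _ α β pr (h.mono (Finset.filter_subset _ _)) α0
        (fun n hn => hα n (Finset.mem_filter.1 hn).1) fun n hn n' hn' => ?_
      have h1 := Int.abs_sub_lt_one_of_floor_eq_floor
        ((Finset.mem_filter.1 hn).2.trans (Finset.mem_filter.1 hn').2.symm)
      rw [← sub_div, abs_div, abs_of_pos hδX, div_lt_one hδX] at h1
      exact h1.le

end Crest.Agent.R22
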