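import Crest.Agent.R22.Kummer

namespace Crest.Agent.R22

open MvPolynomial

private theorem gain1_inj (G : MvPolynomial (Fin 4) ℂ) (hG : G.IsHomogeneous 4)
    (h : ∀ w : Fin 3 → Fin 5, eval (Fin.cons 1 (fun s => ((w s : ℕ) : ℂ)) : Fin 4 → ℂ) G = 0) :
    G = 0 := by
  classical
  set P : MvPolynomial (Fin 3) ℂ := ∑ m ∈ G.support, monomial m.tail (coeff m G) with hP
  have hdeg : ∀ m ∈ G.support, m 0 + ∑ i : Fin 3, m i.succ = 4 := by
    intro m hm
    have h1 : m.degree = 4 := by
      by_contra hne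
      exact (mem_support_iff.1 hm) (hG.coeff_eq_zero hne)
    rw [Finsupp.degree_eq_sum, Fin.sum_univ_succ] at h1
    exact h1
  have hev : ∀ y : Fin 3 → ℂ, eval y P = eval (Fin.cons 1 y : Fin 4 → ℂ) G := by
    intro y
    rw [hP, map_sum, eval_eq' _ G]
    refine Finset.sum_congr rfl fun m _ => ?_
    rw [eval_monomial, Finsupp.prod_fintype _ _ (by simp), Fin.prod_univ_succ (n := 3)]
    simp [Finsupp.tail_apply]
  have hP0 : P = 0 := by
    apply eq_zero_of_eval_zero_at_prod_finset P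
      (fun _ => Finset.univ.image fun k : Fin 5 => ((k : ℕ) : ℂ))
    · intro i
      rw [Finset.card_image_of_injective _
        (fun a b hab => Fin.ext (by exact_mod_cast hab))]
      simp only [Finset.card_univ, Fintype.card_fin]
      refine Nat.lt_succ_of_le ?_
      rw [hP]
      refine (degreeOf_sum_le _ _ _).trans (Finset.sup_le fun m hm => ?_)
      have h1 := hdeg m hm
      have h2 : m i.succ ≤ ∑ i : Fin 3, m i.succ :=
        Finset.single_le_sum (f := fun i : Fin 3 => m i.succ) (fun _ _ => Nat.zero_le _)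
          (Finset.mem_univ i)
      rw [degreeOf_monomial_eq _ _ (mem_support_iff.1 hm), Finsupp.tail_apply]
      omega
    · intro x hx
      have : ∀ i, ∃ k : Fin 5, ((k : ℕ) : ℂ) = x i := fun i => by simpa using hx i
      choose w hw using this
      rw [hev, ← h w]
      congr 3
      exact funext fun i => (hw i).symm
  ext m0
  rw [coeff_zero]
  by_contra hne
  have hm0 : m0 ∈ G.support := mem_support_iff.2 hne
  have h1 : coeff m0.tail P = coeff m0 G := by
    rw [hP, coeff_sum, Finset.sum_eq_single m0]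
    · simp
    · intro m hm hmm
      rw [coeff_monomial, if_neg]
      intro ht
      apply hmm
      have h2 : ∀ i : Fin 3, m i.succ = m0 i.succ := fun i => by
        rw [← Finsupp.tail_apply, ht, Finsupp.tail_apply]
      ext i
      refine Fin.cases ?_ h2 i
      have a1 := hdeg m hm
      have a2 := hdeg m0 hm0
      simp only [h2] at a1
      omega
    · intro h
      exact absurd hm0 h
  rw [hP0, coeff_zero] at h1
  exact hne h1.symm

/-- The values of a quartic form on the grid `(1, w)`, `w ∈ {0, …, 4}³`, control all its values: evaluation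
on the grid is an injective linear map on the finite-dimensional space of quartic forms
(`MvPolynomial.funext_set`-type argument or Lagrange interpolation in each variable after
dehomogenising), so it has a linear left inverse, which is bounded. -/
theorem exists_grid_bound (R : ℝ) : ∃ C : ℝ, 0 < C ∧ ∀ G : MvPolynomial (Fin 4) ℂ,
    G.IsHomogeneous 4 → ∀ z : Fin 4 → ℂ, ‖z‖ ≤ R → ∃ w : Fin 4 → ℤ, w 0 = 1 ∧
      (∀ s, 0 ≤ w s ∧ w s ≤ 4) ∧ ‖eval z G‖ ≤ C * ‖eval (fun s => (w s : ℂ)) G‖ := by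
  classical
  let V := homogeneousSubmodule (Fin 4) ℂ 4
  let ev : V →ₗ[ℂ] ((Fin 3 → Fin 5) → ℂ) := LinearMap.pi fun w =>
    (aeval (R := ℂ) (Fin.cons 1 (fun s => ((w s : ℕ) : ℂ)) : Fin 4 → ℂ)).toLinearMap ∘ₗ V.subtype
  have hev : ∀ (G : V) w, ev G w = eval (Fin.cons 1 (fun s => ((w s : ℕ) : ℂ)) : Fin 4 → ℂ) G.1 :=
    fun G w => rfl
  have hinj : LinearMap.ker ev = ⊥ := by
    rw [LinearMap.ker_eq_bot']
    intro G hG
    apply Subtype.ext
    apply gain1_inj G.1 G.2
    intro w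
    rw [← hev, hG]
    rfl
  obtain ⟨L, hL⟩ := ev.exists_leftInverse_of_injective hinj
  have hb : ∀ w : Fin 3 → Fin 5, ∃ C : ℝ, ∀ z ∈ Metric.closedBall (0 : Fin 4 → ℂ) R,
      ‖eval z (L (Pi.single w 1)).1‖ ≤ C := fun w =>
    (isCompact_closedBall (0 : Fin 4 → ℂ) R).exists_bound_of_continuousOn
      (MvPolynomial.continuous_eval _).continuousOn
  choose C hC using hb
  refine ⟨1 + ∑ w, |C w|, by positivity, fun G hG z hz => ?_⟩
  obtain ⟨w0, -, hw0⟩ := Finset.exists_max_image Finset.univ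
    (fun w : Fin 3 → Fin 5 => ‖ev ⟨G, hG⟩ w‖) Finset.univ_nonempty
  refine ⟨Fin.cons 1 (fun s => ((w0 s : ℕ) : ℤ)), rfl, ?_, ?_⟩
  · intro s
    refine Fin.cases ?_ (fun s => ?_) s
    · simp
    · have := (w0 s).2
      simp only [Fin.cons_succ]
      omega
  have h1 : (fun s => ((Fin.cons 1 (fun s => ((w0 s : ℕ) : ℤ)) : Fin 4 → ℤ) s : ℂ)) =
      (Fin.cons 1 (fun s => ((w0 s : ℕ) : ℂ)) : Fin 4 → ℂ) := by
    funext s
    refine Fin.cases ?_ (fun s => ?_) s <;> simp
  rw [h1, ← hev ⟨G, hG⟩]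
  have h2 : (⟨G, hG⟩ : V) = ∑ w, ev ⟨G, hG⟩ w • L (Pi.single w 1) := by
    have h3 : L (ev ⟨G, hG⟩) = ⟨G, hG⟩ := LinearMap.congr_fun hL _
    rw [← h3]
    conv_lhs => rw [pi_eq_sum_univ' (ev ⟨G, hG⟩), map_sum]
    simp only [map_smul, h3]
  have h4 : eval z G = ∑ w, ev ⟨G, hG⟩ w * eval z (L (Pi.single w 1)).1 := by
    have h5 := congrArg (fun u : V => eval z u.1) h2
    simpa only [Submodule.coe_sum, map_sum, Submodule.coe_smul, smul_eval] using h5
  rw [h4]
  have hz' : z ∈ Metric.closedBall (0 : Fin 4 → ℂ) R := by simpa using hz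
  calc _ ≤ ∑ w, ‖ev ⟨G, hG⟩ w * eval z (L (Pi.single w 1)).1‖ := norm_sum_le _ _
    _ ≤ ∑ w, |C w| * ‖ev ⟨G, hG⟩ w0‖ := by
        refine Finset.sum_le_sum fun w _ => ?_
        rw [norm_mul, mul_comm]
        exact mul_le_mul ((hC w z hz').trans (le_abs_self _)) (hw0 w (Finset.mem_univ _))
          (norm_nonneg _) (abs_nonneg _)
    _ ≤ _ := by
        rw [← Finset.sum_mul]
        exact mul_le_mul_of_nonneg_right (by linarith) (norm_nonneg _)

theorem NF.cinv_minor_ne (N : NF 4) {i j : Fin 4} (h : i ≠ j) :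
    N.cinv 2 i * N.cinv 3 j - N.cinv 2 j * N.cinv 3 i ≠ 0 := by
  have key : ∀ a b : ℂ, N.cinv 2 i * a + N.cinv 2 j * b = 0 → N.cinv 3 i * a + N.cinv 3 j * b = 0 →
      a = 0 ∧ b = 0 := by
    intro a b h2 h3
    set z : Fin 4 → ℂ := Pi.single i a + Pi.single j b with hz
    have hco : ∀ s, N.co z s = N.cinv s i * a + N.cinv s j * b := by
      intro s
      simp [NF.co, hz, mul_add, Finset.sum_add_distrib, Pi.single_apply]
    have hs : ∀ k, N.co z 0 + N.θ k * N.co z 1 = z k := by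
      intro k
      have := N.sum_co z k
      rw [Fin.sum_univ_four, hco 2, hco 3, h2, h3] at this
      simpa using this
    obtain ⟨k, l, hkl, hki, hkj, hli, hlj⟩ : ∃ k l : Fin 4, k ≠ l ∧ k ≠ i ∧ k ≠ j ∧ l ≠ i ∧ l ≠ j :=
      (by decide : ∀ i j : Fin 4, ∃ k l : Fin 4, k ≠ l ∧ k ≠ i ∧ k ≠ j ∧ l ≠ i ∧ l ≠ j) i j
    have hk : z k = 0 := by simp [hz, hki, hkj]
    have hl : z l = 0 := by simp [hz, hli, hlj]
    have e1 : N.co z 1 = 0 := by
      have : (N.θ k - N.θ l) * N.co z 1 = 0 := by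
        linear_combination hs k - hs l + hk - hl
      exact (mul_eq_zero.1 this).resolve_left (sub_ne_zero.2 fun h => hkl (N.inj h))
    have e0 : N.co z 0 = 0 := by
      have := hs k
      rw [e1, hk] at this
      simpa using this
    have hi := hs i
    have hj := hs j
    rw [e0, e1] at hi hj
    simp [hz, h, h.symm] at hi hj
    exact ⟨hi.symm, hj.symm⟩
  intro h0
  obtain ⟨a1, a2⟩ := key (N.cinv 3 j) (-N.cinv 3 i) (by linear_combination h0) (by ring)
  obtain ⟨b1, b2⟩ := key (N.cinv 2 j) (-N.cinv 2 i) (by ring) (by linear_combination -h0)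
  have := (key 1 0 (by linear_combination -b2) (by linear_combination -a2)).1
  exact one_ne_zero this

end Crest.Agent.R22
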