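import Crest.Agent.R22.Kummer

namespace Crest.Agent.R22

open MvPolynomial

theorem gain2_lin {d : ℕ} (N : NF d) (a b : Fin d → ℤ) (r : Fin d) :
    ∃ L : MvPolynomial (Fin d) ℤ, L.IsHomogeneous 1 ∧
      ∀ (Ω : Type) [CommRing Ω] [Algebra ℂ Ω] (y : Fin d → Ω), aeval (N.co y) L =
        N.co (fun i => y i * (algebraMap ℂ Ω (N.emb a i) * algebraMap ℂ Ω (N.emb b i))) r := by
  obtain ⟨c, hc⟩ := N.exists_mul a b
  choose w hw using fun j : Fin d => N.exists_mul (Pi.single j 1) c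
  have hb : ∀ j i : Fin d, N.emb (Pi.single j 1) i = N.θ i ^ (j : ℕ) := fun j i => by
    unfold NF.emb
    rw [Finset.sum_eq_single j (fun s _ hs => by simp [Pi.single_eq_of_ne hs]) (by simp)]
    simp
  refine ⟨∑ j, C (w j r) * X j, IsHomogeneous.sum _ _ _ fun j _ => (isHomogeneous_X ℤ j).C_mul _,
    fun Ω _ _ y => ?_⟩
  have e : ∀ j, ((w j r : ℤ) : Ω) =
      ∑ i, algebraMap ℂ Ω (N.cinv r i) * (algebraMap ℂ Ω (N.θ i ^ (j : ℕ)) *
        (algebraMap ℂ Ω (N.emb a i) * algebraMap ℂ Ω (N.emb b i))) := fun j => by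
    have h1 := congrArg (algebraMap ℂ Ω) (N.co_emb (w j) r)
    rw [map_intCast] at h1
    rw [← h1]
    unfold NF.co
    rw [map_sum]
    refine Finset.sum_congr rfl fun i _ => ?_
    rw [hw, hb, hc]
    simp
  simp only [map_sum, map_mul, aeval_X, eq_intCast, map_intCast, e, Finset.sum_mul]
  rw [Finset.sum_comm]
  conv_rhs => unfold NF.co
  refine Finset.sum_congr rfl fun i _ => ?_
  change _ = algebraMap ℂ Ω (N.cinv r i) *
    (y i * (algebraMap ℂ Ω (N.emb a i) * algebraMap ℂ Ω (N.emb b i)))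
  conv_rhs => rw [← N.sum_co y i, Finset.sum_mul, Finset.mul_sum]
  exact Finset.sum_congr rfl fun j _ => by ring

theorem gain2_res {Ω : Type} [Field Ω] {a0 a1 a2 b0 b1 b2 s t : Ω} (h : s ≠ 0 ∨ t ≠ 0)
    (hf : a0 * s ^ 2 + a1 * s * t + a2 * t ^ 2 = 0) (hg : b0 * s ^ 2 + b1 * s * t + b2 * t ^ 2 = 0) :
    (a0 * b2 - a2 * b0) * (a0 * b2 - a2 * b0) - (a0 * b1 - a1 * b0) * (a1 * b2 - a2 * b1) = 0 := by
  rcases h with h | h
  · refine (mul_eq_zero.1 (?_ : _ * s ^ 3 = 0)).resolve_right (pow_ne_zero 3 h)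
    linear_combination (((a0 * b2 - a2 * b0) * s - (a1 * b2 - a2 * b1) * t) * b2 -
      s * (a1 * b2 - a2 * b1) * b1) * hf - (((a0 * b2 - a2 * b0) * s - (a1 * b2 - a2 * b1) * t) * a2 -
      s * (a1 * b2 - a2 * b1) * a1) * hg
  · refine (mul_eq_zero.1 (?_ : _ * t ^ 3 = 0)).resolve_right (pow_ne_zero 3 h)
    linear_combination (-((a0 * b2 - a2 * b0) * t - (a0 * b1 - a1 * b0) * s) * b0 +
      t * (a0 * b1 - a1 * b0) * b1) * hf + (((a0 * b2 - a2 * b0) * t - (a0 * b1 - a1 * b0) * s) * a0 -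
      t * (a0 * b1 - a1 * b0) * a1) * hg

/-- The quartic `G`.  For `r = 2, 3` the coordinate `r` of `α (e1 s + e2 t)²` is a binary quadratic form
`q r 0 s² + q r 1 s t + q r 2 t²` whose coefficients are integer linear forms in the coordinates of `α`
(the coefficient of `α j` in `q r 0` is the coordinate `r` of the integer vector `θ^j e1²`: `exists_mul`,
`co_emb`).  `G` is their resultant
`(a0 b2 - a2 b0)² - (a0 b1 - a1 b0)(a1 b2 - a2 b1)`, which vanishes when the two forms have a common zero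
`(l1, l2) ≠ 0` (polynomial identities: `G l1³` and `G l2³` are combinations of the two forms).  At the vector with
conjugates `1` at `i, j` and `0` elsewhere the forms are `cinv r i ℓ i² + cinv r j ℓ j²` and
`G = (cinv 2 i cinv 3 j - cinv 2 j cinv 3 i)² PP i j ^ 4` (`ring`).  The minor of `cinv` is nonzero: otherwise a
nonzero vector supported on `{i, j}` has coordinates `2, 3` equal to zero, i.e. is `U + V θ` (`sum_co`)
and vanishes at the two other indices, so `U = V = 0`. -/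
theorem NF.exists_quartic (N : NF 4) (e1 e2 : Fin 4 → ℤ) : ∃ G : MvPolynomial (Fin 4) ℤ,
    G.IsHomogeneous 4 ∧
    (∀ i j, i ≠ j → aeval (fun s => N.cinv s i + N.cinv s j) G =
      (N.cinv 2 i * N.cinv 3 j - N.cinv 2 j * N.cinv 3 i) ^ 2 * N.PP e1 e2 i j ^ 4) ∧
    ∀ (Ω : Type) [Field Ω] [Algebra ℂ Ω] (y : Fin 4 → Ω) (l1 l2 U V : Ω), (l1 ≠ 0 ∨ l2 ≠ 0) →
      (∀ i, y i * (algebraMap ℂ Ω (N.emb e1 i) * l1 + algebraMap ℂ Ω (N.emb e2 i) * l2) ^ 2 =
        U + V * algebraMap ℂ Ω (N.θ i)) → aeval (N.co y) G = 0 := by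
  obtain ⟨a0, ha0, ha0'⟩ := gain2_lin N e1 e1 2
  obtain ⟨a1, ha1, ha1'⟩ := gain2_lin N e1 e2 2
  obtain ⟨a2, ha2, ha2'⟩ := gain2_lin N e2 e2 2
  obtain ⟨b0, hb0, hb0'⟩ := gain2_lin N e1 e1 3
  obtain ⟨b1, hb1, hb1'⟩ := gain2_lin N e1 e2 3
  obtain ⟨b2, hb2, hb2'⟩ := gain2_lin N e2 e2 3
  refine ⟨(a0 * b2 - a2 * b0) * (a0 * b2 - a2 * b0) -
    (a0 * (b1 + b1) - (a1 + a1) * b0) * ((a1 + a1) * b2 - a2 * (b1 + b1)), ?_, fun i j _ => ?_,
    fun Ω _ _ y l1 l2 U V hl h => ?_⟩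
  · exact (((ha0.mul hb2).sub (ha2.mul hb0)).mul ((ha0.mul hb2).sub (ha2.mul hb0))).sub
      (((ha0.mul (hb1.add hb1)).sub ((ha1.add ha1).mul hb0)).mul
        (((ha1.add ha1).mul hb2).sub (ha2.mul (hb1.add hb1))))
  · have e : ∀ (c : Fin 4 → ℂ) (r : Fin 4),
        N.co (fun k => (Pi.single i 1 + Pi.single j 1 : Fin 4 → ℂ) k * c k) r =
          N.cinv r i * c i + N.cinv r j * c j := fun c r => by
      unfold NF.co
      simp [Pi.single_apply, add_mul, mul_add, Finset.sum_add_distrib]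
    have e2 : (fun s => N.cinv s i + N.cinv s j) =
        N.co (Pi.single i 1 + Pi.single j 1 : Fin 4 → ℂ) := by
      funext s
      have := (e 1 s).symm
      simp only [Pi.one_apply, mul_one] at this
      exact this
    rw [e2]
    simp only [map_sub, map_mul, map_add, ha0', ha1', ha2', hb0', hb1', hb2', e]
    simp only [NF.PP, Algebra.algebraMap_self, RingHom.id_apply]
    ring
  · have key : ∀ r : Fin 4, (r : ℕ) ≠ 0 → (r : ℕ) ≠ 1 →
        N.co (fun i => y i * (algebraMap ℂ Ω (N.emb e1 i) * algebraMap ℂ Ω (N.emb e1 i))) r * l1 ^ 2 +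
        (N.co (fun i => y i * (algebraMap ℂ Ω (N.emb e1 i) * algebraMap ℂ Ω (N.emb e2 i))) r +
        N.co (fun i => y i * (algebraMap ℂ Ω (N.emb e1 i) * algebraMap ℂ Ω (N.emb e2 i))) r) * l1 * l2 +
        N.co (fun i => y i * (algebraMap ℂ Ω (N.emb e2 i) * algebraMap ℂ Ω (N.emb e2 i))) r * l2 ^ 2
          = 0 := fun r h0 h1 => by
      have h2 := N.co_lin U V r
      rw [if_neg h0, if_neg h1] at h2
      rw [← h2]
      unfold NF.co
      simp only [Finset.sum_mul, ← Finset.sum_add_distrib]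
      refine Finset.sum_congr rfl fun i _ => ?_
      rw [← h i]
      ring
    simp only [map_sub, map_mul, map_add, ha0', ha1', ha2', hb0', hb1', hb2']
    exact gain2_res hl (key 2 (by decide) (by decide)) (key 3 (by decide) (by decide))

end Crest.Agent.R22
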