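import Crest.Agent.R22.Kummer
import Crest.Agent.R22.Gain1
import Crest.Agent.R22.Gain2

namespace Crest.Agent.R22

open MvPolynomial

private lemma g3_aeval_smul {A : Type} [CommRing A] {G : MvPolynomial (Fin 4) ℤ} {n : ℕ}
    (hG : G.IsHomogeneous n) (t : A) (z : Fin 4 → A) :
    aeval (fun s => t * z s) G = t ^ n * aeval z G := by
  rw [aeval_def, aeval_def, eval₂_eq', eval₂_eq', Finset.mul_sum]
  refine Finset.sum_congr rfl fun e he => ?_
  have h1 : ∑ s, e s = n := by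
    rw [← Finsupp.degree_eq_sum]
    by_contra hne
    exact mem_support_iff.1 he (hG.coeff_eq_zero hne)
  simp only [mul_pow, Finset.prod_mul_distrib, Finset.prod_pow_eq_pow_sum, h1]
  ring

private lemma g3_coeff {G : MvPolynomial (Fin 4) ℤ} {n : ℕ} (hG : G.IsHomogeneous n) :
    aeval (fun s : Fin 4 => if s = 0 then (1 : ℤ) else 0) G = G.coeff (Finsupp.single 0 n) := by
  rw [aeval_def, eval₂_eq', Finset.sum_eq_single (Finsupp.single 0 n)]
  · simp [Fin.prod_univ_four]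
  · intro e he hne
    have h1 : ∑ s, e s = n := by
      rw [← Finsupp.degree_eq_sum]
      by_contra hne
      exact mem_support_iff.1 he (hG.coeff_eq_zero hne)
    have h2 : ∃ s, s ≠ 0 ∧ e s ≠ 0 := by
      by_contra hc
      push Not at hc
      refine hne (Finsupp.ext fun s => ?_)
      by_cases hs : s = 0
      · subst hs
        rw [Finsupp.single_eq_same, ← h1, Finset.sum_eq_single 0 (fun b _ hb => hc b hb) (by simp)]
      · rw [hc s hs, Finsupp.single_eq_of_ne hs]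
    obtain ⟨s, hs, hs'⟩ := h2
    rw [Finset.prod_eq_zero (Finset.mem_univ s) (by simp [hs, hs']), mul_zero]
  · intro h
    simp [notMem_support_iff.1 h]

private lemma g3_integral_aeval (G : MvPolynomial (Fin 4) ℤ) {z : Fin 4 → ℂ}
    (hz : ∀ s, IsIntegral ℤ (z s)) : IsIntegral ℤ (aeval z G) := by
  rw [aeval_def, eval₂_eq']
  exact IsIntegral.sum _ fun e _ => isIntegral_algebraMap.mul
    (IsIntegral.prod _ fun s _ => (hz s).pow _)

private lemma g3_sum_pow (t : ℂ) {ι : Type} (s : Finset ι) (f : ι → ℂ)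
    (hf : ∀ i, IsIntegral ℤ (f i)) (n : ℕ) (h : ∀ i, IsIntegral ℤ (t * f i ^ (n + 1))) :
    IsIntegral ℤ (t * (∑ i ∈ s, f i) ^ (s.card * n + 1)) := by
  let J : Ideal (integralClosure ℤ ℂ) :=
    { carrier := {x | IsIntegral ℤ (t * (x : ℂ))}
      add_mem' := fun {a b} ha hb => by
        change IsIntegral ℤ (t * ((a : ℂ) + b))
        rw [mul_add]
        exact IsIntegral.add ha hb
      zero_mem' := by
        change IsIntegral ℤ (t * (0 : ℂ))
        rw [mul_zero]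
        exact isIntegral_zero
      smul_mem' := fun c x hx => by
        change IsIntegral ℤ (t * ((c : ℂ) * x))
        rw [mul_left_comm]
        exact IsIntegral.mul c.2 hx }
  let f' : ι → integralClosure ℤ ℂ := fun i => ⟨f i, hf i⟩
  have h1 := Ideal.sum_pow_mem_span_pow s f' n
  have h2 : Ideal.span ((fun i => f' i ^ (n + 1)) '' (s : Set ι)) ≤ J := by
    rw [Ideal.span_le]
    rintro _ ⟨i, -, rfl⟩
    exact h i
  have h3 : IsIntegral ℤ (t * (((∑ i ∈ s, f' i) ^ (s.card * n + 1) : integralClosure ℤ ℂ) : ℂ)) :=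
    h2 h1
  simpa [f'] using h3

private lemma g3_dvd {a b : ℤ} (hb : b ≠ 0) (h : IsIntegral ℤ ((a : ℂ) / b)) : b ∣ a := by
  have e : (a : ℂ) / b = algebraMap ℚ ℂ ((a : ℚ) / b) := by simp
  rw [e, isIntegral_algebraMap_iff (algebraMap ℚ ℂ).injective,
    IsIntegrallyClosed.isIntegral_iff] at h
  obtain ⟨y, hy⟩ := h
  refine ⟨y, ?_⟩
  have hb' : (b : ℚ) ≠ 0 := Int.cast_ne_zero.2 hb
  have : (a : ℚ) = b * y := by
    rw [eq_intCast, eq_div_iff hb'] at hy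
    rw [← hy, mul_comm]
  exact_mod_cast this

/-- The substitution `Z ↦ (Z 0, Z s + w s Z 0)`, inverse to `Umat w`. -/
private noncomputable def g3sub (w : Fin 4 → ℤ) (s : Fin 4) : MvPolynomial (Fin 4) ℤ :=
  X s + if s = 0 then 0 else C (w s) * X 0

private lemma g3_sub_hom (w : Fin 4 → ℤ) (s : Fin 4) : (g3sub w s).IsHomogeneous 1 := by
  refine (isHomogeneous_X _ s).add ?_
  split_ifs
  · exact isHomogeneous_zero _ _ _
  · exact isHomogeneous_C_mul_X _ _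

private lemma g3_aeval_sub {A : Type} [CommRing A] (w : Fin 4 → ℤ) (G : MvPolynomial (Fin 4) ℤ)
    (γ : Fin 4 → A) :
    aeval (fun s => ∑ t, (Umat w s t : A) * γ t) (aeval (g3sub w) G) = aeval γ G := by
  rw [← AlgHom.comp_apply, comp_aeval]
  congr 2
  funext s
  fin_cases s <;> simp [g3sub, Umat, Fin.sum_univ_four]

private lemma g3_den (N : NF 4) (D : ℕ) (hD : ∀ s i, IsIntegral ℤ ((D : ℂ) * N.cinv s i)) :
    ∃ D3 : ℤ, D3 ≠ 0 ∧ ∀ i j, i ≠ j → IsIntegral ℤ ((D3 : ℂ) * ((D : ℂ) ^ 4 *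
      (N.cinv 2 i * N.cinv 3 j - N.cinv 2 j * N.cinv 3 i) ^ 2)⁻¹) := by
  have h1 : ∀ ij : Fin 4 × Fin 4, ∃ y : ℤ, y ≠ 0 ∧ IsIntegral ℤ (y • ((D : ℂ) ^ 4 *
      (N.cinv 2 ij.1 * N.cinv 3 ij.2 - N.cinv 2 ij.2 * N.cinv 3 ij.1) ^ 2)⁻¹) := fun ij => by
    refine IsAlgebraic.exists_integral_multiple (IsAlgebraic.inv (IsIntegral.isAlgebraic ?_))
    have e : (D : ℂ) ^ 4 * (N.cinv 2 ij.1 * N.cinv 3 ij.2 - N.cinv 2 ij.2 * N.cinv 3 ij.1) ^ 2 =
        ((D * N.cinv 2 ij.1) * (D * N.cinv 3 ij.2) - (D * N.cinv 2 ij.2) * (D * N.cinv 3 ij.1)) ^ 2 := by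
      ring
    rw [e]
    exact (((hD _ _).mul (hD _ _)).sub ((hD _ _).mul (hD _ _))).pow 2
  choose y hy0 hy using h1
  refine ⟨∏ ij, y ij, Finset.prod_ne_zero_iff.2 fun ij _ => hy0 ij, fun i j _ => ?_⟩
  rw [← Finset.mul_prod_erase _ _ (Finset.mem_univ (i, j)), mul_comm (y (i, j)), Int.cast_mul,
    mul_assoc]
  refine IsIntegral.mul (isIntegral_algebraMap (R := ℤ) (A := ℂ)) ?_
  simpa only [zsmul_eq_mul] using hy (i, j)

/-- The primitive quartic in the coordinates `Z = Umat w γ`.  Take `G` from `exists_quartic`.  By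
`minor_eq` and `big`, some `|PP i j| ≥ c ‖e1‖ ‖e2‖`, so by `exists_grid_bound` some `|G(w)| ≥ c (‖e1‖ ‖e2‖)⁴`.
Let `G' = G(Z 0, Z s + w s Z 0)`; its coefficient of `Z 0 ^ 4` is `G'(1,0,0,0) = G(w)`.  Let `g0 > 0` be the gcd of
the coefficients of `G'` and `G0 = G' / g0`.  Bound for `g0`: with `D` from `exists_den`, `D⁴ G(a^(ij)) / g0` is
an algebraic integer (value of the integer form `G0` at an integral vector), so `D2 PP i j ^ 4 ∈ g0 O` for a
fixed integer `D2 > 0` (`O` = algebraic integers; multiply by an integral multiple of the inverse square of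
the minor of `cinv`).  `D² = ∑ u s t D² minor s t = ∑ i j (integral) PP i j`, so
`D^(2·49) ∈ span (PP i j ^ 4)` (`Ideal.sum_pow_mem_span_pow`), `D2 D^98 / g0` is a rational algebraic integer
and `g0 ≤ D2 D^98`. -/
theorem NF.gain (N : NF 4) : ∃ c' : ℝ, 0 < c' ∧ ∀ e1 e2 : Fin 4 → ℤ,
    (∃ u : Fin 4 → Fin 4 → ℤ, ∑ s, ∑ t, u s t * minor e1 e2 s t = 1) →
    (∃ s t, ‖e1‖ * ‖e2‖ ≤ 2 * |(minor e1 e2 s t : ℝ)|) →
    ∃ (w : Fin 4 → ℤ) (G0 : MvPolynomial (Fin 4) ℤ), (∀ s, 0 ≤ w s ∧ w s ≤ 4) ∧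
      G0.IsHomogeneous 4 ∧ (∀ l : ℕ, l.Prime → ∃ e, ¬ (l : ℤ) ∣ G0.coeff e) ∧
      c' * (‖e1‖ * ‖e2‖) ^ 4 ≤ |((G0.coeff (Finsupp.single 0 4) : ℤ) : ℝ)| ∧
      ∀ (Ω : Type) [Field Ω] [Algebra ℂ Ω] (y : Fin 4 → Ω) (l1 l2 U V : Ω), (l1 ≠ 0 ∨ l2 ≠ 0) →
        (∀ i, y i * (algebraMap ℂ Ω (N.emb e1 i) * l1 + algebraMap ℂ Ω (N.emb e2 i) * l2) ^ 2 =
          U + V * algebraMap ℂ Ω (N.θ i)) → aeval (N.coU (Umat w) y) G0 = 0 := by
  obtain ⟨C, hC1, -, hC, -⟩ := N.exists_C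
  obtain ⟨C₁, hC₁, hgrid⟩ := exists_grid_bound (2 * C)
  obtain ⟨D, hD0, hD, -⟩ := N.exists_den
  obtain ⟨D2, hD2, hden⟩ := g3_den N D hD
  obtain ⟨m₀, hm₀, hm⟩ : ∃ m₀ : ℝ, 0 < m₀ ∧ ∀ i j, i ≠ j →
      m₀ ≤ ‖N.cinv 2 i * N.cinv 3 j - N.cinv 2 j * N.cinv 3 i‖ := by
    obtain ⟨ij, hij, hmin⟩ := Finset.exists_min_image
      (Finset.univ.filter fun ij : Fin 4 × Fin 4 => ij.1 ≠ ij.2)
      (fun ij => ‖N.cinv 2 ij.1 * N.cinv 3 ij.2 - N.cinv 2 ij.2 * N.cinv 3 ij.1‖)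
      ⟨(0, 1), by simp⟩
    exact ⟨_, norm_pos_iff.2 (N.cinv_minor_ne (Finset.mem_filter.1 hij).2),
      fun i j h => hmin (i, j) (Finset.mem_filter.2 ⟨Finset.mem_univ _, h⟩)⟩
  have hC0 : 0 < C := by linarith
  have hB : (0 : ℝ) < |((D2 * (D : ℤ) ^ 98 : ℤ) : ℝ)| :=
    abs_pos.2 (Int.cast_ne_zero.2 (mul_ne_zero hD2 (pow_ne_zero _ (by exact_mod_cast hD0.ne'))))
  set B := |((D2 * (D : ℤ) ^ 98 : ℤ) : ℝ)| with hBdef
  refine ⟨m₀ ^ 2 / (32 * C ^ 2) ^ 4 / (C₁ * B), by positivity, ?_⟩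
  rintro e1 e2 ⟨u, hu⟩ ⟨s₀, t₀, hst⟩
  obtain ⟨G, hGh, hGij, hG0⟩ := N.exists_quartic e1 e2
  have hE : 0 < ‖e1‖ * ‖e2‖ := by
    refine mul_pos (norm_pos_iff.2 ?_) (norm_pos_iff.2 ?_) <;> rintro rfl <;> simp [minor] at hu
  obtain ⟨⟨i, j⟩, -, hij⟩ : ∃ ij ∈ (Finset.univ : Finset (Fin 4 × Fin 4)),
      ‖e1‖ * ‖e2‖ / 32 ≤ C ^ 2 * ‖N.PP e1 e2 ij.1 ij.2‖ := by
    refine Finset.exists_le_of_sum_le Finset.univ_nonempty ?_
    have h1 : |(minor e1 e2 s₀ t₀ : ℝ)| ≤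
        ∑ ij : Fin 4 × Fin 4, C ^ 2 * ‖N.PP e1 e2 ij.1 ij.2‖ := by
      rw [← Complex.norm_intCast, N.minor_eq, Fintype.sum_prod_type]
      refine norm_sum_le_of_le _ fun i _ => norm_sum_le_of_le _ fun j _ => ?_
      rw [norm_mul, norm_mul, sq]
      gcongr
      exacts [hC _ _, hC _ _]
    simp only [Finset.sum_const, Finset.card_univ, Fintype.card_prod, Fintype.card_fin,
      nsmul_eq_mul]
    push_cast
    linarith
  have hP : ‖e1‖ * ‖e2‖ / (32 * C ^ 2) ≤ ‖N.PP e1 e2 i j‖ := by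
    rw [div_le_iff₀ (by positivity)]
    linarith
  have hne : i ≠ j := by
    rintro rfl
    simp only [NF.PP, sub_self, norm_zero] at hP
    exact absurd hP (not_le.2 (by positivity))
  obtain ⟨w, hw0, hw, hwb⟩ := hgrid (map (algebraMap ℤ ℂ) G) (hGh.map _)
    (fun s => N.cinv s i + N.cinv s j) ((pi_norm_le_iff_of_nonneg (by positivity)).2 fun s =>
      (norm_add_le _ _).trans (by linarith [hC s i, hC s j]))
  rw [eval_map, eval_map, ← aeval_def, ← aeval_def, hGij i j hne] at hwb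
  set G' := aeval (g3sub w) G with hG'
  have hG'h : G'.IsHomogeneous 4 := hGh.aeval (g3sub w) (g3_sub_hom w)
  have hco : ((G'.coeff (Finsupp.single 0 4) : ℤ) : ℂ) = aeval (fun s => (w s : ℂ)) G := by
    have e1 : (fun s : Fin 4 => if s = 0 then (1 : ℤ) else 0) =
        fun s => ∑ t, ((Umat w s t : ℤ) : ℤ) * w t := by
      funext s
      fin_cases s <;> simp [Umat, Fin.sum_univ_four, hw0]
    have e2 := g3_aeval_sub w G w
    simp only [Int.cast_id] at e2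
    rw [← g3_coeff hG'h, e1, hG', e2]
    exact (aeval_algebraMap_apply ℂ w G).symm
  rw [← hco, Complex.norm_intCast, norm_mul, norm_pow, norm_pow] at hwb
  have hlow : m₀ ^ 2 * (‖e1‖ * ‖e2‖ / (32 * C ^ 2)) ^ 4 ≤
      C₁ * |((G'.coeff (Finsupp.single 0 4) : ℤ) : ℝ)| := by
    refine le_trans ?_ hwb
    gcongr
    exact hm i j hne
  have hc0 : G'.coeff (Finsupp.single 0 4) ≠ 0 := by
    intro h0
    rw [h0, Int.cast_zero, abs_zero, mul_zero] at hlow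
    exact absurd hlow (not_le.2 (by positivity))
  set g0 := G'.support.gcd (fun e => G'.coeff e) with hg0
  have hg0d : ∀ e, g0 ∣ G'.coeff e := fun e => by
    by_cases he : e ∈ G'.support
    · exact Finset.gcd_dvd he
    · rw [notMem_support_iff.1 he]
      exact dvd_zero _
  have hg00 : g0 ≠ 0 := fun h0 => hc0 (zero_dvd_iff.1 (h0 ▸ hg0d _))
  obtain ⟨G0, hG0e⟩ := (C_dvd_iff_dvd_coeff g0 G').2 hg0d
  have hcf : ∀ e, G'.coeff e = g0 * G0.coeff e := fun e => by rw [hG0e, coeff_C_mul]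
  have hev : ∀ (A : Type) [CommRing A] (γ : Fin 4 → A), aeval γ G =
      (g0 : A) * aeval (fun s => ∑ t, (Umat w s t : A) * γ t) G0 := fun A _ γ => by
    rw [← g3_aeval_sub w G γ, ← hG', hG0e, map_mul, aeval_C, eq_intCast]
  have hDc : (D : ℂ) ≠ 0 := Nat.cast_ne_zero.2 hD0.ne'
  have hgc : (g0 : ℂ) ≠ 0 := Int.cast_ne_zero.2 hg00
  have hint : ∀ z : ℤ, IsIntegral ℤ (z : ℂ) := fun z => isIntegral_algebraMap (R := ℤ) (A := ℂ)
  have hPP : ∀ i j, IsIntegral ℤ ((D2 : ℂ) / g0 * N.PP e1 e2 i j ^ 4) := fun i j => by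
    by_cases hij : i = j
    · subst hij
      simp only [NF.PP, sub_self, ne_eq, OfNat.ofNat_ne_zero, not_false_eq_true, zero_pow, mul_zero]
      exact isIntegral_zero
    have h1 := hev ℂ fun s => (D : ℂ) * (N.cinv s i + N.cinv s j)
    rw [g3_aeval_smul hGh, hGij i j hij] at h1
    have h2 : IsIntegral ℤ (aeval (fun s => ∑ t, (Umat w s t : ℂ) *
        ((D : ℂ) * (N.cinv t i + N.cinv t j))) G0) :=
      g3_integral_aeval G0 fun s => IsIntegral.sum _ fun t _ => (hint _).mul (by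
        rw [mul_add]
        exact (hD _ _).add (hD _ _))
    have h3 := (hden i j hij).mul h2
    have h4 := N.cinv_minor_ne hij
    refine (congrArg (IsIntegral ℤ) ?_).mp h3
    rw [← mul_right_inj' hgc, mul_left_comm (g0 : ℂ) (_ * _⁻¹), ← h1]
    field_simp
  have hdvd : g0 ∣ D2 * (D : ℤ) ^ 98 := by
    refine g3_dvd hg00 ?_
    let f : Fin 4 × Fin 4 → ℂ := fun ij => (∑ s, ∑ t, (u s t : ℂ) *
      (((D : ℂ) * N.cinv s ij.1) * ((D : ℂ) * N.cinv t ij.2))) * N.PP e1 e2 ij.1 ij.2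
    have hc : ∀ ij : Fin 4 × Fin 4, IsIntegral ℤ (∑ s, ∑ t, (u s t : ℂ) *
        (((D : ℂ) * N.cinv s ij.1) * ((D : ℂ) * N.cinv t ij.2))) := fun ij =>
      IsIntegral.sum _ fun s _ => IsIntegral.sum _ fun t _ =>
        (hint _).mul ((hD _ _).mul (hD _ _))
    have hs : ∑ ij, f ij = (D : ℂ) ^ 2 := by
      have h1 : ∑ s, ∑ t, (u s t : ℂ) * (minor e1 e2 s t : ℂ) = 1 := by exact_mod_cast hu
      simp only [N.minor_eq, Finset.mul_sum] at h1
      rw [← mul_one ((D : ℂ) ^ 2), ← h1]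
      simp only [f, Finset.sum_mul, Finset.mul_sum]
      rw [Finset.sum_comm]
      refine Finset.sum_congr rfl fun s _ => ?_
      rw [Finset.sum_comm]
      refine Finset.sum_congr rfl fun t _ => ?_
      rw [Fintype.sum_prod_type]
      exact Finset.sum_congr rfl fun i _ => Finset.sum_congr rfl fun j _ => by ring
    have h1 := g3_sum_pow ((D2 : ℂ) / g0) Finset.univ f
      (fun ij => (hc ij).mul (((N.emb_isIntegral _ _).mul (N.emb_isIntegral _ _)).sub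
        ((N.emb_isIntegral _ _).mul (N.emb_isIntegral _ _)))) 3 fun ij => by
        simp only [f]
        rw [mul_pow, mul_left_comm]
        exact ((hc ij).pow _).mul (hPP _ _)
    rw [hs] at h1
    refine (congrArg (IsIntegral ℤ) ?_).mp h1
    simp only [Finset.card_univ, Fintype.card_prod, Fintype.card_fin]
    push_cast
    ring
  have hgB : |(g0 : ℝ)| ≤ B := by
    have := Int.le_of_dvd (abs_pos.2 (mul_ne_zero hD2 (pow_ne_zero 98
      (by exact_mod_cast hD0.ne' : (D : ℤ) ≠ 0)))) ((abs_dvd_abs _ _).2 hdvd)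
    rw [hBdef, ← Int.cast_abs, ← Int.cast_abs]
    exact_mod_cast this
  refine ⟨w, G0, hw, fun e he => hG'h (by rw [hcf]; exact mul_ne_zero hg00 he), fun l hl => ?_, ?_,
    fun Ω _ _ y l1 l2 U V hl hy => ?_⟩
  · by_contra hc
    push Not at hc
    have h1 : g0 * l ∣ g0 * 1 := by
      rw [mul_one]
      exact Finset.dvd_gcd fun e _ => by rw [hcf]; exact mul_dvd_mul_left _ (hc e)
    have h2 : (l : ℤ) ∣ 1 := (mul_dvd_mul_iff_left hg00).1 h1
    exact hl.not_dvd_one (by exact_mod_cast h2)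
  · rw [hcf, Int.cast_mul, abs_mul] at hlow
    rw [div_mul_eq_mul_div, div_le_iff₀ (by positivity)]
    calc m₀ ^ 2 / (32 * C ^ 2) ^ 4 * (‖e1‖ * ‖e2‖) ^ 4
        = m₀ ^ 2 * (‖e1‖ * ‖e2‖ / (32 * C ^ 2)) ^ 4 := by rw [div_pow]; ring
      _ ≤ _ := hlow
      _ ≤ C₁ * (B * |((G0.coeff (Finsupp.single 0 4) : ℤ) : ℝ)|) := by gcongr
      _ = _ := by ring
  · have h1 := hG0 Ω y l1 l2 U V hl hy
    rw [hev] at h1
    have : CharZero Ω := charZero_of_injective_algebraMap (algebraMap ℂ Ω).injective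
    exact (mul_eq_zero.1 h1).resolve_left (Int.cast_ne_zero.2 hg00)

end Crest.Agent.R22
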