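import Crest.Agent.R22.BetaDeg
import Crest.Agent.R22.Appr

namespace Crest.Agent.R22

open Polynomial
open scoped Polynomial.Bivariate

variable {d : ℕ}

/-- No gain: `Fl = ⊥`, `G T = row`, `G t = 0` for `t < T`. -/
theorem LineCfg.appr_trivial {N : NF d} {p q : ℕ} {c X s1 s2 : ℝ} {μ : ℤ} {e1 e2 : Fin d → ℤ}
    {S : Finset ℤ} {l1 l2 : ℤ → ℤ} {g : ℤ → Fin d → ℤ}
    (h : LineCfg N p q c X s1 s2 μ e1 e2 S l1 l2 g) (hX : 1 ≤ X) (a E T : ℕ) :
    ApprHyp S l1 l2 g X s1 s2 0 1 0 a E T 1 := by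
  classical
  have hX0 : 0 < X := by linarith
  refine ⟨fun _ => ⊥, monotone_const, fun t => by simp, fun i hi m hm => ?_⟩
  refine ⟨fun t n => if t = T then (rowv 1 l1 l2 g a i m n : ℂ) else 0, fun t ht => ?_,
    fun n => by simp, fun t _ n => ?_⟩
  · simp only [ht.ne, if_false]; exact Submodule.zero_mem _
  · rw [one_mul, zero_mul, sub_zero]
    by_cases ht : t = T
    swap
    · simp only [ht, if_false, norm_zero]; positivity
    simp only [ht, if_true]
    obtain ⟨j, rfl⟩ := Nat.exists_eq_add_of_le hi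
    have e2 : X ^ (((i + j : ℕ) : ℝ) * s1 + E * s2) =
        (X ^ s1) ^ i * (X ^ s1) ^ j * ∏ s, (X ^ s2) ^ m s := by
      rw [Real.rpow_add hX0, mul_comm _ s1, mul_comm _ s2, Real.rpow_mul_natCast hX0.le,
        Real.rpow_mul_natCast hX0.le, Finset.prod_pow_eq_pow_sum, hm, pow_add]
    rw [e2, Complex.norm_intCast]
    unfold rowv
    push_cast
    rw [abs_mul, abs_mul, abs_pow, abs_pow, Finset.abs_prod, Nat.add_sub_cancel_left]
    have n1 := h.l1_le n n.2
    have n2 := (h.sz1 n n.2).1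
    have n3 : ∀ s, |((Matrix.mulVec 1 (g n) s : ℤ) : ℝ) ^ m s| ≤ (X ^ s2) ^ m s := fun s => by
      rw [abs_pow, Matrix.one_mulVec]
      refine pow_le_pow_left₀ (abs_nonneg _) (le_trans ?_ (h.sz2 n n.2)) _
      exact (Int.norm_eq_abs _).symm.le.trans (norm_le_pi_norm (g n) s)
    gcongr with s
    exact n3 s

lemma geo1_eval {δ c2 : ℕ} {gh : ℂ[X][Y]} (h1 : gh.natDegree ≤ c2)
    (h2 : ∀ j, (gh.coeff j).natDegree ≤ δ) (x y : ℂ) :
    gh.evalEval x y = ∑ e ∈ Finset.range (δ + 1) ×ˢ Finset.range (c2 + 1),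
      (gh.coeff e.2).coeff e.1 * (x ^ e.1 * y ^ e.2) := by
  rw [evalEval, eval_eq_sum_range' (Nat.lt_succ_of_le h1), eval_finsetSum, Finset.sum_product,
    Finset.sum_comm]
  refine Finset.sum_congr rfl fun j _ => ?_
  rw [eval_mul, eval_pow, eval_C, eval_eq_sum_range' (Nat.lt_succ_of_le (h2 j)), Finset.sum_mul]
  exact Finset.sum_congr rfl fun i _ => by ring

/-- Reduction to standard monomials. -/
lemma geo1_span {ι : Type} {δ c2 : ℕ} {m : ℝ} (hm : 0 < m) (col x y : ι → ℂ) {gh : ℂ[X][Y]}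
    (h0 : gh ≠ 0) (h1 : gh.natDegree ≤ c2) (h2 : ∀ j, (gh.coeff j).natDegree ≤ δ)
    (hz : ∀ n, gh.evalEval (x n) (y n) = 0) (t : ℕ) (e : ℕ × ℕ) (he : m * e.1 + e.2 < t + 1) :
    (fun n => col n * (x n ^ e.1 * y n ^ e.2)) ∈ Submodule.span ℂ
      ((fun e : ℕ × ℕ => fun n => col n * (x n ^ e.1 * y n ^ e.2)) ''
        (Finset.range δ ×ˢ Finset.range (t + 1) ∪
          Finset.range ⌈((t : ℝ) + 1) / m⌉₊ ×ˢ Finset.range c2 : Finset (ℕ × ℕ))) := by
  classical
  set φ : ℕ × ℕ → ι → ℂ := fun e n => col n * (x n ^ e.1 * y n ^ e.2) with hφ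
  set V := Submodule.span ℂ (φ '' (Finset.range δ ×ˢ Finset.range (t + 1) ∪
    Finset.range ⌈((t : ℝ) + 1) / m⌉₊ ×ˢ Finset.range c2 : Finset (ℕ × ℕ))) with hV
  set key : ℕ × ℕ → ℝ ×ₗ ℕ := fun e => toLex (m * e.1 + e.2, e.2) with hkey
  have box : ∀ e : ℕ × ℕ, m * e.1 + e.2 < t + 1 → e.1 < ⌈((t : ℝ) + 1) / m⌉₊ ∧ e.2 < t + 1 := by
    intro e he
    have a1 : (0 : ℝ) ≤ e.2 := Nat.cast_nonneg _
    have a2 : (0 : ℝ) ≤ m * e.1 := by positivity
    constructor
    · rw [Nat.lt_ceil, lt_div_iff₀ hm]; linarith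
    · have : (e.2 : ℝ) < t + 1 := by linarith
      exact_mod_cast this
  set P := (Finset.range (δ + 1) ×ˢ Finset.range (c2 + 1)).filter
    fun e => (gh.coeff e.2).coeff e.1 ≠ 0 with hP
  have hPne : P.Nonempty := by
    have a1 : gh.coeff gh.natDegree ≠ 0 := leadingCoeff_ne_zero.2 h0
    refine ⟨((gh.coeff gh.natDegree).natDegree, gh.natDegree), ?_⟩
    simp only [hP, Finset.mem_filter, Finset.mem_product, Finset.mem_range]
    exact ⟨⟨Nat.lt_succ_of_le (h2 _), Nat.lt_succ_of_le h1⟩, leadingCoeff_ne_zero.2 a1⟩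
  obtain ⟨e0, he0, hmax⟩ := P.exists_max_image key hPne
  have he0' := he0
  simp only [hP, Finset.mem_filter, Finset.mem_product, Finset.mem_range] at he0'
  by_contra hcon
  set B := (Finset.range ⌈((t : ℝ) + 1) / m⌉₊ ×ˢ Finset.range (t + 1)).filter
    fun e => m * e.1 + e.2 < t + 1 ∧ φ e ∉ V with hB
  have memB : ∀ e : ℕ × ℕ, m * e.1 + e.2 < t + 1 → φ e ∉ V → e ∈ B := fun e h1 h2 => by
    simp only [hB, Finset.mem_filter, Finset.mem_product, Finset.mem_range]
    exact ⟨box e h1, h1, h2⟩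
  obtain ⟨f, hf, hmin⟩ := B.exists_min_image key ⟨e, memB e he hcon⟩
  simp only [hB, Finset.mem_filter] at hf
  obtain ⟨-, hf1, hf2⟩ := hf
  have hb := box f hf1
  have hf3 : δ ≤ f.1 ∧ c2 ≤ f.2 := by
    by_contra hne
    refine hf2 (Submodule.subset_span ⟨f, ?_, rfl⟩)
    simp only [Finset.coe_union, Finset.coe_product, Finset.coe_range, Set.mem_union, Set.mem_prod,
      Set.mem_Iio]
    omega
  obtain ⟨i, hi⟩ := Nat.exists_eq_add_of_le (show e0.1 ≤ f.1 by omega)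
  obtain ⟨l, hl⟩ := Nat.exists_eq_add_of_le (show e0.2 ≤ f.2 by omega)
  have rel : ∑ e ∈ P, (gh.coeff e.2).coeff e.1 • φ (e.1 + i, e.2 + l) = 0 := by
    rw [hP, Finset.sum_filter_of_ne (p := fun e : ℕ × ℕ => (gh.coeff e.2).coeff e.1 ≠ 0)
      fun e _ hne h => hne (by rw [h, zero_smul])]
    funext n
    have := hz n
    rw [geo1_eval h1 h2] at this
    simp only [Finset.sum_apply, Pi.smul_apply, smul_eq_mul, hφ, Pi.zero_apply]
    calc _ = col n * (x n ^ i * y n ^ l) * ∑ e ∈ Finset.range (δ + 1) ×ˢ Finset.range (c2 + 1),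
          (gh.coeff e.2).coeff e.1 * (x n ^ e.1 * y n ^ e.2) := by
          rw [Finset.mul_sum]; exact Finset.sum_congr rfl fun e _ => by ring
      _ = 0 := by rw [this, mul_zero]
  rw [← Finset.add_sum_erase _ _ he0, ← hi, ← hl] at rel
  refine hf2 ((V.smul_mem_iff he0'.2).1 ?_)
  rw [eq_neg_of_add_eq_zero_left rel]
  refine V.neg_mem (V.sum_mem fun e he => V.smul_mem _ ?_)
  obtain ⟨hne, heP⟩ := Finset.mem_erase.1 he
  have k1 := hmax e heP
  have r1 : (f.1 : ℝ) = e0.1 + i := by exact_mod_cast hi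
  have r2 : (f.2 : ℝ) = e0.2 + l := by exact_mod_cast hl
  have k2 : key (e.1 + i, e.2 + l) < key f := by
    simp only [hkey, Prod.Lex.toLex_le_toLex, Prod.Lex.toLex_lt_toLex] at k1 ⊢
    push_cast
    rcases k1 with k1 | ⟨k1, k3⟩
    · left; rw [r1, r2]; linarith
    · right
      refine ⟨by rw [r1, r2]; linarith, ?_⟩
      rcases k3.lt_or_eq with k3 | k3
      · omega
      · exfalso
        refine hne (Prod.ext ?_ k3)
        rw [k3, add_left_inj] at k1
        exact_mod_cast mul_left_cancel₀ hm.ne' k1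
  by_contra hV'
  refine absurd (hmin _ (memB _ ?_ hV')) (not_le.2 k2)
  simp only [hkey, Prod.Lex.toLex_lt_toLex] at k2
  rcases k2 with k2 | ⟨k2, -⟩ <;> linarith

/-- Algebraic gain.  Piece `t < T` collects the monomials `u^i ε^l` of `Q` with `t ≤ m i + l < t + 1`, piece `T`
those with weight `≥ T` and the error.  `Fl t = col * span {u^i ε^l : m i + l < t + 1}`.  The polynomials
`gh * u^i ε^l` with `(i + δ, l + c2)` of weight `< t + 1` are independent, lie in the span of the monomials of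
weight `< t + 1`, and vanish on `S`; so `dim Fl t ≤ #{(i, l) : weight < t + 1, i < δ ∨ l < c2}
≤ δ (t + 2) + c2 ((t + 1) / m + 1)`. -/
theorem appr_alg (δ c2 a E T Dg : ℕ) (K C m : ℝ) (hK : 1 ≤ K) (hC : 1 ≤ C) (hm : 0 < m) :
    ∃ Cap : ℝ, ∀ X ≥ (1 : ℝ), ∀ (s1 s2 : ℝ) (S : Finset ℤ) (l1 l2 : ℤ → ℤ) (g : ℤ → Fin d → ℤ)
    (u : ℤ → ℂ), (∀ n ∈ S, X ≤ |(n : ℝ)| ∧ ‖u n‖ ≤ K * X ^ (-m)) →
    AllAppr S 1 l1 l2 g u X s1 s2 a E T Dg C → ∀ gh : ℂ[X][Y], gh ≠ 0 → gh.natDegree ≤ c2 →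
    (∀ j, (gh.coeff j).natDegree ≤ δ) → (∀ n ∈ S, gh.evalEval (u n) (n : ℂ)⁻¹ = 0) →
    ApprHyp S l1 l2 g X s1 s2 1 (δ + c2 / m) (2 * δ + c2 / m + c2) a E T Cap := by
  classical
  refine ⟨C * C * K ^ Dg + C * C, ?_⟩
  intro X hX s1 s2 S l1 l2 g u hS ⟨col, hcol⟩ gh h0 h1 h2 hz
  have hX0 : 0 < X := by linarith
  set φ : ℕ × ℕ → S → ℂ := fun e n => col n * (u n ^ e.1 * ((n : ℤ) : ℂ)⁻¹ ^ e.2) with hφ
  refine ⟨fun t => Submodule.span ℂ (φ '' {e | m * e.1 + e.2 < t + 1}), fun t t' htt => ?_,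
    fun t => ?_, fun i hi mm hmm => ?_⟩
  · refine Submodule.span_mono (Set.image_mono fun e he => ?_)
    have : (t : ℝ) ≤ t' := by exact_mod_cast htt
    simp only [Set.mem_ofPred_eq] at he ⊢
    linarith
  · set St : Finset (ℕ × ℕ) := Finset.range δ ×ˢ Finset.range (t + 1) ∪
      Finset.range ⌈((t : ℝ) + 1) / m⌉₊ ×ˢ Finset.range c2 with hSt
    have a1 : Submodule.span ℂ (φ '' {e | m * e.1 + e.2 < t + 1}) ≤
        Submodule.span ℂ (St.image φ : Set (S → ℂ)) := by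
      rw [Submodule.span_le, Finset.coe_image]
      rintro _ ⟨e, he, rfl⟩
      exact geo1_span hm (fun n : S => col n) (fun n => u n) (fun n => ((n : ℤ) : ℂ)⁻¹) h0 h1 h2
        (fun n => hz n n.2) t e he
    have a2 := (Submodule.finrank_mono a1).trans ((finrank_span_finset_le_card _).trans
      (Finset.card_image_le.trans (Finset.card_union_le _ _)))
    simp only [Finset.card_product, Finset.card_range] at a2
    have a3 : (⌈((t : ℝ) + 1) / m⌉₊ : ℝ) ≤ (t + 1) / m + 1 := (Nat.ceil_lt_add_one (by positivity)).le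
    calc _ ≤ ((δ * (t + 1) + ⌈((t : ℝ) + 1) / m⌉₊ * c2 : ℕ) : ℝ) := by exact_mod_cast a2
      _ ≤ δ * (t + 1) + ((t + 1) / m + 1) * c2 + δ := by
          push_cast
          have : (0 : ℝ) ≤ δ := Nat.cast_nonneg _
          have : (⌈((t : ℝ) + 1) / m⌉₊ : ℝ) * c2 ≤ ((t + 1) / m + 1) * c2 := by gcongr
          linarith
      _ = _ := by ring
  obtain ⟨r, Q, q1, q2, q3⟩ := hcol i hi mm hmm
  set k : (Fin 2 →₀ ℕ) → ℕ := fun e => min ⌊m * e 0 + e 1⌋₊ T with hk
  set Z := X ^ (a * s1 + E * s2) with hZ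
  have hZ0 : 0 < Z := by positivity
  refine ⟨fun t => (∑ e ∈ Q.support with k e = t, (r * Q.coeff e) • φ (e 0, e 1)) +
    if t = T then (fun n : S => (rowv 1 l1 l2 g a i mm n : ℂ) -
      r * col n * MvPolynomial.eval ![u n, ((n : ℤ) : ℂ)⁻¹] Q) else 0, fun t ht => ?_,
    fun n => ?_, fun t ht n => ?_⟩
  · simp only [ht.ne, if_false, add_zero]
    refine Submodule.sum_mem _ fun e he => Submodule.smul_mem _ _
      (Submodule.subset_span ⟨_, ?_, rfl⟩)
    have a1 := (Finset.mem_filter.1 he).2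
    have a2 : ⌊m * e 0 + e 1⌋₊ = t := by simp only [hk] at a1; omega
    have a3 := Nat.lt_floor_add_one (m * e 0 + e 1)
    rwa [a2] at a3
  · rw [← Finset.sum_apply, Finset.sum_add_distrib, Finset.sum_fiberwise_of_maps_to
      (fun e _ => Finset.mem_range.2 (Nat.lt_succ_of_le (min_le_right _ _))), Finset.sum_ite_eq']
    simp only [Finset.mem_range, Nat.lt_succ_self, if_true, Pi.add_apply, Finset.sum_apply,
      Pi.smul_apply, smul_eq_mul, hφ, MvPolynomial.eval_eq', Fin.prod_univ_two,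
      Matrix.cons_val_zero, Matrix.cons_val_one, Finset.mul_sum]
    rw [add_sub, eq_sub_iff_add_eq, add_comm, add_left_inj]
    exact Finset.sum_congr rfl fun e _ => by ring
  · obtain ⟨b1, b2⟩ := q3 n n.2
    obtain ⟨b3, b4⟩ := hS n n.2
    have e1 : X ^ (a * s1 + E * s2 - 1 * (t : ℝ)) = Z * X ^ (-(t : ℝ)) := by
      rw [hZ, ← Real.rpow_add hX0]; congr 1; ring
    have hρ : 0 < X ^ (-(t : ℝ)) := by positivity
    beta_reduce
    rw [e1, Pi.add_apply]
    refine (norm_add_le _ _).trans ?_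
    have c1 : ‖(∑ e ∈ Q.support with k e = t, (r * Q.coeff e) • φ (e 0, e 1)) n‖ ≤
        C * C * K ^ Dg * (Z * X ^ (-(t : ℝ))) := by
      rw [Finset.sum_apply]
      refine (norm_sum_le _ _).trans ?_
      calc _ ≤ ∑ e ∈ Q.support with k e = t,
            ‖Q.coeff e‖ * (C * Z * (K ^ Dg * X ^ (-(t : ℝ)))) := by
            refine Finset.sum_le_sum fun e he => ?_
            obtain ⟨he1, he2⟩ := Finset.mem_filter.1 he
            have d1 : e 0 ≤ Dg := (MvPolynomial.monomial_le_degreeOf 0 he1).trans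
              ((MvPolynomial.degreeOf_le_totalDegree Q 0).trans q1)
            have d2 : (t : ℝ) ≤ m * e 0 + e 1 := by
              have : t ≤ ⌊m * e 0 + e 1⌋₊ := by simp only [hk] at he2; omega
              exact (Nat.le_floor_iff (by positivity)).1 this
            have d3 : ‖((n : ℤ) : ℂ)⁻¹‖ ≤ X ^ (-1 : ℝ) := by
              rw [norm_inv, Complex.norm_intCast, Real.rpow_neg_one]
              exact inv_anti₀ hX0 b3
            have d4 : ‖u n ^ e 0 * ((n : ℤ) : ℂ)⁻¹ ^ e 1‖ ≤ K ^ Dg * X ^ (-(t : ℝ)) := by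
              rw [norm_mul, norm_pow, norm_pow]
              calc _ ≤ (K * X ^ (-m)) ^ e 0 * (X ^ (-1 : ℝ)) ^ e 1 := by gcongr
                _ = K ^ e 0 * X ^ (-(m * e 0 + e 1)) := by
                    rw [mul_pow, ← Real.rpow_mul_natCast hX0.le, ← Real.rpow_mul_natCast hX0.le,
                      mul_assoc, ← Real.rpow_add hX0]
                    congr 2; ring
                _ ≤ _ := by gcongr
            rw [Pi.smul_apply, smul_eq_mul, hφ, show r * Q.coeff e *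
              (col n * (u n ^ e 0 * ((n : ℤ) : ℂ)⁻¹ ^ e 1)) =
              Q.coeff e * (r * col n * (u n ^ e 0 * ((n : ℤ) : ℂ)⁻¹ ^ e 1)) by ring, norm_mul,
              norm_mul (r * col n)]
            gcongr
        _ = (∑ e ∈ Q.support with k e = t, ‖Q.coeff e‖) * (C * Z * (K ^ Dg * X ^ (-(t : ℝ)))) := by
            rw [Finset.sum_mul]
        _ ≤ C * (C * Z * (K ^ Dg * X ^ (-(t : ℝ)))) := by
            gcongr
            exact (Finset.sum_le_sum_of_subset_of_nonneg (Finset.filter_subset _ _)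
              fun _ _ _ => norm_nonneg _).trans q2
        _ = _ := by ring
    have c2 : ‖(if t = T then (fun n : S => (rowv 1 l1 l2 g a i mm n : ℂ) -
        r * col n * MvPolynomial.eval ![u n, ((n : ℤ) : ℂ)⁻¹] Q) else 0) n‖ ≤
        C * C * (Z * X ^ (-(t : ℝ))) := by
      by_cases htT : t = T
      · simp only [htT, if_true]
        exact b2.trans (le_of_eq (by ring))
      · simp only [htT, if_false, Pi.zero_apply, norm_zero]; positivity
    linarith

end Crest.Agent.R22
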