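import Crest.Agent.R22.BetaDeg
import Crest.Agent.R22.Appr

namespace Crest.Agent.R22

open Polynomial
open scoped Polynomial.Bivariate

variable {d : ℕ}

/-- Decomposition along a filtration with weights `w`. -/
def Geo2Dec {ι : Type} (Fl : ℕ → Submodule ℂ (ι → ℂ)) (T : ℕ) (w : ℕ → ℝ) (c : ℝ) (f : ι → ℂ) :
    Prop :=
  ∃ G : ℕ → ι → ℂ, (∀ t < T, G t ∈ Fl t) ∧ f = ∑ t ∈ Finset.range (T + 1), G t ∧
    ∀ t ≤ T, ∀ n, ‖G t n‖ ≤ c * w t

section dec
variable {ι : Type} {Fl : ℕ → Submodule ℂ (ι → ℂ)} {T : ℕ} {w : ℕ → ℝ} {c c' : ℝ} {f g : ι → ℂ}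

lemma Geo2Dec.mono (hw : ∀ t, 0 ≤ w t) (h : Geo2Dec Fl T w c f) (hc : c ≤ c') :
    Geo2Dec Fl T w c' f := by
  obtain ⟨G, h1, h2, h3⟩ := h
  exact ⟨G, h1, h2, fun t ht n => (h3 t ht n).trans (mul_le_mul_of_nonneg_right hc (hw t))⟩

lemma Geo2Dec.add (h : Geo2Dec Fl T w c f) (h' : Geo2Dec Fl T w c' g) :
    Geo2Dec Fl T w (c + c') (f + g) := by
  obtain ⟨G, h1, h2, h3⟩ := h
  obtain ⟨G', h1', h2', h3'⟩ := h'
  refine ⟨G + G', fun t ht => add_mem (h1 t ht) (h1' t ht), ?_, fun t ht n => ?_⟩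
  · simp only [h2, h2', Pi.add_apply, Finset.sum_add_distrib]
  · exact (norm_add_le_of_le (h3 t ht n) (h3' t ht n)).trans_eq (by ring)

lemma Geo2Dec.smul (h : Geo2Dec Fl T w c f) {z : ℂ} {K : ℝ} (hz : ‖z‖ ≤ K) :
    Geo2Dec Fl T w (K * c) (z • f) := by
  obtain ⟨G, h1, h2, h3⟩ := h
  refine ⟨z • G, fun t ht => Submodule.smul_mem _ _ (h1 t ht), ?_, fun t ht n => ?_⟩
  · simp only [h2, Pi.smul_apply, Finset.smul_sum]
  · rw [Pi.smul_apply, Pi.smul_apply, norm_smul, mul_assoc]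
    exact mul_le_mul hz (h3 t ht n) (norm_nonneg _) ((norm_nonneg _).trans hz)

lemma Geo2Dec.sum {α : Type} (s : Finset α) {c : α → ℝ} {f : α → ι → ℂ}
    (h : ∀ a ∈ s, Geo2Dec Fl T w (c a) (f a)) :
    Geo2Dec Fl T w (∑ a ∈ s, c a) (∑ a ∈ s, f a) := by
  classical
  induction s using Finset.induction_on with
  | empty => exact ⟨0, fun t _ => zero_mem _, by simp, fun t _ n => by simp⟩
  | insert a s ha ih =>
    rw [Finset.sum_insert ha, Finset.sum_insert ha]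
    exact (h a (Finset.mem_insert_self _ _)).add
      (ih fun b hb => h b (Finset.mem_insert_of_mem hb))

lemma Geo2Dec.single (hw : ∀ t, 0 ≤ w t) (hc : 0 ≤ c) {l : ℕ} (hl : l ≤ T) (h1 : l < T → f ∈ Fl l)
    (h2 : ∀ n, ‖f n‖ ≤ c * w l) : Geo2Dec Fl T w c f := by
  refine ⟨fun t => if t = l then f else 0, fun t ht => ?_, ?_, fun t _ n => ?_⟩
  · by_cases h : t = l
    · subst h; simpa using h1 ht
    · simp [h]
  · simp [Nat.lt_succ_of_le hl]
  · by_cases h : t = l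
    · subst h; simpa using h2 n
    · simpa [h] using mul_nonneg hc (hw t)

lemma geo2_mono {δ : ℕ} {K W ρ : ℝ} (hK : 1 ≤ K) (hW : 0 ≤ W) (hρ0 : 0 ≤ ρ) (hρ : ρ ≤ 1)
    {c0 u e : ι → ℂ} (hc0 : ∀ n, ‖c0 n‖ ≤ W) (hu : ∀ n, ‖u n‖ ≤ K) (he : ∀ n, ‖e n‖ ≤ ρ)
    {a2 a1 a0 : ℕ → ℂ} (h2 : ∀ j, ‖a2 j‖ ≤ K) (h1 : ∀ j, ‖a1 j‖ ≤ K) (h0 : ∀ j, ‖a0 j‖ ≤ K)
    (hrel : ∀ n, u n ^ δ = ∑ j ∈ Finset.range δ, a2 j * u n ^ j +
      e n * ∑ j ∈ Finset.range (δ + 1), a1 j * u n ^ j +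
      e n ^ 2 * ∑ j ∈ Finset.range (δ + 1), a0 j * u n ^ j)
    (hF : ∀ i < δ, ∀ l, (fun n => c0 n * (u n ^ i * e n ^ l)) ∈ Fl l) (s i l : ℕ)
    (hs : T - l + i ≤ s) :
    Geo2Dec Fl T (fun t => W * ρ ^ t) (((3 * δ + 2) * K) ^ s) fun n => c0 n * (u n ^ i * e n ^ l) := by
  have hw : ∀ t, 0 ≤ W * ρ ^ t := fun t => by positivity
  have hKB : K ≤ (3 * δ + 2) * K := le_mul_of_one_le_left (by linarith)
    (by linarith [Nat.cast_nonneg (α := ℝ) δ])
  have direct : ∀ s i l, i ≤ s → (T ≤ l ∨ i < δ) → Geo2Dec Fl T (fun t => W * ρ ^ t)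
      (((3 * δ + 2) * K) ^ s) fun n => c0 n * (u n ^ i * e n ^ l) := by
    intro s i l hi h
    refine Geo2Dec.single hw (by positivity) (min_le_right l T) (fun hl => ?_) fun n => ?_
    · have : min l T = l := by omega
      rw [this]
      exact hF i (by omega) l
    · have a1 : ‖u n‖ ^ i ≤ ((3 * δ + 2) * K) ^ s :=
        (pow_le_pow_left₀ (norm_nonneg _) ((hu n).trans hKB) i).trans
          (pow_le_pow_right₀ (hK.trans hKB) hi)
      have a2 : ‖e n‖ ^ l ≤ ρ ^ min l T :=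
        (pow_le_pow_left₀ (norm_nonneg _) (he n) l).trans
          (pow_le_pow_of_le_one hρ0 hρ (min_le_left l T))
      rw [norm_mul, norm_mul, norm_pow, norm_pow]
      calc _ ≤ W * (((3 * δ + 2) * K) ^ s * ρ ^ min l T) := by have := hc0 n; gcongr
        _ = _ := by ring
  induction s generalizing i l with
  | zero => exact direct 0 i l (by omega) (by omega)
  | succ s ih =>
    by_cases h : T ≤ l ∨ i < δ
    · exact direct _ i l (by omega) h
    obtain ⟨k, rfl⟩ := Nat.exists_eq_add_of_le (show δ ≤ i by omega)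
    have d2 := Geo2Dec.sum (Finset.range δ) fun j hj =>
      (ih (j + k) l (by have := Finset.mem_range.1 hj; omega)).smul (h2 j)
    have d1 := Geo2Dec.sum (Finset.range (δ + 1)) fun j hj =>
      (ih (j + k) (l + 1) (by have := Finset.mem_range.1 hj; omega)).smul (h1 j)
    have d0 := Geo2Dec.sum (Finset.range (δ + 1)) fun j hj =>
      (ih (j + k) (l + 2) (by have := Finset.mem_range.1 hj; omega)).smul (h0 j)
    convert (d2.add d1).add d0 using 1
    · simp only [Finset.sum_const, Finset.card_range, nsmul_eq_mul]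
      push_cast
      ring
    · funext n
      simp only [Pi.add_apply, Finset.sum_apply, Pi.smul_apply, smul_eq_mul]
      rw [pow_add, hrel n]
      simp only [add_mul, mul_add, Finset.sum_mul, Finset.mul_sum]
      congr 1
      · congr 1
        · exact Finset.sum_congr rfl fun j _ => by ring
        · exact Finset.sum_congr rfl fun j _ => by ring
      · exact Finset.sum_congr rfl fun j _ => by ring

end dec

/-- Geometric gain.  On `S`: `h2(u) = - ε h1(u) - ε² h0(u)` with `h2` monic of degree `δ`.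
`Fl t = col * span {u^i ε^l : i < δ, l ≤ t}`.  Claim (downward induction on `l ≤ T`, for all degrees `D`): for
`P` of degree `≤ D` with coefficients `≤ 1`, `P(u) ε^l = ∑_{t = l}^{T} G t` with `G t ∈ span {u^i ε^t : i < δ}` for
`t < T` and `|G t| ≤ C_{D,l} X^(κ (t - l) - t)`: divide `P = h2 Q + r` (`modByMonic`, coefficients of `Q, r` bounded
in terms of `D, δ, K`), keep `r ε^l`, and apply the hypothesis to `- Q h1 ε^(l+1)`, `- Q h0 ε^(l+2)` (normalised
by `K X^κ`; terms with exponent `≥ T` go to the last piece). -/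
theorem appr_geo (δ a E T Dg : ℕ) (K C κ : ℝ) (hK : 1 ≤ K) (hC : 1 ≤ C) (hκ : 0 ≤ κ) (hκ1 : κ ≤ 1) :
    ∃ Cap : ℝ, ∀ X ≥ (1 : ℝ), ∀ (s1 s2 : ℝ) (S : Finset ℤ) (l1 l2 : ℤ → ℤ) (g : ℤ → Fin d → ℤ)
    (u : ℤ → ℂ), (∀ n ∈ S, X ≤ |(n : ℝ)| ∧ ‖u n‖ ≤ K) →
    AllAppr S 1 l1 l2 g u X s1 s2 a E T Dg C → ∀ h2 h1 h0 : ℂ[X], h2.Monic → h2.natDegree = δ →
    h1.natDegree ≤ δ → h0.natDegree ≤ δ → (∀ j, ‖h2.coeff j‖ ≤ K) →
    (∀ j, ‖h1.coeff j‖ ≤ K * X ^ κ ∧ ‖h0.coeff j‖ ≤ K * X ^ κ) →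
    (∀ n ∈ S, h2.eval (u n) + (n : ℂ)⁻¹ * h1.eval (u n) + (n : ℂ)⁻¹ ^ 2 * h0.eval (u n) = 0) →
    ApprHyp S l1 l2 g X s1 s2 (1 - κ) δ δ a E T Cap := by
  classical
  refine ⟨C * (C * ((3 * δ + 2) * K) ^ (T + Dg) + C), ?_⟩
  intro X hX s1 s2 S l1 l2 g u hS ⟨col, hcol⟩ h2 h1 h0 hm hd2 hd1 hd0 hb2 hb1 hz
  have hX0 : 0 < X := by linarith
  have hk1 : 1 ≤ X ^ κ := Real.one_le_rpow hX hκ
  have hk0 : 0 < X ^ κ := by linarith
  set x : ℂ := ((X ^ κ : ℝ) : ℂ) with hx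
  have hx0 : x ≠ 0 := Complex.ofReal_ne_zero.2 hk0.ne'
  have hxn : ‖x‖ = X ^ κ := by rw [hx, Complex.norm_real, Real.norm_of_nonneg hk0.le]
  set ρ := X ^ (κ - 1) with hρ
  have hρ0 : 0 ≤ ρ := by positivity
  have hρ1 : ρ ≤ 1 := Real.rpow_le_one_of_one_le_of_nonpos hX (by linarith)
  set e : S → ℂ := fun n => x * ((n : ℤ) : ℂ)⁻¹ with he
  have hen : ∀ n, ‖e n‖ ≤ ρ := fun n => by
    rw [he, hρ, Real.rpow_sub_one hX0.ne', div_eq_mul_inv]
    simp only [norm_mul, hxn, norm_inv, Complex.norm_intCast]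
    exact mul_le_mul_of_nonneg_left (inv_anti₀ hX0 (hS n n.2).1) hk0.le
  set φ : ℕ × ℕ → S → ℂ := fun p n => col n * (u n ^ p.1 * e n ^ p.2) with hφ
  set Fl : ℕ → Submodule ℂ (S → ℂ) := fun t => Submodule.span ℂ
    ((Finset.range δ ×ˢ Finset.range (t + 1)).image φ : Set (S → ℂ)) with hFl
  refine ⟨Fl, fun t t' htt => ?_, fun t => ?_, fun i hi mm hmm => ?_⟩
  · exact Submodule.span_mono (Finset.coe_subset.2 (Finset.image_subset_image
      (Finset.product_subset_product_right (Finset.range_subset_range.2 (by omega)))))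
  · have a2 := (finrank_span_finset_le_card (R := ℂ)
      ((Finset.range δ ×ˢ Finset.range (t + 1)).image φ)).trans Finset.card_image_le
    simp only [Finset.card_product, Finset.card_range] at a2
    calc _ ≤ ((δ * (t + 1) : ℕ) : ℝ) := by exact_mod_cast a2
      _ = _ := by push_cast; ring
  obtain ⟨r, Q, q1, q2, q3⟩ := hcol i hi mm hmm
  set W := C * X ^ (a * s1 + E * s2) with hW
  have hW0 : 0 ≤ W := by positivity
  have hw : ∀ t : ℕ, 0 ≤ W * ρ ^ t := fun t => by positivity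
  have key := geo2_mono (Fl := Fl) (T := T) (δ := δ) hK hW0 hρ0 hρ1 (c0 := fun n : S => r * col n)
    (u := fun n => u n) (e := e) (fun n => (q3 n n.2).1) (fun n => (hS n n.2).2) hen
    (a2 := fun j => -h2.coeff j) (a1 := fun j => -(h1.coeff j / x))
    (a0 := fun j => -(h0.coeff j / x ^ 2)) (fun j => by simpa using hb2 j)
    (fun j => by
      rw [norm_neg, norm_div, hxn, div_le_iff₀ hk0]; exact (hb1 j).1)
    (fun j => by
      rw [norm_neg, norm_div, norm_pow, hxn, div_le_iff₀ (by positivity)]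
      exact (hb1 j).2.trans (mul_le_mul_of_nonneg_left (le_self_pow₀ hk1 two_ne_zero) (by linarith)))
    (fun n => by
      have := hz n n.2
      rw [eval_eq_sum_range' (Nat.lt_succ_of_le hd2.le), eval_eq_sum_range' (Nat.lt_succ_of_le hd1),
        eval_eq_sum_range' (Nat.lt_succ_of_le hd0), Finset.sum_range_succ,
        show h2.coeff δ = 1 from hd2 ▸ hm.coeff_natDegree] at this
      simp only [neg_mul, Finset.sum_neg_distrib, div_mul_eq_mul_div, ← Finset.sum_div, he]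
      field_simp
      field_simp at this
      linear_combination this)
    (fun i hi l => by
      have : (fun n : S => r * col n * (u n ^ i * e n ^ l)) = r • φ (i, l) := by
        funext n; simp [hφ, mul_assoc]
      rw [this]
      refine Submodule.smul_mem _ _ (Submodule.subset_span ?_)
      exact Finset.mem_coe.2 (Finset.mem_image_of_mem _ (by simp [hi])))
  have d1 := Geo2Dec.sum Q.support fun m hm => (key (T + Dg) (m 0) (m 1) (by
    have : m 0 ≤ Dg := (MvPolynomial.monomial_le_degreeOf 0 hm).trans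
      ((MvPolynomial.degreeOf_le_totalDegree Q 0).trans q1)
    omega)).smul (z := Q.coeff m / x ^ m 1) (K := ‖Q.coeff m‖) (by
      rw [norm_div, norm_pow, hxn]
      exact div_le_self (norm_nonneg _) (one_le_pow₀ hk1))
  have d2 : Geo2Dec Fl T (fun t => W * ρ ^ t) C fun n : S => (rowv 1 l1 l2 g a i mm n : ℂ) -
      r * col n * MvPolynomial.eval ![u n, ((n : ℤ) : ℂ)⁻¹] Q :=
    Geo2Dec.single hw (by linarith) le_rfl (fun h => absurd h (lt_irrefl _)) fun n => by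
      refine (q3 n n.2).2.trans ?_
      have : X ^ (-(T : ℝ)) ≤ ρ ^ T := by
        rw [hρ, ← Real.rpow_mul_natCast hX0.le]
        exact Real.rpow_le_rpow_of_exponent_le hX
          (by nlinarith [mul_nonneg hκ (Nat.cast_nonneg (α := ℝ) T)])
      rw [mul_assoc]
      gcongr
  obtain ⟨G, g1, g2, g3⟩ := (d1.add d2).mono hw
    (c' := C * ((3 * δ + 2) * K) ^ (T + Dg) + C) (by
      rw [← Finset.sum_mul]
      gcongr)
  refine ⟨G, g1, fun n => ?_, fun t ht n => (g3 t ht n).trans_eq ?_⟩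
  · rw [← Finset.sum_apply, ← g2]
    simp only [Pi.add_apply, Finset.sum_apply, Pi.smul_apply, smul_eq_mul, MvPolynomial.eval_eq',
      Fin.prod_univ_two, Matrix.cons_val_zero, Matrix.cons_val_one, Finset.mul_sum, he]
    rw [add_sub, eq_sub_iff_add_eq, add_comm, add_left_inj]
    refine Finset.sum_congr rfl fun m _ => ?_
    rw [mul_pow]
    field_simp
  · beta_reduce
    rw [hW, hρ, ← Real.rpow_mul_natCast hX0.le, show (a : ℝ) * s1 + E * s2 - (1 - κ) * t =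
      a * s1 + E * s2 + (κ - 1) * t by ring, Real.rpow_add hX0 (a * s1 + E * s2)]
    ring

end Crest.Agent.R22
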