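import Crest.Agent.R22.BetaDeg
import Crest.Agent.R22.Appr

namespace Crest.Agent.R22

open Polynomial
open scoped Polynomial.Bivariate

variable {d : ℕ}

theorem geo3_mul_mod {L M : ℂ[X]} (hL : L.Monic) (hM : M.Monic) (P : ℂ[X]) :
    (L * P) %ₘ (L * M) = L * (P %ₘ M) := by
  refine (div_modByMonic_unique (P /ₘ M) _ (hL.mul hM) ⟨?_, ?_⟩).2
  · rw [mul_assoc, ← mul_add, modByMonic_add_div]
  · rw [degree_mul, degree_mul]
    exact WithBot.add_lt_add_left (degree_ne_bot.2 hL.ne_zero) (degree_modByMonic_lt P hM)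

theorem geo3_lin {y : ℂ} {R c : ℝ} (hy : ‖y‖ ≤ R) {p : ℂ[X]} (h : ∀ j, ‖p.coeff j‖ ≤ c) (j : ℕ) :
    ‖((X - C y) * p).coeff j‖ ≤ (1 + R) * c := by
  have hc : 0 ≤ c := (norm_nonneg _).trans (h 0)
  have h1 : ‖(X * p).coeff j‖ ≤ c := by
    cases j with
    | zero => simpa using hc
    | succ j => rw [coeff_X_mul]; exact h j
  have h2 : ‖(C y * p).coeff j‖ ≤ R * c := by
    rw [coeff_C_mul, norm_mul]
    exact mul_le_mul hy (h j) (norm_nonneg _) ((norm_nonneg _).trans hy)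
  rw [sub_mul, coeff_sub]
  exact (norm_sub_le_of_le h1 h2).trans_eq (by ring)

theorem geo3_single {y : ℂ} {R ϑ : ℝ} (hy : ‖y‖ ≤ R) (hϑ : 0 ≤ ϑ) (m : ℕ) (P : ℂ[X])
    (h : ∀ j < m, ‖(taylor y P).coeff j‖ ≤ ϑ) (j : ℕ) :
    ‖(P %ₘ (X - C y) ^ m).coeff j‖ ≤ (2 + R) ^ m * ϑ := by
  have hR : 0 ≤ R := (norm_nonneg _).trans hy
  induction m generalizing P j with
  | zero => simpa using hϑ
  | succ m ih =>
    have hL := monic_X_sub_C y
    have e : P = C (P.eval y) + (X - C y) * (P /ₘ (X - C y)) := by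
      rw [← modByMonic_X_sub_C_eq_C_eval, modByMonic_add_div]
    have e2 : taylor y P = C (P.eval y) + X * taylor y (P /ₘ (X - C y)) := by
      conv_lhs => rw [e]
      simp [taylor_mul]
    have h1 := ih (P /ₘ (X - C y)) fun i hi => by
      have := h (i + 1) (by omega)
      rwa [e2, coeff_add, coeff_C_succ, zero_add, coeff_X_mul] at this
    have h0 : ‖P.eval y‖ ≤ ϑ := by simpa [taylor_coeff_zero] using h 0 (by omega)
    have e3 : C (P.eval y) %ₘ (X - C y) ^ (m + 1) = C (P.eval y) := by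
      refine (modByMonic_eq_self_iff (hL.pow _)).2 (degree_C_le.trans_lt ?_)
      rw [degree_pow, degree_X_sub_C, nsmul_eq_mul, mul_one]
      exact_mod_cast Nat.succ_pos m
    have h2 : ‖(C (P.eval y)).coeff j‖ ≤ (2 + R) ^ m * ϑ := by
      have : ϑ ≤ (2 + R) ^ m * ϑ := le_mul_of_one_le_left hϑ (one_le_pow₀ (by linarith))
      rw [coeff_C]
      split_ifs
      · exact h0.trans this
      · simpa using hϑ.trans this
    conv_lhs => rw [e, add_modByMonic, e3, pow_succ', geo3_mul_mod hL (hL.pow m), coeff_add]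
    exact (norm_add_le_of_le h2 (geo3_lin hy h1 j)).trans_eq (by ring)

theorem geo3_prod {r : ℕ} (y : Fin r → ℂ) (n : Fin r → ℕ) {a : Fin r} (ha : 1 ≤ n a) :
    ∏ i, (X - C (y i)) ^ n i =
      (X - C (y a)) * ∏ i, (X - C (y i)) ^ Function.update n a (n a - 1) i := by
  rw [← Finset.mul_prod_erase _ _ (Finset.mem_univ a),
    ← Finset.mul_prod_erase _ (fun i => (X - C (y i)) ^ Function.update n a (n a - 1) i)
      (Finset.mem_univ a), Function.update_self, ← mul_assoc, ← pow_succ', Nat.sub_add_cancel ha]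
  congr 1
  exact Finset.prod_congr rfl fun i hi => by rw [Function.update_of_ne (Finset.ne_of_mem_erase hi)]

theorem geo3_sum {r : ℕ} (n : Fin r → ℕ) {a : Fin r} (ha : 1 ≤ n a) :
    ∑ i, Function.update n a (n a - 1) i + 1 = ∑ i, n i := by
  rw [Finset.sum_update_of_mem (Finset.mem_univ a), ← Finset.add_sum_erase _ _ (Finset.mem_univ a),
    Finset.sdiff_singleton_eq_erase]
  omega

theorem geo3_main {r : ℕ} {R η ϑ : ℝ} (hR : 1 ≤ R) {y : Fin r → ℂ} (h0 : 0 < η) (h1 : η ≤ 1)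
    (hϑ : 0 ≤ ϑ) (hy : ∀ i, ‖y i‖ ≤ R) (hs : ∀ i j, i ≠ j → η ≤ ‖y i - y j‖) (P : ℂ[X]) (D : ℕ)
    (n : Fin r → ℕ) (hn : ∑ i, n i ≤ D + 1) (h : ∀ i, ∀ j < n i, ‖(taylor (y i) P).coeff j‖ ≤ ϑ)
    (j : ℕ) :
    ‖(P %ₘ ∏ i, (X - C (y i)) ^ n i).coeff j‖ ≤ (4 + 2 * R) ^ (D + 1) * η⁻¹ ^ D * ϑ := by
  have hη : 1 ≤ η⁻¹ := (one_le_inv₀ h0).2 h1
  have key : ∀ (D : ℕ) (n : Fin r → ℕ), ∑ i, n i ≤ D + 1 →
      (∀ i, ∀ j < n i, ‖(taylor (y i) P).coeff j‖ ≤ ϑ) →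
      (¬∃ a b, a ≠ b ∧ 1 ≤ n a ∧ 1 ≤ n b) → ∀ j,
      ‖(P %ₘ ∏ i, (X - C (y i)) ^ n i).coeff j‖ ≤ (4 + 2 * R) ^ (D + 1) * η⁻¹ ^ D * ϑ := by
    intro D n hn h hab j
    by_cases ha : ∃ a, 1 ≤ n a
    · obtain ⟨a, ha⟩ := ha
      rw [Finset.prod_eq_single a (fun b _ hb => by
        have : n b = 0 := by
          by_contra hb0
          exact hab ⟨b, a, hb, by omega, ha⟩
        rw [this, pow_zero]) (by simp)]
      refine (geo3_single (hy a) hϑ _ P (h a) j).trans (mul_le_mul_of_nonneg_right ?_ hϑ)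
      have h2 : n a ≤ D + 1 :=
        (Finset.single_le_sum (fun i _ => Nat.zero_le (n i)) (Finset.mem_univ a)).trans hn
      calc (2 + R) ^ n a ≤ (2 + R) ^ (D + 1) := pow_le_pow_right₀ (by linarith) h2
        _ ≤ (4 + 2 * R) ^ (D + 1) := pow_le_pow_left₀ (by linarith) (by linarith) _
        _ ≤ _ := le_mul_of_one_le_right (by positivity) (one_le_pow₀ hη)
    · rw [Finset.prod_eq_one fun a _ => by
        have : n a = 0 := by
          by_contra h0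
          exact ha ⟨a, by omega⟩
        rw [this, pow_zero], modByMonic_one, coeff_zero, norm_zero]
      positivity
  induction D generalizing n j with
  | zero =>
    refine key 0 n hn h ?_ j
    rintro ⟨a, b, hab, ha, hb⟩
    have := Finset.add_le_sum (f := n) (fun i _ => Nat.zero_le (n i)) (Finset.mem_univ a)
      (Finset.mem_univ b) hab
    omega
  | succ D ih =>
    by_cases hab : ∃ a b, a ≠ b ∧ 1 ≤ n a ∧ 1 ≤ n b
    swap
    · exact key _ n hn h hab j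
    obtain ⟨a, b, hab, ha, hb⟩ := hab
    have hm : ∀ n : Fin r → ℕ, (∏ i, (X - C (y i)) ^ n i).Monic := fun n =>
      monic_prod_of_monic _ _ fun i _ => (monic_X_sub_C _).pow _
    have step : ∀ a, 1 ≤ n a → ∀ j, ‖(((X - C (y a)) * P) %ₘ ∏ i, (X - C (y i)) ^ n i).coeff j‖ ≤
        (1 + R) * ((4 + 2 * R) ^ (D + 1) * η⁻¹ ^ D * ϑ) := by
      intro a ha j
      rw [geo3_prod y n ha, geo3_mul_mod (monic_X_sub_C _) (hm _)]
      refine geo3_lin (hy a) (ih _ (by have := geo3_sum n ha; omega) fun i k hk => h i k ?_) j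
      rcases eq_or_ne i a with rfl | hi
      · rw [Function.update_self] at hk; omega
      · rwa [Function.update_of_ne hi] at hk
    have e : (y a - y b) • P = (X - C (y b)) * P - (X - C (y a)) * P := by
      rw [smul_eq_C_mul, C_sub]; ring
    have h2 := norm_sub_le_of_le (step b hb j) (step a ha j)
    rw [← coeff_sub, ← sub_modByMonic, ← e, smul_modByMonic, coeff_smul, smul_eq_mul,
      norm_mul] at h2
    have h3 := (mul_le_mul_of_nonneg_right (hs a b hab) (norm_nonneg _)).trans h2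
    rw [← le_inv_mul_iff₀ h0] at h3
    refine h3.trans ?_
    have h4 : 0 ≤ η⁻¹ * ((4 + 2 * R) ^ (D + 1) * η⁻¹ ^ D * ϑ) := by positivity
    rw [pow_succ _ (D + 1), pow_succ η⁻¹]
    nlinarith

/-- Hermite interpolation with separated nodes (Neville).  Let `M n = ∏ (X - y i)^(n i)`, `D = ∑ n i ≥ 1`.  If two
different nodes `a ≠ b` have `n a, n b ≥ 1` then
`(y a - y b) (P %ₘ M n) = (X - y b) (P %ₘ M (n - e_b)) - (X - y a) (P %ₘ M (n - e_a))` (both sides have degree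
`< D` and are congruent mod `M n`).  For a single node `P %ₘ (X - y)^n` is the truncated Taylor polynomial.
Induct on `D`. -/
theorem hermite_bound (r D : ℕ) (R : ℝ) (hR : 1 ≤ R) : ∃ Cc : ℝ, 1 ≤ Cc ∧ ∀ (y : Fin r → ℂ) (η ϑ : ℝ),
    0 < η → η ≤ 1 → 0 ≤ ϑ → (∀ i, ‖y i‖ ≤ R) → (∀ i j, i ≠ j → η ≤ ‖y i - y j‖) →
    ∀ n : Fin r → ℕ, ∑ i, n i ≤ D + 1 → ∀ P : ℂ[X],
    (∀ i, ∀ j < n i, ‖(taylor (y i) P).coeff j‖ ≤ ϑ) →
    ∀ j, ‖(P %ₘ ∏ i, (X - C (y i)) ^ n i).coeff j‖ ≤ Cc * η⁻¹ ^ D * ϑ := by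
  exact ⟨(4 + 2 * R) ^ (D + 1), one_le_pow₀ (by linarith), fun y η ϑ h0 h1 hϑ hy hs n hn P h j =>
    geo3_main hR h0 h1 hϑ hy hs P D n hn h j⟩

end Crest.Agent.R22
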