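import Crest.Agent.R22.BetaDeg
import Crest.Agent.R22.Appr
import Crest.Agent.R22.Geo3

namespace Crest.Agent.R22

open Polynomial
open scoped Polynomial.Bivariate

variable {d : ℕ}

/-- The data of `geo_lemma`. -/
structure Geo4P (θ : Fin 4 → ℂ) (R : ℝ) where
  y : Fin 4 → ℂ
  η : ℝ
  ϑ : ℝ
  h2 : ℂ[X]
  h1 : ℂ[X]
  h0 : ℂ[X]
  η0 : 0 < η
  η1 : η ≤ 1
  ϑ0 : 0 ≤ ϑ
  yR : ∀ i, ‖y i‖ ≤ R
  sep : ∀ i j, i ≠ j → η ≤ ‖y i - y j‖
  d2 : h2.natDegree ≤ 10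
  d1 : h1.natDegree ≤ 10
  d0 : h0.natDegree ≤ 10
  sm : ∀ j, ‖h2.coeff j‖ ≤ ϑ
  dv4 : ∀ i, (X - C (y i)) ^ 4 ∣ h2 * C (θ i) ^ 2 + h1 * C (θ i) + h0
  dv2 : ∀ i, (X - C (y i)) ^ 2 ∣ 2 * h2 * C (θ i) + h1

namespace Geo4P

open Asymptotics

variable {θ : Fin 4 → ℂ} {R : ℝ}

/-- uniformly bounded -/
abbrev Bd (f : Geo4P θ R → ℂ) : Prop := f =O[⊤] fun _ => (1 : ℝ)
/-- uniformly `O(η^-k ϑ)` -/
abbrev Sm (k : ℕ) (f : Geo4P θ R → ℂ) : Prop := f =O[⊤] fun p => p.η⁻¹ ^ k * p.ϑ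

theorem bd_y (i : Fin 4) : Bd fun p : Geo4P θ R => p.y i :=
  isBigO_of_le' (c := R) _ fun p => by simpa using p.yR i

theorem bd_const (c : ℂ) : Bd fun _ : Geo4P θ R => c := isBigO_const_one ℝ c _

theorem Bd.mul' {f g : Geo4P θ R → ℂ} {w : Geo4P θ R → ℝ} (hf : Bd f) (hg : g =O[⊤] w) :
    (fun p => f p * g p) =O[⊤] w := (hf.mul hg).congr_right fun _ => one_mul _

theorem Sm.inv {f : Geo4P θ R → ℂ} {k : ℕ} (hf : Sm k f) {i j : Fin 4} (h : i ≠ j) :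
    Sm (k + 1) fun p => (p.y i - p.y j)⁻¹ * f p := by
  have h1 : (fun p : Geo4P θ R => (p.y i - p.y j)⁻¹) =O[⊤] fun p => p.η⁻¹ :=
    IsBigO.of_norm_le fun p => by rw [norm_inv]; exact inv_anti₀ p.η0 (p.sep i j h)
  exact (h1.mul hf).congr_right fun p => by ring

theorem bd_coeff_mul {P Q : Geo4P θ R → ℂ[X]} (hP : ∀ j, Bd fun p => (P p).coeff j)
    (hQ : ∀ j, Bd fun p => (Q p).coeff j) (j : ℕ) : Bd fun p => (P p * Q p).coeff j := by
  simp only [coeff_mul]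
  exact IsBigO.fun_sum fun c _ => (hP _).mul' (hQ _)

theorem bd_coeff_sq (i : Fin 4) (j : ℕ) : Bd fun p : Geo4P θ R => ((X - C (p.y i)) ^ 2).coeff j := by
  have h : ∀ j, Bd fun p : Geo4P θ R => (X - C (p.y i)).coeff j := fun j => by
    simp only [coeff_sub, coeff_C]
    refine (bd_const _).sub ?_
    split_ifs
    · exact bd_y i
    · exact bd_const _
  simpa only [sq] using bd_coeff_mul h h j

/-- `Π²` -/
noncomputable def P2 (p : Geo4P θ R) : ℂ[X] := ∏ i, (X - C (p.y i)) ^ 2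

theorem bd_P2 (j : ℕ) : Bd fun p : Geo4P θ R => p.P2.coeff j := by
  simp only [P2, Fin.prod_univ_four]
  exact bd_coeff_mul (bd_coeff_mul (bd_coeff_mul (bd_coeff_sq 0) (bd_coeff_sq 1)) (bd_coeff_sq 2))
    (bd_coeff_sq 3) j

theorem monic_P2 (p : Geo4P θ R) : p.P2.Monic :=
  monic_prod_of_monic _ _ fun _ _ => (monic_X_sub_C _).pow _

theorem deg_P2 (p : Geo4P θ R) : p.P2.natDegree = 8 := by
  rw [P2, natDegree_prod_of_monic _ _ fun _ _ => (monic_X_sub_C _).pow _]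
  simp

theorem sm_jet (i : Fin 4) (j : ℕ) : Sm 0 fun p : Geo4P θ R => (taylor (p.y i) p.h2).coeff j := by
  have h : ∀ p : Geo4P θ R, (taylor (p.y i) p.h2).coeff j =
      ∑ k ∈ Finset.range 11, (p.y i ^ (k - j) * k.choose j) * p.h2.coeff k := fun p => by
    conv_lhs => rw [p.h2.as_sum_range' 11 (Nat.lt_succ_of_le p.d2)]
    simp only [map_sum, taylor_monomial, finsetSum_coeff, coeff_C_mul, coeff_X_add_C_pow, mul_comm]
  simp only [h]
  refine IsBigO.fun_sum fun k _ => Bd.mul' (Bd.mul' ?_ (bd_const _))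
    (IsBigO.of_norm_le fun p => by simpa using p.sm k)
  simpa using (bd_y (θ := θ) (R := R) i).pow (k - j)

theorem jet_zero {y : ℂ} {n j : ℕ} {P : ℂ[X]} (h : (X - C y) ^ n ∣ P) (hj : j < n) :
    (taylor y P).coeff j = 0 := by
  obtain ⟨Q, rfl⟩ := h
  refine X_pow_dvd_iff.1 ?_ j hj
  simp [taylor_mul, taylor_pow]

/-- `θ i h1 + h0` -/
noncomputable def Q (p : Geo4P θ R) (i : Fin 4) : ℂ[X] := C (θ i) * p.h1 + p.h0

theorem jet_Q (p : Geo4P θ R) (i k : Fin 4) {j : ℕ} (hj : j < 2 + if k = i then 2 else 0) :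
    (taylor (p.y k) (p.Q i)).coeff j =
      (-2 * θ k * (θ i - θ k) - θ k ^ 2) * (taylor (p.y k) p.h2).coeff j := by
  have h4 := jet_zero (p.dv4 k) (j := j) (by split_ifs at hj <;> omega)
  have e4 : p.h2 * C (θ k) ^ 2 + p.h1 * C (θ k) + p.h0 = θ k ^ 2 • p.h2 + θ k • p.h1 + p.h0 := by
    simp only [smul_eq_C_mul, C_pow]; ring
  have e2 : 2 * p.h2 * C (θ k) + p.h1 = (2 * θ k) • p.h2 + p.h1 := by
    simp only [smul_eq_C_mul, C_mul, map_ofNat]; ring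
  rw [Q, ← smul_eq_C_mul]
  simp only [e4, map_add, map_smul, coeff_add, coeff_smul, smul_eq_mul] at h4 ⊢
  split_ifs at hj with h
  · subst h
    linear_combination h4
  · have h2 := jet_zero (p.dv2 k) (j := j) hj
    simp only [e2, map_add, map_smul, coeff_add, coeff_smul, smul_eq_mul] at h2
    linear_combination h4 + (θ i - θ k) * h2

/-- the remainder -/
noncomputable def r (p : Geo4P θ R) (i : Fin 4) : ℂ[X] := p.Q i %ₘ (p.P2 * (X - C (p.y i)) ^ 2)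
/-- the quotient -/
noncomputable def c (p : Geo4P θ R) (i : Fin 4) : ℂ :=
  (p.Q i /ₘ (p.P2 * (X - C (p.y i)) ^ 2)).coeff 0

theorem Q_eq (p : Geo4P θ R) (i : Fin 4) :
    p.Q i = C (p.c i) * (p.P2 * (X - C (p.y i)) ^ 2) + p.r i := by
  have h1 : (p.P2 * (X - C (p.y i)) ^ 2).Monic := p.monic_P2.mul ((monic_X_sub_C _).pow _)
  have h2 : (p.P2 * (X - C (p.y i)) ^ 2).natDegree = 10 := by
    rw [p.monic_P2.natDegree_mul ((monic_X_sub_C _).pow _), deg_P2]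
    simp
  have h3 : (p.Q i).natDegree ≤ 10 :=
    natDegree_add_le_of_degree_le ((natDegree_C_mul_le _ _).trans p.d1) p.d0
  rw [c, ← eq_C_of_natDegree_le_zero (by rw [natDegree_divByMonic _ h1]; omega), r, add_comm,
    mul_comm (p.Q i /ₘ _), modByMonic_add_div]

theorem sm_r (hR : 1 ≤ R) (i : Fin 4) (j : ℕ) : Sm 9 fun p : Geo4P θ R => (p.r i).coeff j := by
  obtain ⟨Cc, -, h⟩ := hermite_bound 4 9 R hR
  have h1 : (fun p : Geo4P θ R => ∑ k, ∑ l ∈ Finset.range (2 + if k = i then 2 else 0),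
      ‖(taylor (p.y k) (p.Q i)).coeff l‖) =O[⊤] fun p => p.η⁻¹ ^ 0 * p.ϑ :=
    IsBigO.fun_sum fun k _ => IsBigO.fun_sum fun l hl => IsBigO.norm_left
      (((sm_jet k l).const_mul_left _).congr_left fun p =>
        (p.jet_Q i k (Finset.mem_range.1 hl)).symm)
  refine (IsBigO.of_norm_le fun p => ?_).trans
    ((((isBigO_refl (fun p : Geo4P θ R => p.η⁻¹ ^ 9) ⊤).const_mul_left Cc).mul h1).congr_right
      fun p => by rw [pow_zero, one_mul])
  have h2 := h p.y p.η _ p.η0 p.η1 (Finset.sum_nonneg fun k _ => Finset.sum_nonneg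
    fun l _ => norm_nonneg _) p.yR p.sep (fun k => 2 + if k = i then 2 else 0)
    (by simp [Finset.sum_add_distrib]) (p.Q i) (fun k l hl =>
      (Finset.single_le_sum (f := fun l => ‖(taylor (p.y k) (p.Q i)).coeff l‖)
        (fun _ _ => norm_nonneg _) (Finset.mem_range.2 hl)).trans
      (Finset.single_le_sum (f := fun k => ∑ l ∈ Finset.range (2 + if k = i then 2 else 0),
        ‖(taylor (p.y k) (p.Q i)).coeff l‖)
        (fun _ _ => Finset.sum_nonneg fun _ _ => norm_nonneg _) (Finset.mem_univ k))) j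
  simpa only [r, P2, pow_add, Finset.prod_mul_distrib, pow_ite, pow_zero, Finset.prod_ite_eq',
    Finset.mem_univ, if_true] using h2

theorem sm_c (hθ : Function.Injective θ) (hR : 1 ≤ R) {i j k : Fin 4} (hij : i ≠ j) (hik : i ≠ k)
    (hjk : j ≠ k) : Sm 11 fun p : Geo4P θ R => p.c i := by
  let S : ℕ → Geo4P θ R → ℂ := fun n p => -((θ j - θ k) * (p.r i).coeff n +
    (θ k - θ i) * (p.r j).coeff n + (θ i - θ j) * (p.r k).coeff n)
  have hS : ∀ n, Sm 9 (S n) := fun n => ((((sm_r hR i n).const_mul_left _).add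
    ((sm_r hR j n).const_mul_left _)).add ((sm_r hR k n).const_mul_left _)).neg_left
  let t : ℕ → Geo4P θ R → ℂ := fun n p => (θ j - θ k) * p.c i * p.y i ^ n +
    (θ k - θ i) * p.c j * p.y j ^ n + (θ i - θ j) * p.c k * p.y k ^ n
  have key : ∀ (p : Geo4P θ R) (n : ℕ), t 0 p * p.P2.coeff n - 2 * t 1 p * p.P2.coeff (n + 1) +
      t 2 p * p.P2.coeff (n + 2) = S (n + 2) p := fun p n => by
    have h1 : C (t 0 p) * (p.P2 * X ^ 2) - C (2 * t 1 p) * (p.P2 * X) + C (t 2 p) * p.P2 =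
        -(C (θ j - θ k) * p.r i + C (θ k - θ i) * p.r j + C (θ i - θ j) * p.r k) := by
      have hi := p.Q_eq i
      have hj := p.Q_eq j
      have hk := p.Q_eq k
      simp only [Q] at hi hj hk
      simp only [t, map_add, map_mul, map_sub, map_pow, map_ofNat]
      linear_combination -(C (θ j) - C (θ k)) * hi - (C (θ k) - C (θ i)) * hj -
        (C (θ i) - C (θ j)) * hk
    have h2 := congrArg (coeff · (n + 2)) h1
    simp only [coeff_add, coeff_sub, coeff_neg, coeff_C_mul, coeff_mul_X_pow] at h2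
    rwa [coeff_mul_X] at h2
  have c8 : ∀ p : Geo4P θ R, p.P2.coeff 8 = 1 := fun p => p.deg_P2 ▸ p.monic_P2.coeff_natDegree
  have c9 : ∀ p : Geo4P θ R, ∀ n, 8 < n → p.P2.coeff n = 0 := fun p n hn =>
    coeff_eq_zero_of_natDegree_lt (p.deg_P2 ▸ hn)
  have h0 : Sm 9 (t 0) := (hS 10).congr_left fun p => by
    rw [← key p 8, c8, c9 p _ (by norm_num), c9 p _ (by norm_num)]; ring
  have h1 : Sm 9 (t 1) :=
    ((((bd_P2 7).mul' h0).sub (hS 9)).const_mul_left (1 / 2)).congr_left fun p => by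
      rw [← key p 7, c8, c9 p 9 (by norm_num)]; ring
  have h2 : Sm 9 (t 2) := (((hS 8).sub ((bd_P2 6).mul' h0)).add
    (((bd_P2 7).mul' h1).const_mul_left 2)).congr_left fun p => by
      rw [← key p 6, c8]; ring
  refine ((Sm.inv (Sm.inv ((h2.sub (Bd.mul' ((bd_y j).add (bd_y k)) h1)).add
    (Bd.mul' ((bd_y j).mul' (bd_y k)) h0)) hik) hij).const_mul_left (θ j - θ k)⁻¹).congr_left
      fun p => ?_
  have e1 : θ j - θ k ≠ 0 := sub_ne_zero.2 (hθ.ne hjk)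
  have e2 : ∀ a b, a ≠ b → p.y a - p.y b ≠ 0 := fun a b h =>
    norm_pos_iff.1 (p.η0.trans_le (p.sep a b h))
  have e3 := e2 i j hij
  have e4 := e2 i k hik
  simp only [t]
  field_simp
  ring

theorem Sm.mono {f : Geo4P θ R → ℂ} {k l : ℕ} (hf : Sm k f) (h : k ≤ l) : Sm l f :=
  hf.trans (IsBigO.of_norm_le fun p => by
    have h1 := p.η0
    have h2 := p.ϑ0
    rw [Real.norm_of_nonneg (by positivity)]
    exact mul_le_mul_of_nonneg_right (pow_le_pow_right₀ ((one_le_inv₀ h1).2 p.η1) h) h2)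

theorem sm_h (hθ : Function.Injective θ) (hR : 1 ≤ R) (n : ℕ) :
    (Sm 24 fun p : Geo4P θ R => p.h1.coeff n) ∧ Sm 24 fun p : Geo4P θ R => p.h0.coeff n := by
  have hQ : ∀ i, (Sm 11 fun p : Geo4P θ R => p.c i) →
      Sm 24 fun p : Geo4P θ R => θ i * p.h1.coeff n + p.h0.coeff n := fun i hi =>
    (((bd_coeff_mul bd_P2 (bd_coeff_sq i) n).mul' (hi.mono (by norm_num))).add
      ((sm_r hR i n).mono (by norm_num))).congr_left fun p => by
        rw [mul_comm, ← coeff_C_mul, ← coeff_add, ← Q_eq, Q, coeff_add, coeff_C_mul]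
  have h0 := hQ 0 (sm_c hθ hR (j := 1) (k := 2) (by decide) (by decide) (by decide))
  have h1 := hQ 1 (sm_c hθ hR (j := 0) (k := 2) (by decide) (by decide) (by decide))
  have e : θ 0 - θ 1 ≠ 0 := sub_ne_zero.2 (hθ.ne (by decide))
  have h2 : Sm 24 fun p : Geo4P θ R => p.h1.coeff n :=
    ((h0.sub h1).const_mul_left (θ 0 - θ 1)⁻¹).congr_left fun p => by field_simp; ring
  exact ⟨h2, (h0.sub (h2.const_mul_left (θ 0))).congr_left fun p => by ring⟩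

end Geo4P

/-- The geometric lemma (proved with `Q i = θ i h1 + h0` modulo `Π² (X - y i)²`, loss `η^-11`).  `Π = ∏ (X - y i)`.  (1) The jets of order `< 2` of `h1` at `y i` are those of
`-2 θ i h2`, so `R1 = h1 %ₘ Π²` is `O(η^-7 ϑ)` and `h1 = Π² h1' + R1`, `deg h1' ≤ 2`.  (2) The same for `h0` (jets of
`-θ² h2 - θ h1`).  (3) With `q i = h1' θ i + h0'`, `err i = h2 θ² + R1 θ + R0 = (X - y i)² err' i`,
`Π_i = Π / (X - y i)`: `(X - y i)² ∣ Π_i² q i + err' i`; `|Π_i (y i)| ≥ η³`, so `q i (y i)` and `q i' (y i)` are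
`O(η^-19 ϑ)` or better, and `q i = c i (X - y i)² + small`.  (4) `q` is affine in `θ`, so
`∑_{i<3} w i q i = 0` with `w i = ∏_{j<3, j ≠ i} (θ i - θ j)⁻¹`; the polar form of `(X - y i)²` at `(y j, y l)` is
`(y j - y i)(y l - y i)`, so each `c i` (`i < 3`) is `O(η^-21 ϑ)`; hence `q 0, q 1`, then `h1', h0'`, are small. -/
theorem geo_lemma (θ : Fin 4 → ℂ) (hθ : Function.Injective θ) (R : ℝ) (hR : 1 ≤ R) : ∃ Cc : ℝ,
    1 ≤ Cc ∧ ∀ (y : Fin 4 → ℂ) (η ϑ : ℝ), 0 < η → η ≤ 1 → 0 ≤ ϑ → (∀ i, ‖y i‖ ≤ R) →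
    (∀ i j, i ≠ j → η ≤ ‖y i - y j‖) → ∀ h2 h1 h0 : ℂ[X], h2.natDegree ≤ 10 → h1.natDegree ≤ 10 →
    h0.natDegree ≤ 10 → (∀ j, ‖h2.coeff j‖ ≤ ϑ) →
    (∀ i, (X - C (y i)) ^ 4 ∣ h2 * C (θ i) ^ 2 + h1 * C (θ i) + h0) →
    (∀ i, (X - C (y i)) ^ 2 ∣ 2 * h2 * C (θ i) + h1) →
    ∀ j, ‖h1.coeff j‖ ≤ Cc * η⁻¹ ^ 24 * ϑ ∧ ‖h0.coeff j‖ ≤ Cc * η⁻¹ ^ 24 * ϑ := by
  obtain ⟨Cc, h⟩ := Asymptotics.isBigO_top.1 (Asymptotics.IsBigO.fun_sum (s := Finset.range 11)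
    fun n _ => (Geo4P.sm_h hθ hR n).1.norm_left.add (Geo4P.sm_h hθ hR n).2.norm_left)
  refine ⟨max 1 Cc, le_max_left _ _,
    fun y η ϑ a1 a2 a3 a4 a5 h2 h1 h0 b1 b2 b3 b4 b5 b6 j => ?_⟩
  have hw : 0 ≤ η⁻¹ ^ 24 * ϑ := by positivity
  rw [mul_assoc]
  rcases lt_or_ge 10 j with hj | hj
  · rw [coeff_eq_zero_of_natDegree_lt (b2.trans_lt hj),
      coeff_eq_zero_of_natDegree_lt (b3.trans_lt hj), norm_zero, and_self]
    positivity
  · have h3 := (le_abs_self _).trans (h ⟨y, η, ϑ, h2, h1, h0, a1, a2, a3, a4, a5, b1, b2, b3, b4, b5, b6⟩)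
    have h4 := Finset.single_le_sum (f := fun n => ‖h1.coeff n‖ + ‖h0.coeff n‖)
      (fun _ _ => by positivity) (Finset.mem_range.2 (Nat.lt_succ_of_le hj))
    have h5 := mul_le_mul_of_nonneg_right (le_max_right 1 Cc) hw
    rw [Real.norm_of_nonneg hw] at h3
    dsimp only at h3
    constructor <;> linarith [norm_nonneg (h1.coeff j), norm_nonneg (h0.coeff j)]

end Crest.Agent.R22
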