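import Crest.Agent.R22.Geo4

/-!
# R22 / Geo5Aux: the change of variable `σ = a + 1 / (u + b)` on polynomials of bounded degree
-/

namespace Crest.Agent.R22

open Polynomial

/-- `(u + b) ^ D * H (a + 1 / (u + b))` as a polynomial in `u`. -/
noncomputable def geo5T (a b : ℂ) (D : ℕ) (H : ℂ[X]) : ℂ[X] := taylor b (reflect D (taylor a H))

section
variable {a b : ℂ} {D : ℕ}

lemma geo5T_add (P Q : ℂ[X]) : geo5T a b D (P + Q) = geo5T a b D P + geo5T a b D Q := by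
  simp only [geo5T, map_add, reflect_add]

lemma geo5T_C_mul (c : ℂ) (P : ℂ[X]) : geo5T a b D (C c * P) = C c * geo5T a b D P := by
  simp only [geo5T, taylor_mul, taylor_C, reflect_C_mul]

lemma geo5T_mul {D' : ℕ} {P Q : ℂ[X]} (hP : P.natDegree ≤ D) (hQ : Q.natDegree ≤ D') :
    geo5T a b (D + D') (P * Q) = geo5T a b D P * geo5T a b D' Q := by
  rw [geo5T, taylor_mul, reflect_mul _ _ (by rwa [natDegree_taylor]) (by rwa [natDegree_taylor]),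
    taylor_mul, geo5T, geo5T]

lemma geo5T_pow {P : ℂ[X]} (hP : P.natDegree ≤ 1) (k : ℕ) :
    geo5T a b k (P ^ k) = geo5T a b 1 P ^ k := by
  induction k with
  | zero => simp [geo5T]
  | succ k ih =>
    rw [pow_succ, pow_succ, geo5T_mul (natDegree_pow_le.trans ?_) hP, ih]
    simpa using Nat.mul_le_mul_left k hP

lemma geo5T_natDegree {P : ℂ[X]} (hP : P.natDegree ≤ D) : (geo5T a b D P).natDegree ≤ D := by
  rw [geo5T, natDegree_taylor]
  exact natDegree_reflect_le.trans (max_le le_rfl (by rwa [natDegree_taylor]))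

lemma geo5T_eq_zero {P : ℂ[X]} : geo5T a b D P = 0 ↔ P = 0 := by
  rw [geo5T, taylor_eq_zero, reflect_eq_zero_iff, taylor_eq_zero]

lemma geo5T_coeff_top {P : ℂ[X]} (hP : P.natDegree ≤ D) :
    (geo5T a b D P).coeff D = P.eval a := by
  have h1 : (reflect D (taylor a P)).coeff D = P.eval a := by
    rw [coeff_reflect, revAt_le le_rfl, Nat.sub_self, taylor_coeff_zero]
  have h2 : (reflect D (taylor a P)).natDegree ≤ D :=
    natDegree_reflect_le.trans (max_le le_rfl (by rwa [natDegree_taylor]))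
  rw [geo5T, ← h1]
  generalize reflect D (taylor a P) = Q at h2
  rcases h2.eq_or_lt with h | h
  · rw [← h, coeff_taylor_natDegree, coeff_natDegree]
  · rw [coeff_eq_zero_of_natDegree_lt h, coeff_eq_zero_of_natDegree_lt (by rwa [natDegree_taylor])]

lemma geo5T_eval {P : ℂ[X]} (hP : P.natDegree ≤ D) {w : ℂ} (hw : w ≠ 0) :
    (geo5T a b D P).eval (w⁻¹ - b) * w ^ D = P.eval (w + a) := by
  let _ := invertibleOfNonzero hw
  have := eval₂_reflect_mul_pow (RingHom.id ℂ) w D (taylor a P) (by rwa [natDegree_taylor])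
  rw [invOf_eq_inv, eval₂_id, eval₂_id, taylor_eval] at this
  rw [geo5T, taylor_eval, sub_add_cancel, this]

lemma geo5T_linear {α β : ℂ} (h : α * a + β ≠ 0) :
    geo5T a b 1 (C α * X + C β) = C (α * a + β) * (X - C (-α / (α * a + β) - b)) := by
  have h1 : taylor a (C α * X + C β) = C α * X + C (α * a + β) := by
    simp only [map_add, taylor_mul, taylor_C, taylor_X, C_mul]
    ring
  have h2 : (C α : ℂ[X]) = - (C (α * a + β) * C (-α / (α * a + β))) := by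
    rw [← C_mul, ← C_neg]
    congr 1
    field_simp
  rw [geo5T, h1, reflect_add, reflect_C_mul, reflect_one_X, reflect_C, map_add, taylor_mul,
    taylor_mul, taylor_C, taylor_C, pow_one, taylor_X, taylor_one, C_sub, C_1, mul_one]
  linear_combination h2

lemma geo5T_dvd {α β : ℂ} (hα : α ≠ 0) (h : α * a + β ≠ 0) {k : ℕ} {G : ℂ[X]}
    (hG : G.natDegree ≤ D) (hd : (C α * X + C β) ^ k ∣ G) :
    (X - C (-α / (α * a + β) - b)) ^ k ∣ geo5T a b D G := by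
  by_cases h0 : G = 0
  · rw [h0, geo5T_eq_zero.2 rfl]
    exact dvd_zero _
  obtain ⟨G', rfl⟩ := hd
  have h1 : (C α * X + C β).natDegree = 1 := natDegree_linear hα
  rw [natDegree_mul (left_ne_zero_of_mul h0) (right_ne_zero_of_mul h0), natDegree_pow, h1,
    mul_one] at hG
  obtain ⟨j, rfl⟩ := Nat.exists_eq_add_of_le ((Nat.le_add_right _ _).trans hG)
  rw [geo5T_mul (by rw [natDegree_pow, h1, mul_one]) (by omega), geo5T_pow h1.le, geo5T_linear h,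
    mul_pow]
  exact Dvd.dvd.mul_right (Dvd.intro_left _ rfl) _

lemma geo5_taylor_le {Q : ℂ[X]} (hQ : Q.natDegree ≤ D) {M B : ℝ} (hM : ∀ j, ‖Q.coeff j‖ ≤ M)
    (hb : ‖b‖ ≤ B) (hB : 1 ≤ B) (j : ℕ) : ‖(taylor b Q).coeff j‖ ≤ (D + 1) * (2 * B) ^ D * M := by
  have hM0 : 0 ≤ M := (norm_nonneg _).trans (hM 0)
  rw [Q.as_sum_range' (D + 1) (Nat.lt_succ_of_le hQ), map_sum, finsetSum_coeff]
  refine (norm_sum_le _ _).trans ((Finset.sum_le_card_nsmul _ _ ((2 * B) ^ D * M)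
    fun k hk => ?_).trans (le_of_eq ?_))
  · have hk' : k ≤ D := Nat.lt_succ_iff.1 (Finset.mem_range.1 hk)
    rw [taylor_monomial, coeff_C_mul, coeff_X_add_C_pow, norm_mul, norm_mul, norm_pow,
      Complex.norm_natCast, mul_comm]
    refine mul_le_mul ?_ (hM k) (norm_nonneg _) (by positivity)
    have h1 : ‖b‖ ^ (k - j) ≤ B ^ D :=
      (pow_le_pow_left₀ (norm_nonneg _) hb _).trans (pow_le_pow_right₀ hB (by omega))
    have h2 : (k.choose j : ℝ) ≤ 2 ^ D := by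
      have : k.choose j ≤ 2 ^ D :=
        (Nat.choose_le_two_pow k j).trans (Nat.pow_le_pow_right (by norm_num) hk')
      exact_mod_cast this
    rw [mul_pow, mul_comm]
    exact mul_le_mul h2 h1 (by positivity) (by positivity)
  · rw [Finset.card_range, nsmul_eq_mul]
    push_cast
    ring

lemma geo5T_coeff_le {P : ℂ[X]} (hP : P.natDegree ≤ D) {M B : ℝ}
    (hM : ∀ j, ‖(taylor a P).coeff j‖ ≤ M) (hb : ‖b‖ ≤ B) (hB : 1 ≤ B) (j : ℕ) :
    ‖(geo5T a b D P).coeff j‖ ≤ (D + 1) * (2 * B) ^ D * M :=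
  geo5_taylor_le (natDegree_reflect_le.trans (max_le le_rfl (by rwa [natDegree_taylor])))
    (fun j => by rw [coeff_reflect]; exact hM _) hb hB j

end

/-- The choice of the base point: Lagrange interpolation at eleven fixed offsets. -/
lemma geo5_base {ρ : ℝ} (hρ : 0 < ρ) (hρ1 : 11 * ρ ≤ 1) : ∃ C1 : ℝ, 1 ≤ C1 ∧
    ∀ (σ0 : ℂ) (H : ℂ[X]), H.natDegree ≤ 10 → ∃ t : ℝ, ρ ≤ t ∧ t ≤ 11 * ρ ∧
      ∀ j, ‖(taylor (σ0 + t) H).coeff j‖ ≤ C1 * ‖H.eval (σ0 + t)‖ := by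
  obtain ⟨Ch, hCh, hh⟩ := hermite_bound 11 10 1 le_rfl
  have hi : 1 ≤ ρ⁻¹ := (one_le_inv₀ hρ).2 (by linarith)
  refine ⟨Ch * ρ⁻¹ ^ 10, one_le_mul_of_one_le_of_one_le hCh (one_le_pow₀ hi), fun σ0 H hH => ?_⟩
  obtain ⟨l0, hl0⟩ := Finite.exists_max fun l : Fin 11 =>
    ‖H.eval (σ0 + ((((l : ℕ) + 1) * ρ : ℝ) : ℂ))‖
  have hl : ∀ l : Fin 11, (0 : ℝ) ≤ (l : ℕ) ∧ ((l : ℕ) : ℝ) ≤ 10 := fun l =>
    ⟨Nat.cast_nonneg _, by exact_mod_cast Nat.lt_succ_iff.1 l.2⟩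
  refine ⟨((l0 : ℕ) + 1) * ρ, by nlinarith [(hl l0).1], by nlinarith [(hl l0).2], fun j => ?_⟩
  have hm : (∏ l : Fin 11, (X - C (((((l : ℕ) - (l0 : ℕ)) * ρ : ℝ) : ℂ))) ^ 1 : ℂ[X]).Monic :=
    monic_prod_of_monic _ _ fun l _ => (monic_X_sub_C _).pow _
  have key := hh (fun l => ((((l : ℕ) - (l0 : ℕ)) * ρ : ℝ) : ℂ)) ρ
    ‖H.eval (σ0 + ((((l0 : ℕ) + 1) * ρ : ℝ) : ℂ))‖ hρ (by linarith) (norm_nonneg _)
    (fun l => by
      rw [Complex.norm_real, Real.norm_eq_abs, abs_le]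
      constructor <;> nlinarith [hl l, hl l0])
    (fun l l' hne => by
      rw [← Complex.ofReal_sub, Complex.norm_real, Real.norm_eq_abs, ← sub_mul,
        sub_sub_sub_cancel_right, abs_mul, abs_of_pos hρ]
      refine le_mul_of_one_le_left hρ.le ?_
      have h1 : (1 : ℤ) ≤ |((l : ℕ) : ℤ) - (l' : ℕ)| :=
        Int.one_le_abs (sub_ne_zero.2 fun h => hne (Fin.ext (by exact_mod_cast h)))
      exact_mod_cast h1)
    (fun _ => 1) (by simp) (taylor (σ0 + ((((l0 : ℕ) + 1) * ρ : ℝ) : ℂ)) H)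
    (fun l j hj => by
      obtain rfl : j = 0 := by omega
      rw [taylor_coeff_zero, taylor_eval]
      refine le_trans (le_of_eq ?_) (hl0 l)
      congr 2
      push_cast
      ring) j
  rwa [(modByMonic_eq_self_iff hm).2] at key
  refine degree_lt_degree ?_
  rw [natDegree_taylor, natDegree_prod_of_monic _ _ fun l _ => (monic_X_sub_C _).pow _]
  simp only [pow_one, natDegree_X_sub_C, Finset.sum_const, Finset.card_univ, Fintype.card_fin,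
    smul_eq_mul]
  omega

/-- The polynomial part of the `Y`-chart. -/
lemma geo5_poly (θ : Fin 4 → ℂ) (hθ : Function.Injective θ) {CN c ρ : ℝ} (hC : 1 ≤ CN)
    (hρ : 0 < ρ) (hρc : 22 * CN * ρ ≤ c) (hc1 : c ≤ 1) : ∃ K : ℝ, 1 ≤ K ∧
    ∀ (A B : Fin 4 → ℂ) (σ0 : ℂ) (η : ℝ) (H2 H1 H0 : ℂ[X]), (∀ i, A i ≠ 0) → (∀ i, ‖A i‖ ≤ CN) →
    (∀ i, ‖B i‖ ≤ CN) → ‖σ0‖ ≤ 1 → (∀ i, c ≤ ‖A i * σ0 + B i‖) → 0 < η → η ≤ 1 →
    (∀ i j, i ≠ j → η ≤ ‖A i * B j - A j * B i‖) → H2.natDegree ≤ 10 → H1.natDegree ≤ 10 →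
    H0.natDegree ≤ 10 → ¬ (H2 = 0 ∧ H1 = 0 ∧ H0 = 0) →
    (∀ i, (C (A i) * X + C (B i)) ^ 4 ∣ H2 * C (θ i) ^ 2 + H1 * C (θ i) + H0) →
    (∀ i, (C (A i) * X + C (B i)) ^ 2 ∣ 2 * H2 * C (θ i) + H1) →
    ∃ (t : ℝ) (lam : ℂ) (h2 h1 h0 : ℂ[X]), ρ ≤ t ∧ t ≤ 11 * ρ ∧ lam ≠ 0 ∧ h2.Monic ∧
      h2.natDegree = 10 ∧ h1.natDegree ≤ 10 ∧ h0.natDegree ≤ 10 ∧ (∀ j, ‖h2.coeff j‖ ≤ K) ∧
      (∀ j, ‖h1.coeff j‖ ≤ K * η⁻¹ ^ 24 ∧ ‖h0.coeff j‖ ≤ K * η⁻¹ ^ 24) ∧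
      ∀ w : ℂ, w ≠ 0 → h2.eval (w⁻¹ + (t : ℂ)⁻¹) * (lam * w ^ 10) = H2.eval (w + (σ0 + t)) ∧
        h1.eval (w⁻¹ + (t : ℂ)⁻¹) * (lam * w ^ 10) = H1.eval (w + (σ0 + t)) ∧
        h0.eval (w⁻¹ + (t : ℂ)⁻¹) * (lam * w ^ 10) = H0.eval (w + (σ0 + t)) := by
  have hρ1 : 22 * ρ ≤ 1 := by nlinarith
  have hi : 1 ≤ ρ⁻¹ := (one_le_inv₀ hρ).2 (by linarith)
  obtain ⟨C1, hC1, hbase⟩ := geo5_base hρ (by linarith)
  obtain ⟨Cg, hCg, hgeo⟩ := geo_lemma θ hθ (2 * ρ⁻¹) (by linarith)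
  set C2 : ℝ := ((10 : ℕ) + 1) * (2 * ρ⁻¹) ^ 10 * C1 with hC2
  have hC2' : 1 ≤ C2 := one_le_mul_of_one_le_of_one_le
    (one_le_mul_of_one_le_of_one_le (by norm_num) (one_le_pow₀ (by linarith))) hC1
  have h9 : 1 ≤ 9 * CN ^ 2 := by nlinarith
  have hK1 : 1 ≤ Cg * (9 * CN ^ 2) ^ 24 := one_le_mul_of_one_le_of_one_le hCg (one_le_pow₀ h9)
  refine ⟨Cg * (9 * CN ^ 2) ^ 24 * C2, one_le_mul_of_one_le_of_one_le hK1 hC2', ?_⟩
  intro A B σ0 η H2 H1 H0 hA0 hA hB hσ hlow hη hη1 hsep d2 d1 d0 hne hd4 hd2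
  obtain ⟨t, ht1, ht2, hco⟩ := hbase σ0 H2 d2
  have ht0 : 0 < t := by linarith
  set a : ℂ := σ0 + t with ha
  set b : ℂ := -(t : ℂ)⁻¹ with hb
  have hbn : ‖b‖ ≤ ρ⁻¹ := by
    rw [hb, norm_neg, norm_inv, Complex.norm_real, Real.norm_eq_abs, abs_of_pos ht0]
    exact inv_anti₀ hρ ht1
  have htn : ‖(t : ℂ)‖ = t := by rw [Complex.norm_real, Real.norm_eq_abs, abs_of_pos ht0]
  have hlo : ∀ i, 11 * CN * ρ ≤ ‖A i * a + B i‖ := fun i => by
    have h1 := norm_sub_le (A i * a + B i) (A i * t)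
    rw [show A i * a + B i - A i * t = A i * σ0 + B i by rw [ha]; ring, norm_mul, htn] at h1
    have h2 : ‖A i‖ * t ≤ CN * (11 * ρ) := mul_le_mul (hA i) ht2 ht0.le (by linarith)
    linarith [hlow i]
  have hup : ∀ i, ‖A i * a + B i‖ ≤ 3 * CN := fun i => by
    have h1 : ‖a‖ ≤ 2 := (norm_add_le _ _).trans (by rw [htn]; linarith)
    have h2 := norm_add_le (A i * a) (B i)
    rw [norm_mul] at h2
    have h3 : ‖A i‖ * ‖a‖ ≤ CN * 2 := mul_le_mul (hA i) h1 (norm_nonneg _) (by linarith)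
    linarith [hB i]
  have hpos : ∀ i, 0 < ‖A i * a + B i‖ := fun i => lt_of_lt_of_le (by positivity) (hlo i)
  have hl0 : ∀ i, A i * a + B i ≠ 0 := fun i => norm_pos_iff.1 (hpos i)
  set M : ℝ := ‖H2.eval a‖ with hM
  have hM0 : 0 ≤ M := norm_nonneg _
  have c2 : ∀ j, ‖(geo5T a b 10 H2).coeff j‖ ≤ C2 * M := fun j =>
    (geo5T_coeff_le d2 hco hbn hi j).trans (le_of_eq (by rw [hC2]; ring))
  have c1 := hgeo (fun i => -A i / (A i * a + B i) - b) (η / (9 * CN ^ 2)) (C2 * M) (by positivity)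
    ((div_le_one (by positivity)).2 (by linarith)) (by positivity)
    (fun i => by
      refine (norm_sub_le _ _).trans ?_
      have h1 : ‖-A i / (A i * a + B i)‖ ≤ ρ⁻¹ := by
        rw [norm_div, norm_neg, div_le_iff₀ (hpos i), ← div_eq_inv_mul, le_div_iff₀ hρ]
        nlinarith [hA i, hlo i]
      linarith)
    (fun i j hij => by
      have h1 : -A i / (A i * a + B i) - b - (-A j / (A j * a + B j) - b) =
          -(A i * B j - A j * B i) / ((A i * a + B i) * (A j * a + B j)) := by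
        rw [sub_sub_sub_cancel_right, div_sub_div _ _ (hl0 i) (hl0 j)]
        congr 1
        ring
      rw [h1, norm_div, norm_neg, norm_mul]
      refine div_le_div₀ (norm_nonneg _) (hsep i j hij) (mul_pos (hpos i) (hpos j)) ?_
      nlinarith [mul_le_mul (hup i) (hup j) (norm_nonneg _) (by linarith)])
    (geo5T a b 10 H2) (geo5T a b 10 H1) (geo5T a b 10 H0) (geo5T_natDegree d2)
    (geo5T_natDegree d1) (geo5T_natDegree d0) c2
    (fun i => by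
      have h1 := geo5T_dvd (b := b) (D := 10) (hA0 i) (hl0 i) (by
        refine (natDegree_add_le _ _).trans (max_le ((natDegree_add_le _ _).trans (max_le ?_ ?_)) d0)
        · rw [← C_pow]
          exact (natDegree_mul_C_le _ _).trans d2
        · exact (natDegree_mul_C_le _ _).trans d1) (hd4 i)
      rwa [← C_pow, mul_comm H2, mul_comm H1, geo5T_add, geo5T_add, geo5T_C_mul, geo5T_C_mul,
        mul_comm (C _), mul_comm (C _), C_pow] at h1)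
    (fun i => by
      have e : ∀ P : ℂ[X], 2 * P * C (θ i) = C (2 * θ i) * P := fun P => by
        rw [C_mul, show (C 2 : ℂ[X]) = 2 from rfl]
        ring
      have h1 := geo5T_dvd (b := b) (D := 10) (hA0 i) (hl0 i) (by
        refine (natDegree_add_le _ _).trans (max_le ?_ d1)
        rw [e]
        exact (natDegree_C_mul_le _ _).trans d2) (hd2 i)
      rwa [e, geo5T_add, geo5T_C_mul, ← e] at h1)
  have hlam : H2.eval a ≠ 0 := by
    intro h0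
    have hM1 : M = 0 := by rw [hM, h0, norm_zero]
    simp only [hM1, mul_zero, norm_le_zero_iff] at c2 c1
    exact hne ⟨geo5T_eq_zero.1 (Polynomial.ext c2), geo5T_eq_zero.1 (Polynomial.ext fun j => (c1 j).1),
      geo5T_eq_zero.1 (Polynomial.ext fun j => (c1 j).2)⟩
  have hMp : 0 < M := norm_pos_iff.2 hlam
  have hdiv : ∀ (P : ℂ[X]) (j : ℕ) (L : ℝ), ‖P.coeff j‖ ≤ L * M →
      ‖(C (H2.eval a)⁻¹ * P).coeff j‖ ≤ L := fun P j L h => by
    rw [coeff_C_mul, norm_mul, norm_inv, ← hM, inv_mul_le_iff₀ hMp, mul_comm]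
    exact h
  have htop : (C (H2.eval a)⁻¹ * geo5T a b 10 H2).coeff 10 = 1 := by
    rw [coeff_C_mul, geo5T_coeff_top d2, inv_mul_cancel₀ hlam]
  have hdeg : ∀ P : ℂ[X], P.natDegree ≤ 10 → (C (H2.eval a)⁻¹ * geo5T a b 10 P).natDegree ≤ 10 :=
    fun P hP => (natDegree_C_mul_le _ _).trans (geo5T_natDegree hP)
  have hev : ∀ P : ℂ[X], P.natDegree ≤ 10 → ∀ w : ℂ, w ≠ 0 →
      (C (H2.eval a)⁻¹ * geo5T a b 10 P).eval (w⁻¹ + (t : ℂ)⁻¹) * (H2.eval a * w ^ 10) =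
        P.eval (w + a) := fun P hP w hw => by
    rw [← geo5T_eval (b := b) hP hw, hb, sub_neg_eq_add, eval_mul, eval_C]
    field_simp
  have hη2 : Cg * (η / (9 * CN ^ 2))⁻¹ ^ 24 * (C2 * M) =
      Cg * (9 * CN ^ 2) ^ 24 * C2 * η⁻¹ ^ 24 * M := by
    rw [inv_div, div_eq_mul_inv, mul_pow]
    ring
  refine ⟨t, H2.eval a, C (H2.eval a)⁻¹ * geo5T a b 10 H2, C (H2.eval a)⁻¹ * geo5T a b 10 H1,
    C (H2.eval a)⁻¹ * geo5T a b 10 H0, ht1, ht2, hlam,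
    monic_of_natDegree_le_of_coeff_eq_one 10 (hdeg _ d2) htop,
    natDegree_eq_of_le_of_coeff_ne_zero (hdeg _ d2) (by rw [htop]; exact one_ne_zero),
    hdeg _ d1, hdeg _ d0, fun j => (hdiv _ j _ (c2 j)).trans
      (le_mul_of_one_le_left (by linarith) hK1),
    fun j => ⟨hdiv _ j _ (hη2 ▸ (c1 j).1), hdiv _ j _ (hη2 ▸ (c1 j).2)⟩,
    fun w hw => ⟨hev _ d2 w hw, hev _ d1 w hw, hev _ d0 w hw⟩⟩

/-- The analytic part. -/
lemma geo5_cls {γ κ W A u θ ε : ℂ} {B δ : ℝ} (hB : 1 ≤ B) (hA : ‖A‖ ≤ B) (hu : ‖u‖ ≤ B * δ)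
    (hθ : ‖θ‖ ≤ B) (hε : ‖ε‖ ≤ δ) (hδ : 2 * B ^ 2 * δ ≤ 1) (hW : ‖W‖ ≤ B) (hW' : 1 ≤ B * ‖W‖)
    (h : γ * (1 + A * u) ^ 2 = κ * W * (1 - θ * ε)) :
    ‖γ - κ * W‖ ≤ 16 * B ^ 3 * δ * ‖κ‖ ∧ ‖κ‖ ≤ 5 * B * ‖γ‖ := by
  have hδ0 : 0 ≤ δ := (norm_nonneg _).trans hε
  have h1 : ‖A * u‖ ≤ B ^ 2 * δ := by
    rw [norm_mul, sq, mul_assoc]
    exact mul_le_mul hA hu (norm_nonneg _) (by linarith)
  have h2 : ‖θ * ε‖ ≤ B ^ 2 * δ := by
    rw [norm_mul]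
    exact mul_le_mul (by nlinarith) hε (norm_nonneg _) (by positivity)
  generalize A * u = x at h h1
  generalize θ * ε = y at h h2
  have h3 : 1 / 2 ≤ ‖1 + x‖ := by
    have := norm_sub_le (1 + x) x
    rw [add_sub_cancel_right, norm_one] at this
    linarith
  have h4 : ‖1 + x‖ ≤ 3 / 2 := by
    have := norm_add_le 1 x
    rw [norm_one] at this
    linarith
  have h5 : 1 / 2 ≤ ‖1 - y‖ := by
    have := norm_add_le (1 - y) y
    rw [sub_add_cancel, norm_one] at this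
    linarith
  have hκ := norm_nonneg κ
  have hγ := norm_nonneg γ
  constructor
  · have e : (γ - κ * W) * (1 + x) ^ 2 = - (κ * W * (y + x * (1 + (1 + x)))) := by
      linear_combination h
    have h6 : ‖y + x * (1 + (1 + x))‖ ≤ 4 * (B ^ 2 * δ) := by
      have h7 : ‖1 + (1 + x)‖ ≤ 5 / 2 := by
        have := norm_add_le 1 (1 + x)
        rw [norm_one] at this
        linarith
      have h8 := norm_add_le y (x * (1 + (1 + x)))
      rw [norm_mul] at h8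
      have h9 := mul_le_mul h1 h7 (norm_nonneg _) (by positivity)
      have h10 : 0 ≤ B ^ 2 * δ := by positivity
      linarith
    have h7 := congrArg norm e
    rw [norm_neg, norm_mul, norm_mul, norm_mul, norm_pow] at h7
    have h8 : ‖κ‖ * ‖W‖ * ‖y + x * (1 + (1 + x))‖ ≤ ‖κ‖ * B * (4 * (B ^ 2 * δ)) := by gcongr
    have h9 : ‖γ - κ * W‖ * (1 / 2) ^ 2 ≤ ‖γ - κ * W‖ * ‖1 + x‖ ^ 2 := by gcongr
    nlinarith
  · have h7 := congrArg norm h
    rw [norm_mul, norm_mul, norm_mul, norm_pow] at h7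
    have h8 : ‖γ‖ * ‖1 + x‖ ^ 2 ≤ ‖γ‖ * (3 / 2) ^ 2 := by gcongr
    have h9 : ‖κ‖ * ‖W‖ * (1 / 2) ≤ ‖κ‖ * ‖W‖ * ‖1 - y‖ := by gcongr
    have h10 : ‖κ‖ * 1 ≤ ‖κ‖ * (B * ‖W‖) := by gcongr
    have h11 : B * (‖κ‖ * ‖W‖) ≤ B * (5 * ‖γ‖) := by
      refine mul_le_mul_of_nonneg_left ?_ (by linarith)
      linarith
    linarith

end Crest.Agent.R22
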