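import Crest.Agent.R22.BetaDeg
import Crest.Agent.R22.Appr
import Crest.Agent.R22.Geo5Aux

namespace Crest.Agent.R22

open Polynomial
open scoped Polynomial.Bivariate

variable {d : ℕ}

lemma geo5_point {N : NF d} {p q : ℕ} {c X s1 s2 : ℝ} {μ : ℤ} {e1 e2 : Fin d → ℤ} {S : Finset ℤ}
    {l1 l2 : ℤ → ℤ} {g : ℤ → Fin d → ℤ} (h : LineCfg N p q c X s1 s2 μ e1 e2 S l1 l2 g) {n : ℤ}
    (hn : n ∈ S) : l2 n ≠ 0 ∧ |sig e1 e2 l1 l2 n| ≤ 1 ∧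
      (l1 n : ℂ) = (‖e2‖ : ℂ) / (‖e1‖ : ℂ) * l2 n * (sig e1 e2 l1 l2 n : ℝ) ∧
      ∀ i, N.emb e1 i * (l1 n : ℂ) + N.emb e2 i * (l2 n : ℂ) = (l2 n : ℂ) * (‖e2‖ : ℂ) *
          (N.emb e1 i / (‖e1‖ : ℂ) * (sig e1 e2 l1 l2 n : ℝ) + N.emb e2 i / (‖e2‖ : ℂ)) ∧
        c ≤ ‖N.emb e1 i / (‖e1‖ : ℂ) * (sig e1 e2 l1 l2 n : ℝ) + N.emb e2 i / (‖e2‖ : ℂ)‖ := by
  have hE1 : 0 < ‖e1‖ := norm_pos_iff.2 h.e1ne
  have hE2 : 0 < ‖e2‖ := norm_pos_iff.2 h.e2ne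
  have hE1' : (‖e1‖ : ℂ) ≠ 0 := by exact_mod_cast hE1.ne'
  have hE2' : (‖e2‖ : ℂ) ≠ 0 := by exact_mod_cast hE2.ne'
  have h2 : l2 n ≠ 0 := by
    intro h0
    have h1 := h.chart n hn
    rw [h0, Int.cast_zero, abs_zero, zero_mul] at h1
    have h3 : |(l1 n : ℝ)| ≤ 0 := nonpos_of_mul_nonpos_left h1 hE1
    have h4 : l1 n = 0 := by exact_mod_cast abs_nonpos_iff.1 h3
    have h5 := h.cop n hn
    rw [h0, h4] at h5
    exact not_isCoprime_zero_zero h5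
  have h2' : (l2 n : ℂ) ≠ 0 := by exact_mod_cast h2
  have h2r : 0 < |(l2 n : ℝ)| := abs_pos.2 (by exact_mod_cast h2)
  have h3 : ∀ i, N.emb e1 i * (l1 n : ℂ) + N.emb e2 i * (l2 n : ℂ) = (l2 n : ℂ) * (‖e2‖ : ℂ) *
      (N.emb e1 i / (‖e1‖ : ℂ) * (sig e1 e2 l1 l2 n : ℝ) + N.emb e2 i / (‖e2‖ : ℂ)) := fun i => by
    unfold sig
    push_cast
    field_simp
  refine ⟨h2, ?_, ?_, fun i => ⟨h3 i, ?_⟩⟩
  · rw [sig, abs_div, abs_mul, abs_mul, abs_of_pos hE1, abs_of_pos hE2, div_le_one (by positivity)]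
    exact h.chart n hn
  · unfold sig
    push_cast
    field_simp
  · have h4 := h.low n hn i
    rw [h3 i, norm_mul, norm_mul, Complex.norm_intCast, Complex.norm_real, norm_norm,
      mul_comm] at h4
    exact le_of_mul_le_mul_left h4 (by positivity)

lemma geo5_hat {N : NF d} {CN : ℝ} (hemb : ∀ (a : Fin d → ℤ) i, ‖N.emb a i‖ ≤ CN * ‖a‖)
    {e : Fin d → ℤ} (he : e ≠ 0) (i : Fin d) : ‖N.emb e i / (‖e‖ : ℂ)‖ ≤ CN := by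
  rw [norm_div, Complex.norm_real, norm_norm, div_le_iff₀ (norm_pos_iff.2 he)]
  exact hemb e i

/-- The chart itself. -/
lemma geo5_chart {N : NF 4} {c c' CN ρ K X m s1 s2 : ℝ} {μ : ℤ} {e1 e2 : Fin 4 → ℤ} {S : Finset ℤ}
    {l1 l2 : ℤ → ℤ} {g : ℤ → Fin 4 → ℤ} (h : LineCfg N 1 2 c X s1 s2 μ e1 e2 S l1 l2 g)
    (hD : Diam e1 e2 l1 l2 X m S) (hC : 1 ≤ CN) (hθ : ∀ i, ‖N.θ i‖ ≤ CN)
    (hemb : ∀ (a : Fin 4 → ℤ) i, ‖N.emb a i‖ ≤ CN * ‖a‖) (hρ : 0 < ρ) (hρc : 22 * CN * ρ ≤ c')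
    (hc1 : c' ≤ 1) (hcc : c' ≤ c) (hm1 : m ≤ 1) (hX : 1 ≤ X)
    (hXm : 2 * (ρ⁻¹ ^ 4) ^ 2 * X ^ (-m) ≤ 1) (hK : 16 * (ρ⁻¹ ^ 4) ^ 3 ≤ K) {n0 : ℤ} (hn0 : n0 ∈ S)
    {t : ℝ} (ht1 : ρ ≤ t) (ht2 : t ≤ 11 * ρ) :
    (∀ n ∈ S, ((sig e1 e2 l1 l2 n : ℝ) : ℂ) - ((sig e1 e2 l1 l2 n0 : ℝ) + t) ≠ 0) ∧
    ∃ (ν κ' : ℤ → ℂ) (A W : Fin 4 → ℂ) (r1 r2 a1 a1' a2 a2' : ℂ),
      Chart N 1 2 K X m s1 s2 S l1 l2 g
        (fun n => (((sig e1 e2 l1 l2 n : ℝ) : ℂ) - ((sig e1 e2 l1 l2 n0 : ℝ) + t))⁻¹ + (t : ℂ)⁻¹)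
        ν κ' A W r1 r2 a1 a1' a2 a2' := by
  have hE1 : 0 < ‖e1‖ := norm_pos_iff.2 h.e1ne
  have hE2 : 0 < ‖e2‖ := norm_pos_iff.2 h.e2ne
  have hE2' : (‖e2‖ : ℂ) ≠ 0 := by exact_mod_cast hE2.ne'
  set Q : ℝ := ρ⁻¹ with hQ
  have hQρ : Q * ρ = 1 := inv_mul_cancel₀ hρ.ne'
  have hQ0 : 0 < Q := inv_pos.2 hρ
  have hQC : 22 * CN ≤ Q := by
    have : 22 * CN * ρ ≤ Q * ρ := by linarith
    exact le_of_mul_le_mul_right this hρ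
  have hQ1 : 22 ≤ Q := by linarith
  have hQ2 : 22 * Q ≤ Q ^ 2 := by nlinarith
  have hQ4 : 22 * Q ^ 2 ≤ Q ^ 4 := by nlinarith
  set B : ℝ := Q ^ 4 with hB
  have hB1 : 1 ≤ B := by linarith
  have hB2 : B ≤ B ^ 2 := by nlinarith
  have hB3 : B ^ 2 ≤ B ^ 3 := by nlinarith
  have hBK : B ≤ K := by linarith
  set δ : ℝ := X ^ (-m) with hδ
  have hδ0 : 0 < δ := by positivity
  have hδρ : 2 * δ ≤ ρ := by
    have h1 : Q * δ ≤ B ^ 2 * δ := mul_le_mul_of_nonneg_right (by linarith) hδ0.le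
    have h2 : Q * (2 * δ) ≤ Q * ρ := by linarith
    exact le_of_mul_le_mul_left h2 hQ0
  have hρ1 : 22 * ρ ≤ 1 := by nlinarith
  have ht0 : 0 < t := by linarith
  have ht0' : (t : ℂ) ≠ 0 := by exact_mod_cast ht0.ne'
  have htn : ‖(t : ℂ)‖ = t := by rw [Complex.norm_real, Real.norm_eq_abs, abs_of_pos ht0]
  have hti : ‖(t : ℂ)⁻¹‖ ≤ Q := by
    rw [norm_inv, htn]
    exact inv_anti₀ hρ ht1
  set σ : ℤ → ℂ := fun n => ((sig e1 e2 l1 l2 n : ℝ) : ℂ) with hσ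
  set Ah : Fin 4 → ℂ := fun i => N.emb e1 i / (‖e1‖ : ℂ) with hAh
  set Bh : Fin 4 → ℂ := fun i => N.emb e2 i / (‖e2‖ : ℂ) with hBh
  have hσ1 : ∀ n ∈ S, ‖σ n‖ ≤ 1 := fun n hn => by
    rw [hσ, Complex.norm_real, Real.norm_eq_abs]
    exact (geo5_point h hn).2.1
  have hσ2 : ∀ n ∈ S, ‖σ n - σ n0‖ ≤ δ := fun n hn => by
    rw [hσ, ← Complex.ofReal_sub, Complex.norm_real, Real.norm_eq_abs]
    exact hD n hn n0 hn0
  have hlow : ∀ n ∈ S, ∀ i, ρ ≤ ‖Ah i * σ n + Bh i‖ := fun n hn i => by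
    have := ((geo5_point h hn).2.2.2 i).2
    nlinarith
  have hup : ∀ (z : ℂ) i, ‖z‖ ≤ 2 → ‖Ah i * z + Bh i‖ ≤ Q := fun z i hz => by
    have h1 := norm_add_le (Ah i * z) (Bh i)
    rw [norm_mul] at h1
    have h2 : ‖Ah i‖ * ‖z‖ ≤ CN * 2 :=
      mul_le_mul (geo5_hat hemb h.e1ne i) hz (norm_nonneg _) (by linarith)
    have h3 : ‖Bh i‖ ≤ CN := geo5_hat hemb h.e2ne i
    linarith
  have hl0 : ∀ n ∈ S, ∀ i, Ah i * σ n + Bh i ≠ 0 := fun n hn i =>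
    norm_pos_iff.1 (hρ.trans_le (hlow n hn i))
  have ha : ‖σ n0 + t‖ ≤ 2 := (norm_add_le _ _).trans (by rw [htn]; linarith [hσ1 n0 hn0])
  have hw1 : ∀ n ∈ S, ρ / 2 ≤ ‖σ n - (σ n0 + t)‖ := fun n hn => by
    have h1 := norm_sub_le (σ n - σ n0) (σ n - (σ n0 + t))
    rw [show σ n - σ n0 - (σ n - (σ n0 + t)) = t by ring, htn] at h1
    linarith [hσ2 n hn]
  have hw2 : ∀ n ∈ S, ‖σ n - (σ n0 + t)‖ ≤ 3 := fun n hn =>
    (norm_sub_le _ _).trans (by linarith [hσ1 n hn])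
  have hw0 : ∀ n ∈ S, σ n - (σ n0 + t) ≠ 0 := fun n hn =>
    norm_pos_iff.1 (lt_of_lt_of_le (by positivity) (hw1 n hn))
  have hu : ∀ n ∈ S, ‖(σ n - (σ n0 + t))⁻¹ + (t : ℂ)⁻¹‖ ≤ B * δ := fun n hn => by
    have h1 : (σ n - (σ n0 + t))⁻¹ + (t : ℂ)⁻¹ = (σ n - (σ n0 + t))⁻¹ * (t : ℂ)⁻¹ * (σ n - σ n0) := by
      have := hw0 n hn
      field_simp
      ring
    have h2 : ‖(σ n - (σ n0 + t))⁻¹‖ ≤ 2 * Q := by
      rw [norm_inv]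
      refine (inv_anti₀ (by positivity) (hw1 n hn)).trans (le_of_eq ?_)
      rw [inv_div, div_eq_mul_inv]
    rw [h1, norm_mul, norm_mul]
    refine mul_le_mul ((mul_le_mul h2 hti (norm_nonneg _) (by positivity)).trans ?_) (hσ2 n hn)
      (norm_nonneg _) (by positivity)
    nlinarith
  have hA : ∀ i, ‖-(t * (Ah i * (σ n0 + t) + Bh i)) / (Ah i * σ n0 + Bh i)‖ ≤ B := fun i => by
    rw [norm_div, norm_neg, norm_mul, htn, div_le_iff₀ (hρ.trans_le (hlow n0 hn0 i))]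
    have h1 : t * ‖Ah i * (σ n0 + t) + Bh i‖ ≤ 11 * ρ * Q :=
      mul_le_mul ht2 (hup _ i ha) (norm_nonneg _) (by positivity)
    have h2 : B * ρ ≤ B * ‖Ah i * σ n0 + Bh i‖ := by gcongr; exact hlow n0 hn0 i
    have h3 : 11 * Q * ρ ≤ B * ρ := mul_le_mul_of_nonneg_right (by linarith) hρ.le
    linarith
  have hW : ∀ i, ‖(t / (Ah i * σ n0 + Bh i)) ^ 2‖ ≤ B ∧
      1 ≤ B * ‖(t / (Ah i * σ n0 + Bh i)) ^ 2‖ := fun i => by
    have hp := hρ.trans_le (hlow n0 hn0 i)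
    rw [norm_pow, norm_div, htn]
    constructor
    · have h1 : t / ‖Ah i * σ n0 + Bh i‖ ≤ 11 := by
        rw [div_le_iff₀ hp]
        linarith [hlow n0 hn0 i]
      have h2 := pow_le_pow_left₀ (by positivity) h1 2
      linarith
    · have h1 : ρ * ρ ≤ t / ‖Ah i * σ n0 + Bh i‖ := by
        rw [le_div_iff₀ hp]
        have h2 := hup _ i ((hσ1 n0 hn0).trans one_le_two)
        have h3 : ρ * ρ * ‖Ah i * σ n0 + Bh i‖ ≤ ρ * ρ * Q := by gcongr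
        have h4 : ρ * ρ * Q = ρ := by rw [mul_assoc, mul_comm ρ Q, hQρ, mul_one]
        linarith
      have h2 := pow_le_pow_left₀ (by positivity) h1 2
      have h3 : B * (ρ * ρ) ^ 2 = 1 := by
        rw [show B * (ρ * ρ) ^ 2 = (Q * ρ) ^ 4 by rw [hB]; ring, hQρ, one_pow]
      rw [← h3]
      exact mul_le_mul_of_nonneg_left h2 (by positivity)
  have hn : ∀ n ∈ S, (n : ℂ) ≠ 0 ∧ ‖(n : ℂ)⁻¹‖ ≤ δ := fun n hn => by
    have h1 := (h.rng n hn).1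
    refine ⟨fun h0 => ?_, ?_⟩
    · have h2 : n = 0 := by exact_mod_cast h0
      rw [h2, Int.cast_zero, abs_zero] at h1
      linarith
    · rw [norm_inv, Complex.norm_intCast]
      refine (inv_anti₀ (by linarith) h1).trans ?_
      rw [← Real.rpow_neg_one]
      exact Real.rpow_le_rpow_of_exponent_le hX (by linarith)
  have hgeq : ∀ n ∈ S, ∀ i, N.emb (g n) i *
      (1 + -(t * (Ah i * (σ n0 + t) + Bh i)) / (Ah i * σ n0 + Bh i) *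
        ((σ n - (σ n0 + t))⁻¹ + (t : ℂ)⁻¹)) ^ 2 =
      μ * n / ((σ n - (σ n0 + t)) * (l2 n * (‖e2‖ : ℂ))) ^ 2 * (t / (Ah i * σ n0 + Bh i)) ^ 2 *
        (1 - N.θ i * (n : ℂ)⁻¹) := fun n hn' i => by
    have h1 := h.eq n hn' i
    rw [pow_one, ((geo5_point h hn').2.2.2 i).1] at h1
    have h2 : (l2 n : ℂ) ≠ 0 := by exact_mod_cast (geo5_point h hn').1
    have h3 := hw0 n hn'
    have h4 := hl0 n0 hn0 i
    have h5 := (hn n hn').1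
    have h6 : 1 + -(t * (Ah i * (σ n0 + t) + Bh i)) / (Ah i * σ n0 + Bh i) *
        ((σ n - (σ n0 + t))⁻¹ + (t : ℂ)⁻¹) =
        -(t * (Ah i * σ n + Bh i)) / ((σ n - (σ n0 + t)) * (Ah i * σ n0 + Bh i)) := by
      generalize hw : σ n - (σ n0 + t) = w at h3 ⊢
      have h7 : σ n = w + σ n0 + t := by rw [← hw]; ring
      generalize hl : Ah i * σ n0 + Bh i = l at h4 ⊢
      have h8 : Bh i = l - Ah i * σ n0 := by rw [← hl]; ring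
      rw [h7, h8]
      field_simp
      ring
    rw [h6]
    change N.emb (g n) i * (l2 n * (‖e2‖ : ℂ) * (Ah i * σ n + Bh i)) ^ 2 = _ at h1
    generalize σ n - (σ n0 + t) = w at h3 ⊢
    generalize Ah i * σ n0 + Bh i = l at h4 ⊢
    generalize Ah i * σ n + Bh i = l' at h1 ⊢
    field_simp
    linear_combination h1
  have hcls := fun n (hn' : n ∈ S) i => geo5_cls hB1 (hA i) (hu n hn') ((hθ i).trans (by linarith))
    (hn n hn').2 hXm (hW i).1 (hW i).2 (hgeq n hn' i)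
  have hs1 : 0 ≤ X ^ s1 := by positivity
  have hs2 : 0 ≤ X ^ s2 := by positivity
  refine ⟨hw0, fun n => l2 n * (σ n - (σ n0 + t)),
    fun n => μ * n / ((σ n - (σ n0 + t)) * (l2 n * (‖e2‖ : ℂ))) ^ 2,
    fun i => -(t * (Ah i * (σ n0 + t) + Bh i)) / (Ah i * σ n0 + Bh i),
    fun i => (t / (Ah i * σ n0 + Bh i)) ^ 2, (‖e2‖ : ℂ) / (‖e1‖ : ℂ), 1,
    1 - (σ n0 + t) * (t : ℂ)⁻¹, σ n0 + t, -(t : ℂ)⁻¹, 1, fun n hn => (h.rng n hn).1,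
    fun n hn => (hu n hn).trans (mul_le_mul_of_nonneg_right hBK hδ0.le), fun i => (hA i).trans hBK,
    fun i => ⟨(hW i).1.trans hBK, (hW i).2.trans (mul_le_mul_of_nonneg_right hBK (norm_nonneg _))⟩,
    ⟨?_, ha.trans (by linarith), ?_, ?_⟩, fun n hn' => ?_, fun n hn' => ?_, fun n hn' => ⟨?_, ?_⟩,
    fun n hn' i => ?_, fun n hn' i => (hcls n hn' i).1.trans ?_, fun n hn' => ?_⟩
  · refine (norm_sub_le _ _).trans ?_
    rw [norm_one, norm_mul]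
    have := mul_le_mul ha hti (norm_nonneg _) zero_le_two
    linarith
  · rw [norm_neg]
    linarith
  · rw [norm_one]
    linarith
  · have h1 := (geo5_point h hn').2.2.1
    have h3 := hw0 n hn'
    change _ = _ * (l2 n * (σ n - (σ n0 + t))) * (1 - (σ n0 + t) * (t : ℂ)⁻¹ + (σ n0 + t) *
      ((σ n - (σ n0 + t))⁻¹ + (t : ℂ)⁻¹))
    change _ = _ * _ * σ n at h1
    rw [h1]
    field_simp
    ring
  · have h3 := hw0 n hn'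
    change _ = 1 * (l2 n * (σ n - (σ n0 + t))) * (-(t : ℂ)⁻¹ + 1 *
      ((σ n - (σ n0 + t))⁻¹ + (t : ℂ)⁻¹))
    field_simp
    ring
  · rw [norm_mul, norm_mul, norm_div, Complex.norm_real, Complex.norm_real, norm_norm, norm_norm,
      Complex.norm_intCast, ← mul_assoc, mul_comm K]
    refine mul_le_mul ?_ ((hw2 n hn').trans (by linarith)) (norm_nonneg _) hs1
    rw [div_mul_eq_mul_div, div_le_iff₀ hE1, mul_comm]
    exact (h.sz1 n hn').2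
  · rw [one_mul, norm_mul, Complex.norm_intCast, mul_comm K]
    exact mul_le_mul (h.sz1 n hn').1 ((hw2 n hn').trans (by linarith)) (norm_nonneg _) hs1
  · rw [pow_one, pow_one]
    exact hgeq n hn' i
  · gcongr
  · refine (hcls n hn' 0).2.trans ?_
    have h1 : ‖N.emb (g n) 0‖ ≤ B * X ^ s2 :=
      (hemb _ 0).trans (mul_le_mul (by linarith) (h.sz2 n hn') (norm_nonneg _) (by linarith))
    calc _ ≤ 5 * B * (B * X ^ s2) := by gcongr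
      _ = 5 * B ^ 2 * X ^ s2 := by ring
      _ ≤ _ := mul_le_mul_of_nonneg_right (by linarith) hs2

lemma geo5_eval {gh : ℂ[X][Y]} (h : gh.natDegree ≤ 2) (y : ℂ[X]) :
    gh.eval y = gh.coeff 2 * y ^ 2 + gh.coeff 1 * y + gh.coeff 0 := by
  rw [eval_eq_sum_range' (n := 3) (by omega)]
  simp only [Finset.sum_range_succ, Finset.sum_range_zero]
  ring

lemma geo5_eval' {gh : ℂ[X][Y]} (h : gh.natDegree ≤ 2) (y : ℂ[X]) :
    (derivative gh).eval y = 2 * gh.coeff 2 * y + gh.coeff 1 := by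
  rw [eval_eq_sum_range' (n := 2) (by have := natDegree_derivative_le gh; omega)]
  simp only [Finset.sum_range_succ, Finset.sum_range_zero, coeff_derivative]
  push_cast
  ring

lemma geo5_dvd {N : NF d} {e1 e2 : Fin d → ℤ} (h1 : e1 ≠ 0) (h2 : e2 ≠ 0) (i : Fin d) {k : ℕ}
    {G : ℂ[X]} (h : N.ell e1 e2 i ^ k ∣ G) :
    (C (N.emb e1 i / (‖e1‖ : ℂ)) * X + C (N.emb e2 i / (‖e2‖ : ℂ))) ^ k ∣
      G.comp (C ((‖e2‖ : ℂ) / (‖e1‖ : ℂ)) * X) := by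
  have hE1 : (‖e1‖ : ℂ) ≠ 0 := by exact_mod_cast (norm_pos_iff.2 h1).ne'
  have hE2 : (‖e2‖ : ℂ) ≠ 0 := by exact_mod_cast (norm_pos_iff.2 h2).ne'
  obtain ⟨G', rfl⟩ := h
  rw [mul_comp, pow_comp]
  refine Dvd.dvd.mul_right (pow_dvd_pow_of_dvd (Dvd.intro_left (C (‖e2‖ : ℂ)) ?_) k) _
  rw [NF.ell, add_comp, mul_comp, C_comp, C_comp, X_comp, mul_add, ← mul_assoc, ← mul_assoc,
    ← C_mul, ← C_mul, ← C_mul]
  congr 3
  · field_simp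
  · field_simp

/-- The `Y`-chart.  Notation of `sigma_chart`.  `H j (σ) = gh.coeff j (σ E2 / E1)`.  Let `ρ0 > 0` be a small
constant (`11 ρ0 C ≤ c / 2`), `σ_l = σ0 + l ρ0` with `l ∈ {1, …, 11}` maximising `|H 2 (σ_l)|`; by Lagrange
interpolation at these fixed offsets the coefficients of `H 2 (σ_l + s)` are `≤ C |H 2 (σ_l)|`.
`Y = 1 / (σ - σ_l)`, `Y0 = 1 / (σ0 - σ_l)`, `u = Y - Y0`, `h̃ j (Y) = Y^10 H j (σ_l + 1/Y)` (`reflect 10` of the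
Taylor shift) written in the variable `u`; `y i = - Â i / ℓ i (σ_l) - Y0`, `|y i - y j| = |P̂ i j| / |ℓ i ℓ j (σ_l)|
≥ η / C`.  The divisibilities transfer (`ℓ i (σ_l + 1/Y) Y = ℓ i (σ_l) Y + Â i`).  By `geo_lemma`, `H 2 ≠ 0`, so
`H 2 (σ_l) ≠ 0` is the coefficient of `Y^10` in `h̃ 2`; divide by it.  Chart: `ν = l2 / Y`, `r2 = 1`, `a2 = Y0`,
`a2' = 1`, `r1 = E2 / E1`, `a1 = σ_l Y0 + 1`, `a1' = σ_l`, `A i = ℓ i (σ_l) / (ℓ i (σ0) Y0)`,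
`W i = (ℓ i (σ0) Y0)^(-2)`, `κ' = μ n Y² / (l2 E2)²`.  If `S = ∅` take trivial data (`h2 = X^10`). -/
theorem NF.geo_chart (N : NF 4) {c m : ℝ} (hc : 0 < c) (hm : 0 < m) (hm1 : m ≤ 1) :
    ∃ K X0 : ℝ, 1 ≤ K ∧ ∀ X ≥ X0, ∀ (s1 s2 η : ℝ) (μ : ℤ) (e1 e2 : Fin 4 → ℤ) (S : Finset ℤ)
    (l1 l2 : ℤ → ℤ) (g : ℤ → Fin 4 → ℤ), LineCfg N 1 2 c X s1 s2 μ e1 e2 S l1 l2 g →
    Diam e1 e2 l1 l2 X m S → 0 < η → η ≤ 1 → Sep N η e1 e2 → ∀ gh : ℂ[X][Y], gh ≠ 0 →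
    gh.natDegree ≤ 2 → (∀ j, (gh.coeff j).natDegree ≤ 10) →
    (∀ n ∈ S, gh.evalEval ((l1 n : ℂ) / l2 n) (n : ℂ) = 0) →
    (∀ i, N.ell e1 e2 i ^ 4 ∣ gh.eval (C (N.θ i))) →
    (∀ i, N.ell e1 e2 i ^ 2 ∣ (derivative gh).eval (C (N.θ i))) →
    ∃ (u ν κ' : ℤ → ℂ) (A W : Fin 4 → ℂ) (r1 r2 a1 a1' a2 a2' : ℂ) (h2 h1 h0 : ℂ[X]),
      Chart N 1 2 K X m s1 s2 S l1 l2 g u ν κ' A W r1 r2 a1 a1' a2 a2' ∧ h2.Monic ∧
      h2.natDegree = 10 ∧ h1.natDegree ≤ 10 ∧ h0.natDegree ≤ 10 ∧ (∀ j, ‖h2.coeff j‖ ≤ K) ∧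
      (∀ j, ‖h1.coeff j‖ ≤ K * η⁻¹ ^ 24 ∧ ‖h0.coeff j‖ ≤ K * η⁻¹ ^ 24) ∧
      ∀ n ∈ S, h2.eval (u n) + (n : ℂ)⁻¹ * h1.eval (u n) + (n : ℂ)⁻¹ ^ 2 * h0.eval (u n) = 0 := by
  obtain ⟨CN, hCN, hθ, -, hemb, -, -⟩ := N.exists_C
  have hc' : 0 < min c 1 := lt_min hc one_pos
  set ρ : ℝ := min c 1 / (22 * CN) with hρd
  have hρ : 0 < ρ := by positivity
  have hρc : 22 * CN * ρ ≤ min c 1 := le_of_eq (by rw [hρd]; field_simp)
  obtain ⟨K1, hK1, hpoly⟩ := geo5_poly N.θ N.inj hCN hρ hρc (min_le_right _ _)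
  have hB : 0 < 16 * (ρ⁻¹ ^ 4) ^ 3 := by positivity
  refine ⟨K1 + 16 * (ρ⁻¹ ^ 4) ^ 3, max 1 ((2 * (ρ⁻¹ ^ 4) ^ 2) ^ (1 / m)), by linarith, ?_⟩
  intro Xr hX s1 s2 η μ e1 e2 S l1 l2 g h hD hη hη1 hS gh hgh hd2 hd10 hz hd4 hd1
  have hX1 : 1 ≤ Xr := (le_max_left _ _).trans hX
  have hX2 : (2 * (ρ⁻¹ ^ 4) ^ 2) ^ (1 / m) ≤ Xr := (le_max_right _ _).trans hX
  have hXm : 2 * (ρ⁻¹ ^ 4) ^ 2 * Xr ^ (-m) ≤ 1 := by
    rw [Real.rpow_neg (by linarith), ← div_eq_mul_inv, div_le_one (by positivity)]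
    calc _ = ((2 * (ρ⁻¹ ^ 4) ^ 2) ^ (1 / m)) ^ m := by
          rw [← Real.rpow_mul (by positivity), one_div_mul_cancel hm.ne', Real.rpow_one]
      _ ≤ Xr ^ m := by gcongr
  have hK : K1 ≤ K1 + 16 * (ρ⁻¹ ^ 4) ^ 3 := by linarith
  rcases S.eq_empty_or_nonempty with rfl | ⟨n0, hn0⟩
  · have h0 : ‖(0 : ℂ)‖ ≤ K1 + 16 * (ρ⁻¹ ^ 4) ^ 3 := by rw [norm_zero]; linarith
    refine ⟨0, 0, 0, 0, 1, 0, 0, 0, 0, 0, 0, X ^ 10, 0, 0,
      ⟨by simp, by simp, fun _ => h0, fun _ => ?_, ⟨h0, h0, h0, h0⟩, by simp, by simp, by simp,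
        by simp, by simp, by simp⟩, monic_X_pow _, natDegree_X_pow _, by simp, by simp,
      fun j => ?_, fun j => ?_, by simp⟩
    · rw [Pi.one_apply, norm_one]
      constructor <;> linarith
    · rw [coeff_X_pow]
      split_ifs
      · rw [norm_one]; linarith
      · exact h0
    · rw [coeff_zero, norm_zero]
      constructor <;> positivity
  have hE1 : 0 < ‖e1‖ := norm_pos_iff.2 h.e1ne
  have hE2 : 0 < ‖e2‖ := norm_pos_iff.2 h.e2ne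
  have hE1' : (‖e1‖ : ℂ) ≠ 0 := by exact_mod_cast hE1.ne'
  have hE2' : (‖e2‖ : ℂ) ≠ 0 := by exact_mod_cast hE2.ne'
  have hr : (‖e2‖ : ℂ) / (‖e1‖ : ℂ) ≠ 0 := div_ne_zero hE2' hE1'
  have hdeg : ∀ j, ((gh.coeff j).comp (C ((‖e2‖ : ℂ) / (‖e1‖ : ℂ)) * X)).natDegree ≤ 10 := fun j =>
    natDegree_comp_le.trans (by rw [natDegree_C_mul_X _ hr, mul_one]; exact hd10 j)
  obtain ⟨t, lam, h2, h1, h0, ht1, ht2, hlam, hmon, d2, d1, d0, c2, c1, hev⟩ :=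
    hpoly (fun i => N.emb e1 i / (‖e1‖ : ℂ)) (fun i => N.emb e2 i / (‖e2‖ : ℂ))
      (sig e1 e2 l1 l2 n0 : ℝ) η ((gh.coeff 2).comp (C ((‖e2‖ : ℂ) / (‖e1‖ : ℂ)) * X))
      ((gh.coeff 1).comp (C ((‖e2‖ : ℂ) / (‖e1‖ : ℂ)) * X))
      ((gh.coeff 0).comp (C ((‖e2‖ : ℂ) / (‖e1‖ : ℂ)) * X))
      (fun i => div_ne_zero (N.emb_ne_zero h.e1ne i) hE1') (geo5_hat hemb h.e1ne)
      (geo5_hat hemb h.e2ne)
      (by rw [Complex.norm_real, Real.norm_eq_abs]; exact (geo5_point h hn0).2.1)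
      (fun i => (min_le_left _ _).trans ((geo5_point h hn0).2.2.2 i).2) hη hη1
      (fun i j hij => by
        have e : N.emb e1 i / (‖e1‖ : ℂ) * (N.emb e2 j / (‖e2‖ : ℂ)) -
            N.emb e1 j / (‖e1‖ : ℂ) * (N.emb e2 i / (‖e2‖ : ℂ)) =
            N.PP e1 e2 i j / ((‖e1‖ : ℂ) * (‖e2‖ : ℂ)) := by
          rw [NF.PP]
          field_simp
        rw [e, norm_div, norm_mul, Complex.norm_real, Complex.norm_real, norm_norm, norm_norm,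
          le_div_iff₀ (by positivity)]
        exact hS i j hij)
      (hdeg 2) (hdeg 1) (hdeg 0)
      (by
        simp only [comp_C_mul_X_eq_zero_iff (mem_nonZeroDivisors_of_ne_zero hr)]
        rintro ⟨z2, z1, z0⟩
        refine hgh (Polynomial.ext fun j => ?_)
        rw [coeff_zero]
        rcases Nat.lt_or_ge 2 j with hj | hj
        · exact coeff_eq_zero_of_natDegree_lt (by omega)
        · interval_cases j <;> assumption)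
      (fun i => by
        have := geo5_dvd h.e1ne h.e2ne i (hd4 i)
        simpa only [geo5_eval hd2, add_comp, mul_comp, pow_comp, C_comp] using this)
      (fun i => by
        have := geo5_dvd h.e1ne h.e2ne i (hd1 i)
        simpa only [geo5_eval' hd2, add_comp, mul_comp, C_comp, ofNat_comp, Nat.cast_ofNat]
          using this)
  obtain ⟨hw0, ν, κ', A, W, r1, r2, a1, a1', a2, a2', hch⟩ :=
    geo5_chart (K := K1 + 16 * (ρ⁻¹ ^ 4) ^ 3) h hD hCN hθ hemb hρ hρc (min_le_right _ _)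
      (min_le_left _ _) hm1 hX1 hXm (by linarith) hn0 ht1 ht2
  have hη24 : 0 ≤ η⁻¹ ^ 24 := by positivity
  refine ⟨_, ν, κ', A, W, r1, r2, a1, a1', a2, a2', h2, h1, h0, hch, hmon, d2, d1, d0,
    fun j => (c2 j).trans hK, fun j => ⟨(c1 j).1.trans (mul_le_mul_of_nonneg_right hK hη24),
      (c1 j).2.trans (mul_le_mul_of_nonneg_right hK hη24)⟩, fun n hn => ?_⟩
  obtain ⟨v2, v1, v0⟩ := hev _ (hw0 n hn)
  have hl2 : (l2 n : ℂ) ≠ 0 := by exact_mod_cast (geo5_point h hn).1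
  have hx : (‖e2‖ : ℂ) / (‖e1‖ : ℂ) * (sig e1 e2 l1 l2 n : ℝ) = (l1 n : ℂ) / l2 n := by
    rw [(geo5_point h hn).2.2.1]
    field_simp
  simp only [sub_add_cancel, eval_comp, eval_mul, eval_C, eval_X, hx] at v2 v1 v0
  have hz' := hz n hn
  rw [evalEval, geo5_eval hd2] at hz'
  simp only [eval_add, eval_mul, eval_pow, eval_C] at hz'
  have hn0' : (n : ℂ) ≠ 0 := by
    intro h0
    have h3 : n = 0 := by exact_mod_cast h0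
    have h4 := (h.rng n hn).1
    rw [h3, Int.cast_zero, abs_zero] at h4
    linarith
  refine mul_right_cancel₀ (mul_ne_zero (mul_ne_zero hlam (pow_ne_zero 10 (hw0 n hn)))
    (pow_ne_zero 2 hn0')) ?_
  rw [← v2, ← v1, ← v0] at hz'
  rw [zero_mul, ← hz']
  field_simp

end Crest.Agent.R22
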