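import Crest.Agent.R22.Kummer
import Crest.Agent.R22.Fix

namespace Crest.Agent.R22

open MvPolynomial

variable {d : ℕ}

theorem SurfCfg.red1_coef {N : NF d} {p q : ℕ} (hp : 1 ≤ p) {e1 e2 : Fin d → ℤ} (h1 : e1 ≠ 0)
    {Ω : Type} [Field Ω] [Algebra ℂ Ω] {x nn : Ω} {b : Fin d → Ω} (h : SurfCfg N p q e1 e2 x nn b)
    (a : (Fin d → Fin p) → MvPolynomial (Fin 2) ℂ)
    (ha : ∑ J, aeval ![x, nn] (a J) * ∏ i, b i ^ (J i : ℕ) = 0) (J : Fin d → Fin p) : a J = 0 := by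
  have hinj : Function.Injective (aeval (R := ℂ) ![x, nn]) := h.ind
  have hmem : ∀ f : MvPolynomial (Fin 2) ℂ,
      aeval ![x, nn] f ∈ IntermediateField.adjoin ℂ {x, nn} := by
    intro f
    induction f using MvPolynomial.induction_on with
    | C c => rw [algHom_C]; exact IntermediateField.algebraMap_mem _ c
    | add f g hf hg => rw [map_add]; exact add_mem hf hg
    | mul_X f i hf =>
      rw [map_mul, aeval_X]
      refine mul_mem hf (IntermediateField.subset_adjoin _ _ ?_)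
      fin_cases i <;> simp
  have := Fintype.linearIndependent_iff.1 (h.kummer hp h1) (fun J => ⟨_, hmem (a J)⟩) ha J
  exact hinj (by rw [map_zero]; exact congrArg Subtype.val this)

theorem SurfCfg.red1_ell {N : NF d} {p q : ℕ} {e1 e2 : Fin d → ℤ} (h1 : e1 ≠ 0)
    {Ω : Type} [Field Ω] [Algebra ℂ Ω] {x nn : Ω} {b : Fin d → Ω} (h : SurfCfg N p q e1 e2 x nn b)
    (i : Fin d) : algebraMap ℂ Ω (N.emb e1 i) * x + algebraMap ℂ Ω (N.emb e2 i) ≠ 0 := by
  intro hi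
  have hinj : Function.Injective (aeval (R := ℂ) ![x, nn]) := h.ind
  have h2 : (C (N.emb e1 i) * X 0 + C (N.emb e2 i) : MvPolynomial (Fin 2) ℂ) = 0 :=
    hinj (by simpa using hi)
  have h3 := congrArg (eval fun _ => (0 : ℂ)) h2
  have h4 := congrArg (eval fun _ => (1 : ℂ)) h2
  simp only [map_add, map_mul, eval_C, eval_X, mul_zero, zero_add, map_zero, mul_one] at h3 h4
  rw [h3, add_zero] at h4
  exact N.emb_ne_zero h1 i h4

theorem red1_det_deg {ι : Type} [Fintype ι] [DecidableEq ι]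
    (M : Matrix ι ι (MvPolynomial (Fin 2) ℂ)) (c : ℕ) (hM : ∀ i j, (M i j).totalDegree ≤ c) :
    M.det.totalDegree ≤ Fintype.card ι * c := by
  rw [Matrix.det_apply']
  refine totalDegree_finsetSum_le fun σ _ => ?_
  refine (totalDegree_mul _ _).trans ?_
  have h1 : ((Equiv.Perm.sign σ : ℤ) : MvPolynomial (Fin 2) ℂ).totalDegree = 0 := by
    rw [← map_intCast (C : ℂ →+* MvPolynomial (Fin 2) ℂ), totalDegree_C]
  rw [h1, zero_add]
  refine (totalDegree_finsetProd _ _).trans ?_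
  simpa using Finset.sum_le_card_nsmul Finset.univ (fun i => (M (σ i) i).totalDegree) c
    fun i _ => hM _ _

/-- Every relation of the generic point holds at every complex point of the surface with `ℓ i ≠ 0`:
by `normal_form` and `kummer` all `a J (x, nn) = 0`, so `a J = 0` (algebraic independence). -/
theorem SurfCfg.V0 {N : NF d} {p q : ℕ} (hp : 1 ≤ p) {e1 e2 : Fin d → ℤ} (h1 : e1 ≠ 0)
    {Ω : Type} [Field Ω] [Algebra ℂ Ω] {x nn : Ω} {b : Fin d → Ω} (h : SurfCfg N p q e1 e2 x nn b)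
    (Ψ : MvPolynomial (Fin 2 ⊕ Fin d) ℂ) (hΨ : aeval (gens x nn b) Ψ = 0) (x0 n0 : ℂ)
    (b0 : Fin d → ℂ) (h0 : Rel N p q e1 e2 x0 n0 b0)
    (hl : ∀ i, N.emb e1 i * x0 + N.emb e2 i ≠ 0) : eval (gens x0 n0 b0) Ψ = 0 := by
  obtain ⟨a, -, ha⟩ := N.normal_form p q Ψ.totalDegree hp e1 e2 Ψ le_rfl
  have h2 := ha Ω x nn b h.rel
  rw [hΨ, mul_zero] at h2
  have h3 := h.red1_coef hp h1 a h2.symm
  have h4 := ha ℂ x0 n0 b0 h0
  simp only [h3, map_zero, zero_mul, Finset.sum_const_zero] at h4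
  rw [← coe_aeval_eq_eval]
  exact (mul_eq_zero.1 h4).resolve_left
    (pow_ne_zero _ (Finset.prod_ne_zero_iff.2 fun i _ => by simpa using hl i))

/-- Elimination of `b` by counting dimensions.  Let `U M` be the span in `Ω` of `x^i nn^j b^J`, `i, j ≤ M`,
of dimension exactly `p^d (M + 1)²` (`kummer` and algebraic independence).  With `D' = D + d p`,
`Den = (∏ ℓ)^(q D')`, `c0 = (2 + d q) D'`, `normal_form` applied to the `Ψ b^J` shows that multiplication by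
`Den Ψ(y) ≠ 0` maps `U (M - c0)` injectively into `U M`.  For `M = 2 c0 p^d + c0` the codimension
`p^d ((M+1)² - (M - c0 + 1)²)` is `< (M + 1)²`, the dimension of the span of the `x^i nn^j`; so
`Den Ψ w = g(x, nn)` with `0 ≠ w ∈ U (M - c0)`, `g ≠ 0` of total degree `≤ 2 M`.  Lift `w` to a polynomial
and apply `V0` to `Den Ψ w - g`. -/
theorem exists_red (d p q D : ℕ) (hp : 1 ≤ p) : ∃ D1 : ℕ, ∀ (N : NF d) (e1 e2 : Fin d → ℤ), e1 ≠ 0 →
    ∀ (Ω : Type) [Field Ω] [Algebra ℂ Ω] (x nn : Ω) (b : Fin d → Ω), SurfCfg N p q e1 e2 x nn b →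
    ∀ Ψ : MvPolynomial (Fin 2 ⊕ Fin d) ℂ, Ψ.totalDegree ≤ D → aeval (gens x nn b) Ψ ≠ 0 →
    ∃ g : MvPolynomial (Fin 2) ℂ, g ≠ 0 ∧ g.totalDegree ≤ D1 ∧ ∀ (x0 n0 : ℂ) (b0 : Fin d → ℂ),
      Rel N p q e1 e2 x0 n0 b0 → (∀ i, N.emb e1 i * x0 + N.emb e2 i ≠ 0) →
      eval (gens x0 n0 b0) Ψ = 0 → eval ![x0, n0] g = 0 := by
  classical
  refine ⟨p ^ d * ((2 + d * q) * (D + d * p)), ?_⟩
  intro N e1 e2 h1 Ω _ _ x nn b h Ψ hΨ hΨ0
  have hdeg : ∀ J : Fin d → Fin p,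
      (Ψ * ∏ i, X (Sum.inr i) ^ (J i : ℕ) : MvPolynomial (Fin 2 ⊕ Fin d) ℂ).totalDegree ≤
        D + d * p := by
    intro J
    refine (totalDegree_mul _ _).trans (add_le_add hΨ ((totalDegree_finsetProd _ _).trans ?_))
    simpa using Finset.sum_le_card_nsmul Finset.univ
      (fun i => (X (Sum.inr i) ^ (J i : ℕ) : MvPolynomial (Fin 2 ⊕ Fin d) ℂ).totalDegree) p
      fun i _ => by rw [totalDegree_X_pow]; exact (J i).2.le
  choose a ha ha' using fun J => N.normal_form p q (D + d * p) hp e1 e2 _ (hdeg J)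
  have hae : ∀ (Ω : Type) [CommRing Ω] [Algebra ℂ Ω] (x nn : Ω) (b : Fin d → Ω)
      (J : Fin d → Fin p),
      aeval (gens x nn b) (Ψ * ∏ i, X (Sum.inr i) ^ (J i : ℕ) : MvPolynomial (Fin 2 ⊕ Fin d) ℂ) =
        aeval (gens x nn b) Ψ * ∏ i, b i ^ (J i : ℕ) := by
    intro Ω _ _ x nn b J
    simp [gens]
  refine ⟨(Matrix.of a).det, fun h0 => ?_, ?_, fun x0 n0 b0 h0 _ hz => ?_⟩
  · obtain ⟨c, hc, hcM⟩ := Matrix.exists_vecMul_eq_zero_iff.2 h0
    apply hc
    funext J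
    refine h.red1_coef hp h1 c ?_ J
    have hden : (∏ i, (algebraMap ℂ Ω (N.emb e1 i) * x + algebraMap ℂ Ω (N.emb e2 i))) ^
        (q * (D + d * p)) ≠ 0 :=
      pow_ne_zero _ (Finset.prod_ne_zero_iff.2 fun i _ => h.red1_ell h1 i)
    refine (mul_eq_zero.1 ?_).resolve_left (mul_ne_zero hden hΨ0)
    rw [Finset.mul_sum]
    have e : ∀ J' : Fin d → Fin p,
        (∏ i, (algebraMap ℂ Ω (N.emb e1 i) * x + algebraMap ℂ Ω (N.emb e2 i))) ^
          (q * (D + d * p)) * aeval (gens x nn b) Ψ *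
          (aeval ![x, nn] (c J') * ∏ i, b i ^ (J' i : ℕ)) =
        ∑ J, aeval ![x, nn] (c J' * a J' J) * ∏ i, b i ^ (J i : ℕ) := by
      intro J'
      have := ha' J' Ω x nn b h.rel
      rw [hae] at this
      simp only [map_mul, mul_assoc, ← Finset.mul_sum, ← this]
      ring
    rw [Finset.sum_congr rfl fun J' _ => e J', Finset.sum_comm]
    refine Finset.sum_eq_zero fun J _ => ?_
    rw [← Finset.sum_mul, ← map_sum]
    have e2 : ∑ J', c J' * a J' J = 0 := congrFun hcM J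
    rw [e2, map_zero, zero_mul]
  · simpa using red1_det_deg (Matrix.of a) _ fun J J' => ha J J'
  · rw [RingHom.map_det]
    refine Matrix.exists_mulVec_eq_zero_iff.1 ⟨fun J => ∏ i, b0 i ^ (J i : ℕ), fun h00 => ?_, ?_⟩
    · have := congrFun h00 fun _ => ⟨0, hp⟩
      simp at this
    · funext J
      have := ha' J ℂ x0 n0 b0 h0
      rw [hae, aeval_eq_eval, hz, zero_mul, mul_zero] at this
      exact this.symm

end Crest.Agent.R22
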