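import Crest.Agent.R22.Kummer
import Crest.Agent.R22.DetDiv
import Crest.Agent.R22.Red1

namespace Crest.Agent.R22

open MvPolynomial

private lemma id1_quad {Ω : Type} [CommRing Ω] {x n a0 a1 a2 c0 c1 c2 t0 t1 t2 b0 b1 b2 : Ω}
    (h0 : b0 * (a0 * x + c0) ^ 2 = n - t0) (h1 : b1 * (a1 * x + c1) ^ 2 = n - t1)
    (h2 : b2 * (a2 * x + c2) ^ 2 = n - t2) :
    ((t1 - t2) * (a0 * c1 - a1 * c0) ^ 2 * b0 + (t0 - t1) * (a2 * c1 - a1 * c2) ^ 2 * b2) *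
        (a0 * x + c0) ^ 2 +
      2 * (t0 - t1) * (a2 * c1 - a1 * c2) * (a0 * c2 - a2 * c0) * b2 *
        ((a0 * x + c0) * (a1 * x + c1)) +
      ((t2 - t0) * (a0 * c1 - a1 * c0) ^ 2 * b1 + (t0 - t1) * (a0 * c2 - a2 * c0) ^ 2 * b2) *
        (a1 * x + c1) ^ 2 = 0 := by
  linear_combination (a0 * c1 - a1 * c0) ^ 2 * ((t1 - t2) * h0 + (t2 - t0) * h1 + (t0 - t1) * h2)

private lemma id1_rel {N : NF 4} {e1 e2 : Fin 4 → ℤ} {Ω : Type} [Field Ω] [Algebra ℂ Ω] {x nn : Ω}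
    {b : Fin 4 → Ω} (h : SurfCfg N 1 2 e1 e2 x nn b) (i : Fin 4) :
    b i * (algebraMap ℂ Ω (N.emb e1 i) * x + algebraMap ℂ Ω (N.emb e2 i)) ^ 2 =
      nn - algebraMap ℂ Ω (N.θ i) := by
  simpa only [pow_one] using h.rel i

private lemma id1_ne {N : NF 4} {e1 e2 : Fin 4 → ℤ} (h1 : e1 ≠ 0) {Ω : Type} [Field Ω]
    [Algebra ℂ Ω] {x nn : Ω} {b : Fin 4 → Ω} (h : SurfCfg N 1 2 e1 e2 x nn b) {k1 k2 k3 : ℂ}
    (hk2 : k2 ≠ 0) : algebraMap ℂ Ω k1 * (b 1 * b 2) + algebraMap ℂ Ω k2 * (b 1 * b 3) +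
      algebraMap ℂ Ω k3 * (b 2 * b 3) ≠ 0 := fun hk => by
  have hinj : Function.Injective (aeval ![x, nn] : MvPolynomial (Fin 2) ℂ →ₐ[ℂ] Ω) := h.ind
  have hθ : ∀ i j, i ≠ j → N.θ i - N.θ j ≠ 0 := fun i j hij => sub_ne_zero.2 (N.inj.ne hij)
  have h2 : C k1 * ((X 1 - C (N.θ 1)) * (X 1 - C (N.θ 2)) *
        (C (N.emb e1 3) * X 0 + C (N.emb e2 3)) ^ 2) +
      C k2 * ((X 1 - C (N.θ 1)) * (X 1 - C (N.θ 3)) *
        (C (N.emb e1 2) * X 0 + C (N.emb e2 2)) ^ 2) +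
      C k3 * ((X 1 - C (N.θ 2)) * (X 1 - C (N.θ 3)) *
        (C (N.emb e1 1) * X 0 + C (N.emb e2 1)) ^ 2) = (0 : MvPolynomial (Fin 2) ℂ) := by
    refine hinj ?_
    simp only [map_add, map_mul, map_sub, map_pow, aeval_C, aeval_X, Matrix.cons_val_zero,
      Matrix.cons_val_one, map_zero, ← id1_rel h]
    linear_combination ((algebraMap ℂ Ω (N.emb e1 1) * x + algebraMap ℂ Ω (N.emb e2 1)) *
      (algebraMap ℂ Ω (N.emb e1 2) * x + algebraMap ℂ Ω (N.emb e2 2)) *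
      (algebraMap ℂ Ω (N.emb e1 3) * x + algebraMap ℂ Ω (N.emb e2 3))) ^ 2 * hk
  have hA2 : N.emb e1 2 ≠ 0 := N.emb_ne_zero h1 2
  have h3 := congrArg (aeval ![(1 - N.emb e2 2) / N.emb e1 2, N.θ 2] :
    MvPolynomial (Fin 2) ℂ →ₐ[ℂ] ℂ) h2
  simp only [map_add, map_mul, map_sub, map_pow, aeval_C, aeval_X, Matrix.cons_val_zero,
    Matrix.cons_val_one, map_zero, Algebra.algebraMap_self, RingHom.id_apply, sub_self, mul_zero,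
    zero_mul, zero_add, add_zero, mul_div_cancel₀ _ hA2, sub_add_cancel, one_pow, mul_one] at h3
  exact mul_ne_zero hk2 (mul_ne_zero (hθ _ _ (by decide)) (hθ _ _ (by decide))) h3

private lemma id1_forms {N : NF 4} {e1 e2 : Fin 4 → ℤ} (h1 : e1 ≠ 0)
    (hnd : ∀ i j, i ≠ j → N.PP e1 e2 i j ≠ 0) {Ω : Type} [Field Ω] [Algebra ℂ Ω] {x nn : Ω}
    {b : Fin 4 → Ω} (h : SurfCfg N 1 2 e1 e2 x nn b) : ∃ M0 ∈ Wsp x b 0 2, ∃ M1 ∈ Wsp x b 0 2,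
      M1 ≠ 0 ∧ M0 * (algebraMap ℂ Ω (N.emb e1 0) * x + algebraMap ℂ Ω (N.emb e2 0)) +
        M1 * (algebraMap ℂ Ω (N.emb e1 1) * x + algebraMap ℂ Ω (N.emb e2 1)) = 0 := by
  have hinj : Function.Injective (aeval ![x, nn] : MvPolynomial (Fin 2) ℂ →ₐ[ℂ] Ω) := h.ind
  have hθ : ∀ i j, i ≠ j → N.θ i - N.θ j ≠ 0 := fun i j hij => sub_ne_zero.2 (N.inj.ne hij)
  have hu : algebraMap ℂ Ω (N.emb e1 0) * x + algebraMap ℂ Ω (N.emb e2 0) ≠ 0 := fun h0 => by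
    have h2 := id1_rel h 0
    rw [h0, zero_pow two_ne_zero, mul_zero] at h2
    have h3 : X 1 - C (N.θ 0) = (0 : MvPolynomial (Fin 2) ℂ) := hinj (by simp [← h2])
    have h4 := congrArg (aeval ![0, N.θ 0 + 1] : MvPolynomial (Fin 2) ℂ →ₐ[ℂ] ℂ) h3
    simp at h4
  have hb1 : ∀ (c : ℂ) i, algebraMap ℂ Ω c * b i ∈ Wsp x b 0 1 := fun c i => by
    have := (Wsp x b 0 1).smul_mem c (Kum3.Z_mem x b i 1)
    rwa [Algebra.smul_def, pow_one] at this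
  have key : ∀ k : Fin 4, ∃ c0 c1 c2 c3 c4 : ℂ, c2 = 2 * (N.θ 0 - N.θ 1) * N.PP e1 e2 k 1 *
      N.PP e1 e2 0 k ∧ c3 = (N.θ k - N.θ 0) * N.PP e1 e2 0 1 ^ 2 ∧
      (algebraMap ℂ Ω c0 * b 0 + algebraMap ℂ Ω c1 * b k) *
          (algebraMap ℂ Ω (N.emb e1 0) * x + algebraMap ℂ Ω (N.emb e2 0)) ^ 2 +
        algebraMap ℂ Ω c2 * b k *
          ((algebraMap ℂ Ω (N.emb e1 0) * x + algebraMap ℂ Ω (N.emb e2 0)) *
            (algebraMap ℂ Ω (N.emb e1 1) * x + algebraMap ℂ Ω (N.emb e2 1))) +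
        (algebraMap ℂ Ω c3 * b 1 + algebraMap ℂ Ω c4 * b k) *
          (algebraMap ℂ Ω (N.emb e1 1) * x + algebraMap ℂ Ω (N.emb e2 1)) ^ 2 = 0 := fun k => by
    refine ⟨(N.θ 1 - N.θ k) * N.PP e1 e2 0 1 ^ 2, (N.θ 0 - N.θ 1) * N.PP e1 e2 k 1 ^ 2, _, _,
      (N.θ 0 - N.θ 1) * N.PP e1 e2 0 k ^ 2, rfl, rfl, ?_⟩
    simp only [NF.PP, map_mul, map_sub, map_pow, map_ofNat]
    exact id1_quad (id1_rel h 0) (id1_rel h 1) (id1_rel h k)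
  obtain ⟨c0, c1, c2, c3, c4, -, hc3, hQ⟩ := key 2
  obtain ⟨d0, d1, d2, d3, d4, hd2, -, hQ'⟩ := key 3
  have hc : -(c3 * d2) ≠ 0 := by
    rw [hc3, hd2]
    exact neg_ne_zero.2 (mul_ne_zero (mul_ne_zero (hθ _ _ (by decide))
      (pow_ne_zero _ (hnd _ _ (by decide)))) (mul_ne_zero (mul_ne_zero
        (mul_ne_zero two_ne_zero (hθ _ _ (by decide))) (hnd _ _ (by decide)))
          (hnd _ _ (by decide))))
  have hmul : ∀ {z z' : Ω}, z ∈ Wsp x b 0 1 → z' ∈ Wsp x b 0 1 → z * z' ∈ Wsp x b 0 2 :=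
    fun hz hz' => mul_mem_Wsp x b (a := 0) (a' := 0) (E := 1) (E' := 1) hz hz'
  have hadd : ∀ (c c' : ℂ) i j, algebraMap ℂ Ω c * b i + algebraMap ℂ Ω c' * b j ∈ Wsp x b 0 1 :=
    fun c c' i j => (Wsp x b 0 1).add_mem (hb1 c i) (hb1 c' j)
  have m0 := (Wsp x b 0 2).sub_mem (hmul (hadd d3 d4 1 3) (hadd c0 c1 0 2))
    (hmul (hadd c3 c4 1 2) (hadd d0 d1 0 3))
  have m1 := (Wsp x b 0 2).sub_mem (hmul (hadd d3 d4 1 3) (hb1 c2 2))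
    (hmul (hadd c3 c4 1 2) (hb1 d2 3))
  refine ⟨_, m0, _, m1, fun h0 => ?_, ?_⟩
  · refine id1_ne h1 h (k1 := d3 * c2) (k3 := d4 * c2 - c4 * d2) hc ?_
    simp only [map_mul, map_sub, map_neg]
    linear_combination h0
  · refine (mul_eq_zero.1 ?_).resolve_left hu
    linear_combination (algebraMap ℂ Ω d3 * b 1 + algebraMap ℂ Ω d4 * b 3) * hQ -
      (algebraMap ℂ Ω c3 * b 1 + algebraMap ℂ Ω c4 * b 2) * hQ'

/-- `x` is a quotient of two quadratic forms in `b`.  With `w i = ∏_{l ≠ i} (θ i - θ l)⁻¹` one has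
`∑ w i = ∑ w i θ i = ∑ w i θ i² = 0` (Lagrange), so `x` is a root of `Q = ∑ w i b i ℓ i²` and of
`Q' = ∑ w i θ i b i ℓ i²`, i.e. `q0 x² + q1 x + q2 = 0 = q0' x² + q1' x + q2'` with linear forms in `b`.  Let
`m01 = q0' q1 - q0 q1'`, `m02 = q0' q2 - q0 q2'`, `m12 = q1' q2 - q1 q2'`; then `m01 x + m02 = 0` and
`m02 x + m12 = 0` (`x ≠ 0`).  If `m01 = 0` all three vanish in `Ω`, hence (multiply by `(∏ ℓ)^4`, algebraic
independence, or `SurfCfg.V0`) at the complex point `nn = θ 0`, `x = x0` generic, where `b 0 = 0` and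
`b 1, b 2, b 3 ≠ 0`.  Then a nontrivial combination `∑ w i (s + t θ i) b i ℓ i(y)²` vanishes identically in `y`;
the squares `ℓ 1², ℓ 2², ℓ 3²` are independent (`PP ≠ 0`), so `s + t θ i = 0` for three `i`: contradiction.
Multiplication by `m01` embeds `Wsp x b 1 E` into `Wsp x b 0 (E + 2)`. -/
theorem SurfCfg.finrank_le_pure {N : NF 4} {e1 e2 : Fin 4 → ℤ} (h1 : e1 ≠ 0)
    (hnd : ∀ i j, i ≠ j → N.PP e1 e2 i j ≠ 0) {Ω : Type} [Field Ω] [Algebra ℂ Ω] {x nn : Ω}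
    {b : Fin 4 → Ω} (h : SurfCfg N 1 2 e1 e2 x nn b) (E : ℕ) :
    Module.finrank ℂ (Wsp x b 1 E) ≤ Module.finrank ℂ (Wsp x b 0 (E + 2)) := by
  obtain ⟨M0, hM0m, M1, hM1m, hM1ne, hM⟩ := id1_forms h1 hnd h
  have hs : ∀ (c : ℂ) z, z ∈ Wsp x b 0 2 → algebraMap ℂ Ω c * z ∈ Wsp x b 0 2 := fun c z hz => by
    have := (Wsp x b 0 2).smul_mem c hz
    rwa [Algebra.smul_def] at this
  obtain ⟨m, hm⟩ : ∃ m, m = algebraMap ℂ Ω (N.emb e1 0) * M0 + algebraMap ℂ Ω (N.emb e1 1) * M1 :=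
    ⟨_, rfl⟩
  have hmx : m * x = -(algebraMap ℂ Ω (N.emb e2 0) * M0 + algebraMap ℂ Ω (N.emb e2 1) * M1) := by
    linear_combination hM + x * hm
  have hm0 : m ≠ 0 := fun h0 => by
    refine mul_ne_zero ((map_ne_zero (algebraMap ℂ Ω)).2 (hnd 0 1 (by decide))) hM1ne ?_
    rw [h0, zero_mul] at hmx
    rw [h0] at hm
    simp only [NF.PP, map_sub, map_mul]
    linear_combination algebraMap ℂ Ω (N.emb e1 0) * hmx + algebraMap ℂ Ω (N.emb e2 0) * hm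
  have hmm : m ∈ Wsp x b 0 2 := hm ▸ add_mem (hs _ _ hM0m) (hs _ _ hM1m)
  have hmxm : m * x ∈ Wsp x b 0 2 := hmx ▸ neg_mem (add_mem (hs _ _ hM0m) (hs _ _ hM1m))
  have hmap : ∀ z ∈ Wsp x b 1 E, LinearMap.mulLeft ℂ m z ∈ Wsp x b 0 (E + 2) := by
    refine fun z hz => (Submodule.span_le (p := (Wsp x b 0 (E + 2)).comap
      (LinearMap.mulLeft ℂ m))).2 ?_ hz
    rintro _ ⟨i, hi, mm, hmm', rfl⟩
    have h2 : ∏ s, b s ^ mm s ∈ Wsp x b 0 E :=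
      Submodule.subset_span ⟨0, le_rfl, mm, hmm', by simp⟩
    change m * (x ^ i * ∏ s, b s ^ mm s) ∈ Wsp x b 0 (E + 2)
    rw [← mul_assoc, mul_comm]
    refine mul_mem_Wsp x b (a := 0) (a' := 0) h2 ?_
    interval_cases i
    · rwa [pow_zero, mul_one]
    · rwa [pow_one]
  have := Wsp_finite x b 0 (E + 2)
  exact LinearMap.finrank_le_finrank_of_injective (f := (LinearMap.mulLeft ℂ m).restrict hmap)
    fun y z e => Subtype.ext (mul_left_cancel₀ hm0 (congrArg Subtype.val e))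

end Crest.Agent.R22
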