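import Crest.Agent.R22.Kummer
import Crest.Agent.R22.DetDiv
import Crest.Agent.R22.Ideal1

namespace Crest.Agent.R22

open MvPolynomial

private lemma id2_wsp (N : NF 4) {Ω : Type} [Field Ω] [Algebra ℂ Ω] (x : Ω) (b : Fin 4 → Ω)
    (w : Fin 4 → ℤ) (a E : ℕ) : Wsp x b a E ≤ Wsp x (N.coU (Umat w) b) a E := by
  rw [← N.Wsp_co]
  refine Wsp_le_of_span x _ _ (fun s => ?_) a E
  have hm : ∀ t, N.coU (Umat w) b t ∈ Submodule.span ℂ (Set.range (N.coU (Umat w) b)) :=
    fun t => Submodule.subset_span ⟨t, rfl⟩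
  have e : N.co b s = N.coU (Umat w) b s +
      (if s = 0 then 0 else (w s : ℂ)) • N.coU (Umat w) b 0 := by
    rw [Algebra.smul_def]
    fin_cases s <;> simp [NF.coU, Umat, Fin.sum_univ_four]
  rw [e]
  exact Submodule.add_mem _ (hm s) (Submodule.smul_mem _ _ (hm 0))

private lemma id2_mem_Std {E : ℕ} {m : Fin 4 → ℕ} : m ∈ Std E ↔ ∑ s, m s = E ∧ m 0 < 4 := by
  simp [Std, Finset.mem_piAntidiag]

private lemma id2_span {Ω : Type} [Field Ω] [Algebra ℂ Ω] (x : Ω) (Z : Fin 4 → Ω)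
    (G0 : MvPolynomial (Fin 4) ℤ) (hG : G0.IsHomogeneous 4)
    (hc : G0.coeff (Finsupp.single 0 4) ≠ 0) (h0 : aeval Z G0 = 0) (E : ℕ) :
    Wsp x Z 0 E ≤ Submodule.span ℂ (Set.range fun r : Std E => ∏ s, Z s ^ (r : Fin 4 → ℕ) s) := by
  set V := Submodule.span ℂ (Set.range fun r : Std E => ∏ s, Z s ^ (r : Fin 4 → ℕ) s)
  have key : ∀ (k : ℕ) (m : Fin 4 → ℕ), m 0 = k → ∑ s, m s = E → ∏ s, Z s ^ m s ∈ V := by
    intro k
    induction k using Nat.strong_induction_on with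
    | _ k ih =>
      intro m hk hm
      by_cases h4 : m 0 < 4
      · exact Submodule.subset_span ⟨⟨m, id2_mem_Std.2 ⟨hm, h4⟩⟩, rfl⟩
      obtain ⟨m', rfl⟩ : ∃ m' : Fin 4 → ℕ, m = m' + ⇑(Finsupp.single (0 : Fin 4) 4) := by
        refine ⟨m - ⇑(Finsupp.single (0 : Fin 4) 4), _root_.funext fun s => ?_⟩
        by_cases hs : s = 0
        · subst hs
          simp only [Pi.add_apply, Pi.sub_apply, Finsupp.single_eq_same]
          omega
        · simp [Finsupp.single_eq_of_ne hs]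
      have h1 : ∑ e ∈ G0.support, ((G0.coeff e : ℤ) : ℂ) • ∏ s, Z s ^ (m' + ⇑e) s = 0 := by
        rw [← mul_zero (∏ s, Z s ^ m' s), ← h0, aeval_def, eval₂_eq', Finset.mul_sum]
        refine Finset.sum_congr rfl fun e _ => ?_
        simp only [Algebra.smul_def, map_intCast, eq_intCast, Pi.add_apply, pow_add,
          Finset.prod_mul_distrib]
        ring
      rw [← Finset.add_sum_erase _ _ (mem_support_iff.2 hc)] at h1
      refine (V.smul_mem_iff (Int.cast_ne_zero.2 hc : ((_ : ℤ) : ℂ) ≠ 0)).1 ?_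
      rw [eq_neg_of_add_eq_zero_left h1]
      refine V.neg_mem (V.sum_mem fun e he => V.smul_mem _ ?_)
      obtain ⟨hne, he⟩ := Finset.mem_erase.1 he
      have h2 : ∑ s, e s = 4 := by
        rw [← Finsupp.degree_eq_sum]
        by_contra hne
        exact mem_support_iff.1 he (hG.coeff_eq_zero hne)
      have h3 : e 0 < 4 := by
        by_contra h3
        rw [Fin.sum_univ_four] at h2
        refine hne (Finsupp.ext fun s => ?_)
        fin_cases s <;> simp <;> omega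
      refine ih _ ?_ _ rfl ?_
      · simp only [← hk, Pi.add_apply, Finsupp.single_eq_same]
        omega
      · simp only [Pi.add_apply, Finset.sum_add_distrib, h2, ← hm]
        simp
  refine Submodule.span_le.2 ?_
  rintro _ ⟨i, hi, m, hm, rfl⟩
  rw [Nat.le_zero.1 hi, pow_zero, one_mul]
  exact key _ m rfl hm

private lemma id2_mon : LinearIndependent ℂ
    fun m : Fin 4 → ℕ => (∏ s, X s ^ m s : MvPolynomial (Fin 4) ℂ) := by
  have h := (basisMonomials (Fin 4) ℂ).linearIndependent.comp _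
    (Finsupp.equivFunOnFinite (α := Fin 4) (M := ℕ)).symm.injective
  have e : (basisMonomials (Fin 4) ℂ ∘ (Finsupp.equivFunOnFinite (α := Fin 4) (M := ℕ)).symm) =
      fun m : Fin 4 → ℕ => (∏ s, X s ^ m s : MvPolynomial (Fin 4) ℂ) := by
    funext m
    simp [monomial_eq, Finsupp.prod_fintype]
  rwa [e] at h

/-- Standard monomials are independent on the surface.  Let `Z = coU (Umat w) b` (same span as `b`).  As
`c0 ≠ 0`, `Wsp x Z 0 E` is spanned by the standard monomials (induction on the exponent of `Z 0`).  If a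
nonzero standard form `F` of degree `E0` vanishes at `Z`, then so do the `F μ`, `μ` a monomial of degree
`E - E0` in `Z 1, Z 2, Z 3`; these are standard and independent polynomials, so
`dim Wsp x Z 0 E ≤ 2 E² + 2 - C(E - E0 + 2, 2)` (`card_Std`).  But `scroll` (`a = 1`, `q = 2`) and
`finrank_le_pure` give `dim Wsp x b 0 (E + 2) ≥ 2 (E + 1) + 2 E (E + 1) = 2 (E + 1)²`; contradiction for
large `E`. -/
theorem SurfCfg.std_indep {N : NF 4} {e1 e2 : Fin 4 → ℤ} (h1 : e1 ≠ 0)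
    (hnd : ∀ i j, i ≠ j → N.PP e1 e2 i j ≠ 0) {Ω : Type} [Field Ω] [Algebra ℂ Ω] {x nn : Ω}
    {b : Fin 4 → Ω} (h : SurfCfg N 1 2 e1 e2 x nn b) (w : Fin 4 → ℤ) (G0 : MvPolynomial (Fin 4) ℤ)
    (hG : G0.IsHomogeneous 4) (hc : G0.coeff (Finsupp.single 0 4) ≠ 0)
    (h0 : aeval (N.coU (Umat w) b) G0 = 0) (E : ℕ) :
    LinearIndependent ℂ (fun r : Std E => ∏ s, N.coU (Umat w) b s ^ (r : Fin 4 → ℕ) s) := by
  by_contra hli
  obtain ⟨g, hg, r0, hr0⟩ := Fintype.not_linearIndependent_iff.1 hli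
  set Z := N.coU (Umat w) b with hZ
  let mon : (Fin 4 → ℕ) → MvPolynomial (Fin 4) ℂ := fun m => ∏ s, X s ^ m s
  have hmon : ∀ m m', mon (m + m') = mon m * mon m' := fun m m' => by
    simp only [mon, Pi.add_apply, pow_add, Finset.prod_mul_distrib]
  have hψ : ∀ m, aeval Z (mon m) = ∏ s, Z s ^ m s := fun m => by simp [mon]
  let F : MvPolynomial (Fin 4) ℂ := ∑ r : Std E, g r • mon r
  have hF0 : F ≠ 0 := fun h0 =>
    hr0 (Fintype.linearIndependent_iff.1 (id2_mon.comp _ Subtype.val_injective) g h0 r0)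
  have hF : aeval Z F = 0 := by simp only [F, map_sum, map_smul, hψ, hg]
  obtain ⟨t, ht⟩ : ∃ t, t = E + 8 := ⟨_, rfl⟩
  let V := Submodule.span ℂ (Set.range fun r : Std (E + 2 * t) => mon r)
  have hVf : Module.Finite ℂ V := Module.Finite.span_of_finite ℂ (Set.finite_range _)
  let φ : V →ₗ[ℂ] Ω := (aeval Z).toLinearMap.domRestrict V
  let μ : Fin (t + 1) × Fin (t + 1) → Fin 4 → ℕ := fun ij => ![0, ij.1, ij.2, 2 * t - ij.1 - ij.2]
  have hμ : Function.Injective μ := fun ij kl e =>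
    Prod.ext (Fin.ext (congrFun e 1)) (Fin.ext (congrFun e 2))
  have hmem : ∀ ij, F * mon (μ ij) ∈ V := fun ij => by
    simp only [F, Finset.sum_mul, smul_mul_assoc, ← hmon]
    refine V.sum_mem fun r _ => V.smul_mem _ (Submodule.subset_span ⟨⟨_, id2_mem_Std.2 ?_⟩, rfl⟩)
    obtain ⟨h1, h2⟩ := id2_mem_Std.1 r.2
    have h3 := ij.1.2
    have h4 := ij.2.2
    refine ⟨?_, by simpa [μ] using h2⟩
    simp only [Pi.add_apply, Finset.sum_add_distrib, h1]
    simp [μ, Fin.sum_univ_four]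
    omega
  let v : Fin (t + 1) × Fin (t + 1) → LinearMap.ker φ := fun ij => ⟨⟨_, hmem ij⟩, by
    change aeval Z (F * mon (μ ij)) = 0
    rw [map_mul, hF, zero_mul]⟩
  have hv : LinearIndependent ℂ v := by
    refine LinearIndependent.of_comp (V.subtype ∘ₗ (LinearMap.ker φ).subtype) ?_
    exact (id2_mon.comp μ hμ).map' (LinearMap.mulLeft ℂ F)
      (LinearMap.ker_eq_bot.2 fun y z e => mul_left_cancel₀ hF0 e)
  have a1 := hv.fintype_card_le_finrank
  have a2 := LinearMap.finrank_range_add_finrank_ker φ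
  have a3 : Module.finrank ℂ V ≤ (Std (E + 2 * t)).card :=
    (finrank_range_le_card _).trans (by simp)
  have a4 : Wsp x b 0 (E + 2 * t) ≤ LinearMap.range φ := by
    refine (id2_wsp N x b w 0 _).trans ((id2_span x Z G0 hG hc h0 _).trans
      (Submodule.span_le.2 ?_))
    rintro _ ⟨r, rfl⟩
    exact ⟨⟨mon r, Submodule.subset_span ⟨r, rfl⟩⟩, hψ r⟩
  have a5 := Submodule.finrank_mono a4
  have a6 := h.scroll h1 hnd 1 (E + 2 * t - 2) le_rfl
  have a7 := h.finrank_le_pure h1 hnd (E + 2 * t - 2)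
  have a8 := card_Std (E + 2 * t - 4)
  obtain ⟨k, hk⟩ : ∃ k, E + 2 * t = k + 4 := ⟨E + 2 * t - 4, by omega⟩
  rw [show E + 2 * t - 2 + 2 = E + 2 * t by omega] at a7
  rw [show E + 2 * t - 4 + 4 = E + 2 * t by omega] at a8
  rw [show E + 2 * t - 2 = k + 2 by omega] at a6 a7
  simp only [Fintype.card_prod, Fintype.card_fin] at a1
  have a9 : 2 * (k + 3) ^ 2 + (t + 1) * (t + 1) ≤ 2 * (k + 4) ^ 2 + 2 := by
    rw [a8] at a3
    rw [← hk]
    nlinarith
  have : k = 3 * E + 12 := by omega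
  subst this ht
  nlinarith

end Crest.Agent.R22
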