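import Mathlib

namespace Crest.Agent.R22

private noncomputable def ker1Dot {ι : Type} [Fintype ι] (v : ι → ℂ) : (ι → ℂ) →ₗ[ℂ] ℂ :=
  ∑ j, (LinearMap.proj j : (ι → ℂ) →ₗ[ℂ] ℂ).smulRight (v j)

private theorem ker1Dot_apply {ι : Type} [Fintype ι] (v w : ι → ℂ) :
    ker1Dot v w = ∑ j, w j * v j := by
  simp [ker1Dot]

/-- An integer linear system (any number of equations) with a nonzero complex solution has a nonzero
integer solution of bounded height.  Proof: the rows span a `ℚ`-subspace of dimension `r < M`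
(otherwise the unit vectors are rational combinations of rows and the complex solution vanishes);
choose `r` rows spanning it (`exists_linearIndependent`), pad with zero rows to `M - 1` rows (if `M = 1`
all rows vanish) and apply Siegel's lemma `Int.Matrix.exists_ne_zero_int_vec_norm_le`
(exponent `(M - 1) / 1`). -/
theorem exists_int_ker {ι κ : Type} [Fintype ι] (S : Finset κ) (A : κ → ι → ℤ) (Y : ℝ)
    (hY : 1 ≤ Y) (hA : ∀ P ∈ S, ∀ j, |(A P j : ℝ)| ≤ Y) (v : ι → ℂ) (hv : v ≠ 0)
    (h : ∀ P ∈ S, ∑ j, (A P j : ℂ) * v j = 0) :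
    ∃ t : ι → ℤ, t ≠ 0 ∧ (∀ P ∈ S, ∑ j, A P j * t j = 0) ∧
      ∀ j, |(t j : ℝ)| ≤ (Fintype.card ι * Y) ^ Fintype.card ι := by
  classical
  obtain ⟨j0, hj0⟩ := Function.ne_iff.1 hv
  have hM : (1 : ℝ) ≤ Fintype.card ι := by exact_mod_cast Fintype.card_pos_iff.2 ⟨j0⟩
  have hMY : 1 ≤ Fintype.card ι * Y := one_le_mul_of_one_le_of_one_le hM hY
  obtain ⟨b, hb, -, hsp, hli⟩ := exists_linearIndepOn_extension (K := ℂ)
    (v := fun P j => (A P j : ℂ)) (linearIndepOn_empty ℂ _) (Set.empty_subset (S : Set κ))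
  have : Fintype b := (S.finite_toSet.subset hb).fintype
  have key : ∀ t : ι → ℤ, (∀ P ∈ b, ∑ j, A P j * t j = 0) → ∀ P ∈ S, ∑ j, A P j * t j = 0 :=
    fun t ht P hP => by
      have h1 : Submodule.span ℂ ((fun P j => (A P j : ℂ)) '' b) ≤
          LinearMap.ker (ker1Dot fun j => (t j : ℂ)) := Submodule.span_le.2 (by
        rintro _ ⟨P', hP', rfl⟩
        rw [SetLike.mem_coe, LinearMap.mem_ker, ker1Dot_apply]
        beta_reduce
        exact_mod_cast ht P' hP')
      have h2 := h1 (hsp ⟨P, hP, rfl⟩)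
      rw [LinearMap.mem_ker, ker1Dot_apply] at h2
      beta_reduce at h2
      exact_mod_cast h2
  have hlt : Fintype.card b < Fintype.card ι := by
    have h1 : Submodule.span ℂ (Set.range fun P : b => fun j => (A P j : ℂ)) ≤
        LinearMap.ker (ker1Dot v) := Submodule.span_le.2 (by
      rintro _ ⟨P', rfl⟩
      rw [SetLike.mem_coe, LinearMap.mem_ker, ker1Dot_apply]
      exact h P' (hb P'.2))
    have h2 : LinearMap.ker (ker1Dot v) ≠ ⊤ := fun h2 => by
      have h3 : Pi.single j0 (1 : ℂ) ∈ LinearMap.ker (ker1Dot v) := h2 ▸ Submodule.mem_top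
      rw [LinearMap.mem_ker, ker1Dot_apply] at h3
      exact hj0 (by simpa [Pi.single_apply] using h3)
    rw [← finrank_span_eq_card hli, ← Module.finrank_fintype_fun_eq_card ℂ (η := ι)]
    exact (Submodule.finrank_mono h1).trans_lt (Submodule.finrank_lt h2)
  rcases Nat.eq_zero_or_pos (Fintype.card b) with h0 | h0
  · refine ⟨Pi.single j0 1, by simp, key _ fun P hP => ?_, fun j => le_trans ?_ (one_le_pow₀ hMY)⟩
    · exact (Fintype.card_eq_zero_iff.1 h0).elim ⟨P, hP⟩
    · rw [Pi.single_apply]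
      split_ifs <;> simp
  · obtain ⟨t, h1, h2, h3⟩ :=
      Int.Matrix.exists_ne_zero_int_vec_norm_le (Matrix.of fun (P : b) j => A P j) hlt h0
    refine ⟨t, h1, key t fun P hP => congrFun h2 ⟨P, hP⟩, fun j => ?_⟩
    have h4 := (Matrix.norm_le_iff (A := Matrix.of fun (P : b) j => A P j)
      (zero_le_one.trans hY)).2 fun P j => hA P (hb P.2) j
    have h5 : (Fintype.card b : ℝ) + 1 ≤ Fintype.card ι := by exact_mod_cast hlt
    have h6 : (Fintype.card b : ℝ) / (Fintype.card ι - Fintype.card b) ≤ Fintype.card ι :=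
      (div_le_self (Nat.cast_nonneg _) (by linarith)).trans (by linarith)
    refine (norm_le_pi_norm t j).trans (h3.trans ?_)
    rw [← Real.rpow_natCast]
    refine le_trans (Real.rpow_le_rpow (by positivity)
      (mul_le_mul_of_nonneg_left (max_le hY h4) (Nat.cast_nonneg _))
      (div_nonneg (Nat.cast_nonneg _) (by linarith))) ?_
    exact Real.rpow_le_rpow_of_exponent_le hMY h6

/-- The same with a prescribed nonzero coordinate.  Among the complex solutions with `v j0 ≠ 0` take one
of minimal support `T`.  Every solution `u` supported in `T` is a multiple of `v` (else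
`u' = u - (u j0 / v j0) v ≠ 0` has `u' j0 = 0`, and `v - (v i / u' i) u'` has smaller support).  Apply
`exists_int_ker` to the system restricted to the columns in `T` and extend by zero. -/
theorem exists_int_ker_coord {ι κ : Type} [Fintype ι] (S : Finset κ) (A : κ → ι → ℤ) (Y : ℝ)
    (hY : 1 ≤ Y) (hA : ∀ P ∈ S, ∀ j, |(A P j : ℝ)| ≤ Y) (v : ι → ℂ) (j0 : ι) (hv : v j0 ≠ 0)
    (h : ∀ P ∈ S, ∑ j, (A P j : ℂ) * v j = 0) :
    ∃ t : ι → ℤ, t j0 ≠ 0 ∧ (∀ P ∈ S, ∑ j, A P j * t j = 0) ∧
      ∀ j, |(t j : ℝ)| ≤ (Fintype.card ι * Y) ^ Fintype.card ι := by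
  classical
  generalize hn : (Finset.univ.filter fun j => v j ≠ 0).card = n
  induction n using Nat.strong_induction_on generalizing v with
  | _ n ih =>
    obtain ⟨t, h1, h2, h3⟩ := exists_int_ker (S.disjSum (Finset.univ.filter fun j => v j = 0))
      (Sum.elim A fun i => Pi.single i 1) Y hY
      (by
        rintro (P | i) hP j
        · exact hA P (Finset.inl_mem_disjSum.1 hP) j
        · rw [Sum.elim_inr, Pi.single_apply]
          split_ifs
          · simpa using hY
          · simpa using zero_le_one.trans hY)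
      v (Function.ne_iff.2 ⟨j0, hv⟩)
      (by
        rintro (P | i) hP
        · exact h P (Finset.inl_mem_disjSum.1 hP)
        · simpa [Pi.single_apply] using hP)
    have h4 : ∀ P ∈ S, ∑ j, A P j * t j = 0 := fun P hP => h2 (.inl P) (Finset.inl_mem_disjSum.2 hP)
    have h5 : ∀ i, v i = 0 → t i = 0 := fun i hi => by
      simpa [Pi.single_apply] using h2 (.inr i) (by simpa using hi)
    by_cases h6 : t j0 = 0
    · obtain ⟨i, hi⟩ := Function.ne_iff.1 h1
      have hi' : (t i : ℂ) ≠ 0 := by exact_mod_cast hi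
      refine ih _ ?_ (fun j => v j - v i / t i * t j) (by simpa [h6] using hv) (fun P hP => ?_) rfl
      · rw [← hn]
        refine Finset.card_lt_card ⟨fun j hj => ?_, fun hs => ?_⟩
        · refine Finset.mem_filter.2 ⟨Finset.mem_univ _, fun h7 => (Finset.mem_filter.1 hj).2 ?_⟩
          simp [h7, h5 j h7]
        · refine (Finset.mem_filter.1 (hs (Finset.mem_filter.2
            ⟨Finset.mem_univ i, fun h7 => hi (h5 i h7)⟩))).2 ?_
          rw [div_mul_cancel₀ _ hi', sub_self]
      · have h7 : ∑ j, (A P j : ℂ) * t j = 0 := by exact_mod_cast h4 P hP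
        simp only [mul_sub, Finset.sum_sub_distrib, mul_left_comm _ (v i / t i)]
        rw [← Finset.mul_sum, h7, h P hP, mul_zero, sub_zero]
    · exact ⟨t, h6, h4, h3⟩

end Crest.Agent.R22
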