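import Mathlib

namespace Crest.Agent.R22

/-- If all square minors vanish, the rows are dependent as functions on `S`.  Proof: otherwise the
columns `fun r => f r P` (`P ∈ S`) span `ι → ℂ` (a proper subspace is killed by a nonzero functional), so
contain a basis; reindex it by `ι`; its matrix is invertible. -/
theorem exists_rel_of_det {ι κ : Type} [Fintype ι] [DecidableEq ι] [Nonempty ι] (S : Finset κ)
    (f : ι → κ → ℂ)
    (h : ∀ P : ι → κ, (∀ r, P r ∈ S) → (Matrix.of fun r r' => f r (P r')).det = 0) :
    ∃ c : ι → ℂ, c ≠ 0 ∧ ∀ n ∈ S, ∑ r, c r * f r n = 0 := by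
  obtain ⟨b, hb, -, hsp, hli⟩ := exists_linearIndepOn_extension (K := ℂ)
    (v := fun P r => f r P) (linearIndepOn_empty ℂ _) (Set.empty_subset (S : Set κ))
  have : Fintype b := (S.finite_toSet.subset hb).fintype
  by_cases ht : Submodule.span ℂ (Set.range fun P : b => fun r => f r P) = ⊤
  · have h1 := finrank_span_eq_card hli
    rw [ht, finrank_top, Module.finrank_fintype_fun_eq_card] at h1
    let e : ι ≃ b := Fintype.equivOfCardEq h1
    have h2 : IsUnit (Matrix.of fun r r' => f r (e r')) :=
      Matrix.linearIndependent_cols_iff_isUnit.1 (LinearIndependent.comp hli e e.injective)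
    exact absurd (h (fun r => e r) fun r => hb (e r).2)
      ((Matrix.isUnit_iff_isUnit_det _).1 h2).ne_zero
  · obtain ⟨φ, h1, h2⟩ := Submodule.exists_le_ker_of_lt_top _ (lt_top_iff_ne_top.2 ht)
    have h3 : ∀ w : ι → ℂ, φ w = ∑ r, φ (Pi.single r 1) * w r := fun w => by
      rw [LinearMap.pi_apply_eq_sum_univ]
      refine Finset.sum_congr rfl fun r _ => ?_
      rw [smul_eq_mul, mul_comm]
      congr 2
      funext j
      simp [Pi.single_apply, eq_comm]
    refine ⟨fun r => φ (Pi.single r 1), fun h4 => h1 (LinearMap.ext fun w => ?_), fun n hn => ?_⟩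
    · rw [h3]
      exact Finset.sum_eq_zero fun r _ => mul_eq_zero_of_left (congrFun h4 r) _
    · rw [← Set.image_eq_range (fun P r => f r P)] at h2
      exact (h3 _).symm.trans (h2 (hsp ⟨n, hn, rfl⟩))

private theorem ker2_expand {ι τ A : Type} [Fintype ι] [DecidableEq ι] [Fintype τ] [CommRing A]
    (g : ι → τ → ι → A) : (Matrix.of fun r P => ∑ t, g r t P).det =
      ∑ φ : ι → τ, (Matrix.of fun r P => g r (φ r) P).det := by
  have e : (Matrix.of fun r P => ∑ t, g r t P) = Matrix.of fun r => ∑ t, g r t := by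
    ext r P
    simp
  rw [e]
  exact (Matrix.detRowAlternating (n := ι) (R := A)).toMultilinearMap.map_sum g

/-- Multilinear expansion of a determinant in the rows (`Matrix.detRowAlternating`,
`MultilinearMap.map_sum`); each surviving term is at most `H! ∏ r, R r (φ r) * X^(-wt (φ r))`
(`Matrix.det_apply`), and `∑_φ ∏_r R r (φ r) = ∏_r ∑_t R r t` (`Finset.prod_univ_sum`). -/
theorem det_real {ι τ : Type} [Fintype ι] [DecidableEq ι] [Fintype τ] (g : ι → τ → ι → ℂ)
    (R : ι → τ → ℝ) (wt : ι → τ → ℝ) (X W : ℝ) (hX : 1 ≤ X) (hR : ∀ r t, 0 ≤ R r t)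
    (hg : ∀ r t P, ‖g r t P‖ ≤ R r t * X ^ (-wt r t))
    (h0 : ∀ φ : ι → τ, ∑ r, wt r (φ r) < W → (Matrix.of fun r P => g r (φ r) P).det = 0) :
    ‖(Matrix.of fun r P => ∑ t, g r t P).det‖ ≤
      (Fintype.card ι).factorial * (∏ r, ∑ t, R r t) * X ^ (-W) := by
  have hX0 : 0 < X := by linarith
  rw [ker2_expand, Fintype.prod_sum, Finset.mul_sum, Finset.sum_mul]
  refine (norm_sum_le _ _).trans (Finset.sum_le_sum fun φ _ => ?_)
  have hp : 0 ≤ ∏ r, R r (φ r) := Finset.prod_nonneg fun r _ => hR _ _
  rcases lt_or_ge (∑ r, wt r (φ r)) W with h1 | h1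
  · rw [h0 φ h1, norm_zero]
    positivity
  · rw [← Matrix.det_transpose, Matrix.det_apply', mul_assoc, ← Fintype.card_perm, ← nsmul_eq_mul]
    refine (norm_sum_le _ _).trans (Finset.sum_le_card_nsmul _ _ _ fun σ _ => ?_)
    have h2 : ‖((Equiv.Perm.sign σ : ℤ) : ℂ)‖ = 1 := by
      rcases Int.units_eq_one_or (Equiv.Perm.sign σ) with h | h <;> simp [h]
    rw [norm_mul, h2, one_mul, norm_prod]
    refine (Finset.prod_le_prod (fun r _ => norm_nonneg _) fun r _ => hg r (φ r) (σ r)).trans ?_
    rw [Finset.prod_mul_distrib, ← Real.rpow_sum_of_pos hX0, Finset.sum_neg_distrib]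
    exact mul_le_mul_of_nonneg_left (Real.rpow_le_rpow_of_exponent_le hX (neg_le_neg h1)) hp

private theorem ker2_count {ι : Type} [Fintype ι] (φ : ι → ℕ)
    (h : ∀ r r', φ r = φ r' → φ r < Fintype.card ι → r = r') :
    Fintype.card ι * (Fintype.card ι - 1) / 2 ≤ ∑ r, φ r := by
  classical
  calc _ = ∑ k ∈ Finset.range (Fintype.card ι), (Fintype.card ι - 1 - k) := by
        rw [← Finset.sum_range_id, Finset.sum_range_reflect (fun k => k)]
    _ ≤ ∑ k ∈ Finset.range (Fintype.card ι), ∑ r, if k < φ r then 1 else 0 := by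
        refine Finset.sum_le_sum fun k hk => ?_
        have h1 := Finset.card_filter_add_card_filter_not (s := Finset.univ) (fun r => k < φ r)
        have h2 : (Finset.univ.filter fun r => ¬ k < φ r).card ≤ (Finset.range (k + 1)).card :=
          Finset.card_le_card_of_injOn φ
            (fun r hr => by simpa [Nat.lt_succ_iff] using hr) fun r hr r' _ e => h r r' e (by
              have h3 := Finset.mem_range.1 hk
              have h4 : φ r ≤ k := by simpa using hr
              omega)
        rw [← Finset.card_filter]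
        rw [Finset.card_range] at h2
        rw [Finset.card_univ] at h1
        omega
    _ ≤ _ := by
        rw [Finset.sum_comm]
        refine Finset.sum_le_sum fun r _ => ?_
        rw [← Finset.card_filter]
        exact (Finset.card_le_card fun k hk =>
          Finset.mem_range.2 (Finset.mem_filter.1 hk).2).trans (Finset.card_range _).le

/-- The `q`-adic determinant lemma.  Expand each row into the pieces `C r l * z^l` (`l < H`) and
`q^H E r`; a term in which two rows use the same `l < H` vanishes; in the other terms the row using `l`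
is divisible by `q^l`, and `H` numbers in `[0, H]` whose values `< H` are distinct have sum
`≥ 0 + 1 + ⋯ + (H - 1)`. -/
theorem det_padic {ι A : Type} [Fintype ι] [DecidableEq ι] [CommRing A] (q : A)
    (M : Matrix ι ι A) (C : ι → ℕ → A) (E : ι → ι → A) (z : ι → A) (hz : ∀ P, q ∣ z P)
    (hM : ∀ r P, M r P = ∑ l ∈ Finset.range (Fintype.card ι), C r l * z P ^ l
      + q ^ Fintype.card ι * E r P) :
    q ^ (Fintype.card ι * (Fintype.card ι - 1) / 2) ∣ M.det := by
  choose w hw using hz
  have e : M = Matrix.of fun r P => ∑ t : Fin (Fintype.card ι + 1),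
      (q ^ t.val * if t.val < Fintype.card ι then C r t else 1) *
        if t.val < Fintype.card ι then w P ^ t.val else E r P := by
    ext r P
    rw [hM, Matrix.of_apply, Fin.sum_univ_castSucc, Finset.sum_range]
    simp only [Fin.val_castSucc, Fin.is_lt, if_true, Fin.val_last, lt_irrefl, if_false, mul_one, hw,
      mul_pow]
    congr 1
    exact Finset.sum_congr rfl fun l _ => by ring
  rw [e, ker2_expand]
  refine Finset.dvd_sum fun φ _ => ?_
  have e2 := Matrix.det_mul_column
    (fun r => q ^ (φ r).val * if (φ r).val < Fintype.card ι then C r (φ r) else 1)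
    (Matrix.of fun r P => if (φ r).val < Fintype.card ι then w P ^ (φ r).val else E r P)
  simp only [Matrix.of_apply] at e2
  rw [e2]
  by_cases h : ∀ r r', (φ r).val = (φ r').val → (φ r).val < Fintype.card ι → r = r'
  · refine Dvd.dvd.mul_right ?_ _
    rw [Finset.prod_mul_distrib, Finset.prod_pow_eq_pow_sum]
    exact (pow_dvd_pow q (ker2_count _ h)).mul_right _
  · push Not at h
    obtain ⟨r, r', h1, h2, h3⟩ := h
    rw [Matrix.det_zero_of_row_eq h3, mul_zero]
    · exact dvd_zero _
    · funext P
      rw [Matrix.of_apply, Matrix.of_apply, ← h1, if_pos h2, if_pos h2]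

end Crest.Agent.R22
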