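import Crest.Agent.R22.NFBasic

namespace Crest.Agent.R22

open MvPolynomial

variable {d : ℕ}

/-- A generic point exists: `Ω = AlgebraicClosure (FractionRing (MvPolynomial (Fin 2) ℂ))`, `x`, `nn` the
variables; `ê1 i x + ê2 i ≠ 0` as `ê1 i ≠ 0` and `x` is transcendental. -/
theorem NF.exists_surf (N : NF d) (p q : ℕ) (hp : 1 ≤ p) {e1 : Fin d → ℤ} (e2 : Fin d → ℤ)
    (h1 : e1 ≠ 0) : ∃ (Ω : Type) (_ : Field Ω) (_ : Algebra ℂ Ω) (x nn : Ω) (b : Fin d → Ω),
    SurfCfg N p q e1 e2 x nn b := by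
  let Ω := AlgebraicClosure (FractionRing (MvPolynomial (Fin 2) ℂ))
  let f : MvPolynomial (Fin 2) ℂ →ₐ[ℂ] Ω := IsScalarTower.toAlgHom ℂ _ Ω
  have hf : Function.Injective f := (algebraMap (FractionRing (MvPolynomial (Fin 2) ℂ)) Ω).injective.comp
    (IsFractionRing.injective (MvPolynomial (Fin 2) ℂ) _)
  have hl : ∀ i, algebraMap ℂ Ω (N.emb e1 i) * f (X 0) + algebraMap ℂ Ω (N.emb e2 i) ≠ 0 := by
    intro i hi
    have h2 : (C (N.emb e1 i) * X 0 + C (N.emb e2 i) : MvPolynomial (Fin 2) ℂ) = 0 :=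
      hf (by simpa only [map_add, map_mul, algHom_C, map_zero] using hi)
    have h3 := congrArg (eval fun _ => (0 : ℂ)) h2
    have h4 := congrArg (eval fun _ => (1 : ℂ)) h2
    simp only [map_add, map_mul, eval_C, eval_X, mul_zero, zero_add, map_zero, mul_one] at h3 h4
    rw [h3, add_zero] at h4
    exact N.emb_ne_zero h1 i h4
  choose b hb using fun i => IsAlgClosed.exists_pow_nat_eq ((f (X 1) - algebraMap ℂ Ω (N.θ i)) /
    (algebraMap ℂ Ω (N.emb e1 i) * f (X 0) + algebraMap ℂ Ω (N.emb e2 i)) ^ q) (n := p) hp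
  refine ⟨Ω, inferInstance, inferInstance, f (X 0), f (X 1), b, ?_, fun i => ?_⟩
  · have e : ![f (X 0), f (X 1)] = f ∘ X := by
      funext i
      fin_cases i <;> rfl
    rw [e]
    exact (algebraicIndependent_X (Fin 2) ℂ).map' hf
  · rw [hb, div_mul_cancel₀ _ (pow_ne_zero _ (hl i))]

/-- A radical outside the ground field has trace zero. -/
theorem kum1_trace {F K : Type} [Field F] [CharZero F] [Field K] [Algebra F K]
    [FiniteDimensional F K] {p : ℕ} (hp : 1 ≤ p) {ζ : F} (hζ : IsPrimitiveRoot ζ p) {w : K}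
    (hw : ∃ a, algebraMap F K a = w ^ p) (hw' : ¬ ∃ a, algebraMap F K a = w) :
    Algebra.trace F K w = 0 := by
  have : NeZero p := ⟨by omega⟩
  obtain ⟨a, ha⟩ := hw
  let E := AlgebraicClosure K
  have h0 : algebraMap K E w ≠ 0 := by
    rw [map_ne_zero]
    rintro rfl
    exact hw' ⟨0, map_zero _⟩
  have h1 : ∀ σ : K →ₐ[F] E, ∃ c : F, σ w = algebraMap F E c * algebraMap K E w := fun σ => by
    obtain ⟨i, -, hi⟩ := (hζ.map_of_injective (algebraMap F E).injective).eq_pow_of_pow_eq_one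
      (ξ := σ w / algebraMap K E w) (by
        rw [div_pow, ← map_pow, ← map_pow, ← ha, AlgHom.commutes, ← IsScalarTower.algebraMap_apply,
          div_self]
        rw [IsScalarTower.algebraMap_apply F K E, ha, map_pow]
        exact pow_ne_zero _ h0)
    exact ⟨ζ ^ i, by rw [map_pow, hi, div_mul_cancel₀ _ h0]⟩
  choose c hc using h1
  have h2 := trace_eq_sum_embeddings E (K := F) (x := w)
  simp only [hc] at h2
  rw [← Finset.sum_mul, ← map_sum, IsScalarTower.algebraMap_apply F K E,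
    IsScalarTower.algebraMap_apply F K E, ← map_mul, (algebraMap K E).injective.eq_iff] at h2
  by_contra h3
  have h4 : ∑ σ, c σ ≠ 0 := fun e => h3 (by simpa [e] using h2)
  refine hw' ⟨Algebra.trace F K w / ∑ σ, c σ, ?_⟩
  rw [map_div₀, h2, mul_div_cancel_left₀ _ ((map_ne_zero _).2 h4)]

theorem kum1_fin {F K ι : Type} [Field F] [CharZero F] [Field K] [Algebra F K] [Fintype ι]
    [FiniteDimensional F K] {p : ℕ} (hp : 1 ≤ p) {ζ : F} (hζ : IsPrimitiveRoot ζ p) {u : ι → K}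
    (h0 : ∀ i, u i ≠ 0) (hu : ∀ i, ∃ a, algebraMap F K a = u i ^ p)
    (hne : ∀ i j, (∃ a, algebraMap F K a = u i / u j) → i = j) : LinearIndependent F u := by
  refine Fintype.linearIndependent_iff.2 fun g hg j => ?_
  have h1 := congrArg (fun z => Algebra.trace F K (z / u j)) hg
  simp only [Finset.sum_div, smul_div_assoc, map_sum, map_smul, zero_div, map_zero] at h1
  rw [Finset.sum_eq_single j (fun i _ hi => ?_) (by simp), div_self (h0 j), ← map_one (algebraMap F K),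
    Algebra.trace_algebraMap] at h1
  · simpa [Module.finrank_pos.ne'] using h1
  · obtain ⟨a, ha⟩ := hu i
    obtain ⟨a', ha'⟩ := hu j
    rw [kum1_trace hp hζ ⟨a / a', by rw [map_div₀, ha, ha', div_pow]⟩ fun e => hi (hne i j e),
      smul_zero]

theorem kum1_indep {F Ω ι : Type} [Field F] [CharZero F] [Field Ω] [Algebra F Ω] [Fintype ι]
    {p : ℕ} (hp : 1 ≤ p) {ζ : F} (hζ : IsPrimitiveRoot ζ p) {u : ι → Ω}
    (h0 : ∀ i, u i ≠ 0) (hu : ∀ i, ∃ a, algebraMap F Ω a = u i ^ p)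
    (hne : ∀ i j, (∃ a, algebraMap F Ω a = u i / u j) → i = j) : LinearIndependent F u := by
  let K := IntermediateField.adjoin F (Set.range u)
  have : FiniteDimensional F K := IntermediateField.finiteDimensional_adjoin (by
    rintro _ ⟨i, rfl⟩
    obtain ⟨a, ha⟩ := hu i
    exact IsIntegral.of_pow hp (ha ▸ isIntegral_algebraMap))
  let u' : ι → K := fun i => ⟨u i, IntermediateField.subset_adjoin _ _ ⟨i, rfl⟩⟩
  exact (kum1_fin (u := u') hp hζ (fun i e => h0 i (congrArg Subtype.val e))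
    (fun i => (hu i).imp fun a ha => Subtype.ext ha)
    fun i j e => hne i j (e.imp fun a ha => congrArg Subtype.val ha)).map' K.val.toLinearMap
      (LinearMap.ker_eq_bot.2 Subtype.val_injective)

theorem kum1_count {Ω : Type} [Field Ω] [DecidableEq Ω] {θ : Fin d → Ω} (hθ : Function.Injective θ)
    {f : Polynomial Ω} (hf : f ≠ 0) {c : Ω} (hc : c ≠ 0) (p : ℕ) (J : Fin d → ℕ) (k : Fin d) :
    (f ^ p * (Polynomial.C c * ∏ i, (Polynomial.X - Polynomial.C (θ i)) ^ J i)).roots.count (θ k) =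
      p * f.roots.count (θ k) + J k := by
  have h1 : ∏ i, (Polynomial.X - Polynomial.C (θ i)) ^ J i ≠ 0 :=
    Finset.prod_ne_zero_iff.2 fun i _ => pow_ne_zero _ (Polynomial.X_sub_C_ne_zero _)
  rw [Polynomial.roots_mul (mul_ne_zero (pow_ne_zero _ hf)
      (mul_ne_zero (Polynomial.C_ne_zero.2 hc) h1)), Polynomial.roots_C_mul _ hc,
    Polynomial.roots_pow, Polynomial.roots_prod _ _ h1, Multiset.count_add, Multiset.count_nsmul,
    Multiset.count_bind]
  congr 1
  simp only [Polynomial.roots_pow, Polynomial.roots_X_sub_C, Multiset.count_nsmul,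
    Multiset.count_singleton, hθ.eq_iff]
  rw [← Finset.sum_eq_multiset_sum]
  simp

/-- Kummer independence.  Let `F = ℂ(x, nn)`; pass to an algebraic closure `L` of `F(b)` (or of `Ω`, and then
to the algebraic closure of `F` in it), Galois over `F` with group `G`.  Each `b^J` is an eigenvector,
`σ (b^J) = χ_J(σ) b^J` with `χ_J : G →* L` (the values are roots of unity, which lie in `ℂ ⊆ F`).  If
`χ_J = χ_J'`, then `w = b^J / b^J'` is fixed by `G`, so lies in `F`, and
`w^p = ∏ ((nn - θ i) / ℓ i^q)^(J i - J' i)`; `F` is the fraction field of `ℂ(x)[nn]`, and comparing the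
multiplicity of the root `θ i` (`Polynomial.rootMultiplicity_mul`) gives `p ∣ J i - J' i`, so `J = J'`.  A
relation `∑ a_J b^J = 0` gives `∑ a_J b^J χ_J = 0`, and Dedekind's lemma `linearIndependent_monoidHom`
gives `a_J b^J = 0`; `b i ≠ 0` as `nn ≠ θ i`.  (For `p = 1` there is nothing to prove.) -/
theorem SurfCfg.kummer {N : NF d} {p q : ℕ} (hp : 1 ≤ p) {e1 e2 : Fin d → ℤ} (h1 : e1 ≠ 0)
    {Ω : Type} [Field Ω] [Algebra ℂ Ω] {x nn : Ω} {b : Fin d → Ω} (h : SurfCfg N p q e1 e2 x nn b) :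
    LinearIndependent (IntermediateField.adjoin ℂ {x, nn})
      (fun J : Fin d → Fin p => ∏ i, b i ^ (J i : ℕ)) := by
  classical
  have _ := h1
  have hinj : Function.Injective (aeval (R := ℂ) ![x, nn]) := h.ind
  let φ : MvPolynomial (Fin 2) ℂ →ₐ[ℂ] Polynomial Ω := aeval ![Polynomial.C x, Polynomial.X]
  have hφ : ∀ f, φ f = 0 → aeval (R := ℂ) ![x, nn] f = 0 := fun f hf => by
    have e : ((Polynomial.aeval nn).restrictScalars ℂ).comp φ = aeval ![x, nn] := by
      ext i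
      fin_cases i <;> simp [φ]
    rw [← e, AlgHom.comp_apply, hf, map_zero]
  set l : Fin d → Ω := fun i =>
    (algebraMap ℂ Ω (N.emb e1 i) * x + algebraMap ℂ Ω (N.emb e2 i)) ^ q with hl
  have hrel : ∀ i, b i ^ p * l i = nn - algebraMap ℂ Ω (N.θ i) := h.rel
  have hn : ∀ i, b i ^ p * l i ≠ 0 := fun i e => by
    have h2 : (X 1 - C (N.θ i) : MvPolynomial (Fin 2) ℂ) = 0 :=
      hinj (by simpa using (hrel i).symm.trans e)
    simpa using congrArg (eval fun _ => N.θ i + 1) h2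
  have hb : ∀ i, b i ≠ 0 := fun i e => hn i (by rw [e, zero_pow (by omega), zero_mul])
  have hl0 : ∀ i, l i ≠ 0 := fun i => right_ne_zero_of_mul (hn i)
  have hbJ : ∀ J : Fin d → Fin p, ∏ i, b i ^ (J i : ℕ) ≠ 0 := fun J =>
    Finset.prod_ne_zero_iff.2 fun i _ => pow_ne_zero _ (hb i)
  have hlJ : ∀ J : Fin d → Fin p, ∏ i, l i ^ (J i : ℕ) ≠ 0 := fun J =>
    Finset.prod_ne_zero_iff.2 fun i _ => pow_ne_zero _ (hl0 i)
  have hJ : ∀ J : Fin d → Fin p, (∏ i, b i ^ (J i : ℕ)) ^ p * ∏ i, l i ^ (J i : ℕ) =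
      ∏ i, (nn - algebraMap ℂ Ω (N.θ i)) ^ (J i : ℕ) := fun J => by
    rw [← Finset.prod_pow, ← Finset.prod_mul_distrib]
    exact Finset.prod_congr rfl fun i _ => by rw [← hrel, mul_pow, pow_right_comm]
  set F := IntermediateField.adjoin ℂ {x, nn} with hF
  have : CharZero F := algebraRat.charZero F
  have hx : x ∈ F := IntermediateField.subset_adjoin _ _ (by simp)
  have hnn : nn ∈ F := IntermediateField.subset_adjoin _ _ (by simp)
  refine kum1_indep hp ((Complex.isPrimitiveRoot_exp p (by omega)).map_of_injective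
    (algebraMap ℂ F).injective) hbJ (fun J => ⟨⟨(∏ i, b i ^ (J i : ℕ)) ^ p, ?_⟩, rfl⟩) ?_
  · rw [eq_div_of_mul_eq (hlJ J) (hJ J)]
    exact div_mem (prod_mem fun i _ => pow_mem (sub_mem hnn (F.algebraMap_mem _)) _)
      (prod_mem fun i _ => pow_mem (pow_mem (add_mem (mul_mem (F.algebraMap_mem _) hx)
        (F.algebraMap_mem _)) _) _)
  · rintro J J' ⟨⟨w, hw⟩, e⟩
    obtain rfl : w = _ := e
    have e : ({x, nn} : Set Ω) = Set.range ![x, nn] := by simp [Set.pair_comm]
    have hw0 := div_ne_zero (hbJ J) (hbJ J')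
    rw [hF, e, IntermediateField.mem_adjoin_range_iff] at hw
    obtain ⟨f, g, hfg⟩ := hw
    rw [hfg, div_ne_zero_iff] at hw0
    rw [div_eq_div_iff (hbJ J') hw0.2] at hfg
    have h2 : ∀ (f : MvPolynomial (Fin 2) ℂ) (J J' : Fin d → Fin p), aeval ![x, nn]
        (f ^ p * ((∏ i, ((C (N.emb e1 i) * X 0 + C (N.emb e2 i)) ^ q) ^ (J i : ℕ)) *
          ∏ i, (X 1 - C (N.θ i)) ^ (J' i : ℕ))) = aeval ![x, nn] f ^ p *
        ((∏ i, l i ^ (J i : ℕ)) * ((∏ i, b i ^ (J' i : ℕ)) ^ p * ∏ i, l i ^ (J' i : ℕ))) := by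
      intro f J J'
      rw [hJ]
      simp [hl]
    have h3 : ∀ (f : MvPolynomial (Fin 2) ℂ) (J J' : Fin d → Fin p), φ
        (f ^ p * ((∏ i, ((C (N.emb e1 i) * X 0 + C (N.emb e2 i)) ^ q) ^ (J i : ℕ)) *
          ∏ i, (X 1 - C (N.θ i)) ^ (J' i : ℕ))) = φ f ^ p * (Polynomial.C (∏ i, l i ^ (J i : ℕ)) *
        ∏ i, (Polynomial.X - Polynomial.C (algebraMap ℂ Ω (N.θ i))) ^ (J' i : ℕ)) := by
      intro f J J'
      simp [hl, φ]
    have h4 := congrArg φ (hinj ((h2 f J J').trans (Eq.trans ?_ (h2 g J' J).symm)))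
    · funext k
      have hθ := (algebraMap ℂ Ω).injective.comp N.inj
      have h5 := kum1_count hθ (fun e => hw0.1 (hφ f e)) (hlJ J) p (fun i => J' i) k
      have h6 := kum1_count hθ (fun e => hw0.2 (hφ g e)) (hlJ J') p (fun i => J i) k
      simp only [Function.comp_apply] at h5 h6
      rw [← h3, h4, h3, h6] at h5
      have h7 := congrArg (· % p) h5
      simp only [Nat.mul_add_mod, Nat.mod_eq_of_lt (Fin.is_lt _)] at h7
      exact Fin.ext h7
    · have h5 := congrArg (· ^ p) hfg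
      simp only [mul_pow] at h5
      linear_combination (-(∏ i, l i ^ (J i : ℕ)) * ∏ i, l i ^ (J' i : ℕ)) * h5

end Crest.Agent.R22
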