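import Crest.Agent.R22.NFBasic

namespace Crest.Agent.R22

open MvPolynomial

variable {d : ℕ}

theorem k2_fin {Ω : Type} [Field Ω] (x : Ω) (b : Fin d → Ω) (a E : ℕ) :
    {z | ∃ i ≤ a, ∃ m : Fin d → ℕ, ∑ s, m s = E ∧ z = x ^ i * ∏ s, b s ^ m s}.Finite := by
  refine (((Finset.Iic a ×ˢ Finset.piAntidiag (Finset.univ : Finset (Fin d)) E).finite_toSet).image
    fun e => x ^ e.1 * ∏ s, b s ^ e.2 s).subset ?_
  rintro _ ⟨i, hi, m, hm, rfl⟩
  exact ⟨(i, m), by simp [hi, hm], rfl⟩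

theorem k2_mul {Ω : Type} [Field Ω] [Algebra ℂ Ω] {x : Ω} {b : Fin d → Ω} {a E a' E' : ℕ}
    {z z' : Ω} (hz : z ∈ Wsp x b a E) (hz' : z' ∈ Wsp x b a' E') :
    z * z' ∈ Wsp x b (a + a') (E + E') := by
  have h := Submodule.mul_mem_mul hz hz'
  rw [Wsp, Wsp, Submodule.span_mul_span] at h
  refine Submodule.span_mono ?_ h
  rintro _ ⟨_, ⟨i, hi, m, hm, rfl⟩, _, ⟨i', hi', m', hm', rfl⟩, rfl⟩
  refine ⟨i + i', add_le_add hi hi', m + m', ?_, ?_⟩
  · simp only [Pi.add_apply, Finset.sum_add_distrib, hm, hm']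
  · simp only [Pi.add_apply, pow_add, Finset.prod_mul_distrib]
    ring

theorem k2_x {Ω : Type} [Field Ω] [Algebra ℂ Ω] (x : Ω) (b : Fin d → Ω) {i a : ℕ} (h : i ≤ a) :
    x ^ i ∈ Wsp x b a 0 :=
  Submodule.subset_span ⟨i, h, 0, by simp, by simp⟩

theorem k2_b {Ω : Type} [Field Ω] [Algebra ℂ Ω] (x : Ω) (b : Fin d → Ω) (s : Fin d) :
    b s ∈ Wsp x b 0 1 := by
  refine Submodule.subset_span ⟨0, le_rfl, Pi.single s 1, by simp, ?_⟩
  rw [pow_zero, one_mul, Finset.prod_eq_single s (fun t _ ht => by simp [ht]) (by simp)]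
  simp

theorem k2_pow {Ω : Type} [Field Ω] [Algebra ℂ Ω] {x : Ω} {b : Fin d → Ω} {a E : ℕ} {z : Ω}
    (hz : z ∈ Wsp x b a E) (n : ℕ) : z ^ n ∈ Wsp x b (n * a) (n * E) := by
  induction n with
  | zero => simpa using k2_x x b (le_refl 0)
  | succ n ih =>
    rw [pow_succ, Nat.succ_mul, Nat.succ_mul]
    exact k2_mul ih hz

theorem k2_prod {Ω ι : Type} [Field Ω] [Algebra ℂ Ω] {x : Ω} {b : Fin d → Ω} (T : Finset ι)
    {E : ι → ℕ} {z : ι → Ω} (hz : ∀ s, z s ∈ Wsp x b 0 (E s)) :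
    ∏ s ∈ T, z s ∈ Wsp x b 0 (∑ s ∈ T, E s) := by
  classical
  induction T using Finset.induction_on with
  | empty => simpa using k2_x x b (le_refl 0)
  | insert s T hs ih =>
    rw [Finset.prod_insert hs, Finset.sum_insert hs]
    have := k2_mul (hz s) ih
    rwa [add_zero] at this

theorem Wsp_finite {Ω : Type} [Field Ω] [Algebra ℂ Ω] (x : Ω) (b : Fin d → Ω) (a E : ℕ) :
    Module.Finite ℂ (Wsp x b a E) := by
  exact Module.Finite.span_of_finite ℂ (k2_fin x b a E)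

/-- Linear forms in `b`: a product of `E` elements of the span of the `b i` times `x^i` lies in `Wsp`. -/
theorem Wsp_le_of_span {Ω : Type} [Field Ω] [Algebra ℂ Ω] (x : Ω) (b b' : Fin d → Ω)
    (h : ∀ s, b' s ∈ Submodule.span ℂ (Set.range b)) (a E : ℕ) : Wsp x b' a E ≤ Wsp x b a E := by
  refine Submodule.span_le.2 ?_
  rintro _ ⟨i, hi, m, hm, rfl⟩
  have h1 : ∀ s, b' s ∈ Wsp x b 0 1 := fun s =>
    Submodule.span_le.2 (by rintro _ ⟨t, rfl⟩; exact k2_b x b t) (h s)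
  have h2 := k2_mul (k2_x x b hi) (k2_prod Finset.univ (E := m) (z := fun s => b' s ^ m s)
    fun s => by simpa using k2_pow (h1 s) (m s))
  rw [add_zero, zero_add, hm] at h2
  exact h2

theorem mul_mem_Wsp {Ω : Type} [Field Ω] [Algebra ℂ Ω] (x : Ω) (b : Fin d → Ω) {a E a' E' : ℕ}
    {z z' : Ω} (hz : z ∈ Wsp x b a E) (hz' : z' ∈ Wsp x b a' E') :
    z * z' ∈ Wsp x b (a + a') (E + E') := by
  exact k2_mul hz hz'

/-- Coordinates span the same spaces (`sum_co`). -/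
theorem NF.Wsp_co (N : NF d) {Ω : Type} [Field Ω] [Algebra ℂ Ω] (x : Ω) (b : Fin d → Ω)
    (a E : ℕ) : Wsp x (N.co b) a E = Wsp x b a E := by
  refine le_antisymm (Wsp_le_of_span x _ _ (fun s => ?_) a E)
    (Wsp_le_of_span x _ _ (fun s => ?_) a E)
  · refine Submodule.sum_mem _ fun i _ => ?_
    rw [← Algebra.smul_def]
    exact Submodule.smul_mem _ _ (Submodule.subset_span ⟨i, rfl⟩)
  · rw [← N.sum_co b s]
    refine Submodule.sum_mem _ fun i _ => ?_
    rw [← Algebra.smul_def]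
    exact Submodule.smul_mem _ _ (Submodule.subset_span ⟨i, rfl⟩)

/-- `1 = - ∑ i, cinv 1 i * (nn - θ i) = - ∑ i, cinv 1 i * b i^p ℓ i^q ∈ Wsp x b q p` (`co_lin`). -/
theorem Rel.Wsp_le {N : NF d} {p q : ℕ} {e1 e2 : Fin d → ℤ} {Ω : Type} [Field Ω] [Algebra ℂ Ω]
    {x nn : Ω} {b : Fin d → Ω} (h : Rel N p q e1 e2 x nn b) (a E : ℕ) :
    Wsp x b a E ≤ Wsp x b (a + q) (E + p) := by
  have h4 := N.four_le
  have h1 := N.co_lin nn (-1) ⟨1, by omega⟩
  rw [if_neg one_ne_zero, if_pos rfl] at h1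
  have h2 : (-1 : Ω) ∈ Wsp x b q p := by
    rw [← h1]
    refine Submodule.sum_mem _ fun i _ => ?_
    rw [← Algebra.smul_def]
    refine Submodule.smul_mem _ _ ?_
    have h3 : algebraMap ℂ Ω (N.emb e1 i) * x + algebraMap ℂ Ω (N.emb e2 i) ∈ Wsp x b 1 0 := by
      rw [← Algebra.smul_def, Algebra.algebraMap_eq_smul_one]
      refine add_mem (Submodule.smul_mem _ _ ?_) (Submodule.smul_mem _ _ ?_)
      · simpa using k2_x x b (le_refl 1)
      · simpa using k2_x x b (zero_le_one)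
    have h5 := k2_mul (k2_pow (k2_b x b i) p) (k2_pow h3 q)
    rw [h i] at h5
    simpa [sub_eq_add_neg] using h5
  intro z hz
  have h6 := neg_mem (k2_mul hz h2)
  rwa [mul_neg_one, neg_neg] at h6

/-- Selection of `H` independent monomials among the generators of `Wsp x c a E`
(`exists_linearIndependent`, or `LinearIndependent.extend`). -/
theorem exists_rows {Ω : Type} [Field Ω] [Algebra ℂ Ω] (x : Ω) (c : Fin d → Ω) (a E H : ℕ)
    (hH : H ≤ Module.finrank ℂ (Wsp x c a E)) : ∃ (i : Fin H → ℕ) (mm : Fin H → Fin d → ℕ),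
    (∀ r, i r ≤ a ∧ ∑ s, mm r s = E) ∧
    LinearIndependent ℂ (fun r => x ^ i r * ∏ s, c s ^ mm r s) := by
  obtain ⟨t, ht, hsp, hli⟩ := exists_linearIndependent ℂ
    {z | ∃ i ≤ a, ∃ m : Fin d → ℕ, ∑ s, m s = E ∧ z = x ^ i * ∏ s, c s ^ m s}
  have := ((k2_fin x c a E).subset ht).fintype
  rw [Wsp, ← hsp, finrank_span_set_eq_card hli, Set.toFinset_card, ← Fintype.card_fin H] at hH
  obtain ⟨φ⟩ := Function.Embedding.nonempty_of_card_le hH
  choose i hi mm hm he using fun r => ht (φ r).2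
  refine ⟨i, mm, fun r => ⟨hi r, hm r⟩, ?_⟩
  have h1 := hli.comp φ φ.injective
  rwa [show ((↑) : t → Ω) ∘ φ = fun r => x ^ i r * ∏ s, c s ^ mm r s from funext he] at h1

/-- Normal form.  For a monomial `x^i n^j ∏ b^m` write `m i = p t i + J i`, `∑ t i ≤ D`; then
`(∏ ℓ)^(q D) ∏ b^m = ∏ (n - θ i)^(t i) ℓ i^(q (D - t i)) * ∏ b^J`.  Sum over the support of `Ψ`. -/
theorem NF.normal_form (N : NF d) (p q D : ℕ) (hp : 1 ≤ p) (e1 e2 : Fin d → ℤ)
    (Ψ : MvPolynomial (Fin 2 ⊕ Fin d) ℂ) (hΨ : Ψ.totalDegree ≤ D) :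
    ∃ a : (Fin d → Fin p) → MvPolynomial (Fin 2) ℂ, (∀ J, (a J).totalDegree ≤ (2 + d * q) * D) ∧
      ∀ (Ω : Type) [CommRing Ω] [Algebra ℂ Ω] (x nn : Ω) (b : Fin d → Ω), Rel N p q e1 e2 x nn b →
        (∏ i, (algebraMap ℂ Ω (N.emb e1 i) * x + algebraMap ℂ Ω (N.emb e2 i))) ^ (q * D) *
          aeval (gens x nn b) Ψ = ∑ J, aeval ![x, nn] (a J) * ∏ i, b i ^ (J i : ℕ) := by
  classical
  rw [Ψ.as_sum]
  refine Finset.sum_induction _ (fun Ψ : MvPolynomial (Fin 2 ⊕ Fin d) ℂ =>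
    ∃ a : (Fin d → Fin p) → MvPolynomial (Fin 2) ℂ, (∀ J, (a J).totalDegree ≤ (2 + d * q) * D) ∧
      ∀ (Ω : Type) [CommRing Ω] [Algebra ℂ Ω] (x nn : Ω) (b : Fin d → Ω), Rel N p q e1 e2 x nn b →
        (∏ i, (algebraMap ℂ Ω (N.emb e1 i) * x + algebraMap ℂ Ω (N.emb e2 i))) ^ (q * D) *
          aeval (gens x nn b) Ψ = ∑ J, aeval ![x, nn] (a J) * ∏ i, b i ^ (J i : ℕ)) ?_ ?_ ?_
  · rintro u v ⟨a, ha, ha'⟩ ⟨a', hb, hb'⟩
    refine ⟨a + a', fun J => (totalDegree_add _ _).trans (max_le (ha J) (hb J)),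
      fun Ω _ _ x nn b h => ?_⟩
    rw [map_add, mul_add, ha' Ω x nn b h, hb' Ω x nn b h, ← Finset.sum_add_distrib]
    exact Finset.sum_congr rfl fun J _ => by rw [Pi.add_apply, map_add, add_mul]
  · exact ⟨0, fun J => by simp, fun Ω _ _ x nn b h => by simp⟩
  · intro m hm
    have h1 : m (.inl 0) + m (.inl 1) + ∑ i, m (.inr i) ≤ D := by
      have h2 := (le_totalDegree hm).trans hΨ
      rwa [Finsupp.sum_fintype _ _ (by simp), Fintype.sum_sum_type, Fin.sum_univ_two] at h2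
    have ht : ∀ i, m (.inr i) / p ≤ D := fun i =>
      (Nat.div_le_self _ _).trans ((Finset.single_le_sum (f := fun i => m (.inr i))
        (fun _ _ => Nat.zero_le _) (Finset.mem_univ i)).trans (by omega))
    refine ⟨Pi.single (fun i => ⟨m (.inr i) % p, Nat.mod_lt _ hp⟩)
      (C (coeff m Ψ) * X 0 ^ m (.inl 0) * X 1 ^ m (.inl 1) *
        ∏ i, ((X 1 - C (N.θ i)) ^ (m (.inr i) / p) *
          (C (N.emb e1 i) * X 0 + C (N.emb e2 i)) ^ (q * (D - m (.inr i) / p)))), fun J => ?_,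
      fun Ω _ _ x nn b h => ?_⟩
    · rw [Pi.single_apply]
      split_ifs
      · have d1 : ∀ i, (X 1 - C (N.θ i) : MvPolynomial (Fin 2) ℂ).totalDegree ≤ 1 := fun i =>
          (totalDegree_sub _ _).trans (by simp)
        have d2 : ∀ i, (C (N.emb e1 i) * X 0 + C (N.emb e2 i) :
            MvPolynomial (Fin 2) ℂ).totalDegree ≤ 1 := fun i =>
          (totalDegree_add _ _).trans (max_le ((totalDegree_mul _ _).trans (by simp)) (by simp))
        have d3 : (∏ i, ((X 1 - C (N.θ i)) ^ (m (.inr i) / p) *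
            (C (N.emb e1 i) * X 0 + C (N.emb e2 i)) ^ (q * (D - m (.inr i) / p))) :
            MvPolynomial (Fin 2) ℂ).totalDegree ≤ ∑ i : Fin d, (m (.inr i) + q * D) := by
          refine (totalDegree_finsetProd _ _).trans (Finset.sum_le_sum fun i _ => ?_)
          refine (totalDegree_mul _ _).trans (add_le_add ((totalDegree_pow _ _).trans ?_)
            ((totalDegree_pow _ _).trans ?_))
          · exact (Nat.mul_le_mul (Nat.div_le_self _ _) (d1 i)).trans (by simp)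
          · exact (Nat.mul_le_mul (Nat.mul_le_mul_left q (Nat.sub_le _ _)) (d2 i)).trans (by simp)
        have d4 : (C (coeff m Ψ) * X 0 ^ m (.inl 0) * X 1 ^ m (.inl 1) :
            MvPolynomial (Fin 2) ℂ).totalDegree ≤ m (.inl 0) + m (.inl 1) :=
          (totalDegree_mul _ _).trans (add_le_add ((totalDegree_mul _ _).trans (by simp))
            (by simp))
        refine (totalDegree_mul _ _).trans ((add_le_add d4 d3).trans ?_)
        rw [Finset.sum_add_distrib, Finset.sum_const, Finset.card_univ, Fintype.card_fin,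
          smul_eq_mul, add_mul, mul_assoc]
        omega
      · simp
    · rw [Finset.sum_eq_single (fun i => ⟨m (.inr i) % p, Nat.mod_lt _ hp⟩)
        (fun J _ hJ => by rw [Pi.single_eq_of_ne hJ, map_zero, zero_mul]) (by simp),
        Pi.single_eq_same, aeval_monomial, Finsupp.prod_fintype _ _ (by simp),
        Fintype.prod_sum_type, Fin.prod_univ_two]
      simp only [gens, Sum.elim_inl, Sum.elim_inr, map_mul, map_pow, map_prod, map_sub, map_add,
        aeval_X, aeval_C, Matrix.cons_val_zero, Matrix.cons_val_one]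
      have e : ∀ i, (algebraMap ℂ Ω (N.emb e1 i) * x + algebraMap ℂ Ω (N.emb e2 i)) ^ (q * D) *
          b i ^ m (.inr i) = (nn - algebraMap ℂ Ω (N.θ i)) ^ (m (.inr i) / p) *
          (algebraMap ℂ Ω (N.emb e1 i) * x + algebraMap ℂ Ω (N.emb e2 i)) ^
            (q * (D - m (.inr i) / p)) * b i ^ (m (.inr i) % p) := by
        intro i
        rw [← h i]
        conv_lhs => rw [← Nat.div_add_mod (m (.inr i)) p, ← Nat.add_sub_cancel' (ht i)]
        rw [mul_pow, ← pow_mul, ← pow_mul, mul_add, pow_add, pow_add]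
        ring
      rw [mul_assoc _ (∏ i, _) (∏ i, _), ← Finset.prod_mul_distrib, ← Finset.prod_congr rfl
        fun i _ => e i, Finset.prod_mul_distrib, Finset.prod_pow]
      ring

end Crest.Agent.R22
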