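import Crest.Agent.R22.NFBasic
import Crest.Agent.R22.Kum2

namespace Crest.Agent.R22

open MvPolynomial

variable {d : ℕ}

namespace Kum3

open Module

theorem rank_add {V : Type} [AddCommGroup V] [Module ℂ V] (U W : Submodule ℂ V) [Module.Finite ℂ W]
    (hUW : U ≤ W) {k : ℕ} (v : Fin k → V) (hv : ∀ l, v l ∈ W)
    (h : ∀ g : Fin k → ℂ, ∑ l, g l • v l ∈ U → g = 0) : finrank ℂ U + k ≤ finrank ℂ W := by
  have hli : LinearIndependent ℂ v :=
    Fintype.linearIndependent_iff.2 fun g hg => congrFun (h g (hg ▸ U.zero_mem))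
  have hS : Submodule.span ℂ (Set.range v) ≤ W :=
    Submodule.span_le.2 (by rintro _ ⟨l, rfl⟩; exact hv l)
  have : Module.Finite ℂ U := Submodule.finiteDimensional_of_le hUW
  have : Module.Finite ℂ (Submodule.span ℂ (Set.range v)) := Submodule.finiteDimensional_of_le hS
  have h1 := Submodule.finrank_sup_add_finrank_inf_eq U (Submodule.span ℂ (Set.range v))
  have h2 : U ⊓ Submodule.span ℂ (Set.range v) = ⊥ := by
    rw [eq_bot_iff]
    rintro y ⟨hy, hy'⟩
    obtain ⟨g, rfl⟩ := (Submodule.mem_span_range_iff_exists_fun ℂ).1 hy'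
    rw [h g hy]
    simp
  rw [h2, finrank_bot, finrank_span_eq_card hli, Fintype.card_fin] at h1
  have h3 := Submodule.finrank_mono (sup_le hUW hS)
  omega

theorem tri {S : Type} [CommRing S] [IsDomain S] [Algebra ℂ S] {u : S} (hu : u ≠ 0)
    (ε : S →ₐ[ℂ] ℂ) (hε : ε u = 0) (n : ℕ) : ∀ (c : Fin n → S), (∀ l, ε (c l) ≠ 0) →
      ∀ g : Fin n → ℂ, ∑ l, g l • (u ^ (l : ℕ) * c l) = 0 → g = 0 := by
  induction n with
  | zero => exact fun _ _ g _ => Subsingleton.elim _ _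
  | succ n ih =>
    intro c hc g hg
    rw [Fin.sum_univ_succ] at hg
    have e : ∑ l : Fin n, g l.succ • (u ^ ((l.succ : Fin (n + 1)) : ℕ) * c l.succ) =
        u * ∑ l : Fin n, g l.succ • (u ^ (l : ℕ) * c l.succ) := by
      rw [Finset.mul_sum]
      refine Finset.sum_congr rfl fun l _ => ?_
      rw [Fin.val_succ, pow_succ, mul_smul_comm]
      congr 1
      ring
    rw [e] at hg
    have h0 : g 0 = 0 := by
      have := congrArg ε hg
      simp only [map_add, map_smul, map_mul, hε, zero_mul, add_zero, map_zero, Fin.val_zero,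
        pow_zero, one_mul, smul_eq_mul] at this
      exact (mul_eq_zero.1 this).resolve_right (hc 0)
    rw [h0, zero_smul, zero_add] at hg
    have h1 := ih (fun l => c l.succ) (fun l => hc _) (fun l => g l.succ)
      ((mul_eq_zero.1 hg).resolve_left hu)
    funext l
    refine Fin.cases h0 (fun l => congrFun h1 l) l

/-- the multiples of `y` -/
def Dv {R : Type} [CommRing R] [Algebra ℂ R] (y : R) : Submodule ℂ R :=
  (Ideal.span {y}).restrictScalars ℂ

theorem mem_Dv {R : Type} [CommRing R] [Algebra ℂ R] {y z : R} : z ∈ Dv y ↔ y ∣ z :=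
  Ideal.mem_span_singleton

theorem steps {R S : Type} [CommRing R] [IsDomain R] [Algebra ℂ R] [CommRing S] [IsDomain S]
    [Algebra ℂ S] (W : Submodule ℂ R) [Module.Finite ℂ W] {ℓ u : R} (hℓ : ℓ ≠ 0) (e : R →ₐ[ℂ] S)
    (he : e ℓ = 0) (hu : e u ≠ 0) (ε : S →ₐ[ℂ] ℂ) (hε : ε (e u) = 0) (k : ℕ → ℕ) (T : ℕ)
    (h : ∀ t < T, ∃ c : Fin (k t) → R, (∀ l : Fin (k t), ℓ ^ t * (u ^ (l : ℕ) * c l) ∈ W) ∧
      ∀ l, ε (e (c l)) ≠ 0) :
    finrank ℂ ↥(W ⊓ Dv (ℓ ^ T)) + ∑ t ∈ Finset.range T, k t ≤ finrank ℂ W := by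
  induction T with
  | zero => simpa using Submodule.finrank_mono inf_le_left
  | succ T ih =>
    have h1 := ih fun t ht => h t (by omega)
    obtain ⟨c, hc, hc'⟩ := h T (by omega)
    have : Module.Finite ℂ ↥(W ⊓ Dv (ℓ ^ T)) := Submodule.finiteDimensional_of_le inf_le_left
    have h2 := rank_add (W ⊓ Dv (ℓ ^ (T + 1))) (W ⊓ Dv (ℓ ^ T))
      (inf_le_inf_left _ fun y hy => mem_Dv.2 ((pow_dvd_pow ℓ (by omega)).trans (mem_Dv.1 hy)))
      (fun l => ℓ ^ T * (u ^ (l : ℕ) * c l)) (fun l => ⟨hc l, mem_Dv.2 (dvd_mul_right _ _)⟩)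
      (fun g hg => by
        obtain ⟨y, hy⟩ := mem_Dv.1 hg.2
        have e1 : ∑ l, g l • (ℓ ^ T * (u ^ (l : ℕ) * c l)) =
            ℓ ^ T * ∑ l, g l • (u ^ (l : ℕ) * c l) := by
          rw [Finset.mul_sum]
          exact Finset.sum_congr rfl fun l _ => (mul_smul_comm _ _ _).symm
        rw [e1, pow_succ, mul_assoc] at hy
        have h3 := congrArg e (mul_left_cancel₀ (pow_ne_zero T hℓ) hy)
        simp only [map_sum, map_smul, map_mul, map_pow, he, zero_mul] at h3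
        exact tri hu ε hε _ (fun l => e (c l)) hc' g h3)
    rw [Finset.sum_range_succ]
    omega

theorem sum_div (q E : ℕ) :
    2 * ∑ t ∈ Finset.range (q * E), (t / q + 1) = q * (E * (E + 1)) := by
  induction E with
  | zero => simp
  | succ E ih =>
    have e : ∑ s ∈ Finset.range q, ((q * E + s) / q + 1) = q * (E + 1) := by
      rw [Finset.sum_congr rfl (g := fun _ => E + 1), Finset.sum_const, Finset.card_range,
        smul_eq_mul]
      intro s hs
      have hs' := Finset.mem_range.1 hs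
      rw [Nat.mul_add_div (by omega), Nat.div_eq_of_lt hs']
    rw [Nat.mul_succ, Finset.sum_range_add, mul_add, ih, e]
    ring

section
variable {Ω : Type} [Field Ω] [Algebra ℂ Ω] (x : Ω) (Z : Fin d → Ω)

theorem xpow_mem {a j : ℕ} (hj : j ≤ a) : x ^ j ∈ Wsp x Z a 0 :=
  Submodule.subset_span ⟨j, hj, 0, by simp, by simp⟩

theorem pow_mem {z : Ω} {a E : ℕ} (hz : z ∈ Wsp x Z a E) (k : ℕ) :
    z ^ k ∈ Wsp x Z (k * a) (k * E) := by
  induction k with
  | zero => simpa using xpow_mem x Z (le_refl 0)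
  | succ k ih =>
    rw [pow_succ, Nat.succ_mul, Nat.succ_mul]
    exact mul_mem_Wsp x Z ih hz

theorem Z_mem (i : Fin d) (k : ℕ) : Z i ^ k ∈ Wsp x Z 0 k := by
  have h : Z i ∈ Wsp x Z 0 1 := by
    refine Submodule.subset_span ⟨0, le_rfl, Pi.single i 1, by simp, ?_⟩
    rw [Finset.prod_eq_single i (fun j _ hj => by simp [Pi.single_eq_of_ne hj]) (by simp)]
    simp
  simpa using pow_mem x Z h k

theorem lin_mem (α β : ℂ) {a s : ℕ} (hs : s ≤ a) :
    (algebraMap ℂ Ω α * x + algebraMap ℂ Ω β) ^ s ∈ Wsp x Z a 0 := by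
  have h : algebraMap ℂ Ω α * x + algebraMap ℂ Ω β ∈ Wsp x Z 1 0 := by
    have h1 := (Wsp x Z 1 0).smul_mem α (xpow_mem x Z (le_refl 1))
    have h2 := (Wsp x Z 1 0).smul_mem β (xpow_mem x Z (Nat.zero_le 1))
    rw [Algebra.smul_def, pow_one] at h1
    rw [Algebra.smul_def, pow_zero, mul_one] at h2
    exact add_mem h1 h2
  have h3 := mul_mem_Wsp x Z (pow_mem x Z h s) (xpow_mem x Z (Nat.zero_le (a - s)))
  have e : s * 1 + (a - s) = a := by omega
  rw [e] at h3
  simpa using h3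

end

/-- the core statement in the polynomial ring -/
theorem core {q a E : ℕ} (α β θ : Fin d → ℂ) (hα : ∀ i, α i ≠ 0) (hβ : ∀ i, β i ≠ 0)
    (hθ : Function.Injective θ) (hP : ∀ i j, i ≠ j → α i * β j - α j * β i ≠ 0)
    {i0 i1 : Fin d} (h01 : i0 ≠ i1) (ha : q ≤ a + 1)
    (ℓ Y : Fin d → MvPolynomial (Fin 2) ℂ) (hℓ : ∀ i, ℓ i = C (α i) * X 0 + C (β i))
    (hY : ∀ i, Y i = (X 1 - C (θ i)) * ∏ j ∈ Finset.univ.erase i, ℓ j ^ q)
    (W : Submodule ℂ (MvPolynomial (Fin 2) ℂ)) [Module.Finite ℂ W]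
    (hA : ∀ j ≤ a, ∀ l k, l + k = E → X 0 ^ j * (Y i0 ^ l * Y i1 ^ k) ∈ W)
    (hB : ∀ r, ∀ s ≤ a, ∀ j l k, j + l + k = E → ℓ r ^ s * (Y r ^ j * Y i0 ^ l * Y i1 ^ k) ∈ W) :
    2 * ((a + 1) * (E + 1)) + (d - 2) * q * (E * (E + 1)) ≤ 2 * finrank ℂ W := by
  classical
  have hdv : ∀ r i, r ≠ i → ℓ r ^ q ∣ Y i := fun r i hri => by
    rw [hY]
    exact Dvd.dvd.mul_left (Finset.dvd_prod_of_mem _ (by simp [hri])) _
  have hdv3 : ∀ r' r j l k, r' ≠ r → r' ≠ i0 → r' ≠ i1 → j + l + k = E →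
      ℓ r' ^ (q * E) ∣ Y r ^ j * Y i0 ^ l * Y i1 ^ k := fun r' r j l k a1 a2 a3 hE => by
    rw [← hE, pow_mul, pow_add, pow_add]
    exact mul_dvd_mul (mul_dvd_mul (pow_dvd_pow_of_dvd (hdv _ _ a1) _)
      (pow_dvd_pow_of_dvd (hdv _ _ a2) _)) (pow_dvd_pow_of_dvd (hdv _ _ a3) _)
  have hl0 : ∀ i, (aeval ![0, θ i0] : MvPolynomial (Fin 2) ℂ →ₐ[ℂ] ℂ) (ℓ i) ≠ 0 := fun i => by
    simp [hℓ, hβ]
  have hθ' : ∀ i, i ≠ i0 → θ i0 - θ i ≠ 0 := fun i hi h => hi (hθ (sub_eq_zero.1 h)).symm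
  have main : ∀ T : Finset (Fin d), (∀ r ∈ T, r ≠ i0 ∧ r ≠ i1) →
      2 * finrank ℂ ↥(W ⊓ T.inf fun r => Dv (ℓ r ^ (q * E))) + T.card * (q * (E * (E + 1))) ≤
        2 * finrank ℂ W := by
    intro T
    induction T using Finset.induction_on with
    | empty =>
      intro _
      have := Submodule.finrank_mono (inf_le_left :
        (W ⊓ (∅ : Finset (Fin d)).inf fun r => Dv (ℓ r ^ (q * E))) ≤ W)
      simp only [Finset.card_empty]
      omega
    | insert r T hr ih =>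
      intro hT
      have h1 := ih fun r' hr' => hT r' (Finset.mem_insert_of_mem hr')
      obtain ⟨r0, r1⟩ := hT r (Finset.mem_insert_self _ _)
      have : Module.Finite ℂ ↥(W ⊓ T.inf fun r => Dv (ℓ r ^ (q * E))) :=
        Submodule.finiteDimensional_of_le inf_le_left
      have hcomp : ∀ y, (Polynomial.aeval (θ i0) : Polynomial ℂ →ₐ[ℂ] ℂ)
          ((aeval ![Polynomial.C (-β r / α r), Polynomial.X] :
            MvPolynomial (Fin 2) ℂ →ₐ[ℂ] Polynomial ℂ) y) =
          (aeval ![-β r / α r, θ i0] : MvPolynomial (Fin 2) ℂ →ₐ[ℂ] ℂ) y := fun y => by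
        rw [← AlgHom.comp_apply]
        congr 1
        ext i
        fin_cases i <;> simp
      have hlr : ∀ i, i ≠ r →
          (aeval ![-β r / α r, θ i0] : MvPolynomial (Fin 2) ℂ →ₐ[ℂ] ℂ) (ℓ i) ≠ 0 := fun i hi h => by
        refine hP r i hi.symm ?_
        have := hα r
        simp [hℓ] at h
        field_simp at h
        linear_combination h
      have hpr : ∀ A : Finset (Fin d), r ∉ A →
          (aeval ![-β r / α r, θ i0] : MvPolynomial (Fin 2) ℂ →ₐ[ℂ] ℂ) (∏ j ∈ A, ℓ j ^ q) ≠ 0 :=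
        fun A hA => by
          rw [map_prod]
          exact Finset.prod_ne_zero_iff.2 fun j hj => by
            rw [map_pow]
            exact pow_ne_zero _ (hlr j fun e => hA (e ▸ hj))
      have hsp : ∀ i, r ≠ i → Y i = ℓ r ^ q *
          ((X 1 - C (θ i)) * ∏ j ∈ (Finset.univ.erase i).erase r, ℓ j ^ q) := fun i hi => by
        rw [hY, ← Finset.mul_prod_erase _ _ (Finset.mem_erase.2 ⟨hi, Finset.mem_univ r⟩)]
        ring
      have h2 := steps (W ⊓ T.inf fun r => Dv (ℓ r ^ (q * E))) (ℓ := ℓ r) (u := X 1 - C (θ i0))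
        (fun h => hl0 r (by rw [h, map_zero]))
        (aeval ![Polynomial.C (-β r / α r), Polynomial.X] :
          MvPolynomial (Fin 2) ℂ →ₐ[ℂ] Polynomial ℂ)
        (by
          have := hα r
          simp only [hℓ, map_add, map_mul, aeval_C, aeval_X, Matrix.cons_val_zero,
            Polynomial.algebraMap_eq]
          rw [← Polynomial.C_mul, ← Polynomial.C_add, Polynomial.C_eq_zero]
          field_simp
          ring)
        (by simpa using Polynomial.X_sub_C_ne_zero (θ i0))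
        (Polynomial.aeval (θ i0)) (by simp) (fun t => t / q + 1) (q * E)
        (fun t ht => by
          have hq : 0 < q := Nat.pos_of_ne_zero (by rintro rfl; simp at ht)
          have hm : t / q < E := Nat.div_lt_of_lt_mul ht
          have hs := Nat.mod_lt t hq
          refine ⟨fun l => Y r ^ (E - t / q) *
            (∏ j ∈ (Finset.univ.erase i0).erase r, ℓ j ^ q) ^ (l : ℕ) *
            ((X 1 - C (θ i1)) * ∏ j ∈ (Finset.univ.erase i1).erase r, ℓ j ^ q) ^ (t / q - l),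
            fun l => ?_, fun l => ?_⟩
          · have hl := l.2
            obtain ⟨k, hk⟩ : ∃ k, t / q = l + k := ⟨t / q - l, by omega⟩
            have e1 : t / q - l = k := by omega
            have e2 : t = t % q + (q * l + q * k) := by
              have := Nat.mod_add_div t q
              rw [hk, mul_add] at this
              omega
            have e : ℓ r ^ t * ((X 1 - C (θ i0)) ^ (l : ℕ) * (Y r ^ (E - t / q) *
                (∏ j ∈ (Finset.univ.erase i0).erase r, ℓ j ^ q) ^ (l : ℕ) *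
                ((X 1 - C (θ i1)) * ∏ j ∈ (Finset.univ.erase i1).erase r, ℓ j ^ q) ^ (t / q - l))) =
                ℓ r ^ (t % q) * (Y r ^ (E - t / q) * Y i0 ^ (l : ℕ) * Y i1 ^ k) := by
              rw [e1, hsp i0 r0, hsp i1 r1]
              generalize Y r ^ (E - t / q) = y
              rw [congrArg (ℓ r ^ ·) e2]
              simp only [mul_pow, pow_add, pow_mul]
              ring
            rw [e]
            refine ⟨hB r _ (by omega) _ _ _ (by omega), Submodule.mem_finsetInf.2 fun r' hr' => ?_⟩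
            obtain ⟨b0, b1⟩ := hT r' (Finset.mem_insert_of_mem hr')
            exact mem_Dv.2 (Dvd.dvd.mul_left
              (hdv3 r' r _ _ _ (fun e => hr (e ▸ hr')) b0 b1 (by omega)) _)
          · rw [hcomp]
            simp only [map_mul, map_pow, hY r]
            refine mul_ne_zero (mul_ne_zero (pow_ne_zero _ (mul_ne_zero ?_ (hpr _ (by simp))))
              (pow_ne_zero _ (hpr _ (by simp)))) (pow_ne_zero _ (mul_ne_zero ?_ (hpr _ (by simp))))
            · simpa using hθ' r r0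
            · simpa using hθ' i1 h01.symm)
      have h3 := sum_div q E
      rw [Finset.inf_insert, Finset.card_insert_of_notMem hr, inf_comm (Dv _), ← inf_assoc, add_mul]
      omega
  have h1 := main ((Finset.univ.erase i0).erase i1) (fun r hr => by
    simp only [Finset.mem_erase] at hr
    exact ⟨hr.2.1, hr.1⟩)
  have hc : ((Finset.univ.erase i0).erase i1).card = d - 2 := by
    rw [Finset.card_erase_of_mem (by simp [h01.symm]), Finset.card_erase_of_mem (by simp)]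
    simp
    omega
  rw [hc] at h1
  set W' := W ⊓ ((Finset.univ.erase i0).erase i1).inf fun r => Dv (ℓ r ^ (q * E)) with hW'
  have : Module.Finite ℂ W' := Submodule.finiteDimensional_of_le inf_le_left
  have hcomp : ∀ y, (Polynomial.aeval 0 : Polynomial ℂ →ₐ[ℂ] ℂ)
      ((aeval ![Polynomial.X, Polynomial.C (θ i0)] :
        MvPolynomial (Fin 2) ℂ →ₐ[ℂ] Polynomial ℂ) y) =
      (aeval ![0, θ i0] : MvPolynomial (Fin 2) ℂ →ₐ[ℂ] ℂ) y := fun y => by
    rw [← AlgHom.comp_apply]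
    congr 1
    ext i
    fin_cases i <;> simp
  have hpr : ∀ A : Finset (Fin d),
      (aeval ![0, θ i0] : MvPolynomial (Fin 2) ℂ →ₐ[ℂ] ℂ) (∏ j ∈ A, ℓ j ^ q) ≠ 0 :=
    fun A => by
      rw [map_prod]
      exact Finset.prod_ne_zero_iff.2 fun j _ => by
        rw [map_pow]
        exact pow_ne_zero _ (hl0 j)
  have h2 := steps W' (ℓ := X 1 - C (θ i0)) (u := X 0)
    (fun h => by
      have := congrArg (aeval ![0, θ i0 + 1] : MvPolynomial (Fin 2) ℂ →ₐ[ℂ] ℂ) h
      simp at this)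
    (aeval ![Polynomial.X, Polynomial.C (θ i0)] : MvPolynomial (Fin 2) ℂ →ₐ[ℂ] Polynomial ℂ)
    (by simp) (by simp) (Polynomial.aeval 0) (by simp) (fun _ => a + 1) (E + 1)
    (fun t ht => by
      refine ⟨fun _ => (∏ j ∈ Finset.univ.erase i0, ℓ j ^ q) ^ t * Y i1 ^ (E - t),
        fun l => ?_, fun l => ?_⟩
      · have hl := l.2
        have e : (X 1 - C (θ i0)) ^ t * (X 0 ^ (l : ℕ) *
            ((∏ j ∈ Finset.univ.erase i0, ℓ j ^ q) ^ t * Y i1 ^ (E - t))) =
            X 0 ^ (l : ℕ) * (Y i0 ^ t * Y i1 ^ (E - t)) := by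
          rw [hY i0, mul_pow]
          ring
        rw [e]
        refine ⟨hA _ (by omega) _ _ (by omega), Submodule.mem_finsetInf.2 fun r' hr' => ?_⟩
        simp only [Finset.mem_erase] at hr'
        have := hdv3 r' i0 0 t (E - t) hr'.2.1 hr'.2.1 hr'.1 (by omega)
        rw [pow_zero, one_mul] at this
        exact mem_Dv.2 (Dvd.dvd.mul_left this _)
      · rw [hcomp]
        simp only [map_mul, map_pow, hY i1]
        refine mul_ne_zero (pow_ne_zero _ (hpr _)) (pow_ne_zero _ (mul_ne_zero ?_ (hpr _)))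
        simpa using hθ' i1 h01.symm)
  rw [Finset.sum_const, Finset.card_range, smul_eq_mul, mul_comm (E + 1)] at h2
  rw [mul_assoc (d - 2)]
  omega

end Kum3

/-- The scroll family (`p = 1`): with two fixed indices `i0 ≠ i1` and `ℓ r = ê1 r x + ê2 r`, the elements
`x^j Z i0^i Z i1^(E-i)` (`j ≤ a`, `i ≤ E`) and `ℓ r^s Z r^j Z i0^l Z i1^(E-j-l)` (`r ≠ i0, i1`, `s < q`,
`1 ≤ j ≤ E`, `l ≤ E - j`) lie in `Wsp x Z a E` and are independent.  Given a relation, fix `r`, multiply by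
`(∏ ℓ)^(q E)` and read it in `ℂ[nn][x]` (algebraic independence).  It has the form
`∑_{o=1}^{qE} ℓ r^(qE - o) A_o + ℓ r^(qE) B = 0` with `o = q j - s` (a bijection), where at the root `x_r` of
`ℓ r` the value `A_o(x_r)` is a nonzero constant times `(nn - θ r)^j ∑_l c_l u0^l u1^(E-j-l)`,
`u_i = (nn - θ i) / ℓ i (x_r)^q` (`ℓ i (x_r) ≠ 0` by `PP ≠ 0`), which vanishes only if all `c_l = 0`
(evaluate at `nn = θ i0`, induct; or `u0 / u1` is transcendental).  Downward induction on `o` kills all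
`c`.  What is left is the first family, independent since `x` and `Z i0 / Z i1` are algebraically
independent (same argument: polynomial in `nn` over `ℂ(x)`). -/
theorem SurfCfg.scroll {N : NF d} {q : ℕ} {e1 e2 : Fin d → ℤ} (h1 : e1 ≠ 0)
    (hnd : ∀ i j, i ≠ j → N.PP e1 e2 i j ≠ 0) {Ω : Type} [Field Ω] [Algebra ℂ Ω] {x nn : Ω}
    {Z : Fin d → Ω} (h : SurfCfg N 1 q e1 e2 x nn Z) (a E : ℕ) (ha : q ≤ a + 1) :
    2 * ((a + 1) * (E + 1)) + (d - 2) * q * (E * (E + 1)) ≤ 2 * Module.finrank ℂ (Wsp x Z a E) := by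
  classical
  have h4 := N.four_le
  have h01 : (⟨0, by omega⟩ : Fin d) ≠ ⟨1, by omega⟩ := by simp
  have h2 : e2 ≠ 0 := by
    rintro rfl
    exact hnd _ _ h01 (by simp [NF.PP, NF.emb])
  set φ : MvPolynomial (Fin 2) ℂ →ₐ[ℂ] Ω := aeval ![x, nn] with hφ
  have hinj : Function.Injective φ := h.ind
  set ℓ : Fin d → MvPolynomial (Fin 2) ℂ := fun i => C (N.emb e1 i) * X 0 + C (N.emb e2 i) with hℓ
  set Y : Fin d → MvPolynomial (Fin 2) ℂ :=
    fun i => (X 1 - C (N.θ i)) * ∏ j ∈ Finset.univ.erase i, ℓ j ^ q with hY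
  have hφℓ : ∀ i, φ (ℓ i) = algebraMap ℂ Ω (N.emb e1 i) * x + algebraMap ℂ Ω (N.emb e2 i) :=
    fun i => by simp [hφ, hℓ]
  set Λ := φ (∏ j, ℓ j ^ q) with hΛ
  have hΛ0 : Λ ≠ 0 := by
    rw [hΛ, map_ne_zero_iff φ hinj]
    refine Finset.prod_ne_zero_iff.2 fun j _ => pow_ne_zero _ fun e => ?_
    have := congrArg (aeval ![0, 0] : MvPolynomial (Fin 2) ℂ →ₐ[ℂ] ℂ) e
    simp only [hℓ] at this
    exact N.emb_ne_zero h2 j (by simpa using this)
  have hφY : ∀ i, φ (Y i) = Z i * Λ := fun i => by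
    have h3 := h.rel i
    rw [pow_one, ← hφℓ] at h3
    have e : φ (X 1 - C (N.θ i)) = nn - algebraMap ℂ Ω (N.θ i) := by simp [hφ]
    rw [hΛ, ← Finset.mul_prod_erase _ _ (Finset.mem_univ i)]
    simp only [hY]
    rw [map_mul, map_mul, e, ← h3, map_pow, mul_assoc]
  set ψ : MvPolynomial (Fin 2) ℂ →ₗ[ℂ] Ω := (LinearMap.mulRight ℂ (Λ ^ E)⁻¹) ∘ₗ φ.toLinearMap with hψ
  have hψa : ∀ y, ψ y = φ y * (Λ ^ E)⁻¹ := fun y => rfl
  have hψi : Function.Injective ψ := fun y z e =>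
    hinj (mul_right_cancel₀ (inv_ne_zero (pow_ne_zero E hΛ0)) e)
  have := Wsp_finite x Z a E
  have hri : Function.Injective (ψ.submoduleComap (Wsp x Z a E)) := fun y z e =>
    Subtype.ext (hψi (congrArg Subtype.val e))
  have : Module.Finite ℂ ((Wsp x Z a E).comap ψ) := Module.Finite.of_injective _ hri
  have hle := LinearMap.finrank_le_finrank_of_injective hri
  have hmem : ∀ (p : MvPolynomial (Fin 2) ℂ) (r r' r'' : Fin d) (j l k : ℕ), φ p ∈ Wsp x Z a 0 →
      j + l + k = E → p * (Y r ^ j * Y r' ^ l * Y r'' ^ k) ∈ (Wsp x Z a E).comap ψ := by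
    intro p r r' r'' j l k hp hE
    rw [Submodule.mem_comap, hψa]
    have e : φ (p * (Y r ^ j * Y r' ^ l * Y r'' ^ k)) * (Λ ^ E)⁻¹ =
        φ p * (Z r ^ j * Z r' ^ l * Z r'' ^ k) := by
      simp only [map_mul, map_pow, hφY, ← hE, pow_add, mul_pow]
      field_simp
    rw [e]
    have := mul_mem_Wsp x Z hp (mul_mem_Wsp x Z
      (mul_mem_Wsp x Z (Kum3.Z_mem x Z r j) (Kum3.Z_mem x Z r' l)) (Kum3.Z_mem x Z r'' k))
    simpa [hE] using this
  have hc := Kum3.core (q := q) (a := a) (E := E) (N.emb e1) (N.emb e2) N.θ (N.emb_ne_zero h1)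
    (N.emb_ne_zero h2) N.inj hnd h01 ha ℓ Y (fun _ => rfl) (fun _ => rfl)
    ((Wsp x Z a E).comap ψ)
    (fun j hj l k hE => by
      have := hmem (X 0 ^ j) ⟨0, by omega⟩ ⟨0, by omega⟩ ⟨1, by omega⟩ 0 l k
        (by simpa [hφ] using Kum3.xpow_mem x Z hj) (by omega)
      rwa [pow_zero, one_mul] at this)
    (fun r s hs j l k hE => hmem _ _ _ _ _ _ _
      (by rw [map_pow, hφℓ]; exact Kum3.lin_mem x Z _ _ hs) hE)
  omega

end Crest.Agent.R22
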