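import Crest.Agent.R22.NFBasic
import Crest.Agent.R22.Kum1
import Crest.Agent.R22.Kum3

namespace Crest.Agent.R22

open MvPolynomial

variable {d : ℕ}

theorem kum4_ext (d' : ℕ) {p : ℕ} (hp : 1 ≤ p) :
    ∃ ex : (Fin d' → Fin p) → Fin (d' + 1) → Fin p, Function.Injective ex ∧
      ∀ J, ∃ u ≤ d' + 1, ∑ i, (ex J i : ℕ) = p * u := by
  refine ⟨fun J => Fin.cons ⟨(p - (∑ i, (J i : ℕ)) % p) % p, Nat.mod_lt _ hp⟩ J,
    fun J J' h => funext fun i => by simpa using congrFun h i.succ, fun J => ?_⟩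
  have h1 : p ∣ ∑ i, ((Fin.cons ⟨(p - (∑ i, (J i : ℕ)) % p) % p, Nat.mod_lt _ hp⟩ J :
      Fin (d' + 1) → Fin p) i : ℕ) := by
    rw [Fin.sum_univ_succ]
    simp only [Fin.cons_zero, Fin.cons_succ]
    rw [Nat.dvd_iff_mod_eq_zero, Nat.mod_add_mod, ← Nat.add_mod_mod,
      Nat.sub_add_cancel (Nat.mod_lt _ hp).le, Nat.mod_self]
  obtain ⟨u, hu⟩ := h1
  refine ⟨u, Nat.le_of_mul_le_mul_left ?_ hp, hu⟩
  rw [← hu]
  refine (Finset.sum_le_card_nsmul _ _ p fun i _ => (Fin.is_lt _).le).trans ?_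
  rw [Finset.card_univ, Fintype.card_fin, smul_eq_mul, mul_comm]

theorem kum4_Wsp_pow {Ω : Type} [Field Ω] [Algebra ℂ Ω] (x : Ω) (b : Fin d → Ω) (p a E : ℕ) :
    Wsp x (fun i => b i ^ p) a E ≤ Wsp x b a (p * E) := by
  refine Submodule.span_mono ?_
  rintro _ ⟨i, hi, m, hm, rfl⟩
  exact ⟨i, hi, fun s => p * m s, by rw [← Finset.mul_sum, hm], by simp only [pow_mul]⟩

theorem kum4_Wsp_mem {Ω : Type} [Field Ω] [Algebra ℂ Ω] {x : Ω} {Z : Fin d → Ω}
    {F : IntermediateField ℂ Ω} (hx : x ∈ F) (hZ : ∀ i, Z i ∈ F) {a E : ℕ} {z : Ω}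
    (hz : z ∈ Wsp x Z a E) : z ∈ F := by
  have : Wsp x Z a E ≤ F.toSubalgebra.toSubmodule := by
    refine Submodule.span_le.2 ?_
    rintro _ ⟨i, -, m, -, rfl⟩
    exact F.mul_mem (pow_mem hx _) (prod_mem fun s _ => pow_mem (hZ s) _)
  exact this hz

/-- Kummer × scroll.  `Z i = b i^p` is a `SurfCfg N 1 q`.  Let `f` be a basis of `Wsp x Z a E'` (its elements
lie in `F = ℂ(x, nn)`).  For `J : Fin d → Fin p` with `p ∣ |J|`, `|J| = p u`, `u ≤ d` (there are `p^(d-1)`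
such `J`: all coordinates but one are free) the elements `b^J Z i0^(d-u) f` lie in
`Wsp x b a (p (E' + d))`; they are independent by `kummer` and `linearIndependent_smul`-type reasoning
(group a relation by `J`). -/
theorem SurfCfg.fam {N : NF d} {p q : ℕ} (hp : 1 ≤ p) {e1 e2 : Fin d → ℤ} (h1 : e1 ≠ 0)
    (hnd : ∀ i j, i ≠ j → N.PP e1 e2 i j ≠ 0) {Ω : Type} [Field Ω] [Algebra ℂ Ω] {x nn : Ω}
    {b : Fin d → Ω} (h : SurfCfg N p q e1 e2 x nn b) (a E : ℕ) (ha : q ≤ a + 1) :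
    p ^ (d - 1) * (2 * ((a + 1) * (E + 1)) + (d - 2) * q * (E * (E + 1))) ≤
      2 * Module.finrank ℂ (Wsp x b a (p * (E + d))) := by
  obtain ⟨d', rfl⟩ : ∃ d', d = d' + 1 := ⟨d - 1, by have := N.four_le; omega⟩
  obtain ⟨ex, hex, hsum⟩ := kum4_ext d' hp
  choose u hu hsum using hsum
  have hZ : SurfCfg N 1 q e1 e2 x nn fun i => b i ^ p :=
    ⟨h.ind, fun i => by rw [pow_one]; exact h.rel i⟩
  have hs := hZ.scroll h1 hnd a E ha
  have hk := (h.kummer hp h1).comp ex hex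
  set F := IntermediateField.adjoin ℂ {x, nn} with hF
  have hx : x ∈ F := IntermediateField.subset_adjoin _ _ (by simp)
  have hnn : nn ∈ F := IntermediateField.subset_adjoin _ _ (by simp)
  have hinj : Function.Injective (aeval (R := ℂ) ![x, nn]) := h.ind
  have hn : ∀ i, nn - algebraMap ℂ Ω (N.θ i) ≠ 0 := fun i e => by
    have h2 : (X 1 - C (N.θ i) : MvPolynomial (Fin 2) ℂ) = 0 := hinj (by simpa using e)
    simpa using congrArg (eval fun _ => N.θ i + 1) h2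
  have hZ0 : ∀ i, b i ^ p ≠ 0 := fun i => left_ne_zero_of_mul (h.rel i ▸ hn i)
  have hZF : ∀ i, b i ^ p ∈ F := fun i => by
    rw [eq_div_of_mul_eq (right_ne_zero_of_mul (h.rel i ▸ hn i)) (h.rel i)]
    exact div_mem (sub_mem hnn (F.algebraMap_mem _))
      (pow_mem (add_mem (mul_mem (F.algebraMap_mem _) hx) (F.algebraMap_mem _)) _)
  have := Wsp_finite x (fun i => b i ^ p) a E
  have := Wsp_finite x b a (p * (E + (d' + 1)))
  set f := Module.finBasis ℂ (Wsp x (fun i => b i ^ p) a E) with hf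
  have hf1 : LinearIndependent ℂ fun k => (⟨f k, kum4_Wsp_mem hx hZF (f k).2⟩ : F) :=
    LinearIndependent.of_comp F.val.toLinearMap
      (f.linearIndependent.map' (Submodule.subtype _) (Submodule.ker_subtype _))
  have hw : ∀ J, ((⟨b 0 ^ p, hZF 0⟩ : F) ^ (d' + 1 - u J)) ≠ 0 := fun J =>
    pow_ne_zero _ fun e => hZ0 0 (congrArg Subtype.val e)
  have hli := linearIndependent_smul hf1 (hk.units_smul fun J => Units.mk0 _ (hw J))
  have hle := Submodule.finrank_mono (t := Wsp x b a (p * (E + (d' + 1))))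
    (Submodule.span_le.2 (by
      rintro _ ⟨⟨k, J⟩, rfl⟩
      have m1 := kum4_Wsp_pow x b p a E (f k).2
      have m2 := Kum3.Z_mem x b 0 (p * (d' + 1 - u J))
      have m3 : ∏ i, b i ^ (ex J i : ℕ) ∈ Wsp x b 0 (p * u J) :=
        Submodule.subset_span ⟨0, le_rfl, fun i => ex J i, hsum J, by simp⟩
      have m4 := mul_mem_Wsp x b m1 (mul_mem_Wsp x b m2 m3)
      rw [← mul_add, ← mul_add, Nat.sub_add_cancel (hu J), pow_mul] at m4
      exact m4) : Submodule.span ℂ (Set.range fun t : Fin (Module.finrank ℂ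
        (Wsp x (fun i => b i ^ p) a E)) × (Fin d' → Fin p) =>
      (⟨f t.1, kum4_Wsp_mem hx hZF (f t.1).2⟩ : F) •
        (((fun J => Units.mk0 _ (hw J)) • ((fun J : Fin (d' + 1) → Fin p => ∏ i, b i ^ (J i : ℕ)) ∘ ex))
          t.2)) ≤ _)
  rw [finrank_span_eq_card hli, Fintype.card_prod, Fintype.card_fin, Fintype.card_fun,
    Fintype.card_fin, Fintype.card_fin] at hle
  rw [Nat.add_sub_cancel]
  calc _ ≤ p ^ d' * (2 * Module.finrank ℂ (Wsp x (fun i => b i ^ p) a E)) :=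
        Nat.mul_le_mul_left _ hs
    _ = 2 * (Module.finrank ℂ (Wsp x (fun i => b i ^ p) a E) * p ^ d') := by ring
    _ ≤ _ := Nat.mul_le_mul_left _ hle

end Crest.Agent.R22
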