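import Crest.Agent.R22.Surf
import Crest.Agent.R22.Surf4
import Crest.Agent.R22.Geo
import Crest.Agent.R22.CurveThm
import Crest.Agent.R22.Rat

namespace Crest.Agent.R22

open Polynomial
open scoped Polynomial.Bivariate

variable {d : ℕ}

theorem HL.mono {Ω : Type} [Field Ω] [Algebra ℂ Ω] {x : Ω} {b : Fin d → Ω} {cx cg CH cx' cg' CH' : ℕ}
    (h : HL x b cx cg CH) (hx : cx' ≤ cx) (hg : cg' ≤ cg) (hC : CH ≤ CH') : HL x b cx' cg' CH' := by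
  intro a E ha hE
  have := h a E (le_trans hC ha) (le_trans hC hE)
  have h1 : cx' * a ≤ cx * a := Nat.mul_le_mul_right _ hx
  have h2 : cg' * E ≤ cg * E := Nat.mul_le_mul_right _ hg
  omega

/-- Change of variables `u = r x - σ0`, `ε = 1 / n`: `gh' = reflect c2` of `gh` with the coefficients composed with
`(X + σ0) / r`. -/
theorem exists_chart_poly (gh : ℂ[X][Y]) (hg : gh ≠ 0) (c2 δ : ℕ) (h2 : gh.natDegree ≤ c2)
    (hδ : ∀ j, (gh.coeff j).natDegree ≤ δ) (r σ0 : ℂ) (hr : r ≠ 0) : ∃ gh' : ℂ[X][Y], gh' ≠ 0 ∧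
      gh'.natDegree ≤ c2 ∧ (∀ j, (gh'.coeff j).natDegree ≤ δ) ∧
      ∀ x n : ℂ, n ≠ 0 → gh.evalEval x n = 0 → gh'.evalEval (r * x - σ0) n⁻¹ = 0 := by
  classical
  set φ : ℂ[X] →+* ℂ[X] := eval₂RingHom C (C r⁻¹ * (X + C σ0)) with hφ
  have hφe : ∀ (P : ℂ[X]) (x : ℂ), (φ P).eval (r * x - σ0) = P.eval x := by
    intro P x
    have : φ P = P.comp (C r⁻¹ * (X + C σ0)) := rfl
    rw [this, eval_comp]
    congr 1
    simp only [eval_mul, eval_C, eval_add, eval_X]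
    field_simp
    ring
  have hφinj : ∀ P : ℂ[X], φ P = 0 → P = 0 := by
    intro P hP
    apply Polynomial.funext
    intro x
    rw [← hφe P x, hP]; simp
  have hφdeg : ∀ P : ℂ[X], (φ P).natDegree ≤ P.natDegree := by
    intro P
    have : φ P = P.comp (C r⁻¹ * (X + C σ0)) := rfl
    rw [this]
    refine le_trans natDegree_comp_le ?_
    have : (C r⁻¹ * (X + C σ0) : ℂ[X]).natDegree ≤ 1 := by compute_degree
    calc _ ≤ P.natDegree * 1 := Nat.mul_le_mul_left _ this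
      _ = _ := mul_one _
  have hmapdeg : (gh.map φ).natDegree ≤ c2 := le_trans natDegree_map_le h2
  refine ⟨reflect c2 (gh.map φ), ?_, ?_, ?_, ?_⟩
  · rw [Ne, reflect_eq_zero_iff]
    intro h0
    apply hg
    ext1 j
    have := congrArg (fun P => coeff P j) h0
    simp only [coeff_map, coeff_zero] at this
    simpa using hφinj _ this
  · rw [natDegree_le_iff_coeff_eq_zero]
    intro j hj
    rw [coeff_reflect, revAt_eq_self_of_lt hj]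
    exact coeff_eq_zero_of_natDegree_lt (lt_of_le_of_lt hmapdeg hj)
  · intro j
    rw [coeff_reflect, coeff_map]
    exact le_trans (hφdeg _) (hδ _)
  · intro x n hn h0
    have e1 : ∀ (P : ℂ[X][Y]) (u v : ℂ), P.evalEval u v = eval₂ (evalRingHom u) v P := by
      intro P u v
      rw [← eval₂_evalRingHom]
    rw [e1] at h0 ⊢
    haveI : Invertible n := invertibleOfNonzero hn
    have key := eval₂_reflect_eq_zero_iff (evalRingHom (r * x - σ0)) n c2 (gh.map φ) hmapdeg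
    rw [invOf_eq_inv] at key
    rw [key, eval₂_map]
    have : (evalRingHom (r * x - σ0)).comp φ = evalRingHom x := by
      apply RingHom.ext
      intro P
      simpa using hφe P x
    rw [this]; exact h0

/-- `NF.surf` with `(p, q, a1, e') = (1, d - 2, 0, 1)` and `B = C X^π`; on a curve: `const_curve` if `x` is algebraic,
otherwise `beta_deg`, then `rat_curve` (`ω = π`, `Cx = s1`) or `curve_thm` with `appr_trivial` (`g = α` on `S`;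
`LineCfg.mono`, `SolSet.mono`). -/
theorem NF.line_beta (N : NF d) (cg wn wd : ℕ) (hwd : 1 ≤ wd) (hcg1 : 1 ≤ cg)
    (hcg : ∀ g2, (d - 2) * (d - 2) ≤ 2 * g2 → cg ≤ 2 * g2) (c c' s1 s2 m π : ℝ) (hc : 0 < c)
    (hc8 : c ≤ 1 / 8) (hc' : 0 < c') (hs1 : 0 ≤ s1) (hs2 : 0 < s2) (hm : 0 < m) (hm1 : m ≤ 1)
    (hπ : 0 < π) (hS : SurfIneq d 1 (d - 2) 0 1 s1 s2 m)
    (hC : CurveIneq 1 (d - 2) 2 cg ((wn : ℝ) / wd) s1 s2 0 1 π) :
    ∃ C X0 : ℝ, 0 ≤ C ∧ ∀ X ≥ X0, ∀ (μ : ℤ) (S : Finset ℤ) (α β : ℤ → Fin d → ℤ) (pr : ℤ → ℕ)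
    (e1 e2 : Fin d → ℤ) (l1 l2 : ℤ → ℤ), SolSet N c X μ S α β pr →
    LineCfg N 1 (d - 2) c' X s1 s2 μ e1 e2 S l1 l2 α → (∀ n ∈ S, β n = l1 n • e1 + l2 n • e2) →
    (S.card : ℝ) ≤ C * X ^ (m + π) := by
  obtain ⟨C0, C1, X1, hC1, hsurf⟩ := N.surf 1 (d - 2) 0 1 le_rfl le_rfl s1 s2 hc' hs1 hs2 hm hm1 hS
  obtain ⟨C2, hC2, hconst⟩ := N.const_curve hc hc8
  obtain ⟨C3, X3, hC3, hrat⟩ := N.rat_curve 1 (d - 2) C0 1 le_rfl c c' s1 π hc hc8 hπ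
  obtain ⟨a0, b0, T0, hcur⟩ := N.curve_thm 1 (d - 2) C0 2 cg (3 * cg + 2) wn wd le_rfl hwd
    (by norm_num) hcg1 c' s1 s2 0 1 0 π hc' le_rfl one_pos le_rfl hπ hC
  obtain ⟨C4, X4, hC4, hcur⟩ := hcur 1
  refine ⟨C1 * (C2 + C3 + C4), max (max X1 X3) (max X4 1), by positivity, ?_⟩
  intro X hX μ S α β pr e1 e2 l1 l2 hsol hL hβ
  have hX1 : X1 ≤ X := le_trans (le_trans (le_max_left _ _) (le_max_left _ _)) hX
  have hX3 : X3 ≤ X := le_trans (le_trans (le_max_right _ _) (le_max_left _ _)) hX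
  have hX4 : X4 ≤ X := le_trans (le_trans (le_max_left _ _) (le_max_right _ _)) hX
  have hX0 : 1 ≤ X := le_trans (le_trans (le_max_right _ _) (le_max_right _ _)) hX
  have hXπ : 1 ≤ X ^ π := Real.one_le_rpow hX0 hπ.le
  have key := hsurf X hX1 μ e1 e2 S l1 l2 α hL ((C2 + C3 + C4) * X ^ π) (by positivity) ?_
  · rw [Real.rpow_add (by linarith)]
    calc _ ≤ _ := key
      _ = _ := by ring
  rintro T hT - ⟨Ω, _, _, x, nn, b, κ, hcv⟩
  have hside : (∀ n ∈ T, β n = l1 n • e1 + l2 n • e2 ∧ α n = α n) ∨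
      (∀ n ∈ T, α n = l1 n • e1 + l2 n • e2 ∧ β n = α n) :=
    Or.inl fun n hn => ⟨hβ n (hT hn), rfl⟩
  by_cases hx : Transcendental ℂ x
  · rcases N.beta_deg (d - 2) cg hcg C0 c' X s1 s2 μ e1 e2 T l1 l2 α (hL.mono hT) Ω x nn b κ hcv hx
      with h | h
    · have := hrat X hX3 s1 s2 μ T α β pr e1 e2 l1 l2 α (hsol.mono hT) (hL.mono hT) hside Ω x nn b κ
        hcv hx h
      nlinarith
    · have := hcur X hX4 μ e1 e2 T l1 l2 α (hL.mono hT) Ω x nn b κ hcv hx h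
        ((hL.mono hT).appr_trivial hX0 a0 b0 T0)
      nlinarith
  · have := hconst X hX0 1 (d - 2) C0 c' s1 s2 μ T α β pr e1 e2 l1 l2 α (hsol.mono hT) (hL.mono hT)
      hside Ω x nn b κ hcv (not_not.mp hx)
    nlinarith

/-- `d = 4`, any line: `surf4`, `beta_deg4`; in the non-rational cases `HL x b 2 6 26` (`HL.mono`). -/
theorem NF.line_beta4 (N : NF 4) (wn wd : ℕ) (hwd : 1 ≤ wd) (c c' s1 s2 Hh m π : ℝ) (hc : 0 < c)
    (hc8 : c ≤ 1 / 8) (hc' : 0 < c') (hH : 0 ≤ Hh) (hσ : Hh / 3 < s2) (hm : 0 < m) (hm1 : m ≤ 1)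
    (hπ : 0 < π) (hS : 9 / 16 * (s2 - Hh / 3) ^ 2 < m)
    (hC : CurveIneq 1 2 2 6 ((wn : ℝ) / wd) s1 s2 0 1 π) :
    ∃ C X0 : ℝ, 0 ≤ C ∧ ∀ X ≥ X0, ∀ (μ : ℤ) (S : Finset ℤ) (α β : ℤ → Fin 4 → ℤ) (pr : ℤ → ℕ)
    (e1 e2 : Fin 4 → ℤ) (l1 l2 : ℤ → ℤ), SolSet N c X μ S α β pr →
    LineCfg N 1 2 c' X s1 s2 μ e1 e2 S l1 l2 α → (∀ n ∈ S, β n = l1 n • e1 + l2 n • e2) →
    (∃ u : Fin 4 → Fin 4 → ℤ, ∑ s, ∑ t, u s t * minor e1 e2 s t = 1) →
    (∃ s t, ‖e1‖ * ‖e2‖ ≤ 2 * |(minor e1 e2 s t : ℝ)|) → X ^ Hh ≤ ‖e1‖ * ‖e2‖ →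
    (S.card : ℝ) ≤ C * X ^ (m + π) := by
  obtain ⟨C0, C1, X1, hC1, hsurf⟩ := N.surf4 s1 s2 Hh hc' hH hσ hm hm1 hS
  obtain ⟨C2, hC2, hconst⟩ := N.const_curve hc hc8
  obtain ⟨Cx, hdeg⟩ := N.beta_deg4
  obtain ⟨C3, X3, hC3, hrat⟩ := N.rat_curve 1 2 C0 5 le_rfl c c' (max s1 1 * Cx) π hc hc8 hπ
  obtain ⟨a0, b0, T0, hcur⟩ := N.curve_thm 1 2 C0 2 6 26 wn wd le_rfl hwd
    (by norm_num) (by norm_num) c' s1 s2 0 1 0 π hc' le_rfl one_pos le_rfl hπ hC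
  obtain ⟨C4, X4, hC4, hcur⟩ := hcur 1
  refine ⟨C1 * (C2 + C3 + C4), max (max X1 X3) (max X4 2), by positivity, ?_⟩
  intro X hX μ S α β pr e1 e2 l1 l2 hsol hL hβ hgcd hbig hHh
  have hX1 : X1 ≤ X := le_trans (le_trans (le_max_left _ _) (le_max_left _ _)) hX
  have hX3 : X3 ≤ X := le_trans (le_trans (le_max_right _ _) (le_max_left _ _)) hX
  have hX4 : X4 ≤ X := le_trans (le_trans (le_max_left _ _) (le_max_right _ _)) hX
  have hX2 : 2 ≤ X := le_trans (le_trans (le_max_right _ _) (le_max_right _ _)) hX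
  have hX0 : 1 ≤ X := by linarith
  have hXπ : 1 ≤ X ^ π := Real.one_le_rpow hX0 hπ.le
  have key := hsurf X hX1 μ e1 e2 S l1 l2 α hL hgcd hbig hHh ((C2 + C3 + C4) * X ^ π)
    (by positivity) ?_
  · rw [Real.rpow_add (by linarith)]
    calc _ ≤ _ := key
      _ = _ := by ring
  rintro T hT - ⟨Ω, _, _, x, nn, b, κ, hcv⟩
  have hside : (∀ n ∈ T, β n = l1 n • e1 + l2 n • e2 ∧ α n = α n) ∨
      (∀ n ∈ T, α n = l1 n • e1 + l2 n • e2 ∧ β n = α n) :=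
    Or.inl fun n hn => ⟨hβ n (hT hn), rfl⟩
  have hY1 : X ≤ X ^ max s1 1 := by
    calc X = X ^ (1 : ℝ) := (Real.rpow_one X).symm
      _ ≤ _ := Real.rpow_le_rpow_of_exponent_le hX0 (le_max_right _ _)
  have hY2 : X ^ s1 ≤ X ^ max s1 1 := Real.rpow_le_rpow_of_exponent_le hX0 (le_max_left _ _)
  by_cases hx : Transcendental ℂ x
  · have hHL : HL x b 2 6 26 → (T.card : ℝ) ≤ (C2 + C3 + C4) * X ^ π := by
      intro h
      have := hcur X hX4 μ e1 e2 T l1 l2 α (hL.mono hT) Ω x nn b κ hcv hx h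
        ((hL.mono hT).appr_trivial hX0 a0 b0 T0)
      nlinarith
    rcases hdeg C0 c' X s1 s2 μ e1 e2 T l1 l2 α (hL.mono hT) Ω x nn b κ hcv hx (X ^ max s1 1) hX2
      hY1 hY2 with h | h | ⟨c1, hc1, h, -⟩
    · rw [← Real.rpow_mul (by linarith)] at h
      have := hrat X hX3 s1 s2 μ T α β pr e1 e2 l1 l2 α (hsol.mono hT) (hL.mono hT) hside Ω x nn b κ
        hcv hx h
      nlinarith
    · exact hHL (h.mono le_rfl (by norm_num) le_rfl)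
    · exact hHL (h.mono le_rfl (by omega) (by omega))
  · have := hconst X hX0 1 2 C0 c' s1 s2 μ T α β pr e1 e2 l1 l2 α (hsol.mono hT) (hL.mono hT)
      hside Ω x nn b κ hcv (not_not.mp hx)
    nlinarith

end Crest.Agent.R22
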