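import Crest.Agent.R22.Surf
import Crest.Agent.R22.Surf4
import Crest.Agent.R22.Geo
import Crest.Agent.R22.CurveThm
import Crest.Agent.R22.Rat
import Crest.Agent.R22.LineB1

namespace Crest.Agent.R22

open Polynomial
open scoped Polynomial.Bivariate

variable {d : ℕ}

/-- `d = 4`, separated lines.  On a curve inside a box: `HL 2 8`: `curve_thm` with `appr_trivial`.  `c1 = 7`:
`sigma_chart` (`p = 1`, so `cls n = 1` and `ζ = 1`, `T = S`), `all_appr` with `U = 1`, `exists_chart_poly`, `appr_alg`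
(`δ = 11`, `c2 = 2`), `curve_thm` with `ϖ = 1`, `Γ = 11 + 2 / m`, `Γ0 = 24 + 2 / m`.  `c1 = 6`: `geo_chart` with
`η = X^(-g0)`, `all_appr`, `appr_geo` (`δ = 10`, `κ = 24 g0`; `‖u‖ ≤ K X^(-m) ≤ K`), `curve_thm` with `ϖ = 1 - 24 g0`,
`Γ = Γ0 = 10`. -/
theorem NF.line_beta4_sep (N : NF 4) (c c' s1 s2 Hh m π g0 : ℝ) (hc : 0 < c)
    (hc8 : c ≤ 1 / 8) (hc' : 0 < c') (hH : 0 ≤ Hh) (hσ : Hh / 3 < s2) (hm : 0 < m) (hm1 : m ≤ 1)
    (hπ : 0 < π) (hg0 : 0 ≤ g0) (hg1 : 24 * g0 ≤ 1) (hS : 9 / 16 * (s2 - Hh / 3) ^ 2 < m)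
    (hC8 : CurveIneq 1 2 2 8 1 s1 s2 0 1 π)
    (hC7 : CurveIneq 1 2 2 7 (6 / 5) s1 s2 1 (11 + 2 / m) π)
    (hC6 : CurveIneq 1 2 2 6 4 s1 s2 (1 - 24 * g0) 10 π) :
    ∃ C X0 : ℝ, 0 ≤ C ∧ ∀ X ≥ X0, ∀ (μ : ℤ) (S : Finset ℤ) (α β : ℤ → Fin 4 → ℤ) (pr : ℤ → ℕ)
    (e1 e2 : Fin 4 → ℤ) (l1 l2 : ℤ → ℤ), SolSet N c X μ S α β pr →
    LineCfg N 1 2 c' X s1 s2 μ e1 e2 S l1 l2 α → (∀ n ∈ S, β n = l1 n • e1 + l2 n • e2) →
    (∃ u : Fin 4 → Fin 4 → ℤ, ∑ s, ∑ t, u s t * minor e1 e2 s t = 1) →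
    (∃ s t, ‖e1‖ * ‖e2‖ ≤ 2 * |(minor e1 e2 s t : ℝ)|) → X ^ Hh ≤ ‖e1‖ * ‖e2‖ →
    Sep N (X ^ (-g0)) e1 e2 → (S.card : ℝ) ≤ C * X ^ (m + π) := by
  obtain ⟨C0, C1, X1, hC1, hsurf⟩ := N.surf4 s1 s2 Hh hc' hH hσ hm hm1 hS
  obtain ⟨C2, hC2, hconst⟩ := N.const_curve hc hc8
  obtain ⟨Cx, hdeg⟩ := N.beta_deg4
  obtain ⟨C3, X3, hC3, hrat⟩ := N.rat_curve 1 2 C0 5 le_rfl c c' (max s1 1 * Cx) π hc hc8 hπ
  -- `(2, 8)`
  obtain ⟨a8, b8, T8, hcur8⟩ := N.curve_thm 1 2 C0 2 8 26 1 1 le_rfl le_rfl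
    (by norm_num) (by norm_num) c' s1 s2 0 1 0 π hc' le_rfl one_pos le_rfl hπ (by simpa using hC8)
  obtain ⟨C8, X8, hC8', hcur8⟩ := hcur8 1
  -- `(2, 7)`
  obtain ⟨a7, b7, T7, hcur7⟩ := N.curve_thm 1 2 C0 2 7 23 6 5 le_rfl (by norm_num)
    (by norm_num) (by norm_num) c' s1 s2 1 (11 + 2 / m) (22 + 2 / m + 2) π hc' zero_le_one
    (by positivity) (by positivity) hπ (by simpa using hC7)
  obtain ⟨K7, Y7, hK7, hch7⟩ := N.sigma_chart 1 2 le_rfl hc' hm hm1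
  obtain ⟨D7, E7, Z7, hE7, hap7⟩ := N.all_appr 1 2 a7 b7 T7 le_rfl K7 1 m hK7 hm hm1
  obtain ⟨Cap7, halg⟩ := appr_alg (d := 4) 11 2 a7 b7 T7 D7 K7 E7 m hK7 hE7 hm
  obtain ⟨C7, X7, hC7', hcur7⟩ := hcur7 Cap7
  -- `(2, 6)`
  obtain ⟨a6, b6, T6, hcur6⟩ := N.curve_thm 1 2 C0 2 6 20 4 1 le_rfl le_rfl
    (by norm_num) (by norm_num) c' s1 s2 (1 - 24 * g0) 10 10 π hc' (by linarith)
    (by norm_num) (by norm_num) hπ (by simpa using hC6)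
  obtain ⟨K6, Y6, hK6, hch6⟩ := N.geo_chart hc' hm hm1
  obtain ⟨D6, E6, Z6, hE6, hap6⟩ := N.all_appr 1 2 a6 b6 T6 le_rfl K6 1 m hK6 hm hm1
  obtain ⟨Cap6, hgeo⟩ := appr_geo (d := 4) 10 a6 b6 T6 D6 K6 E6 (24 * g0) hK6 hE6 (by positivity) hg1
  obtain ⟨C6, X6, hC6', hcur6⟩ := hcur6 Cap6
  obtain ⟨X0, hX0b⟩ : ∃ X0 : ℝ, ∀ X ≥ X0, X1 ≤ X ∧ X3 ≤ X ∧ X8 ≤ X ∧ Y7 ≤ X ∧ Z7 ≤ X ∧ X7 ≤ X ∧
      Y6 ≤ X ∧ Z6 ≤ X ∧ X6 ≤ X ∧ 2 ≤ X := by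
    refine ⟨max X1 (max X3 (max X8 (max Y7 (max Z7 (max X7 (max Y6 (max Z6 (max X6 2)))))))), ?_⟩
    intro X hX
    simpa only [ge_iff_le, max_le_iff] using hX
  refine ⟨C1 * (C2 + C3 + C8 + C7 + C6), X0, by positivity, ?_⟩
  intro X hX μ S α β pr e1 e2 l1 l2 hsol hL hβ hgcd hbig hHh hsep
  obtain ⟨hX1, hX3, hX8, hY7, hZ7, hX7, hY6, hZ6, hX6, hX2⟩ := hX0b X hX
  have hX0 : 1 ≤ X := by linarith
  have hXπ : 1 ≤ X ^ π := Real.one_le_rpow hX0 hπ.le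
  have key := hsurf X hX1 μ e1 e2 S l1 l2 α hL hgcd hbig hHh ((C2 + C3 + C8 + C7 + C6) * X ^ π)
    (by positivity) ?_
  · rw [Real.rpow_add (by linarith)]
    calc _ ≤ _ := key
      _ = _ := by ring
  rintro T hT hdiam ⟨Ω, _, _, x, nn, b, κ, hcv⟩
  have hside : (∀ n ∈ T, β n = l1 n • e1 + l2 n • e2 ∧ α n = α n) ∨
      (∀ n ∈ T, α n = l1 n • e1 + l2 n • e2 ∧ β n = α n) :=
    Or.inl fun n hn => ⟨hβ n (hT hn), rfl⟩
  have hY1 : X ≤ X ^ max s1 1 := by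
    calc X = X ^ (1 : ℝ) := (Real.rpow_one X).symm
      _ ≤ _ := Real.rpow_le_rpow_of_exponent_le hX0 (le_max_right _ _)
  have hY2 : X ^ s1 ≤ X ^ max s1 1 := Real.rpow_le_rpow_of_exponent_le hX0 (le_max_left _ _)
  have hU : ∀ s t : Fin 4, |(((1 : Matrix (Fin 4) (Fin 4) ℤ) s t : ℤ) : ℝ)| ≤ 1 := by
    intro s t
    rw [Matrix.one_apply]
    split_ifs <;> simp
  have hLT := hL.mono hT
  by_cases hx : Transcendental ℂ x
  · rcases hdeg C0 c' X s1 s2 μ e1 e2 T l1 l2 α hLT Ω x nn b κ hcv hx (X ^ max s1 1) hX2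
      hY1 hY2 with h | h | ⟨c1, hc1, h, gh, hg, hgd, hgc, hgz, hdv1, hdv2⟩
    · rw [← Real.rpow_mul (by linarith)] at h
      have := hrat X hX3 s1 s2 μ T α β pr e1 e2 l1 l2 α (hsol.mono hT) hLT hside Ω x nn b κ
        hcv hx h
      nlinarith
    · have := hcur8 X hX8 μ e1 e2 T l1 l2 α hLT Ω x nn b κ hcv hx h
        (hLT.appr_trivial hX0 a8 b8 T8)
      nlinarith
    · rcases hc1 with rfl | rfl
      · have hη0 : 0 < X ^ (-g0) := Real.rpow_pos_of_pos (by linarith) _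
        have hη1 : X ^ (-g0) ≤ 1 := Real.rpow_le_one_of_one_le_of_nonpos hX0 (by linarith)
        obtain ⟨u, ν, κ', A, W, r1, r2, a1, a1', a2, a2', h2, h1, h0, hch, hmon, hd2, hd1, hd0, hb2,
          hb1, hz⟩ := hch6 X hY6 s1 s2 (X ^ (-g0)) μ e1 e2 T l1 l2 α hLT hdiam hη0 hη1 hsep gh hg hgd
            hgc hgz hdv1 hdv2
        have hall := hap6 X hZ6 s1 s2 T l1 l2 α u ν κ' A W r1 r2 a1 a1' a2 a2' hch 1 hU
        have hpow : (X ^ (-g0))⁻¹ ^ 24 = X ^ (24 * g0) := by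
          rw [Real.rpow_neg (by linarith), inv_inv, mul_comm, Real.rpow_mul (by linarith)]
          norm_num
        rw [hpow] at hb1
        have hXm : X ^ (-m) ≤ 1 := Real.rpow_le_one_of_one_le_of_nonpos hX0 (by linarith)
        have happ := hgeo X hX0 s1 s2 T l1 l2 α u (fun n hn => ⟨hch.rng n hn,
          le_trans (hch.usz n hn) (by nlinarith)⟩) hall h2 h1 h0 hmon hd2 hd1 hd0 hb2 hb1 hz
        have := hcur6 X hX6 μ e1 e2 T l1 l2 α hLT Ω x nn b κ hcv hx h (by simpa using happ)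
        nlinarith
      · obtain ⟨u, ν, κ', A, W0, r1, r2, a1, a1', a2, a2', r, σ0, cls, hr, hu, hcls, hch⟩ :=
          hch7 X hY7 s1 s2 μ e1 e2 T l1 l2 α hLT hdiam
        have hch := hch (fun _ => 1) T (Finset.Subset.refl _) (by simp) (fun n hn => by
          funext i; simpa using hcls n hn i)
        have hall := hap7 X hZ7 s1 s2 T l1 l2 α u ν κ' A _ r1 r2 a1 a1' a2 a2' hch 1 hU
        obtain ⟨gh', hg', hgd', hgc', hgz'⟩ := exists_chart_poly gh hg 2 11 hgd hgc r σ0 hr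
        have happ := halg X hX0 s1 s2 T l1 l2 α u (fun n hn => ⟨hch.rng n hn, hch.usz n hn⟩) hall gh'
          hg' hgd' hgc' (fun n hn => by
            rw [hu n hn]
            refine hgz' _ _ ?_ (hgz n hn)
            have := (hLT.rng n hn).1
            intro h0
            have h0' : n = 0 := by exact_mod_cast h0
            rw [h0'] at this
            simp at this
            linarith)
        have happ' : ApprHyp T l1 l2 α X s1 s2 1 (11 + 2 / m) (22 + 2 / m + 2) a7 b7 T7 Cap7 := by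
          convert happ using 2 <;> norm_num
        have := hcur7 X hX7 μ e1 e2 T l1 l2 α hLT Ω x nn b κ hcv hx h happ'
        nlinarith
  · have := hconst X hX0 1 2 C0 c' s1 s2 μ T α β pr e1 e2 l1 l2 α (hsol.mono hT) hLT
      hside Ω x nn b κ hcv (not_not.mp hx)
    nlinarith

end Crest.Agent.R22
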