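import Crest.Agent.R22.Defs

namespace Crest.Agent.R22

variable {d : ℕ}

theorem ln_abs_le (a : Fin d → ℤ) (s : Fin d) : |(a s : ℝ)| ≤ ‖a‖ := by
  have h := norm_le_pi_norm a s
  rwa [Int.norm_eq_abs] at h

theorem ln_exists_max (a : Fin d → ℤ) (s₁ : Fin d) : ∃ s, |(a s : ℝ)| = ‖a‖ := by
  obtain ⟨s, -, hs⟩ := Finset.exists_max_image Finset.univ (fun s => |(a s : ℝ)|)
    ⟨s₁, Finset.mem_univ _⟩
  refine ⟨s, le_antisymm (ln_abs_le a s) ((pi_norm_le_iff_of_nonneg (abs_nonneg _)).2 fun t => ?_)⟩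
  rw [Int.norm_eq_abs]
  exact hs t (Finset.mem_univ _)

end Crest.Agent.R22
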