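import Crest.Agent.R22.NFBasic
import Crest.Agent.R22.Lines1Aux

namespace Crest.Agent.R22

variable {d : ℕ}

/-- simultaneous pigeonhole -/
theorem ln1_pigeon (η : Fin d → ℤ) (s₀ : Fin d) (h0 : η s₀ ≠ 0) {Q : ℕ} (hQ : 0 < Q) :
    ∃ f : Fin d → ℤ, 0 < f s₀ ∧ f s₀ ≤ Q ^ (d - 1) ∧
      ∀ t, |f s₀ * η t - f t * η s₀| * Q ≤ |η s₀| := by
  classical
  set h := |η s₀| with hh
  have hpos : 0 < h := abs_pos.2 h0
  have hQ' : (0 : ℤ) < Q := by exact_mod_cast hQ
  let B : Fin d → Finset ℤ := fun t => if t = s₀ then {0} else Finset.Ico 0 Q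
  have hcard : (Fintype.piFinset B).card < (Finset.range (Q ^ (d - 1) + 1)).card := by
    rw [Fintype.card_piFinset, Finset.card_range,
      ← Finset.mul_prod_erase _ _ (Finset.mem_univ s₀),
      Finset.prod_congr rfl (g := fun _ => Q) fun t ht => by
        simp [B, Finset.ne_of_mem_erase ht]]
    simp [B]
  have hmap : Set.MapsTo (fun (j : ℕ) (t : Fin d) => (j * η t % h) * Q / h)
      (Finset.range (Q ^ (d - 1) + 1) : Finset ℕ) (Fintype.piFinset B : Finset (Fin d → ℤ)) := by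
    intro j _
    rw [Finset.mem_coe, Fintype.mem_piFinset]
    intro t
    by_cases ht : t = s₀
    · subst ht
      have : (j : ℤ) * η t % h = 0 :=
        Int.emod_eq_zero_of_dvd (Dvd.dvd.mul_left ((abs_dvd _ _).2 dvd_rfl) _)
      simp [B, this]
    · have h1 := Int.emod_nonneg ((j : ℤ) * η t) hpos.ne'
      have h2 := Int.emod_lt_of_pos ((j : ℤ) * η t) hpos
      simp only [B, if_neg ht, Finset.mem_Ico]
      refine ⟨Int.ediv_nonneg (by positivity) hpos.le, Int.ediv_lt_of_lt_mul hpos ?_⟩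
      rw [mul_comm (Q : ℤ)]
      exact mul_lt_mul_of_pos_right h2 hQ'
  have key : ∀ j j' : ℕ, j < j' → j' < Q ^ (d - 1) + 1 →
      (∀ t, (j * η t % h) * Q / h = (j' * η t % h) * Q / h) →
      ∃ f : Fin d → ℤ, 0 < f s₀ ∧ f s₀ ≤ Q ^ (d - 1) ∧
        ∀ t, |f s₀ * η t - f t * η s₀| * Q ≤ h := by
    intro j j' hjj hj' he
    have h1 : ∀ t, ∃ c : ℤ, ((j' : ℤ) - j) * η t - (j' * η t % h - j * η t % h) = η s₀ * c := by
      intro t
      refine (abs_dvd _ _).1 ?_
      have a1 := Int.emod_add_mul_ediv ((j : ℤ) * η t) h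
      have a2 := Int.emod_add_mul_ediv ((j' : ℤ) * η t) h
      exact ⟨j' * η t / h - j * η t / h, by rw [← hh]; linear_combination a1 - a2⟩
    choose f hf using h1
    have hz : ∀ i : ℕ, (i : ℤ) * η s₀ % h = 0 := fun i =>
      Int.emod_eq_zero_of_dvd (Dvd.dvd.mul_left ((abs_dvd _ _).2 dvd_rfl) _)
    have h2 : f s₀ = (j' : ℤ) - j := by
      have := hf s₀
      rw [hz, hz] at this
      exact mul_left_cancel₀ h0 (by linear_combination -this)
    refine ⟨f, by rw [h2]; omega, ?_, fun t => ?_⟩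
    · rw [h2]
      have : (j' : ℤ) < (Q ^ (d - 1) + 1 : ℕ) := by exact_mod_cast hj'
      push_cast at this
      omega
    · have e : f s₀ * η t - f t * η s₀ = j' * η t % h - j * η t % h := by
        rw [h2]
        linear_combination hf t
      have a1 := Int.emod_add_mul_ediv ((j * η t % h) * Q) h
      have a2 := Int.emod_add_mul_ediv ((j' * η t % h) * Q) h
      have b1 := Int.emod_nonneg ((j * η t % h) * Q) hpos.ne'
      have b2 := Int.emod_nonneg ((j' * η t % h) * Q) hpos.ne'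
      have c1 := Int.emod_lt_of_pos ((j * η t % h) * Q) hpos
      have c2 := Int.emod_lt_of_pos ((j' * η t % h) * Q) hpos
      rw [he t] at a1
      rw [e, ← abs_of_pos hQ', ← abs_mul, sub_mul]
      exact abs_le.2 ⟨by linarith, by linarith⟩
  obtain ⟨j, hj, j', hj', hne, he⟩ := Finset.exists_ne_map_eq_of_card_lt_of_maps_to hcard hmap
  rcases lt_or_gt_of_ne hne with hlt | hlt
  · exact key j j' hlt (Finset.mem_range.1 hj') (congrFun he)
  · exact key j' j hlt (Finset.mem_range.1 hj) (congrFun he.symm)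

/-- Dirichlet.  Let `s0` be a coordinate with `|η s0| = ‖η‖ = h`.  If `h < 2^d`, take for `f` a unit vector
not parallel to `η` (if `η = ± e_s`, another unit vector; `d ≥ 2`): minors `≤ h ≤ 2^d`.  Otherwise let
`Q = ⌈h^(1/(d-1))⌉ - 1 ≥ h^(1/(d-1)) / 2`, so `Q^(d-1) < h`; pigeonhole on the fractional parts of
`(j η t / η s0)_{t ≠ s0}`, `0 ≤ j ≤ Q^(d-1)`, gives `0 < f s0 ≤ Q^(d-1) < h` and integers `f t` with
`|f s0 η t - f t η s0| ≤ h / Q`.  The other minors are `≤ 2 h / Q`
(`η s0 * minor f η t t' = η t' * minor f η t s0 - η t * minor f η t' s0`).  Not all minors vanish: else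
`f` is an integer multiple of the primitive `η`, but `0 < |f s0| < |η s0|`. -/
theorem exists_small_minor (hd : 2 ≤ d) : ∃ C : ℝ, 1 ≤ C ∧ ∀ η : Fin d → ℤ, Prim η →
    ∃ f : Fin d → ℤ, (∃ s t, minor η f s t ≠ 0) ∧
      ∀ s t, |(minor η f s t : ℝ)| ≤ C * ‖η‖ ^ (((d : ℝ) - 2) / ((d : ℝ) - 1)) := by
  refine ⟨4, by norm_num, fun η hη => ?_⟩
  obtain ⟨u, hu⟩ := hη
  obtain ⟨s₀, hs₀⟩ := ln_exists_max η ⟨0, by omega⟩
  have h0 : η s₀ ≠ 0 := by
    intro h
    rw [h, Int.cast_zero, abs_zero, eq_comm, norm_eq_zero] at hs₀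
    simp [hs₀] at hu
  have hle : ∀ t, |η t| ≤ |η s₀| := fun t => by
    have := ln_abs_le η t
    rw [← hs₀] at this
    exact_mod_cast this
  have hd1 : (0 : ℝ) < (d : ℝ) - 1 := by
    have : (2 : ℝ) ≤ d := by exact_mod_cast hd
    linarith
  rcases (Int.one_le_abs h0).eq_or_lt with h1 | h1
  · have : Nontrivial (Fin d) := Fin.nontrivial_iff_two_le.2 hd
    obtain ⟨t₀, ht₀⟩ := exists_ne s₀
    refine ⟨Pi.single t₀ 1, ⟨s₀, t₀, by simpa [minor, ht₀.symm] using h0⟩, fun s t => ?_⟩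
    have hn : ‖η‖ = 1 := by
      rw [← hs₀]
      exact_mod_cast h1.symm
    rw [hn, Real.one_rpow]
    have h2 : ∀ s t, |η s * (Pi.single t₀ 1 : Fin d → ℤ) t| ≤ 1 := fun s t => by
      by_cases ht : t = t₀
      · subst ht
        simpa using (hle s).trans h1.ge
      · simp [ht]
    have h3 : |minor η (Pi.single t₀ 1) s t| ≤ 4 := by
      have := abs_sub (η s * (Pi.single t₀ 1 : Fin d → ℤ) t) (η t * (Pi.single t₀ 1 : Fin d → ℤ) s)
      unfold minor
      linarith [h2 s t, h2 t s]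
    rw [mul_one]
    exact_mod_cast h3
  · have hn : 1 < ‖η‖ := by
      rw [← hs₀]
      exact_mod_cast h1
    set x : ℝ := ‖η‖ ^ (1 / ((d : ℝ) - 1)) with hx
    have hx1 : 1 < x := Real.one_lt_rpow hn (by positivity)
    have hc : 2 ≤ ⌈x⌉₊ := Nat.lt_ceil.2 (by exact_mod_cast hx1)
    obtain ⟨Q, hQ⟩ : ∃ Q, ⌈x⌉₊ = Q + 1 := ⟨⌈x⌉₊ - 1, by omega⟩
    have hQ0 : 0 < Q := by omega
    have hQ1 : (1 : ℝ) ≤ Q := by exact_mod_cast hQ0
    have hQx : (Q : ℝ) < x := Nat.lt_ceil.1 (by omega)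
    have hxQ : x ≤ 2 * Q := by
      have := Nat.le_ceil x
      rw [hQ] at this
      push_cast at this
      linarith
    have hpow : x ^ (d - 1) = ‖η‖ := by
      rw [hx, ← Real.rpow_natCast, ← Real.rpow_mul (norm_nonneg _), Nat.cast_sub (by omega),
        Nat.cast_one, one_div_mul_cancel hd1.ne', Real.rpow_one]
    have hQh : (Q : ℤ) ^ (d - 1) < |η s₀| := by
      have h2 := pow_lt_pow_left₀ hQx (by linarith) (n := d - 1) (by omega)
      rw [hpow, ← hs₀] at h2
      exact_mod_cast h2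
    obtain ⟨f, hf0, hf1, hf⟩ := ln1_pigeon η s₀ h0 hQ0
    refine ⟨f, ?_, fun s t => ?_⟩
    · by_contra hne
      push Not at hne
      have h2 : f s₀ = η s₀ * ∑ i, u i * f i := by
        rw [← mul_one (f s₀), ← hu, Finset.mul_sum, Finset.mul_sum]
        refine Finset.sum_congr rfl fun i _ => ?_
        have := hne i s₀
        unfold minor at this
        linear_combination u i * this
      have h3 := Int.le_of_dvd hf0 ((abs_dvd _ _).2 ⟨_, h2⟩)
      omega
    · have e : η s₀ * minor η f s t =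
          η t * (f s₀ * η s - f s * η s₀) - η s * (f s₀ * η t - f t * η s₀) := by
        unfold minor
        ring
      have h2 : |η s₀| * |minor η f s t| ≤
          |η s₀| * (|f s₀ * η s - f s * η s₀| + |f s₀ * η t - f t * η s₀|) := by
        rw [← abs_mul, e, mul_add]
        refine (abs_sub _ _).trans ?_
        rw [abs_mul, abs_mul]
        exact add_le_add (mul_le_mul_of_nonneg_right (hle t) (abs_nonneg _))
          (mul_le_mul_of_nonneg_right (hle s) (abs_nonneg _))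
      have h3 := le_of_mul_le_mul_left h2 (abs_pos.2 h0)
      have h4 : |minor η f s t| * Q ≤ 2 * |η s₀| := by
        have := mul_le_mul_of_nonneg_right h3 (Int.natCast_nonneg Q)
        linarith [hf s, hf t]
      have h5 : |(minor η f s t : ℝ)| * Q ≤ 2 * ‖η‖ := by
        rw [← hs₀]
        exact_mod_cast h4
      have h6 : ‖η‖ ^ (((d : ℝ) - 2) / ((d : ℝ) - 1)) * x = ‖η‖ := by
        rw [hx, ← Real.rpow_add (by linarith), ← add_div,
          show (d : ℝ) - 2 + 1 = d - 1 by ring, div_self hd1.ne', Real.rpow_one]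
      refine le_of_mul_le_mul_right ?_ (show 0 < x by linarith)
      have h7 := mul_le_mul_of_nonneg_left hxQ (abs_nonneg (minor η f s t : ℝ))
      linarith

end Crest.Agent.R22
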