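import Crest.Agent.R22.NFBasic
import Crest.Agent.R22.Lines1Aux

namespace Crest.Agent.R22

variable {d : ℕ}

/-- Saturation: let `g > 0` be the gcd of the minors, `u · η = 1`, `t = u · f`; then
`f j - t η j = ∑ i, u i * (η i f j - η j f i) ≡ 0 (mod g)`; `f' = (f - t η) / g` has minors `minor / g`,
with gcd `1`. -/
theorem exists_saturated {η f : Fin d → ℤ} (hη : Prim η) (hf : ∃ s t, minor η f s t ≠ 0) :
    ∃ f' : Fin d → ℤ, (∃ u : Fin d → Fin d → ℤ, ∑ s, ∑ t, u s t * minor η f' s t = 1) ∧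
      ∀ s t, |minor η f' s t| ≤ |minor η f s t| := by
  obtain ⟨u, hu⟩ := hη
  set g := Finset.univ.gcd fun p : Fin d × Fin d => minor η f p.1 p.2 with hg
  have hdvd : ∀ s t, g ∣ minor η f s t := fun s t => Finset.gcd_dvd (Finset.mem_univ (s, t))
  have hg0 : g ≠ 0 := by
    obtain ⟨s, t, h⟩ := hf
    exact fun h0 => h (zero_dvd_iff.1 (h0 ▸ hdvd s t))
  have h1 : ∀ j, ∃ c, f j - (∑ i, u i * f i) * η j = g * c := by
    intro j
    have e : f j - (∑ i, u i * f i) * η j = ∑ i, u i * minor η f i j := by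
      rw [← mul_one (f j), ← hu, Finset.mul_sum, Finset.sum_mul, ← Finset.sum_sub_distrib]
      refine Finset.sum_congr rfl fun i _ => ?_
      unfold minor
      ring
    rw [e]
    exact Finset.dvd_sum fun i _ => (hdvd i j).mul_left _
  choose f' hf' using h1
  have h2 : ∀ s t, minor η f s t = g * minor η f' s t := fun s t => by
    unfold minor
    linear_combination η s * hf' t - η t * hf' s
  obtain ⟨w, hw⟩ := Finset.gcd_eq_sum_mul Finset.univ fun p : Fin d × Fin d => minor η f p.1 p.2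
  refine ⟨f', ⟨fun s t => w (s, t), mul_left_cancel₀ hg0 ?_⟩, fun s t => ?_⟩
  · rw [mul_one]
    conv_rhs => rw [hg, hw, Fintype.sum_prod_type]
    simp only [Finset.mul_sum]
    exact Finset.sum_congr rfl fun s _ => Finset.sum_congr rfl fun t _ => by rw [h2]; ring
  · rw [h2, abs_mul]
    exact le_mul_of_one_le_left (abs_nonneg _) (Int.one_le_abs hg0)

/-- bases of the lattice spanned by `η, f` -/
structure Ln2B (η f e1 e2 : Fin d → ℤ) : Prop where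
  min : ∀ s t, |minor e1 e2 s t| = |minor η f s t|
  gcd : ∃ u : Fin d → Fin d → ℤ, ∑ s, ∑ t, u s t * minor e1 e2 s t = 1
  rep : ∃ l1 l2 : ℤ, η = l1 • e1 + l2 • e2 ∧ IsCoprime l1 l2

theorem Ln2B.swap {η f e1 e2 : Fin d → ℤ} (h : Ln2B η f e1 e2) : Ln2B η f e2 e1 := by
  have e : ∀ s t, minor e2 e1 s t = -minor e1 e2 s t := fun s t => by
    unfold minor
    ring
  obtain ⟨u, hu⟩ := h.gcd
  obtain ⟨l1, l2, h1, h2⟩ := h.rep
  refine ⟨fun s t => by rw [e, abs_neg, h.min], ⟨fun s t => -u s t, ?_⟩, l2, l1,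
    by rw [h1, add_comm], h2.symm⟩
  simpa only [e, neg_mul_neg] using hu

theorem Ln2B.shear {η f e1 e2 : Fin d → ℤ} (h : Ln2B η f e1 e2) (c : ℤ) :
    Ln2B η f e1 (e2 - c • e1) := by
  have e : ∀ s t, minor e1 (e2 - c • e1) s t = minor e1 e2 s t := fun s t => by
    simp only [minor, Pi.sub_apply, Pi.smul_apply, smul_eq_mul]
    ring
  obtain ⟨u, hu⟩ := h.gcd
  obtain ⟨l1, l2, h1, h2⟩ := h.rep
  refine ⟨fun s t => by rw [e, h.min], ⟨u, by simpa only [e] using hu⟩, l1 + l2 * c, l2, ?_,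
    h2.add_mul_left_left c⟩
  rw [h1]
  module

theorem Ln2B.exists_max {η f e1 e2 : Fin d → ℤ} (h : Ln2B η f e1 e2) :
    ∃ s, e1 s ≠ 0 ∧ |(e1 s : ℝ)| = ‖e1‖ := by
  obtain ⟨u, hu⟩ := h.gcd
  have h1 : e1 ≠ 0 := by
    rintro rfl
    simp [minor] at hu
  obtain ⟨s₁, -⟩ := Function.ne_iff.1 h1
  obtain ⟨s, hs⟩ := ln_exists_max e1 s₁
  refine ⟨s, fun h0 => h1 ?_, hs⟩
  rwa [h0, Int.cast_zero, abs_zero, eq_comm, norm_eq_zero] at hs

/-- Lagrange reduction.  Among all pairs `(e1, e2) = (a η + b f, a' η + b' f)` with `a b' - a' b = ± 1`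
choose one with `‖e1‖` minimal (a natural number); replace `e2` by `e2 - t e1` so that
`|e2 s| ≤ |e1 s| / 2` at a coordinate `s` with `|e1 s| = ‖e1‖`.  Minimality gives `‖e1‖ ≤ ‖e2‖` (swap).
With `|e2 j| = ‖e2‖`: `|minor e1 e2 s j| ≥ ‖e1‖ ‖e2‖ - ‖e1‖² / 2 ≥ ‖e1‖ ‖e2‖ / 2`.  The minors of
`(e1, e2)` are `±` those of `(η, f)`.  `η = l1 e1 + l2 e2` with coprime `l` (inverse matrix), and Cramer's
rule with the minor `(s, j)` bounds `l1, l2`. -/
theorem exists_reduced {η f : Fin d → ℤ}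
    (hf : ∃ u : Fin d → Fin d → ℤ, ∑ s, ∑ t, u s t * minor η f s t = 1) :
    ∃ (e1 e2 : Fin d → ℤ) (l1 l2 : ℤ), GoodPair e1 e2 ∧ η = l1 • e1 + l2 • e2 ∧ IsCoprime l1 l2 ∧
      (∀ s t, |minor e1 e2 s t| = |minor η f s t|) ∧
      |(l1 : ℝ)| * ‖e1‖ ≤ 4 * ‖η‖ ∧ |(l2 : ℝ)| * ‖e2‖ ≤ 4 * ‖η‖ := by
  classical
  have hnat : ∀ e1 e2, Ln2B η f e1 e2 → ∃ n : ℕ, ‖e1‖ = n := fun e1 e2 h => by
    obtain ⟨s, -, hs⟩ := h.exists_max
    exact ⟨(e1 s).natAbs, by rw [← hs, Nat.cast_natAbs, Int.cast_abs]⟩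
  have h0 : Ln2B η f η f := ⟨fun _ _ => rfl, hf, 1, 0, by simp, isCoprime_one_left⟩
  have hex : ∃ n : ℕ, ∃ e1 e2, Ln2B η f e1 e2 ∧ ‖e1‖ = n := by
    obtain ⟨n, hn⟩ := hnat _ _ h0
    exact ⟨n, η, f, h0, hn⟩
  obtain ⟨e1, e2', hB', hn⟩ := Nat.find_spec hex
  have hmin : ∀ a b, Ln2B η f a b → ‖e1‖ ≤ ‖a‖ := fun a b h => by
    obtain ⟨n, hn'⟩ := hnat a b h
    rw [hn, hn']
    exact_mod_cast Nat.find_min' hex ⟨a, b, h, hn'⟩
  obtain ⟨s, hs0, hs⟩ := hB'.exists_max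
  have hs0' : (e1 s : ℝ) ≠ 0 := by exact_mod_cast hs0
  have hA : 0 < ‖e1‖ := hs ▸ abs_pos.2 hs0'
  obtain ⟨e2, hB, h2⟩ : ∃ e2, Ln2B η f e1 e2 ∧ |(e2 s : ℝ)| ≤ ‖e1‖ / 2 := by
    refine ⟨_, hB'.shear (round ((e2' s : ℝ) / e1 s)), ?_⟩
    have h1 := mul_le_mul_of_nonneg_right (abs_sub_round ((e2' s : ℝ) / e1 s))
      (abs_nonneg (e1 s : ℝ))
    rw [← abs_mul, sub_mul, div_mul_cancel₀ _ hs0', hs] at h1
    simp only [Pi.sub_apply, Pi.smul_apply, smul_eq_mul]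
    push_cast
    linarith
  have hAB := hmin _ _ hB.swap
  have hBp : 0 < ‖e2‖ := hA.trans_le hAB
  obtain ⟨j, -, hj⟩ := hB.swap.exists_max
  have hbig : ‖e1‖ * ‖e2‖ ≤ 2 * |(minor e1 e2 s j : ℝ)| := by
    have h3 := abs_sub_abs_le_abs_sub ((e1 s : ℝ) * e2 j) (e1 j * e2 s)
    rw [abs_mul, abs_mul, hs, hj] at h3
    have h4 := mul_le_mul (ln_abs_le e1 j) h2 (abs_nonneg _) hA.le
    have h5 := mul_le_mul_of_nonneg_left hAB hA.le
    unfold minor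
    push_cast
    linarith
  obtain ⟨l1, l2, hl, hc⟩ := hB.rep
  have hη : ∀ t, (η t : ℝ) = l1 * e1 t + l2 * e2 t := fun t => by
    rw [hl]
    simp
  have hn0 := norm_nonneg η
  refine ⟨e1, e2, l1, l2, ⟨norm_pos_iff.1 hA, hAB, ⟨s, by linarith⟩, hB.gcd, s, j, hbig⟩, hl, hc,
    hB.min, ?_, ?_⟩
  · have e : (l1 : ℝ) * minor e1 e2 s j = η s * e2 j - η j * e2 s := by
      rw [hη, hη]
      unfold minor
      push_cast
      ring
    have h3 := abs_sub ((η s : ℝ) * e2 j) (η j * e2 s)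
    rw [← e, abs_mul, abs_mul, abs_mul] at h3
    have h4 := mul_le_mul (ln_abs_le η s) (ln_abs_le e2 j) (abs_nonneg _) hn0
    have h5 := mul_le_mul (ln_abs_le η j) (ln_abs_le e2 s) (abs_nonneg _) hn0
    have h6 := mul_le_mul_of_nonneg_left hbig (abs_nonneg (l1 : ℝ))
    exact le_of_mul_le_mul_right (by linarith) hBp
  · have e : (l2 : ℝ) * minor e1 e2 s j = η j * e1 s - η s * e1 j := by
      rw [hη, hη]
      unfold minor
      push_cast
      ring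
    have h3 := abs_sub ((η j : ℝ) * e1 s) (η s * e1 j)
    rw [← e, abs_mul, abs_mul, abs_mul] at h3
    have h4 := mul_le_mul (ln_abs_le η s) (ln_abs_le e1 j) (abs_nonneg _) hn0
    have h5 := mul_le_mul (ln_abs_le η j) (ln_abs_le e1 s) (abs_nonneg _) hn0
    have h6 := mul_le_mul_of_nonneg_left hbig (abs_nonneg (l2 : ℝ))
    exact le_of_mul_le_mul_right (by linarith) hA

end Crest.Agent.R22
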