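import Crest.Agent.R22.NFBasic
import Crest.Agent.R22.Lines1
import Crest.Agent.R22.Lines2

namespace Crest.Agent.R22

variable {d : ℕ}

/-- Every primitive vector lies on a line of small height (combine the three lemmas). -/
theorem exists_line (hd : 2 ≤ d) : ∃ CL : ℝ, 1 ≤ CL ∧ ∀ η : Fin d → ℤ, Prim η →
    ∃ (e1 e2 : Fin d → ℤ) (l1 l2 : ℤ), GoodPair e1 e2 ∧ η = l1 • e1 + l2 • e2 ∧ IsCoprime l1 l2 ∧
      ‖e1‖ * ‖e2‖ ≤ CL * ‖η‖ ^ (((d : ℝ) - 2) / ((d : ℝ) - 1)) ∧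
      |(l1 : ℝ)| * ‖e1‖ ≤ 4 * ‖η‖ ∧ |(l2 : ℝ)| * ‖e2‖ ≤ 4 * ‖η‖ := by
  obtain ⟨C, hC, h⟩ := exists_small_minor hd
  refine ⟨2 * C, by linarith, fun η hη => ?_⟩
  obtain ⟨f, hf, hf1⟩ := h η hη
  obtain ⟨f', hf', hf2⟩ := exists_saturated hη hf
  obtain ⟨e1, e2, l1, l2, hG, hl, hc, hm, h1, h2⟩ := exists_reduced hf'
  refine ⟨e1, e2, l1, l2, hG, hl, hc, ?_, h1, h2⟩
  obtain ⟨s, t, hst⟩ := hG.big
  have h3 : |(minor e1 e2 s t : ℝ)| ≤ |(minor η f s t : ℝ)| := by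
    exact_mod_cast (hm s t).trans_le (hf2 s t)
  linarith [hf1 s t]

end Crest.Agent.R22
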