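import Crest.Agent.R22.CellA
import Crest.Agent.R22.CellB

namespace Crest.Agent.R22

variable {d : ℕ}

/-- A uniform statement over a grid: if for every `h ∈ [lo - ν, hi]` the points with `X^h ≤ f n ≤ X^(h+ν)` number
`≤ C X^σ`, so do the points with `X^lo ≤ f n ≤ X^hi` (cells `h = lo + jν`, finitely many `j` with `lo + jν ≤ hi`). -/
theorem grid_bound (lo hi σ : ℝ) {Λ : Type} (Q : ℝ → Λ → Finset ℤ → Prop) (f : Λ → ℤ → ℝ)
    (hmono : ∀ X a S T, Q X a S → T ⊆ S → Q X a T)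
    (H : ∀ h, lo ≤ h → h ≤ hi → ∃ C X0 : ℝ, ∀ X ≥ X0, ∀ a S, Q X a S →
      (∀ n ∈ S, X ^ h ≤ f a n ∧ f a n ≤ X ^ (h + nu)) → (S.card : ℝ) ≤ C * X ^ σ) :
    ∃ C X0 : ℝ, ∀ X ≥ X0, ∀ a S, Q X a S → (∀ n ∈ S, X ^ lo ≤ f a n ∧ f a n ≤ X ^ hi) →
      (S.card : ℝ) ≤ C * X ^ σ := by
  classical
  have hnu : (0 : ℝ) < nu := by unfold nu; norm_num
  rcases lt_or_ge hi lo with hlt | hle
  · refine ⟨0, 2, fun X hX a S _ hS => ?_⟩
    rcases S.eq_empty_or_nonempty with rfl | ⟨n, hn⟩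
    · simp
    · exfalso
      have h1 := (hS n hn).1.trans (hS n hn).2
      have h2 : X ^ hi < X ^ lo := Real.rpow_lt_rpow_of_exponent_lt (by linarith) hlt
      linarith
  have key : ∀ m : ℕ, ∃ C X0 : ℝ, ∀ X ≥ X0, ∀ a S, Q X a S →
      (∀ n ∈ S, X ^ lo ≤ f a n ∧ f a n ≤ X ^ hi ∧ f a n ≤ X ^ (lo + (m + 1) * nu)) →
      (S.card : ℝ) ≤ C * X ^ σ := by
    intro m
    induction m with
    | zero =>
      obtain ⟨C, X0, hC⟩ := H lo le_rfl hle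
      refine ⟨C, X0, fun X hX a S hQ hS => hC X hX a S hQ fun n hn => ⟨(hS n hn).1, ?_⟩⟩
      simpa using (hS n hn).2.2
    | succ m ih =>
      obtain ⟨C, X0, hC⟩ := ih
      rcases le_or_gt (lo + (m + 1) * nu) hi with h1 | h1
      · have hm : (0 : ℝ) ≤ (m + 1) * nu := by positivity
        obtain ⟨C', X1, hC'⟩ := H (lo + (m + 1) * nu) (by linarith) h1
        refine ⟨C + C', max X0 X1, fun X hX a S hQ hS => ?_⟩
        have hA := hC X (le_of_max_le_left hX) a (S.filter fun n => f a n ≤ X ^ (lo + (m + 1) * nu))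
          (hmono X a S _ hQ (Finset.filter_subset _ _)) (fun n hn => by
            rw [Finset.mem_filter] at hn
            exact ⟨(hS n hn.1).1, (hS n hn.1).2.1, hn.2⟩)
        have hB := hC' X (le_of_max_le_right hX) a
          (S.filter fun n => ¬ f a n ≤ X ^ (lo + (m + 1) * nu))
          (hmono X a S _ hQ (Finset.filter_subset _ _)) (fun n hn => by
            rw [Finset.mem_filter] at hn
            refine ⟨(not_le.1 hn.2).le, ?_⟩
            have := (hS n hn.1).2.2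
            push_cast at this
            rwa [show lo + ((m : ℝ) + 1) * nu + nu = lo + (m + 1 + 1) * nu by ring])
        have hcard := Finset.card_filter_add_card_filter_not (s := S)
          (fun n => f a n ≤ X ^ (lo + (m + 1) * nu))
        rw [← hcard]
        push_cast
        linarith
      · refine ⟨C, max X0 1, fun X hX a S hQ hS => hC X (le_of_max_le_left hX) a S hQ fun n hn =>
          ⟨(hS n hn).1, (hS n hn).2.1, (hS n hn).2.1.trans ?_⟩⟩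
        exact Real.rpow_le_rpow_of_exponent_le (le_of_max_le_right hX) h1.le
  obtain ⟨m, hm⟩ := exists_nat_ge ((hi - lo) / nu)
  obtain ⟨C, X0, hC⟩ := key m
  refine ⟨C, max X0 1, fun X hX a S hQ hS => hC X (le_of_max_le_left hX) a S hQ fun n hn =>
    ⟨(hS n hn).1, (hS n hn).2, (hS n hn).2.trans ?_⟩⟩
  refine Real.rpow_le_rpow_of_exponent_le (le_of_max_le_right hX) ?_
  rw [div_le_iff₀ hnu] at hm
  nlinarith

/-- All solutions with `X^(1/d) ≤ ‖β‖ ≤ X^(hb0 d)`. -/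
theorem NF.beta_range (N : NF d) (h8 : d ≤ 8) {c : ℝ} (hc : 0 < c) (hc8 : c ≤ 1 / 8) :
    ∃ C X0 : ℝ, ∀ X ≥ X0, ∀ (μ : ℤ) (S : Finset ℤ) (α β : ℤ → Fin d → ℤ) (pr : ℤ → ℕ),
    SolSet N c X μ S α β pr → (∀ n ∈ S, X ^ (1 / (d : ℝ)) ≤ ‖β n‖ ∧ ‖β n‖ ≤ X ^ hb0 d) →
    (S.card : ℝ) ≤ C * X ^ (1 - del) := by
  have hnu : (0 : ℝ) < nu := by unfold nu; norm_num
  obtain ⟨C, X0, hC⟩ := grid_bound (1 / (d : ℝ)) (hb0 d) (1 - del)
    (Λ := ℤ × (ℤ → Fin d → ℤ) × (ℤ → Fin d → ℤ) × (ℤ → ℕ))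
    (fun X a S => SolSet N c X a.1 S a.2.1 a.2.2.1 a.2.2.2) (fun a n => ‖a.2.2.1 n‖)
    (fun X a S T h hT => h.mono hT) (fun h h1 h2 => by
      rcases N.four_le.eq_or_lt with h4 | h4
      · subst h4
        obtain ⟨C, X0, hC⟩ := N.cell_beta4 hc hc8 h (by push_cast at h1; linarith) h2
        exact ⟨C, X0, fun X hX a S hQ hS => hC X hX _ S _ _ _ hQ hS⟩
      · obtain ⟨C, X0, hC⟩ := N.cell_beta (by omega) h8 hc hc8 h (by linarith) h2
        exact ⟨C, X0, fun X hX a S hQ hS => hC X hX _ S _ _ _ hQ hS⟩)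
  exact ⟨C, X0, fun X hX μ S α β pr hQ hS => hC X hX (μ, α, β, pr) S hQ hS⟩

/-- All solutions with `X^(0.9/d) ≤ ‖α‖ ≤ X^(1 - (d-2) hb0 d + ν)`. -/
theorem NF.alpha_range (N : NF d) (h8 : d ≤ 8) {c : ℝ} (hc : 0 < c) (hc8 : c ≤ 1 / 8) :
    ∃ C X0 : ℝ, ∀ X ≥ X0, ∀ (μ : ℤ) (S : Finset ℤ) (α β : ℤ → Fin d → ℤ) (pr : ℤ → ℕ),
    SolSet N c X μ S α β pr →
    (∀ n ∈ S, X ^ (9 / 10 / (d : ℝ)) ≤ ‖α n‖ ∧ ‖α n‖ ≤ X ^ (1 - (d - 2) * hb0 d + nu)) →
    (S.card : ℝ) ≤ C * X ^ (1 - del) := by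
  obtain ⟨C, X0, hC⟩ := grid_bound (9 / 10 / (d : ℝ)) (1 - (d - 2) * hb0 d + nu) (1 - del)
    (Λ := ℤ × (ℤ → Fin d → ℤ) × (ℤ → Fin d → ℤ) × (ℤ → ℕ))
    (fun X a S => SolSet N c X a.1 S a.2.1 a.2.2.1 a.2.2.2) (fun a n => ‖a.2.1 n‖)
    (fun X a S T h hT => h.mono hT) (fun h h1 h2 => by
      rcases N.four_le.eq_or_lt with h4 | h4
      · subst h4
        obtain ⟨C, X0, hC⟩ := N.cell_alpha4 hc hc8 h (by push_cast at h1; linarith)
          (by push_cast at h2; linarith)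
        exact ⟨C, X0, fun X hX a S hQ hS => hC X hX _ S _ _ _ hQ hS⟩
      · obtain ⟨C, X0, hC⟩ := N.cell_alpha (by omega) h8 hc hc8 h h1 h2
        exact ⟨C, X0, fun X hX a S hQ hS => hC X hX _ S _ _ _ hQ hS⟩)
  exact ⟨C, X0, fun X hX μ S α β pr hQ hS => hC X hX (μ, α, β, pr) S hQ hS⟩

/-- All solutions with a fixed `μ`.  Split `S` into (i) `‖β‖ ≤ X^(hb0 d)`: also `X^(1/d) ≤ ‖β‖` (`sol_size`),
`grid_bound` with `cell_beta` / `cell_beta4`; (ii) `‖α‖ ≤ X^(0.9/d)`: `cell_triv`; (iii) the rest, where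
`X^(0.9/d) ≤ ‖α‖ ≤ C X^(1 - (d-2) hb0 d) ≤ X^(1 - (d-2) hb0 d + ν)`: `grid_bound` with `cell_alpha` / `cell_alpha4`.
(`Λ = ℤ × (ℤ → Fin d → ℤ) × (ℤ → Fin d → ℤ) × (ℤ → ℕ)`; treat `d = 4` after `subst`.) -/
theorem NF.sol_count (N : NF d) (h8 : d ≤ 8) {c : ℝ} (hc : 0 < c) (hc8 : c ≤ 1 / 8) :
    ∃ C X0 : ℝ, ∀ X ≥ X0, ∀ (μ : ℤ) (S : Finset ℤ) (α β : ℤ → Fin d → ℤ) (pr : ℤ → ℕ),
    SolSet N c X μ S α β pr → (S.card : ℝ) ≤ C * X ^ (1 - del) := by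
  classical
  have hnu : (0 : ℝ) < nu := by unfold nu; norm_num
  have h4 := N.four_le
  obtain ⟨C1, X1, hC1⟩ := N.beta_range h8 hc hc8
  obtain ⟨C2, X2, hC2⟩ := N.alpha_range h8 hc hc8
  obtain ⟨C3, hC3⟩ := N.cell_triv h8 hc hc8
  obtain ⟨Cs, hCs1, hCs⟩ := N.sol_size hc (by linarith)
  obtain ⟨X3, hX3⟩ := Filter.eventually_atTop.1
    ((tendsto_rpow_atTop hnu).eventually_ge_atTop Cs)
  refine ⟨C1 + C2 + C3, max (max X1 X2) (max X3 1), fun X hX μ S α β pr h => ?_⟩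
  have hX1 : X1 ≤ X := le_of_max_le_left (le_of_max_le_left hX)
  have hX2 : X2 ≤ X := le_of_max_le_right (le_of_max_le_left hX)
  have hX3' : X3 ≤ X := le_of_max_le_left (le_of_max_le_right hX)
  have hX4 : 1 ≤ X := le_of_max_le_right (le_of_max_le_right hX)
  have hX0 : 0 < X := by linarith
  have hsz := hCs X hX4 μ S α β pr h
  set S1 := S.filter fun n => ‖β n‖ ≤ X ^ hb0 d with hS1
  set T := S.filter fun n => ¬ ‖β n‖ ≤ X ^ hb0 d with hT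
  set S2 := T.filter fun n => X ^ (9 / 10 / (d : ℝ)) ≤ ‖α n‖ with hS2
  set S3 := T.filter fun n => ¬ X ^ (9 / 10 / (d : ℝ)) ≤ ‖α n‖ with hS3
  have hTS : T ⊆ S := Finset.filter_subset _ _
  have b1 := hC1 X hX1 μ S1 α β pr (h.mono (Finset.filter_subset _ _)) (fun n hn => by
    rw [hS1, Finset.mem_filter] at hn
    refine ⟨?_, hn.2⟩
    have hd0 : (d : ℕ) ≠ 0 := by omega
    have := Real.rpow_le_rpow hX0.le (hsz n hn.1).2 (show (0 : ℝ) ≤ 1 / (d : ℝ) by positivity)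
    rwa [one_div, Real.pow_rpow_inv_natCast (norm_nonneg _) hd0, ← one_div] at this)
  have b2 := hC2 X hX2 μ S2 α β pr (h.mono ((Finset.filter_subset _ _).trans hTS)) (fun n hn => by
    rw [hS2, Finset.mem_filter, hT, Finset.mem_filter] at hn
    refine ⟨hn.2, ?_⟩
    have hb : X ^ hb0 d ≤ ‖β n‖ := (not_le.1 hn.1.2).le
    have hb' : X ^ ((d - 2 : ℝ) * hb0 d) ≤ ‖β n‖ ^ (d - 2) := by
      have : ((d : ℝ) - 2) = ((d - 2 : ℕ) : ℝ) := by
        rw [Nat.cast_sub (by omega)]; norm_num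
      rw [this, mul_comm, Real.rpow_mul_natCast hX0.le]
      exact pow_le_pow_left₀ (by positivity) hb _
    have hpos : 0 < X ^ ((d - 2 : ℝ) * hb0 d) := Real.rpow_pos_of_pos hX0 _
    have h1 : ‖α n‖ * X ^ ((d - 2 : ℝ) * hb0 d) ≤ X ^ nu * X :=
      ((mul_le_mul_of_nonneg_left hb' (norm_nonneg _)).trans (hsz n hn.1.1).1).trans
        (mul_le_mul_of_nonneg_right (hX3 X hX3') hX0.le)
    have h2 : X ^ (1 - (d - 2 : ℝ) * hb0 d + nu) * X ^ ((d - 2 : ℝ) * hb0 d) = X ^ nu * X := by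
      rw [← Real.rpow_add hX0, ← Real.rpow_add_one hX0.ne']
      congr 1; ring
    exact le_of_mul_le_mul_right (h1.trans h2.ge) hpos)
  have b3 := hC3 X hX4 μ S3 α β pr (h.mono ((Finset.filter_subset _ _).trans hTS)) (fun n hn => by
    rw [hS3, Finset.mem_filter] at hn
    exact (not_le.1 hn.2).le.trans (Real.rpow_le_rpow_of_exponent_le hX4 (by linarith)))
  have c1 : S1.card + T.card = S.card := Finset.card_filter_add_card_filter_not _
  have c2 : S2.card + S3.card = T.card := Finset.card_filter_add_card_filter_not _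
  rw [← c1, ← c2]
  push_cast
  linarith

end Crest.Agent.R22
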