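import Crest.Agent.R22.Defs

namespace Crest.Agent.R22

open Polynomial

variable {d : ℕ}

theorem NF.emb_add (N : NF d) (a b : Fin d → ℤ) (i : Fin d) :
    N.emb (a + b) i = N.emb a i + N.emb b i := by
  simp [NF.emb, add_mul, Finset.sum_add_distrib]

theorem NF.emb_smul (N : NF d) (t : ℤ) (a : Fin d → ℤ) (i : Fin d) :
    N.emb (t • a) i = (t : ℂ) * N.emb a i := by
  simp [NF.emb, Finset.mul_sum, mul_assoc]

theorem NF.emb_neg (N : NF d) (a : Fin d → ℤ) (i : Fin d) : N.emb (-a) i = -N.emb a i := by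
  simp [NF.emb]

private theorem NF.vdm_unit (N : NF d) : IsUnit (Matrix.vandermonde N.θ).det :=
  isUnit_iff_ne_zero.2 (Matrix.det_vandermonde_ne_zero_iff.2 N.inj)

private theorem NF.cinv_mul (N : NF d) (s t : Fin d) :
    ∑ i, N.cinv s i * N.θ i ^ (t : ℕ) = if s = t then 1 else 0 := by
  have h := Matrix.nonsing_inv_mul _ N.vdm_unit
  have := congrFun (congrFun h s) t
  simpa [Matrix.mul_apply, Matrix.one_apply, NF.cinv, Matrix.vandermonde_apply] using this

private theorem NF.mul_cinv (N : NF d) (i j : Fin d) :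
    ∑ s : Fin d, N.θ i ^ (s : ℕ) * N.cinv s j = if i = j then 1 else 0 := by
  have h := Matrix.mul_nonsing_inv _ N.vdm_unit
  have := congrFun (congrFun h i) j
  simpa [Matrix.mul_apply, Matrix.one_apply, NF.cinv, Matrix.vandermonde_apply] using this

theorem NF.sum_co (N : NF d) {Ω : Type} [CommRing Ω] [Algebra ℂ Ω] (z : Fin d → Ω) (i : Fin d) :
    ∑ s : Fin d, algebraMap ℂ Ω (N.θ i ^ (s : ℕ)) * N.co z s = z i := by
  have : ∀ s : Fin d, algebraMap ℂ Ω (N.θ i ^ (s : ℕ)) * N.co z s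
      = ∑ j, algebraMap ℂ Ω (N.θ i ^ (s : ℕ) * N.cinv s j) * z j := by
    intro s
    simp only [NF.co, Finset.mul_sum, map_mul, mul_assoc]
  rw [Finset.sum_congr rfl fun s _ => this s, Finset.sum_comm]
  simp only [← Finset.sum_mul, ← map_sum, N.mul_cinv]
  simp [apply_ite (algebraMap ℂ Ω)]

/-- Coordinates of `∑ c s θ^s`. -/
theorem NF.co_sum (N : NF d) {Ω : Type} [CommRing Ω] [Algebra ℂ Ω] (c : Fin d → Ω) (s : Fin d) :
    N.co (fun i => ∑ t : Fin d, algebraMap ℂ Ω (N.θ i ^ (t : ℕ)) * c t) s = c s := by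
  have : ∀ i : Fin d, algebraMap ℂ Ω (N.cinv s i) *
      ∑ t : Fin d, algebraMap ℂ Ω (N.θ i ^ (t : ℕ)) * c t
      = ∑ t : Fin d, algebraMap ℂ Ω (N.cinv s i * N.θ i ^ (t : ℕ)) * c t := by
    intro i
    simp only [Finset.mul_sum, map_mul, mul_assoc]
  unfold NF.co
  rw [Finset.sum_congr rfl fun i _ => this i, Finset.sum_comm]
  simp only [← Finset.sum_mul, ← map_sum, N.cinv_mul]
  simp [apply_ite (algebraMap ℂ Ω)]

/-- `Matrix.vandermonde θ` is invertible (`Matrix.det_vandermonde_ne_zero_iff`). -/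
theorem NF.co_emb (N : NF d) (a : Fin d → ℤ) (s : Fin d) : N.co (N.emb a) s = (a s : ℂ) := by
  have h := N.co_sum (Ω := ℂ) (fun t => (a t : ℂ)) s
  rw [← h]
  congr 1
  funext i
  simp [NF.emb, mul_comm]

/-- Coordinates of `U + V θ` (special case of `co_sum`). -/
theorem NF.co_lin (N : NF d) {Ω : Type} [CommRing Ω] [Algebra ℂ Ω] (U V : Ω) (s : Fin d) :
    N.co (fun i => U + V * algebraMap ℂ Ω (N.θ i)) s =
      if (s : ℕ) = 0 then U else if (s : ℕ) = 1 then V else 0 := by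
  have h := N.co_sum (Ω := Ω)
    (fun t => if (t : ℕ) = 0 then U else if (t : ℕ) = 1 then V else 0) s
  rw [← h]
  congr 1
  funext i
  have h4 := N.four_le
  obtain ⟨e, rfl⟩ : ∃ e, d = e + 2 := ⟨d - 2, by omega⟩
  rw [Fin.sum_univ_succ, Fin.sum_univ_succ]
  simp [mul_comm]

theorem NF.emb_injective (N : NF d) : Function.Injective N.emb := by
  intro a b h
  funext s
  have h1 := N.co_emb a s
  rw [h, N.co_emb b s] at h1
  exact_mod_cast h1.symm

theorem NF.exists_C (N : NF d) : ∃ C : ℝ, 1 ≤ C ∧ (∀ i, ‖N.θ i‖ ≤ C) ∧ (∀ s i, ‖N.cinv s i‖ ≤ C) ∧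
    (∀ (a : Fin d → ℤ) i, ‖N.emb a i‖ ≤ C * ‖a‖) ∧
    (∀ (a : Fin d → ℤ) (M : ℝ), (∀ i, ‖N.emb a i‖ ≤ M) → ‖a‖ ≤ C * M) ∧
    (∀ i j, i ≠ j → 1 ≤ C * ‖N.θ i - N.θ j‖) := by
  set A : ℝ := ∑ i, ‖N.θ i‖ with hA
  set B : ℝ := ∑ s, ∑ i, ‖N.cinv s i‖ with hB
  set E : ℝ := ∑ i, ∑ s : Fin d, ‖N.θ i ^ (s : ℕ)‖ with hE
  set G : ℝ := ∑ i, ∑ j, ‖N.θ i - N.θ j‖⁻¹ with hG
  have hA0 : 0 ≤ A := Finset.sum_nonneg fun _ _ => norm_nonneg _
  have hB0 : 0 ≤ B := Finset.sum_nonneg fun _ _ => Finset.sum_nonneg fun _ _ => norm_nonneg _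
  have hE0 : 0 ≤ E := Finset.sum_nonneg fun _ _ => Finset.sum_nonneg fun _ _ => norm_nonneg _
  have hG0 : 0 ≤ G := Finset.sum_nonneg fun _ _ => Finset.sum_nonneg fun _ _ => by positivity
  have hBs : ∀ s, ∑ i, ‖N.cinv s i‖ ≤ B := fun s =>
    Finset.single_le_sum (f := fun s => ∑ i, ‖N.cinv s i‖)
      (fun _ _ => Finset.sum_nonneg fun _ _ => norm_nonneg _) (Finset.mem_univ s)
  have hEs : ∀ i, ∑ s : Fin d, ‖N.θ i ^ (s : ℕ)‖ ≤ E := fun i =>
    Finset.single_le_sum (f := fun i => ∑ s : Fin d, ‖N.θ i ^ (s : ℕ)‖)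
      (fun _ _ => Finset.sum_nonneg fun _ _ => norm_nonneg _) (Finset.mem_univ i)
  refine ⟨1 + A + B + E + G, by linarith, ?_, ?_, ?_, ?_, ?_⟩
  · intro i
    have : ‖N.θ i‖ ≤ A :=
      Finset.single_le_sum (f := fun i => ‖N.θ i‖) (fun _ _ => norm_nonneg _) (Finset.mem_univ i)
    linarith
  · intro s i
    have : ‖N.cinv s i‖ ≤ ∑ i, ‖N.cinv s i‖ :=
      Finset.single_le_sum (f := fun i => ‖N.cinv s i‖) (fun _ _ => norm_nonneg _)
        (Finset.mem_univ i)
    linarith [hBs s]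
  · intro a i
    have h1 : ‖N.emb a i‖ ≤ (∑ s : Fin d, ‖N.θ i ^ (s : ℕ)‖) * ‖a‖ := by
      rw [Finset.sum_mul]
      refine (norm_sum_le _ _).trans (Finset.sum_le_sum fun s _ => ?_)
      rw [norm_mul, mul_comm]
      refine mul_le_mul_of_nonneg_left ?_ (norm_nonneg _)
      have := norm_le_pi_norm a s
      simpa [Int.norm_eq_abs] using this
    refine h1.trans (mul_le_mul_of_nonneg_right ?_ (norm_nonneg _))
    linarith [hEs i]
  · intro a M hM
    have h4 := N.four_le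
    have hM0 : 0 ≤ M := (norm_nonneg _).trans (hM ⟨0, by omega⟩)
    refine (pi_norm_le_iff_of_nonneg (by positivity)).2 fun s => ?_
    have h1 : ‖a s‖ = ‖N.co (N.emb a) s‖ := by
      rw [N.co_emb]; simp [Int.norm_eq_abs]
    rw [h1]
    have h2 : ‖N.co (N.emb a) s‖ ≤ (∑ i, ‖N.cinv s i‖) * M := by
      rw [Finset.sum_mul]
      refine (norm_sum_le _ _).trans (Finset.sum_le_sum fun i _ => ?_)
      rw [norm_mul]
      exact mul_le_mul_of_nonneg_left (hM i) (norm_nonneg _)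
    refine h2.trans (mul_le_mul_of_nonneg_right ?_ hM0)
    linarith [hBs s]
  · intro i j hij
    have hne : 0 < ‖N.θ i - N.θ j‖ := norm_pos_iff.2 (sub_ne_zero.2 fun h => hij (N.inj h))
    have h1 : ‖N.θ i - N.θ j‖⁻¹ ≤ G := by
      calc ‖N.θ i - N.θ j‖⁻¹ ≤ ∑ j, ‖N.θ i - N.θ j‖⁻¹ :=
            Finset.single_le_sum (f := fun j => ‖N.θ i - N.θ j‖⁻¹)
              (fun _ _ => by positivity) (Finset.mem_univ j)
        _ ≤ G := Finset.single_le_sum (f := fun i => ∑ j, ‖N.θ i - N.θ j‖⁻¹)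
              (fun _ _ => Finset.sum_nonneg fun _ _ => by positivity) (Finset.mem_univ i)
    calc (1 : ℝ) = ‖N.θ i - N.θ j‖⁻¹ * ‖N.θ i - N.θ j‖ := (inv_mul_cancel₀ hne.ne').symm
      _ ≤ _ := mul_le_mul_of_nonneg_right (by linarith) hne.le

theorem Prim.ne_zero {a : Fin d → ℤ} (h : Prim a) : a ≠ 0 := by
  rintro rfl
  obtain ⟨u, hu⟩ := h
  simp at hu

theorem Prim.one_le_norm {a : Fin d → ℤ} (h : Prim a) : 1 ≤ ‖a‖ := by
  obtain ⟨s, hs⟩ := Function.ne_iff.1 h.ne_zero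
  have h1 : (1 : ℝ) ≤ ‖a s‖ := by
    rw [Int.norm_eq_abs]
    exact_mod_cast Int.one_le_abs hs
  exact h1.trans (norm_le_pi_norm a s)

/-- Two primitive vectors with vanishing minors agree up to sign. -/
theorem Prim.eq_or_eq_neg {a b : Fin d → ℤ} (ha : Prim a) (hb : Prim b)
    (h : ∀ s t, minor a b s t = 0) : a = b ∨ a = -b := by
  obtain ⟨u, hu⟩ := ha
  obtain ⟨v, hv⟩ := hb
  -- `a = x • b` with `x = ∑ v t * a t`
  have key : ∀ s, a s = (∑ t, v t * a t) * b s := by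
    intro s
    calc a s = a s * ∑ t, v t * b t := by rw [hv, mul_one]
      _ = ∑ t, v t * a t * b s := by
        rw [Finset.mul_sum]
        refine Finset.sum_congr rfl fun t _ => ?_
        have := h s t
        unfold minor at this
        linear_combination v t * this
      _ = _ := by rw [Finset.sum_mul]
  have hx : (∑ t, v t * a t) * ∑ s, u s * b s = 1 := by
    rw [← hu, Finset.mul_sum]
    refine Finset.sum_congr rfl fun s _ => ?_
    rw [key s]
    simp only [← key s]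
    linear_combination -(u s) * key s
  rcases Int.eq_one_or_neg_one_of_mul_eq_one hx with h1 | h1
  · left; funext s; rw [key s, h1, one_mul]
  · right; funext s; rw [key s, h1]; simp

/-- `minor a b s t = ∑ i j, cinv s i * cinv t j * PP a b i j`. -/
theorem NF.minor_eq (N : NF d) (a b : Fin d → ℤ) (s t : Fin d) :
    (minor a b s t : ℂ) = ∑ i, ∑ j, N.cinv s i * N.cinv t j * N.PP a b i j := by
  have h1 : (a s : ℂ) * (b t : ℂ)
      = ∑ i, ∑ j, N.cinv s i * N.cinv t j * (N.emb a i * N.emb b j) := by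
    rw [← N.co_emb a s, ← N.co_emb b t]
    simp only [NF.co, Finset.sum_mul_sum]
    refine Finset.sum_congr rfl fun i _ => Finset.sum_congr rfl fun j _ => ?_
    simp; ring
  have h2 : (a t : ℂ) * (b s : ℂ)
      = ∑ i, ∑ j, N.cinv s i * N.cinv t j * (N.emb a j * N.emb b i) := by
    rw [← N.co_emb a t, ← N.co_emb b s, mul_comm]
    simp only [NF.co, Finset.sum_mul_sum]
    refine Finset.sum_congr rfl fun i _ => Finset.sum_congr rfl fun j _ => ?_
    simp; ring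
  unfold minor
  push_cast
  rw [h1, h2, ← Finset.sum_sub_distrib]
  refine Finset.sum_congr rfl fun i _ => ?_
  rw [← Finset.sum_sub_distrib]
  refine Finset.sum_congr rfl fun j _ => ?_
  unfold NF.PP
  ring

end Crest.Agent.R22
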