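import Crest.Agent.R22.Defs
import Crest.Agent.R22.NFB1

namespace Crest.Agent.R22

open Polynomial

variable {d : ℕ}

/-- The polynomial with coefficient vector `a`. -/
private noncomputable def vpoly (a : Fin d → ℤ) : ℤ[X] := ∑ s : Fin d, C (a s) * X ^ (s : ℕ)

private theorem aeval_vpoly (N : NF d) (a : Fin d → ℤ) (i : Fin d) :
    aeval (N.θ i) (vpoly a) = N.emb a i := by
  simp [vpoly, NF.emb, map_sum]

private theorem eval_vpoly (a : Fin d → ℤ) (n : ℤ) :
    (vpoly a).eval n = ∑ s, a s * n ^ (s : ℕ) := by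
  simp [vpoly, eval_finsetSum]

private theorem degree_vpoly (a : Fin d → ℤ) : (vpoly a).degree < d :=
  degree_sum_fin_lt a

private theorem coeff_vpoly (a : Fin d → ℤ) (s : Fin d) : (vpoly a).coeff s = a s := by
  simp only [vpoly, finsetSum_coeff, coeff_C_mul_X_pow]
  rw [Finset.sum_eq_single s]
  · simp
  · intro t _ ht
    rw [if_neg]
    intro h
    exact ht (Fin.ext h.symm)
  · simp

private theorem NF.degree_F (N : NF d) : N.F.degree = d := by
  rw [degree_eq_natDegree N.monic.ne_zero, N.deg]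

/-- The value at `θ` of any integer polynomial is the conjugate vector of an integer vector. -/
theorem NF.exists_aeval (N : NF d) (P : ℤ[X]) :
    ∃ c : Fin d → ℤ, ∀ i, N.emb c i = aeval (N.θ i) P := by
  have h4 := N.four_le
  have hdeg : (P %ₘ N.F).degree < d := by
    rw [← N.degree_F]; exact degree_modByMonic_lt P N.monic
  have hnat : (P %ₘ N.F).natDegree < d := by
    by_cases h0 : P %ₘ N.F = 0
    · rw [h0]; simp; omega
    · exact (natDegree_lt_iff_degree_lt h0).2 hdeg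
  refine ⟨fun s => (P %ₘ N.F).coeff s, fun i => ?_⟩
  have h1 : aeval (N.θ i) P = aeval (N.θ i) (P %ₘ N.F) := by
    conv_lhs => rw [← modByMonic_add_div P N.F]
    simp [N.root i]
  rw [h1, aeval_eq_sum_range' hnat, ← Fin.sum_univ_eq_sum_range
    (fun s => (P %ₘ N.F).coeff s • N.θ i ^ s)]
  simp [NF.emb]

/-- Reduce the product of the two polynomials modulo the monic `F` (`modByMonic`). -/
theorem NF.exists_mul (N : NF d) (a b : Fin d → ℤ) :
    ∃ c : Fin d → ℤ, ∀ i, N.emb c i = N.emb a i * N.emb b i := by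
  obtain ⟨c, hc⟩ := N.exists_aeval (vpoly a * vpoly b)
  exact ⟨c, fun i => by rw [hc, map_mul, aeval_vpoly, aeval_vpoly]⟩

/-- `ℤ[θ]` as a subring of `ℂ^d`. -/
noncomputable def NF.R (N : NF d) : Subring (Fin d → ℂ) where
  carrier := Set.range N.emb
  mul_mem' := by
    rintro _ _ ⟨a, rfl⟩ ⟨b, rfl⟩
    obtain ⟨c, hc⟩ := N.exists_mul a b
    exact ⟨c, funext hc⟩
  one_mem' := by
    obtain ⟨c, hc⟩ := N.exists_aeval 1
    exact ⟨c, funext fun i => by simpa using hc i⟩
  add_mem' := by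
    rintro _ _ ⟨a, rfl⟩ ⟨b, rfl⟩
    exact ⟨a + b, funext (N.emb_add a b)⟩
  zero_mem' := ⟨0, funext fun i => by simp [NF.emb]⟩
  neg_mem' := by
    rintro _ ⟨a, rfl⟩
    exact ⟨-a, funext (N.emb_neg a)⟩

theorem NF.mem_R (N : NF d) (z : Fin d → ℂ) : z ∈ N.R ↔ ∃ a, N.emb a = z := Iff.rfl

theorem NF.theta_mem_R (N : NF d) : N.θ ∈ N.R := by
  obtain ⟨c, hc⟩ := N.exists_aeval X
  exact ⟨c, funext fun i => by simpa using hc i⟩

/-- `F` is the minimal polynomial of `θ i` over `ℚ`: a rational polynomial vanishing at one root is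
divisible by `F`. -/
theorem NF.dvd_of_root (N : NF d) (P : ℚ[X]) (i : Fin d) (h : aeval (N.θ i) P = 0) :
    N.F.map (Int.castRingHom ℚ) ∣ P := by
  have h1 : aeval (N.θ i) (N.F.map (Int.castRingHom ℚ)) = 0 := by
    have := aeval_map_algebraMap ℚ (N.θ i) N.F
    rw [N.root i] at this
    exact this
  have h2 : N.F.map (Int.castRingHom ℚ) = minpoly ℚ (N.θ i) :=
    minpoly.eq_of_irreducible_of_monic N.irr h1 (N.monic.map _)
  rw [h2]
  exact minpoly.dvd ℚ _ h

/-- Integer version (`F` is monic: `Polynomial.map_dvd_map` / `modByMonic`). -/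
theorem NF.dvd_of_root_int (N : NF d) (P : ℤ[X]) (i : Fin d) (h : aeval (N.θ i) P = 0) :
    N.F ∣ P := by
  have h1 : aeval (N.θ i) (P.map (Int.castRingHom ℚ)) = 0 := by
    have := aeval_map_algebraMap ℚ (N.θ i) P
    rw [h] at this
    exact this
  exact (map_dvd_map (Int.castRingHom ℚ) (RingHom.injective_int _) N.monic).1
    (N.dvd_of_root _ i h1)

theorem NF.emb_ne_zero (N : NF d) {a : Fin d → ℤ} (ha : a ≠ 0) (i : Fin d) : N.emb a i ≠ 0 := by
  intro h
  rw [← aeval_vpoly] at h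
  have h1 := N.dvd_of_root_int _ i h
  have h2 : vpoly a = 0 := by
    refine eq_zero_of_dvd_of_degree_lt h1 ?_
    rw [N.degree_F]; exact degree_vpoly a
  apply ha
  funext s
  rw [← coeff_vpoly a s, h2]; simp

theorem NF.theta_ne_int (N : NF d) (n : ℤ) (i : Fin d) : (n : ℂ) ≠ N.θ i := by
  intro h
  have h1 : aeval (N.θ i) (X - C n : ℤ[X]) = 0 := by simp [← h]
  have h2 := natDegree_le_of_dvd (N.dvd_of_root_int _ i h1) (X_sub_C_ne_zero n)
  rw [N.deg, natDegree_X_sub_C] at h2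
  have := N.four_le
  omega

/-- `F = ∏ (X - θ i)` over `ℂ`. -/
theorem NF.map_F (N : NF d) : N.F.map (Int.castRingHom ℂ) = ∏ i, (X - C (N.θ i)) := by
  have hm : (∏ i, (X - C (N.θ i)) : ℂ[X]).Monic := monic_prod_of_monic _ _ fun i _ => monic_X_sub_C _
  refine eq_of_monic_of_dvd_of_natDegree_le hm (N.monic.map _) ?_ ?_
  · refine Finset.prod_dvd_of_coprime ?_ fun i _ => ?_
    · intro i _ j _ hij
      exact isCoprime_X_sub_C_of_isUnit_sub
        (isUnit_iff_ne_zero.2 (sub_ne_zero.2 fun h => hij (N.inj h)))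
    · rw [dvd_iff_isRoot, IsRoot, eval_map]
      have := N.root i
      rwa [aeval_def] at this
  · rw [N.monic.natDegree_map, N.deg, natDegree_prod_of_monic _ _ fun i _ => monic_X_sub_C _]
    simp

/-- Reduction `θ ↦ n` modulo a divisor `P` of `F n` is a ring homomorphism. Proof: the polynomial
`B * W - A` vanishes at `θ i`, so `F` divides it in `ℤ[X]`; evaluate at `n`. -/
theorem NF.psi (N : NF d) {P n : ℤ} {β w a : Fin d → ℤ} (hF : P ∣ N.F.eval n)
    (hβ : P ∣ ∑ s, β s * n ^ (s : ℕ)) (h : ∀ i, N.emb β i * N.emb w i = N.emb a i) :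
    P ∣ ∑ s, a s * n ^ (s : ℕ) := by
  have h4 := N.four_le
  let i : Fin d := ⟨0, by omega⟩
  have h1 : aeval (N.θ i) (vpoly β * vpoly w - vpoly a) = 0 := by
    rw [map_sub, map_mul, aeval_vpoly, aeval_vpoly, aeval_vpoly, h i, sub_self]
  have h2 := eval_dvd (x := n) (N.dvd_of_root_int _ i h1)
  rw [eval_sub, eval_mul, eval_vpoly β, eval_vpoly a] at h2
  have h3 := (hβ.mul_right ((vpoly w).eval n)).sub (hF.trans h2)
  simpa using h3

/-- Special case `a = U + V θ`. -/
theorem NF.psi_lin (N : NF d) {P n U V : ℤ} {β w : Fin d → ℤ} (hF : P ∣ N.F.eval n)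
    (hβ : P ∣ ∑ s, β s * n ^ (s : ℕ))
    (h : ∀ i, N.emb β i * N.emb w i = (U : ℂ) + (V : ℂ) * N.θ i) : P ∣ U + V * n := by
  have h4 := N.four_le
  let i : Fin d := ⟨0, by omega⟩
  have h1 : aeval (N.θ i) (vpoly β * vpoly w - (C U + C V * X)) = 0 := by
    rw [map_sub, map_mul, aeval_vpoly, aeval_vpoly, h i]
    simp
  have h2 := eval_dvd (x := n) (N.dvd_of_root_int _ i h1)
  rw [eval_sub, eval_mul, eval_vpoly β] at h2
  have h3 := (hβ.mul_right ((vpoly w).eval n)).sub (hF.trans h2)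
  simpa using h3

end Crest.Agent.R22
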