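import Crest.Agent.R22.Defs
import Crest.Agent.R22.NFB2

namespace Crest.Agent.R22

open Polynomial

variable {d : ℕ}

/-- The norm is an integer: it is the determinant of the integer matrix of multiplication by `a`
(conjugate to the diagonal matrix of the `emb a i` through the Vandermonde matrix). -/
theorem NF.norm_int (N : NF d) (a : Fin d → ℤ) : ∃ m : ℤ, ∏ i, N.emb a i = (m : ℂ) := by
  have hc : ∀ t : Fin d, ∃ c : Fin d → ℤ, N.emb c = N.emb a * N.θ ^ (t : ℕ) := fun t =>
    (N.mem_R _).1 (N.R.mul_mem ((N.mem_R _).2 ⟨a, rfl⟩) (N.R.pow_mem N.theta_mem_R t))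
  choose c hc using hc
  let M : Matrix (Fin d) (Fin d) ℤ := Matrix.of fun s t => c t s
  have hV : (Matrix.vandermonde N.θ).det ≠ 0 := Matrix.det_vandermonde_ne_zero_iff.2 N.inj
  have h1 : Matrix.vandermonde N.θ * (Int.castRingHom ℂ).mapMatrix M
      = Matrix.diagonal (N.emb a) * Matrix.vandermonde N.θ := by
    ext i t
    rw [Matrix.diagonal_mul, Matrix.mul_apply]
    have := congrFun (hc t) i
    simp only [NF.emb, Pi.mul_apply, Pi.pow_apply] at this
    simp only [Matrix.vandermonde_apply, NF.emb, ← this]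
    refine Finset.sum_congr rfl fun s _ => ?_
    simp [M, mul_comm]
  have h2 := congrArg Matrix.det h1
  rw [Matrix.det_mul, Matrix.det_mul, Matrix.det_diagonal, ← RingHom.map_det, mul_comm] at h2
  exact ⟨M.det, (mul_right_cancel₀ hV h2).symm⟩

private theorem NF.theta_isIntegral (N : NF d) (i : Fin d) : IsIntegral ℤ (N.θ i) :=
  ⟨N.F, N.monic, by rw [← aeval_def]; exact N.root i⟩

theorem NF.emb_isIntegral (N : NF d) (a : Fin d → ℤ) (i : Fin d) : IsIntegral ℤ (N.emb a i) := by
  unfold NF.emb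
  refine IsIntegral.sum _ fun s _ => IsIntegral.mul ?_ ((N.theta_isIntegral i).pow _)
  exact isIntegral_algebraMap (R := ℤ) (x := a s)

private theorem det_isIntegral {n : Type} [Fintype n] [DecidableEq n] (M : Matrix n n ℂ)
    (h : ∀ i j, IsIntegral ℤ (M i j)) : IsIntegral ℤ M.det := by
  rw [Matrix.det_apply']
  refine IsIntegral.sum _ fun σ _ => IsIntegral.mul ?_ (IsIntegral.prod _ fun i _ => h _ _)
  exact isIntegral_algebraMap (R := ℤ) (x := ((Equiv.Perm.sign σ : ℤˣ) : ℤ))

private theorem NF.cinv_isAlgebraic (N : NF d) (s i : Fin d) : IsAlgebraic ℤ (N.cinv s i) := by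
  have hV : ∀ i j, IsIntegral ℤ (Matrix.vandermonde N.θ i j) := fun i j => by
    rw [Matrix.vandermonde_apply]; exact (N.theta_isIntegral i).pow _
  have h1 : N.cinv s i = (Matrix.vandermonde N.θ).det⁻¹ * (Matrix.vandermonde N.θ).adjugate s i := by
    unfold NF.cinv
    rw [Matrix.inv_def, Matrix.smul_apply, Ring.inverse_eq_inv', smul_eq_mul]
  rw [h1]
  refine IsAlgebraic.mul (det_isIntegral _ hV).isAlgebraic.inv ?_
  rw [Matrix.adjugate_apply]
  refine (det_isIntegral _ fun j k => ?_).isAlgebraic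
  rw [Matrix.updateRow_apply]
  split_ifs
  · rw [Pi.single_apply]
    split_ifs
    · exact isIntegral_one
    · exact isIntegral_zero
  · exact hV _ _

private theorem exists_den_fin {ι : Type} [Fintype ι] (x : ι → ℂ) (hx : ∀ i, IsAlgebraic ℤ (x i)) :
    ∃ D : ℕ, 0 < D ∧ ∀ i, IsIntegral ℤ ((D : ℂ) * x i) := by
  classical
  have h1 : ∀ i, ∃ y : ℕ, 0 < y ∧ IsIntegral ℤ ((y : ℂ) * x i) := by
    intro i
    obtain ⟨y, hy0, hy⟩ := (hx i).exists_integral_multiple
    refine ⟨y.natAbs, Int.natAbs_pos.2 hy0, ?_⟩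
    rw [zsmul_eq_mul] at hy
    rcases Int.natAbs_eq y with h | h
    · have : ((y.natAbs : ℕ) : ℂ) = (y : ℂ) := by
        conv_rhs => rw [h]
        simp
      rwa [this]
    · have : ((y.natAbs : ℕ) : ℂ) = -(y : ℂ) := by
        conv_rhs => rw [h]
        simp
      rw [this, neg_mul]
      exact hy.neg
  choose y hy0 hy using h1
  refine ⟨∏ i, y i, Finset.prod_pos fun i _ => hy0 i, fun i => ?_⟩
  rw [← Finset.prod_erase_mul _ _ (Finset.mem_univ i), Nat.cast_mul, mul_assoc]
  refine IsIntegral.mul ?_ (hy i)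
  exact isIntegral_natCast _

/-- Every algebraic number has an integral multiple (`IsAlgebraic.exists_integral_multiple`); the
entries of `cinv` are algebraic. -/
theorem NF.exists_den (N : NF d) : ∃ D : ℕ, 0 < D ∧ (∀ s i, IsIntegral ℤ ((D : ℂ) * N.cinv s i)) ∧
    ∀ i j, i ≠ j → IsIntegral ℤ ((D : ℂ) / (N.θ i - N.θ j)) := by
  obtain ⟨D, hD, h⟩ := exists_den_fin
    (Sum.elim (fun p : Fin d × Fin d => N.cinv p.1 p.2)
      (fun p : Fin d × Fin d => (N.θ p.1 - N.θ p.2)⁻¹)) (by
      rintro (p | p)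
      · exact N.cinv_isAlgebraic _ _
      · exact ((N.theta_isIntegral p.1).sub (N.theta_isIntegral p.2)).isAlgebraic.inv)
  refine ⟨D, hD, fun s i => h (Sum.inl (s, i)), fun i j _ => ?_⟩
  rw [div_eq_mul_inv]
  exact h (Sum.inr (i, j))

end Crest.Agent.R22
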