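import Crest.Agent.R22.Defs

/-! Numerical verification of the exponents.  `ν = 10⁻⁵` is the mesh, `δ0 = 10⁻⁴` the saving. -/

namespace Crest.Agent.R22

/-- The mesh of the grids of exponents. -/
noncomputable def nu : ℝ := 1 / 100000

/-- The final saving. -/
noncomputable def del : ℝ := 1 / 10000

/-- The β-side is used for `‖β‖ ≤ X^(hb0 d)`. -/
noncomputable def hb0 (d : ℕ) : ℝ :=
  if d = 4 then 3398 / 10000 else if d = 5 then 2526 / 10000 else if d = 6 then 2025 / 10000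
  else if d = 7 then 1684 / 10000 else 144 / 1000

/-- Lower bound for the degree in `α` of a β-side curve, `d ≥ 5`. -/
def cgB (d : ℕ) : ℕ := if d = 5 then 10 else if d = 6 then 16 else if d = 7 then 26 else 36

theorem num_beta (d : ℕ) (h5 : 5 ≤ d) (h8 : d ≤ 8) (h ε : ℝ) (hh : 1 / (d : ℝ) - nu ≤ h)
    (hh0 : h ≤ hb0 d) (hε : 0 ≤ ε) (hε1 : 2 * ε ≤ h * ((d - 2) / (d - 1)) + 2 * nu) :
    0 ≤ h + 2 * nu - ε ∧ 0 < 1 - (d - 2) * h + nu ∧ ∃ m π : ℝ, 0 < m ∧ m ≤ 1 ∧ 0 < π ∧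
      SurfIneq d 1 (d - 2) 0 1 (h + 2 * nu - ε) (1 - (d - 2) * h + nu) m ∧
      CurveIneq 1 (d - 2) 2 (cgB d) (((1 : ℕ) : ℝ) / (1 : ℕ)) (h + 2 * nu - ε)
        (1 - (d - 2) * h + nu) 0 1 π ∧
      (d + 1) * (ε + nu) + (d - 1) * (h * ((d - 2) / (d - 1)) + 3 * nu - ε) + (m + π) ≤ 1 - del := by
  interval_cases d
  · simp only [nu, hb0] at hh hh0 hε1
    norm_num at hh hh0 hε1
    refine ⟨?_, ?_, (1 - 3 * h + 1 / 100000) ^ 2 / 4 + 1 / 100000,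
      (34 * (1 - 3 * h + 1 / 100000) + 24 * (h + 2 / 100000 - ε)) / 338 + 1 / 100000, ?_, ?_, ?_, ?_, ?_, ?_⟩ <;>
    (try simp only [nu, del, cgB, SurfIneq, CurveIneq]) <;> norm_num <;>
    nlinarith [mul_nonneg (sub_nonneg.2 hh) (sub_nonneg.2 hh0)]
  · simp only [nu, hb0] at hh hh0 hε1
    norm_num at hh hh0 hε1
    refine ⟨?_, ?_, 9 * (1 - 4 * h + 1 / 100000) ^ 2 / 64 + 1 / 100000,
      (52 * (1 - 4 * h + 1 / 100000) + 48 * (h + 2 / 100000 - ε)) / 800 + 1 / 100000, ?_, ?_, ?_, ?_, ?_, ?_⟩ <;>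
    (try simp only [nu, del, cgB, SurfIneq, CurveIneq]) <;> norm_num <;>
    nlinarith [mul_nonneg (sub_nonneg.2 hh) (sub_nonneg.2 hh0)]
  · simp only [nu, hb0] at hh hh0 hε1
    norm_num at hh hh0 hε1
    refine ⟨?_, ?_, 9 * (1 - 5 * h + 1 / 100000) ^ 2 / 100 + 1 / 100000,
      (80 * (1 - 5 * h + 1 / 100000) + 90 * (h + 2 / 100000 - ε)) / 1922 + 1 / 100000, ?_, ?_, ?_, ?_, ?_, ?_⟩ <;>
    (try simp only [nu, del, cgB, SurfIneq, CurveIneq]) <;> norm_num <;>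
    nlinarith [mul_nonneg (sub_nonneg.2 hh) (sub_nonneg.2 hh0)]
  · simp only [nu, hb0] at hh hh0 hε1
    norm_num at hh hh0 hε1
    refine ⟨?_, ?_, 9 * (1 - 6 * h + 1 / 100000) ^ 2 / 144 + 1 / 100000,
      (108 * (1 - 6 * h + 1 / 100000) + 144 * (h + 2 / 100000 - ε)) / 3528 + 1 / 100000, ?_, ?_, ?_, ?_, ?_, ?_⟩ <;>
    (try simp only [nu, del, cgB, SurfIneq, CurveIneq]) <;> norm_num <;>
    nlinarith [mul_nonneg (sub_nonneg.2 hh) (sub_nonneg.2 hh0)]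

theorem num_alpha (d : ℕ) (h5 : 5 ≤ d) (h8 : d ≤ 8) (h ε : ℝ) (hh : 9 / 10 / (d : ℝ) ≤ h)
    (hh0 : h ≤ 1 - (d - 2) * hb0 d + nu) (hε : 0 ≤ ε)
    (hε1 : 2 * ε ≤ h * ((d - 2) / (d - 1)) + 2 * nu) :
    0 ≤ h + 2 * nu - ε ∧ 0 < (1 - h) / (d - 2) + nu ∧ ∃ m π : ℝ, 0 < m ∧ m ≤ 1 ∧ 0 < π ∧
      SurfIneq d (d - 2) 1 0 1 (h + 2 * nu - ε) ((1 - h) / (d - 2) + nu) m ∧
      CurveIneq (d - 2) 1 2 3 (((0 : ℕ) : ℝ) / (1 : ℕ)) (h + 2 * nu - ε)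
        ((1 - h) / (d - 2) + nu) 0 1 π ∧
      (d + 1) * (ε + nu) + (d - 1) * (h * ((d - 2) / (d - 1)) + 3 * nu - ε) + (m + π) ≤ 1 - del := by
  interval_cases d
  · simp only [nu, hb0] at hh hh0 hε1
    norm_num at hh hh0 hε1
    refine ⟨?_, ?_, (1 - h + 3 / 100000) ^ 2 / 108 + 1 / 100000,
      ((h + 2 / 100000 - ε) + (1 - h + 3 / 100000)) / 11 + 1 / 100000, ?_, ?_, ?_, ?_, ?_, ?_⟩ <;>
    (try simp only [nu, del, cgB, SurfIneq, CurveIneq]) <;> norm_num <;>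
    nlinarith [mul_nonneg (sub_nonneg.2 hh) (sub_nonneg.2 hh0)]
  · simp only [nu, hb0] at hh hh0 hε1
    norm_num at hh hh0 hε1
    refine ⟨?_, ?_, 1 / 1000,
      ((h + 2 / 100000 - ε) + (1 - h + 4 / 100000)) / 14 + 1 / 100000, ?_, ?_, ?_, ?_, ?_, ?_⟩ <;>
    (try simp only [nu, del, cgB, SurfIneq, CurveIneq]) <;> norm_num <;>
    nlinarith [mul_nonneg (sub_nonneg.2 hh) (sub_nonneg.2 hh0)]
  · simp only [nu, hb0] at hh hh0 hε1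
    norm_num at hh hh0 hε1
    refine ⟨?_, ?_, 1 / 1000,
      ((h + 2 / 100000 - ε) + (1 - h + 5 / 100000)) / 17 + 1 / 100000, ?_, ?_, ?_, ?_, ?_, ?_⟩ <;>
    (try simp only [nu, del, cgB, SurfIneq, CurveIneq]) <;> norm_num <;>
    nlinarith [mul_nonneg (sub_nonneg.2 hh) (sub_nonneg.2 hh0)]
  · simp only [nu, hb0] at hh hh0 hε1
    norm_num at hh hh0 hε1
    refine ⟨?_, ?_, 1 / 1000,
      ((h + 2 / 100000 - ε) + (1 - h + 6 / 100000)) / 20 + 1 / 100000, ?_, ?_, ?_, ?_, ?_, ?_⟩ <;>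
    (try simp only [nu, del, cgB, SurfIneq, CurveIneq]) <;> norm_num <;>
    nlinarith [mul_nonneg (sub_nonneg.2 hh) (sub_nonneg.2 hh0)]

theorem num_alpha4 (h ε : ℝ) (hh : 9 / 40 ≤ h) (hh0 : h ≤ 1 - 2 * hb0 4 + nu) (hε : 0 ≤ ε)
    (hε1 : 2 * ε ≤ h * (2 / 3) + 2 * nu) :
    0 ≤ h + 2 * nu - ε ∧ 0 < (1 - h) / 2 + nu ∧ ∃ m π π' : ℝ, 0 < m ∧ m ≤ 1 ∧ 0 < π ∧ 0 < π' ∧
      SurfIneq 4 2 1 6 5 (h + 2 * nu - ε) ((1 - h) / 2 + nu) m ∧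
      CurveIneq 2 1 2 4 (((1 : ℕ) : ℝ) / (8 : ℕ)) (h + 2 * nu - ε) ((1 - h) / 2 + nu) 0 1 π ∧
      CurveIneq 2 1 2 3 (((0 : ℕ) : ℝ) / (1 : ℕ)) (h + 2 * nu - ε) ((1 - h) / 2 + nu) 0 1 π' ∧
      5 * (ε + nu) + 3 * (h * (2 / 3) + 3 * nu - ε) + (m + π) ≤ 1 - del ∧
      4 * (ε + nu) + 3 * (h * (2 / 3) + 3 * nu - ε) + (m + π') ≤ 1 - del := by
  simp only [nu, hb0] at hh0 hε1
  norm_num at hh0 hε1
  refine ⟨?_, ?_,
    9 * (6 * (h + 2 / 100000 - ε) + 10 * ((1 - h) / 2 + 1 / 100000)) ^ 2 / 3520 + 1 / 100000,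
    (181 / 16 * ((1 - h) / 2 + 1 / 100000) + 5 * (h + 2 / 100000 - ε)) * 8 / 441 + 1 / 100000,
    ((h + 2 / 100000 - ε) + 2 * ((1 - h) / 2 + 1 / 100000)) / 8 + 1 / 100000,
    ?_, ?_, ?_, ?_, ?_, ?_, ?_, ?_, ?_⟩ <;>
  (try simp only [nu, del, SurfIneq, CurveIneq]) <;> norm_num <;>
  nlinarith [mul_nonneg hε (sub_nonneg.2 hε1), mul_nonneg (sub_nonneg.2 hh) (sub_nonneg.2 hh0),
      mul_nonneg (sub_nonneg.2 hε1) (sub_nonneg.2 hh0), mul_nonneg hε (sub_nonneg.2 hh0),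
      mul_nonneg (sub_nonneg.2 hε1) (sub_nonneg.2 hh), mul_nonneg hε (sub_nonneg.2 hh)]

theorem num_beta4 (h ε : ℝ) (hh : 1 / 4 - nu ≤ h) (hh0 : h ≤ hb0 4) (hε : 0 ≤ ε)
    (hε1 : 2 * ε ≤ h * (2 / 3) + 2 * nu) :
    2 * ε / 3 < 1 - 2 * h + nu ∧ ∃ m π π' : ℝ, 0 < m ∧ m ≤ 1 ∧ 0 < π ∧ 0 < π' ∧
      9 / 16 * (1 - 2 * h + nu - 2 * ε / 3) ^ 2 < m ∧
      CurveIneq 1 2 2 8 1 (h + 2 * nu - ε) (1 - 2 * h + nu) 0 1 π ∧
      CurveIneq 1 2 2 7 (6 / 5) (h + 2 * nu - ε) (1 - 2 * h + nu) 1 (11 + 2 / m) π ∧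
      CurveIneq 1 2 2 6 4 (h + 2 * nu - ε) (1 - 2 * h + nu) (1 - 24 * (1 / 50)) 10 π ∧
      CurveIneq 1 2 2 6 (((4 : ℕ) : ℝ) / (5 : ℕ)) (h + 2 * nu - ε) (1 - 2 * h + nu) 0 1 π' ∧
      5 * (ε + nu) + 3 * (h * (2 / 3) + 3 * nu - ε) + (m + π) ≤ 1 - del ∧
      ((1 / 50 ≤ ε ∧
          4 * (ε + nu) + 4 * (h * (2 / 3) + 3 * nu - ε) - 1 / 50 + (m + π') ≤ 1 - del) ∨
        5 * (ε + nu) + 3 * (h * (2 / 3) + 3 * nu - ε) + (m + π') ≤ 1 - del) := by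
  simp only [nu, hb0] at hh hh0 hε1
  norm_num at hh hh0 hε1
  obtain ⟨A, hA⟩ : ∃ A : ℝ, A = 1 - 2 * h + 1 / 100000 - 2 * ε / 3 := ⟨_, rfl⟩
  have hA0 : 2448 / 10000 ≤ A := by rw [hA]; linarith
  have hA1 : A ≤ 51 / 100 := by rw [hA]; linarith
  obtain ⟨m, hm⟩ : ∃ m : ℝ, m = 9 / 16 * A ^ 2 + 1 / 100000 := ⟨_, rfl⟩
  have hm0 : (337 : ℝ) / 10000 ≤ m := by rw [hm]; nlinarith
  have hmu : m ≤ 9 / 16 * ((2448 / 10000 + 51 / 100) * A - 2448 / 10000 * (51 / 100))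
      + 1 / 100000 := by
    rw [hm]; nlinarith
  have hmpos : 0 < m := by linarith
  have hG : (14215 : ℝ) / 1000000 ≤ 1 / (11 + 2 / m) := by
    rw [div_le_div_iff₀ (by norm_num) (by positivity)]
    have : 2 / m ≤ 2 / (337 / 10000) := div_le_div_of_nonneg_left (by norm_num) (by norm_num) hm0
    linarith
  have hG' : (1 : ℝ) * (7 * (6 / 5)) ^ 2 / (2 * (11 + 2 / m)) = 882 / 25 * (1 / (11 + 2 / m)) := by
    field_simp; ring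
  obtain ⟨p8, hp8⟩ : ∃ p : ℝ, p = (26 * (1 - 2 * h + 1 / 100000) + 12 * (h + 2 / 100000 - ε)) / 200
    + 1 / 100000 := ⟨_, rfl⟩
  obtain ⟨p7, hp7⟩ : ∃ p : ℝ, p = (1439 / 50 * (1 - 2 * h + 1 / 100000) + 11 * (h + 2 / 100000 - ε)
    - 882 / 25 * (14215 / 1000000)) / (9409 / 50) + 1 / 100000 := ⟨_, rfl⟩
  obtain ⟨p6, hp6⟩ : ∃ p : ℝ, p = (141 * (1 - 2 * h + 1 / 100000) + 10 * (h + 2 / 100000 - ε)
    - 1872 / 125) / 578 + 1 / 100000 := ⟨_, rfl⟩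
  obtain ⟨π, hπ⟩ : ∃ p : ℝ, p = max p8 (max p7 p6) := ⟨_, rfl⟩
  have h8 : p8 ≤ π := hπ ▸ le_max_left _ _
  have h7 : p7 ≤ π := hπ ▸ le_trans (le_max_left _ _) (le_max_right _ _)
  have h6 : p6 ≤ π := hπ ▸ le_trans (le_max_right _ _) (le_max_right _ _)
  have hmax : π ≤ 9999 / 10000 - (5 * (ε + 1 / 100000)
      + 3 * (h * (2 / 3) + 3 / 100000 - ε)) - m := by
    rw [hπ]
    refine max_le ?_ (max_le ?_ ?_) <;> linarith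
  refine ⟨?_, m, π,
    (421 / 25 * (1 - 2 * h + 1 / 100000) + 10 * (h + 2 / 100000 - ε)) / (2738 / 25) + 1 / 100000,
    hmpos, by linarith, by linarith, by linarith, ?_, ?_, ?_, ?_, ?_, ?_, ?_⟩
  · simp only [nu]; linarith
  · simp only [nu]; rw [← hA]; linarith
  · simp only [nu, CurveIneq]; norm_num; linarith
  · simp only [nu, CurveIneq, Nat.cast_ofNat, Nat.cast_one]; rw [hG']; linarith
  · simp only [nu, CurveIneq]; norm_num; linarith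
  · simp only [nu, CurveIneq]; norm_num; linarith
  · simp only [nu, del]; linarith
  · simp only [nu, del]
    by_cases hc : h / 3 - 1 / 100 ≤ ε
    · left; constructor <;> linarith
    · right; linarith

end Crest.Agent.R22
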