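import Crest.Agent.R22.NFBasic

namespace Crest.Agent.R22

variable {d : ℕ}

theorem pair1_box (B : Fin d → ℝ) (hB : ∀ s, 0 ≤ B s) (A : Finset (Fin d → ℤ))
    (h : ∀ a ∈ A, ∀ s, |(a s : ℝ)| ≤ B s) : (A.card : ℝ) ≤ ∏ s, (2 * B s + 1) := by
  classical
  have hsub : A ⊆ Fintype.piFinset fun s => Finset.Icc (-⌊B s⌋) ⌊B s⌋ := by
    intro a ha
    refine Fintype.mem_piFinset.2 fun s => Finset.mem_Icc.2 ?_
    have h1 := abs_le.1 (h a ha s)
    refine ⟨?_, Int.le_floor.2 h1.2⟩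
    rw [neg_le, Int.le_floor]; push_cast; linarith [h1.1]
  have h1 : (A.card : ℝ) ≤ ((Fintype.piFinset fun s => Finset.Icc (-⌊B s⌋) ⌊B s⌋).card : ℝ) := by
    exact_mod_cast Finset.card_le_card hsub
  refine h1.trans ?_
  rw [Fintype.card_piFinset, Nat.cast_prod]
  refine Finset.prod_le_prod (fun s _ => Nat.cast_nonneg _) fun s _ => ?_
  have h0 : 0 ≤ ⌊B s⌋ := Int.floor_nonneg.2 (hB s)
  have h2 : (((Finset.Icc (-⌊B s⌋) ⌊B s⌋).card : ℤ) : ℝ) = ((2 * ⌊B s⌋ + 1 : ℤ) : ℝ) := by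
    rw [Int.card_Icc_of_le _ _ (by omega)]; congr 1; ring
  push_cast at h2
  rw [h2]
  linarith [Int.floor_le (B s)]

theorem pair1_coord {a : Fin d → ℤ} {M : ℝ} (h : ‖a‖ ≤ M) (s : Fin d) : |(a s : ℝ)| ≤ M := by
  have := (norm_le_pi_norm a s).trans h
  rwa [Int.norm_eq_abs] at this

theorem pair1_fib {α β : Type} [DecidableEq β] (f : α → β) (A : Finset α) (K : ℝ)
    (h : ∀ b ∈ A.image f, ((A.filter fun a => f a = b).card : ℝ) ≤ K) :
    (A.card : ℝ) ≤ (A.image f).card * K := by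
  rw [Finset.card_eq_sum_card_image f A, Nat.cast_sum]
  exact (Finset.sum_le_card_nsmul _ _ _ h).trans (by rw [nsmul_eq_mul])

theorem pair1_cover {α ι : Type} [Fintype ι] (A : Finset α) (P : ι → α → Prop)
    [∀ i, DecidablePred (P i)] (K : ℝ) (hP : ∀ a ∈ A, ∃ i, P i a)
    (h : ∀ i, ((A.filter (P i)).card : ℝ) ≤ K) : (A.card : ℝ) ≤ Fintype.card ι * K := by
  classical
  have hsub : A ⊆ Finset.univ.biUnion fun i => A.filter (P i) := fun a ha => by
    obtain ⟨i, hi⟩ := hP a ha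
    exact Finset.mem_biUnion.2 ⟨i, Finset.mem_univ _, Finset.mem_filter.2 ⟨ha, hi⟩⟩
  have h1 : (A.card : ℝ) ≤ ∑ i, ((A.filter (P i)).card : ℝ) := by
    exact_mod_cast (Finset.card_le_card hsub).trans Finset.card_biUnion_le
  exact h1.trans ((Finset.sum_le_card_nsmul _ _ _ fun i _ => h i).trans
    (by rw [nsmul_eq_mul, Finset.card_univ]))

theorem pair1_int (A : Finset ℤ) (r : ℝ) (hr : 0 ≤ r)
    (h : ∀ a ∈ A, ∀ b ∈ A, |(a : ℝ) - b| ≤ r) : (A.card : ℝ) ≤ r + 1 := by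
  rcases A.eq_empty_or_nonempty with rfl | hne
  · simp; linarith
  have hsub : A ⊆ Finset.Icc (A.min' hne) (A.min' hne + ⌊r⌋) := fun a ha => by
    refine Finset.mem_Icc.2 ⟨A.min'_le a ha, ?_⟩
    have := (abs_le.1 (h a ha _ (A.min'_mem hne))).2
    have h2 : a - A.min' hne ≤ ⌊r⌋ := Int.le_floor.2 (by push_cast; exact this)
    omega
  have h0 : 0 ≤ ⌊r⌋ := Int.floor_nonneg.2 hr
  have h1 : (A.card : ℝ) ≤ ((Finset.Icc (A.min' hne) (A.min' hne + ⌊r⌋)).card : ℝ) := by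
    exact_mod_cast Finset.card_le_card hsub
  have h2 : (((Finset.Icc (A.min' hne) (A.min' hne + ⌊r⌋)).card : ℤ) : ℝ) = ((⌊r⌋ + 1 : ℤ) : ℝ) := by
    rw [Int.card_Icc_of_le _ _ (by omega)]; congr 1; ring
  push_cast at h2
  linarith [Int.floor_le r]

theorem pair1_prod_ite (s0 : Fin d) (x y : ℝ) :
    ∏ s, (if s = s0 then x else y) = x * y ^ (d - 1) := by
  rw [← Finset.mul_prod_erase _ _ (Finset.mem_univ s0), if_pos rfl,
    Finset.prod_congr rfl (g := fun _ => y) fun s hs => if_neg (Finset.mem_erase.1 hs).1,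
    Finset.prod_const, Finset.card_erase_of_mem (Finset.mem_univ _), Finset.card_univ,
    Fintype.card_fin]

/-- Vectors in a box: `(2 M + 1)^d ≤ (3 M)^d`. -/
theorem card_box (M : ℝ) (hM : 1 ≤ M) (A : Finset (Fin d → ℤ)) (h : ∀ a ∈ A, ‖a‖ ≤ M) :
    (A.card : ℝ) ≤ (3 * M) ^ d := by
  refine (pair1_box (fun _ => M) (fun _ => by linarith) A fun a ha s =>
    pair1_coord (h a ha) s).trans ?_
  rw [Finset.prod_const, Finset.card_univ, Fintype.card_fin]
  exact pow_le_pow_left₀ (by linarith) (by linarith) _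

/-- Reduced pairs: `e1` in a box of size `M1`; `e2` in one of `d` boxes `M1 × M2^(d-1)`. -/
theorem card_pairs (hd : 1 ≤ d) (M1 M2 : ℝ) (h1 : 1 ≤ M1) (h2 : 1 ≤ M2)
    (Ps : Finset ((Fin d → ℤ) × (Fin d → ℤ)))
    (h : ∀ e ∈ Ps, ‖e.1‖ ≤ M1 ∧ ‖e.2‖ ≤ M2 ∧ ∃ s, |(e.2 s : ℝ)| ≤ ‖e.1‖) :
    (Ps.card : ℝ) ≤ d * 9 ^ d * M1 ^ (d + 1) * M2 ^ (d - 1) := by
  classical
  have key := pair1_cover Ps (fun s e => |(e.2 s : ℝ)| ≤ M1) (9 ^ d * M1 ^ (d + 1) * M2 ^ (d - 1))
    (fun e he => by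
      obtain ⟨a1, -, s, hs⟩ := h e he
      exact ⟨s, hs.trans a1⟩) (fun s => ?_)
  · rw [Fintype.card_fin] at key
    linarith
  set Q := Ps.filter fun e => |(e.2 s : ℝ)| ≤ M1 with hQ
  have h3 : (Q.card : ℝ) ≤ (Q.image Prod.fst).card * (Q.image Prod.snd).card := by
    have := Finset.card_le_card (Finset.subset_product (s := Q))
    rw [Finset.card_product] at this
    exact_mod_cast this
  have h4 := card_box M1 h1 (Q.image Prod.fst) (by
    intro a ha
    obtain ⟨e, he, rfl⟩ := Finset.mem_image.1 ha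
    exact (h e (Finset.mem_filter.1 he).1).1)
  have h5 := pair1_box (fun t => if t = s then M1 else M2)
    (fun t => by split_ifs <;> linarith) (Q.image Prod.snd) (by
    intro a ha t
    obtain ⟨e, he, rfl⟩ := Finset.mem_image.1 ha
    split_ifs with ht
    · rw [ht]; exact (Finset.mem_filter.1 he).2
    · exact pair1_coord (h e (Finset.mem_filter.1 he).1).2.1 t)
  have h6 : ∏ t, (2 * (if t = s then M1 else M2) + 1) ≤ 3 * M1 * (3 * M2) ^ (d - 1) := by
    rw [← pair1_prod_ite s]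
    refine Finset.prod_le_prod (fun t _ => ?_) fun t _ => ?_ <;> split_ifs <;> linarith
  refine h3.trans ((mul_le_mul h4 (h5.trans h6) (Nat.cast_nonneg _) (by positivity)).trans
    (le_of_eq ?_))
  obtain ⟨k, rfl⟩ : ∃ k, d = k + 1 := ⟨d - 1, by omega⟩
  rw [Nat.add_sub_cancel, show (9 : ℝ) = 3 * 3 by norm_num]
  simp only [mul_pow]
  ring

/-- Points of a box in a slab: if `|L s0| ≥ 1`, then for fixed other coordinates `a s0` lies in an interval
of length `≤ 2 ρ`. -/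
theorem card_slab (M ρ : ℝ) (hM : 1 ≤ M) (hρ : 0 ≤ ρ) (L : Fin d → ℂ) (s0 : Fin d)
    (hL : 1 ≤ ‖L s0‖) (A : Finset (Fin d → ℤ))
    (h : ∀ a ∈ A, ‖a‖ ≤ M ∧ ‖∑ s, L s * (a s : ℂ)‖ ≤ ρ) :
    (A.card : ℝ) ≤ (3 * M) ^ (d - 1) * (2 * ρ + 1) := by
  classical
  refine (pair1_fib (fun a => Function.update a s0 0) A (2 * ρ + 1) fun b _ => ?_).trans
    (mul_le_mul_of_nonneg_right ?_ (by linarith))
  · set Q := A.filter fun a => Function.update a s0 0 = b with hQ
    have hoth : ∀ a ∈ Q, ∀ a' ∈ Q, ∀ s, s ≠ s0 → a s = a' s := by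
      intro a ha a' ha' s hs
      have e := congrFun ((Finset.mem_filter.1 ha).2.trans (Finset.mem_filter.1 ha').2.symm) s
      simpa [Function.update_of_ne hs] using e
    have hinj : Set.InjOn (fun a : Fin d → ℤ => a s0) Q := by
      intro a ha a' ha' e
      funext s
      by_cases hs : s = s0
      · rw [hs]; exact e
      · exact hoth a ha a' ha' s hs
    rw [← Finset.card_image_of_injOn hinj]
    refine pair1_int _ _ (by linarith) fun x hx y hy => ?_
    obtain ⟨a, ha, rfl⟩ := Finset.mem_image.1 hx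
    obtain ⟨a', ha', rfl⟩ := Finset.mem_image.1 hy
    have e : ∑ s, L s * (a s : ℂ) - ∑ s, L s * (a' s : ℂ) = L s0 * ((a s0 - a' s0 : ℤ) : ℂ) := by
      rw [← Finset.sum_sub_distrib, Finset.sum_eq_single s0]
      · push_cast; ring
      · intro s _ hs
        rw [hoth a ha a' ha' s hs, sub_self]
      · simp
    have h1 := norm_sub_le (∑ s, L s * (a s : ℂ)) (∑ s, L s * (a' s : ℂ))
    rw [e, norm_mul, Complex.norm_intCast] at h1
    push_cast at h1
    have h2 := (h a (Finset.mem_filter.1 ha).1).2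
    have h3 := (h a' (Finset.mem_filter.1 ha').1).2
    nlinarith [abs_nonneg ((a s0 : ℝ) - a' s0)]
  · refine (pair1_box (fun t => if t = s0 then 0 else M) (fun t => by split_ifs <;> linarith) _
      ?_).trans ?_
    · intro a ha t
      obtain ⟨e, he, rfl⟩ := Finset.mem_image.1 ha
      split_ifs with ht
      · simp [ht]
      · rw [Function.update_of_ne ht]; exact pair1_coord (h e he).1 t
    · rw [← one_mul ((3 * M) ^ (d - 1)), ← pair1_prod_ite s0]
      refine Finset.prod_le_prod (fun t _ => ?_) fun t _ => ?_ <;> split_ifs <;> linarith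

end Crest.Agent.R22
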