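import Crest.Agent.R22.NFBasic
import Crest.Agent.R22.Pair1

namespace Crest.Agent.R22

variable {d : ℕ}

theorem pair2_slab (N : NF d) {c : ℝ} (hc : 0 < c) : ∃ K : ℝ, 0 ≤ K ∧ ∀ (M M1 η : ℝ), 1 ≤ M1 → M1 ≤ M →
    0 ≤ η → ∀ (i j : Fin d), i ≠ j → ∀ a : Fin d → ℤ, a ≠ 0 → c * ‖a‖ ≤ ‖N.emb a i‖ →
    ∀ A : Finset (Fin d → ℤ), (∀ b ∈ A, ‖b‖ ≤ M ∧ ‖N.PP a b i j‖ ≤ η * (‖a‖ * ‖b‖)) →
    (A.card : ℝ) ≤ K * M ^ d * (η + 1 / M1) := by
  obtain ⟨C, hC1, hθ, -, -, -, hsep⟩ := N.exists_C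
  have hd := N.four_le
  refine ⟨3 ^ d * (2 * (2 * C ^ 2 / c) + 1), by positivity, ?_⟩
  intro M M1 η hM1 hM hη i j hij a ha hca A hA
  have hna : 0 < ‖a‖ := norm_pos_iff.2 ha
  have hM0 : 0 < M := by linarith
  obtain ⟨s0, hs0⟩ : ∃ s0 : Fin d, ‖N.emb a i‖ ≤
      2 * C ^ 2 * ‖N.emb a i * N.θ j ^ (s0 : ℕ) - N.emb a j * N.θ i ^ (s0 : ℕ)‖ := by
    by_contra hcon
    push Not at hcon
    have h0 := hcon ⟨0, by omega⟩
    have h1 := hcon ⟨1, by omega⟩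
    simp only [pow_zero, mul_one, pow_one] at h0 h1
    have e : N.emb a i * (N.θ j - N.θ i) = (N.emb a i * N.θ j - N.emb a j * N.θ i) -
        N.θ i * (N.emb a i - N.emb a j) := by ring
    have h2 := norm_sub_le (N.emb a i * N.θ j - N.emb a j * N.θ i) (N.θ i * (N.emb a i - N.emb a j))
    rw [← e, norm_mul, norm_mul] at h2
    have h3 := hsep j i hij.symm
    have h4 := mul_le_mul_of_nonneg_right (hθ i) (norm_nonneg (N.emb a i - N.emb a j))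
    generalize ‖N.emb a i * N.θ j - N.emb a j * N.θ i‖ = x at *
    generalize ‖N.emb a i - N.emb a j‖ = y at *
    have h5 := mul_le_mul_of_nonneg_left h3 (norm_nonneg (N.emb a i))
    have h6 : C * (‖N.emb a i‖ * ‖N.θ j - N.θ i‖) ≤ C * (x + C * y) :=
      mul_le_mul_of_nonneg_left (by linarith) (by linarith)
    have hx : 0 ≤ x ∨ x < 0 := le_or_gt _ _
    have h7 : C * x ≤ C ^ 2 * x ∨ x < 0 := hx.imp_left fun hx => by
      have := mul_le_mul_of_nonneg_right hC1 (mul_nonneg (by linarith : 0 ≤ C) hx)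
      linarith
    rcases h7 with h7 | h7
    · linarith
    · have : C * x < 0 := mul_neg_of_pos_of_neg (by linarith) h7
      linarith [norm_nonneg (N.emb a i)]
  obtain ⟨lam, hlam⟩ : ∃ lam : ℝ, lam = 2 * C ^ 2 / (c * ‖a‖) := ⟨_, rfl⟩
  have hlam0 : 0 < lam := by rw [hlam]; positivity
  have key := card_slab M (2 * C ^ 2 / c * η * M) (by linarith) (by positivity)
    (fun s => (lam : ℂ) * (N.emb a i * N.θ j ^ (s : ℕ) - N.emb a j * N.θ i ^ (s : ℕ))) s0 ?_ A ?_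
  · refine key.trans ?_
    obtain ⟨k, rfl⟩ : ∃ k, d = k + 1 := ⟨d - 1, by omega⟩
    rw [Nat.add_sub_cancel]
    have hK : 0 ≤ 2 * C ^ 2 / c := by positivity
    generalize 2 * C ^ 2 / c = K at *
    have h1 : 1 ≤ M * (1 / M1) := by
      rw [mul_one_div, le_div_iff₀ (by linarith)]; linarith
    have h2 : 2 * (K * η * M) + 1 ≤ 3 * (2 * K + 1) * M * (η + 1 / M1) := by
      have h3 : 0 ≤ K * η * M := by positivity
      have h4 : 0 ≤ η * M := by positivity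
      have h5 : 0 ≤ K * (M * (1 / M1)) := by positivity
      nlinarith
    calc (3 * M) ^ k * (2 * (K * η * M) + 1) ≤ (3 * M) ^ k * (3 * (2 * K + 1) * M * (η + 1 / M1)) :=
          mul_le_mul_of_nonneg_left h2 (by positivity)
      _ = _ := by rw [mul_pow]; ring
  · rw [norm_mul, Complex.norm_real, Real.norm_of_nonneg hlam0.le, hlam, div_mul_eq_mul_div,
      le_div_iff₀ (by positivity)]
    linarith
  · intro b hb
    refine ⟨(hA b hb).1, ?_⟩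
    have e : ∑ s : Fin d, (lam : ℂ) * (N.emb a i * N.θ j ^ (s : ℕ) - N.emb a j * N.θ i ^ (s : ℕ)) *
        (b s : ℂ) = lam * N.PP a b i j := by
      rw [NF.PP]
      generalize N.emb a i = x
      generalize N.emb a j = y
      simp only [NF.emb, Finset.mul_sum, ← Finset.sum_sub_distrib]
      exact Finset.sum_congr rfl fun s _ => by ring
    rw [e, norm_mul, Complex.norm_real, Real.norm_of_nonneg hlam0.le]
    calc lam * ‖N.PP a b i j‖ ≤ lam * (η * (‖a‖ * M)) := by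
          refine mul_le_mul_of_nonneg_left ((hA b hb).2.trans ?_) hlam0.le
          exact mul_le_mul_of_nonneg_left (mul_le_mul_of_nonneg_left (hA b hb).1 hna.le) hη
      _ = _ := by rw [hlam]; field_simp

theorem pair2_fib {α : Type} [DecidableEq α] (Q : Finset (α × α)) (K : ℝ)
    (h : ∀ a ∈ Q.image Prod.fst, ∀ A : Finset α, (∀ b ∈ A, (a, b) ∈ Q) → (A.card : ℝ) ≤ K) :
    (Q.card : ℝ) ≤ (Q.image Prod.fst).card * K := by
  refine pair1_fib Prod.fst Q K fun a ha => ?_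
  have hinj : Set.InjOn Prod.snd ((Q.filter fun e => e.1 = a : Finset (α × α)) : Set (α × α)) := by
    intro e he e' he' h2
    exact Prod.ext ((Finset.mem_filter.1 he).2.trans (Finset.mem_filter.1 he').2.symm) h2
  rw [← Finset.card_image_of_injOn hinj]
  refine h a ha _ fun b hb => ?_
  obtain ⟨e, he, rfl⟩ := Finset.mem_image.1 hb
  obtain ⟨h1, rfl⟩ := Finset.mem_filter.1 he
  exact h1

/-- Lines with a small conjugate minor are rare.  Split by `(i, j)` and by the alternative.  If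
`c ‖e1‖ ≤ |ê1 i|`, fix `e1`: `PP e1 e2 i j = ∑ s, (A θ j^s - B θ i^s) e2 s` with `A = ê1 i`, `B = ê1 j`;
one of the coefficients `s = 0, 1` has modulus `≥ c' |A|` (`A (θ j - θ i) = (A θ j - B θ i) - θ i (A - B)`);
normalise by `c' c ‖e1‖` and use `card_slab` with `ρ = C η M2`.  If `c ‖e2‖ ≤ |ê2 i|`, fix `e2` and count
`e1` in the same way.  `1 / M2 ≤ 1 / M1`. -/
theorem NF.card_rare (N : NF d) {c : ℝ} (hc : 0 < c) : ∃ C : ℝ, 0 ≤ C ∧ ∀ (M1 M2 η : ℝ), 1 ≤ M1 →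
    M1 ≤ M2 → 0 ≤ η → ∀ Ps : Finset ((Fin d → ℤ) × (Fin d → ℤ)),
    (∀ e ∈ Ps, e.1 ≠ 0 ∧ e.2 ≠ 0 ∧ ‖e.1‖ ≤ M1 ∧ ‖e.2‖ ≤ M2 ∧ ¬ Sep N η e.1 e.2 ∧
      ∀ i, c * ‖e.1‖ ≤ ‖N.emb e.1 i‖ ∨ c * ‖e.2‖ ≤ ‖N.emb e.2 i‖) →
    (Ps.card : ℝ) ≤ C * M1 ^ d * M2 ^ d * (η + 1 / M1) := by
  classical
  obtain ⟨K, hK, hs⟩ := pair2_slab N hc
  refine ⟨Fintype.card (Fin d × Fin d × Bool) * (3 ^ d * K), by positivity, ?_⟩
  intro M1 M2 η h1 h12 hη Ps hPs
  have hpos : 0 ≤ η + 1 / M1 := by positivity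
  have hM2 : 0 < M2 := by linarith
  have key := pair1_cover Ps (fun (t : Fin d × Fin d × Bool) e => t.1 ≠ t.2.1 ∧
      ‖N.PP e.1 e.2 t.1 t.2.1‖ ≤ η * (‖e.1‖ * ‖e.2‖) ∧
      if t.2.2 then c * ‖e.1‖ ≤ ‖N.emb e.1 t.1‖ else c * ‖e.2‖ ≤ ‖N.emb e.2 t.1‖)
    (3 ^ d * K * M1 ^ d * M2 ^ d * (η + 1 / M1)) ?_ ?_
  · linarith
  · intro e he
    obtain ⟨-, -, -, -, h5, h6⟩ := hPs e he
    simp only [Sep, not_forall, not_le] at h5
    obtain ⟨i, j, hij, h5⟩ := h5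
    rcases h6 i with h6 | h6
    · exact ⟨(i, j, true), hij, h5.le, by simpa using h6⟩
    · exact ⟨(i, j, false), hij, h5.le, by simpa using h6⟩
  · rintro ⟨i, j, bb⟩
    suffices H : ∀ Q : Finset ((Fin d → ℤ) × (Fin d → ℤ)), (∀ a b, (a, b) ∈ Q → (a, b) ∈ Ps ∧ i ≠ j ∧
        ‖N.PP a b i j‖ ≤ η * (‖a‖ * ‖b‖) ∧
        if bb then c * ‖a‖ ≤ ‖N.emb a i‖ else c * ‖b‖ ≤ ‖N.emb b i‖) →
        (Q.card : ℝ) ≤ 3 ^ d * K * M1 ^ d * M2 ^ d * (η + 1 / M1) from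
      H _ fun a b hab => Finset.mem_filter.1 hab
    intro Q hQ
    cases bb
    · rw [← Finset.card_image_of_injective Q Prod.swap_injective]
      have hm : ∀ a b, (a, b) ∈ Q.image Prod.swap → (b, a) ∈ Ps ∧ i ≠ j ∧
          ‖N.PP b a i j‖ ≤ η * (‖b‖ * ‖a‖) ∧ c * ‖a‖ ≤ ‖N.emb a i‖ := by
        intro a b hab
        obtain ⟨⟨x, y⟩, he, e⟩ := Finset.mem_image.1 hab
        obtain ⟨rfl, rfl⟩ := Prod.ext_iff.1 e
        simpa using hQ _ _ he
      refine (pair2_fib _ (K * M1 ^ d * (η + 1 / M1)) fun a ha A hA => ?_).trans ?_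
      · obtain ⟨⟨x, y⟩, he, rfl⟩ := Finset.mem_image.1 ha
        obtain ⟨k1, k2, -, k4⟩ := hm x y he
        refine hs M1 M1 η h1 le_rfl hη i j k2 x (hPs _ k1).2.1 k4 A fun b hb => ?_
        obtain ⟨l1, -, l3, -⟩ := hm x b (hA b hb)
        refine ⟨(hPs _ l1).2.2.1, ?_⟩
        have e : N.PP x b i j = -N.PP b x i j := by simp only [NF.PP]; ring
        rw [e, norm_neg, mul_comm ‖x‖]
        exact l3
      · have h3 := card_box M2 (by linarith) ((Q.image Prod.swap).image Prod.fst) (by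
          intro a ha
          obtain ⟨⟨x, y⟩, he, rfl⟩ := Finset.mem_image.1 ha
          exact (hPs _ (hm x y he).1).2.2.2.1)
        refine (mul_le_mul_of_nonneg_right h3 (by positivity)).trans (le_of_eq ?_)
        rw [mul_pow]; ring
    · have hm : ∀ a b, (a, b) ∈ Q → (a, b) ∈ Ps ∧ i ≠ j ∧
          ‖N.PP a b i j‖ ≤ η * (‖a‖ * ‖b‖) ∧ c * ‖a‖ ≤ ‖N.emb a i‖ := by
        intro a b hab
        simpa using hQ _ _ hab
      refine (pair2_fib _ (K * M2 ^ d * (η + 1 / M1)) fun a ha A hA => ?_).trans ?_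
      · obtain ⟨⟨x, y⟩, he, rfl⟩ := Finset.mem_image.1 ha
        obtain ⟨k1, k2, -, k4⟩ := hm x y he
        refine hs M2 M1 η h1 h12 hη i j k2 x (hPs _ k1).1 k4 A fun b hb => ?_
        obtain ⟨l1, -, l3, -⟩ := hm x b (hA b hb)
        exact ⟨(hPs _ l1).2.2.2.1, l3⟩
      · have h3 := card_box M1 h1 (Q.image Prod.fst) (by
          intro a ha
          obtain ⟨⟨x, y⟩, he, rfl⟩ := Finset.mem_image.1 ha
          exact (hPs _ (hm x y he).1).2.2.1)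
        refine (mul_le_mul_of_nonneg_right h3 (by positivity)).trans (le_of_eq ?_)
        rw [mul_pow]; ring

end Crest.Agent.R22
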