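import Crest.Agent.R22.NFBasic
import Crest.Agent.R22.Pair2

namespace Crest.Agent.R22

variable {d : ℕ}

open MvPolynomial in
theorem pair3_sz (p : MvPolynomial (Fin 4) ℂ) (hp : p ≠ 0) (hdeg : p.totalDegree ≤ 2) (M : ℝ)
    (hM : 1 ≤ M) (A : Finset (Fin 4 → ℤ))
    (h : ∀ b ∈ A, ‖b‖ ≤ M ∧ eval (fun s => (b s : ℂ)) p = 0) : (A.card : ℝ) ≤ 54 * M ^ 3 := by
  classical
  set S : Finset ℂ := (Finset.Icc (-⌊M⌋) ⌊M⌋).image (Int.cast : ℤ → ℂ) with hS
  have h0 : 0 ≤ ⌊M⌋ := Int.floor_nonneg.2 (by linarith)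
  have hc : ((S.card : ℤ) : ℝ) = ((2 * ⌊M⌋ + 1 : ℤ) : ℝ) := by
    rw [hS, Finset.card_image_of_injective _ Int.cast_injective, Int.card_Icc_of_le _ _ (by omega)]
    congr 1; ring
  push_cast at hc
  have hfl : (0 : ℝ) ≤ ⌊M⌋ := by exact_mod_cast h0
  have hS0 : (0 : ℝ) < S.card := by rw [hc]; linarith
  have hS3 : (S.card : ℝ) ≤ 3 * M := by rw [hc]; linarith [Int.floor_le M]
  have h1 : A.card ≤ ((Fintype.piFinset fun _ : Fin 4 => S).filter fun f => eval f p = 0).card := by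
    refine Finset.card_le_card_of_injOn (fun b s => (b s : ℂ)) (fun b hb => ?_) fun b _ b' _ e => ?_
    · refine Finset.mem_coe.2 (Finset.mem_filter.2 ⟨Fintype.mem_piFinset.2 fun s => ?_, (h b hb).2⟩)
      refine Finset.mem_image.2 ⟨b s, Finset.mem_Icc.2 ?_, rfl⟩
      have h1 := abs_le.1 (pair1_coord (h b hb).1 s)
      refine ⟨?_, Int.le_floor.2 h1.2⟩
      rw [neg_le, Int.le_floor]; push_cast; linarith [h1.1]
    · funext s
      exact Int.cast_injective (congrFun e s)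
  have h2 := schwartz_zippel_totalDegree hp S
  have h3 : (((Fintype.piFinset fun _ : Fin 4 => S).filter fun f => eval f p = 0).card : ℝ) /
      (S.card : ℝ) ^ 4 ≤ p.totalDegree / S.card := by
    have := (NNRat.cast_le (K := ℝ)).2 h2
    push_cast at this
    exact this
  have h4 : (p.totalDegree : ℝ) ≤ 2 := by exact_mod_cast hdeg
  have h5 : (A.card : ℝ) ≤ ((Fintype.piFinset fun _ : Fin 4 => S).filter fun f => eval f p = 0).card := by
    exact_mod_cast h1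
  rw [div_le_iff₀ (by positivity)] at h3
  have h6 : (p.totalDegree : ℝ) / S.card * S.card ^ 4 = p.totalDegree * S.card ^ 3 := by field_simp
  have h7 : (S.card : ℝ) ^ 3 ≤ (3 * M) ^ 3 := pow_le_pow_left₀ hS0.le hS3 3
  have h8 := mul_le_mul h4 h7 (by positivity) (by norm_num)
  linarith

open MvPolynomial in
theorem pair3_poly (N : NF 4) {a : Fin 4 → ℤ} (ha : a ≠ 0) (s : ℂ) :
    ∃ p : MvPolynomial (Fin 4) ℂ, p ≠ 0 ∧ p.totalDegree ≤ 2 ∧ ∀ b : Fin 4 → ℤ,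
      eval (fun s => (b s : ℂ)) p =
        N.PP a b 0 1 * N.PP a b 2 3 - s * (N.PP a b 0 2 * N.PP a b 1 3) := by
  let l : Fin 4 → MvPolynomial (Fin 4) ℂ := fun j => ∑ t : Fin 4, C (N.θ j ^ (t : ℕ)) * X t
  let P : Fin 4 → Fin 4 → MvPolynomial (Fin 4) ℂ := fun i j =>
    C (N.emb a i) * l j - C (N.emb a j) * l i
  have hC : ∀ (x : ℂ) (q : MvPolynomial (Fin 4) ℂ), (C x * q).totalDegree ≤ q.totalDegree :=
    fun x q => (totalDegree_mul _ _).trans (by rw [totalDegree_C, zero_add])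
  have hl : ∀ j, (l j).totalDegree ≤ 1 := fun j =>
    totalDegree_finsetSum_le fun t _ => (hC _ _).trans (totalDegree_X t).le
  have hP : ∀ i j, (P i j).totalDegree ≤ 1 := fun i j =>
    (totalDegree_sub _ _).trans (max_le ((hC _ _).trans (hl _)) ((hC _ _).trans (hl _)))
  have hPP : ∀ i j i' j', (P i j * P i' j').totalDegree ≤ 2 := fun i j i' j' =>
    (totalDegree_mul _ _).trans (add_le_add (hP _ _) (hP _ _))
  have hev : ∀ (y : Fin 4 → ℂ) j, eval y (l j) = ∑ t : Fin 4, N.θ j ^ (t : ℕ) * y t := by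
    intro y j; simp [l]
  refine ⟨P 0 1 * P 2 3 - C s * (P 0 2 * P 1 3), fun h0 => ?_,
    (totalDegree_sub _ _).trans (max_le (hPP _ _ _ _) ((hC _ _).trans (hPP _ _ _ _))), fun b => ?_⟩
  · have h1 := congrArg (eval (N.co ![0, N.emb a 1, 0, N.emb a 3])) h0
    have h2 : ∀ j, eval (N.co ![0, N.emb a 1, 0, N.emb a 3]) (l j) =
        ![0, N.emb a 1, 0, N.emb a 3] j := fun j => by
      rw [hev]; exact N.sum_co _ j
    simp only [P, map_sub, map_mul, eval_C, h2, map_zero] at h1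
    have := N.emb_ne_zero ha
    simp [this] at h1
  · have h2 : ∀ j, eval (fun s => (b s : ℂ)) (l j) = N.emb b j := fun j => by
      rw [hev]; exact Finset.sum_congr rfl fun t _ => mul_comm _ _
    simp only [P, map_sub, map_mul, eval_C, h2, NF.PP]

/-- Special lines are rare.  For fixed `e1 ≠ 0` and `s`, the condition is the vanishing at `e2` of a
polynomial of total degree `≤ 2` in the four coordinates; it is not the zero polynomial: at the complex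
point with conjugates `(0, ê1 1, 0, ê1 3)` (coordinates `N.co`, `sum_co`) it equals
`ê1 0 ê1 1 ê1 2 ê1 3 ≠ 0`.  Schwartz–Zippel (`MvPolynomial.schwartz_zippel_totalDegree` on the image of
`Icc (-⌊M2⌋) ⌊M2⌋` in `ℂ`) leaves `≤ 2 (2 M2 + 1)^3` values of `e2`. -/
theorem NF.card_special (N : NF 4) (𝒮 : Finset ℂ) : ∃ C : ℝ, 0 ≤ C ∧ ∀ (M1 M2 : ℝ), 1 ≤ M1 →
    1 ≤ M2 → ∀ Ps : Finset ((Fin 4 → ℤ) × (Fin 4 → ℤ)),
    (∀ e ∈ Ps, e.1 ≠ 0 ∧ ‖e.1‖ ≤ M1 ∧ ‖e.2‖ ≤ M2 ∧ Special N 𝒮 e.1 e.2) →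
    (Ps.card : ℝ) ≤ C * M1 ^ 4 * M2 ^ 3 := by
  classical
  refine ⟨Fintype.card 𝒮 * (81 * 54), by positivity, fun M1 M2 h1 h2 Ps hPs => ?_⟩
  have key := pair1_cover Ps (fun (s : 𝒮) e => N.PP e.1 e.2 0 1 * N.PP e.1 e.2 2 3 =
      s * (N.PP e.1 e.2 0 2 * N.PP e.1 e.2 1 3)) (81 * 54 * M1 ^ 4 * M2 ^ 3) ?_ ?_
  · linarith
  · intro e he
    obtain ⟨s, hs, h⟩ := (hPs e he).2.2.2
    exact ⟨⟨s, hs⟩, h⟩
  · intro s
    refine (pair2_fib _ (54 * M2 ^ 3) fun a ha A hA => ?_).trans ?_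
    · obtain ⟨e, he, rfl⟩ := Finset.mem_image.1 ha
      obtain ⟨p, hp, hd, hev⟩ := pair3_poly N (hPs e (Finset.mem_filter.1 he).1).1 s
      refine pair3_sz p hp hd M2 h2 A fun b hb => ?_
      obtain ⟨k1, k2⟩ := Finset.mem_filter.1 (hA b hb)
      exact ⟨(hPs _ k1).2.2.1, by rw [hev]; exact sub_eq_zero.2 k2⟩
    · refine (mul_le_mul_of_nonneg_right (card_box M1 h1 _ ?_) (by positivity)).trans (le_of_eq ?_)
      · intro a ha
        obtain ⟨e, he, rfl⟩ := Finset.mem_image.1 ha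
        exact (hPs e (Finset.mem_filter.1 he).1).2.1
      · ring

end Crest.Agent.R22
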