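import Crest.Agent.R22.Kummer
import Crest.Agent.R22.Zero

namespace Crest.Agent.R22

open Polynomial
open scoped Polynomial.Bivariate

variable {d : ℕ} {Ω : Type} [Field Ω] [Algebra ℂ Ω]

theorem p1_aeval (z y : Ω) (Q : ℂ[X][Y]) (L : IntermediateField ℂ Ω) (hz : z ∈ L) :
    aeval y (Q.map (aeval (⟨z, hz⟩ : L) : ℂ[X] →ₐ[ℂ] L).toRingHom) = aevalAeval z y Q := by
  induction Q using Polynomial.induction_on' with
  | add a b ha hb => rw [Polynomial.map_add, map_add, map_add, ha, hb]
  | monomial n c =>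
    rw [map_monomial, aeval_monomial, ← C_mul_X_pow_eq_monomial, map_mul, map_pow, aevalAeval_C,
      aevalAeval_Y]
    congr 1
    exact (aeval_algHom_apply (IsScalarTower.toAlgHom ℂ L Ω) (⟨z, hz⟩ : L) c).symm

/-- The relations between a transcendental `τ` and an algebraic `y` form a principal ideal.  Make `Ω` an
algebra over `ℂ[X]` and over `RatFunc ℂ ≅ ℂ⟮τ⟯` through `X ↦ τ`; clear the denominators of the minimal
polynomial of `y` (`IsLocalization.integerNormalization`) and take the primitive part `P`; Gauss's lemma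
(`Polynomial.IsPrimitive.dvd_of_fraction_map_dvd_fraction_map`) gives the divisibility.  The degree is
`[ℂ(τ, y) : ℂ(τ)]` (`IntermediateField.adjoin.finrank`, `relfinrank_eq_finrank_of_le`,
`adjoin_simple_adjoin_simple`). -/
theorem exists_princ (τ y : Ω) (hτ : Transcendental ℂ τ)
    (hy : IsAlgebraic (IntermediateField.adjoin ℂ {τ}) y) : ∃ P : ℂ[X][Y], P ≠ 0 ∧
      P.natDegree = dg τ (IntermediateField.adjoin ℂ {τ, y}) ∧
      (∀ z : ℂ, ∃ j, (P.coeff j).eval z ≠ 0) ∧ ∀ Ψ : ℂ[X][Y], aevalAeval τ y Ψ = 0 ↔ P ∣ Ψ := by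
  classical
  set L := IntermediateField.adjoin ℂ {τ} with hL
  have hτL : τ ∈ L := IntermediateField.mem_adjoin_simple_self ℂ τ
  set φ := (aeval (⟨τ, hτL⟩ : L) : ℂ[X] →ₐ[ℂ] L).toRingHom with hφ
  have hφv : ∀ r : ℂ[X], (φ r : Ω) = aeval τ r := fun r =>
    (aeval_algHom_apply (IsScalarTower.toAlgHom ℂ L Ω) (⟨τ, hτL⟩ : L) r).symm
  have hinj : Function.Injective φ := fun a b hab =>
    transcendental_iff_injective.1 hτ (by rw [← hφv, ← hφv, hab])
  let : Algebra ℂ[X] L := φ.toAlgebra
  have : FaithfulSMul ℂ[X] L := (faithfulSMul_iff_algebraMap_injective _ _).2 hinj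
  have : IsFractionRing ℂ[X] L := IsFractionRing.of_field _ _ fun z => by
    obtain ⟨r, s, h⟩ := (IntermediateField.mem_adjoin_simple_iff ℂ (z : Ω)).1 z.2
    refine ⟨r, s, Subtype.ext ?_⟩
    rw [h, ← hφv, ← hφv]
    rfl
  have hint := hy.isIntegral
  set m := minpoly L y with hm
  have hm0 : m ≠ 0 := minpoly.ne_zero hint
  obtain ⟨b, hb, hbm⟩ := IsLocalization.integerNormalization_spec (nonZeroDivisors ℂ[X]) m
  set P0 := IsLocalization.integerNormalization (nonZeroDivisors ℂ[X]) m with hP0
  have hb' : φ b ≠ 0 := fun h0 =>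
    nonZeroDivisors.ne_zero hb (hinj (h0.trans (map_zero φ).symm))
  have e1 : C (φ P0.content) * P0.primPart.map φ = C (φ b) * m := by
    rw [← map_C, ← Polynomial.map_mul, ← eq_C_content_mul_primPart, ← smul_eq_C_mul]
    exact hbm.trans (algebraMap_smul L b m).symm
  have hc : φ P0.content ≠ 0 := by
    intro h0
    rw [h0, C_0, zero_mul] at e1
    exact mul_ne_zero (C_ne_zero.2 hb') hm0 e1.symm
  have hass : Associated (P0.primPart.map φ) m :=
    ((associated_unit_mul_left _ _ (isUnit_C.2 hc.isUnit)).symm.trans (e1 ▸ Associated.refl _)).trans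
      (associated_unit_mul_left _ _ (isUnit_C.2 hb'.isUnit))
  refine ⟨P0.primPart, P0.primPart_ne_zero, ?_, fun z => ?_, fun Ψ => ?_⟩
  · have hle : L ≤ IntermediateField.adjoin ℂ {τ, y} :=
      IntermediateField.adjoin.mono _ _ _ (by simp)
    have e2 : IntermediateField.extendScalars hle = IntermediateField.adjoin L {y} :=
      IntermediateField.restrictScalars_injective ℂ (by
        rw [IntermediateField.extendScalars_restrictScalars, hL,
          IntermediateField.adjoin_simple_adjoin_simple])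
    rw [dg, IntermediateField.relfinrank_eq_finrank_of_le hle, e2,
      IntermediateField.adjoin.finrank hint, ← natDegree_map_eq_of_injective hinj]
    exact natDegree_eq_of_degree_eq (degree_eq_degree_of_associated hass)
  · by_contra hc
    push Not at hc
    have h1 : C (X - C z) ∣ P0.primPart :=
      (C_dvd_iff_dvd_coeff _ _).2 fun j => dvd_iff_isRoot.2 (hc j)
    exact not_isUnit_X_sub_C z (P0.isPrimitive_primPart _ h1)
  · rw [← p1_aeval τ y Ψ L hτL, ← minpoly.dvd_iff, ← hass.dvd_iff_dvd_left]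
    exact (P0.isPrimitive_primPart.dvd_iff_fraction_map_dvd_fraction_map (K := L)).symm

/-- If `0 < dg τ K` (finite degree) and `τ ∈ K`, every element of `K` is algebraic over `ℂ(τ)`. -/
theorem isAlgebraic_of_dg_pos (τ : Ω) (K : IntermediateField ℂ Ω) (hτ : τ ∈ K) (h : 0 < dg τ K)
    {y : Ω} (hy : y ∈ K) : IsAlgebraic (IntermediateField.adjoin ℂ {τ}) y := by
  have hle : IntermediateField.adjoin ℂ {τ} ≤ K := IntermediateField.adjoin_simple_le_iff.2 hτ
  rw [dg, IntermediateField.relfinrank_eq_finrank_of_le hle] at h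
  have := Module.finite_of_finrank_pos h
  exact IntermediateField.isAlgebraic_iff.1 (Algebra.IsAlgebraic.isAlgebraic
    (⟨y, hy⟩ : IntermediateField.extendScalars hle))

end Crest.Agent.R22
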