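import Crest.Agent.R22.Kummer
import Crest.Agent.R22.Zero

namespace Crest.Agent.R22

open Polynomial
open scoped Polynomial.Bivariate

variable {d : ℕ} {Ω : Type} [Field Ω] [Algebra ℂ Ω]

namespace P2

lemma exists_s (P : ℂ[X][Y]) (n j0 : ℕ) (h : (P.coeff j0).coeff n ≠ 0) :
    ∃ s : ℂ, (P.eval (C s)).coeff n ≠ 0 := by
  set q : ℂ[X] := ∑ j ∈ P.support, monomial j ((P.coeff j).coeff n) with hq
  have hq0 : q ≠ 0 := by
    intro h0
    have h1 := congrArg (fun r => r.coeff j0) h0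
    simp only [hq, finsetSum_coeff, coeff_monomial, coeff_zero] at h1
    rw [Finset.sum_eq_single j0 (fun j _ hj => if_neg hj) (fun hj => by
      rw [notMem_support_iff.1 hj]; simp), if_pos rfl] at h1
    exact h h1
  obtain ⟨s, hs⟩ : ∃ s : ℂ, q.eval s ≠ 0 := by
    by_contra hall
    push Not at hall
    exact hq0 (Polynomial.funext fun s => by rw [hall s, eval_zero])
  refine ⟨s, ?_⟩
  rw [eval_eq_sum, Polynomial.sum, finsetSum_coeff]
  rw [hq, eval_finsetSum] at hs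
  convert hs using 2 with j
  rw [← C_pow, coeff_mul_C, eval_monomial]

lemma corner (P Q : ℂ[X][Y]) (dX M : ℕ) (h0 : (P.coeff 0).coeff dX ≠ 0)
    (T : Finset {e : ℕ × ℕ // e.1 < dX ∨ e.2 < P.natDegree})
    (g : {e : ℕ × ℕ // e.1 < dX ∨ e.2 < P.natDegree} → ℂ) (hM : ∀ e ∈ T, e.1.2 ≤ M)
    (h : ∑ e ∈ T, monomial (M - e.1.2) (monomial e.1.1 (g e)) = P * Q) : ∀ e ∈ T, g e = 0 := by
  have hco : ∀ a b, ((P * Q).coeff a).coeff b =
      ∑ e ∈ T, if M - e.1.2 = a ∧ e.1.1 = b then g e else 0 := by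
    intro a b
    rw [← h, finsetSum_coeff, finsetSum_coeff]
    refine Finset.sum_congr rfl fun e _ => ?_
    rw [coeff_monomial]
    by_cases h1 : M - e.1.2 = a
    · rw [if_pos h1, coeff_monomial]
      simp [h1]
    · simp [h1]
  have hP0 : P.coeff 0 ≠ 0 := fun h' => h0 (by rw [h', coeff_zero])
  have hP : P ≠ 0 := fun h' => hP0 (by rw [h', coeff_zero])
  have hQ : Q = 0 := by
    by_contra hQ
    have ht : P.natTrailingDegree = 0 := natTrailingDegree_eq_zero.2 (Or.inr hP0)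
    have h1 := coeff_mul_natTrailingDegree_add_natTrailingDegree (p := P) (q := Q)
    rw [trailingCoeff, ht, zero_add] at h1
    have h2 : Q.trailingCoeff ≠ 0 := trailingCoeff_nonzero_iff_nonzero.2 hQ
    have h3 : dX ≤ (P.coeff 0 * Q.trailingCoeff).natDegree := by
      rw [natDegree_mul hP0 h2]
      exact le_trans (le_natDegree_of_ne_zero h0) (Nat.le_add_right _ _)
    have h4 : ((P * Q).coeff Q.natTrailingDegree).coeff (P.coeff 0 * Q.trailingCoeff).natDegree ≠ 0 := by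
      rw [h1]
      exact leadingCoeff_ne_zero.2 (mul_ne_zero hP0 h2)
    rw [hco] at h4
    obtain ⟨e, he, h5⟩ := Finset.exists_ne_zero_of_sum_ne_zero h4
    have h6 : M - e.1.2 = Q.natTrailingDegree ∧ e.1.1 = (P.coeff 0 * Q.trailingCoeff).natDegree := by
      by_contra hn
      exact h5 (if_neg hn)
    have h7 := e.2
    have h8 := hM e he
    have h9 : (P * Q).natDegree ≤ M := by
      rw [← h]
      exact natDegree_sum_le_of_forall_le _ _ fun e _ =>
        (natDegree_monomial_le _).trans (Nat.sub_le _ _)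
    rw [natDegree_mul hP hQ] at h9
    have h10 := natTrailingDegree_le_natDegree Q
    omega
  intro e he
  have h1 := hco (M - e.1.2) e.1.1
  rw [hQ, mul_zero, coeff_zero, coeff_zero, Finset.sum_eq_single e, if_pos ⟨rfl, rfl⟩] at h1
  · exact h1.symm
  · intro e' he' hne
    refine if_neg fun h2 => hne (Subtype.ext (Prod.ext h2.2 ?_))
    have := hM e he
    have := hM e' he'
    have := h2.1
    omega
  · intro h'
    exact absurd he h'

lemma one_mem (x : Ω) (b : Fin d → Ω) : (1 : Ω) ∈ Wsp x b 0 0 :=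
  Submodule.subset_span ⟨0, le_rfl, 0, by simp, by simp⟩

lemma xpow_mem (x : Ω) (b : Fin d → Ω) {i a : ℕ} (h : i ≤ a) : x ^ i ∈ Wsp x b a 0 :=
  Submodule.subset_span ⟨i, h, 0, by simp, by simp⟩

lemma lf_mem (x : Ω) (b : Fin d → Ω) (L : Fin d → ℂ) : lf L b ∈ Wsp x b 0 1 := by
  classical
  unfold lf
  refine Submodule.sum_mem _ fun i _ => ?_
  rw [← Algebra.smul_def]
  refine Submodule.smul_mem _ _ (Submodule.subset_span ⟨0, le_rfl, Pi.single i 1, by simp, ?_⟩)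
  rw [pow_zero, one_mul, Finset.prod_eq_single i]
  · simp
  · intro j _ hj
    simp [Pi.single_eq_of_ne hj]
  · simp

lemma lf_pow_mem (x : Ω) (b : Fin d → Ω) (L : Fin d → ℂ) (n : ℕ) : lf L b ^ n ∈ Wsp x b 0 n := by
  induction n with
  | zero => rw [pow_zero]; exact one_mem x b
  | succ n ih =>
    have h := mul_mem_Wsp x b ih (lf_mem x b L)
    rw [add_zero, ← pow_succ] at h
    exact h

end P2

/-- Corner monomial.  For `s` outside the finite set of roots of a top `X`-coefficient, `P(X, s)` has degree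
`dX` (and `s ≠ z` as `z` is not algebraic... more precisely choose `s` with `P(X, s) ≠ 0`, then `z ≠ s` since
otherwise `P ∣ Y - s`, which forces `dX = 0`, `P(X, s) = 0`).  A relation `∑ c i j x^i (z - s)^(-j) = 0`
(`j ≤ M`) gives `Ψ = ∑ c i j X^i (Y - s)^(M-j) = P Q`.  If `Ψ ≠ 0` write `Q = (Y - s)^r Q0` with `Q0(X, s) ≠ 0`;
the coefficient of `(Y - s)^r` in `Ψ` is `P(X, s) Q0(X, s)`, of degree `≥ dX`, so some `c i (M - r) ≠ 0` with
`i ≥ dX`, whence `M - r < natDegree P`; but `M ≥ deg_Y Ψ ≥ natDegree P + r`. -/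
theorem indep_corner (x z : Ω) (P : ℂ[X][Y]) (hP : P ≠ 0)
    (h : ∀ Ψ : ℂ[X][Y], aevalAeval x z Ψ = 0 ↔ P ∣ Ψ) (dX : ℕ) (hdX : ∃ j, (P.coeff j).natDegree = dX ∧
      P.coeff j ≠ 0) (hle : ∀ j, (P.coeff j).natDegree ≤ dX) :
    ∃ s : ℂ, z - algebraMap ℂ Ω s ≠ 0 ∧ LinearIndependent ℂ
      (fun e : {e : ℕ × ℕ // e.1 < dX ∨ e.2 < P.natDegree} =>
        x ^ e.1.1 * (z - algebraMap ℂ Ω s)⁻¹ ^ e.1.2) := by
  obtain ⟨j0, hj0, hj0'⟩ := hdX
  obtain ⟨s, hs⟩ := P2.exists_s P dX j0 (by rw [← hj0]; exact leadingCoeff_ne_zero.2 hj0')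
  have hs' : P.eval (C s) ≠ 0 := fun h' => hs (by rw [h', coeff_zero])
  have hw : z - algebraMap ℂ Ω s ≠ 0 := by
    intro hz
    obtain ⟨Q, hQ⟩ := (h (Y - C (C s))).1 (by simpa using hz)
    have h1 := congrArg (Polynomial.eval (C s)) hQ
    simp only [eval_sub, eval_X, eval_C, sub_self, eval_mul] at h1
    obtain ⟨Q', hQ'⟩ := dvd_iff_isRoot.2 ((mul_eq_zero.1 h1.symm).resolve_left hs')
    rw [hQ'] at hQ
    have h2 : (Y - C (C s) : ℂ[X][Y]) * 1 = (Y - C (C s)) * (P * Q') := by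
      rw [mul_one, mul_left_comm]; exact hQ
    have h3 := mul_left_cancel₀ (X_sub_C_ne_zero (C s)) h2
    have h4 := (h 1).2 ⟨Q', h3⟩
    simp at h4
  refine ⟨s, hw, ?_⟩
  rw [linearIndependent_iff']
  intro T g hg
  set M := T.sup fun e => e.1.2 with hM
  have hMe : ∀ e ∈ T, e.1.2 ≤ M := fun e he => Finset.le_sup (f := fun e => e.1.2) he
  obtain ⟨Q, hQ⟩ := (h (∑ e ∈ T, C (monomial e.1.1 (g e)) * (Y - C (C s)) ^ (M - e.1.2))).1 (by
    have h1 := congrArg (fun t => (z - algebraMap ℂ Ω s) ^ M * t) hg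
    simp only [mul_zero, Finset.mul_sum] at h1
    rw [map_sum, ← h1]
    refine Finset.sum_congr rfl fun e he => ?_
    obtain ⟨r, hr⟩ := Nat.exists_eq_add_of_le (hMe e he)
    rw [hr, Nat.add_sub_cancel_left, Algebra.smul_def, pow_add, inv_pow]
    simp only [map_mul, map_pow, map_sub, aevalAeval_C, aevalAeval_Y, aeval_monomial, aeval_C]
    have := pow_ne_zero e.1.2 hw
    field_simp)
  have h2 := congrArg (taylor (C s)) hQ
  rw [taylor_mul, map_sum] at h2
  have hdeg : (taylor (C s) P).natDegree = P.natDegree := natDegree_taylor _ _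
  have key := P2.corner (taylor (C s) P) (taylor (C s) Q) dX M (by rwa [taylor_coeff_zero])
  rw [hdeg] at key
  refine key T g hMe ?_
  rw [← h2]
  refine Finset.sum_congr rfl fun e _ => ?_
  rw [taylor_mul, taylor_C, taylor_pow, map_sub, taylor_X, taylor_C, add_sub_cancel_right,
    C_mul_X_pow_eq_monomial]

/-- Counting: the elements `x^i L^j L'^(E-j) ω l = L'^E x^i z^j ω l` (`i ≤ a`, `j ≤ E`, `i < dX ∨ j < dZ`) lie in
`Wsp x b a (E + D0)`; there are `(a+1)(E+1) - (a+1-dX)(E+1-dZ) ≥ dZ a + dX E - dX dZ` pairs `(i, j)`. -/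
theorem finrank_Wsp_ge (x : Ω) (b : Fin d → Ω) (L L' : Fin d → ℂ) (hL' : lf L' b ≠ 0)
    (D D0 dX dZ : ℕ) (ω : Fin D → Ω) (hω : ∀ l, ω l ∈ Wsp x b 0 D0)
    (hli : LinearIndependent ℂ (fun e : {e : ℕ × ℕ // e.1 < dX ∨ e.2 < dZ} × Fin D =>
      x ^ e.1.1.1 * (lf L b / lf L' b) ^ e.1.1.2 * ω e.2)) (a E : ℕ) (ha : dX ≤ a) (hE : dZ ≤ E) :
    D * (dZ * a + dX * E) ≤ Module.finrank ℂ (Wsp x b a (E + D0)) + D * (dX * dZ) := by
  have := Wsp_finite x b a (E + D0)
  let φ : (Fin dX × Fin E) ⊕ (Fin (a - dX) × Fin dZ) → {e : ℕ × ℕ // e.1 < dX ∨ e.2 < dZ} :=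
    Sum.elim (fun p => ⟨(p.1, p.2), Or.inl p.1.2⟩) (fun p => ⟨(dX + p.1, p.2), Or.inr p.2.2⟩)
  have hφ : Function.Injective φ := by
    rintro (p | p) (q | q) hpq <;> simp only [φ, Sum.elim_inl, Sum.elim_inr, Subtype.mk.injEq,
      Prod.mk.injEq] at hpq
    · exact congrArg Sum.inl (Prod.ext (Fin.ext hpq.1) (Fin.ext hpq.2))
    · have := p.1.2; omega
    · have := q.1.2; omega
    · exact congrArg Sum.inr (Prod.ext (Fin.ext (by omega)) (Fin.ext hpq.2))
  have hφ1 : ∀ p, (φ p).1.1 ≤ a ∧ (φ p).1.2 ≤ E := by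
    rintro (p | p) <;> simp only [φ, Sum.elim_inl, Sum.elim_inr]
    · have := p.1.2; have := p.2.2; omega
    · have := p.1.2; have := p.2.2; omega
  have h1 := (hli.comp (Prod.map φ id) (hφ.prodMap Function.injective_id)).map'
    (LinearMap.mulLeft ℂ (lf L' b ^ E))
    (LinearMap.ker_eq_bot.2 (mul_right_injective₀ (pow_ne_zero E hL')))
  have hmem : ∀ p : ((Fin dX × Fin E) ⊕ (Fin (a - dX) × Fin dZ)) × Fin D,
      lf L' b ^ E * (x ^ (φ p.1).1.1 * (lf L b / lf L' b) ^ (φ p.1).1.2 * ω p.2) ∈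
        Wsp x b a (E + D0) := by
    intro p
    obtain ⟨h2, h3⟩ := hφ1 p.1
    obtain ⟨r, hr⟩ := Nat.exists_eq_add_of_le h3
    have h4 := mul_mem_Wsp x b (mul_mem_Wsp x b (mul_mem_Wsp x b (P2.xpow_mem x b h2)
      (P2.lf_pow_mem x b L (φ p.1).1.2)) (P2.lf_pow_mem x b L' r)) (hω p.2)
    simp only [add_zero, zero_add] at h4
    rw [← hr] at h4
    convert h4 using 1
    rw [div_pow]
    nth_rewrite 1 [hr]
    have := pow_ne_zero (φ p.1).1.2 hL'
    field_simp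
    ring
  have h2 : LinearIndependent ℂ (fun p => (⟨_, hmem p⟩ : Wsp x b a (E + D0))) :=
    LinearIndependent.of_comp (Wsp x b a (E + D0)).subtype h1
  have h3 := h2.fintype_card_le_finrank
  simp only [Fintype.card_prod, Fintype.card_sum, Fintype.card_fin] at h3
  obtain ⟨a', rfl⟩ := Nat.exists_eq_add_of_le ha
  rw [Nat.add_sub_cancel_left] at h3
  have e : D * (dZ * (dX + a') + dX * E) = (dX * E + a' * dZ) * D + D * (dX * dZ) := by ring
  omega

/-- The case `D = 1`, `D0 = 0`, with smaller degrees `cx ≤ c2`, `cg ≤ c1` (restrict the family). -/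
theorem HL_of_indep (x : Ω) (b : Fin d → Ω) (L L' : Fin d → ℂ) (hL' : lf L' b ≠ 0)
    (c1 c2 cx cg : ℕ) (hx : cx ≤ c2) (hg : cg ≤ c1)
    (hli : LinearIndependent ℂ (fun e : {e : ℕ × ℕ // e.1 < c1 ∨ e.2 < c2} =>
      x ^ e.1.1 * (lf L b / lf L' b) ^ e.1.2)) : HL x b cx cg (cx * cg + cx + cg) := by
  intro a E ha hE
  let φ : {e : ℕ × ℕ // e.1 < cg ∨ e.2 < cx} × Fin 1 → {e : ℕ × ℕ // e.1 < c1 ∨ e.2 < c2} :=
    fun e => ⟨e.1.1, e.1.2.imp (fun h => lt_of_lt_of_le h hg) (fun h => lt_of_lt_of_le h hx)⟩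
  have hφ : Function.Injective φ := fun e e' h =>
    Prod.ext (Subtype.ext (congrArg Subtype.val h :)) (Subsingleton.elim _ _)
  have h1 := finrank_Wsp_ge x b L L' hL' 1 0 cg cx (fun _ => 1) (fun _ => P2.one_mem x b)
    (by simpa [Function.comp_def, φ] using hli.comp φ hφ) a E (by omega) (by omega)
  rw [add_zero, one_mul, one_mul, mul_comm cg cx] at h1
  omega

end Crest.Agent.R22
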