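import Crest.Agent.R22.Kummer
import Crest.Agent.R22.Zero
import Crest.Agent.R22.Princ1
import Crest.Agent.R22.Princ2

namespace Crest.Agent.R22

open Polynomial
open scoped Polynomial.Bivariate

variable {d : ℕ} {Ω : Type} [Field Ω] [Algebra ℂ Ω]

namespace P3

open scoped Pointwise

lemma natDegree_swap_le (P : ℂ[X][Y]) (n : ℕ) (h : ∀ j, (P.coeff j).natDegree ≤ n) :
    (Polynomial.Bivariate.swap P).natDegree ≤ n := by
  conv_lhs => rw [P.as_sum_support]
  rw [map_sum]
  refine Polynomial.natDegree_sum_le_of_forall_le _ _ fun j _ => ?_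
  rw [Polynomial.Bivariate.swap_monomial]
  exact (Polynomial.natDegree_mul_C_le _ _).trans (Polynomial.natDegree_map_le.trans (h j))

omit [Algebra ℂ Ω] in
/-- powers of a subspace containing `1` fill a finite extension quickly -/
lemma finrank_pow {F : Type} [Field F] [Algebra F Ω] (s : Set Ω) (h1 : (1 : Ω) ∈ s)
    (K : Submodule F Ω) [Module.Finite F K] (hK : ∀ n : ℕ, Submodule.span F s ^ n ≤ K)
    (hgen : K ≤ (Algebra.adjoin F s).toSubmodule) (n : ℕ) :
    min n (Module.finrank F K) ≤ Module.finrank F (Submodule.span F s ^ n : Submodule F Ω) := by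
  set T := Submodule.span F s with hT
  have h1T : (1 : Ω) ∈ T := Submodule.subset_span h1
  have hmono : ∀ n : ℕ, T ^ n ≤ T ^ (n + 1) := by
    intro n w hw
    rw [pow_succ]
    simpa using Submodule.mul_mem_mul hw h1T
  have hfin : ∀ n : ℕ, Module.Finite F (T ^ n : Submodule F Ω) := fun n =>
    Submodule.finiteDimensional_of_le (hK n)
  induction n with
  | zero => simp
  | succ n ih =>
    by_cases he : T ^ (n + 1) ≤ T ^ n
    · have h1n : ∀ n : ℕ, (1 : Ω) ∈ T ^ n := by
        intro n
        simpa using Submodule.pow_mem_pow T h1T n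
      have hKle : K ≤ T ^ n := by
        intro w hw
        have hw' : w ∈ Algebra.adjoin F s := hgen hw
        have key : ∀ w ∈ Algebra.adjoin F s, ∀ v ∈ T ^ n, v * w ∈ T ^ n := by
          intro w hw
          induction hw using Algebra.adjoin_induction with
          | mem y hy =>
            intro v hv
            apply he
            rw [pow_succ]
            exact Submodule.mul_mem_mul hv (Submodule.subset_span hy)
          | algebraMap r =>
            intro v hv
            rw [mul_comm, ← Algebra.smul_def]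
            exact Submodule.smul_mem _ _ hv
          | add y y' _ _ hy hy' =>
            intro v hv
            rw [mul_add]
            exact Submodule.add_mem _ (hy v hv) (hy' v hv)
          | mul y y' _ _ hy hy' =>
            intro v hv
            rw [← mul_assoc]
            exact hy' _ (hy v hv)
        simpa using key w hw' 1 (h1n n)
      have := hfin (n + 1)
      exact (min_le_right _ _).trans (Submodule.finrank_mono (hKle.trans (hmono n)))
    · have := hfin (n + 1)
      have hlt : T ^ n < T ^ (n + 1) := lt_of_le_not_ge (hmono n) he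
      have := Submodule.finrank_lt_finrank_of_lt hlt
      omega

lemma mem_Wsp_of_pow (x : Ω) (b : Fin d → Ω) (i0 : Fin d) (h0 : b i0 ≠ 0) (n : ℕ) :
    ∀ w ∈ (Set.range fun i => b i / b i0) ^ n, w * b i0 ^ n ∈ Wsp x b 0 n := by
  induction n with
  | zero =>
    intro w hw
    rw [pow_zero, Set.mem_one] at hw
    rw [hw]
    exact Submodule.subset_span ⟨0, le_rfl, 0, by simp, by simp⟩
  | succ n ih =>
    intro w hw
    rw [pow_succ] at hw
    obtain ⟨u, hu, v, ⟨i, rfl⟩, rfl⟩ := hw
    have hb : b i ∈ Wsp x b 0 1 := by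
      classical
      refine Submodule.subset_span ⟨0, le_rfl, Pi.single i 1, by simp, ?_⟩
      rw [pow_zero, one_mul, Finset.prod_eq_single i]
      · simp
      · intro j _ hj
        simp [Pi.single_eq_of_ne hj]
      · simp
    have := mul_mem_Wsp x b (ih u hu) hb
    have e : u * (b i / b i0) * b i0 ^ (n + 1) = u * b i0 ^ n * b i := by
      field_simp
      ring
    simp only
    rw [e]
    exact this

/-- a basis of `Kf x b` over an intermediate field, made of forms of degree `n` -/
lemma exists_omega (x : Ω) (b : Fin d → Ω) (hb : ∀ i, b i ≠ 0) (i0 : Fin d)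
    (K0 : IntermediateField ℂ Ω) (hx : x ∈ K0) (hle : K0 ≤ Kf x b) (n : ℕ)
    (hpos : 0 < IntermediateField.relfinrank K0 (Kf x b))
    (hn : IntermediateField.relfinrank K0 (Kf x b) ≤ n) :
    ∃ ω : Fin (IntermediateField.relfinrank K0 (Kf x b)) → Ω, (∀ l, ω l ∈ Wsp x b 0 n) ∧
      LinearIndependent K0 ω := by
  rw [IntermediateField.relfinrank_eq_finrank_of_le hle] at *
  set K' := IntermediateField.extendScalars hle with hK'
  have : Module.Finite K0 K' := Module.finite_of_finrank_pos hpos
  set s : Set Ω := Set.range fun i => b i / b i0 with hs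
  have h1 : (1 : Ω) ∈ s := ⟨i0, div_self (hb i0)⟩
  have hsK : s ⊆ K' := by
    rintro _ ⟨i, rfl⟩
    exact IntermediateField.subset_adjoin ℂ _ (Set.mem_insert_of_mem _ ⟨i, i0, rfl⟩)
  let K : Submodule K0 Ω := K'.toSubalgebra.toSubmodule
  have : Module.Finite K0 K := (inferInstance : Module.Finite K0 K')
  have hKr : Module.finrank K0 K = Module.finrank K0 K' := rfl
  have hK : ∀ n : ℕ, Submodule.span K0 s ^ n ≤ K := by
    intro n
    induction n with
    | zero =>
      rw [pow_zero, Submodule.one_eq_span, Submodule.span_le]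
      rintro _ rfl
      exact K'.one_mem
    | succ n ih =>
      rw [pow_succ, Submodule.mul_le]
      intro u hu v hv
      exact K'.mul_mem (ih hu) ((Submodule.span_le.2 hsK : Submodule.span K0 s ≤ K) hv)
  have hgen : K ≤ (Algebra.adjoin K0 s).toSubmodule := by
    intro w hw
    have halg : ∀ y ∈ s, IsAlgebraic K0 y := fun y hy =>
      (IntermediateField.isAlgebraic_iff (x := (⟨y, hsK hy⟩ : K'))).1
        (Algebra.IsAlgebraic.isAlgebraic _)
    change w ∈ Algebra.adjoin K0 s
    rw [← IntermediateField.adjoin_toSubalgebra_of_isAlgebraic halg]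
    have hw' : w ∈ Kf x b := hw
    have : Kf x b ≤ (IntermediateField.adjoin K0 s).restrictScalars ℂ := by
      unfold Kf
      rw [IntermediateField.adjoin_le_iff]
      rintro y (rfl | ⟨i, j, rfl⟩)
      · exact (IntermediateField.adjoin K0 s).algebraMap_mem ⟨y, hx⟩
      · have e : b i / b j = (b i / b i0) / (b j / b i0) := by
          have := hb i0
          have := hb j
          field_simp
        rw [e]
        exact (IntermediateField.adjoin K0 s).div_mem
          (IntermediateField.subset_adjoin _ _ ⟨i, rfl⟩)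
          (IntermediateField.subset_adjoin _ _ ⟨j, rfl⟩)
    exact this hw'
  have hmin := finrank_pow s h1 K hK hgen n
  rw [hKr, min_eq_right hn, Submodule.span_pow] at hmin
  have : Module.Finite K0 (Submodule.span K0 (s ^ n)) := by
    rw [← Submodule.span_pow]
    exact Submodule.finiteDimensional_of_le (hK n)
  obtain ⟨f, hf, -, hli⟩ := Submodule.exists_fun_fin_finrank_span_eq K0 (s ^ n)
  refine ⟨fun l => f (Fin.castLE hmin l) * b i0 ^ n, fun l => mem_Wsp_of_pow x b i0 (hb i0) n _ (hf _),
    ?_⟩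
  have h2 := hli.comp (Fin.castLE hmin) (Fin.castLE_injective hmin)
  exact h2.map' (LinearMap.mulRight K0 (b i0 ^ n)) (LinearMap.ker_eq_bot.2
    (mul_left_injective₀ (pow_ne_zero n (hb i0))))

lemma lf_mem (x : Ω) (b : Fin d → Ω) (i0 : Fin d) (L : Fin d → ℂ) : lf L b / b i0 ∈ Kf x b := by
  unfold lf
  rw [Finset.sum_div]
  refine sum_mem fun i _ => ?_
  rw [mul_div_assoc]
  exact mul_mem ((Kf x b).algebraMap_mem _)
    (IntermediateField.subset_adjoin ℂ _ (Set.mem_insert_of_mem _ ⟨i, i0, rfl⟩))

end P3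

/-- Hilbert function from the two degrees.  `K = Kf x b`, `K0 = ℂ(x, z)`, `D = [K : K0]`, `P` from
`exists_princ x z`, `dZ = natDegree P = [K0 : ℂ(x)]`, `dX` the largest degree of a coefficient.  As `z` is
transcendental, `P(X, z)` is a nonzero polynomial over `ℂ(z)` of degree `≤ dX` killing `x`, so
`[K0 : ℂ(z)] ≤ dX`.  Tower law (`relfinrank_mul_relfinrank`): `cx ≤ D dZ`, `cg ≤ D dX`, `1 ≤ D ≤ C1`.  `K` is
generated over `K0` by the `t i = b i / b i0`, each of degree `≤ D`, so it is spanned over `K0` by the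
monomials `t^m` with all `m i < D`; choose a basis among them and put `ω = t^m b i0^(d C1)`
(`D0 = d C1`).  `indep_corner` replaces `z` by `(z - s)⁻¹ = L' / (L - s L')`.  Apply `finrank_Wsp_ge` with
`min dX cg`, `min dZ cx` (`linearIndependent_smul`-type argument for the product family). -/
theorem HL_of_dg (d cx cg C1 : ℕ) : ∃ CH : ℕ, ∀ {Ω : Type} [Field Ω] [Algebra ℂ Ω] (x : Ω)
    (b : Fin d → Ω) (L L' : Fin d → ℂ), (∀ i, b i ≠ 0) → lf L' b ≠ 0 → Transcendental ℂ x →
    Transcendental ℂ (lf L b / lf L' b) → 0 < dg x (Kf x b) → dg x (Kf x b) ≤ C1 →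
    0 < dg (lf L b / lf L' b) (Kf x b) → cx ≤ dg x (Kf x b) → cg ≤ dg (lf L b / lf L' b) (Kf x b) →
    HL x b cx cg CH := by
  refine ⟨C1 * (cg * cx) + cg * C1 + cx + cg + C1, ?_⟩
  intro Ω _ _ x b L L' hb hL' hx hz h1 h2 h3 h4 h5
  obtain ⟨i0⟩ : Nonempty (Fin d) := by
    by_contra hne
    rw [not_nonempty_iff] at hne
    exact hL' (by simp [lf])
  set z := lf L b / lf L' b with hzdef
  have hxK : x ∈ Kf x b := IntermediateField.subset_adjoin ℂ _ (Set.mem_insert _ _)
  have hzK : z ∈ Kf x b := by
    have e : z = (lf L b / b i0) / (lf L' b / b i0) := by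
      have := hb i0
      rw [hzdef]
      field_simp
    rw [e]
    exact div_mem (P3.lf_mem x b i0 L) (P3.lf_mem x b i0 L')
  set K0 := IntermediateField.adjoin ℂ ({x, z} : Set Ω) with hK0
  have hx0 : x ∈ K0 := IntermediateField.subset_adjoin ℂ _ (by simp)
  have hz0 : z ∈ K0 := IntermediateField.subset_adjoin ℂ _ (by simp)
  have hle : K0 ≤ Kf x b := by
    rw [hK0, IntermediateField.adjoin_le_iff]
    rintro y (rfl | rfl)
    exacts [hxK, hzK]
  have tx : dg x K0 * IntermediateField.relfinrank K0 (Kf x b) = dg x (Kf x b) :=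
    IntermediateField.relfinrank_mul_relfinrank
      (IntermediateField.adjoin_simple_le_iff.2 hx0) hle
  have tz : dg z K0 * IntermediateField.relfinrank K0 (Kf x b) = dg z (Kf x b) :=
    IntermediateField.relfinrank_mul_relfinrank
      (IntermediateField.adjoin_simple_le_iff.2 hz0) hle
  have hD0 : 0 < IntermediateField.relfinrank K0 (Kf x b) := by
    rw [← tx] at h1
    exact Nat.pos_of_mul_pos_left h1
  have hZ0 : 0 < dg x K0 := by
    rw [← tx] at h1
    exact Nat.pos_of_mul_pos_right h1
  have hDC : IntermediateField.relfinrank K0 (Kf x b) ≤ C1 :=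
    le_trans (by rw [← tx]; exact Nat.le_mul_of_pos_left _ hZ0) h2
  set D := IntermediateField.relfinrank K0 (Kf x b) with hD
  obtain ⟨ω, hω, hωli⟩ : ∃ ω : Fin D → Ω, (∀ l, ω l ∈ Wsp x b 0 C1) ∧ LinearIndependent K0 ω :=
    P3.exists_omega x b hb i0 K0 hx0 hle C1 hD0 hDC
  obtain ⟨P, hP0, hPdeg, -, hP⟩ := exists_princ x z hx (isAlgebraic_of_dg_pos x _ hxK h1 hzK)
  obtain ⟨P', -, hPdeg', -, hP'⟩ := exists_princ z x hz (isAlgebraic_of_dg_pos z _ hzK h3 hxK)
  obtain ⟨j0, hj0, hjmax⟩ := P.support.exists_max_image (fun j => (P.coeff j).natDegree)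
    (Polynomial.support_nonempty.2 hP0)
  set dX := (P.coeff j0).natDegree with hdX
  have hleX : ∀ j, (P.coeff j).natDegree ≤ dX := by
    intro j
    by_cases hj : j ∈ P.support
    · exact hjmax j hj
    · rw [Polynomial.notMem_support_iff.1 hj]; simp
  have hzX : dg z K0 ≤ dX := by
    have a1 : P' ∣ Polynomial.Bivariate.swap P := by
      rw [← hP', Polynomial.Bivariate.aevalAeval_swap, hP]
    have a2 := Polynomial.natDegree_le_of_dvd a1
      ((map_ne_zero_iff _ Polynomial.Bivariate.swap.injective).2 hP0)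
    rw [hPdeg', Set.pair_comm z x] at a2
    exact a2.trans (P3.natDegree_swap_le P dX hleX)
  obtain ⟨s, hs0, hli⟩ := indep_corner x z P hP0 hP dX
    ⟨j0, rfl, Polynomial.mem_support_iff.1 hj0⟩ hleX
  rw [hPdeg] at hli
  set dZ := dg x K0 with hdZ
  have elf : lf (fun i => L i - s * L' i) b = (z - algebraMap ℂ Ω s) * lf L' b := by
    rw [sub_mul, hzdef, div_mul_cancel₀ _ hL']
    unfold lf
    rw [Finset.mul_sum, ← Finset.sum_sub_distrib]
    refine Finset.sum_congr rfl fun i _ => ?_
    rw [map_sub, map_mul]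
    ring
  have hne : lf (fun i => L i - s * L' i) b ≠ 0 := by
    rw [elf]; exact mul_ne_zero hs0 hL'
  have ez : lf L' b / lf (fun i => L i - s * L' i) b = (z - algebraMap ℂ Ω s)⁻¹ := by
    rw [elf]
    field_simp
  have hzi : (z - algebraMap ℂ Ω s)⁻¹ ∈ K0 := inv_mem (sub_mem hz0 (K0.algebraMap_mem s))
  let φ : {e : ℕ × ℕ // e.1 < min dX cg ∨ e.2 < min dZ cx} → {e : ℕ × ℕ // e.1 < dX ∨ e.2 < dZ} :=
    fun e => ⟨e.1, e.2.imp (fun h => lt_of_lt_of_le h (min_le_left _ _))
      (fun h => lt_of_lt_of_le h (min_le_left _ _))⟩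
  have hφ : Function.Injective φ := fun e e' h => Subtype.ext (congrArg Subtype.val h :)
  let β : {e : ℕ × ℕ // e.1 < min dX cg ∨ e.2 < min dZ cx} → K0 := fun e =>
    ⟨x ^ e.1.1 * (z - algebraMap ℂ Ω s)⁻¹ ^ e.1.2, mul_mem (pow_mem hx0 _) (pow_mem hzi _)⟩
  have hβ : LinearIndependent ℂ β :=
    LinearIndependent.of_comp K0.val.toLinearMap (hli.comp φ hφ)
  have hprod := linearIndependent_smul hβ hωli
  intro a E ha hE
  obtain ⟨E', rfl⟩ : ∃ E', E = E' + C1 := ⟨E - C1, by omega⟩
  have hmain := finrank_Wsp_ge x b L' (fun i => L i - s * L' i) hne D C1 (min dX cg) (min dZ cx) ω hω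
    (by rw [ez]; exact hprod) a E' (by omega) (by omega)
  have b1 : cx ≤ D * min dZ cx := by
    rcases le_total dZ cx with h | h
    · rw [min_eq_left h, mul_comm, tx]; exact h4
    · rw [min_eq_right h]; exact Nat.le_mul_of_pos_left _ hD0
  have b2 : cg ≤ D * min dX cg := by
    rcases le_total dX cg with h | h
    · rw [min_eq_left h, mul_comm]
      exact h5.trans (by rw [← tz]; exact Nat.mul_le_mul_right _ hzX)
    · rw [min_eq_right h]; exact Nat.le_mul_of_pos_left _ hD0
  have b3 : D * (min dX cg * min dZ cx) ≤ C1 * (cg * cx) :=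
    Nat.mul_le_mul hDC (Nat.mul_le_mul (min_le_right _ _) (min_le_right _ _))
  have b4 : cx * a ≤ D * min dZ cx * a := Nat.mul_le_mul_right _ b1
  have b5 : cg * E' ≤ D * min dX cg * E' := Nat.mul_le_mul_right _ b2
  have e1 : D * (min dZ cx * a + min dX cg * E') = D * min dZ cx * a + D * min dX cg * E' := by ring
  have e2 : cg * (E' + C1) = cg * E' + cg * C1 := by ring
  omega

end Crest.Agent.R22
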