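import Crest.Agent.R22.Kummer
import Crest.Agent.R22.Zero
import Crest.Agent.R22.Princ1

namespace Crest.Agent.R22

open Polynomial
open scoped Polynomial.Bivariate

variable {d : ℕ} {Ω : Type} [Field Ω] [Algebra ℂ Ω]

/-- dehomogenisation -/
noncomputable def p4D : MvPolynomial (Fin 3) ℂ →ₐ[ℂ] ℂ[X][Y] :=
  MvPolynomial.aeval ![Y, C X, 1]

theorem p4_ind {e : ℕ} {Ψ : MvPolynomial (Fin 3) ℂ} (h : Ψ.IsHomogeneous e)
    (p : MvPolynomial (Fin 3) ℂ → Prop) (h0 : p 0) (hadd : ∀ a b, p a → p b → p (a + b))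
    (hm : ∀ (m : Fin 3 →₀ ℕ) (a : ℂ), m 0 + m 1 + m 2 = e → p (MvPolynomial.monomial m a)) :
    p Ψ := by
  rw [Ψ.as_sum]
  refine Finset.sum_induction _ p hadd h0 fun m hm' => hm m _ ?_
  have h1 : m.degree = e := by
    by_contra hc
    exact (MvPolynomial.mem_support_iff.1 hm') (h.coeff_eq_zero hc)
  rw [Finsupp.degree_eq_sum, Fin.sum_univ_three] at h1
  exact h1

theorem p4_mon {A : Type} [CommRing A] [Algebra ℂ A] (g : Fin 3 → A) (m : Fin 3 →₀ ℕ) (a : ℂ) :
    MvPolynomial.aeval g (MvPolynomial.monomial m a) =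
      algebraMap ℂ A a * (g 0 ^ m 0 * g 1 ^ m 1 * g 2 ^ m 2) := by
  rw [MvPolynomial.aeval_monomial, Finsupp.prod_fintype _ _ (by simp), Fin.prod_univ_three]

theorem p4_eval {A : Type} [Field A] [Algebra ℂ A] (f : Fin 3 → A) (h2 : f 2 ≠ 0) {e : ℕ}
    {Ψ : MvPolynomial (Fin 3) ℂ} (h : Ψ.IsHomogeneous e) :
    MvPolynomial.aeval f Ψ = f 2 ^ e * aevalAeval (f 1 / f 2) (f 0 / f 2) (p4D Ψ) := by
  refine p4_ind h (fun Ψ => MvPolynomial.aeval f Ψ =
    f 2 ^ e * aevalAeval (f 1 / f 2) (f 0 / f 2) (p4D Ψ)) (by simp) (fun a b ha hb => ?_)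
    fun m a hm => ?_
  · rw [map_add, map_add, map_add, ha, hb, mul_add]
  · rw [p4D, p4_mon, p4_mon, map_mul, AlgHom.commutes, map_mul, map_mul, map_pow, map_pow, map_pow]
    simp only [Matrix.cons_val_zero, Matrix.cons_val_one, Matrix.cons_val_two, Matrix.tail_cons,
      Matrix.head_cons, aevalAeval_X, aevalAeval_Y, map_one, one_pow, ← hm, div_pow, pow_add]
    field_simp

theorem p4_inj {e : ℕ} {Ψ : MvPolynomial (Fin 3) ℂ} (h : Ψ.IsHomogeneous e) (h0 : p4D Ψ = 0) :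
    Ψ = 0 := by
  have h1 : MvPolynomial.X 2 * Ψ = 0 := by
    apply MvPolynomial.funext
    intro x
    rw [map_mul, MvPolynomial.eval_X, map_zero]
    by_cases hx : x 2 = 0
    · rw [hx, zero_mul]
    · have := p4_eval x hx h
      rw [h0, map_zero, mul_zero] at this
      rw [← MvPolynomial.aeval_eq_eval, this, mul_zero]
  exact (mul_eq_zero.1 h1).resolve_left (MvPolynomial.X_ne_zero _)

@[simp] theorem p4D_X0 : p4D (MvPolynomial.X 0) = Y := by simp [p4D]

@[simp] theorem p4D_X1 : p4D (MvPolynomial.X 1) = C X := by simp [p4D]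

@[simp] theorem p4D_X2 : p4D (MvPolynomial.X 2) = 1 := by simp [p4D]

theorem p4_exists (Q : ℂ[X][Y]) :
    ∃ (N : ℕ) (H : MvPolynomial (Fin 3) ℂ), H.IsHomogeneous N ∧ p4D H = Q := by
  have hadd : ∀ a b : ℂ[X][Y], (∃ (N : ℕ) (H : MvPolynomial (Fin 3) ℂ),
      H.IsHomogeneous N ∧ p4D H = a) → (∃ (N : ℕ) (H : MvPolynomial (Fin 3) ℂ),
      H.IsHomogeneous N ∧ p4D H = b) → ∃ (N : ℕ) (H : MvPolynomial (Fin 3) ℂ),
      H.IsHomogeneous N ∧ p4D H = a + b := by
    rintro a b ⟨N, H, hH, rfl⟩ ⟨N', H', hH', rfl⟩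
    refine ⟨N + N', H * MvPolynomial.X 2 ^ N' + MvPolynomial.X 2 ^ N * H',
      (hH.mul (MvPolynomial.isHomogeneous_X_pow _ _)).add
        ((MvPolynomial.isHomogeneous_X_pow _ _).mul hH'), by simp⟩
  induction Q using Polynomial.induction_on' with
  | add a b ha hb => exact hadd a b ha hb
  | monomial n c =>
    induction c using Polynomial.induction_on' with
    | add a b ha hb => rw [map_add]; exact hadd _ _ ha hb
    | monomial k a =>
      refine ⟨0 + k + n, MvPolynomial.C a * MvPolynomial.X 1 ^ k * MvPolynomial.X 0 ^ n,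
        ((MvPolynomial.isHomogeneous_C _ _).mul (MvPolynomial.isHomogeneous_X_pow _ _)).mul
          (MvPolynomial.isHomogeneous_X_pow _ _), ?_⟩
      rw [map_mul, map_mul, map_pow, map_pow, p4D_X0, p4D_X1, ← C_mul_X_pow_eq_monomial,
        ← C_mul_X_pow_eq_monomial, MvPolynomial.algHom_C, C_mul, C_pow]
      rfl

theorem p4_coeff {e : ℕ} {Ψ : MvPolynomial (Fin 3) ℂ} (h : Ψ.IsHomogeneous e) :
    (p4D Ψ).natDegree ≤ e ∧ (p4D Ψ).coeff e = C (MvPolynomial.eval ![1, 0, 0] Ψ) := by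
  refine p4_ind h (fun Ψ => (p4D Ψ).natDegree ≤ e ∧
    (p4D Ψ).coeff e = C (MvPolynomial.eval ![1, 0, 0] Ψ)) (by simp) (fun a b ha hb => ?_)
    fun m a hm => ?_
  · refine ⟨?_, ?_⟩
    · rw [map_add]; exact (natDegree_add_le _ _).trans (max_le ha.1 hb.1)
    · rw [map_add, coeff_add, ha.2, hb.2, map_add, C_add]
  · have e1 : p4D (MvPolynomial.monomial m a) = monomial (m 0) (C a * X ^ m 1) := by
      rw [p4D, p4_mon, ← C_mul_X_pow_eq_monomial, C_mul, C_pow]
      simp only [Matrix.cons_val_zero, Matrix.cons_val_one, Matrix.cons_val_two, Matrix.tail_cons,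
        Matrix.head_cons, one_pow, mul_one]
      rw [show algebraMap ℂ ℂ[X][Y] a = C (C a) from rfl]
      ring
    rw [e1]
    refine ⟨(natDegree_monomial_le _).trans (by omega), ?_⟩
    rw [coeff_monomial, ← MvPolynomial.aeval_eq_eval, p4_mon]
    simp only [Matrix.cons_val_zero, Matrix.cons_val_one, Matrix.cons_val_two, Matrix.tail_cons,
      Matrix.head_cons, one_pow, one_mul]
    split_ifs with h1
    · have h2 : m 1 = 0 := by omega
      have h3 : m 2 = 0 := by omega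
      simp [h2, h3]
    · rcases Nat.eq_zero_or_pos (m 1) with h2 | h2
      · have h3 : m 2 ≠ 0 := by omega
        simp [h3]
      · simp [h2.ne']

/-- a homogeneous polynomial vanishing at all points `(1, -s, 0)` is divisible by `X 2` -/
theorem p4_dvd {e : ℕ} {P : MvPolynomial (Fin 3) ℂ} (h : P.IsHomogeneous e)
    (h0 : ∀ s : ℂ, MvPolynomial.eval ![1, -s, 0] P = 0) : MvPolynomial.X 2 ∣ P := by
  set T : MvPolynomial (Fin 3) ℂ →ₐ[ℂ] MvPolynomial (Fin 3) ℂ :=
    MvPolynomial.aeval ![MvPolynomial.X 0, MvPolynomial.X 1, 0] with hT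
  have h1 : ∀ Q : MvPolynomial (Fin 3) ℂ, MvPolynomial.X 2 ∣ Q - T Q := by
    intro Q
    induction Q using MvPolynomial.induction_on with
    | C a => simp [hT]
    | add a b ha hb =>
      rw [map_add, show a + b - (T a + T b) = a - T a + (b - T b) by ring]
      exact dvd_add ha hb
    | mul_X a i ha =>
      rw [map_mul, show a * MvPolynomial.X i - T a * T (MvPolynomial.X i) =
        (a - T a) * MvPolynomial.X i + T a * (MvPolynomial.X i - T (MvPolynomial.X i)) by ring]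
      refine dvd_add (ha.mul_right _) (Dvd.dvd.mul_left ?_ _)
      fin_cases i <;> simp [hT]
  have hsc : ∀ x : Fin 3 → ℂ, x 0 ≠ 0 → MvPolynomial.eval x (T P) =
      x 0 ^ e * MvPolynomial.eval ![1, -(-(x 1 / x 0)), 0] P := by
    intro x hx
    refine p4_ind h (fun P => MvPolynomial.eval x (T P) =
      x 0 ^ e * MvPolynomial.eval ![1, -(-(x 1 / x 0)), 0] P) (by simp) (fun a b ha hb => ?_)
      fun m a hm => ?_
    · rw [map_add, map_add, map_add, ha, hb, mul_add]
    · rw [hT, p4_mon, ← MvPolynomial.aeval_eq_eval, ← MvPolynomial.aeval_eq_eval, p4_mon, map_mul,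
        AlgHom.commutes, map_mul, map_mul, map_pow, map_pow, map_pow]
      simp only [Matrix.cons_val_zero, Matrix.cons_val_one, Matrix.cons_val_two, Matrix.tail_cons,
        Matrix.head_cons, MvPolynomial.aeval_X, map_zero, neg_neg, one_pow, ← hm]
      rcases Nat.eq_zero_or_pos (m 2) with h2 | h2
      · rw [h2, div_pow, pow_add, pow_add]; field_simp
      · simp [h2.ne']
  have h2 : MvPolynomial.X 0 * T P = 0 := by
    apply MvPolynomial.funext
    intro x
    rw [map_mul, MvPolynomial.eval_X, map_zero]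
    by_cases hx : x 0 = 0
    · rw [hx, zero_mul]
    · rw [hsc x hx, h0, mul_zero, mul_zero]
  have h3 := h1 P
  rwa [(mul_eq_zero.1 h2).resolve_left (MvPolynomial.X_ne_zero _), sub_zero] at h3

theorem p4_div {e : ℕ} {P : MvPolynomial (Fin 3) ℂ} (h : P.IsHomogeneous e) (hP : P ≠ 0)
    (hd : MvPolynomial.X 2 ∣ P) :
    ∃ e' < e, ∃ P' : MvPolynomial (Fin 3) ℂ, P'.IsHomogeneous e' ∧ p4D P' = p4D P := by
  obtain ⟨Q, rfl⟩ := hd
  have hc : ∀ m, MvPolynomial.coeff m Q ≠ 0 → m.degree + 1 = e := by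
    intro m hm
    by_contra hne
    apply hm
    rw [← MvPolynomial.coeff_X_mul m 2 Q]
    refine h.coeff_eq_zero ?_
    rw [map_add, Finsupp.degree_single]
    omega
  have hQ : Q ≠ 0 := right_ne_zero_of_mul hP
  obtain ⟨m, hm⟩ := MvPolynomial.ne_zero_iff.1 hQ
  have he := hc m hm
  refine ⟨e - 1, by omega, Q, fun m' hm' => ?_, by simp⟩
  have := hc m' hm'
  have h3 : Finsupp.weight 1 m' = m'.degree := by
    rw [Finsupp.degree_eq_weight_one]; rfl
  rw [h3]
  omega

theorem p4_cancel {R : Type} [CommRing R] [IsDomain R] {p a b : R} (hp : Prime p) (ha : ¬p ∣ a)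
    (k : ℕ) (h : a ∣ p ^ k * b) : a ∣ b := by
  induction k with
  | zero => simpa using h
  | succ k ih =>
    obtain ⟨c, hc⟩ := h
    have h1 : p ∣ a * c := ⟨p ^ k * b, by rw [← hc]; ring⟩
    obtain ⟨c', rfl⟩ := (hp.dvd_or_dvd h1).resolve_left ha
    refine ih ⟨c', mul_left_cancel₀ hp.ne_zero ?_⟩
    rw [← mul_assoc, ← pow_succ', hc]; ring

theorem p4_comp {A B : Type} [CommRing A] [Algebra ℂ A] [CommRing B] [Algebra ℂ B]
    (φ : A →ₐ[ℂ] B) (x y : A) (Q : ℂ[X][Y]) :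
    φ (aevalAeval x y Q) = aevalAeval (φ x) (φ y) Q := by
  have : φ.comp (aevalAeval x y) = aevalAeval (φ x) (φ y) :=
    algHom_ext' (by ext; simp) (by simp)
  exact AlgHom.congr_fun this Q

theorem p4_aeval (z y : Ω) (Q : ℂ[X][Y]) (L : IntermediateField ℂ Ω) (hz : z ∈ L) :
    aeval y (Q.map (aeval (⟨z, hz⟩ : L) : ℂ[X] →ₐ[ℂ] L).toRingHom) = aevalAeval z y Q := by
  induction Q using Polynomial.induction_on' with
  | add a b ha hb => rw [Polynomial.map_add, map_add, map_add, ha, hb]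
  | monomial n c =>
    rw [map_monomial, aeval_monomial, ← C_mul_X_pow_eq_monomial, map_mul, map_pow, aevalAeval_C,
      aevalAeval_Y]
    congr 1
    exact (aeval_algHom_apply (IsScalarTower.toAlgHom ℂ L Ω) (⟨z, hz⟩ : L) c).symm

/-- the substitution `X ↦ X - s Y` -/
noncomputable def p4S (s : ℂ) : ℂ[X][Y] →ₐ[ℂ] ℂ[X][Y] := aevalAeval (C X - C (C s) * Y) Y

theorem p4S_eval (s : ℂ) (τ y : Ω) (Q : ℂ[X][Y]) :
    aevalAeval (τ + algebraMap ℂ Ω s * y) y (p4S s Q) = aevalAeval τ y Q := by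
  rw [p4S, p4_comp]
  congr 2
  · rw [map_sub, map_mul, aevalAeval_X, aevalAeval_Y, aevalAeval_C, aeval_C]; ring
  · exact aevalAeval_Y _ _

theorem p4S_inv (s : ℂ) (Q : ℂ[X][Y]) : p4S s (p4S (-s) Q) = Q := by
  have : (p4S s).comp (p4S (-s)) = AlgHom.id ℂ _ :=
    algHom_ext' (by ext1; simp [p4S]; ring) (by simp [p4S])
  exact AlgHom.congr_fun this Q

theorem p4S_coeff (s : ℂ) {e : ℕ} {P : MvPolynomial (Fin 3) ℂ} (hP : P.IsHomogeneous e) :
    (p4S s (p4D P)).coeff e = C (MvPolynomial.eval ![1, -s, 0] P) := by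
  set g : Fin 3 → MvPolynomial (Fin 3) ℂ := ![MvPolynomial.X 0,
    MvPolynomial.X 1 - MvPolynomial.C s * MvPolynomial.X 0, MvPolynomial.X 2] with hg
  have hP' : (MvPolynomial.aeval g P).IsHomogeneous e := by
    have := hP.aeval (n := 1) g (fun i => by
        fin_cases i
        · exact MvPolynomial.isHomogeneous_X _ _
        · exact (MvPolynomial.isHomogeneous_X _ _).sub (MvPolynomial.isHomogeneous_C_mul_X _ _)
        · exact MvPolynomial.isHomogeneous_X _ _)
    rwa [one_mul] at this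
  have hP'D : p4D (MvPolynomial.aeval g P) = p4S s (p4D P) := by
    have : p4D.comp (MvPolynomial.aeval g) = (p4S s).comp p4D := by
      ext1 i
      fin_cases i
      · simp [p4S, hg]
      · simp [p4S, hg]
      · simp [hg]
    exact AlgHom.congr_fun this P
  have hP'e : MvPolynomial.eval ![1, 0, 0] (MvPolynomial.aeval g P) =
      MvPolynomial.eval ![1, -s, 0] P := by
    rw [← MvPolynomial.aeval_eq_eval, ← MvPolynomial.aeval_eq_eval, ← AlgHom.comp_apply,
      MvPolynomial.comp_aeval]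
    congr 2
    ext i
    fin_cases i <;> simp [hg]
  rw [← hP'D, ← hP'e]
  exact (p4_coeff hP').2

theorem p4_main (τ y : Ω) (hτ : Transcendental ℂ τ) (P0 : ℂ[X][Y])
    (hrel : ∀ Ψ : ℂ[X][Y], aevalAeval τ y Ψ = 0 ↔ P0 ∣ Ψ) (s c : ℂ) (hs : c ≠ 0) (e : ℕ)
    (hd2 : (p4S s P0).coeff e = C c) :
    Transcendental ℂ (τ + algebraMap ℂ Ω s * y) ∧
      e ≤ dg (τ + algebraMap ℂ Ω s * y) (IntermediateField.adjoin ℂ {τ, y}) := by
  have hσe := p4S_eval s τ y
  set z := τ + algebraMap ℂ Ω s * y with hzd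
  have hσ0 : aevalAeval z y (p4S s P0) = 0 := by rw [hσe, (hrel P0).2 dvd_rfl]
  have halg : ∀ L : IntermediateField ℂ Ω, z ∈ L → IsAlgebraic L y := by
    intro L hzL
    refine ⟨(p4S s P0).map (aeval (⟨z, hzL⟩ : L) : ℂ[X] →ₐ[ℂ] L).toRingHom, fun h0 => hs ?_, ?_⟩
    · have h1 := congrArg (fun p => coeff p e) h0
      simp only [coeff_map, hd2, coeff_zero] at h1
      simpa using h1
    · rw [p4_aeval, hσ0]
  have h3 : τ = z - algebraMap ℂ Ω s * y := by rw [hzd]; ring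
  have hzt : Transcendental ℂ z := by
    intro hza
    have h1 : IsAlgebraic ℂ y := by
      have hint : IsIntegral ℂ z := hza.isIntegral
      have := IntermediateField.adjoin.finiteDimensional hint
      exact (halg _ (IntermediateField.mem_adjoin_simple_self ℂ z)).restrictScalars ℂ
    apply hτ
    rw [h3]
    exact hza.sub ((isAlgebraic_algebraMap s).mul h1)
  obtain ⟨P1, hP1, hdeg1, -, hrel1⟩ :=
    exists_princ z y hzt (halg _ (IntermediateField.mem_adjoin_simple_self ℂ z))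
  have key : ∀ a b : Ω, a ∈ IntermediateField.adjoin ℂ {b, y} →
      IntermediateField.adjoin ℂ {a, y} ≤ IntermediateField.adjoin ℂ {b, y} := by
    intro a b h
    rw [IntermediateField.adjoin_le_iff]
    rintro _ (rfl | rfl)
    exacts [h, IntermediateField.subset_adjoin _ _ (Or.inr rfl)]
  have hKz : IntermediateField.adjoin ℂ {z, y} = IntermediateField.adjoin ℂ {τ, y} := by
    refine le_antisymm (key _ _ ?_) (key _ _ ?_)
    · exact add_mem (IntermediateField.subset_adjoin _ _ (Or.inl rfl))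
        (mul_mem (IntermediateField.algebraMap_mem _ s)
          (IntermediateField.subset_adjoin _ _ (Or.inr rfl)))
    · have h4 : z - algebraMap ℂ Ω s * y ∈ IntermediateField.adjoin ℂ {z, y} :=
        sub_mem (IntermediateField.subset_adjoin _ _ (Or.inl rfl))
          (mul_mem (IntermediateField.algebraMap_mem _ s)
            (IntermediateField.subset_adjoin _ _ (Or.inr rfl)))
      rwa [← h3] at h4
  refine ⟨hzt, ?_⟩
  rw [← hKz, ← hdeg1]
  have h1 := p4S_inv s P1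
  have h5 : P0 ∣ p4S (-s) P1 := by
    rw [← hrel, ← hσe, h1, hrel1]
  have h4 : p4S s P0 ∣ P1 := by
    have := map_dvd (p4S s) h5
    rwa [h1] at this
  refine le_trans (le_natDegree_of_ne_zero ?_) (natDegree_le_of_dvd h4 hP1)
  rw [hd2]
  exact C_ne_zero.2 hs

/-- Projection from a point of the curve lowers the degree.  `τ = f 1 / f 2`, `y = f 0 / f 2`,
`K' = ℂ(τ, y) ≤ K`, `P0` from `exists_princ τ y`, `e` its total degree, `P` its homogenisation
(`P(f0, f1, f2) = f2^e P0(f1/f2, f0/f2)`), which generates the homogeneous relations (dehomogenise; note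
`X 2 ∤ P`).  By `hpt` the coefficient of `Y^e` in `P0` vanishes, so `dg τ K' = natDegree P0 ≤ e - 1`.  For all
but finitely many `s` the polynomial `Q(Z, Y) = P0(Z - s Y, Y)` has `Y`-degree `e` with constant leading
coefficient.  `z = τ + s y = (f 1 + s f 0) / f 2` is transcendental (else `y`, then `τ`, would be algebraic over
`ℂ`), and `1, y, …, y^(e-1)` are independent over `ℂ(z)` (a relation is a multiple of `Q`), so
`dg z K' ≥ e`; `K'` and `K` are finite over `ℂ(z)`.  Tower law: `dg z K = dg z K' * [K : K']`,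
`dg τ K = dg τ K' * [K : K']`. -/
theorem step (f : Fin 3 → Ω) (K : IntermediateField ℂ Ω) (h2 : f 2 ≠ 0) (hK0 : f 0 / f 2 ∈ K)
    (hK1 : f 1 / f 2 ∈ K) (hτ : Transcendental ℂ (f 1 / f 2)) (hfin : 0 < dg (f 1 / f 2) K)
    (hpt : ∀ (e : ℕ) (Ψ : MvPolynomial (Fin 3) ℂ), Ψ.IsHomogeneous e → MvPolynomial.aeval f Ψ = 0 →
      MvPolynomial.eval ![1, 0, 0] Ψ = 0) :
    ∃ (e : ℕ) (P : MvPolynomial (Fin 3) ℂ) (s : ℂ), P.IsHomogeneous e ∧ P ≠ 0 ∧
      MvPolynomial.aeval f P = 0 ∧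
      (∀ (e' : ℕ) (Ψ : MvPolynomial (Fin 3) ℂ), Ψ.IsHomogeneous e' → MvPolynomial.aeval f Ψ = 0 →
        P ∣ Ψ) ∧
      Transcendental ℂ ((f 1 + algebraMap ℂ Ω s * f 0) / f 2) ∧
      dg (f 1 / f 2) K + 1 ≤ dg ((f 1 + algebraMap ℂ Ω s * f 0) / f 2) K ∧
      e ≤ dg ((f 1 + algebraMap ℂ Ω s * f 0) / f 2) K ∧
      (K ≤ IntermediateField.adjoin ℂ {f 1 / f 2, f 0 / f 2} → dg (f 1 / f 2) K + 1 ≤ e) := by
  classical
  set τ := f 1 / f 2 with hτd
  set y := f 0 / f 2 with hyd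
  set K' : IntermediateField ℂ Ω := IntermediateField.adjoin ℂ {τ, y} with hK'
  have hK'K : K' ≤ K := by
    rw [hK', IntermediateField.adjoin_le_iff]
    rintro _ (rfl | rfl)
    exacts [hK1, hK0]
  have hτK' : τ ∈ K' := IntermediateField.subset_adjoin _ _ (Or.inl rfl)
  have hyK' : y ∈ K' := IntermediateField.subset_adjoin _ _ (Or.inr rfl)
  obtain ⟨P0, hP0, hdeg, -, hrel⟩ :=
    exists_princ τ y hτ (isAlgebraic_of_dg_pos τ K hK1 hfin hK0)
  have hex := p4_exists P0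
  obtain ⟨P, hP, hPD⟩ := Nat.find_spec hex
  set e := Nat.find hex with he
  have hPne : P ≠ 0 := by
    rintro rfl
    exact hP0 (by rw [← hPD, map_zero])
  have hnd : ¬MvPolynomial.X 2 ∣ P := by
    intro hd
    obtain ⟨e', he', P', h1, h2⟩ := p4_div hP hPne hd
    exact Nat.find_min hex he' ⟨P', h1, h2.trans hPD⟩
  have hPf : MvPolynomial.aeval f P = 0 := by
    rw [p4_eval f h2 hP, hPD, (hrel P0).2 dvd_rfl, mul_zero]
  have hlt : dg τ K' + 1 ≤ e := by
    obtain ⟨h1, h3⟩ := p4_coeff hP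
    rw [hpt e P hP hPf, hPD, C_0] at h3
    rw [hPD] at h1
    rw [← hdeg]
    rcases h1.lt_or_eq with h4 | h4
    · exact h4
    · rw [← h4] at h3
      exact absurd (leadingCoeff_eq_zero.1 h3) hP0
  obtain ⟨s, hs⟩ : ∃ s : ℂ, MvPolynomial.eval ![1, -s, 0] P ≠ 0 := by
    by_contra hc
    push Not at hc
    exact hnd (p4_dvd hP hc)
  have hz : (f 1 + algebraMap ℂ Ω s * f 0) / f 2 = τ + algebraMap ℂ Ω s * y := by
    rw [hτd, hyd]; ring
  obtain ⟨hzt, hge⟩ := p4_main τ y hτ P0 hrel s _ hs e (hPD ▸ p4S_coeff s hP)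
  set z := τ + algebraMap ℂ Ω s * y with hzd
  have hzK' : z ∈ K' := K'.add_mem hτK' (K'.mul_mem (K'.algebraMap_mem s) hyK')
  have t1 : dg τ K' * K'.relfinrank K = dg τ K :=
    IntermediateField.relfinrank_mul_relfinrank
      (IntermediateField.adjoin_simple_le_iff.2 hτK') hK'K
  have t2 : dg z K' * K'.relfinrank K = dg z K :=
    IntermediateField.relfinrank_mul_relfinrank
      (IntermediateField.adjoin_simple_le_iff.2 hzK') hK'K
  have hr : 1 ≤ K'.relfinrank K := by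
    rcases Nat.eq_zero_or_pos (K'.relfinrank K) with h0 | h0
    · rw [h0, mul_zero] at t1; omega
    · exact h0
  refine ⟨e, P, s, hP, hPne, hPf, fun e' Ψ hΨ hΨf => ?_, hz ▸ hzt, ?_, ?_, fun hle => ?_⟩
  · rw [p4_eval f h2 hΨ] at hΨf
    obtain ⟨R, hR⟩ := (hrel _).1 ((mul_eq_zero.1 hΨf).resolve_left (pow_ne_zero _ h2))
    obtain ⟨N, H, hH, rfl⟩ := p4_exists R
    refine p4_cancel MvPolynomial.X_prime hnd (e + N) ⟨H * MvPolynomial.X 2 ^ e', ?_⟩
    rw [← sub_eq_zero]
    refine p4_inj (e := e + N + e') (((MvPolynomial.isHomogeneous_X_pow _ _).mul hΨ).sub ?_) ?_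
    · rw [add_assoc]
      exact hP.mul (hH.mul (MvPolynomial.isHomogeneous_X_pow _ _))
    · simp [hR, hPD]
  · rw [hz, ← t1, ← t2]
    nlinarith
  · rw [hz, ← t2]
    nlinarith
  · rw [le_antisymm hle hK'K]
    exact hlt

end Crest.Agent.R22
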