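import Crest.Agent.R22.Ker

namespace Crest.Agent.R22

/-- Newton iteration.  `A` is a commutative ring, `q ∈ A`, `Ψ ∈ A[X][T]`; the points `(x P, y P)` are
congruent to `(x0, y0)` mod `q`, lie on `Ψ = 0`, and `u ∂_T Ψ(x0, y0) ≡ 1 (mod q)`.  Then `y` is a
polynomial in `x` modulo `q^h`.  Induction: `c' = c - u Ψ(X, c)`; `Ψ(x, c) = (c - y) Ψ_T(x, y) + (c-y)² k`
(`Polynomial.evalSubFactor` / `binomExpansion`), so `y - c'(x) = (y - c)(1 - u Ψ_T(x, y)) + u (c-y)² k`. -/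
theorem exists_newton {A κ : Type} [CommRing A] (q u x0 y0 : A) (Ψ : Polynomial (Polynomial A))
    (S : Set κ) (x y : κ → A) (hx : ∀ P ∈ S, q ∣ x P - x0) (hy : ∀ P ∈ S, q ∣ y P - y0)
    (hΨ : ∀ P ∈ S, Ψ.evalEval (x P) (y P) = 0)
    (hu : q ∣ u * (Polynomial.derivative Ψ).evalEval x0 y0 - 1) (h : ℕ) :
    ∃ c : Polynomial A, ∀ P ∈ S, q ^ h ∣ y P - c.eval (x P) := by
  have h1 : ∀ P ∈ S, q ∣ u * (Polynomial.derivative Ψ).evalEval (x P) (y P) - 1 := fun P hP => by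
    have h2 : q ∣ (Polynomial.derivative Ψ).evalEval (x P) (y P) -
        (Polynomial.derivative Ψ).evalEval (x P) y0 := by
      rw [← Polynomial.map_evalRingHom_eval, ← Polynomial.map_evalRingHom_eval]
      exact (hy P hP).trans (Polynomial.sub_dvd_eval_sub _ _ _)
    have h3 : q ∣ (Polynomial.derivative Ψ).evalEval (x P) y0 -
        (Polynomial.derivative Ψ).evalEval x0 y0 :=
      (hx P hP).trans (Polynomial.sub_dvd_eval_sub _ _ _)
    have := ((h2.add h3).mul_left u).add hu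
    convert this using 1
    ring
  have key : ∀ h : ℕ, ∃ c : Polynomial A, ∀ P ∈ S, q ^ (h + 1) ∣ y P - c.eval (x P) := by
    intro h
    induction h with
    | zero => exact ⟨Polynomial.C y0, fun P hP => by simpa using hy P hP⟩
    | succ h ih =>
      obtain ⟨c, hc⟩ := ih
      refine ⟨c - Polynomial.C u * Ψ.eval c, fun P hP => ?_⟩
      obtain ⟨k, hk⟩ := Polynomial.binomExpansion (Ψ.map (Polynomial.evalRingHom (x P))) (y P)
        (c.eval (x P) - y P)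
      rw [add_sub_cancel, Polynomial.derivative_map, Polynomial.map_evalRingHom_eval,
        Polynomial.map_evalRingHom_eval, Polynomial.map_evalRingHom_eval, hΨ P hP, zero_add] at hk
      have e1 : (Ψ.eval c).eval (x P) = Ψ.evalEval (x P) (c.eval (x P)) := by
        rw [← Polynomial.map_evalRingHom_eval, Polynomial.eval_map]
        exact (Polynomial.eval₂_at_apply (Polynomial.evalRingHom (x P)) c).symm
      have e2 : y P - (c - Polynomial.C u * Ψ.eval c).eval (x P) = (y P - c.eval (x P)) *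
          (u * k * (y P - c.eval (x P)) -
            (u * (Polynomial.derivative Ψ).evalEval (x P) (y P) - 1)) := by
        rw [Polynomial.eval_sub, Polynomial.eval_mul, Polynomial.eval_C, e1, hk]
        ring
      rw [e2, pow_succ]
      exact mul_dvd_mul (hc P hP)
        ((((dvd_pow_self q (Nat.succ_ne_zero h)).trans (hc P hP)).mul_left _).sub (h1 P hP))
  obtain ⟨c, hc⟩ := key h
  exact ⟨c, fun P hP => (pow_dvd_pow q h.le_succ).trans (hc P hP)⟩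

/-- Bertrand: `K` distinct primes in `[Y, 2^K (Y + 1)]`. -/
theorem exists_primes (K : ℕ) (Y : ℝ) (hY : 1 ≤ Y) : ∃ Q : Finset ℕ, Q.card = K ∧
    ∀ q ∈ Q, q.Prime ∧ Y ≤ (q : ℝ) ∧ (q : ℝ) ≤ 2 ^ (K + 1) * Y := by
  have h0 : 0 < ⌈Y⌉₊ := Nat.ceil_pos.2 (by linarith)
  have key : ∀ K : ℕ, ∃ Q : Finset ℕ, Q.card = K ∧
      ∀ q ∈ Q, q.Prime ∧ ⌈Y⌉₊ ≤ q ∧ q ≤ 2 ^ K * ⌈Y⌉₊ := by
    intro K
    induction K with
    | zero => exact ⟨∅, rfl, by simp⟩
    | succ K ih =>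
      obtain ⟨Q, h1, h2⟩ := ih
      obtain ⟨p, hp, h3, h4⟩ := Nat.exists_prime_lt_and_le_two_mul (2 ^ K * ⌈Y⌉₊) (by positivity)
      have h5 : ⌈Y⌉₊ ≤ 2 ^ K * ⌈Y⌉₊ := Nat.le_mul_of_pos_left _ (by positivity)
      have h6 : 2 ^ (K + 1) * ⌈Y⌉₊ = 2 * (2 ^ K * ⌈Y⌉₊) := by ring
      refine ⟨insert p Q, ?_, fun q hq => ?_⟩
      · rw [Finset.card_insert_of_notMem fun h => absurd (h2 p h).2.2 (not_le.2 h3), h1]
      · rcases Finset.mem_insert.1 hq with rfl | hq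
        · exact ⟨hp, by omega, by omega⟩
        · exact ⟨(h2 q hq).1, (h2 q hq).2.1, by have := (h2 q hq).2.2; omega⟩
  obtain ⟨Q, h1, h2⟩ := key K
  refine ⟨Q, h1, fun q hq => ⟨(h2 q hq).1, Nat.ceil_le.1 (h2 q hq).2.1, ?_⟩⟩
  have h3 : (q : ℝ) ≤ 2 ^ K * (⌈Y⌉₊ : ℝ) := by exact_mod_cast (h2 q hq).2.2
  have h4 : (⌈Y⌉₊ : ℝ) ≤ 2 * Y := by linarith [Nat.ceil_lt_add_one (by linarith : 0 ≤ Y)]
  rw [pow_succ, mul_assoc]
  exact h3.trans (mul_le_mul_of_nonneg_left h4 (by positivity))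

/-- A nonzero integer of size `< Y^K` is not divisible by `K` distinct primes `≥ Y`. -/
theorem exists_prime_not_dvd (Q : Finset ℕ) (Y : ℝ) (hY : 1 ≤ Y)
    (hQ : ∀ q ∈ Q, q.Prime ∧ Y ≤ (q : ℝ)) (M : ℤ) (hM : M ≠ 0) (hlt : |(M : ℝ)| < Y ^ Q.card) :
    ∃ q ∈ Q, ¬ (q : ℤ) ∣ M := by
  by_contra h
  have h1 : ∏ q ∈ Q, q ∣ M.natAbs := Finset.prod_primes_dvd _ (fun q hq => (hQ q hq).1.prime)
    fun q hq => Int.natCast_dvd.1 (by
      by_contra h'
      exact h ⟨q, hq, h'⟩)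
  have h2 : ((∏ q ∈ Q, q : ℕ) : ℝ) ≤ (M.natAbs : ℝ) :=
    Nat.cast_le.2 (Nat.le_of_dvd (Int.natAbs_pos.2 hM) h1)
  rw [Nat.cast_natAbs, Int.cast_abs, Nat.cast_prod] at h2
  have h3 : Y ^ Q.card ≤ ∏ q ∈ Q, (q : ℝ) := by
    rw [← Finset.prod_const]
    exact Finset.prod_le_prod (fun _ _ => by linarith) fun q hq => (hQ q hq).2
  linarith

end Crest.Agent.R22
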