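import Crest.Agent.R22.Ker
import Crest.Agent.R22.QClass1

namespace Crest.Agent.R22

section aux
open Polynomial

/-- The bivariate polynomial with coefficient array `ψ`. -/
noncomputable def qcP (R : ℕ) (ψ : ℕ → ℕ → ℤ) (A : Type) [CommRing A] : Polynomial (Polynomial A) :=
  ∑ i ∈ Finset.range (R + 1), ∑ j ∈ Finset.range (R + 1), C (C (ψ i j : A) * X ^ i) * X ^ j

theorem qcP_eval (R : ℕ) (ψ : ℕ → ℕ → ℤ) {A : Type} [CommRing A] (x y : A) :
    (qcP R ψ A).evalEval x y =
      ∑ i ∈ Finset.range (R + 1), ∑ j ∈ Finset.range (R + 1), ψ i j * x ^ i * y ^ j := by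
  simp [qcP, evalEval, eval_finsetSum]

theorem qcP_der (R : ℕ) (ψ : ℕ → ℕ → ℤ) {A : Type} [CommRing A] (x y : A) :
    (derivative (qcP R ψ A)).evalEval x y =
      ∑ i ∈ Finset.range (R + 1), ∑ j ∈ Finset.range (R + 1),
        j * ψ i j * x ^ i * y ^ (j - 1) := by
  simp only [qcP, derivative_sum, derivative_C_mul_X_pow, evalEval, eval_finsetSum, eval_mul,
    eval_C, eval_pow, eval_X, eval_natCast]
  exact Finset.sum_congr rfl fun i _ => Finset.sum_congr rfl fun j _ => by ring

theorem qcP_deg (R : ℕ) (ψ : ℕ → ℕ → ℤ) (A : Type) [CommRing A] : (qcP R ψ A).natDegree ≤ R :=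
  natDegree_sum_le_of_forall_le _ _ fun _ _ => natDegree_sum_le_of_forall_le _ _ fun _ hj =>
    (natDegree_C_mul_X_pow_le _ _).trans (Nat.lt_succ_iff.1 (Finset.mem_range.1 hj))

theorem qc_hom (R : ℕ) (ψ : ℕ → ℕ → ℤ) {A : Type} [CommRing A] (x y u v : A) :
    ∑ i ∈ Finset.range (R + 1), ∑ j ∈ Finset.range (R + 1),
      ψ i j * (u * x) ^ i * u ^ (R - i) * (v * y) ^ j * v ^ (R - j) =
      u ^ R * v ^ R * (qcP R ψ A).evalEval x y := by
  simp only [qcP_eval, Finset.mul_sum]
  refine Finset.sum_congr rfl fun i hi => Finset.sum_congr rfl fun j hj => ?_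
  obtain ⟨k, hk⟩ := Nat.exists_eq_add_of_le (Nat.lt_succ_iff.1 (Finset.mem_range.1 hi))
  obtain ⟨l, hl⟩ := Nat.exists_eq_add_of_le (Nat.lt_succ_iff.1 (Finset.mem_range.1 hj))
  have e1 : u ^ R = u ^ i * u ^ k := by rw [hk, pow_add]
  have e2 : v ^ R = v ^ j * v ^ l := by rw [hl, pow_add]
  rw [e1, e2, show R - i = k by omega, show R - j = l by omega]
  ring

theorem qc_hom' (R : ℕ) (ψ : ℕ → ℕ → ℤ) {A : Type} [CommRing A] (x y u v : A) :
    v * ∑ i ∈ Finset.range (R + 1), ∑ j ∈ Finset.range (R + 1),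
      j * ψ i j * (u * x) ^ i * u ^ (R - i) * (v * y) ^ (j - 1) * v ^ (R - j) =
      u ^ R * v ^ R * (derivative (qcP R ψ A)).evalEval x y := by
  simp only [qcP_der, Finset.mul_sum]
  refine Finset.sum_congr rfl fun i hi => Finset.sum_congr rfl fun j hj => ?_
  obtain ⟨k, hk⟩ := Nat.exists_eq_add_of_le (Nat.lt_succ_iff.1 (Finset.mem_range.1 hi))
  obtain ⟨l, hl⟩ := Nat.exists_eq_add_of_le (Nat.lt_succ_iff.1 (Finset.mem_range.1 hj))
  have e1 : u ^ R = u ^ i * u ^ k := by rw [hk, pow_add]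
  have e2 : v ^ R = v ^ j * v ^ l := by rw [hl, pow_add]
  rw [e1, e2, show R - i = k by omega, show R - j = l by omega]
  rcases j with _ | j
  · simp
  · rw [Nat.add_sub_cancel]
    ring

theorem qc_congr {A τ : Type} [CommRing A] (m : A) (a b : τ → A) (h : ∀ o, m ∣ a o - b o)
    (ρ : MvPolynomial τ ℤ) : m ∣ MvPolynomial.aeval a ρ - MvPolynomial.aeval b ρ := by
  induction ρ using MvPolynomial.induction_on with
  | C c => simp
  | add p r hp hr =>
    rw [map_add, map_add, add_sub_add_comm]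
    exact dvd_add hp hr
  | mul_X p o hp =>
    simp only [map_mul, MvPolynomial.aeval_X]
    rw [show ∀ u v : A, u * a o - v * b o = (u - v) * a o + v * (a o - b o) from
      fun u v => by ring]
    exact dvd_add (hp.mul_right _) ((h o).mul_left _)

theorem qc_trunc {A : Type} [CommRing A] {m z : A} (hz : m ∣ z) (p : A[X]) (H : ℕ) :
    m ^ H ∣ p.eval z - ∑ l ∈ Finset.range H, p.coeff l * z ^ l := by
  rw [eval_eq_sum_range' (show p.natDegree < H + (p.natDegree + 1) by omega), Finset.sum_range_add,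
    add_sub_cancel_left]
  exact Finset.dvd_sum fun l _ =>
    (((pow_dvd_pow_of_dvd hz H).trans (pow_dvd_pow z (Nat.le_add_right H l))).mul_left _)

/-- Divisibility of determinants in one class. -/
theorem qc_det {A σ ι : Type} [CommRing A] [Fintype ι] [DecidableEq ι] (m x0 : A) (y0 u : σ → A)
    (Ψ : σ → Polynomial (Polynomial A)) (x : ι → A) (y : σ → ι → A) (hx : ∀ r, m ∣ x r - x0)
    (hy : ∀ s r, m ∣ y s r - y0 s) (hΨ : ∀ s r, (Ψ s).evalEval (x r) (y s r) = 0)
    (hu : ∀ s, m ∣ u s * (derivative (Ψ s)).evalEval x0 (y0 s) - 1)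
    (ρ : ι → MvPolynomial (Option σ) ℤ) :
    m ^ (Fintype.card ι * (Fintype.card ι - 1) / 2) ∣ (Matrix.of fun r r' => MvPolynomial.aeval
      (fun o : Option σ => o.elim (x r') fun s => y s r') (ρ r)).det := by
  choose c hc using fun s => exists_newton m (u s) x0 (y0 s) (Ψ s) Set.univ x (y s)
    (fun r _ => hx r) (fun r _ => hy s r) (fun r _ => hΨ s r) (hu s) (Fintype.card ι)
  have h : ∀ r r', m ^ Fintype.card ι ∣ MvPolynomial.aeval
      (fun o : Option σ => o.elim (x r') fun s => y s r') (ρ r) -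
      ∑ l ∈ Finset.range (Fintype.card ι), (taylor x0 (MvPolynomial.aeval
        (fun o : Option σ => o.elim X c) (ρ r))).coeff l * (x r' - x0) ^ l := by
    intro r r'
    have h1 := qc_trunc (hx r') (taylor x0 (MvPolynomial.aeval
      (fun o : Option σ => o.elim X c) (ρ r))) (Fintype.card ι)
    have h2 := qc_congr (m ^ Fintype.card ι) (fun o : Option σ => o.elim (x r') fun s => y s r')
      (fun o : Option σ => eval (x r') (o.elim X c)) (by
        rintro (_ | s)
        · simp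
        · exact hc s r' trivial) (ρ r)
    have h3 : eval (x r') (MvPolynomial.aeval (fun o : Option σ => o.elim X c) (ρ r)) =
        MvPolynomial.aeval (fun o : Option σ => eval (x r') (o.elim X c)) (ρ r) :=
      DFunLike.congr_fun (MvPolynomial.comp_aeval (fun o : Option σ => o.elim X c)
        (evalRingHom (x r')).toIntAlgHom) (ρ r)
    rw [taylor_eval_sub, h3] at h1
    simpa using dvd_add h2 h1
  choose E hE using h
  exact det_padic m _ _ E (fun r => x r - x0) hx fun r r' => sub_eq_iff_eq_add'.1 (hE r r')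

end aux

/-- The `q`-adic classes.  `x = l1 / l2`, `y s = num s / den s` are `q`-integral rationals on the curves
`Ψ s = ∑ ψ s i j X^i T^j = 0`, smooth mod `q` in the direction `T`.  The class of a point is
`(x mod q, (y s mod q)_s)`.  For fixed `x mod q`, `y s mod q` is a root of `Ψ s (x, T) ∈ (ZMod q)[T]`, of
degree `≤ R` and nonzero (its derivative does not vanish at the root), so there are `≤ q R^|σ|` classes.
In one class work in `A = ZMod (q^L)`, `L = H (H - 1) / 2 + 1` (or in `ℤ_[q]`, or in the subring of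
`q`-integral rationals): by `exists_newton` each `y s` is a polynomial in `x` mod `q^H`, so each row
`ρ r (x, y)` is a polynomial in `z = x - x0` mod `q^H` (terms `z^l`, `l ≥ H`, are `≡ 0`); apply `det_padic`
and pull out the column factors. -/
theorem qclass {σ : Type} [Fintype σ] (q R : ℕ) (hq : q.Prime) (S : Finset ℤ) (l1 l2 : ℤ → ℤ)
    (num den : σ → ℤ → ℤ) (ψ : σ → ℕ → ℕ → ℤ) (hl2 : ∀ n ∈ S, ¬ (q : ℤ) ∣ l2 n)
    (hden : ∀ s, ∀ n ∈ S, ¬ (q : ℤ) ∣ den s n)
    (hΨ : ∀ s, ∀ n ∈ S, ∑ i ∈ Finset.range (R + 1), ∑ j ∈ Finset.range (R + 1),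
      ψ s i j * l1 n ^ i * l2 n ^ (R - i) * num s n ^ j * den s n ^ (R - j) = 0)
    (hd : ∀ s, ∀ n ∈ S, ¬ (q : ℤ) ∣ ∑ i ∈ Finset.range (R + 1), ∑ j ∈ Finset.range (R + 1),
      j * ψ s i j * l1 n ^ i * l2 n ^ (R - i) * num s n ^ (j - 1) * den s n ^ (R - j))
    (B : ℝ) (hB0 : 0 ≤ B)
    (hB : ∀ T ⊆ S, (∀ (ι : Type) [Fintype ι] [DecidableEq ι] (P : ι → ℤ), (∀ r, P r ∈ T) →
      ∀ (ρ : ι → MvPolynomial (Option σ) ℤ) (col : ℤ → ℤ) (M : Matrix ι ι ℤ),
      (∀ r r', (M r r' : ℚ) = col (P r') * MvPolynomial.aeval (fun o : Option σ =>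
        o.elim ((l1 (P r') : ℚ) / l2 (P r')) (fun s => (num s (P r') : ℚ) / den s (P r'))) (ρ r)) →
      (q : ℤ) ^ (Fintype.card ι * (Fintype.card ι - 1) / 2) ∣ M.det) → (T.card : ℝ) ≤ B) :
    (S.card : ℝ) ≤ q * (R : ℝ) ^ Fintype.card σ * B := by
  classical
  have : Fact q.Prime := ⟨hq⟩
  have hunit : ∀ a : ℤ, ¬(q : ℤ) ∣ a → IsUnit (a : ℤ_[q]) := fun a ha => by
    rw [PadicInt.isUnit_iff]
    exact le_antisymm (PadicInt.norm_le_one _)
      (not_lt.1 fun h => ha ((PadicInt.norm_int_lt_one_iff_dvd a).1 h))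
  have hker : ∀ a b : ℤ_[q], PadicInt.toZMod a = PadicInt.toZMod b → (q : ℤ_[q]) ∣ a - b := by
    intro a b h
    rw [← Ideal.mem_span_singleton, ← PadicInt.maximalIdeal_eq_span_p, ← PadicInt.ker_toZMod,
      RingHom.mem_ker, map_sub, h, sub_self]
  set x : ℤ → ℤ_[q] := fun n => Ring.inverse (l2 n : ℤ_[q]) * l1 n with hx
  set y : σ → ℤ → ℤ_[q] := fun s n => Ring.inverse (den s n : ℤ_[q]) * num s n with hy
  have hx' : ∀ n ∈ S, (l1 n : ℤ_[q]) = l2 n * x n := fun n hn =>
    (Ring.mul_inverse_cancel_left _ _ (hunit _ (hl2 n hn))).symm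
  have hy' : ∀ s, ∀ n ∈ S, (num s n : ℤ_[q]) = den s n * y s n := fun s n hn =>
    (Ring.mul_inverse_cancel_left _ _ (hunit _ (hden s n hn))).symm
  have h1 : ∀ s, ∀ n ∈ S, (qcP R (ψ s) ℤ_[q]).evalEval (x n) (y s n) = 0 := by
    intro s n hn
    have h := congrArg (Int.cast : ℤ → ℤ_[q]) (hΨ s n hn)
    push_cast at h
    rw [hx' n hn, hy' s n hn, qc_hom] at h
    exact (((hunit _ (hl2 n hn)).pow R).mul ((hunit _ (hden s n hn)).pow R)).mul_right_eq_zero.1 h
  have h2 : ∀ s, ∀ n ∈ S,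
      IsUnit ((Polynomial.derivative (qcP R (ψ s) ℤ_[q])).evalEval (x n) (y s n)) := by
    intro s n hn
    have h := (hunit _ (hden s n hn)).mul (hunit _ (hd s n hn))
    push_cast at h
    rw [hx' n hn, hy' s n hn, qc_hom'] at h
    exact isUnit_of_mul_isUnit_right h
  set cl : ℤ → ZMod q × (σ → ZMod q) :=
    fun n => (PadicInt.toZMod (x n), fun s => PadicInt.toZMod (y s n)) with hcl
  set I : Finset (ZMod q × (σ → ZMod q)) := Finset.univ.biUnion fun a : ZMod q => {a} ×ˢ
    Fintype.piFinset fun s => ((qcP R (ψ s) (ZMod q)).map (Polynomial.evalRingHom a)).roots.toFinset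
    with hI
  have hIc : I.card ≤ q * R ^ Fintype.card σ := by
    refine (Finset.card_biUnion_le_card_mul _ _ (R ^ Fintype.card σ) fun a _ => ?_).trans (by simp)
    rw [Finset.card_product, Finset.card_singleton, one_mul, Fintype.card_piFinset]
    exact Finset.prod_le_pow_card _ _ _ fun s _ => (Multiset.toFinset_card_le _).trans
      ((Polynomial.card_roots' _).trans (Polynomial.natDegree_map_le.trans (qcP_deg _ _ _)))
  have hmaps : (S : Set ℤ).MapsTo cl I := by
    intro n hn
    simp only [hI, hcl, Finset.mem_coe, Finset.mem_biUnion, Finset.mem_univ, true_and,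
      Finset.mem_product, Finset.mem_singleton, Fintype.mem_piFinset, Multiset.mem_toFinset,
      exists_eq_left']
    intro s
    have h3 := congrArg PadicInt.toZMod (h1 s n hn)
    have h4 := ((h2 s n hn).map PadicInt.toZMod).ne_zero
    rw [qcP_eval] at h3
    rw [qcP_der] at h4
    simp only [map_sum, map_mul, map_pow, map_intCast, map_natCast, map_zero] at h3 h4
    rw [← qcP_eval, ← Polynomial.map_evalRingHom_eval] at h3
    rw [← qcP_der, ← Polynomial.map_evalRingHom_eval, ← Polynomial.derivative_map] at h4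
    refine (Polynomial.mem_roots fun h0 => h4 ?_).2 h3
    rw [h0, Polynomial.derivative_zero, Polynomial.eval_zero]
  have hfib : ∀ a ∈ I, (((S.filter fun n => cl n = a).card : ℕ) : ℝ) ≤ B := by
    intro a _
    refine hB _ (Finset.filter_subset _ _) fun ι _ _ P hP ρ col M hM => ?_
    rcases isEmpty_or_nonempty ι with hι | ⟨⟨r0⟩⟩
    · simp
    have hPS : ∀ r, P r ∈ S := fun r => (Finset.mem_filter.1 (hP r)).1
    have hPc : ∀ r, cl (P r) = cl (P r0) := fun r =>
      (Finset.mem_filter.1 (hP r)).2.trans (Finset.mem_filter.1 (hP r0)).2.symm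
    have h3 := qc_det (q : ℤ_[q]) (x (P r0)) (fun s => y s (P r0))
      (fun s => Ring.inverse ((Polynomial.derivative (qcP R (ψ s) ℤ_[q])).evalEval
        (x (P r0)) (y s (P r0)))) (fun s => qcP R (ψ s) ℤ_[q]) (fun r => x (P r))
      (fun s r => y s (P r)) (fun r => hker _ _ (congrArg Prod.fst (hPc r)))
      (fun s r => hker _ _ (congrFun (congrArg Prod.snd (hPc r)) s))
      (fun s r => h1 s _ (hPS r))
      (fun s => by rw [Ring.inverse_mul_cancel _ (h2 s _ (hPS r0)), sub_self]; exact dvd_zero _) ρ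
    have h4 : M.map (fun a => (a : ℤ_[q])) = Matrix.of fun r r' => (col (P r') : ℤ_[q]) *
        (Matrix.of fun r r' => MvPolynomial.aeval
          (fun o : Option σ => o.elim (x (P r')) fun s => y s (P r')) (ρ r)) r r' := by
      refine Matrix.ext fun r r' => ?_
      have h5 := congrArg (Rat.castHom ℚ_[q]) (hM r r')
      have h6 := DFunLike.congr_fun (MvPolynomial.comp_aeval (fun o : Option σ =>
        o.elim ((l1 (P r') : ℚ) / l2 (P r')) (fun s => (num s (P r') : ℚ) / den s (P r')))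
        (Rat.castHom ℚ_[q]).toIntAlgHom) (ρ r)
      have h7 := DFunLike.congr_fun (MvPolynomial.comp_aeval (fun o : Option σ =>
        o.elim (x (P r')) fun s => y s (P r')) (PadicInt.Coe.ringHom (p := q)).toIntAlgHom) (ρ r)
      simp only [AlgHom.comp_apply, RingHom.toIntAlgHom_apply] at h6 h7
      rw [map_mul, h6, map_intCast, map_intCast] at h5
      have h8 : ∀ (a b : ℤ) (z : ℤ_[q]), ¬(q : ℤ) ∣ b → (a : ℤ_[q]) = b * z →
          PadicInt.Coe.ringHom z = Rat.castHom ℚ_[q] ((a : ℚ) / b) := by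
        intro a b z hb hz
        have hb0 : (b : ℚ_[q]) ≠ 0 := Int.cast_ne_zero.2 fun h0 => hb (h0 ▸ dvd_zero _)
        have h9 := congrArg PadicInt.Coe.ringHom hz
        rw [map_mul, map_intCast, map_intCast] at h9
        rw [map_div₀, map_intCast, map_intCast, h9, mul_div_cancel_left₀ _ hb0]
      apply (show Function.Injective (PadicInt.Coe.ringHom (p := q)) from Subtype.val_injective)
      rw [Matrix.map_apply, Matrix.of_apply, Matrix.of_apply, map_mul, h7, map_intCast, map_intCast,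
        h5]
      congr 3
      funext o
      rcases o with _ | s
      · exact (h8 _ _ _ (hl2 _ (hPS r')) (hx' _ (hPS r'))).symm
      · exact (h8 _ _ _ (hden s _ (hPS r')) (hy' s _ (hPS r'))).symm
    rw [← PadicInt.pow_p_dvd_int_iff, Int.cast_det, h4, Matrix.det_mul_row]
    exact h3.mul_left _
  rw [Finset.card_eq_sum_card_fiberwise hmaps, Nat.cast_sum]
  refine (Finset.sum_le_card_nsmul _ _ _ hfib).trans ?_
  rw [nsmul_eq_mul]
  exact mul_le_mul_of_nonneg_right (by exact_mod_cast hIc) hB0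

end Crest.Agent.R22
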