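import Crest.Agent.R22.Disc
import Crest.Agent.R22.RelParam
import Crest.Agent.R22.Fix

namespace Crest.Agent.R22

open Polynomial

variable {d : ℕ}

namespace R1

/-- Forms of degree `D` with coefficients in `ℤ[θ]`. -/
noncomputable def Fm (N : NF d) (D : ℕ) : AddSubmonoid (Fin d → ℂ[X] → ℂ[X] → ℂ[X]) :=
  AddSubmonoid.closure {F | ∃ r ∈ N.R, ∃ j ≤ D,
    F = fun i z1 z2 => C (r i) * z1 ^ j * z2 ^ (D - j)}

lemma mul_mem (N : NF d) {D D' : ℕ} {F G : Fin d → ℂ[X] → ℂ[X] → ℂ[X]} (hF : F ∈ Fm N D)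
    (hG : G ∈ Fm N D') : F * G ∈ Fm N (D + D') := by
  induction hF using AddSubmonoid.closure_induction with
  | mem x hx =>
    obtain ⟨r, hr, j, hj, rfl⟩ := hx
    induction hG using AddSubmonoid.closure_induction with
    | mem y hy =>
      obtain ⟨r', hr', j', hj', rfl⟩ := hy
      refine AddSubmonoid.subset_closure ⟨r * r', N.R.mul_mem hr hr', j + j', by omega, ?_⟩
      funext i z1 z2
      have e : D + D' - (j + j') = (D - j) + (D' - j') := by omega
      simp only [Pi.mul_apply, e, pow_add, map_mul]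
      ring
    | zero => rw [mul_zero]; exact zero_mem _
    | add x y _ _ h1 h2 => rw [mul_add]; exact add_mem h1 h2
  | zero => rw [zero_mul]; exact zero_mem _
  | add x y _ _ h1 h2 => rw [add_mul]; exact add_mem h1 h2

lemma pow_mem (N : NF d) {D : ℕ} {F : Fin d → ℂ[X] → ℂ[X] → ℂ[X]} (hF : F ∈ Fm N D) (k : ℕ) :
    F ^ k ∈ Fm N (k * D) := by
  induction k with
  | zero =>
    refine AddSubmonoid.subset_closure ⟨1, N.R.one_mem, 0, Nat.zero_le _, ?_⟩
    funext i z1 z2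
    simp
  | succ k ih =>
    rw [pow_succ, add_mul, one_mul]
    exact mul_mem N ih hF

lemma vec_mem (N : NF d) (D : ℕ) (a : Fin d → ℕ → ℤ) :
    (fun i z1 z2 => ∑ s, hom D (a s) z1 z2 * C (N.θ i ^ (s : ℕ))) ∈ Fm N D := by
  have e : (fun i (z1 z2 : ℂ[X]) => ∑ s, hom D (a s) z1 z2 * C (N.θ i ^ (s : ℕ))) =
      ∑ j ∈ Finset.range (D + 1), fun i (z1 z2 : ℂ[X]) =>
        C (N.emb (fun s => a s j) i) * z1 ^ j * z2 ^ (D - j) := by
    funext i z1 z2
    simp only [Finset.sum_apply, hom, NF.emb, map_sum, map_mul, map_intCast, Finset.sum_mul]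
    rw [Finset.sum_comm]
    refine Finset.sum_congr rfl fun j _ => Finset.sum_congr rfl fun s _ => ?_
    ring
  rw [e]
  refine sum_mem fun j hj => AddSubmonoid.subset_closure
    ⟨N.emb (fun s => a s j), ⟨_, rfl⟩, j, by have := Finset.mem_range.1 hj; omega, rfl⟩

lemma extract (N : NF d) {D : ℕ} {F : Fin d → ℂ[X] → ℂ[X] → ℂ[X]} (hF : F ∈ Fm N D) :
    ∃ w : Fin d → ℕ → ℤ, ∀ i z1 z2, F i z1 z2 = ∑ s, hom D (w s) z1 z2 * C (N.θ i ^ (s : ℕ)) := by
  induction hF using AddSubmonoid.closure_induction with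
  | mem x hx =>
    obtain ⟨r, ⟨a, rfl⟩, j, hj, rfl⟩ := hx
    refine ⟨fun s j' => if j' = j then a s else 0, fun i z1 z2 => ?_⟩
    have e : ∀ s, hom D (fun j' => if j' = j then a s else 0) z1 z2 =
        (a s : ℂ[X]) * z1 ^ j * z2 ^ (D - j) := by
      intro s
      unfold hom
      rw [Finset.sum_eq_single j]
      · simp
      · intro b _ hb; simp [hb]
      · intro h; exact absurd (Finset.mem_range.2 (by omega)) h
    simp only [e, NF.emb, map_sum, map_mul, map_intCast, Finset.sum_mul]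
    refine Finset.sum_congr rfl fun s _ => ?_
    ring
  | zero => exact ⟨fun _ _ => 0, fun i z1 z2 => by simp [hom]⟩
  | add x y _ _ h1 h2 =>
    obtain ⟨w, hw⟩ := h1
    obtain ⟨w', hw'⟩ := h2
    refine ⟨fun s j => w s j + w' s j, fun i z1 z2 => ?_⟩
    simp only [Pi.add_apply, hw, hw', hom, Int.cast_add, add_mul, Finset.sum_add_distrib]

lemma hom_C (D : ℕ) (c : ℕ → ℤ) (t1 t2 : ℤ) :
    hom D c (C (t1 : ℂ)) (C (t2 : ℂ)) = C ((hom D c t1 t2 : ℤ) : ℂ) := by
  simp [hom]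

lemma vanish (D : ℕ) (c : ℕ → ℤ) (S : Finset ℤ) (t1 t2 : ℤ → ℤ) (hS : D + 1 < S.card)
    (hdist : ∀ n ∈ S, ∀ n' ∈ S, n ≠ n' → t1 n * t2 n' - t2 n * t1 n' ≠ 0)
    (h : ∀ n ∈ S, hom D c (t1 n) (t2 n) = 0) : ∀ j ≤ D, c j = 0 := by
  classical
  set T := S.filter fun n => t2 n ≠ 0 with hT
  have hcard : D < T.card := by
    have h1 : (S.filter fun n => ¬ t2 n ≠ 0).card ≤ 1 := by
      rw [Finset.card_le_one]
      intro n hn n' hn'
      rw [Finset.mem_filter, not_not] at hn hn'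
      by_contra hne
      exact hdist n hn.1 n' hn'.1 hne (by rw [hn.2, hn'.2]; ring)
    have h2 := Finset.card_filter_add_card_filter_not (s := S) (fun n => t2 n ≠ 0)
    rw [← hT] at h2
    omega
  set p : ℚ[X] := ∑ j ∈ Finset.range (D + 1), monomial j (c j : ℚ) with hp
  have hdeg : p.natDegree ≤ D := by
    refine natDegree_sum_le_of_forall_le _ _ fun j hj => (natDegree_monomial_le _).trans ?_
    have := Finset.mem_range.1 hj
    omega
  have hp0 : p = 0 := by
    refine eq_zero_of_natDegree_lt_card_of_eval_eq_zero p (ι := T)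
      (f := fun n => (t1 n : ℚ) / (t2 n : ℚ)) ?_ ?_ ?_
    · rintro ⟨n, hn⟩ ⟨n', hn'⟩ hnn
      rw [Finset.mem_filter] at hn hn'
      by_contra hne
      have hne' : n ≠ n' := fun h => hne (Subtype.ext h)
      apply hdist n hn.1 n' hn'.1 hne'
      have a1 : (t2 n : ℚ) ≠ 0 := by exact_mod_cast hn.2
      have a2 : (t2 n' : ℚ) ≠ 0 := by exact_mod_cast hn'.2
      simp only at hnn
      rw [div_eq_div_iff a1 a2] at hnn
      have : ((t1 n * t2 n' - t2 n * t1 n' : ℤ) : ℚ) = 0 := by push_cast; linear_combination hnn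
      exact_mod_cast this
    · rintro ⟨n, hn⟩
      rw [Finset.mem_filter] at hn
      have a1 : (t2 n : ℚ) ≠ 0 := by exact_mod_cast hn.2
      have h1 : ((hom D c (t1 n) (t2 n) : ℤ) : ℚ) = 0 := by rw [h n hn.1]; simp
      apply mul_left_cancel₀ (pow_ne_zero D a1)
      rw [mul_zero, ← h1, hp, eval_finsetSum, Finset.mul_sum]
      unfold hom
      push_cast
      refine Finset.sum_congr rfl fun j hj => ?_
      obtain ⟨e, rfl⟩ : ∃ e, D = j + e := ⟨D - j, by have := Finset.mem_range.1 hj; omega⟩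
      rw [eval_monomial, Nat.add_sub_cancel_left, div_pow, pow_add]
      field_simp
    · rw [Fintype.card_coe]; omega
  intro j hj
  have h1 : p.coeff j = c j := by
    rw [hp, finsetSum_coeff, Finset.sum_eq_single j]
    · simp
    · intro b _ hb; rw [coeff_monomial, if_neg hb]
    · intro h; exact absurd (Finset.mem_range.2 (by omega)) h
  rw [hp0, coeff_zero] at h1
  exact_mod_cast h1.symm

end R1

/-- The product `Â B̂^k` of two vector forms is `u - v θ` as soon as it is so at many points.  The coefficients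
of the polynomial `(∑ s, A s θ^s)(∑ s, B s θ^s)^k` lie in `N.R`, so it is `∑ s, w s θ^s` with integer forms `w s`
of degree `D = DA + k DB`.  For `s ≥ 2`, `w s` vanishes at the points (`co_emb`, `co_lin`); more than `D + 1`
pairwise non-proportional points force `w s = 0`.  `u = w 0`, `v = - w 1`. -/
theorem NF.exists_uv (N : NF d) (k DA DB : ℕ) (a b : Fin d → ℕ → ℤ) (S : Finset ℤ)
    (t1 t2 : ℤ → ℤ) (hS : DA + k * DB + 1 < S.card)
    (hdist : ∀ n ∈ S, ∀ n' ∈ S, n ≠ n' → t1 n * t2 n' - t2 n * t1 n' ≠ 0)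
    (h : ∀ n ∈ S, ∃ U V : ℂ, ∀ i, N.emb (fun s => hom DA (a s) (t1 n) (t2 n)) i *
      N.emb (fun s => hom DB (b s) (t1 n) (t2 n)) i ^ k = U + V * N.θ i) :
    ∃ u v : ℕ → ℤ, ∀ i, ∀ z1 z2 : ℂ[X],
      (∑ s, hom DA (a s) z1 z2 * C (N.θ i ^ (s : ℕ))) *
        (∑ s, hom DB (b s) z1 z2 * C (N.θ i ^ (s : ℕ))) ^ k
      = hom (DA + k * DB) u z1 z2 - hom (DA + k * DB) v z1 z2 * C (N.θ i) := by
  classical
  have hd := N.four_le
  obtain ⟨w, hw⟩ := R1.extract N (R1.mul_mem N (R1.vec_mem N DA a) (R1.pow_mem N (R1.vec_mem N DB b) k))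
  simp only [Pi.mul_apply, Pi.pow_apply] at hw
  set D := DA + k * DB with hD
  have hz : ∀ s : Fin d, 2 ≤ (s : ℕ) → ∀ j ≤ D, w s j = 0 := by
    intro s hs
    refine R1.vanish D (w s) S t1 t2 hS hdist fun n hn => ?_
    obtain ⟨U, V, hUV⟩ := h n hn
    have e : N.emb (fun s => hom D (w s) (t1 n) (t2 n)) = fun i => U + V * algebraMap ℂ ℂ (N.θ i) := by
      funext i
      have h1 := hw i (C (t1 n : ℂ)) (C (t2 n : ℂ))
      simp only [R1.hom_C, ← map_mul, ← map_sum, ← map_pow, C_inj] at h1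
      rw [Algebra.algebraMap_self_apply, ← hUV i]
      exact h1.symm
    have h2 := N.co_emb (fun s => hom D (w s) (t1 n) (t2 n)) s
    rw [e, N.co_lin, if_neg (by omega), if_neg (by omega)] at h2
    exact_mod_cast h2.symm
  let i0 : Fin d := ⟨0, by omega⟩
  let i1 : Fin d := ⟨1, by omega⟩
  refine ⟨w i0, fun j => -w i1 j, fun i z1 z2 => ?_⟩
  rw [hw, Fintype.sum_eq_add i0 i1 (by simp [i0, i1])]
  · simp [hom, i0, i1]
  · rintro s ⟨h0, h1⟩
    have h2 : 2 ≤ (s : ℕ) := by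
      have a0 : (s : ℕ) ≠ 0 := fun h => h0 (Fin.ext h)
      have a1 : (s : ℕ) ≠ 1 := fun h => h1 (Fin.ext h)
      omega
    have : hom D (w s) z1 z2 = 0 := by
      unfold hom
      refine Finset.sum_eq_zero fun j hj => ?_
      rw [hz s h2 j (by have := Finset.mem_range.1 hj; omega)]
      simp
    rw [this, zero_mul]

end Crest.Agent.R22
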