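import Crest.Agent.R22.Disc
import Crest.Agent.R22.RelParam
import Crest.Agent.R22.Fix

namespace Crest.Agent.R22

open Polynomial

variable {d : ℕ}

theorem rat2_map_hom {R S : Type} [CommRing R] [CommRing S] (φ : R →+* S) (D : ℕ) (a : ℕ → ℤ)
    (t1 t2 : R) : φ (hom D a t1 t2) = hom D a (φ t1) (φ t2) := by
  simp only [hom, map_sum, map_mul, map_pow, map_intCast]

theorem rat2_hom_smul {R : Type} [CommRing R] (D : ℕ) (a : ℕ → ℤ) (c t1 t2 : R) :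
    hom D a (t1 * c) (t2 * c) = c ^ D * hom D a t1 t2 := by
  unfold hom
  rw [Finset.mul_sum]
  refine Finset.sum_congr rfl fun j hj => ?_
  obtain ⟨m, rfl⟩ := Nat.exists_eq_add_of_le (Nat.lt_succ_iff.1 (Finset.mem_range.1 hj))
  rw [Nat.add_sub_cancel_left, mul_pow, mul_pow, pow_add]; ring

theorem rat2_eval0 {R : Type} [CommRing R] (D : ℕ) (a : ℕ → ℤ) (t1 t2 σ1 σ2 : ℤ) :
    (hom D a (C (t1 : R) + C (σ1 : R) * X) (C (t2 : R) + C (σ2 : R) * X)).eval 0 =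
      ((hom D a t1 t2 : ℤ) : R) := by
  have h1 := rat2_map_hom (evalRingHom (0 : R)) D a (C (t1 : R) + C (σ1 : R) * X)
    (C (t2 : R) + C (σ2 : R) * X)
  have h2 := rat2_map_hom (Int.castRingHom R) D a t1 t2
  simp only [coe_evalRingHom, eval_add, eval_C, eval_mul, eval_X, mul_zero, add_zero] at h1
  simp only [eq_intCast] at h2
  rw [h1, h2]

theorem rat2_deriv0 {R : Type} [CommRing R] (D : ℕ) (a : ℕ → ℤ) (t1 t2 σ1 σ2 : ℤ) :
    (derivative (hom D a (C (t1 : R) + C (σ1 : R) * X) (C (t2 : R) + C (σ2 : R) * X))).eval 0 =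
      ((homD D a t1 t2 σ1 σ2 : ℤ) : R) := by
  have h1 := rat2_map_hom (mapRingHom (Int.castRingHom R)) D a (C t1 + C σ1 * X) (C t2 + C σ2 * X)
  simp only [coe_mapRingHom, Polynomial.map_add, Polynomial.map_mul, map_C, map_X] at h1
  simp only [eq_intCast (Int.castRingHom R)] at h1
  rw [← h1, ← coeff_zero_eq_eval_zero, coeff_derivative, coeff_map, homD]
  simp

theorem rat2_term (τ t2 σ2 : ℝ) (ht2 : t2 ≠ 0) (j m : ℕ) :
    t2 ^ 2 * (j * (τ * t2) ^ (j - 1) * (τ * σ2 - 1 / t2) * t2 ^ m +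
      (τ * t2) ^ j * (m * t2 ^ (m - 1) * σ2)) =
      ((j : ℝ) + m) * σ2 * t2 * ((τ * t2) ^ j * t2 ^ m) - t2 ^ (j + m) * (j * τ ^ (j - 1)) := by
  rcases j with _ | j <;> rcases m with _ | m <;>
    simp only [Nat.add_sub_cancel, pow_add, mul_pow, pow_one, Nat.cast_add, Nat.cast_one,
      Nat.cast_zero, pow_zero] <;> field_simp <;> ring

theorem rat2_euler (D : ℕ) (a : ℕ → ℤ) (t1 t2 σ1 σ2 : ℤ) (hσ : t1 * σ2 - t2 * σ1 = 1)
    (ht2 : t2 ≠ 0) :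
    (t2 : ℝ) ^ 2 * (homD D a t1 t2 σ1 σ2 : ℤ) = D * σ2 * t2 * (hom D a t1 t2 : ℤ) -
      (t2 : ℝ) ^ D * (derivative (hom D a (X : ℝ[X]) 1)).eval ((t1 : ℝ) / t2) := by
  have ht : (t2 : ℝ) ≠ 0 := by exact_mod_cast ht2
  have hσ' : (t1 : ℝ) * σ2 - t2 * σ1 = 1 := by exact_mod_cast hσ
  set τ : ℝ := (t1 : ℝ) / t2 with hτ
  have e1 : (t1 : ℝ) = τ * t2 := by rw [hτ]; field_simp
  have e2 : (σ1 : ℝ) = τ * σ2 - 1 / t2 := by rw [hτ]; field_simp; linarith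
  have h2 := rat2_map_hom (Int.castRingHom ℝ) D a t1 t2
  simp only [eq_intCast] at h2
  rw [← rat2_deriv0 (R := ℝ), h2, e2]
  conv_lhs => rw [e1]
  conv_rhs => rw [e1]
  unfold hom
  simp only [derivative_sum, eval_finsetSum, Finset.mul_sum]
  rw [← Finset.sum_sub_distrib]
  refine Finset.sum_congr rfl fun j hj => ?_
  obtain ⟨m, rfl⟩ := Nat.exists_eq_add_of_le (Nat.lt_succ_iff.1 (Finset.mem_range.1 hj))
  have key := rat2_term τ t2 σ2 ht j m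
  rw [Nat.add_sub_cancel_left]
  simp only [derivative_mul, derivative_pow, derivative_intCast, derivative_add, derivative_C,
    derivative_X, eval_add, eval_mul, eval_pow, eval_C, eval_X, eval_intCast,
    mul_zero, zero_mul, add_zero, zero_add, mul_one, one_pow, Nat.cast_add]
  linear_combination (a j : ℝ) * key

theorem rat2_eval (D : ℕ) (a : ℕ → ℤ) (t1 t2 : ℤ) (ht2 : t2 ≠ 0) :
    (t2 : ℝ) ^ D * (hom D a (X : ℝ[X]) 1).eval ((t1 : ℝ) / t2) = (hom D a t1 t2 : ℤ) := by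
  have ht : (t2 : ℝ) ≠ 0 := by exact_mod_cast ht2
  have h1 := rat2_map_hom (evalRingHom ((t1 : ℝ) / t2)) D a (X : ℝ[X]) 1
  simp only [coe_evalRingHom, eval_X, eval_one] at h1
  have h2 := rat2_map_hom (Int.castRingHom ℝ) D a t1 t2
  simp only [eq_intCast] at h2
  rw [h1, h2, ← rat2_hom_smul, div_mul_cancel₀ _ ht, one_mul]

/-- The gap principle at one point.  Take the coefficient of `y` in the identity at `t + y σ` and multiply by `Δ`:
`κ1 κ2^k (â' β̂^k + k α̂ β̂^(k-1) b̂') = Δ (u' - v' θ)`, where `Δ homD (a s) = κ1 a' s`, `Δ homD (b s) = κ2 b' s`,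
`u' = homD u`, `v' = homD v`.  The bracket is `β̂ ŵ` with `w` integral (`k ≥ 2`) and has coordinates
`(U, V, 0, …)`, `κ1 κ2^k U = Δ u'`, `κ1 κ2^k V = -Δ v'`; `psi_lin` gives `P ∣ U + V n`.  Also `hom u t = κ1 κ2^k μ n`,
`hom v t = κ1 κ2^k μ`.  With `uu = hom u X 1`, `vv = hom v X 1` and Euler's identity
(`t2 homD u = σ2 D hom u - ∂₁ hom u`), `(uu' vv - uu vv')/vv² (t1/t2) = - t2² (U + V n) / (μ Δ)`. -/
theorem SolSet.gap {N : NF d} {c X : ℝ} {μ : ℤ} {S : Finset ℤ} {α β : ℤ → Fin d → ℤ} {pr : ℤ → ℕ}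
    (h : SolSet N c X μ S α β pr) {n : ℤ} (hn : n ∈ S) (DA DB : ℕ) (a b : Fin d → ℕ → ℤ)
    (u v : ℕ → ℤ) (huv : ∀ i, ∀ z1 z2 : ℂ[X],
      (∑ s, hom DA (a s) z1 z2 * C (N.θ i ^ (s : ℕ))) *
        (∑ s, hom DB (b s) z1 z2 * C (N.θ i ^ (s : ℕ))) ^ (d - 2)
      = hom (DA + (d - 2) * DB) u z1 z2 - hom (DA + (d - 2) * DB) v z1 z2 * C (N.θ i))
    (t1 t2 σ1 σ2 Δ κ1 κ2 : ℤ) (hσ : t1 * σ2 - t2 * σ1 = 1) (ht2 : t2 ≠ 0) (hΔ : Δ ≠ 0) (hκ1 : κ1 ≠ 0)
    (hκ2 : κ2 ≠ 0) (ha : ∀ s, hom DA (a s) t1 t2 = κ1 * α n s)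
    (hb : ∀ s, hom DB (b s) t1 t2 = κ2 * β n s) (ha' : ∀ s, κ1 ∣ Δ * homD DA (a s) t1 t2 σ1 σ2)
    (hb' : ∀ s, κ2 ∣ Δ * homD DB (b s) t1 t2 σ1 σ2) (uu vv : ℝ[X])
    (huu : uu = hom (DA + (d - 2) * DB) u Polynomial.X 1)
    (hvv : vv = hom (DA + (d - 2) * DB) v Polynomial.X 1) :
    vv.eval ((t1 : ℝ) / t2) ≠ 0 ∧ uu.eval ((t1 : ℝ) / t2) / vv.eval ((t1 : ℝ) / t2) = n ∧
      ((derivative uu * vv - uu * derivative vv).eval ((t1 : ℝ) / t2) ≠ 0 →
        (pr n : ℝ) * (t2 : ℝ) ^ 2 / (|(μ : ℝ)| * |(Δ : ℝ)|) ≤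
          |(derivative uu * vv - uu * derivative vv).eval ((t1 : ℝ) / t2) /
            vv.eval ((t1 : ℝ) / t2) ^ 2|) := by
  obtain ⟨k, hk⟩ : ∃ k, d - 2 = k + 2 := ⟨d - 4, by have := N.four_le; omega⟩
  have hd := N.four_le
  set D := DA + (d - 2) * DB with hD
  set κ : ℤ := κ1 * κ2 ^ (k + 2) with hκ
  have hκ0 : κ ≠ 0 := mul_ne_zero hκ1 (pow_ne_zero _ hκ2)
  choose a' ha' using ha'
  choose b' hb' using hb'
  set u0 : ℤ := hom D u t1 t2 with hu0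
  set v0 : ℤ := hom D v t1 t2 with hv0
  set u1 : ℤ := homD D u t1 t2 σ1 σ2 with hu1
  set v1 : ℤ := homD D v t1 t2 σ1 σ2 with hv1
  have hsum : ∀ (f g : Fin d → ℤ) (r : ℤ) (i : Fin d), (∀ s, f s = r * g s) →
      ∑ s, (f s : ℂ) * N.θ i ^ (s : ℕ) = r * N.emb g i := by
    intro f g r i hf
    rw [NF.emb, Finset.mul_sum]
    exact Finset.sum_congr rfl fun s _ => by rw [hf s]; push_cast; ring
  have hboth : ∀ i, (κ : ℂ) * (μ * (n - N.θ i)) = u0 - v0 * N.θ i ∧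
      (κ : ℂ) * (N.emb (β n) i * (N.emb a' i * N.emb (β n) i ^ (k + 1) +
        ((k : ℂ) + 2) * N.emb (α n) i * N.emb (β n) i ^ k * N.emb b' i)) =
        Δ * u1 + (-(Δ * v1)) * N.θ i := by
    intro i
    have h0 := huv i (C (t1 : ℂ) + C (σ1 : ℂ) * Polynomial.X) (C (t2 : ℂ) + C (σ2 : ℂ) * Polynomial.X)
    rw [hk] at h0
    set A := ∑ s, hom DA (a s) (C (t1 : ℂ) + C (σ1 : ℂ) * Polynomial.X)
      (C (t2 : ℂ) + C (σ2 : ℂ) * Polynomial.X) * C (N.θ i ^ (s : ℕ)) with hA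
    set B := ∑ s, hom DB (b s) (C (t1 : ℂ) + C (σ1 : ℂ) * Polynomial.X)
      (C (t2 : ℂ) + C (σ2 : ℂ) * Polynomial.X) * C (N.θ i ^ (s : ℕ)) with hB
    have A0 : A.eval 0 = κ1 * N.emb (α n) i := by
      rw [hA, eval_finsetSum, ← hsum _ _ _ i ha]
      exact Finset.sum_congr rfl fun s _ => by rw [eval_mul, eval_C, rat2_eval0]
    have B0 : B.eval 0 = κ2 * N.emb (β n) i := by
      rw [hB, eval_finsetSum, ← hsum _ _ _ i hb]
      exact Finset.sum_congr rfl fun s _ => by rw [eval_mul, eval_C, rat2_eval0]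
    have A1 : (Δ : ℂ) * (derivative A).eval 0 = κ1 * N.emb a' i := by
      rw [hA, derivative_sum, eval_finsetSum, ← hsum _ _ _ i ha', Finset.mul_sum]
      refine Finset.sum_congr rfl fun s _ => ?_
      rw [derivative_mul, derivative_C, mul_zero, add_zero, eval_mul, eval_C, rat2_deriv0]
      push_cast; ring
    have B1 : (Δ : ℂ) * (derivative B).eval 0 = κ2 * N.emb b' i := by
      rw [hB, derivative_sum, eval_finsetSum, ← hsum _ _ _ i hb', Finset.mul_sum]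
      refine Finset.sum_congr rfl fun s _ => ?_
      rw [derivative_mul, derivative_C, mul_zero, add_zero, eval_mul, eval_C, rat2_deriv0]
      push_cast; ring
    have e0 := congrArg (fun P : ℂ[X] => P.eval 0) h0
    have e1 := congrArg (fun P : ℂ[X] => (derivative P).eval 0) h0
    simp only [eval_mul, eval_pow, eval_sub, eval_C, rat2_eval0, A0, B0] at e0
    simp only [derivative_mul, derivative_sub, derivative_pow, derivative_C, mul_zero, add_zero,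
      eval_add, eval_mul, eval_pow, eval_sub, eval_C, rat2_deriv0, A0, B0] at e1
    have he := h.eq n hn i
    rw [hk] at he
    rw [← hu0, ← hv0] at e0
    rw [← hu1, ← hv1] at e1
    have hk1 : k + 2 - 1 = k + 1 := rfl
    rw [hk1] at e1
    constructor
    · rw [← e0, ← he, hκ]; push_cast; ring
    · rw [hκ]
      push_cast at e1 ⊢
      linear_combination (Δ : ℂ) * e1 - ((κ2 : ℂ) * N.emb (β n) i) ^ (k + 2) * A1 -
        (κ1 : ℂ) * N.emb (α n) i * (((k : ℂ) + 2) * ((κ2 : ℂ) * N.emb (β n) i) ^ (k + 1)) * B1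
  let i0 : Fin d := ⟨0, by omega⟩
  let i1 : Fin d := ⟨1, by omega⟩
  have h01 : N.θ i0 - N.θ i1 ≠ 0 :=
    sub_ne_zero.2 fun h' => by have := congrArg Fin.val (N.inj h'); simp [i0, i1] at this
  have hv0e : v0 = κ * μ := by
    have h1 : ((v0 : ℂ) - κ * μ) * (N.θ i0 - N.θ i1) = 0 := by
      linear_combination (hboth i0).1 - (hboth i1).1
    have h2 := sub_eq_zero.1 ((mul_eq_zero.1 h1).resolve_right h01)
    exact_mod_cast h2
  have hu0e : u0 = κ * μ * n := by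
    have h1 := (hboth i0).1
    rw [hv0e] at h1
    push_cast at h1
    have h2 : (u0 : ℂ) = κ * μ * n := by linear_combination -h1
    exact_mod_cast h2
  -- the integral element `w`
  have hR : ∀ e : Fin d → ℤ, N.emb e ∈ N.R := fun e => (N.mem_R _).2 ⟨e, rfl⟩
  obtain ⟨w, hw⟩ := (N.mem_R _).1 (N.R.add_mem (N.R.mul_mem (hR a') (N.R.pow_mem (hR (β n)) (k + 1)))
    (N.R.mul_mem (N.R.mul_mem (N.R.mul_mem (natCast_mem N.R (k + 2)) (hR (α n)))
      (N.R.pow_mem (hR (β n)) k)) (hR b')))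
  obtain ⟨e, he⟩ := N.exists_mul (β n) w
  have hκe : ∀ i, (κ : ℂ) * N.emb e i = Δ * u1 + (-(Δ * v1)) * N.θ i := by
    intro i
    rw [← (hboth i).2, he, hw]
    simp
  have hco : ∀ s : Fin d, (κ : ℂ) * e s =
      if (s : ℕ) = 0 then (Δ : ℂ) * u1 else if (s : ℕ) = 1 then -((Δ : ℂ) * v1) else 0 := by
    intro s
    have h1 := N.co_emb (κ • e) s
    have h2 := N.co_lin ((Δ : ℂ) * u1) (-((Δ : ℂ) * v1)) s
    have h3 : N.emb (κ • e) = fun i => (Δ : ℂ) * u1 + (-((Δ : ℂ) * v1)) * algebraMap ℂ ℂ (N.θ i) := by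
      funext i; rw [N.emb_smul, hκe]; rfl
    rw [← h2, ← h3, h1]
    simp
  have hU : (κ : ℂ) * e i0 = Δ * u1 := by simpa [i0] using hco i0
  have hV : (κ : ℂ) * e i1 = -((Δ : ℂ) * v1) := by simpa [i1] using hco i1
  have hκc : (κ : ℂ) ≠ 0 := by exact_mod_cast hκ0
  have hdvd : (pr n : ℤ) ∣ e i0 + e i1 * n := by
    refine N.psi_lin (w := w) (h.dvdF n hn) (h.dvdB n hn) fun i => ?_
    refine mul_left_cancel₀ hκc ?_
    rw [← he, hκe, ← hU, ← hV]; ring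
  set W : ℤ := e i0 + e i1 * n with hW
  have hWe : (κ : ℝ) * W = Δ * (u1 - v1 * n) := by
    have h1 : (κ : ℂ) * W = Δ * (u1 - v1 * n) := by
      rw [hW]; push_cast; linear_combination hU + (n : ℂ) * hV
    have h2 : κ * W = Δ * (u1 - v1 * n) := by exact_mod_cast h1
    exact_mod_cast h2
  -- the real polynomials
  have ht : (t2 : ℝ) ≠ 0 := by exact_mod_cast ht2
  have hκr : (κ : ℝ) ≠ 0 := by exact_mod_cast hκ0
  have hμr : (μ : ℝ) ≠ 0 := by exact_mod_cast h.mu0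
  have hΔr : (Δ : ℝ) ≠ 0 := by exact_mod_cast hΔ
  have f1 := rat2_eval D u t1 t2 ht2
  have f2 := rat2_eval D v t1 t2 ht2
  have f3 := rat2_euler D u t1 t2 σ1 σ2 hσ ht2
  have f4 := rat2_euler D v t1 t2 σ1 σ2 hσ ht2
  rw [← huu, ← hu0, hu0e] at f1
  rw [← hvv, ← hv0, hv0e] at f2
  rw [← huu, ← hu0, ← hu1, hu0e] at f3
  rw [← hvv, ← hv0, ← hv1, hv0e] at f4
  push_cast at f1 f2 f3 f4
  rw [eval_sub, eval_mul, eval_mul]
  set p0 := uu.eval ((t1 : ℝ) / t2)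
  set q0 := vv.eval ((t1 : ℝ) / t2)
  set p1 := (derivative uu).eval ((t1 : ℝ) / t2)
  set q1 := (derivative vv).eval ((t1 : ℝ) / t2)
  set T := (t2 : ℝ) ^ D with hT
  have hT0 : T ≠ 0 := pow_ne_zero _ ht
  have hq0 : q0 ≠ 0 := by
    intro h0
    rw [h0, mul_zero] at f2
    exact mul_ne_zero hκr hμr f2.symm
  have hp0 : p0 = n * q0 := by
    refine mul_left_cancel₀ hT0 ?_
    linear_combination f1 - (n : ℝ) * f2
  have hkey : (p1 * q0 - p0 * q1) / q0 ^ 2 = -((t2 : ℝ) ^ 2 * W / (μ * Δ)) := by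
    have g1 : (p1 * q0 - p0 * q1) / q0 ^ 2 = (T * p1 - n * (T * q1)) / (T * q0) := by
      rw [hp0]; field_simp
    have g2 : T * p1 - n * (T * q1) = -((t2 : ℝ) ^ 2 * (u1 - v1 * n)) := by
      linear_combination f3 - (n : ℝ) * f4
    have g3 : (u1 : ℝ) - v1 * n = κ * W / Δ := by rw [hWe]; field_simp
    rw [g1, g2, g3, f2]
    field_simp
  refine ⟨hq0, by rw [hp0]; field_simp, fun hne => ?_⟩
  have hW0 : W ≠ 0 := by
    intro h0
    rw [h0] at hkey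
    simp only [Int.cast_zero, mul_zero, zero_div, neg_zero] at hkey
    exact div_ne_zero hne (pow_ne_zero 2 hq0) hkey
  have hle : (pr n : ℝ) ≤ |(W : ℝ)| := by
    have h1 := Int.le_of_dvd (abs_pos.2 hW0) ((dvd_abs _ _).2 hdvd)
    exact_mod_cast h1
  rw [hkey, abs_neg, abs_div, abs_mul, abs_mul, abs_of_nonneg (sq_nonneg (t2 : ℝ))]
  refine div_le_div_of_nonneg_right ?_ (by positivity)
  rw [mul_comm]
  exact mul_le_mul_of_nonneg_left hle (sq_nonneg _)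

end Crest.Agent.R22
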