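import Crest.Agent.R22.Disc
import Crest.Agent.R22.RelParam
import Crest.Agent.R22.Fix
import Crest.Agent.R22.Rat1
import Crest.Agent.R22.Rat2

namespace Crest.Agent.R22

open Polynomial

variable {d : ℕ}

lemma rat3_hom_smul (D : ℕ) (a : ℕ → ℤ) (e t1 t2 : ℤ) :
    hom D a (e * t1) (e * t2) = e ^ D * hom D a t1 t2 := by
  unfold hom
  rw [Finset.mul_sum]
  refine Finset.sum_congr rfl fun j hj => ?_
  have hj' : j ≤ D := Nat.lt_succ_iff.1 (Finset.mem_range.1 hj)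
  have : e ^ D = e ^ j * e ^ (D - j) := by rw [← pow_add, Nat.add_sub_cancel' hj']
  rw [this, mul_pow, mul_pow]; ring

lemma rat3_deg (D : ℕ) (u : ℕ → ℤ) : (hom D u Polynomial.X 1 : ℝ[X]).natDegree ≤ D := by
  unfold hom
  refine natDegree_sum_le_of_forall_le _ _ fun j hj => ?_
  have hj' : j ≤ D := Nat.lt_succ_iff.1 (Finset.mem_range.1 hj)
  rw [one_pow, mul_one]
  refine natDegree_mul_le.trans ?_
  rw [natDegree_intCast, natDegree_X_pow]; omega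

lemma rat3_const {u v : ℝ[X]} (hW : derivative u * v - u * derivative v = 0) {t t' : ℝ}
    (ht : v.eval t ≠ 0) (ht' : v.eval t' ≠ 0) : u.eval t / v.eval t = u.eval t' / v.eval t' := by
  classical
  obtain ⟨u1, v1, hu, hv, hc⟩ := extract_gcd u v
  set g := gcd u v
  have hg : g ≠ 0 := by
    intro h; rw [hv, h] at ht; simp at ht
  have h1 : wronskian u1 v1 = 0 := by
    have : g ^ 2 * wronskian u1 v1 = 0 := by
      rw [hu, hv, derivative_mul, derivative_mul] at hW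
      unfold wronskian
      linear_combination -hW
    exact (mul_eq_zero.1 this).resolve_left (pow_ne_zero 2 hg)
  obtain ⟨h2, h3⟩ := ((gcd_isUnit_iff _ _).1 hc).wronskian_eq_zero_iff.1 h1
  rw [eq_C_of_derivative_eq_zero h2] at hu
  rw [eq_C_of_derivative_eq_zero h3] at hv
  rw [hv] at ht ht'
  rw [hu, hv]
  simp only [eval_mul, eval_C] at ht ht' ⊢
  rw [mul_div_mul_left _ _ (left_ne_zero_of_mul ht), mul_div_mul_left _ _ (left_ne_zero_of_mul ht')]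

lemma rat3_dist {N : NF d} {c X : ℝ} (hc : 0 < c) (hc8 : c ≤ 1 / 8) (hX : 1 ≤ X) {μ : ℤ}
    {S : Finset ℤ} {α β : ℤ → Fin d → ℤ} {pr : ℤ → ℕ} (h : SolSet N c X μ S α β pr)
    {n n' : ℤ} (hn : n ∈ S) (hn' : n' ∈ S) {DB : ℕ} {b : Fin d → ℕ → ℤ} {t1 t2 t1' t2' κ κ' : ℤ}
    (hcop : IsCoprime t1 t2) (hκ : κ' ≠ 0) (hb : ∀ s, hom DB (b s) t1 t2 = κ * β n s)
    (hb' : ∀ s, hom DB (b s) t1' t2' = κ' * β n' s) (h0 : t1 * t2' - t2 * t1' = 0) : n = n' := by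
  obtain ⟨x, y, hxy⟩ := hcop
  have e1 : t1' = (x * t1' + y * t2') * t1 := by linear_combination -t1' * hxy - y * h0
  have e2 : t2' = (x * t1' + y * t2') * t2 := by linear_combination -t2' * hxy + x * h0
  set e := x * t1' + y * t2'
  have e3 : ∀ s, κ' * β n' s = e ^ DB * (κ * β n s) := fun s => by
    rw [← hb', ← hb, ← rat3_hom_smul, ← e1, ← e2]
  refine h.fixB hc hc8 hX hn hn' ((h.primB n hn).eq_or_eq_neg (h.primB n' hn') fun s t => ?_)
  refine (mul_eq_zero.1 ?_).resolve_left hκ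
  unfold minor
  linear_combination β n s * e3 t - β n t * e3 s

lemma rat3_log {x y : ℤ} (hx : x ≠ 0) (h : Nat.log 2 x.natAbs = Nat.log 2 y.natAbs) :
    |(y : ℝ)| ≤ 2 * |(x : ℝ)| := by
  have h1 := Nat.pow_log_le_self 2 (Int.natAbs_ne_zero.2 hx)
  have h2 := Nat.lt_pow_succ_log_self (b := 2) one_lt_two y.natAbs
  rw [← h, pow_succ] at h2
  have h3 : y.natAbs ≤ 2 * x.natAbs := by omega
  have h4 : ((y.natAbs : ℕ) : ℝ) ≤ 2 * (x.natAbs : ℕ) := by exact_mod_cast h3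
  simpa [Nat.cast_natAbs] using h4

lemma rat3_num {c X μ P x y Δ G : ℝ} (hc : 0 < c) (hc8 : c ≤ 1 / 8) (hX : 0 < X) (hμ : 0 < μ)
    (hμ1 : c * μ ≤ 1) (hP : X < c ^ 2 * P) (hx : 0 < x) (hy : 0 < y) (hxy : y ≤ 2 * x) (hΔ : 0 < Δ)
    (hG : P * x ^ 2 / (μ * Δ) ≤ G) : 4 * X < G * (Δ / (x * y)) := by
  have hP0 : 0 < P := by
    by_contra h
    have : c ^ 2 * P ≤ 0 := mul_nonpos_of_nonneg_of_nonpos (sq_nonneg _) (not_lt.1 h)
    linarith
  have h1 : P * x ^ 2 / (μ * Δ) * (Δ / (x * y)) = P * x / (μ * y) := by field_simp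
  refine lt_of_lt_of_le ?_ (mul_le_mul_of_nonneg_right hG (by positivity))
  rw [h1, lt_div_iff₀ (by positivity)]
  have h2 : 8 * X * μ < P := by
    have a1 : 8 * X * μ < 8 * (c ^ 2 * P) * μ := by gcongr
    have a2 : 8 * (c ^ 2 * P) * μ = (8 * c) * (c * μ) * P := by ring
    have a3 : (8 * c) * (c * μ) * P ≤ 1 * 1 * P := by gcongr; linarith
    linarith
  calc 4 * X * (μ * y) ≤ 4 * X * (μ * (2 * x)) := by gcongr
    _ = 8 * X * μ * x := by ring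
    _ < P * x := by gcongr

lemma rat3_fiber {N : NF d} {c X : ℝ} (hc : 0 < c) (hc8 : c ≤ 1 / 8) (hX : 1 ≤ X) {μ : ℤ}
    {S : Finset ℤ} {α β : ℤ → Fin d → ℤ} {pr : ℤ → ℕ} (h : SolSet N c X μ S α β pr)
    (DA DB : ℕ) (a b : Fin d → ℕ → ℤ) (u v : ℕ → ℤ) (huv : ∀ i, ∀ z1 z2 : ℂ[X],
      (∑ s, hom DA (a s) z1 z2 * C (N.θ i ^ (s : ℕ))) *
        (∑ s, hom DB (b s) z1 z2 * C (N.θ i ^ (s : ℕ))) ^ (d - 2)
      = hom (DA + (d - 2) * DB) u z1 z2 - hom (DA + (d - 2) * DB) v z1 z2 * C (N.θ i))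
    (uu vv : ℝ[X]) (huu : uu = hom (DA + (d - 2) * DB) u Polynomial.X 1)
    (hvv : vv = hom (DA + (d - 2) * DB) v Polynomial.X 1) (hv0 : vv ≠ 0)
    (hW : derivative uu * vv - uu * derivative vv ≠ 0) (t1 t2 : ℤ → ℤ) (κ1 κ2 : ℤ) (hκ1 : κ1 ≠ 0)
    (hκ2 : κ2 ≠ 0) (M : ℕ)
    (hS : ∀ n ∈ S, IsCoprime (t1 n) (t2 n) ∧ t2 n ≠ 0 ∧ Nat.log 2 (t2 n).natAbs ≤ M ∧
      (∀ s, hom DA (a s) (t1 n) (t2 n) = κ1 * α n s) ∧
      (∀ s, hom DB (b s) (t1 n) (t2 n) = κ2 * β n s) ∧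
      (derivative uu * vv - uu * derivative vv).eval ((t1 n : ℝ) / t2 n) ≠ 0) :
    S.card ≤ ((2 * (DA + 1)) ^ κ1.natAbs.primeFactors.card) ^ d *
      (((2 * (DB + 1)) ^ κ2.natAbs.primeFactors.card) ^ d *
        ((6 * (DA + (d - 2) * DB) + 1) * 2 * (M + 1))) := by
  classical
  choose cA hcA using fun s => exists_disc_classes DA (a s) κ1 hκ1
  choose cB hcB using fun s => exists_disc_classes DB (b s) κ2 hκ2
  obtain ⟨cl, hcl⟩ := two_point (DA + (d - 2) * DB) uu vv (huu ▸ rat3_deg _ _) (hvv ▸ rat3_deg _ _)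
    hv0 hW
  have key := Finset.card_le_card_of_injOn (s := S)
    (t := Finset.univ ×ˢ Finset.univ ×ˢ Finset.univ ×ˢ Finset.range (M + 1))
    (fun n => ((fun s => cA s (t1 n) (t2 n)), (fun s => cB s (t1 n) (t2 n)),
      cl ((t1 n : ℝ) / t2 n), Nat.log 2 (t2 n).natAbs))
    (fun n hn => by
      have := (hS n hn).2.2.1
      simp only [Finset.coe_product, Finset.coe_univ, Finset.coe_range, Set.mem_prod, Set.mem_univ,
        Set.mem_Iio, true_and]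
      omega) ?_
  · simpa [Finset.card_product, Fintype.card_fun, Fintype.card_prod, mul_assoc] using key
  intro n hn n' hn' heq
  by_contra hne
  simp only [Prod.mk.injEq] at heq
  obtain ⟨eA, eB, eC, eL⟩ := heq
  have hn : n ∈ S := hn
  have hn' : n' ∈ S := hn'
  have hΔ : t1 n * t2 n' - t2 n * t1 n' ≠ 0 := fun h0 =>
    hne (rat3_dist hc hc8 hX h hn hn' (hS n hn).1 hκ2 (hS n hn).2.2.2.2.1 (hS n' hn').2.2.2.2.1 h0)
  have gap : ∀ m ∈ S, ∀ m' ∈ S, t1 m * t2 m' - t2 m * t1 m' ≠ 0 →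
      (∀ s, cA s (t1 m) (t2 m) = cA s (t1 m') (t2 m')) →
      (∀ s, cB s (t1 m) (t2 m) = cB s (t1 m') (t2 m')) →
      Nat.log 2 (t2 m).natAbs = Nat.log 2 (t2 m').natAbs →
      vv.eval ((t1 m : ℝ) / t2 m) ≠ 0 ∧
        uu.eval ((t1 m : ℝ) / t2 m) / vv.eval ((t1 m : ℝ) / t2 m) = m ∧
        4 * X < |(derivative uu * vv - uu * derivative vv).eval ((t1 m : ℝ) / t2 m) /
          vv.eval ((t1 m : ℝ) / t2 m) ^ 2| * |(t1 m : ℝ) / t2 m - (t1 m' : ℝ) / t2 m'| := by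
    intro m hm m' hm' hΔ eA eB eL
    obtain ⟨⟨x, y, hxy⟩, h2, -, ha, hb, hw⟩ := hS m hm
    obtain ⟨hcop', h2', -, ha', hb', -⟩ := hS m' hm'
    have hσ : t1 m * x - t2 m * (-y) = 1 := by linear_combination hxy
    obtain ⟨g1, g2, g3⟩ := h.gap hm DA DB a b u v huv (t1 m) (t2 m) (-y) x _ κ1 κ2 hσ h2 hΔ hκ1 hκ2
      ha hb
      (fun s => hcA s _ _ _ _ _ _ hσ hcop' (ha s ▸ dvd_mul_right _ _) (ha' s ▸ dvd_mul_right _ _)
        (eA s))
      (fun s => hcB s _ _ _ _ _ _ hσ hcop' (hb s ▸ dvd_mul_right _ _) (hb' s ▸ dvd_mul_right _ _)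
        (eB s)) uu vv huu hvv
    refine ⟨g1, g2, ?_⟩
    have r2 : (t2 m : ℝ) ≠ 0 := by exact_mod_cast h2
    have r2' : (t2 m' : ℝ) ≠ 0 := by exact_mod_cast h2'
    have rΔ : ((t1 m * t2 m' - t2 m * t1 m' : ℤ) : ℝ) ≠ 0 := by exact_mod_cast hΔ
    have rμ : (μ : ℝ) ≠ 0 := by exact_mod_cast h.mu0
    have e : |(t1 m : ℝ) / t2 m - (t1 m' : ℝ) / t2 m'| =
        |((t1 m * t2 m' - t2 m * t1 m' : ℤ) : ℝ)| / (|(t2 m : ℝ)| * |(t2 m' : ℝ)|) := by
      rw [← abs_mul, ← abs_div]; congr 1; push_cast; field_simp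
    rw [e]
    have g4 := g3 hw
    rw [← sq_abs (t2 m : ℝ)] at g4
    exact rat3_num hc hc8 (by linarith) (abs_pos.2 rμ) h.mule (h.big m hm) (abs_pos.2 r2)
      (abs_pos.2 r2') (rat3_log h2 eL) (abs_pos.2 rΔ) g4
  obtain ⟨p1, p2, p3⟩ := gap n hn n' hn' hΔ (congrFun eA) (congrFun eB) eL
  obtain ⟨q1, q2, q3⟩ := gap n' hn' n hn (fun h0 => hΔ (by linear_combination -h0))
    (congrFun eA.symm) (congrFun eB.symm) eL.symm
  have h5 := hcl _ _ eC p1 q1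
  rw [p2, q2] at h5
  rw [abs_sub_comm] at q3
  have h6 : |(n : ℝ) - n'| ≤ 4 * X := by
    have := abs_sub (n : ℝ) n'
    linarith [(h.rng n hn).2, (h.rng n' hn').2]
  rcases min_choice |(derivative uu * vv - uu * derivative vv).eval ((t1 n : ℝ) / t2 n) /
      vv.eval ((t1 n : ℝ) / t2 n) ^ 2|
    |(derivative uu * vv - uu * derivative vv).eval ((t1 n' : ℝ) / t2 n') /
      vv.eval ((t1 n' : ℝ) / t2 n') ^ 2| with e | e <;> rw [e] at h5 <;> linarith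

/-- The combinatorial form of the count. -/
lemma rat3_nat {N : NF d} {c X : ℝ} (hc : 0 < c) (hc8 : c ≤ 1 / 8) (hX : 1 ≤ X) {μ : ℤ}
    {S : Finset ℤ} {α β : ℤ → Fin d → ℤ} {pr : ℤ → ℕ} (h : SolSet N c X μ S α β pr)
    (Z DA DB : ℕ) (a b : Fin d → ℕ → ℤ) (R : ℤ) (t1 t2 : ℤ → ℤ) (hA : DA ≤ Z) (hB : DB ≤ Z)
    (hR : R ≠ 0) (M : ℕ)
    (hS : ∀ n ∈ S, IsCoprime (t1 n) (t2 n) ∧ Nat.log 2 (t2 n).natAbs ≤ M ∧ ∃ κ1 κ2 : ℤ, κ1 ∣ R ∧
      κ2 ∣ R ∧ (∀ s, hom DA (a s) (t1 n) (t2 n) = κ1 * α n s) ∧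
        ∀ s, hom DB (b s) (t1 n) (t2 n) = κ2 * β n s) :
    S.card ≤ 2 * (Z + (d - 2) * Z) + 2 +
      (((2 * (Z + 1)) ^ (2 * d)) ^ R.natAbs.primeFactors.card *
        ((6 * (Z + (d - 2) * Z) + 1) * 2 * (M + 1))) * (2 * R.natAbs.divisors.card) ^ 2 := by
  classical
  have hD : DA + (d - 2) * DB ≤ Z + (d - 2) * Z := by gcongr
  choose! hcop hM κ1 κ2 hκ1 hκ2 ha hb using hS
  have z1 : ∀ n ∈ S, κ1 n ≠ 0 := fun n hn h0 => hR (zero_dvd_iff.1 (h0 ▸ hκ1 n hn))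
  have z2 : ∀ n ∈ S, κ2 n ≠ 0 := fun n hn h0 => hR (zero_dvd_iff.1 (h0 ▸ hκ2 n hn))
  have hdist : ∀ n ∈ S, ∀ n' ∈ S, n ≠ n' → t1 n * t2 n' - t2 n * t1 n' ≠ 0 :=
    fun n hn n' hn' hne h0 =>
      hne (rat3_dist hc hc8 hX h hn hn' (hcop n hn) (z2 n' hn') (hb n hn) (hb n' hn') h0)
  by_cases hcard : DA + (d - 2) * DB + 1 < S.card
  swap
  · omega
  obtain ⟨u, v, huv⟩ := N.exists_uv (d - 2) DA DB a b S t1 t2 hcard hdist fun n hn => by
    refine ⟨κ1 n * κ2 n ^ (d - 2) * μ * n, -(κ1 n * κ2 n ^ (d - 2) * μ), fun i => ?_⟩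
    have e1 : (fun s => hom DA (a s) (t1 n) (t2 n)) = κ1 n • α n := funext fun s => ha n hn s
    have e2 : (fun s => hom DB (b s) (t1 n) (t2 n)) = κ2 n • β n := funext fun s => hb n hn s
    rw [e1, e2, N.emb_smul, N.emb_smul, mul_pow]
    linear_combination (κ1 n : ℂ) * (κ2 n : ℂ) ^ (d - 2) * h.eq n hn i
  set uu : ℝ[X] := hom (DA + (d - 2) * DB) u Polynomial.X 1 with huu
  set vv : ℝ[X] := hom (DA + (d - 2) * DB) v Polynomial.X 1 with hvv
  set W : ℝ[X] := derivative uu * vv - uu * derivative vv with hWdef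
  set S1 := S.filter fun n => t2 n ≠ 0 with hS1
  have c0 : (S.filter fun n => ¬ t2 n ≠ 0).card ≤ 1 := by
    refine Finset.card_le_one.2 fun n hn n' hn' => ?_
    simp only [Finset.mem_filter, not_not] at hn hn'
    by_contra hne
    exact hdist n hn.1 n' hn'.1 hne (by rw [hn.2, hn'.2]; ring)
  have c1 := Finset.card_filter_add_card_filter_not (s := S) fun n => t2 n ≠ 0
  rw [← hS1] at c1
  by_cases hS1c : S1.card ≤ 1
  · omega
  obtain ⟨n0, hn0, n1, hn1, hne⟩ := Finset.one_lt_card.1 (not_le.1 hS1c)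
  have val : ∀ n ∈ S1, vv.eval ((t1 n : ℝ) / t2 n) ≠ 0 ∧
      uu.eval ((t1 n : ℝ) / t2 n) / vv.eval ((t1 n : ℝ) / t2 n) = n := by
    intro n hn
    obtain ⟨hn, h2⟩ := Finset.mem_filter.1 hn
    obtain ⟨x, y, hxy⟩ := hcop n hn
    have hσ : t1 n * x - t2 n * (-y) = 1 := by linear_combination hxy
    obtain ⟨g1, g2, -⟩ := h.gap hn DA DB a b u v huv (t1 n) (t2 n) (-y) x (κ1 n * κ2 n) (κ1 n) (κ2 n)
      hσ h2 (mul_ne_zero (z1 n hn) (z2 n hn)) (z1 n hn) (z2 n hn) (ha n hn) (hb n hn)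
      (fun s => (dvd_mul_right _ _).mul_right _) (fun s => (dvd_mul_left _ _).mul_right _) uu vv
      huu hvv
    exact ⟨g1, g2⟩
  have hv0 : vv ≠ 0 := fun h0 => (val n0 hn0).1 (by rw [h0, eval_zero])
  have hW : W ≠ 0 := fun h0 => by
    have := rat3_const h0 (val n0 hn0).1 (val n1 hn1).1
    rw [(val n0 hn0).2, (val n1 hn1).2] at this
    exact hne (by exact_mod_cast this)
  have hWd : W.natDegree ≤ 2 * (DA + (d - 2) * DB) := by
    have d1 := rat3_deg (DA + (d - 2) * DB) u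
    have d2 := rat3_deg (DA + (d - 2) * DB) v
    rw [← huu] at d1
    rw [← hvv] at d2
    have d3 := natDegree_derivative_le uu
    have d4 := natDegree_derivative_le vv
    have d5 := natDegree_mul_le (p := derivative uu) (q := vv)
    have d6 := natDegree_mul_le (p := uu) (q := derivative vv)
    have d7 := natDegree_sub_le (derivative uu * vv) (uu * derivative vv)
    rw [← hWdef] at d7
    omega
  have c2 : (S1.filter fun n => ¬ W.eval ((t1 n : ℝ) / t2 n) ≠ 0).card ≤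
      2 * (DA + (d - 2) * DB) := by
    refine le_trans (Finset.card_le_card_of_injOn (t := W.roots.toFinset)
      (fun n => (t1 n : ℝ) / t2 n) (fun n hn => ?_) fun n hn n' hn' e => ?_)
      ((Multiset.toFinset_card_le _).trans ((card_roots' W).trans hWd))
    · have hn := Finset.mem_filter.1 (Finset.mem_coe.1 hn)
      simp only [Finset.mem_coe, Multiset.mem_toFinset, mem_roots hW, IsRoot.def]
      exact not_not.1 hn.2
    · have h1 := (val n (Finset.mem_filter.1 (Finset.mem_coe.1 hn)).1).2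
      have h2 := (val n' (Finset.mem_filter.1 (Finset.mem_coe.1 hn')).1).2
      simp only at e
      rw [e, h2] at h1
      exact_mod_cast h1.symm
  have c3 := Finset.card_filter_add_card_filter_not (s := S1)
    fun n => W.eval ((t1 n : ℝ) / t2 n) ≠ 0
  have c4 : (S1.filter fun n => W.eval ((t1 n : ℝ) / t2 n) ≠ 0).card ≤
      (((2 * (Z + 1)) ^ (2 * d)) ^ R.natAbs.primeFactors.card *
        ((6 * (Z + (d - 2) * Z) + 1) * 2 * (M + 1))) * (R.divisors ×ˢ R.divisors).card := by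
    refine Finset.card_le_mul_card_image_of_maps_to (f := fun n => (κ1 n, κ2 n)) (fun n hn => ?_) _
      fun k hk => ?_
    · have hn := (Finset.mem_filter.1 (Finset.mem_filter.1 hn).1).1
      simp only [Finset.mem_product, Int.mem_divisors]
      exact ⟨⟨hκ1 n hn, hR⟩, hκ2 n hn, hR⟩
    · obtain ⟨k1, k2⟩ := k
      simp only [Finset.mem_product, Int.mem_divisors] at hk
      have y1 : k1 ≠ 0 := fun h0 => hR (zero_dvd_iff.1 (h0 ▸ hk.1.1))
      have y2 : k2 ≠ 0 := fun h0 => hR (zero_dvd_iff.1 (h0 ▸ hk.2.1))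
      have hsub : ((S1.filter fun n => W.eval ((t1 n : ℝ) / t2 n) ≠ 0).filter
          fun n => (κ1 n, κ2 n) = (k1, k2)) ⊆ S :=
        (Finset.filter_subset _ _).trans ((Finset.filter_subset _ _).trans (Finset.filter_subset _ _))
      refine (rat3_fiber hc hc8 hX (h.mono hsub) DA DB a b u v huv uu vv huu hvv hv0 hW t1 t2 k1 k2
        y1 y2 M fun n hn => ?_).trans ?_
      · have hnS := hsub hn
        obtain ⟨hn1, hn2⟩ := Finset.mem_filter.1 hn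
        obtain ⟨hn3, hn4⟩ := Finset.mem_filter.1 hn1
        obtain ⟨rfl, rfl⟩ := Prod.mk.inj hn2
        exact ⟨hcop n hnS, (Finset.mem_filter.1 hn3).2, hM n hnS, ha n hnS, hb n hnS, hn4⟩
      · have hR' : R.natAbs ≠ 0 := Int.natAbs_ne_zero.2 hR
        have w1 : k1.natAbs.primeFactors.card ≤ R.natAbs.primeFactors.card :=
          Finset.card_le_card (Nat.primeFactors_mono (Int.natAbs_dvd_natAbs.2 hk.1.1) hR')
        have w2 : k2.natAbs.primeFactors.card ≤ R.natAbs.primeFactors.card :=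
          Finset.card_le_card (Nat.primeFactors_mono (Int.natAbs_dvd_natAbs.2 hk.2.1) hR')
        have e : ((2 * (Z + 1)) ^ (2 * d)) ^ R.natAbs.primeFactors.card =
            ((2 * (Z + 1)) ^ R.natAbs.primeFactors.card) ^ d *
              ((2 * (Z + 1)) ^ R.natAbs.primeFactors.card) ^ d := by ring
        have w3 : (2 * (DA + 1)) ^ k1.natAbs.primeFactors.card ≤
            (2 * (Z + 1)) ^ R.natAbs.primeFactors.card :=
          (Nat.pow_le_pow_left (by omega) _).trans (Nat.pow_le_pow_right (by omega) w1)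
        have w4 : (2 * (DB + 1)) ^ k2.natAbs.primeFactors.card ≤
            (2 * (Z + 1)) ^ R.natAbs.primeFactors.card :=
          (Nat.pow_le_pow_left (by omega) _).trans (Nat.pow_le_pow_right (by omega) w2)
        rw [e, mul_assoc (_ ^ d)]
        gcongr
  have c5 : (R.divisors ×ˢ R.divisors).card = (2 * R.natAbs.divisors.card) ^ 2 := by
    rw [Finset.card_product]
    simp only [Int.divisors, Finset.card_disjUnion, Finset.card_map]
    ring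
  rw [c5] at c4
  omega

/-- Counting on a parametrised curve.  Distinct `n` have non-proportional `t` (coprime proportional pairs agree up
to sign, then `β n ∥ β n'`, `Prim.eq_or_eq_neg`, `fixB`).  If `S` is large use `exists_uv`.  `W1 = uu' vv - uu vv' ≠ 0`
(else `uu / vv` is constant and `S` has one point).  Discard the point with `t2 = 0` and the `≤ 2 D` zeros of `W1`.
Classes: `(κ1, κ2)` (`≤ (2 d(|R|))²`, `card_divisors_le`), the classes of `exists_disc_classes` for all `a s` mod `κ1` and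
`b s` mod `κ2` (`≤ (2 Z + 2)^(2 d ω(R))`, `pow_omega_le`), of `two_point`, and `Nat.log 2 |t2|`.  Two points `n ≠ n'` in one
class have (`gap` at both points, `Δ = ± (t1 t2' - t2 t1')`, `|t - t'| = |Δ| / |t2 t2'|`)
`4 X ≥ |n - n'| ≥ min (P, P') / (2 |μ|) > X / (2 c² |μ|) ≥ 4 X`, a contradiction. -/
theorem NF.rat_count (N : NF d) (Z : ℕ) (c Cx ω : ℝ) (hc : 0 < c) (hc8 : c ≤ 1 / 8) (hω : 0 < ω) :
    ∃ C : ℝ, 0 ≤ C ∧ ∀ X ≥ (2 : ℝ), ∀ (μ : ℤ) (S : Finset ℤ) (α β : ℤ → Fin d → ℤ) (pr : ℤ → ℕ),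
    SolSet N c X μ S α β pr → ∀ (DA DB : ℕ) (a b : Fin d → ℕ → ℤ) (R : ℤ) (t1 t2 : ℤ → ℤ),
    DA ≤ Z → DB ≤ Z → R ≠ 0 → |(R : ℝ)| ≤ X ^ Cx →
    (∀ n ∈ S, IsCoprime (t1 n) (t2 n) ∧ |(t2 n : ℝ)| ≤ X ^ Cx ∧ ∃ κ1 κ2 : ℤ, κ1 ∣ R ∧ κ2 ∣ R ∧
      (∀ s, hom DA (a s) (t1 n) (t2 n) = κ1 * α n s) ∧ ∀ s, hom DB (b s) (t1 n) (t2 n) = κ2 * β n s) →
    (S.card : ℝ) ≤ C * X ^ ω := by
  set ε : ℝ := ω / (4 * (|Cx| + 1)) with hε
  have hε0 : 0 < ε := by positivity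
  obtain ⟨C1, hC1, h1⟩ := card_divisors_le ε hε0
  obtain ⟨C2, hC2, h2⟩ := pow_omega_le ((2 * (Z + 1)) ^ (2 * d)) ε hε0
  set D0 : ℕ := Z + (d - 2) * Z with hD0
  refine ⟨2 * D0 + 2 + C2 * ((6 * D0 + 1) * 2 * C1) * (2 * C1) ^ 2, by positivity, ?_⟩
  intro X hX μ S α β pr h DA DB a b R t1 t2 hA hB hR hRX hS
  have hX1 : (1 : ℝ) ≤ X := by linarith
  set Y := X ^ Cx with hY
  have hR' : R.natAbs ≠ 0 := Int.natAbs_ne_zero.2 hR
  have hRY : (R.natAbs : ℝ) ≤ Y := by simpa [Nat.cast_natAbs] using hRX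
  have hY1 : 1 ≤ Y := le_trans (by exact_mod_cast Nat.one_le_iff_ne_zero.2 hR') hRY
  set M := Nat.log 2 ⌊Y⌋₊ with hM
  have key := rat3_nat hc hc8 hX1 h Z DA DB a b R t1 t2 hA hB hR M fun n hn => by
    obtain ⟨p1, p2, p3⟩ := hS n hn
    refine ⟨p1, Nat.log_mono_right (Nat.le_floor ?_), p3⟩
    simpa [Nat.cast_natAbs] using p2
  rw [← hD0] at key
  have hM2 : ((2 ^ M : ℕ) : ℝ) ≤ Y := by
    have := Nat.pow_log_le_self 2 (Nat.one_le_iff_ne_zero.1 (Nat.le_floor (by simpa using hY1) :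
      1 ≤ ⌊Y⌋₊))
    exact le_trans (by exact_mod_cast this) (Nat.floor_le (by linarith))
  set E := Y ^ ε with hE
  have b1 : ((M + 1 : ℕ) : ℝ) ≤ C1 * E := by
    have := h1 (2 ^ M) (by positivity)
    rw [Nat.divisors_prime_pow Nat.prime_two, Finset.card_map, Finset.card_range] at this
    refine this.trans ?_
    rw [hE]
    gcongr
  have b2 : (R.natAbs.divisors.card : ℝ) ≤ C1 * E := (h1 _ hR').trans (by rw [hE]; gcongr)
  have b3 : (((2 * (Z + 1)) ^ (2 * d) : ℕ) : ℝ) ^ R.natAbs.primeFactors.card ≤ C2 * E :=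
    (h2 _ hR').trans (by rw [hE]; gcongr)
  have b4 : E ^ 4 ≤ X ^ ω := by
    rw [hE, hY, ← Real.rpow_natCast, ← Real.rpow_mul (by linarith), ← Real.rpow_mul (by positivity)]
    refine Real.rpow_le_rpow_of_exponent_le hX1 ?_
    have : Cx * (ε * (4 : ℕ)) = ω * (Cx / (|Cx| + 1)) := by
      rw [hε]; push_cast; field_simp
    rw [this]
    refine mul_le_of_le_one_right hω.le ?_
    rw [div_le_one (by positivity)]
    linarith [le_abs_self Cx]
  have b5 : 1 ≤ X ^ ω := Real.one_le_rpow hX1 hω.le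
  have hE0 : 0 ≤ E := by positivity
  calc (S.card : ℝ) ≤ ((2 * D0 + 2 +
      (((2 * (Z + 1)) ^ (2 * d)) ^ R.natAbs.primeFactors.card *
        ((6 * D0 + 1) * 2 * (M + 1))) * (2 * R.natAbs.divisors.card) ^ 2 : ℕ) : ℝ) := by
        exact_mod_cast key
    _ = (2 * D0 + 2) * 1 + (((2 * (Z + 1)) ^ (2 * d) : ℕ) : ℝ) ^ R.natAbs.primeFactors.card *
        ((6 * D0 + 1) * 2 * ((M + 1 : ℕ) : ℝ)) * (2 * (R.natAbs.divisors.card : ℝ)) ^ 2 := by
        push_cast; ring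
    _ ≤ (2 * D0 + 2) * X ^ ω + (C2 * E) * ((6 * D0 + 1) * 2 * (C1 * E)) * (2 * (C1 * E)) ^ 2 := by
        gcongr
    _ = (2 * D0 + 2) * X ^ ω + C2 * ((6 * D0 + 1) * 2 * C1) * (2 * C1) ^ 2 * E ^ 4 := by ring
    _ ≤ (2 * D0 + 2) * X ^ ω + C2 * ((6 * D0 + 1) * 2 * C1) * (2 * C1) ^ 2 * X ^ ω := by gcongr
    _ = _ := by ring

end Crest.Agent.R22
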