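import Crest.Agent.R22.Disc
import Crest.Agent.R22.RelParam
import Crest.Agent.R22.Fix
import Crest.Agent.R22.Rat3

namespace Crest.Agent.R22

open Polynomial

variable {d : ℕ}

/-- The coordinate `co b s` as a polynomial in the generators. -/
noncomputable def NF.r4P (N : NF d) (s : Fin d) : MvPolynomial (Fin 2 ⊕ Fin d) ℂ :=
  ∑ i, MvPolynomial.C (N.cinv s i) * MvPolynomial.X (Sum.inr i)

theorem NF.r4P_deg (N : NF d) (s : Fin d) : (N.r4P s).totalDegree ≤ 1 :=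
  MvPolynomial.totalDegree_finsetSum_le fun i _ =>
    (MvPolynomial.totalDegree_mul _ _).trans (by simp)

theorem NF.r4P_aeval (N : NF d) {Ω : Type} [Field Ω] [Algebra ℂ Ω] (x nn : Ω) (b : Fin d → Ω)
    (s : Fin d) : MvPolynomial.aeval (gens x nn b) (N.r4P s) = N.co b s := by
  simp [NF.r4P, NF.co, gens]

theorem NF.r4P_eval (N : NF d) (l1 l2 : ℤ → ℤ) (g : ℤ → Fin d → ℤ) (κ : ℤ → ℂ) (n : ℤ)
    (s : Fin d) : MvPolynomial.eval (ptv N l1 l2 g κ n) (N.r4P s) = κ n * g n s := by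
  rw [← N.co_emb, NF.co, Finset.mul_sum]
  simp only [NF.r4P, map_sum, map_mul, MvPolynomial.eval_C, MvPolynomial.eval_X, ptv, gens,
    Sum.elim_inr, Algebra.algebraMap_self, RingHom.id_apply]
  exact Finset.sum_congr rfl fun i _ => by ring

/-- Rational curves.  Discard the `≤ C0 D` zeros of `g0`; reduce `(t1, t2)` to a coprime pair.  `τ` is transcendental
since `x ∈ ℂ(τ)` is.  Apply `exists_param` twice: to `h s = e1 s X_x + e2 s` (value `η s / l2`; ratios in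
`ℂ(x) ≤ ℂ(τ)`; some `h s0 ≠ 0` as `e1 ≠ 0`) and to `h s = ∑ cinv s i X_(b i)` (value `κ γ s`; ratios in `Kf x b`),
with `‖α‖, ‖β‖ ≤ C X` (`sol_size`); `R = R1 R2`; `rat_count`. -/
theorem NF.rat_curve (N : NF d) (p q C0 D : ℕ) (hp : 1 ≤ p) (c c' Cx ω : ℝ) (hc : 0 < c)
    (hc8 : c ≤ 1 / 8) (hω : 0 < ω) : ∃ C X0 : ℝ, 0 ≤ C ∧ ∀ X ≥ X0, ∀ (s1 s2 : ℝ) (μ : ℤ)
    (S : Finset ℤ) (α β : ℤ → Fin d → ℤ) (pr : ℤ → ℕ) (e1 e2 : Fin d → ℤ) (l1 l2 : ℤ → ℤ)
    (g : ℤ → Fin d → ℤ), SolSet N c X μ S α β pr → LineCfg N p q c' X s1 s2 μ e1 e2 S l1 l2 g →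
    ((∀ n ∈ S, β n = l1 n • e1 + l2 n • e2 ∧ α n = g n) ∨
      (∀ n ∈ S, α n = l1 n • e1 + l2 n • e2 ∧ β n = g n)) →
    ∀ (Ω : Type) [Field Ω] [Algebra ℂ Ω] (x nn : Ω) (b : Fin d → Ω) (κ : ℤ → ℂ),
    CurveCfg N p q μ e1 e2 S l1 l2 g x nn b κ C0 → Transcendental ℂ x →
    IsRat N S l1 l2 g x nn b κ D (X ^ Cx) → (S.card : ℝ) ≤ C * X ^ ω := by
  classical
  obtain ⟨Z, hZ⟩ := exists_param d C0 (max D 1)
  obtain ⟨Cs, hCs1, hCs⟩ := N.sol_size hc (by linarith)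
  obtain ⟨C1, hC1, hrc⟩ := N.rat_count Z c (max Cx 2 * (2 * Z + 1 : ℕ)) ω hc hc8 hω
  refine ⟨C0 * D + Z + Z + C1, max Cs 2, by positivity, ?_⟩
  intro X hX s1 s2 μ S α β pr e1 e2 l1 l2 g hS hL hside Ω _ _ x nn b κ hC hx hR
  obtain ⟨f, g0, hf, hg0, hg0', hval, hK⟩ := hR
  have hXs : Cs ≤ X := (le_max_left _ _).trans hX
  have hX2 : 2 ≤ X := (le_max_right _ _).trans hX
  have hX1 : 1 ≤ X := by linarith
  set Y := X ^ max Cx 2 with hY
  have hYx : X ^ Cx ≤ Y := Real.rpow_le_rpow_of_exponent_le hX1 (le_max_left _ _)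
  have hY2 : X * X ≤ Y := by
    rw [← sq, ← Real.rpow_two]
    exact Real.rpow_le_rpow_of_exponent_le hX1 (le_max_right _ _)
  have hY2' : 2 ≤ Y := by nlinarith
  have hsz : ∀ n ∈ S, ‖α n‖ ≤ Y ∧ ‖β n‖ ≤ Y := by
    intro n hn
    have h1 := (hCs X hX1 μ S α β pr hS n hn).1
    have h2 := (hS.primA n hn).one_le_norm
    have h3 := (hS.primB n hn).one_le_norm
    have h4 : ‖β n‖ ≤ ‖β n‖ ^ (d - 2) := le_self_pow₀ h3 (by have := N.four_le; omega)
    have h5 : Cs * X ≤ X * X := mul_le_mul_of_nonneg_right hXs (by linarith)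
    constructor <;> nlinarith
  have hηg : ∀ n ∈ S, (Prim (l1 n • e1 + l2 n • e2) ∧ ‖l1 n • e1 + l2 n • e2‖ ≤ Y) ∧
      Prim (g n) ∧ ‖g n‖ ≤ Y := by
    intro n hn
    rcases hside with h | h
    · rw [← (h n hn).1, ← (h n hn).2]
      exact ⟨⟨hS.primB n hn, (hsz n hn).2⟩, hS.primA n hn, (hsz n hn).1⟩
    · rw [← (h n hn).1, ← (h n hn).2]
      exact ⟨⟨hS.primA n hn, (hsz n hn).1⟩, hS.primB n hn, (hsz n hn).2⟩
  have hS0 := hC.vg.zero g0 D hg0 hg0'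
    (S.filter fun n => MvPolynomial.eval (ptv N l1 l2 g κ n) g0 = 0) (Finset.filter_subset _ _)
    fun n hn => (Finset.mem_filter.1 hn).2
  set S1 := S.filter fun n => ¬MvPolynomial.eval (ptv N l1 l2 g κ n) g0 = 0 with hS1
  have hS1S : S1 ⊆ S := Finset.filter_subset _ _
  have ht : ∀ n ∈ S1, ∃ t1 t2 : ℤ, IsCoprime t1 t2 ∧ MvPolynomial.eval (ptv N l1 l2 g κ n) f * t2 =
      MvPolynomial.eval (ptv N l1 l2 g κ n) g0 * t1 ∧ |(t1 : ℝ)| ≤ Y ∧ |(t2 : ℝ)| ≤ Y := by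
    intro n hn
    obtain ⟨t1, t2, h0, h1, h2, h3⟩ := hval n (hS1S hn) (Finset.mem_filter.1 hn).2
    have hg := Int.gcd_pos_of_ne_zero_right t1 h0
    obtain ⟨u1, u2, h4, h5, h6⟩ := Int.exists_gcd_one hg
    generalize t1.gcd t2 = k at hg h5 h6
    subst h5 h6
    have hk : (1 : ℝ) ≤ k := by exact_mod_cast hg
    have hk' : (k : ℂ) ≠ 0 := by exact_mod_cast hg.ne'
    have h7 : ∀ u : ℤ, |(u : ℝ)| ≤ |((u * k : ℤ) : ℝ)| := fun u => by
      rw [Int.cast_mul, abs_mul, Int.cast_natCast, Nat.abs_cast]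
      exact le_mul_of_one_le_right (abs_nonneg _) hk
    refine ⟨u1, u2, Int.isCoprime_iff_gcd_eq_one.2 h4, mul_right_cancel₀ hk' ?_,
      (h7 _).trans (h1.trans hYx), (h7 _).trans (h2.trans hYx)⟩
    push_cast at h3
    linear_combination h3
  choose! t1 t2 ht1 ht2 ht3 ht4 using ht
  have hxK : x ∈ Kf x b := IntermediateField.subset_adjoin _ _ (Set.mem_insert _ _)
  have hτ : Transcendental ℂ
      (MvPolynomial.aeval (gens x nn b) f / MvPolynomial.aeval (gens x nn b) g0) := fun h0 =>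
    hx ((mem_algebraicClosure_iff).1 ((IntermediateField.adjoin_simple_le_iff.2
      ((mem_algebraicClosure_iff).2 h0)) (hK hxK)))
  have hl2 := hL.l2_ne
  have hκ : ∀ n ∈ S, κ n ≠ 0 := fun n hn h0 => by
    have h1 := hC.kap n hn
    rw [h0, zero_pow (by omega), zero_mul] at h1
    exact pow_ne_zero q (Int.cast_ne_zero.2 (hl2 n hn)) h1.symm
  obtain ⟨s0, hs0⟩ := Function.ne_iff.1 hL.e1ne
  have hi0 : Fin d := ⟨0, by have := N.four_le; omega⟩
  obtain ⟨s0', hs0'⟩ : ∃ s0, N.co b s0 ≠ 0 := by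
    by_contra h0
    push Not at h0
    have h1 := N.sum_co b hi0
    simp only [h0, mul_zero, Finset.sum_const_zero] at h1
    exact hC.bne _ h1.symm
  have ha1 : ∀ s, MvPolynomial.aeval (gens x nn b) (MvPolynomial.C (e1 s : ℂ) *
      MvPolynomial.X (Sum.inl 0) + MvPolynomial.C (e2 s : ℂ)) =
      algebraMap ℂ Ω (e1 s) * x + algebraMap ℂ Ω (e2 s) := fun s => by simp [gens]
  obtain ⟨DA, a, R1, Ex1, hDA, hR1, hR1', hEx1, h1⟩ := hZ (gens x nn b) S1 (ptv N l1 l2 g κ)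
    (hC.vg.mono hS1S) f g0 (fun s => MvPolynomial.C (e1 s : ℂ) * MvPolynomial.X (Sum.inl 0) +
      MvPolynomial.C (e2 s : ℂ)) s0 (le_max_of_le_left hf) (le_max_of_le_left hg0)
    (fun s => le_max_of_le_right ((MvPolynomial.totalDegree_add _ _).trans (max_le
      ((MvPolynomial.totalDegree_mul _ _).trans (by
        rw [MvPolynomial.totalDegree_C, MvPolynomial.totalDegree_X]))
      (by rw [MvPolynomial.totalDegree_C]; exact zero_le_one)))) hg0' hτ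
    (by
      rw [ha1]
      intro h0
      have h2 : algebraMap ℂ Ω (e1 s0) ≠ 0 := (_root_.map_ne_zero _).2 (Int.cast_ne_zero.2 hs0)
      have h3 : x = algebraMap ℂ Ω (-(e2 s0) / e1 s0) := by
        rw [map_div₀, map_neg, eq_div_iff h2]
        linear_combination h0
      exact hx (h3 ▸ isAlgebraic_algebraMap _))
    (fun s => by
      rw [ha1, ha1]
      exact hK (div_mem (add_mem (mul_mem (IntermediateField.algebraMap_mem _ _) hxK)
        (IntermediateField.algebraMap_mem _ _)) (add_mem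
          (mul_mem (IntermediateField.algebraMap_mem _ _) hxK)
          (IntermediateField.algebraMap_mem _ _))))
    Y t1 t2 (fun n => l1 n • e1 + l2 n • e2) (fun n => (l2 n : ℂ)⁻¹) hY2' fun n hn => by
      have h2 : (l2 n : ℂ) ≠ 0 := Int.cast_ne_zero.2 (hl2 n (hS1S hn))
      refine ⟨(Finset.mem_filter.1 hn).2, ht1 n hn, ht2 n hn, ht3 n hn, ht4 n hn,
        (hηg n (hS1S hn)).1.1, (hηg n (hS1S hn)).1.2, inv_ne_zero h2, fun s => ?_⟩
      simp only [map_add, map_mul, MvPolynomial.eval_C, MvPolynomial.eval_X, ptv, gens,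
        Sum.elim_inl, Matrix.cons_val_zero, Pi.add_apply, Pi.smul_apply, smul_eq_mul]
      push_cast
      field_simp
  obtain ⟨DB, a', R2, Ex2, hDB, hR2, hR2', hEx2, h2⟩ := hZ (gens x nn b) S1 (ptv N l1 l2 g κ)
    (hC.vg.mono hS1S) f g0 N.r4P s0' (le_max_of_le_left hf) (le_max_of_le_left hg0)
    (fun s => le_max_of_le_right (N.r4P_deg s)) hg0' hτ (by rwa [N.r4P_aeval])
    (fun s => by
      have h3 : ∀ s, N.co b s / b hi0 ∈ Kf x b := fun s => by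
        simp only [NF.co, Finset.sum_div, mul_div_assoc]
        exact sum_mem fun i _ => mul_mem (IntermediateField.algebraMap_mem _ _)
          (IntermediateField.subset_adjoin _ _ (Set.mem_insert_of_mem _ ⟨i, hi0, rfl⟩))
      rw [N.r4P_aeval, N.r4P_aeval, 
        ← div_div_div_cancel_right₀ (hC.bne hi0) (N.co b s)]
      exact hK (div_mem (h3 s) (h3 s0')))
    Y t1 t2 g κ hY2' fun n hn => ⟨(Finset.mem_filter.1 hn).2, ht1 n hn, ht2 n hn, ht3 n hn,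
      ht4 n hn, (hηg n (hS1S hn)).2.1, (hηg n (hS1S hn)).2.2, hκ n (hS1S hn),
      N.r4P_eval l1 l2 g κ n⟩
  set S2 := S1.filter fun n => n ∉ Ex1 ∧ n ∉ Ex2 with hS2
  have hS2S : S2 ⊆ S := (Finset.filter_subset _ _).trans hS1S
  have hYZ : X ^ (max Cx 2 * (2 * Z + 1 : ℕ)) = Y ^ (2 * Z + 1) :=
    Real.rpow_mul_natCast (by linarith) _ _
  have hY1 : 1 ≤ Y := by linarith
  have hRR : |((R1 * R2 : ℤ) : ℝ)| ≤ X ^ (max Cx 2 * (2 * Z + 1 : ℕ)) := by
    rw [hYZ, Int.cast_mul, abs_mul]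
    refine (mul_le_mul hR1' hR2' (abs_nonneg _) (by positivity)).trans ?_
    rw [← pow_add]
    exact pow_le_pow_right₀ hY1 (by omega)
  have hdat : ∀ n ∈ S2, IsCoprime (t1 n) (t2 n) ∧ |(t2 n : ℝ)| ≤ X ^ (max Cx 2 * (2 * Z + 1 : ℕ)) ∧
      ∃ κ1 κ2 : ℤ, κ1 ∣ R1 * R2 ∧ κ2 ∣ R1 * R2 ∧
        (∀ s, hom DA (a s) (t1 n) (t2 n) = κ1 * (l1 n • e1 + l2 n • e2) s) ∧
        ∀ s, hom DB (a' s) (t1 n) (t2 n) = κ2 * g n s := by
    intro n hn
    obtain ⟨h3, h4, h5⟩ := Finset.mem_filter.1 hn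
    obtain ⟨κ1, h6, h7⟩ := h1 n h3 h4
    obtain ⟨κ2, h8, h9⟩ := h2 n h3 h5
    refine ⟨ht1 n h3, (ht4 n h3).trans ?_, κ1, κ2, h6.mul_right _, h8.mul_left _, h7, h9⟩
    rw [hYZ]
    exact le_self_pow₀ hY1 (by omega)
  have hc2 : (S2.card : ℝ) ≤ C1 * X ^ ω := by
    rcases hside with h | h
    · refine hrc X hX2 μ S2 α β pr (hS.mono hS2S) DB DA a' a (R1 * R2) t1 t2 hDB hDA
        (mul_ne_zero hR1 hR2) hRR fun n hn => ?_
      obtain ⟨h3, h4, κ1, κ2, h5, h6, h7, h8⟩ := hdat n hn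
      rw [(h n (hS2S hn)).1, (h n (hS2S hn)).2]
      exact ⟨h3, h4, κ2, κ1, h6, h5, h8, h7⟩
    · refine hrc X hX2 μ S2 α β pr (hS.mono hS2S) DA DB a a' (R1 * R2) t1 t2 hDA hDB
        (mul_ne_zero hR1 hR2) hRR fun n hn => ?_
      rw [(h n (hS2S hn)).1, (h n (hS2S hn)).2]
      exact hdat n hn
  have hcov : S ⊆ (S.filter fun n => MvPolynomial.eval (ptv N l1 l2 g κ n) g0 = 0) ∪ Ex1 ∪ Ex2 ∪
      S2 := by
    intro n hn
    simp only [hS2, hS1, Finset.mem_union, Finset.mem_filter]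
    tauto
  have h3 := (Finset.card_le_card hcov).trans ((Finset.card_union_le _ _).trans
    (Nat.add_le_add_right ((Finset.card_union_le _ _).trans (Nat.add_le_add
      ((Finset.card_union_le _ _).trans (Nat.add_le_add hS0 hEx1)) hEx2)) _))
  have h4 : (S.card : ℝ) ≤ C0 * D + Z + Z + S2.card := by exact_mod_cast h3
  have h5 : (C0 * D + Z + Z : ℝ) ≤ (C0 * D + Z + Z) * X ^ ω :=
    le_mul_of_one_le_right (by positivity) (Real.one_le_rpow hX1 hω.le)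
  linarith

/-- If `x` is algebraic it is a constant `x0`; by (V) all `l1 / l2 = x0`, so the coprime pairs agree up to sign and
`η n = ± η n0`; `fixB` (β-side) or `fixA` applied to `η n0` and `- η n0` (α-side). -/
theorem NF.const_curve (N : NF d) {c : ℝ} (hc : 0 < c) (hc8 : c ≤ 1 / 8) : ∃ C : ℝ, 0 ≤ C ∧
    ∀ X ≥ (1 : ℝ), ∀ (p q C0 : ℕ) (c' s1 s2 : ℝ) (μ : ℤ) (S : Finset ℤ) (α β : ℤ → Fin d → ℤ)
    (pr : ℤ → ℕ) (e1 e2 : Fin d → ℤ) (l1 l2 : ℤ → ℤ) (g : ℤ → Fin d → ℤ),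
    SolSet N c X μ S α β pr → LineCfg N p q c' X s1 s2 μ e1 e2 S l1 l2 g →
    ((∀ n ∈ S, β n = l1 n • e1 + l2 n • e2 ∧ α n = g n) ∨
      (∀ n ∈ S, α n = l1 n • e1 + l2 n • e2 ∧ β n = g n)) →
    ∀ (Ω : Type) [Field Ω] [Algebra ℂ Ω] (x nn : Ω) (b : Fin d → Ω) (κ : ℤ → ℂ),
    CurveCfg N p q μ e1 e2 S l1 l2 g x nn b κ C0 → IsAlgebraic ℂ x → (S.card : ℝ) ≤ C := by
  classical
  obtain ⟨C, hC0, hA⟩ := N.fixA hc hc8
  refine ⟨2 * C + 1, by positivity, ?_⟩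
  intro X hX p q C0 c' s1 s2 μ S α β pr e1 e2 l1 l2 g hS hL hside Ω _ _ x nn b κ hC hx
  obtain ⟨x0, hx0⟩ := minpoly.mem_range_of_degree_eq_one ℂ x
    (IsAlgClosed.degree_eq_one_of_irreducible ℂ (minpoly.irreducible hx.isIntegral))
  have h1 := hC.vg.V (MvPolynomial.X (Sum.inl 0) - MvPolynomial.C x0) (by simp [gens, hx0])
  have h2 : ∀ n ∈ S, ∀ n' ∈ S, ∀ s t,
      minor (l1 n • e1 + l2 n • e2) (l1 n' • e1 + l2 n' • e2) s t = 0 := by
    intro n hn n' hn' s t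
    have h3 := h1 n hn
    have h4 := h1 n' hn'
    simp only [map_sub, MvPolynomial.eval_X, MvPolynomial.eval_C, ptv, gens, Sum.elim_inl,
      Matrix.cons_val_zero, sub_eq_zero] at h3 h4
    rw [← h4, div_eq_div_iff (Int.cast_ne_zero.2 (hL.l2_ne n hn))
      (Int.cast_ne_zero.2 (hL.l2_ne n' hn'))] at h3
    have h5 : l1 n * l2 n' = l1 n' * l2 n := by exact_mod_cast h3
    simp only [minor, Pi.add_apply, Pi.smul_apply, smul_eq_mul]
    linear_combination (e1 s * e2 t - e1 t * e2 s) * h5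
  rcases hside with h | h
  · have h3 : S.card ≤ 1 := Finset.card_le_one.2 fun n hn n' hn' =>
      hS.fixB hc hc8 hX hn hn' ((hS.primB n hn).eq_or_eq_neg (hS.primB n' hn') fun s t => by
        rw [(h n hn).1, (h n' hn').1]
        exact h2 n hn n' hn' s t)
    have h4 : (S.card : ℝ) ≤ 1 := by exact_mod_cast h3
    linarith
  · rcases S.eq_empty_or_nonempty with rfl | ⟨n0, hn0⟩
    · simp only [Finset.card_empty, Nat.cast_zero]
      positivity
    have h3 : S ⊆ (S.filter fun n => α n = α n0) ∪ S.filter fun n => α n = -α n0 := by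
      intro n hn
      simp only [Finset.mem_union, Finset.mem_filter, hn, true_and]
      refine (hS.primA n hn).eq_or_eq_neg (hS.primA n0 hn0) fun s t => ?_
      rw [(h n hn).1, (h n0 hn0).1]
      exact h2 n hn n0 hn0 s t
    have h4 := hA X hX μ _ α β pr (hS.mono (Finset.filter_subset (fun n => α n = α n0) S)) _
      fun n hn => (Finset.mem_filter.1 hn).2
    have h5 := hA X hX μ _ α β pr (hS.mono (Finset.filter_subset (fun n => α n = -α n0) S)) _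
      fun n hn => (Finset.mem_filter.1 hn).2
    have h6 : (S.card : ℝ) ≤ (S.filter fun n => α n = α n0).card +
        (S.filter fun n => α n = -α n0).card := by
      exact_mod_cast (Finset.card_le_card h3).trans (Finset.card_union_le _ _)
    linarith

end Crest.Agent.R22
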