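import Crest.Agent.R22.Kummer
import Crest.Agent.R22.Fix

namespace Crest.Agent.R22

open MvPolynomial

variable {d : ℕ}

/-- The Hilbert function of a plane curve grows linearly: if `g` has total degree `e ≤ D1`, the kernel of
evaluation on `restrictTotalDegree (Fin 2) ℂ M` contains `g * restrictTotalDegree (M - e)`, and
`C(M+2, 2) - C(M-e+2, 2) ≤ e (M + 1)`.  (Alternatively: bound by boxes, or reduce modulo a leading
monomial.) -/
theorem finrank_plane_le {Ω : Type} [Field Ω] [Algebra ℂ Ω] (x nn : Ω) (g : MvPolynomial (Fin 2) ℂ)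
    (hg : g ≠ 0) (D1 : ℕ) (hD : g.totalDegree ≤ D1) (h0 : aeval ![x, nn] g = 0) (M : ℕ) :
    Module.finrank ℂ ((restrictTotalDegree (Fin 2) ℂ M).map
      (aeval (R := ℂ) ![x, nn]).toLinearMap) ≤ D1 * (M + 1) := by
  set m : MonomialOrder (Fin 2) := MonomialOrder.degLex with hm
  set a := m.degree g 0 with ha
  set b := m.degree g 1 with hb
  have hab : a + b ≤ D1 := by
    have h1 := degree_degLexDegree (f := g)
    rw [Finsupp.degree_eq_sum, Fin.sum_univ_two] at h1
    exact h1.le.trans hD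
  let v : (Fin a × Fin (M + 1)) ⊕ (Fin b × Fin (M + 1)) → Ω :=
    Sum.elim (fun p => x ^ (p.1 : ℕ) * nn ^ (p.2 : ℕ)) (fun p => x ^ (p.2 : ℕ) * nn ^ (p.1 : ℕ))
  have hle : (restrictTotalDegree (Fin 2) ℂ M).map (aeval (R := ℂ) ![x, nn]).toLinearMap ≤
      Submodule.span ℂ (Set.range v) := by
    rintro _ ⟨f, hf, rfl⟩
    have hf' : f.totalDegree ≤ M := (mem_restrictTotalDegree _ _ _).1 hf
    obtain ⟨q, r, hqr, h1, h2⟩ := m.div_single (b := g)
      (Ne.isUnit (m.leadingCoeff_ne_zero_iff.2 hg)) f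
    have h3 : (g * q).totalDegree ≤ f.totalDegree := degLex_totalDegree_monotone h1
    have h4 : r.totalDegree ≤ M := by
      have e : r = f - g * q := by rw [hqr]; ring
      rw [e]
      exact (totalDegree_sub _ _).trans (max_le hf' (h3.trans hf'))
    have h5 : aeval ![x, nn] f = aeval ![x, nn] r := by
      rw [hqr, map_add, map_mul, h0, mul_zero, zero_add]
    change aeval ![x, nn] f ∈ _
    rw [h5, r.as_sum, map_sum]
    refine Submodule.sum_mem _ fun c hc => ?_
    have h6 : c 0 + c 1 ≤ M := by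
      have := (le_totalDegree hc).trans h4
      rwa [Finsupp.sum_fintype _ _ (fun _ => rfl), Fin.sum_univ_two] at this
    rw [aeval_monomial, ← Algebra.smul_def, Finsupp.prod_fintype _ _ (fun _ => pow_zero _),
      Fin.prod_univ_two]
    refine Submodule.smul_mem _ _ (Submodule.subset_span ?_)
    by_cases h7 : c 0 < a
    · exact ⟨Sum.inl (⟨c 0, h7⟩, ⟨c 1, by omega⟩), rfl⟩
    · have h8 : c 1 < b := by
        by_contra h8
        apply h2 c hc
        intro i
        fin_cases i
        · exact not_lt.1 h7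
        · exact not_lt.1 h8
      exact ⟨Sum.inr (⟨c 1, h8⟩, ⟨c 0, by omega⟩), rfl⟩
  have : Module.Finite ℂ (Submodule.span ℂ (Set.range v)) :=
    Module.Finite.span_of_finite ℂ (Set.finite_range v)
  refine (Submodule.finrank_mono hle).trans ((finrank_range_le_card v).trans ?_)
  simp only [Fintype.card_sum, Fintype.card_prod, Fintype.card_fin]
  rw [← add_mul]
  exact Nat.mul_le_mul_right _ hab

/-- Fourier inversion over `μ_p^d`: if `∑_J z J ζ^J = 0` for all `ζ ∈ μ_p^d` then all `z J = 0`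
(induct on `d`, or apply Vandermonde `Matrix.det_vandermonde_ne_zero_iff` coordinatewise with a primitive
root `ω`: `∑_{t<p} ω^(t (j - j')) = p δ`). -/
theorem fourier_zero {Ω : Type} [Field Ω] [Algebra ℂ Ω] (p : ℕ) (hp : 1 ≤ p)
    (z : (Fin d → Fin p) → Ω) (h : ∀ ζ : Fin d → ℂ, (∀ i, ζ i ^ p = 1) →
      ∑ J, z J * ∏ i, algebraMap ℂ Ω (ζ i) ^ (J i : ℕ) = 0) : ∀ J, z J = 0 := by
  classical
  obtain ⟨ω, hω⟩ : ∃ ω : ℂ, IsPrimitiveRoot ω p := ⟨_, Complex.isPrimitiveRoot_exp p (by omega)⟩
  let χ : (Fin d → Fin p) → (Multiplicative (Fin d → ℕ) →* Ω) := fun J =>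
    { toFun := fun t => ∏ i, algebraMap ℂ Ω (ω ^ (Multiplicative.toAdd t i)) ^ (J i : ℕ)
      map_one' := by simp
      map_mul' := fun t t' => by
        rw [← Finset.prod_mul_distrib]
        refine Finset.prod_congr rfl fun i _ => ?_
        rw [toAdd_mul, Pi.add_apply, pow_add, map_mul, mul_pow] }
  have hχ : Function.Injective χ := by
    intro J J' hJ
    funext i
    have key : ∀ K : Fin d → Fin p, χ K (Multiplicative.ofAdd (Pi.single i 1)) =
        algebraMap ℂ Ω (ω ^ (K i : ℕ)) := by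
      intro K
      change ∏ l, algebraMap ℂ Ω (ω ^ ((Pi.single i 1 : Fin d → ℕ) l)) ^ (K l : ℕ) = _
      rw [Finset.prod_eq_single i]
      · simp
      · intro l _ hl
        simp [Pi.single_eq_of_ne hl]
      · simp
    have h1 := key J
    rw [hJ, key J'] at h1
    exact Fin.ext (hω.pow_inj (J i).2 (J' i).2 ((algebraMap ℂ Ω).injective h1).symm)
  have hli := (linearIndependent_monoidHom (Multiplicative (Fin d → ℕ)) Ω).comp χ hχ
  rw [Fintype.linearIndependent_iff] at hli
  refine hli z (funext fun t => ?_)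
  rw [Finset.sum_apply]
  exact h (fun i => ω ^ (Multiplicative.toAdd t i)) fun i => by
    rw [← pow_mul, mul_comm, pow_mul, hω.pow_eq_one, one_pow]

end Crest.Agent.R22
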