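import Crest.Agent.R22.Kummer
import Crest.Agent.R22.Fix
import Crest.Agent.R22.Red2

namespace Crest.Agent.R22

open MvPolynomial

variable {d : ℕ}

theorem red3_exists_field (g : MvPolynomial (Fin 2) ℂ) (hg : Irreducible g) :
    ∃ (Ω : Type) (_ : Field Ω) (_ : Algebra ℂ Ω) (_ : IsAlgClosed Ω) (x nn : Ω),
      ∀ a : MvPolynomial (Fin 2) ℂ, aeval ![x, nn] a = 0 ↔ g ∣ a := by
  have hp : Prime g := hg.prime
  have : (Ideal.span {g}).IsPrime := (Ideal.span_singleton_prime hp.ne_zero).2 hp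
  let R := MvPolynomial (Fin 2) ℂ ⧸ Ideal.span {g}
  let K := FractionRing R
  let Ω := AlgebraicClosure K
  let φ : MvPolynomial (Fin 2) ℂ →ₐ[ℂ] Ω :=
    ((IsScalarTower.toAlgHom ℂ K Ω).comp (IsScalarTower.toAlgHom ℂ R K)).comp
      (Ideal.Quotient.mkₐ ℂ (Ideal.span {g}))
  refine ⟨Ω, inferInstance, inferInstance, inferInstance, φ (X 0), φ (X 1), fun a => ?_⟩
  have h1 : (aeval ![φ (X 0), φ (X 1)] : MvPolynomial (Fin 2) ℂ →ₐ[ℂ] Ω) = φ := by
    apply MvPolynomial.algHom_ext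
    intro i
    fin_cases i <;> simp
  rw [h1]
  have h2 : φ a = algebraMap K Ω (algebraMap R K (Ideal.Quotient.mk (Ideal.span {g}) a)) := rfl
  rw [h2, map_eq_zero_iff _ (algebraMap K Ω).injective,
    map_eq_zero_iff _ (IsFractionRing.injective R K), Ideal.Quotient.eq_zero_iff_mem,
    Ideal.mem_span_singleton]

theorem red3_growth (N : NF d) (p q D1 : ℕ) (hp : 1 ≤ p) (e1 e2 : Fin d → ℤ)
    {Ω : Type} [Field Ω] [Algebra ℂ Ω] (x nn : Ω) (b : Fin d → Ω) (hrel : Rel N p q e1 e2 x nn b)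
    (hl : ∀ i, algebraMap ℂ Ω (N.emb e1 i) * x + algebraMap ℂ Ω (N.emb e2 i) ≠ 0)
    (g : MvPolynomial (Fin 2) ℂ) (hg : g ≠ 0) (hD : g.totalDegree ≤ D1)
    (h0 : aeval ![x, nn] g = 0) (s : ℕ) :
    Module.finrank ℂ ((MvPolynomial.restrictTotalDegree (Fin 2 ⊕ Fin d) ℂ s).map
      (MvPolynomial.aeval (R := ℂ) (gens x nn b)).toLinearMap) ≤
      p ^ d * D1 * (2 + d * q) * (s + 1) := by
  set U := (restrictTotalDegree (Fin 2) ℂ ((2 + d * q) * s)).map
      (aeval (R := ℂ) ![x, nn]).toLinearMap with hU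
  have hUr : Module.finrank ℂ U ≤ D1 * ((2 + d * q) * s + 1) :=
    finrank_plane_le x nn g hg D1 hD h0 _
  set L : Ω := (∏ i, (algebraMap ℂ Ω (N.emb e1 i) * x + algebraMap ℂ Ω (N.emb e2 i))) ^ (q * s)
    with hL
  have hL0 : L ≠ 0 := pow_ne_zero _ (Finset.prod_ne_zero_iff.2 fun i _ => hl i)
  let Φ : ((Fin d → Fin p) → U) →ₗ[ℂ] Ω :=
    ∑ J : Fin d → Fin p, (LinearMap.mulRight ℂ (∏ i, b i ^ (J i : ℕ))) ∘ₗ U.subtype ∘ₗ
      LinearMap.proj J
  have hΦ : ∀ u, Φ u = ∑ J : Fin d → Fin p, (u J : Ω) * ∏ i, b i ^ (J i : ℕ) := by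
    intro u
    simp [Φ, LinearMap.sum_apply]
  set W := (MvPolynomial.restrictTotalDegree (Fin 2 ⊕ Fin d) ℂ s).map
      (MvPolynomial.aeval (R := ℂ) (gens x nn b)).toLinearMap with hW
  have hinj : Function.Injective (LinearMap.mulLeft ℂ L) := by
    intro u v huv
    simpa [hL0] using huv
  have hle : W.map (LinearMap.mulLeft ℂ L) ≤ LinearMap.range Φ := by
    rintro _ ⟨_, ⟨Ψ, hΨ, rfl⟩, rfl⟩
    have hΨ' : Ψ.totalDegree ≤ s := (mem_restrictTotalDegree _ _ _).1 hΨ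
    obtain ⟨a, ha, hnf⟩ := N.normal_form p q s hp e1 e2 Ψ hΨ'
    refine ⟨fun J => ⟨aeval ![x, nn] (a J), a J, (mem_restrictTotalDegree _ _ _).2 (ha J), rfl⟩, ?_⟩
    rw [hΦ]
    exact (hnf Ω x nn b hrel).symm
  have h1 : Module.finrank ℂ W = Module.finrank ℂ (W.map (LinearMap.mulLeft ℂ L)) :=
    (Submodule.equivMapOfInjective _ hinj W).finrank_eq
  have h2 : Module.finrank ℂ (W.map (LinearMap.mulLeft ℂ L)) ≤
      Module.finrank ℂ (LinearMap.range Φ) := Submodule.finrank_mono hle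
  have h3 : Module.finrank ℂ (LinearMap.range Φ) ≤
      Module.finrank ℂ ((Fin d → Fin p) → U) := LinearMap.finrank_range_le Φ
  have h4 : Module.finrank ℂ ((Fin d → Fin p) → U) = p ^ d * Module.finrank ℂ U := by
    rw [Module.finrank_pi_fintype]
    simp
  have h5 : (2 + d * q) * s + 1 ≤ (2 + d * q) * (s + 1) := by nlinarith [Nat.zero_le (d * q)]
  calc Module.finrank ℂ W ≤ p ^ d * Module.finrank ℂ U := by omega
    _ ≤ p ^ d * (D1 * ((2 + d * q) * (s + 1))) :=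
        Nat.mul_le_mul_left _ (hUr.trans (Nat.mul_le_mul_left _ h5))
    _ = p ^ d * D1 * (2 + d * q) * (s + 1) := by ring

theorem red3_twist_rel {N : NF d} {p q : ℕ} {e1 e2 : Fin d → ℤ}
    {Ω : Type} [Field Ω] [Algebra ℂ Ω] {x nn : Ω} {b : Fin d → Ω} (hrel : Rel N p q e1 e2 x nn b)
    (ζ : Fin d → ℂ) (hζ : ∀ i, ζ i ^ p = 1) :
    Rel N p q e1 e2 x nn (fun i => algebraMap ℂ Ω (ζ i) * b i) := by
  intro i
  rw [mul_pow, ← map_pow, hζ i, map_one, one_mul]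
  exact hrel i

theorem red3_twist (N : NF d) (p q : ℕ) (hp : 1 ≤ p) (e1 e2 : Fin d → ℤ)
    {Ω : Type} [Field Ω] [Algebra ℂ Ω] (x nn : Ω) (b : Fin d → Ω) (hrel : Rel N p q e1 e2 x nn b)
    (hb : ∀ i, b i ≠ 0) (x0 n0 : ℂ) (b0 : Fin d → ℂ) (hrel0 : Rel N p q e1 e2 x0 n0 b0)
    (hl0 : ∀ i, N.emb e1 i * x0 + N.emb e2 i ≠ 0)
    (hV : ∀ a : MvPolynomial (Fin 2) ℂ, aeval ![x, nn] a = 0 → eval ![x0, n0] a = 0) :
    ∃ ζ ∈ Fintype.piFinset (fun _ : Fin d => Polynomial.nthRootsFinset p (1 : ℂ)),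
      ∀ Ψ : MvPolynomial (Fin 2 ⊕ Fin d) ℂ,
        aeval (gens x nn (fun i => algebraMap ℂ Ω (ζ i) * b i)) Ψ = 0 →
        eval (gens x0 n0 b0) Ψ = 0 := by
  classical
  by_contra hcon
  push Not at hcon
  choose! Ψ hΨ0 hΨ1 using hcon
  set Z := Fintype.piFinset (fun _ : Fin d => Polynomial.nthRootsFinset p (1 : ℂ)) with hZ
  obtain ⟨a, -, hnf⟩ := N.normal_form p q (∏ ζ ∈ Z, Ψ ζ).totalDegree hp e1 e2 (∏ ζ ∈ Z, Ψ ζ) le_rfl
  have hz := fourier_zero (d := d) (Ω := Ω) p hp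
    (fun J => aeval ![x, nn] (a J) * ∏ i, b i ^ (J i : ℕ)) (by
      intro ζ hζ
      have hmem : ζ ∈ Z := by
        rw [hZ, Fintype.mem_piFinset]
        intro i
        exact (Polynomial.mem_nthRootsFinset hp 1).2 (hζ i)
      have h1 := hnf Ω x nn _ (red3_twist_rel hrel ζ hζ)
      rw [map_prod, Finset.prod_eq_zero (f := fun ξ =>
        aeval (gens x nn (fun i => algebraMap ℂ Ω (ζ i) * b i)) (Ψ ξ)) hmem (hΨ0 ζ hmem),
        mul_zero] at h1
      rw [h1]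
      refine Finset.sum_congr rfl fun J _ => ?_
      simp only [mul_pow, Finset.prod_mul_distrib]
      ring)
  have ha : ∀ J, eval ![x0, n0] (a J) = 0 := by
    intro J
    apply hV
    have := hz J
    rcases mul_eq_zero.1 this with h | h
    · exact h
    · exact absurd h (Finset.prod_ne_zero_iff.2 fun i _ => pow_ne_zero _ (hb i))
  have h2 := hnf ℂ x0 n0 b0 hrel0
  simp only [aeval_eq_eval, ha, zero_mul, Finset.sum_const_zero, Algebra.algebraMap_self,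
    RingHom.id_apply] at h2
  rcases mul_eq_zero.1 h2 with h | h
  · exact absurd h (pow_ne_zero _ (Finset.prod_ne_zero_iff.2 fun i _ => hl0 i))
  · rw [map_prod] at h
    exact absurd h (Finset.prod_ne_zero_iff.2 fun ζ hζ => hΨ1 ζ hζ)

/-- One irreducible plane curve.  `Ω = AlgebraicClosure (FractionRing (ℂ[x, n] ⧸ (g)))` (`g` is prime); the
kernel of `aeval ![x, nn]` is `(g)`.  If `S` is empty there is nothing to prove; otherwise `ℓ i ≠ 0` and
`nn ≠ θ i` in `Ω` (else `g` divides a polynomial that is nonzero at a point of `S`: `low`, `theta_ne_int`).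
Choose `b i^p = (nn - θ i) / ℓ i^q` and `κ n^p = l2^q / μ`; the points satisfy `Rel` over `ℂ`.  For each point
`n` some twist `ζ b` (`ζ ∈ μ_p^d`) has property (V) at `n`: otherwise take `Ψ_ζ` vanishing at `ζ b` but not at
`n`; the product `Ψ` vanishes at all twists, so by `normal_form` and `fourier_zero` all `a J (x, nn) = 0`,
`g ∣ a J`, and `Ψ` vanishes at the point.  (G): `(∏ ℓ)^(q s)` times the image of degree `≤ s` lies in
`∑_J b^J * (image of degree ≤ (2 + d q) s)`; `finrank_plane_le`; `C0 = p^d D1 (2 + d q)`.  The coordinate `n`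
separates. -/
theorem curves_of_irreducible (d p q D1 : ℕ) (hp : 1 ≤ p) : ∃ C0 : ℕ, ∀ (N : NF d) (c X s1 s2 : ℝ)
    (μ : ℤ) (e1 e2 : Fin d → ℤ) (S : Finset ℤ) (l1 l2 : ℤ → ℤ) (γ : ℤ → Fin d → ℤ), 0 < c →
    LineCfg N p q c X s1 s2 μ e1 e2 S l1 l2 γ → ∀ g : MvPolynomial (Fin 2) ℂ, Irreducible g →
    g.totalDegree ≤ D1 → (∀ n ∈ S, eval ![(l1 n : ℂ) / l2 n, (n : ℂ)] g = 0) →
    ∀ B : ℝ, 0 ≤ B → (∀ T ⊆ S, HasCurve N p q μ e1 e2 l1 l2 γ C0 T → (T.card : ℝ) ≤ B) →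
    (S.card : ℝ) ≤ (p : ℝ) ^ d * B := by
  classical
  refine ⟨p ^ d * D1 * (2 + d * q), ?_⟩
  intro N c X s1 s2 μ e1 e2 S l1 l2 γ hc hL g hg hD hS B hB hT
  rcases S.eq_empty_or_nonempty with rfl | ⟨n0, hn0⟩
  · simp only [Finset.card_empty, Nat.cast_zero]
    positivity
  obtain ⟨Ω, _, _, _, x, nn, hker⟩ := red3_exists_field g hg
  have hV : ∀ n ∈ S, ∀ a : MvPolynomial (Fin 2) ℂ, aeval ![x, nn] a = 0 →
      eval ![(l1 n : ℂ) / l2 n, (n : ℂ)] a = 0 := by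
    intro n hn a ha
    obtain ⟨w, rfl⟩ := (hker a).1 ha
    rw [map_mul, hS n hn, zero_mul]
  have hl2 : ∀ n ∈ S, (l2 n : ℂ) ≠ 0 := fun n hn => by exact_mod_cast hL.l2_ne n hn
  have hl0 : ∀ n ∈ S, ∀ i, N.emb e1 i * ((l1 n : ℂ) / l2 n) + N.emb e2 i ≠ 0 := by
    intro n hn i h
    have h1 : N.emb e1 i * (l1 n : ℂ) + N.emb e2 i * (l2 n : ℂ) = 0 := by
      have := hl2 n hn
      field_simp at h
      linear_combination h
    have h2 := hL.low n hn i
    rw [h1, norm_zero] at h2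
    have h3 : (0 : ℝ) < |(l2 n : ℝ)| := abs_pos.2 (by exact_mod_cast hL.l2_ne n hn)
    have h4 : (0 : ℝ) < ‖e2‖ := norm_pos_iff.2 hL.e2ne
    have : 0 < c * (|(l2 n : ℝ)| * ‖e2‖) := by positivity
    linarith
  have hl : ∀ i, algebraMap ℂ Ω (N.emb e1 i) * x + algebraMap ℂ Ω (N.emb e2 i) ≠ 0 := by
    intro i h
    apply hl0 n0 hn0 i
    have := hV n0 hn0 (C (N.emb e1 i) * MvPolynomial.X 0 + C (N.emb e2 i)) (by simpa using h)
    simpa using this
  have hnn : ∀ i, nn - algebraMap ℂ Ω (N.θ i) ≠ 0 := by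
    intro i h
    apply N.theta_ne_int n0 i
    have := hV n0 hn0 (MvPolynomial.X 1 - C (N.θ i)) (by simpa using h)
    simpa [sub_eq_zero] using this
  have hb : ∀ i, ∃ z : Ω, z ^ p = (nn - algebraMap ℂ Ω (N.θ i)) /
      (algebraMap ℂ Ω (N.emb e1 i) * x + algebraMap ℂ Ω (N.emb e2 i)) ^ q :=
    fun i => IsAlgClosed.exists_pow_nat_eq _ hp
  choose b hb using hb
  have hrel : Rel N p q e1 e2 x nn b := by
    intro i
    rw [hb i, div_mul_cancel₀ _ (pow_ne_zero _ (hl i))]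
  have hbne : ∀ i, b i ≠ 0 := by
    intro i h
    have := hrel i
    rw [h, zero_pow (by omega), zero_mul] at this
    exact hnn i this.symm
  have hμ : (μ : ℂ) ≠ 0 := by exact_mod_cast hL.mu0
  have hκ : ∀ n : ℤ, ∃ z : ℂ, z ^ p = (l2 n : ℂ) ^ q / μ :=
    fun n => IsAlgClosed.exists_pow_nat_eq _ hp
  choose κ hκ using hκ
  have hrel0 : ∀ n ∈ S, Rel N p q e1 e2 ((l1 n : ℂ) / l2 n) (n : ℂ)
      (fun i => κ n * N.emb (γ n) i) := by
    intro n hn i
    have h1 := hL.eq n hn i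
    have h2 := hl2 n hn
    simp only [Algebra.algebraMap_self, RingHom.id_apply]
    have h3 : N.emb e1 i * ((l1 n : ℂ) / l2 n) + N.emb e2 i =
        (N.emb e1 i * (l1 n : ℂ) + N.emb e2 i * (l2 n : ℂ)) / l2 n := by
      field_simp
    rw [mul_pow, hκ n, h3, div_pow]
    have h4 : (l2 n : ℂ) ^ q ≠ 0 := pow_ne_zero _ h2
    field_simp
    linear_combination h1
  set Z := Fintype.piFinset (fun _ : Fin d => Polynomial.nthRootsFinset p (1 : ℂ)) with hZ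
  let T : (Fin d → ℂ) → Finset ℤ := fun ζ => S.filter fun n =>
    ∀ Ψ : MvPolynomial (Fin 2 ⊕ Fin d) ℂ,
      aeval (gens x nn (fun i => algebraMap ℂ Ω (ζ i) * b i)) Ψ = 0 →
      eval (ptv N l1 l2 γ κ n) Ψ = 0
  have hcov : S ⊆ Z.biUnion T := by
    intro n hn
    obtain ⟨ζ, hζ, h⟩ := red3_twist N p q hp e1 e2 x nn b hrel hbne _ _ _ (hrel0 n hn) (hl0 n hn)
      (hV n hn)
    exact Finset.mem_biUnion.2 ⟨ζ, hζ, Finset.mem_filter.2 ⟨hn, h⟩⟩
  have hTB : ∀ ζ ∈ Z, ((T ζ).card : ℝ) ≤ B := by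
    intro ζ hζ
    have hζ' : ∀ i, ζ i ^ p = 1 := fun i =>
      (Polynomial.mem_nthRootsFinset hp 1).1 (Fintype.mem_piFinset.1 hζ i)
    have hζ0 : ∀ i, ζ i ≠ 0 := by
      intro i h
      have := hζ' i
      rw [h, zero_pow (by omega)] at this
      exact zero_ne_one this
    apply hT _ (Finset.filter_subset _ _)
    refine ⟨Ω, inferInstance, inferInstance, x, nn, fun i => algebraMap ℂ Ω (ζ i) * b i, κ,
      red3_twist_rel hrel ζ hζ', fun i => mul_ne_zero ?_ (hbne i), ?_, ?_, ?_, ?_⟩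
    · exact (map_ne_zero _).2 (hζ0 i)
    · intro n _
      rw [hκ n, div_mul_cancel₀ _ hμ]
    · intro Ψ hΨ n hn
      exact (Finset.mem_filter.1 hn).2 Ψ hΨ
    · intro s
      exact red3_growth N p q D1 hp e1 e2 x nn _ (red3_twist_rel hrel ζ hζ') hl g hg.ne_zero hD
        ((hker g).2 dvd_rfl) s
    · refine ⟨Sum.inl 1, fun n _ n' _ h => ?_⟩
      simpa [ptv, gens] using h
  have hZc : Z.card ≤ p ^ d := by
    rw [hZ, Fintype.card_piFinset]
    have : (Polynomial.nthRootsFinset p (1 : ℂ)).card ≤ p := by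
      rw [Polynomial.nthRootsFinset_def]
      exact (Multiset.toFinset_card_le _).trans (Polynomial.card_nthRoots _ _)
    calc ∏ _i : Fin d, (Polynomial.nthRootsFinset p (1 : ℂ)).card ≤ ∏ _i : Fin d, p :=
          Finset.prod_le_prod' fun i _ => this
      _ = p ^ d := by simp
  calc (S.card : ℝ) ≤ ((Z.biUnion T).card : ℝ) := by exact_mod_cast Finset.card_le_card hcov
    _ ≤ ∑ ζ ∈ Z, ((T ζ).card : ℝ) := by exact_mod_cast Finset.card_biUnion_le
    _ ≤ ∑ _ζ ∈ Z, B := Finset.sum_le_sum hTB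
    _ = Z.card * B := by simp
    _ ≤ (p : ℝ) ^ d * B := by
        apply mul_le_mul_of_nonneg_right _ hB
        exact_mod_cast hZc

end Crest.Agent.R22
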