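import Crest.Agent.R22.Kummer
import Crest.Agent.R22.Fix
import Crest.Agent.R22.Red1
import Crest.Agent.R22.Red3

namespace Crest.Agent.R22

open MvPolynomial

variable {d : ℕ}

/-- Factor `g` into at most `D1` irreducible factors (`UniqueFactorizationMonoid.factors`; units are
nonzero constants, total degree is additive over a domain `totalDegree_mul_of_isDomain`, and each
irreducible factor has degree in `[1, D1]`); every point lies on one factor. -/
theorem curves_of_ne_zero (d p q D1 : ℕ) (hp : 1 ≤ p) : ∃ C0 : ℕ, ∀ (N : NF d) (c X s1 s2 : ℝ)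
    (μ : ℤ) (e1 e2 : Fin d → ℤ) (S : Finset ℤ) (l1 l2 : ℤ → ℤ) (γ : ℤ → Fin d → ℤ), 0 < c →
    LineCfg N p q c X s1 s2 μ e1 e2 S l1 l2 γ → ∀ g : MvPolynomial (Fin 2) ℂ, g ≠ 0 →
    g.totalDegree ≤ D1 → (∀ n ∈ S, eval ![(l1 n : ℂ) / l2 n, (n : ℂ)] g = 0) →
    ∀ B : ℝ, 0 ≤ B → (∀ T ⊆ S, HasCurve N p q μ e1 e2 l1 l2 γ C0 T → (T.card : ℝ) ≤ B) →
    (S.card : ℝ) ≤ D1 * (p : ℝ) ^ d * B := by
  classical
  obtain ⟨C0, hC0⟩ := curves_of_irreducible d p q D1 hp
  refine ⟨C0, ?_⟩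
  intro N c X s1 s2 μ e1 e2 S l1 l2 γ hc hL g hg hD hS B hB hT
  have key : ∀ g : MvPolynomial (Fin 2) ℂ, g ≠ 0 → g.totalDegree ≤ D1 → ∀ S' ⊆ S,
      (∀ n ∈ S', eval ![(l1 n : ℂ) / l2 n, (n : ℂ)] g = 0) →
      (S'.card : ℝ) ≤ g.totalDegree * ((p : ℝ) ^ d * B) := by
    intro g
    induction g using WfDvdMonoid.induction_on_irreducible with
    | zero => intro h; exact absurd rfl h
    | unit u hu =>
      intro _ _ S' _ h
      have : S' = ∅ := by
        refine Finset.eq_empty_of_forall_notMem fun n hn => ?_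
        exact (hu.map (eval ![(l1 n : ℂ) / l2 n, (n : ℂ)])).ne_zero (h n hn)
      subst this
      simp only [Finset.card_empty, Nat.cast_zero]
      positivity
    | mul a i ha hi ih =>
      intro _ hD S' hS' h
      have hdeg : (i * a).totalDegree = i.totalDegree + a.totalDegree :=
        totalDegree_mul_of_isDomain hi.ne_zero ha
      have hi1 : 1 ≤ i.totalDegree := by
        by_contra h0
        have h1 : i.totalDegree = 0 := by omega
        rw [totalDegree_eq_zero_iff_eq_C] at h1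
        apply hi.not_isUnit
        rw [h1]
        refine (IsUnit.mk0 _ fun h2 => hi.ne_zero ?_).map C
        rw [h1, h2, map_zero]
      set S1 := S'.filter fun n => eval ![(l1 n : ℂ) / l2 n, (n : ℂ)] i = 0 with hS1
      set S2 := S'.filter fun n => eval ![(l1 n : ℂ) / l2 n, (n : ℂ)] a = 0 with hS2
      have hsub : S' ⊆ S1 ∪ S2 := by
        intro n hn
        have := h n hn
        rw [map_mul, mul_eq_zero] at this
        rcases this with h1 | h1
        · exact Finset.mem_union_left _ (Finset.mem_filter.2 ⟨hn, h1⟩)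
        · exact Finset.mem_union_right _ (Finset.mem_filter.2 ⟨hn, h1⟩)
      have hS1S : S1 ⊆ S := (Finset.filter_subset _ _).trans hS'
      have h1 : (S1.card : ℝ) ≤ (p : ℝ) ^ d * B :=
        hC0 N c X s1 s2 μ e1 e2 S1 l1 l2 γ hc (hL.mono hS1S) i hi (by omega)
          (fun n hn => (Finset.mem_filter.1 hn).2) B hB fun T hT' => hT T (hT'.trans hS1S)
      have h2 : (S2.card : ℝ) ≤ a.totalDegree * ((p : ℝ) ^ d * B) :=
        ih ha (by omega) S2 ((Finset.filter_subset _ _).trans hS')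
          fun n hn => (Finset.mem_filter.1 hn).2
      have h3 : (S'.card : ℝ) ≤ S1.card + S2.card := by
        exact_mod_cast (Finset.card_le_card hsub).trans (Finset.card_union_le _ _)
      have h4 : (1 : ℝ) ≤ i.totalDegree := by exact_mod_cast hi1
      have h5 : 0 ≤ (p : ℝ) ^ d * B := by positivity
      rw [hdeg, Nat.cast_add, add_mul]
      nlinarith
  have h1 := key g hg hD S subset_rfl hS
  have h2 : (g.totalDegree : ℝ) ≤ D1 := by exact_mod_cast hD
  have h5 : 0 ≤ (p : ℝ) ^ d * B := by positivity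
  rw [mul_assoc]
  exact h1.trans (mul_le_mul_of_nonneg_right h2 h5)

/-- From a linear relation among independent rows to curves.  Put
`Ψ = ∑ cf r X_x^(i r) ∏ s (∑ t j, U s t cinv t j X_(b j))^(mm r s)`, of degree `≤ a + E`, nonzero at the generic
point by independence.  At a point `n` (any `κ` with `κ^p μ = l2^q`) its value is
`κ^E l2^(-a) ∑ cf r row r n = 0` (`co_emb`).  Apply `exists_red` and `curves_of_ne_zero`. -/
theorem curves_of_rel (d p q a E : ℕ) (hp : 1 ≤ p) : ∃ C0 M : ℕ, ∀ (N : NF d) (c X s1 s2 : ℝ)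
    (μ : ℤ) (e1 e2 : Fin d → ℤ) (S : Finset ℤ) (l1 l2 : ℤ → ℤ) (γ : ℤ → Fin d → ℤ), 0 < c →
    LineCfg N p q c X s1 s2 μ e1 e2 S l1 l2 γ →
    ∀ (Ω : Type) [Field Ω] [Algebra ℂ Ω] (x nn : Ω) (b : Fin d → Ω), SurfCfg N p q e1 e2 x nn b →
    ∀ (U : Matrix (Fin d) (Fin d) ℤ) (ι : Type) [Fintype ι] (i : ι → ℕ) (mm : ι → Fin d → ℕ),
    (∀ r, i r ≤ a ∧ ∑ s, mm r s = E) →
    LinearIndependent ℂ (fun r => x ^ i r * ∏ s, N.coU U b s ^ mm r s) →
    ∀ cf : ι → ℂ, cf ≠ 0 → (∀ n ∈ S, ∑ r, cf r * (rowv U l1 l2 γ a (i r) (mm r) n : ℂ) = 0) →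
    ∀ B : ℝ, 0 ≤ B → (∀ T ⊆ S, HasCurve N p q μ e1 e2 l1 l2 γ C0 T → (T.card : ℝ) ≤ B) →
    (S.card : ℝ) ≤ M * B := by
  classical
  obtain ⟨D1, hD1⟩ := exists_red d p q (a + E) hp
  obtain ⟨C0, hC0⟩ := curves_of_ne_zero d p q D1 hp
  refine ⟨C0, D1 * p ^ d, ?_⟩
  intro N c X s1 s2 μ e1 e2 S l1 l2 γ hc hL Ω _ _ x nn b hsurf U ι _ i mm hi hind cf hcf hrel B hB hT
  let Lf : Fin d → MvPolynomial (Fin 2 ⊕ Fin d) ℂ := fun s =>
    ∑ t, C (U s t : ℂ) * ∑ j, C (N.cinv t j) * MvPolynomial.X (Sum.inr j)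
  let Ψ : MvPolynomial (Fin 2 ⊕ Fin d) ℂ :=
    ∑ r, C (cf r) * (MvPolynomial.X (Sum.inl 0) ^ i r * ∏ s, Lf s ^ mm r s)
  have hLf : ∀ s, (Lf s).totalDegree ≤ 1 := by
    intro s
    refine totalDegree_finsetSum_le fun t _ => (totalDegree_mul _ _).trans ?_
    rw [totalDegree_C, zero_add]
    refine totalDegree_finsetSum_le fun j _ => (totalDegree_mul _ _).trans ?_
    rw [totalDegree_C, zero_add, totalDegree_X]
  have hΨd : Ψ.totalDegree ≤ a + E := by
    refine totalDegree_finsetSum_le fun r _ => (totalDegree_mul _ _).trans ?_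
    rw [totalDegree_C, zero_add]
    refine (totalDegree_mul _ _).trans (add_le_add ?_ ?_)
    · rw [totalDegree_X_pow]; exact (hi r).1
    · refine (totalDegree_finsetProd _ _).trans ?_
      rw [← (hi r).2]
      refine Finset.sum_le_sum fun s _ => (totalDegree_pow _ _).trans ?_
      simpa using Nat.mul_le_mul_left (mm r s) (hLf s)
  have hev : ∀ (Ω : Type) [CommRing Ω] [Algebra ℂ Ω] (x nn : Ω) (b : Fin d → Ω),
      aeval (gens x nn b) Ψ = ∑ r, cf r • (x ^ i r * ∏ s, N.coU U b s ^ mm r s) := by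
    intro Ω _ _ x nn b
    simp [Ψ, Lf, gens, NF.coU, NF.co, Algebra.smul_def]
  have hΨ0 : aeval (gens x nn b) Ψ ≠ 0 := by
    rw [hev]
    intro h0
    exact hcf (funext (Fintype.linearIndependent_iff.1 hind cf h0))
  obtain ⟨g, hg0, hgd, hg⟩ := hD1 N e1 e2 hL.e1ne Ω x nn b hsurf Ψ hΨd hΨ0
  have hl2 : ∀ n ∈ S, (l2 n : ℂ) ≠ 0 := fun n hn => by exact_mod_cast hL.l2_ne n hn
  have hl0 : ∀ n ∈ S, ∀ i, N.emb e1 i * ((l1 n : ℂ) / l2 n) + N.emb e2 i ≠ 0 := by
    intro n hn i h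
    have h1 : N.emb e1 i * (l1 n : ℂ) + N.emb e2 i * (l2 n : ℂ) = 0 := by
      have := hl2 n hn
      field_simp at h
      linear_combination h
    have h2 := hL.low n hn i
    rw [h1, norm_zero] at h2
    have h3 : (0 : ℝ) < |(l2 n : ℝ)| := abs_pos.2 (by exact_mod_cast hL.l2_ne n hn)
    have h4 : (0 : ℝ) < ‖e2‖ := norm_pos_iff.2 hL.e2ne
    have : 0 < c * (|(l2 n : ℝ)| * ‖e2‖) := by positivity
    linarith
  have hμ : (μ : ℂ) ≠ 0 := by exact_mod_cast hL.mu0
  have hκ : ∀ n : ℤ, ∃ z : ℂ, z ^ p = (l2 n : ℂ) ^ q / μ :=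
    fun n => IsAlgClosed.exists_pow_nat_eq _ hp
  choose κ hκ using hκ
  have hrel0 : ∀ n ∈ S, Rel N p q e1 e2 ((l1 n : ℂ) / l2 n) (n : ℂ)
      (fun i => κ n * N.emb (γ n) i) := by
    intro n hn i
    have h1 := hL.eq n hn i
    have h2 := hl2 n hn
    simp only [Algebra.algebraMap_self, RingHom.id_apply]
    have h3 : N.emb e1 i * ((l1 n : ℂ) / l2 n) + N.emb e2 i =
        (N.emb e1 i * (l1 n : ℂ) + N.emb e2 i * (l2 n : ℂ)) / l2 n := by
      field_simp
    rw [mul_pow, hκ n, h3, div_pow]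
    have h4 : (l2 n : ℂ) ^ q ≠ 0 := pow_ne_zero _ h2
    field_simp
    linear_combination h1
  have hco : ∀ (n : ℤ) (s : Fin d), N.coU U (fun i => κ n * N.emb (γ n) i) s =
      κ n * ((U.mulVec (γ n)) s : ℤ) := by
    intro n s
    have h1 : ∀ t, N.co (fun i => κ n * N.emb (γ n) i) t = κ n * (γ n t : ℂ) := by
      intro t
      rw [← N.co_emb (γ n) t]
      simp only [NF.co, Finset.mul_sum]
      exact Finset.sum_congr rfl fun j _ => by ring
    simp only [NF.coU, h1, Matrix.mulVec, dotProduct, Int.cast_sum, Int.cast_mul, Finset.mul_sum]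
    exact Finset.sum_congr rfl fun j _ => by ring
  have hzero : ∀ n ∈ S, eval ![(l1 n : ℂ) / l2 n, (n : ℂ)] g = 0 := by
    intro n hn
    refine hg _ _ _ (hrel0 n hn) (hl0 n hn) ?_
    rw [← aeval_eq_eval, hev]
    have h2 := hl2 n hn
    have h3 : ∑ r, cf r • (((l1 n : ℂ) / l2 n) ^ i r *
        ∏ s, N.coU U (fun i => κ n * N.emb (γ n) i) s ^ mm r s) =
        κ n ^ E / (l2 n : ℂ) ^ a * ∑ r, cf r * (rowv U l1 l2 γ a (i r) (mm r) n : ℂ) := by
      rw [Finset.mul_sum]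
      refine Finset.sum_congr rfl fun r _ => ?_
      simp only [hco, mul_pow, Finset.prod_mul_distrib, Finset.prod_pow_eq_pow_sum, (hi r).2, rowv,
        smul_eq_mul, Int.cast_mul, Int.cast_pow, Int.cast_prod, div_pow]
      have h4 : (l2 n : ℂ) ^ a = (l2 n : ℂ) ^ i r * (l2 n : ℂ) ^ (a - i r) := by
        rw [← pow_add, Nat.add_sub_cancel' (hi r).1]
      rw [h4]
      field_simp
    rw [h3, hrel n hn, mul_zero]
  have := hC0 N c X s1 s2 μ e1 e2 S l1 l2 γ hc hL g hg0 hgd hzero B hB hT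
  push_cast
  exact this

end Crest.Agent.R22
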