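import Crest.Agent.R22.Zero
import Crest.Agent.R22.Ker

namespace Crest.Agent.R22

open MvPolynomial

theorem rel1_pow {K : Type} [CommRing K] {R i : ℕ} (hi : i ≤ R) {a b c d : K} (h : a * d = b * c) :
    a ^ i * b ^ (R - i) * d ^ R = b ^ R * (c ^ i * d ^ (R - i)) := by
  obtain ⟨k, rfl⟩ := Nat.exists_eq_add_of_le hi
  rw [Nat.add_sub_cancel_left, pow_add, pow_add]
  calc a ^ i * b ^ k * (d ^ i * d ^ k) = (a * d) ^ i * (b ^ k * d ^ k) := by rw [mul_pow]; ring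
    _ = _ := by rw [h, mul_pow]; ring

theorem rel1_key {K : Type} [CommRing K] (R : ℕ) {a1 b1 c1 d1 a2 b2 c2 d2 : K}
    (h1 : a1 * d1 = b1 * c1) (h2 : a2 * d2 = b2 * c2) (φ : ℕ → ℕ → K) :
    (∑ i ∈ Finset.range (R + 1), ∑ j ∈ Finset.range (R + 1),
        φ i j * a1 ^ i * b1 ^ (R - i) * a2 ^ j * b2 ^ (R - j)) * (d1 ^ R * d2 ^ R) =
      b1 ^ R * b2 ^ R * ∑ i ∈ Finset.range (R + 1), ∑ j ∈ Finset.range (R + 1),
        φ i j * c1 ^ i * d1 ^ (R - i) * c2 ^ j * d2 ^ (R - j) := by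
  rw [Finset.sum_mul, Finset.mul_sum]
  refine Finset.sum_congr rfl fun i hi => ?_
  rw [Finset.sum_mul, Finset.mul_sum]
  refine Finset.sum_congr rfl fun j hj => ?_
  have e1 := rel1_pow (Nat.lt_succ_iff.1 (Finset.mem_range.1 hi)) h1
  have e2 := rel1_pow (Nat.lt_succ_iff.1 (Finset.mem_range.1 hj)) h2
  calc _ = φ i j * (a1 ^ i * b1 ^ (R - i) * d1 ^ R) * (a2 ^ j * b2 ^ (R - j) * d2 ^ R) := by ring
    _ = _ := by rw [e1, e2]; ring

/-- The homogenised polynomial of an array. -/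
noncomputable def rel1Poly {ι : Type} (R : ℕ) (f1 g1 f2 g2 : MvPolynomial ι ℂ) (φ : ℕ → ℕ → ℂ) :
    MvPolynomial ι ℂ :=
  ∑ i ∈ Finset.range (R + 1), ∑ j ∈ Finset.range (R + 1),
    C (φ i j) * f1 ^ i * g1 ^ (R - i) * f2 ^ j * g2 ^ (R - j)

theorem rel1Poly_deg {ι : Type} (R D : ℕ) {f1 g1 f2 g2 : MvPolynomial ι ℂ}
    (hf1 : f1.totalDegree ≤ D) (hg1 : g1.totalDegree ≤ D) (hf2 : f2.totalDegree ≤ D)
    (hg2 : g2.totalDegree ≤ D) (φ : ℕ → ℕ → ℂ) :
    (rel1Poly R f1 g1 f2 g2 φ).totalDegree ≤ 2 * D * R := by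
  have hp : ∀ (f : MvPolynomial ι ℂ) (k : ℕ), f.totalDegree ≤ D → (f ^ k).totalDegree ≤ k * D :=
    fun f k hf => (totalDegree_pow f k).trans (Nat.mul_le_mul_left k hf)
  refine totalDegree_finsetSum_le fun i hi => totalDegree_finsetSum_le fun j hj => ?_
  have hi' := Nat.lt_succ_iff.1 (Finset.mem_range.1 hi)
  have hj' := Nat.lt_succ_iff.1 (Finset.mem_range.1 hj)
  have e1 := totalDegree_mul (C (φ i j) * f1 ^ i * g1 ^ (R - i) * f2 ^ j) (g2 ^ (R - j))
  have e2 := totalDegree_mul (C (φ i j) * f1 ^ i * g1 ^ (R - i)) (f2 ^ j)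
  have e3 := totalDegree_mul (C (φ i j) * f1 ^ i) (g1 ^ (R - i))
  have e4 := totalDegree_mul (C (φ i j) : MvPolynomial ι ℂ) (f1 ^ i)
  rw [totalDegree_C] at e4
  have a1 := hp f1 i hf1
  have a2 := hp g1 (R - i) hg1
  have a3 := hp f2 j hf2
  have a4 := hp g2 (R - j) hg2
  have b1 : i * D + (R - i) * D = R * D := by rw [← add_mul]; congr 1; omega
  have b2 : j * D + (R - j) * D = R * D := by rw [← add_mul]; congr 1; omega
  have b3 : 2 * D * R = R * D + R * D := by ring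
  omega

/-- An integer relation between `x = f1 / g1` (transcendental) and `y = f2 / g2`, smooth in `y` at all
but boundedly many points.  Let `R = 2 C0 D + C0`.  By `VG.exists_rel` there is a nonzero complex
relation in the box `i, j ≤ R`; let `e` be the least number such that there is one with `j ≤ e`
(`e ≥ 1` as `x` is transcendental).  By (V), applied to `∑ ψ i j f1^i g1^(R-i) f2^j g2^(R-j)`, it holds at the
points, so its coefficients solve an integer system with entries `≤ Y^(2R)`; `exists_int_ker` on the index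
set `Fin (R+1) × Fin (e+1)` gives an integer `ψ`.  If `card S > C0 * 2 D R`, `VG.zero` shows that `ψ` is a
relation in `Ω`; its `T`-derivative is a nonzero array (else `ψ` is a relation for `x` alone) with
`j ≤ e - 1`, so not a relation, and `VG.zero` bounds its zeros.  If `card S` is small take `Ex = S`. -/
theorem exists_int_rel (C0 D : ℕ) : ∃ R Z : ℕ, ∀ {ι Ω : Type} [Fintype ι] [Field Ω] [Algebra ℂ Ω]
    (y : ι → Ω) (S : Finset ℤ) (v : ℤ → ι → ℂ), VG y S v C0 →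
    ∀ (f1 g1 f2 g2 : MvPolynomial ι ℂ), f1.totalDegree ≤ D → g1.totalDegree ≤ D →
    f2.totalDegree ≤ D → g2.totalDegree ≤ D → aeval y g1 ≠ 0 → aeval y g2 ≠ 0 →
    Transcendental ℂ (aeval y f1 / aeval y g1) →
    ∀ (Y : ℝ) (l1 l2 num den : ℤ → ℤ), 2 ≤ Y →
    (∀ n ∈ S, eval (v n) g1 ≠ 0 ∧ eval (v n) g2 ≠ 0 ∧ l2 n ≠ 0 ∧ den n ≠ 0 ∧
      eval (v n) f1 * l2 n = eval (v n) g1 * l1 n ∧ eval (v n) f2 * den n = eval (v n) g2 * num n ∧
      |(l1 n : ℝ)| ≤ Y ∧ |(l2 n : ℝ)| ≤ Y ∧ |(num n : ℝ)| ≤ Y ∧ |(den n : ℝ)| ≤ Y) →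
    ∃ (ψ : ℕ → ℕ → ℤ) (Ex : Finset ℤ), Ex.card ≤ Z ∧ (∀ i j, |(ψ i j : ℝ)| ≤ Y ^ Z) ∧
      ∀ n ∈ S, n ∉ Ex →
        ∑ i ∈ Finset.range (R + 1), ∑ j ∈ Finset.range (R + 1),
          ψ i j * l1 n ^ i * l2 n ^ (R - i) * num n ^ j * den n ^ (R - j) = 0 ∧
        ∑ i ∈ Finset.range (R + 1), ∑ j ∈ Finset.range (R + 1),
          j * ψ i j * l1 n ^ i * l2 n ^ (R - i) * num n ^ (j - 1) * den n ^ (R - j) ≠ 0 := by
  classical
  set R := 2 * C0 * D + C0 with hR
  refine ⟨R, C0 * (2 * D * R) + ((R + 1) * (R + 1) + 2 * R) * ((R + 1) * (R + 1)), ?_⟩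
  intro ι Ω _ _ _ y S v hVG f1 g1 f2 g2 hf1 hg1 hf2 hg2 h1 h2 htr Y l1 l2 num den hY hS
  have hY1 : (1 : ℝ) ≤ Y := by linarith
  set x := aeval y f1 / aeval y g1 with hx
  set z := aeval y f2 / aeval y g2 with hz
  let rel : (ℕ → ℕ → ℂ) → Ω := fun φ => ∑ i ∈ Finset.range (R + 1), ∑ j ∈ Finset.range (R + 1),
    algebraMap ℂ Ω (φ i j) * x ^ i * z ^ j
  let pt : (ℕ → ℕ → ℂ) → ℤ → ℂ := fun φ n =>
    ∑ i ∈ Finset.range (R + 1), ∑ j ∈ Finset.range (R + 1),
      φ i j * (l1 n : ℂ) ^ i * (l2 n : ℂ) ^ (R - i) * (num n : ℂ) ^ j * (den n : ℂ) ^ (R - j)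
  have hrel : ∀ φ, aeval y (rel1Poly R f1 g1 f2 g2 φ) = 0 ↔ rel φ = 0 := by
    intro φ
    have e1 : aeval y f1 * 1 = aeval y g1 * x := by rw [hx]; field_simp
    have e2 : aeval y f2 * 1 = aeval y g2 * z := by rw [hz]; field_simp
    have key := rel1_key R e1 e2 (fun i j => algebraMap ℂ Ω (φ i j))
    simp only [one_pow, mul_one] at key
    have e3 : aeval y (rel1Poly R f1 g1 f2 g2 φ) = aeval y g1 ^ R * aeval y g2 ^ R * rel φ := by
      rw [← key]
      simp only [rel1Poly, map_sum, map_mul, map_pow, aeval_C]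
    rw [e3, mul_eq_zero, or_iff_right (mul_ne_zero (pow_ne_zero _ h1) (pow_ne_zero _ h2))]
  have hpt : ∀ φ, ∀ n ∈ S, eval (v n) (rel1Poly R f1 g1 f2 g2 φ) = 0 ↔ pt φ n = 0 := by
    intro φ n hn
    obtain ⟨a1, a2, a3, a4, a5, a6, -⟩ := hS n hn
    have key := rel1_key R a5 a6 φ
    have e3 : eval (v n) (rel1Poly R f1 g1 f2 g2 φ) * ((l2 n : ℂ) ^ R * (den n : ℂ) ^ R) =
        eval (v n) g1 ^ R * eval (v n) g2 ^ R * pt φ n := by
      rw [← key]
      simp only [rel1Poly, map_sum, map_mul, map_pow, eval_C]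
    have b1 : ((l2 n : ℂ) ^ R * (den n : ℂ) ^ R) ≠ 0 :=
      mul_ne_zero (pow_ne_zero _ (by exact_mod_cast a3)) (pow_ne_zero _ (by exact_mod_cast a4))
    have b2 : eval (v n) g1 ^ R * eval (v n) g2 ^ R ≠ 0 :=
      mul_ne_zero (pow_ne_zero _ a1) (pow_ne_zero _ a2)
    constructor
    · intro h
      rw [h, zero_mul] at e3
      exact (mul_eq_zero.1 e3.symm).resolve_left b2
    · intro h
      rw [h, mul_zero] at e3
      exact (mul_eq_zero.1 e3).resolve_right b1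
  have hA : ∀ φ, rel φ = 0 → ∀ n ∈ S, pt φ n = 0 := fun φ h n hn =>
    (hpt φ n hn).1 (hVG.V _ ((hrel φ).2 h) n hn)
  have hB : ∀ φ, rel φ ≠ 0 → ∀ T ⊆ S, (∀ n ∈ T, pt φ n = 0) → T.card ≤ C0 * (2 * D * R) :=
    fun φ h T hT hz => hVG.zero _ _ (rel1Poly_deg R D hf1 hg1 hf2 hg2 φ)
      (fun h' => h ((hrel φ).1 h')) T hT fun n hn => (hpt φ n (hT hn)).2 (hz n hn)
  by_cases hcard : S.card ≤ C0 * (2 * D * R)
  · refine ⟨fun _ _ => 0, S, by omega, fun i j => ?_, fun n hn hn' => absurd hn hn'⟩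
    simp only [Int.cast_zero, abs_zero]; positivity
  let Q : ℕ → Prop := fun e => ∃ φ : ℕ → ℕ → ℂ, (∃ i ≤ R, ∃ j ≤ R, φ i j ≠ 0) ∧
    (∀ i j, e ≤ j → j ≤ R → φ i j = 0) ∧ rel φ = 0
  have hQ : ∃ e, Q e := by
    obtain ⟨φ, hφ1, hφ2⟩ := hVG.exists_rel f1 g1 f2 g2 D hf1 hg1 hf2 hg2 h1 h2
    exact ⟨R + 1, φ, hφ1, fun i j h h' => by omega, hφ2⟩
  set e := Nat.find hQ with he
  obtain ⟨φ, ⟨i0, hi0, j0, hj0, hφ0⟩, hφe, hφr⟩ : Q e := Nat.find_spec hQ
  -- the integer system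
  let A : ℤ ⊕ (Fin (R + 1) × Fin (R + 1)) → Fin (R + 1) × Fin (R + 1) → ℤ :=
    Sum.elim (fun n p => l1 n ^ (p.1 : ℕ) * l2 n ^ (R - p.1) * num n ^ (p.2 : ℕ) * den n ^ (R - p.2))
      (fun q p => if p = q then 1 else 0)
  let S' : Finset (ℤ ⊕ (Fin (R + 1) × Fin (R + 1))) :=
    S.disjSum (Finset.univ.filter fun q => e ≤ (q.2 : ℕ))
  have hYR : (1 : ℝ) ≤ Y ^ (2 * R) := one_le_pow₀ hY1
  have hsum : ∀ {M : Type} [AddCommMonoid M] (F : ℕ → ℕ → M),
      ∑ p : Fin (R + 1) × Fin (R + 1), F p.1 p.2 =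
        ∑ i ∈ Finset.range (R + 1), ∑ j ∈ Finset.range (R + 1), F i j := by
    intro M _ F
    rw [Fintype.sum_prod_type, ← Fin.sum_univ_eq_sum_range (fun i => ∑ j ∈ Finset.range (R + 1), F i j)]
    exact Finset.sum_congr rfl fun i _ => Fin.sum_univ_eq_sum_range (fun j => F i j) (R + 1)
  obtain ⟨t, ht0, hts, htb⟩ := exists_int_ker S' A (Y ^ (2 * R)) hYR (by
      intro P hP p
      rcases P with n | q
      · have hn : n ∈ S := Finset.inl_mem_disjSum.1 hP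
        obtain ⟨-, -, -, -, -, -, b1, b2, b3, b4⟩ := hS n hn
        simp only [A, Sum.elim_inl]
        push_cast
        rw [abs_mul, abs_mul, abs_mul, abs_pow, abs_pow, abs_pow, abs_pow]
        have hp1 : (p.1 : ℕ) ≤ R := Nat.lt_succ_iff.1 p.1.2
        have hp2 : (p.2 : ℕ) ≤ R := Nat.lt_succ_iff.1 p.2.2
        have e1 : 2 * R = (p.1 : ℕ) + (R - p.1) + (p.2 : ℕ) + (R - p.2) := by omega
        rw [e1, pow_add, pow_add, pow_add]
        gcongr
      · simp only [A, Sum.elim_inr]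
        split_ifs
        · simpa using hYR
        · simp only [Int.cast_zero, abs_zero]; positivity)
    (fun p => φ p.1 p.2) (by
      intro h
      exact hφ0 (congrFun h (⟨i0, Nat.lt_succ_of_le hi0⟩, ⟨j0, Nat.lt_succ_of_le hj0⟩))) (by
      intro P hP
      rcases P with n | q
      · have hn : n ∈ S := Finset.inl_mem_disjSum.1 hP
        have h3 := hA φ hφr n hn
        simp only [pt] at h3
        rw [← hsum (fun i j => φ i j * (l1 n : ℂ) ^ i * (l2 n : ℂ) ^ (R - i) * (num n : ℂ) ^ j *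
          (den n : ℂ) ^ (R - j))] at h3
        rw [← h3]
        refine Finset.sum_congr rfl fun p _ => ?_
        simp only [A, Sum.elim_inl]
        push_cast; ring
      · have hq : e ≤ (q.2 : ℕ) := (Finset.mem_filter.1 (Finset.inr_mem_disjSum.1 hP)).2
        simp only [A, Sum.elim_inr]
        rw [Finset.sum_eq_single q (fun b _ hb => by simp [hb]) (by simp)]
        rw [hφe _ _ hq (Nat.lt_succ_iff.1 q.2.2), mul_zero])
  let ψ : ℕ → ℕ → ℤ := fun i j =>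
    if h : i < R + 1 ∧ j < R + 1 then t (⟨i, h.1⟩, ⟨j, h.2⟩) else 0
  have hψt : ∀ p : Fin (R + 1) × Fin (R + 1), ψ p.1 p.2 = t p := fun p => by
    simp only [ψ]; rw [dif_pos ⟨p.1.2, p.2.2⟩]
  have hψe : ∀ i j, e ≤ j → ψ i j = 0 := by
    intro i j hj
    simp only [ψ]
    split_ifs with h
    · have h3 := hts (Sum.inr (⟨i, h.1⟩, ⟨j, h.2⟩))
        (Finset.inr_mem_disjSum.2 (Finset.mem_filter.2 ⟨Finset.mem_univ _, hj⟩))
      simp only [A, Sum.elim_inr] at h3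
      rw [Finset.sum_eq_single (⟨i, h.1⟩, ⟨j, h.2⟩) (fun b _ hb => by simp [hb]) (by simp)] at h3
      simpa using h3
    · rfl
  have hψR : ∀ i, ψ i (R + 1) = 0 := fun i => by
    simp only [ψ]; rw [dif_neg (by omega)]
  have hψS : ∀ n ∈ S, ∑ i ∈ Finset.range (R + 1), ∑ j ∈ Finset.range (R + 1),
      ψ i j * l1 n ^ i * l2 n ^ (R - i) * num n ^ j * den n ^ (R - j) = 0 := by
    intro n hn
    have h3 := hts (Sum.inl n) (Finset.inl_mem_disjSum.2 hn)
    rw [← hsum (fun i j => ψ i j * l1 n ^ i * l2 n ^ (R - i) * num n ^ j * den n ^ (R - j)), ← h3]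
    refine Finset.sum_congr rfl fun p _ => ?_
    simp only [A, Sum.elim_inl]
    rw [hψt]; ring
  have hψrel : rel (fun i j => (ψ i j : ℂ)) = 0 := by
    by_contra h
    refine hcard (hB _ h S subset_rfl fun n hn => ?_)
    have h3 := congrArg (Int.cast : ℤ → ℂ) (hψS n hn)
    push_cast at h3
    exact h3
  let φ' : ℕ → ℕ → ℂ := fun i j => ((j : ℂ) + 1) * (ψ i (j + 1) : ℂ)
  have hφ'ne : ∃ i ≤ R, ∃ j ≤ R, φ' i j ≠ 0 := by
    by_contra hcon
    push Not at hcon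
    have hz1 : ∀ i ≤ R, ∀ j ≤ R, ψ i (j + 1) = 0 := by
      intro i hi j hj
      have h3 := hcon i hi j hj
      simp only [φ'] at h3
      have h4 : ((j : ℂ) + 1) ≠ 0 := by exact_mod_cast Nat.succ_ne_zero j
      exact_mod_cast (mul_eq_zero.1 h3).resolve_left h4
    have hp : Polynomial.aeval x
        (∑ i ∈ Finset.range (R + 1), Polynomial.monomial i (ψ i 0 : ℂ)) = 0 := by
      rw [← hψrel, map_sum]
      refine Finset.sum_congr rfl fun i hi => ?_
      have hi' := Nat.lt_succ_iff.1 (Finset.mem_range.1 hi)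
      rw [Polynomial.aeval_monomial, Finset.sum_range_succ', pow_zero, mul_one,
        Finset.sum_eq_zero, zero_add]
      intro j hj
      simp [hz1 i hi' j (Finset.mem_range.1 hj).le]
    have hp0 := (transcendental_iff.1 htr) _ hp
    apply ht0
    funext p
    rw [← hψt p]
    obtain ⟨i, j⟩ := p
    have hi' : (i : ℕ) ≤ R := Nat.lt_succ_iff.1 i.2
    rcases Nat.eq_zero_or_pos (j : ℕ) with hj | hj
    · have h3 := congrArg (fun P : Polynomial ℂ => P.coeff i) hp0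
      simp only [Polynomial.finsetSum_coeff, Polynomial.coeff_monomial, Polynomial.coeff_zero] at h3
      rw [Finset.sum_eq_single (i : ℕ) (fun b _ hb => if_neg hb)
        (fun h => absurd (Finset.mem_range.2 i.2) h), if_pos rfl] at h3
      simp only [hj, Pi.zero_apply]
      exact_mod_cast h3
    · have h3 := hz1 i hi' (j - 1) (by have := j.2; omega)
      rw [Nat.sub_add_cancel hj] at h3
      exact h3
  have hφ'rel : rel φ' ≠ 0 := by
    intro h
    have he0 : 0 < e := by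
      rcases Nat.eq_zero_or_pos e with h0 | h0
      · exact absurd (hφe i0 j0 (by omega) hj0) hφ0
      · exact h0
    refine Nat.find_min hQ (m := e - 1) (by omega) ⟨φ', hφ'ne, fun i j hj _ => ?_, h⟩
    simp only [φ']
    rw [hψe i (j + 1) (by omega)]
    simp
  refine ⟨ψ, S.filter fun n => pt φ' n = 0, ?_, ?_, fun n hn hn' => ⟨hψS n hn, fun hW => hn' ?_⟩⟩
  · have := hB φ' hφ'rel _ (Finset.filter_subset (fun n => pt φ' n = 0) S)
      fun n hn => (Finset.mem_filter.1 hn).2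
    omega
  · intro i j
    simp only [ψ]
    split_ifs with h
    · refine (htb _).trans ?_
      rw [Fintype.card_prod, Fintype.card_fin]
      set M := (R + 1) * (R + 1) with hM
      have b1 : (M : ℝ) ≤ Y ^ M := by
        have : (M : ℝ) ≤ 2 ^ M := by exact_mod_cast (Nat.lt_two_pow_self (n := M)).le
        exact this.trans (pow_le_pow_left₀ (by norm_num) hY M)
      calc ((M : ℝ) * Y ^ (2 * R)) ^ M ≤ (Y ^ M * Y ^ (2 * R)) ^ M := by gcongr
        _ = Y ^ ((M + 2 * R) * M) := by rw [← pow_add, ← pow_mul]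
        _ ≤ _ := pow_le_pow_right₀ hY1 (by omega)
    · simp only [Int.cast_zero, abs_zero]; positivity
  · refine Finset.mem_filter.2 ⟨hn, ?_⟩
    have h3 := congrArg (fun w : ℤ => ((w * den n : ℤ) : ℂ)) hW
    simp only [zero_mul, Int.cast_zero] at h3
    rw [← h3]
    push_cast
    simp only [pt]
    rw [Finset.sum_mul]
    refine Finset.sum_congr rfl fun i _ => ?_
    rw [Finset.sum_range_succ, Finset.sum_range_succ']
    simp only [φ', hψR, Int.cast_zero, mul_zero, zero_mul, add_zero, Nat.cast_zero]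
    rw [Finset.sum_mul]
    refine Finset.sum_congr rfl fun k hk => ?_
    have hk' : R - k = R - (k + 1) + 1 := by have := Finset.mem_range.1 hk; omega
    rw [hk', Nat.add_sub_cancel, pow_succ]
    push_cast; ring

end Crest.Agent.R22
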