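import Crest.Agent.R22.Zero
import Crest.Agent.R22.Ker

namespace Crest.Agent.R22

open MvPolynomial

private theorem rel2_dvd {R : Type} [CommRing R] [IsDomain R] {A B : R} (hAB : IsCoprime A B)
    (hB : B ≠ 0) (p : ℕ → R) (n : ℕ)
    (h : ∑ j ∈ Finset.range (n + 1), p j * A ^ j * B ^ (n - j) = 0) (h0 : ∃ j ≤ n, p j ≠ 0) :
    ∃ j ≤ n, p j ≠ 0 ∧ B ∣ p j := by
  induction n with
  | zero =>
    obtain ⟨j, hj, h1⟩ := h0
    obtain rfl : j = 0 := by omega
    exact absurd (by simpa using h) h1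
  | succ n ih =>
    have e : ∑ j ∈ Finset.range (n + 1), p j * A ^ j * B ^ (n + 1 - j) =
        B * ∑ j ∈ Finset.range (n + 1), p j * A ^ j * B ^ (n - j) := by
      rw [Finset.mul_sum]
      refine Finset.sum_congr rfl fun j hj => ?_
      rw [show n + 1 - j = n - j + 1 by have := Finset.mem_range.1 hj; omega]
      ring
    rw [Finset.sum_range_succ, e, Nat.sub_self, pow_zero, mul_one] at h
    by_cases hp : p (n + 1) = 0
    · rw [hp, zero_mul, add_zero] at h
      obtain ⟨j, hj, h1⟩ := h0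
      have hj' : j ≤ n := by
        rcases Nat.lt_or_eq_of_le hj with h2 | rfl
        · omega
        · exact absurd hp h1
      obtain ⟨j, hj, h2⟩ := ih ((mul_eq_zero.1 h).resolve_left hB) ⟨j, hj', h1⟩
      exact ⟨j, by omega, h2⟩
    · refine ⟨n + 1, le_rfl, hp, (hAB.symm.pow_right (n := n + 1)).dvd_of_dvd_mul_right ?_⟩
      rw [eq_neg_of_add_eq_zero_right h]
      exact (dvd_mul_right _ _).neg_right

private theorem rel2_deg {R : ℕ} (c : ℕ → ℂ) :
    (∑ i ∈ Finset.range (R + 1), Polynomial.C (c i) * Polynomial.X ^ i).natDegree ≤ R :=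
  Polynomial.natDegree_sum_le_of_forall_le _ _ fun i hi =>
    (Polynomial.natDegree_C_mul_X_pow_le _ _).trans (Nat.lt_succ_iff.1 (Finset.mem_range.1 hi))

private theorem rel2_coeff {R : ℕ} (c : ℕ → ℂ) {i : ℕ} (hi : i ≤ R) :
    (∑ i ∈ Finset.range (R + 1), Polynomial.C (c i) * Polynomial.X ^ i).coeff i = c i := by
  simp [Polynomial.finsetSum_coeff, Polynomial.coeff_C_mul, Polynomial.coeff_X_pow,
    Nat.lt_succ_iff, hi]

/-- An element of `ℂ(τ)` that satisfies a relation with `τ` in the box `i, j ≤ R` is a quotient of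
polynomials of degree `≤ R`: write `t = A(τ) / B(τ)` with coprime `A, B`; the primitive polynomial
`B T - A` divides the relation in `ℂ[X][T]` (Gauss), or directly: `∑_j ψ_j A^j B^(e-j) = 0` with `ψ_e ≠ 0`
gives `B ∣ ψ_e`, and with `ψ_j0` the lowest nonzero coefficient `A ∣ ψ_j0` (if `A ≠ 0`). -/
theorem exists_bounded_repr {Ω : Type} [Field Ω] [Algebra ℂ Ω] (τ t : Ω)
    (hτ : Transcendental ℂ τ) (ht : t ∈ IntermediateField.adjoin ℂ {τ}) (R : ℕ) (ψ : ℕ → ℕ → ℂ)
    (hψ : ∃ i ≤ R, ∃ j ≤ R, ψ i j ≠ 0)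
    (h : ∑ i ∈ Finset.range (R + 1), ∑ j ∈ Finset.range (R + 1),
      algebraMap ℂ Ω (ψ i j) * τ ^ i * t ^ j = 0) :
    ∃ A B : Polynomial ℂ, A.natDegree ≤ R ∧ B.natDegree ≤ R ∧ B ≠ 0 ∧
      t * Polynomial.aeval τ B = Polynomial.aeval τ A := by
  classical
  by_cases ht0 : t = 0
  · exact ⟨0, 1, by simp, by simp, one_ne_zero, by simp [ht0]⟩
  have hinj : Function.Injective (Polynomial.aeval τ : Polynomial ℂ →ₐ[ℂ] Ω) :=
    transcendental_iff_injective.1 hτ
  obtain ⟨r, s, hrs⟩ := (IntermediateField.mem_adjoin_simple_iff ℂ t).1 ht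
  obtain ⟨A, B, hA, hB, hu⟩ := extract_gcd r s
  have hAB : IsCoprime A B := (gcd_isUnit_iff A B).1 hu
  have hs : Polynomial.aeval τ s ≠ 0 := fun h0 => ht0 (by rw [hrs, h0, div_zero])
  have h1 : t * Polynomial.aeval τ B = Polynomial.aeval τ A := by
    generalize gcd r s = g at hA hB
    rw [hB, map_mul] at hs
    rw [hrs, hA, hB, map_mul, map_mul, mul_div_mul_left _ _ (left_ne_zero_of_mul hs),
      div_mul_cancel₀ _ (right_ne_zero_of_mul hs)]
  have hB0 : B ≠ 0 := fun h0 => hs (by rw [hB, h0, mul_zero, map_zero])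
  have hA0 : A ≠ 0 := fun h0 => by
    rw [h0, map_zero] at h1
    exact mul_ne_zero ht0 ((map_ne_zero_iff _ hinj).2 hB0) h1
  set p : ℕ → Polynomial ℂ := fun j =>
    ∑ i ∈ Finset.range (R + 1), Polynomial.C (ψ i j) * Polynomial.X ^ i with hp
  have hp0 : ∃ j ≤ R, p j ≠ 0 := by
    obtain ⟨i, hi, j, hj, h2⟩ := hψ
    refine ⟨j, hj, fun h3 => h2 ?_⟩
    rw [← rel2_coeff (fun i => ψ i j) hi]
    exact (congrArg (fun q => Polynomial.coeff q i) h3).trans (Polynomial.coeff_zero i)
  have h2 : ∑ j ∈ Finset.range (R + 1), p j * A ^ j * B ^ (R - j) = 0 := by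
    refine hinj ?_
    rw [map_zero, ← mul_zero (Polynomial.aeval τ B ^ R), ← h, Finset.sum_comm, map_sum,
      Finset.mul_sum]
    refine Finset.sum_congr rfl fun j hj => ?_
    have e : Polynomial.aeval τ B ^ R = Polynomial.aeval τ B ^ j * Polynomial.aeval τ B ^ (R - j) := by
      rw [← pow_add, Nat.add_sub_cancel' (Nat.lt_succ_iff.1 (Finset.mem_range.1 hj))]
    simp only [hp, map_mul, map_pow, map_sum, Polynomial.aeval_C, Polynomial.aeval_X]
    rw [← Finset.sum_mul, e, ← h1]
    ring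
  obtain ⟨j, -, h3, h4⟩ := rel2_dvd hAB hB0 p R h2 hp0
  obtain ⟨j', -, h5, h6⟩ := rel2_dvd hAB.symm hA0 (fun j => p (R - j)) R (by
    rw [← h2, ← Finset.sum_range_reflect]
    refine Finset.sum_congr rfl fun j hj => ?_
    have := Finset.mem_range.1 hj
    rw [show R + 1 - 1 - j = R - j by omega, show R - (R - j) = j by omega]
    ring) (by
    obtain ⟨j, hj, h5⟩ := hp0
    exact ⟨R - j, by omega, by rwa [show R - (R - j) = j by omega]⟩)
  exact ⟨A, B, (Polynomial.natDegree_le_of_dvd h6 h5).trans (rel2_deg _),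
    (Polynomial.natDegree_le_of_dvd h4 h3).trans (rel2_deg _), hB0, h1⟩

/-- Bezout with bounded degrees. -/
private theorem rel2_bezout {d D : ℕ} (A : Fin d → Polynomial ℂ) (hA : ∀ s, (A s).natDegree ≤ D)
    (s1 : Fin d) (h1 : (A s1).coeff D ≠ 0) (hz : ∀ z, ∃ s, (A s).eval z ≠ 0) (W : Polynomial ℂ)
    (hW : W.natDegree ≤ 2 * D) :
    ∃ c : Fin d → Polynomial ℂ, (∀ s, (c s).natDegree ≤ D) ∧ ∑ s, c s * A s = W := by
  classical
  have hA1 : A s1 ≠ 0 := fun h => h1 (by rw [h, Polynomial.coeff_zero])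
  have hd1 : (A s1).natDegree = D := le_antisymm (hA s1) (Polynomial.le_natDegree_of_ne_zero h1)
  obtain ⟨g, hg⟩ := (IsPrincipalIdealRing.principal (Ideal.span (Set.range A))).principal
  have hgd : ∀ s, g ∣ A s := fun s => Ideal.mem_span_singleton.1 (by
    have : A s ∈ Ideal.span (Set.range A) := Ideal.subset_span ⟨s, rfl⟩
    rwa [hg] at this)
  have hu : IsUnit g := by
    by_contra hu
    have hg0 : g ≠ 0 := fun h => hA1 (zero_dvd_iff.1 (h ▸ hgd s1))
    obtain ⟨z, hz'⟩ := Complex.exists_root (Polynomial.degree_pos_of_ne_zero_of_nonunit hg0 hu)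
    obtain ⟨s, hs⟩ := hz z
    exact hs (hz'.dvd (hgd s))
  obtain ⟨c, hc⟩ := Ideal.mem_span_range_iff_exists_fun.1
    (show W ∈ Ideal.span (Set.range A) by
      rw [hg]
      exact Ideal.mem_span_singleton.2 hu.dvd)
  have hm : ∀ s, (c s % A s1).natDegree ≤ D := fun s => by
    rw [← hd1]
    exact Polynomial.natDegree_le_natDegree (Polynomial.degree_mod_lt _ hA1).le
  have e : (∑ s, c s / A s1 * A s) * A s1 = W - ∑ s, c s % A s1 * A s := by
    rw [← hc, ← Finset.sum_sub_distrib, Finset.sum_mul]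
    refine Finset.sum_congr rfl fun s _ => ?_
    conv_rhs => rw [← sub_mul, EuclideanDomain.mod_eq_sub_mul_div]
    ring
  have hq : (∑ s, c s / A s1 * A s).natDegree ≤ D := by
    by_cases h0 : ∑ s, c s / A s1 * A s = 0
    · rw [h0, Polynomial.natDegree_zero]
      exact Nat.zero_le _
    · have h2 := Polynomial.natDegree_mul h0 hA1
      have h3 : (W - ∑ s, c s % A s1 * A s).natDegree ≤ 2 * D :=
        (Polynomial.natDegree_sub_le _ _).trans (max_le hW
          (Polynomial.natDegree_sum_le_of_forall_le _ _ fun s _ =>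
            Polynomial.natDegree_mul_le.trans (by have := hm s; have := hA s; omega)))
      rw [e, hd1] at h2
      omega
  refine ⟨fun s => c s % A s1 + if s = s1 then ∑ s, c s / A s1 * A s else 0, fun s => ?_, ?_⟩
  · refine (Polynomial.natDegree_add_le _ _).trans (max_le (hm s) ?_)
    split_ifs
    · exact hq
    · simp
  · simp only [add_mul, Finset.sum_add_distrib, ite_mul, zero_mul, Finset.sum_ite_eq',
      Finset.mem_univ, if_true]
    rw [e]
    ring

private theorem rel2_step {d D : ℕ} (a : Fin d → ℕ → ℤ) {Y : ℝ} (hY : 2 ≤ Y)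
    (ha : ∀ s j, |(a s j : ℝ)| ≤ Y) (h1 : ∃ s, a s D ≠ 0) (hz : ∀ z : ℂ, ∃ s, hom D (a s) z 1 ≠ 0)
    {k : ℕ} (hk : k ≤ 2 * D) :
    ∃ R : ℤ, R ≠ 0 ∧ |(R : ℝ)| ≤ Y ^ (((d * (D + 1) + 1) * (D + 1) + 1) * (d * (D + 1) + 1)) ∧
      ∀ t1 t2 κ : ℤ, (∀ s, κ ∣ hom D (a s) t1 t2) → κ ∣ R * (t1 ^ k * t2 ^ (2 * D - k)) := by
  obtain ⟨s1, h1⟩ := h1
  obtain ⟨c, hc, he⟩ := rel2_bezout (D := D) (fun s =>
      ∑ j ∈ Finset.range (D + 1), Polynomial.C (a s j : ℂ) * Polynomial.X ^ j)
    (fun s => rel2_deg _) s1 (by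
      rw [rel2_coeff (fun j => (a s1 j : ℂ)) le_rfl]
      exact_mod_cast h1) (fun z => by
      obtain ⟨s, hs⟩ := hz z
      refine ⟨s, ?_⟩
      simpa [hom, Polynomial.eval_finsetSum] using hs) (Polynomial.X ^ k) (by simpa using hk)
  have hD : (1 : ℝ) ≤ (D + 1 : ℕ) := by exact_mod_cast Nat.succ_pos D
  obtain ⟨t, ht0, ht, hb⟩ := exists_int_ker_coord (ι := Option (Fin d × Fin (D + 1)))
    (Finset.range (2 * D + 1))
    (fun P o => o.elim (if P = k then -1 else 0) fun u =>
      ∑ j ∈ Finset.range (D + 1), if P = u.2.val + j then a u.1 j else 0)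
    ((D + 1 : ℕ) * Y) (by nlinarith) (fun P _ o => by
      rcases o with _ | u
      · have : (1 : ℝ) ≤ (D + 1 : ℕ) * Y := by nlinarith
        simp only [Option.elim]
        split_ifs
        · simpa using this
        · simpa using zero_le_one.trans this
      · simp only [Option.elim]
        rw [Int.cast_sum]
        refine (Finset.abs_sum_le_sum_abs _ _).trans ((Finset.sum_le_card_nsmul _ _ Y
          fun j _ => ?_).trans (by simp))
        split_ifs
        · exact ha _ _
        · simpa using (by linarith : 0 ≤ Y))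
    (fun o => o.elim 1 fun u => (c u.1).coeff u.2.val) none one_ne_zero (fun P _ => by
      have h2 := congrArg (fun q => Polynomial.coeff q P) he
      have h3 : ∀ s, (c s * ∑ j ∈ Finset.range (D + 1),
          Polynomial.C (a s j : ℂ) * Polynomial.X ^ j).coeff P =
          ∑ i : Fin (D + 1), ((∑ j ∈ Finset.range (D + 1),
            if P = i.val + j then a s j else 0 : ℤ) : ℂ) * (c s).coeff i.val := fun s => by
        conv_lhs => rw [(c s).as_sum_range' (D + 1) (Nat.lt_succ_of_le (hc s)), Finset.sum_range,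
          Finset.sum_mul, Polynomial.finsetSum_coeff]
        refine Finset.sum_congr rfl fun i _ => ?_
        rw [Finset.mul_sum, Polynomial.finsetSum_coeff, Int.cast_sum, Finset.sum_mul]
        refine Finset.sum_congr rfl fun j _ => ?_
        rw [Polynomial.C_mul_X_pow_eq_monomial, Polynomial.monomial_mul_monomial,
          Polynomial.coeff_monomial]
        by_cases h : P = i.val + j
        · rw [if_pos h, if_pos h.symm, mul_comm]
        · rw [if_neg h, if_neg (Ne.symm h), Int.cast_zero, zero_mul]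
      simp only [Polynomial.finsetSum_coeff, h3, Polynomial.coeff_X_pow] at h2
      rw [Fintype.sum_option, Fintype.sum_prod_type]
      simp only [Option.elim]
      rw [h2]
      split_ifs <;> simp)
  refine ⟨t none, ht0, (hb none).trans ?_, fun t1 t2 κ hκ => ?_⟩
  · rw [Fintype.card_option, Fintype.card_prod, Fintype.card_fin, Fintype.card_fin, pow_mul]
    refine pow_le_pow_left₀ (by positivity) ?_ _
    rw [pow_succ, ← mul_assoc, ← Nat.cast_mul]
    refine mul_le_mul_of_nonneg_right ?_ (by linarith)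
    generalize (d * (D + 1) + 1) * (D + 1) = M
    refine le_trans ?_ (pow_le_pow_left₀ (by norm_num) hY M)
    exact_mod_cast Nat.lt_two_pow_self.le
  · have h2 : ∀ P ∈ Finset.range (2 * D + 1), ∑ s, ∑ i : Fin (D + 1),
        (∑ j ∈ Finset.range (D + 1), if P = i.val + j then a s j else 0) * t (some (s, i)) =
        if P = k then t none else 0 := fun P hP => by
      have h3 := ht P hP
      rw [Fintype.sum_option, Fintype.sum_prod_type] at h3
      simp only [Option.elim] at h3
      split_ifs at h3 ⊢ <;> linarith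
    have h3 : t none * (t1 ^ k * t2 ^ (2 * D - k)) = ∑ s,
        (∑ i : Fin (D + 1), t (some (s, i)) * t1 ^ i.val * t2 ^ (D - i.val)) * hom D (a s) t1 t2 := by
      calc _ = ∑ P ∈ Finset.range (2 * D + 1),
            (if P = k then t none else 0) * (t1 ^ P * t2 ^ (2 * D - P)) := by
            simp [Nat.lt_succ_iff, hk]
        _ = ∑ P ∈ Finset.range (2 * D + 1), ∑ s, ∑ i : Fin (D + 1), ∑ j ∈ Finset.range (D + 1),
            if P = i.val + j then a s j * t (some (s, i)) * (t1 ^ P * t2 ^ (2 * D - P)) else 0 := by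
            refine Finset.sum_congr rfl fun P hP => ?_
            rw [← h2 P hP]
            simp only [Finset.sum_mul, ite_mul, zero_mul]
        _ = _ := by
            rw [Finset.sum_comm]
            refine Finset.sum_congr rfl fun s _ => ?_
            rw [Finset.sum_comm, Finset.sum_mul]
            refine Finset.sum_congr rfl fun i _ => ?_
            rw [Finset.sum_comm, hom, Finset.mul_sum]
            refine Finset.sum_congr rfl fun j hj => ?_
            have hi := i.2
            have hj' := Finset.mem_range.1 hj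
            rw [Finset.sum_ite_eq', if_pos (Finset.mem_range.2 (by omega)),
              show 2 * D - (i.val + j) = (D - i.val) + (D - j) by omega, pow_add, pow_add,
              Int.cast_id]
            ring
    rw [h3]
    exact Finset.dvd_sum fun s _ => (hκ s).mul_left _

/-- Integer forms without common zero have bounded contents.  The polynomials `A s = ∑ a s j X^j` have no
common complex root, so `∑ C s * A s = 1` with `deg C s < D` (or `D = 0`): reduce the `C s` modulo an
`A s1` of degree exactly `D`.  `exists_int_ker_coord` (unknowns: the coefficients of the `C s` and `R1`;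
equations: coefficients of `∑ C s A s - R1`) gives integers with `R1 ≠ 0`, i.e. `κ ∣ R1 t2^(2D)` after
homogenising.  The same for the reversed polynomials (no common root either: a root `0` is excluded by
`htop`; one of them has degree exactly `D` because `0` is not a common root of the `A s`) gives
`κ ∣ R2 t1^(2D)`; `R = R1 R2`. -/
theorem exists_content_bound (d D : ℕ) : ∃ Z : ℕ, ∀ (a : Fin d → ℕ → ℤ) (Y : ℝ), 2 ≤ Y →
    (∀ s j, |(a s j : ℝ)| ≤ Y) → (∃ s, a s D ≠ 0) → (∀ z : ℂ, ∃ s, hom D (a s) z 1 ≠ 0) →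
    ∃ R : ℤ, R ≠ 0 ∧ |(R : ℝ)| ≤ Y ^ Z ∧ ∀ t1 t2 κ : ℤ, IsCoprime t1 t2 →
      (∀ s, κ ∣ hom D (a s) t1 t2) → κ ∣ R := by
  refine ⟨2 * (((d * (D + 1) + 1) * (D + 1) + 1) * (d * (D + 1) + 1)), fun a Y hY ha h1 hz => ?_⟩
  obtain ⟨R1, h2, h3, h4⟩ := rel2_step a hY ha h1 hz (Nat.zero_le _)
  obtain ⟨R2, h5, h6, h7⟩ := rel2_step a hY ha h1 hz le_rfl
  refine ⟨R1 * R2, mul_ne_zero h2 h5, ?_, fun t1 t2 κ hc hκ => ?_⟩
  · rw [Int.cast_mul, abs_mul, two_mul, pow_add]
    exact mul_le_mul h3 h6 (abs_nonneg _) ((abs_nonneg _).trans h3)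
  · obtain ⟨u, v, huv⟩ := hc.pow (m := 2 * D) (n := 2 * D)
    have h8 := h4 t1 t2 κ hκ
    have h9 := h7 t1 t2 κ hκ
    rw [pow_zero, one_mul, Nat.sub_zero] at h8
    rw [Nat.sub_self, pow_zero, mul_one] at h9
    have e : R1 * R2 = u * R1 * (R2 * t1 ^ (2 * D)) + v * R2 * (R1 * t2 ^ (2 * D)) := by
      linear_combination (-(R1 * R2)) * huv
    rw [e]
    exact (h9.mul_left _).add (h8.mul_left _)

end Crest.Agent.R22
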