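import Crest.Agent.R22.Zero
import Crest.Agent.R22.Ker
import Crest.Agent.R22.Rel2

namespace Crest.Agent.R22

open MvPolynomial

/-- The binary form with complex coefficients, evaluated at two polynomials. -/
noncomputable def homP {ι : Type} (m : ℕ) (c : ℕ → ℂ) (f g : MvPolynomial ι ℂ) : MvPolynomial ι ℂ :=
  ∑ j ∈ Finset.range (m + 1), C (c j) * f ^ j * g ^ (m - j)

theorem homP_deg {ι : Type} (m D : ℕ) (c : ℕ → ℂ) (f g : MvPolynomial ι ℂ)
    (hf : f.totalDegree ≤ D) (hg : g.totalDegree ≤ D) : (homP m c f g).totalDegree ≤ m * D := by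
  unfold homP
  refine (totalDegree_finsetSum _ _).trans (Finset.sup_le fun j hj => ?_)
  have hj' : j ≤ m := Nat.lt_succ_iff.1 (Finset.mem_range.1 hj)
  have h1 := totalDegree_mul (C (c j) * f ^ j) (g ^ (m - j))
  have h2 := totalDegree_mul (C (c j) : MvPolynomial ι ℂ) (f ^ j)
  have h3 := totalDegree_pow f j
  have h4 := totalDegree_pow g (m - j)
  have h5 : (C (c j) : MvPolynomial ι ℂ).totalDegree = 0 := totalDegree_C _
  have h6 : j * f.totalDegree ≤ j * D := Nat.mul_le_mul_left _ hf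
  have h7 : (m - j) * g.totalDegree ≤ (m - j) * D := Nat.mul_le_mul_left _ hg
  have h8 : j * D + (m - j) * D = m * D := by rw [← add_mul]; congr 1; omega
  omega

theorem homP_aeval {ι Ω : Type} [Field Ω] [Algebra ℂ Ω] (y : ι → Ω) (m : ℕ) (A : Polynomial ℂ)
    (hA : A.natDegree ≤ m) (f g : MvPolynomial ι ℂ) (hg : aeval y g ≠ 0) :
    aeval y (homP m A.coeff f g) = aeval y g ^ m * Polynomial.aeval (aeval y f / aeval y g) A := by
  unfold homP
  rw [Polynomial.aeval_eq_sum_range' (Nat.lt_succ_of_le hA), map_sum, Finset.mul_sum]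
  refine Finset.sum_congr rfl fun j hj => ?_
  have hj' : j ≤ m := Nat.lt_succ_iff.1 (Finset.mem_range.1 hj)
  obtain ⟨k, rfl⟩ := Nat.exists_eq_add_of_le hj'
  simp only [map_mul, map_pow, aeval_C, Nat.add_sub_cancel_left, Algebra.smul_def, div_pow, pow_add]
  field_simp

theorem homP_eval {ι : Type} (v : ι → ℂ) (m : ℕ) (c : ℕ → ℂ) (f g : MvPolynomial ι ℂ)
    (t1 t2 : ℂ) (h : eval v f * t2 = eval v g * t1) :
    eval v (homP m c f g) * t2 ^ m =
      eval v g ^ m * ∑ j ∈ Finset.range (m + 1), c j * t1 ^ j * t2 ^ (m - j) := by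
  unfold homP
  rw [map_sum, Finset.mul_sum, Finset.sum_mul]
  refine Finset.sum_congr rfl fun j hj => ?_
  have hj' : j ≤ m := Nat.lt_succ_iff.1 (Finset.mem_range.1 hj)
  obtain ⟨k, rfl⟩ := Nat.exists_eq_add_of_le hj'
  simp only [map_mul, map_pow, eval_C, Nat.add_sub_cancel_left, pow_add]
  have : (eval v f * t2) ^ j = (eval v g * t1) ^ j := by rw [h]
  rw [mul_pow, mul_pow] at this
  linear_combination c j * eval v g ^ k * t2 ^ k * this

/-- The property minimised in `exists_param`. -/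
def ParP {d : ℕ} {Ω : Type} [Field Ω] [Algebra ℂ Ω] (τ : Ω) (H : Fin d → Ω) (s0 : Fin d)
    (m : ℕ) (A : Fin d → Polynomial ℂ) : Prop :=
  (∀ s, (A s).natDegree ≤ m) ∧ A ≠ 0 ∧
    ∀ s, Polynomial.aeval τ (A s) * H s0 = Polynomial.aeval τ (A s0) * H s

theorem ParP.top {d : ℕ} {Ω : Type} [Field Ω] [Algebra ℂ Ω] {τ : Ω} {H : Fin d → Ω} {s0 : Fin d}
    {m : ℕ} {A : Fin d → Polynomial ℂ} (h : ParP τ H s0 m A)
    (hmin : ∀ k < m, ∀ B, ¬ ParP τ H s0 k B) : ∃ s, (A s).coeff m ≠ 0 := by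
  by_contra hc
  push Not at hc
  obtain ⟨h1, h2, h3⟩ := h
  rcases Nat.eq_zero_or_pos m with rfl | hm
  · apply h2
    funext s
    rw [Polynomial.eq_C_of_natDegree_le_zero (h1 s), hc s]
    simp
  · refine hmin (m - 1) (by omega) A ⟨fun s => ?_, h2, h3⟩
    rw [Polynomial.natDegree_le_iff_coeff_eq_zero]
    intro N hN
    rcases eq_or_lt_of_le (show m ≤ N by omega) with rfl | h'
    · exact hc s
    · exact Polynomial.coeff_eq_zero_of_natDegree_lt (lt_of_le_of_lt (h1 s) h')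

theorem ParP.root {d : ℕ} {Ω : Type} [Field Ω] [Algebra ℂ Ω] {τ : Ω} {H : Fin d → Ω} {s0 : Fin d}
    (hτ : Transcendental ℂ τ)
    {m : ℕ} {A : Fin d → Polynomial ℂ} (h : ParP τ H s0 m A)
    (hmin : ∀ k < m, ∀ B, ¬ ParP τ H s0 k B) (z : ℂ) : ∃ s, (A s).eval z ≠ 0 := by
  by_contra hc
  push Not at hc
  obtain ⟨h1, h2, h3⟩ := h
  have hd : ∀ s, ∃ B, A s = (Polynomial.X - Polynomial.C z) * B := fun s =>
    Polynomial.dvd_iff_isRoot.2 (hc s)
  choose B hB using hd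
  have hz : Polynomial.aeval τ (Polynomial.X - Polynomial.C z : Polynomial ℂ) ≠ 0 := by
    intro h0
    exact hτ ⟨_, Polynomial.X_sub_C_ne_zero z, h0⟩
  have hdeg : ∀ s, B s ≠ 0 → (B s).natDegree + 1 ≤ m := by
    intro s hs
    have := h1 s
    rw [hB s, Polynomial.natDegree_mul (Polynomial.X_sub_C_ne_zero z) hs,
      Polynomial.natDegree_X_sub_C] at this
    omega
  have hB0 : B ≠ 0 := by
    intro h0
    apply h2
    funext s
    rw [hB s, h0]
    simp
  obtain ⟨s1, hs1⟩ := Function.ne_iff.1 hB0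
  have hm := hdeg s1 hs1
  refine hmin (m - 1) (by omega) B ⟨fun s => ?_, hB0, fun s => ?_⟩
  · by_cases hs : B s = 0
    · rw [hs]; simp
    · have := hdeg s hs
      omega
  · have := h3 s
    rw [hB s, hB s0, map_mul, map_mul] at this
    apply mul_left_cancel₀ hz
    linear_combination this

theorem exists_parP {d C0 D : ℕ} {ι Ω : Type} [Fintype ι] [Field Ω] [Algebra ℂ Ω]
    {y : ι → Ω} {S : Finset ℤ} {v : ℤ → ι → ℂ} (hV : VG y S v C0)
    (f g : MvPolynomial ι ℂ) (h : Fin d → MvPolynomial ι ℂ) (s0 : Fin d) (hf : f.totalDegree ≤ D)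
    (hg : g.totalDegree ≤ D) (hh : ∀ s, (h s).totalDegree ≤ D) (hg0 : aeval y g ≠ 0)
    (hτ : Transcendental ℂ (aeval y f / aeval y g)) (hs0 : aeval y (h s0) ≠ 0)
    (hmem : ∀ s, aeval y (h s) / aeval y (h s0) ∈
      IntermediateField.adjoin ℂ {aeval y f / aeval y g}) :
    ∃ A, ParP (aeval y f / aeval y g) (fun s => aeval y (h s)) s0
      ((d + 1) * (2 * C0 * D + C0)) A := by
  classical
  have key : ∀ s, ∃ A B : Polynomial ℂ, A.natDegree ≤ 2 * C0 * D + C0 ∧
      B.natDegree ≤ 2 * C0 * D + C0 ∧ B ≠ 0 ∧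
      aeval y (h s) / aeval y (h s0) * Polynomial.aeval (aeval y f / aeval y g) B =
        Polynomial.aeval (aeval y f / aeval y g) A := by
    intro s
    obtain ⟨ψ, hψ, hr⟩ := hV.exists_rel f g (h s) (h s0) D hf hg (hh s) (hh s0) hg0 hs0
    exact exists_bounded_repr _ _ hτ (hmem s) _ ψ hψ hr
  choose A B hA hB hB0 hAB using key
  set τ := aeval y f / aeval y g with hτdef
  have hval : ∀ s, Polynomial.aeval τ (A s * ∏ t ∈ Finset.univ.erase s, B t) =
      aeval y (h s) / aeval y (h s0) * Polynomial.aeval τ (∏ t, B t) := by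
    intro s
    rw [← Finset.mul_prod_erase Finset.univ B (Finset.mem_univ s), map_mul, map_mul, ← hAB s]
    ring
  have hP0 : Polynomial.aeval τ (∏ t, B t) ≠ 0 := by
    intro h0
    exact hτ ⟨_, Finset.prod_ne_zero_iff.2 fun t _ => hB0 t, h0⟩
  refine ⟨fun s => A s * ∏ t ∈ Finset.univ.erase s, B t, fun s => ?_, ?_, fun s => ?_⟩
  · refine Polynomial.natDegree_mul_le.trans ?_
    have h1 : (∏ t ∈ Finset.univ.erase s, B t).natDegree ≤ d * (2 * C0 * D + C0) := by
      refine (Polynomial.natDegree_prod_le _ _).trans ?_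
      refine (Finset.sum_le_card_nsmul _ _ _ fun t _ => hB t).trans ?_
      rw [smul_eq_mul]
      refine Nat.mul_le_mul_right _ ?_
      exact (Finset.card_le_univ _).trans (by simp)
    have h2 := hA s
    nlinarith
  · intro h0
    have h1 := hval s0
    have h2 : A s0 * ∏ t ∈ Finset.univ.erase s0, B t = 0 := congrFun h0 s0
    rw [h2, map_zero, div_self hs0, one_mul] at h1
    exact hP0 h1.symm
  · simp only [hval]
    field_simp

/-- Transfer of the relation between the curve and a point. -/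
theorem par_pt {ι : Type} (w : ι → ℂ) (m : ℕ) (c c0 : ℕ → ℂ) (f g h h0 : MvPolynomial ι ℂ)
    (t1 t2 : ℤ) (γ γ0 : ℤ) (ρ : ℂ) (hg : eval w g ≠ 0) (hc : IsCoprime t1 t2)
    (ht : eval w f * t2 = eval w g * t1) (hρ : ρ ≠ 0) (hh : eval w h = ρ * γ)
    (hh0 : eval w h0 = ρ * γ0) :
    eval w (homP m c f g * h0 - homP m c0 f g * h) = 0 ↔
      (∑ j ∈ Finset.range (m + 1), c j * (t1 : ℂ) ^ j * (t2 : ℂ) ^ (m - j)) * γ0 =
        (∑ j ∈ Finset.range (m + 1), c0 j * (t1 : ℂ) ^ j * (t2 : ℂ) ^ (m - j)) * γ := by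
  have ht2 : (t2 : ℂ) ≠ 0 := by
    intro h2
    rw [h2, mul_zero] at ht
    have h1 : (t1 : ℂ) = 0 := (mul_eq_zero.1 ht.symm).resolve_left hg
    have e1 : t1 = 0 := by exact_mod_cast h1
    have e2 : t2 = 0 := by exact_mod_cast h2
    rw [e1, e2] at hc
    exact not_isCoprime_zero_zero hc
  have e1 := homP_eval w m c f g t1 t2 ht
  have e2 := homP_eval w m c0 f g t1 t2 ht
  rw [map_sub, map_mul, map_mul, hh, hh0]
  set P := ∑ j ∈ Finset.range (m + 1), c j * (t1 : ℂ) ^ j * (t2 : ℂ) ^ (m - j)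
  set P0 := ∑ j ∈ Finset.range (m + 1), c0 j * (t1 : ℂ) ^ j * (t2 : ℂ) ^ (m - j)
  constructor
  · intro h1
    apply mul_left_cancel₀ (mul_ne_zero hρ (pow_ne_zero m hg))
    linear_combination (t2 : ℂ) ^ m * h1 - ρ * γ0 * e1 + ρ * γ * e2
  · intro h1
    apply mul_left_cancel₀ (pow_ne_zero m ht2)
    linear_combination ρ * eval w g ^ m * h1 + ρ * γ0 * e1 - ρ * γ * e2

theorem par_sum {d m : ℕ} {R : Type} [CommRing R] (s s0 : Fin d) (x : Fin d × Fin (m + 1) → R)
    (t1 t2 γ γ0 : ℤ) (c : Fin d → ℕ → R) (hc : ∀ s (j : Fin (m + 1)), c s j = x (s, j)) :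
    ∑ p : Fin d × Fin (m + 1),
      ((((if p.1 = s then t1 ^ (p.2 : ℕ) * t2 ^ (m - p.2) * γ0 else 0) -
        (if p.1 = s0 then t1 ^ (p.2 : ℕ) * t2 ^ (m - p.2) * γ else 0) : ℤ) : R)) * x p =
      (∑ j ∈ Finset.range (m + 1), c s j * (t1 : R) ^ j * (t2 : R) ^ (m - j)) * γ0 -
        (∑ j ∈ Finset.range (m + 1), c s0 j * (t1 : R) ^ j * (t2 : R) ^ (m - j)) * γ := by
  classical
  rw [Fintype.sum_prod_type_right, Finset.sum_mul, Finset.sum_mul, ← Finset.sum_sub_distrib,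
    Finset.sum_range]
  refine Finset.sum_congr rfl fun j _ => ?_
  simp only [Int.cast_sub, Int.cast_ite, Int.cast_zero, sub_mul, ite_mul, zero_mul,
    Finset.sum_sub_distrib, Finset.sum_ite_eq', Finset.mem_univ, if_true, hc]
  push_cast
  ring

theorem par_bd (Y : ℝ) (hY : 2 ≤ Y) (N k M : ℕ) (m : ℕ) (hk : k ≤ N) (hm : m ≤ M) :
    ((k : ℝ) * (2 * Y ^ (m + 1))) ^ k ≤ Y ^ ((N + M + 2) * N + 1) := by
  have hY1 : 1 ≤ Y := by linarith
  have h1 : (k : ℝ) ≤ Y ^ N := by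
    calc (k : ℝ) ≤ N := by exact_mod_cast hk
      _ ≤ 2 ^ N := by exact_mod_cast (Nat.lt_two_pow_self).le
      _ ≤ Y ^ N := pow_le_pow_left₀ (by norm_num) hY _
  have h2 : 2 * Y ^ (m + 1) ≤ Y ^ (M + 2) := by
    calc 2 * Y ^ (m + 1) ≤ Y * Y ^ (M + 1) :=
          mul_le_mul hY (pow_le_pow_right₀ hY1 (by omega)) (by positivity) (by linarith)
      _ = Y ^ (M + 2) := by ring
  have h3 : (k : ℝ) * (2 * Y ^ (m + 1)) ≤ Y ^ (N + M + 2) := by
    calc (k : ℝ) * (2 * Y ^ (m + 1)) ≤ Y ^ N * Y ^ (M + 2) :=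
          mul_le_mul h1 h2 (by positivity) (by positivity)
      _ = Y ^ (N + M + 2) := by ring
  calc ((k : ℝ) * (2 * Y ^ (m + 1))) ^ k ≤ (Y ^ (N + M + 2)) ^ k :=
        pow_le_pow_left₀ (by positivity) h3 _
    _ = Y ^ ((N + M + 2) * k) := by rw [← pow_mul]
    _ ≤ _ := pow_le_pow_right₀ hY1 (by nlinarith)


/-- Integer parametrisation of a primitive vector `γ` on a rational curve.  By `VG.exists_rel` and
`exists_bounded_repr` each ratio `h s / h s0` is `A(τ) / B(τ)` with degrees `≤ R`; with the product of the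
denominators there is a nonzero complex vector `(A s)` of polynomials of degree `≤ d R` with
`A s (τ) h s0 = A s0 (τ) h s`.  Take the least `DA` for which such a vector of degree `≤ DA` exists.  By (V)
(multiply by `g^DA`) the coefficients solve the integer system
`hom (a s) t1 t2 * γ s0 = hom (a s0) t1 t2 * γ s` (all `n`, `s`); `exists_int_ker` gives an integer solution,
which by `VG.zero` holds in `Ω` unless `S` is small (take `Ex = S`).  By minimality the `A s` have no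
common root and one has degree `DA`; `A s0 ≠ 0`.  Outside the `≤ C0 D DA` zeros of `A s0 (τ)` and the
zeros of `h s0`, the integer vector `hom (a s) t1 t2` is nonzero and parallel to the primitive `γ`, so it
is `κ γ`, and `κ ∣ R` by `exists_content_bound`. -/
theorem exists_param (d C0 D : ℕ) : ∃ Z : ℕ, ∀ {ι Ω : Type} [Fintype ι] [Field Ω] [Algebra ℂ Ω]
    (y : ι → Ω) (S : Finset ℤ) (v : ℤ → ι → ℂ), VG y S v C0 →
    ∀ (f g : MvPolynomial ι ℂ) (h : Fin d → MvPolynomial ι ℂ) (s0 : Fin d), f.totalDegree ≤ D →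
    g.totalDegree ≤ D → (∀ s, (h s).totalDegree ≤ D) → aeval y g ≠ 0 →
    Transcendental ℂ (aeval y f / aeval y g) → aeval y (h s0) ≠ 0 →
    (∀ s, aeval y (h s) / aeval y (h s0) ∈ IntermediateField.adjoin ℂ {aeval y f / aeval y g}) →
    ∀ (Y : ℝ) (t1 t2 : ℤ → ℤ) (γ : ℤ → Fin d → ℤ) (ρ : ℤ → ℂ), 2 ≤ Y →
    (∀ n ∈ S, eval (v n) g ≠ 0 ∧ IsCoprime (t1 n) (t2 n) ∧
      eval (v n) f * t2 n = eval (v n) g * t1 n ∧ |(t1 n : ℝ)| ≤ Y ∧ |(t2 n : ℝ)| ≤ Y ∧
      Prim (γ n) ∧ ‖γ n‖ ≤ Y ∧ ρ n ≠ 0 ∧ ∀ s, eval (v n) (h s) = ρ n * γ n s) →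
    ∃ (DA : ℕ) (a : Fin d → ℕ → ℤ) (R : ℤ) (Ex : Finset ℤ), DA ≤ Z ∧ R ≠ 0 ∧ |(R : ℝ)| ≤ Y ^ Z ∧
      Ex.card ≤ Z ∧ ∀ n ∈ S, n ∉ Ex → ∃ κ : ℤ, κ ∣ R ∧
        ∀ s, hom DA (a s) (t1 n) (t2 n) = κ * γ n s := by
  classical
  choose Zc hZc using exists_content_bound d
  set M := (d + 1) * (2 * C0 * D + C0) with hM
  set K := (d * (M + 1) + M + 2) * (d * (M + 1)) + 1 with hK
  set Zm := ∑ m ∈ Finset.range (M + 1), Zc m with hZm
  refine ⟨M + K * Zm + C0 * (M * D + D), ?_⟩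
  intro ι Ω _ _ _ y S v hV f g h s0 hf hg hh hg0 hτ hs0 hmem Y t1 t2 γ ρ hY hpt
  have hY1 : 1 ≤ Y := by linarith
  by_cases hS : S.card ≤ C0 * (M * D + D)
  · refine ⟨0, fun _ _ => 0, 1, S, by omega, one_ne_zero, ?_, by omega, fun n hn hn' => absurd hn hn'⟩
    simpa using one_le_pow₀ hY1
  have hex : ∃ m, ∃ A, ParP (aeval y f / aeval y g) (fun s => aeval y (h s)) s0 m A :=
    ⟨_, exists_parP hV f g h s0 hf hg hh hg0 hτ hs0 hmem⟩
  set DA := Nat.find hex with hDA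
  have hDM : DA ≤ M := Nat.find_min' hex (exists_parP hV f g h s0 hf hg hh hg0 hτ hs0 hmem)
  obtain ⟨A, hA⟩ := Nat.find_spec hex
  rw [← hDA] at hA
  have hmin : ∀ k < DA, ∀ B, ¬ ParP (aeval y f / aeval y g) (fun s => aeval y (h s)) s0 k B :=
    fun k hk B hB => Nat.find_min hex hk ⟨B, hB⟩
  -- the relation in `Ω` in polynomial form
  have hrel : ∀ B : Fin d → Polynomial ℂ, (∀ s, (B s).natDegree ≤ DA) → ∀ s,
      (aeval y (homP DA (B s).coeff f g * h s0 - homP DA (B s0).coeff f g * h s) = 0 ↔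
        Polynomial.aeval (aeval y f / aeval y g) (B s) * aeval y (h s0) =
          Polynomial.aeval (aeval y f / aeval y g) (B s0) * aeval y (h s)) := by
    intro B hB s
    rw [map_sub, map_mul, map_mul, homP_aeval y DA _ (hB s) f g hg0,
      homP_aeval y DA _ (hB s0) f g hg0]
    constructor
    · intro h1
      apply mul_left_cancel₀ (pow_ne_zero DA hg0)
      linear_combination h1
    · intro h1
      linear_combination aeval y g ^ DA * h1
  -- the integer system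
  refine (exists_int_ker (ι := Fin d × Fin (DA + 1)) (S ×ˢ Finset.univ)
    (fun (q : ℤ × Fin d) p =>
      (if p.1 = q.2 then t1 q.1 ^ (p.2 : ℕ) * t2 q.1 ^ (DA - p.2) * γ q.1 s0 else 0) -
        (if p.1 = s0 then t1 q.1 ^ (p.2 : ℕ) * t2 q.1 ^ (DA - p.2) * γ q.1 q.2 else 0))
    (2 * Y ^ (DA + 1)) (by have := one_le_pow₀ (n := DA + 1) hY1; linarith) ?_
    (fun p => (A p.1).coeff p.2) ?_ ?_).elim fun t ⟨ht0, hteq, htb⟩ => ?_
  · rintro ⟨n, s⟩ hq ⟨s', j⟩
    have hn : n ∈ S := (Finset.mem_product.1 hq).1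
    obtain ⟨-, -, -, b1, b2, -, b3, -, -⟩ := hpt n hn
    have hb : ∀ u, |((t1 n ^ (j : ℕ) * t2 n ^ (DA - j) * γ n u : ℤ) : ℝ)| ≤ Y ^ (DA + 1) := by
      intro u
      have b4 : |(γ n u : ℝ)| ≤ Y := by
        have := norm_le_pi_norm (γ n) u
        rw [Int.norm_eq_abs] at this
        linarith
      have hj : (j : ℕ) ≤ DA := Nat.lt_succ_iff.1 j.2
      push_cast
      rw [abs_mul, abs_mul, abs_pow, abs_pow]
      calc |(t1 n : ℝ)| ^ (j : ℕ) * |(t2 n : ℝ)| ^ (DA - j) * |(γ n u : ℝ)|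
          ≤ Y ^ (j : ℕ) * Y ^ (DA - j) * Y := by gcongr
        _ = Y ^ (DA + 1) := by rw [← pow_add, ← pow_succ]; congr 1; omega
    have hp : 0 ≤ Y ^ (DA + 1) := by positivity
    rw [Int.cast_sub]
    refine (abs_sub _ _).trans ?_
    have c1 := hb s0
    have c2 := hb s
    split_ifs <;> simp only [Int.cast_zero, abs_zero] <;> linarith
  · intro h0
    apply hA.2.1
    funext s
    ext j
    by_cases hj : j < DA + 1
    · exact congrFun h0 (s, ⟨j, hj⟩)
    · exact Polynomial.coeff_eq_zero_of_natDegree_lt (by have := hA.1 s; omega)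
  · rintro ⟨n, s⟩ hq
    have hn : n ∈ S := (Finset.mem_product.1 hq).1
    obtain ⟨a1, a2, a3, -, -, -, -, a4, a5⟩ := hpt n hn
    rw [par_sum s s0 _ (t1 n) (t2 n) (γ n s) (γ n s0) (fun s j => (A s).coeff j) (fun _ _ => rfl),
      sub_eq_zero]
    rw [← par_pt (v n) DA _ _ f g (h s) (h s0) _ _ _ _ (ρ n) a1 a2 a3 a4 (a5 s) (a5 s0)]
    exact hV.V _ ((hrel A hA.1 s).2 (hA.2.2 s)) n hn
  -- the integer solution
  set a : Fin d → ℕ → ℤ := fun s j => if hj : j < DA + 1 then t (s, ⟨j, hj⟩) else 0 with ha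
  have hat : ∀ s (j : Fin (DA + 1)), a s j = t (s, j) := fun s j => dif_pos j.2
  have hat0 : ∀ s j, ¬ j < DA + 1 → a s j = 0 := fun s j hj => dif_neg hj
  have hint : ∀ n ∈ S, ∀ s, hom DA (a s) (t1 n) (t2 n) * γ n s0 =
      hom DA (a s0) (t1 n) (t2 n) * γ n s := by
    intro n hn s
    have h1 := hteq (n, s) (Finset.mem_product.2 ⟨hn, Finset.mem_univ _⟩)
    have h2 := par_sum (R := ℤ) s s0 t (t1 n) (t2 n) (γ n s) (γ n s0) a hat
    simp only [Int.cast_id] at h2
    rw [h1] at h2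
    simp only [hom, Int.cast_id]
    linarith
  set B : Fin d → Polynomial ℂ := fun s =>
    ∑ j ∈ Finset.range (DA + 1), Polynomial.monomial j (a s j : ℂ) with hB
  have hBc : ∀ s j, (B s).coeff j = a s j := by
    intro s j
    simp only [hB, Polynomial.finsetSum_coeff, Polynomial.coeff_monomial, Finset.sum_ite_eq',
      Finset.mem_range]
    split_ifs with hj
    · rfl
    · rw [hat0 s j hj, Int.cast_zero]
  have hBd : ∀ s, (B s).natDegree ≤ DA := by
    intro s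
    rw [Polynomial.natDegree_le_iff_coeff_eq_zero]
    intro N hN
    rw [hBc, hat0 s N (by omega), Int.cast_zero]
  have hBP : ParP (aeval y f / aeval y g) (fun s => aeval y (h s)) s0 DA B := by
    refine ⟨hBd, ?_, fun s => ?_⟩
    · intro h0
      apply ht0
      funext p
      have h1 := hBc p.1 p.2
      rw [h0, hat] at h1
      simpa using h1.symm
    · rw [← hrel B hBd s]
      by_contra hne
      apply hS
      refine (hV.zero _ (DA * D + D) ?_ hne S le_rfl ?_).trans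
        (Nat.mul_le_mul_left _ (by nlinarith))
      · refine (totalDegree_sub _ _).trans (max_le ?_ ?_)
        · exact (totalDegree_mul _ _).trans (add_le_add (homP_deg _ _ _ _ _ hf hg) (hh _))
        · exact (totalDegree_mul _ _).trans (add_le_add (homP_deg _ _ _ _ _ hf hg) (hh _))
      · intro n hn
        obtain ⟨a1, a2, a3, -, -, -, -, a4, a5⟩ := hpt n hn
        rw [par_pt (v n) DA _ _ f g (h s) (h s0) _ _ _ _ (ρ n) a1 a2 a3 a4 (a5 s) (a5 s0)]
        have h1 := hint n hn s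
        simp only [hom, Int.cast_id] at h1
        simp only [hBc]
        exact_mod_cast h1
  refine (hZc DA a (Y ^ K) ?_ ?_ ?_ ?_).elim fun R ⟨hR0, hRb, hR⟩ => ?_
  · calc (2 : ℝ) ≤ Y ^ 1 := by simpa using hY
      _ ≤ Y ^ K := pow_le_pow_right₀ hY1 (by omega)
  · intro s j
    by_cases hj : j < DA + 1
    · have h1 := htb (s, ⟨j, hj⟩)
      have h2 : a s j = t (s, ⟨j, hj⟩) := hat s ⟨j, hj⟩
      rw [h2]
      refine h1.trans (par_bd Y hY _ _ _ _ ?_ hDM)
      simp only [Fintype.card_prod, Fintype.card_fin]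
      exact Nat.mul_le_mul_left _ (by omega)
    · rw [hat0 s j hj, Int.cast_zero, abs_zero]
      positivity
  · obtain ⟨s, hs⟩ := hBP.top hmin
    refine ⟨s, fun h0 => hs ?_⟩
    rw [hBc, h0, Int.cast_zero]
  · intro z
    obtain ⟨s, hs⟩ := hBP.root hτ hmin z
    refine ⟨s, fun h0 => hs ?_⟩
    rw [← h0]
    simp [hB, hom, Polynomial.eval_finsetSum]
  refine ⟨DA, a, R, S.filter fun n => eval (v n) (h s0) = 0, by omega, hR0, ?_, ?_, ?_⟩
  · refine hRb.trans ?_
    rw [← pow_mul]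
    refine pow_le_pow_right₀ hY1 ?_
    have h1 : Zc DA ≤ Zm :=
      Finset.single_le_sum (f := Zc) (fun _ _ => Nat.zero_le _) (Finset.mem_range.2 (by omega))
    have h2 := Nat.mul_le_mul_left K h1
    omega
  · have h1 := hV.zero (h s0) D (hh s0) hs0 (S.filter fun n => eval (v n) (h s0) = 0)
      (Finset.filter_subset _ _) (fun n hn => (Finset.mem_filter.1 hn).2)
    have h2 : C0 * D ≤ C0 * (M * D + D) := Nat.mul_le_mul_left _ (by omega)
    omega
  · intro n hn hn'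
    obtain ⟨a1, a2, a3, -, -, ⟨u, hu⟩, -, a4, a5⟩ := hpt n hn
    have hγ : γ n s0 ≠ 0 := by
      intro h0
      apply hn'
      rw [Finset.mem_filter]
      exact ⟨hn, by rw [a5, h0]; simp⟩
    have hpar : ∀ s, hom DA (a s) (t1 n) (t2 n) =
        (∑ s', u s' * hom DA (a s') (t1 n) (t2 n)) * γ n s := by
      intro s
      apply mul_right_cancel₀ hγ
      calc hom DA (a s) (t1 n) (t2 n) * γ n s0
          = (∑ s', u s' * γ n s') * (hom DA (a s0) (t1 n) (t2 n) * γ n s) := by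
            rw [hu, one_mul, hint n hn s]
        _ = _ := by
            rw [Finset.sum_mul, Finset.sum_mul, Finset.sum_mul]
            refine Finset.sum_congr rfl fun s' _ => ?_
            linear_combination (-(u s' * γ n s)) * hint n hn s'
    exact ⟨_, hR _ _ _ a2 fun s => ⟨_, hpar s⟩, hpar⟩

end Crest.Agent.R22
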