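import Mathlib

namespace Crest.Agent.R22

open Polynomial

/-- An integer Bezout identity between a polynomial irreducible over `ℚ` and its derivative. -/
theorem exists_int_bezout (f : ℤ[X]) (hirr : Irreducible (f.map (Int.castRingHom ℚ))) :
    ∃ (U V : ℤ[X]) (D : ℤ), D ≠ 0 ∧ U * f + V * derivative f = C D := by
  obtain ⟨A, B, hAB⟩ : IsCoprime (f.map (Int.castRingHom ℚ))
      (derivative (f.map (Int.castRingHom ℚ))) := hirr.separable
  obtain ⟨a, ha0, ha⟩ := IsLocalization.integerNormalization_spec (nonZeroDivisors ℤ) A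
  obtain ⟨b, hb0, hb⟩ := IsLocalization.integerNormalization_spec (nonZeroDivisors ℤ) B
  refine ⟨C b * IsLocalization.integerNormalization (nonZeroDivisors ℤ) A,
    C a * IsLocalization.integerNormalization (nonZeroDivisors ℤ) B, a * b,
    mul_ne_zero (nonZeroDivisors.ne_zero ha0) (nonZeroDivisors.ne_zero hb0), ?_⟩
  apply map_injective (algebraMap ℤ ℚ) (RingHom.injective_int _)
  rw [derivative_map] at hAB
  have e : Int.castRingHom ℚ = algebraMap ℤ ℚ := rfl
  rw [e] at hAB
  simp only [Polynomial.map_add, Polynomial.map_mul, ha, hb, map_C, map_mul, zsmul_eq_mul]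
  have h1 : (a : ℚ[X]) = C (algebraMap ℤ ℚ a) := by simp
  have h2 : (b : ℚ[X]) = C (algebraMap ℤ ℚ b) := by simp
  rw [h1, h2]
  linear_combination (C (algebraMap ℤ ℚ a) * C (algebraMap ℤ ℚ b)) * hAB

/-- A common divisor of `f n` and `f' n` divides a fixed nonzero integer. -/
theorem exists_int_disc (f : ℤ[X]) (hirr : Irreducible (f.map (Int.castRingHom ℚ))) :
    ∃ D : ℤ, D ≠ 0 ∧ ∀ P n : ℤ, P ∣ f.eval n → P ∣ (derivative f).eval n → P ∣ D := by
  obtain ⟨U, V, D, hD, h⟩ := exists_int_bezout f hirr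
  refine ⟨D, hD, fun P n h1 h2 => ?_⟩
  have := congrArg (eval n) h
  rw [eval_add, eval_mul, eval_mul, eval_C] at this
  rw [← this]
  exact (h1.mul_left _).add (h2.mul_left _)

end Crest.Agent.R22
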