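import Mathlib
import Crest.Prelude.Def_PowerFree
import Crest.Agent.R22.Sol1Aux

namespace Crest.Agent.R22

open Polynomial Crest.NumberTheoryR

/-- For large primes `ρ(p^k) ≤ deg f`.  `f` is separable over `ℚ`, so `U f + V f' = D ≠ 0` in `ℤ[X]`.  Let `p > |D|`,
`p > |leading coefficient|`.  Two roots `a, b` mod `p^k` with `a ≡ b (mod p)` are equal: `f b - f a = (b - a)(f'(a) +
(b - a) t)` (`Polynomial.binomExpansion` / `evalSubFactor`), and the second factor is prime to `p`.  So reduction mod `p`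
injects the roots mod `p^k` into the roots of `f mod p ≠ 0` in `ZMod p` (`Polynomial.card_roots'`). -/
theorem rho_le (f : ℤ[X]) (hirr : Irreducible (f.map (Int.castRingHom ℚ))) (k : ℕ) (hk : 1 ≤ k) :
    ∃ P0 : ℕ, ∀ p : ℕ, p.Prime → P0 ≤ p → polyRootCountMod f (p ^ k) ≤ f.natDegree := by
  classical
  obtain ⟨D, hD0, hD⟩ := exists_int_disc f hirr
  have hf : f ≠ 0 := by
    rintro rfl
    simp at hirr
  have hlc : f.leadingCoeff ≠ 0 := leadingCoeff_ne_zero.2 hf
  refine ⟨D.natAbs + f.leadingCoeff.natAbs + 1, fun p hp hP => ?_⟩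
  have : Fact p.Prime := ⟨hp⟩
  have hpZ : Prime (p : ℤ) := Nat.prime_iff_prime_int.1 hp
  have hpD : ¬ (p : ℤ) ∣ D := fun h => by
    have := Nat.le_of_dvd (Int.natAbs_pos.2 hD0) (Int.natCast_dvd.1 h)
    omega
  have hplc : ¬ (p : ℤ) ∣ f.leadingCoeff := fun h => by
    have := Nat.le_of_dvd (Int.natAbs_pos.2 hlc) (Int.natCast_dvd.1 h)
    omega
  set g := f.map (Int.castRingHom (ZMod p)) with hg
  have hg0 : g ≠ 0 := by
    intro h
    apply hplc
    have := congrArg (fun q => coeff q f.natDegree) h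
    simp only [hg, coeff_map, coeff_zero, eq_intCast] at this
    exact (ZMod.intCast_zmod_eq_zero_iff_dvd _ _).1 this
  have hpk : (p : ℤ) ∣ ((p ^ k : ℕ) : ℤ) := by
    push_cast
    exact dvd_pow_self _ (by omega)
  unfold polyRootCountMod
  calc _ ≤ g.roots.toFinset.card := by
        refine Finset.card_le_card_of_injOn (fun a : ℕ => (a : ZMod p)) ?_ ?_
        · intro a ha
          rw [Finset.mem_coe, Finset.mem_filter] at ha
          rw [Finset.mem_coe, Multiset.mem_toFinset, mem_roots hg0, IsRoot, hg]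
          have h1 : ((a : ℕ) : ZMod p) = Int.castRingHom (ZMod p) (a : ℤ) := by simp
          show eval ((a : ℕ) : ZMod p) _ = 0
          rw [h1, eval_map, eval₂_hom, eq_intCast]
          exact (ZMod.intCast_zmod_eq_zero_iff_dvd _ _).2 (hpk.trans ha.2)
        · intro a ha b hb hab
          rw [Finset.mem_coe, Finset.mem_filter, Finset.mem_range] at ha hb
          have h1 : (p : ℤ) ∣ (b : ℤ) - a := by
            refine (ZMod.intCast_eq_intCast_iff_dvd_sub _ _ _).1 ?_
            simpa using hab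
          obtain ⟨t, ht⟩ := f.binomExpansion (a : ℤ) ((b : ℤ) - a)
          rw [add_sub_cancel] at ht
          have h2 : ((p ^ k : ℕ) : ℤ) ∣
              ((b : ℤ) - a) * ((derivative f).eval (a : ℤ) + t * ((b : ℤ) - a)) := by
            have h5 : ((b : ℤ) - a) * ((derivative f).eval (a : ℤ) + t * ((b : ℤ) - a))
                = f.eval (b : ℤ) - f.eval (a : ℤ) := by rw [ht]; ring
            rw [h5]
            exact hb.2.sub ha.2
          have h3 : ¬ (p : ℤ) ∣ (derivative f).eval (a : ℤ) + t * ((b : ℤ) - a) := fun h => by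
            apply hpD
            refine hD _ _ (hpk.trans ha.2) ?_
            simpa using h.sub (h1.mul_left t)
          have h4 : ((p ^ k : ℕ) : ℤ) ∣ (b : ℤ) - a := by
            push_cast at h2 ⊢
            exact ((hpZ.irreducible.coprime_iff_not_dvd.2 h3).pow_left).dvd_of_dvd_mul_right h2
          exact Nat.ModEq.eq_of_lt_of_lt ((Nat.modEq_iff_dvd).2 h4) ha.1 hb.1
    _ ≤ g.roots.card := Multiset.toFinset_card_le _
    _ ≤ g.natDegree := card_roots' _
    _ ≤ f.natDegree := natDegree_map_le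

/-- The Euler product converges to a positive number: the terms `t p = ρ(p^k) / p^k ∈ [0, 1)` are summable
(`≤ D / p²` for `p ≥ P0`), so `∑ log (1 - t p)` converges (`Real.summable_log_one_add_of_summable`) and the product is
its exponential (`Real.hasProd_of_hasSum_log`).  The partial products over the primes `≤ ξ` tend to it
(the finsets `{p ≤ ξ}` tend to `atTop`). -/
theorem euler_prod (f : ℤ[X]) (k D P0 : ℕ) (hk : 2 ≤ k)
    (hloc : ∀ p : ℕ, p.Prime → polyRootCountMod f (p ^ k) < p ^ k)
    (hD : ∀ p : ℕ, p.Prime → P0 ≤ p → polyRootCountMod f (p ^ k) ≤ D) : ∃ c : ℝ, 0 < c ∧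
      HasProd (fun p : Nat.Primes => 1 - (polyRootCountMod f ((p : ℕ) ^ k) : ℝ) / ((p : ℕ) : ℝ) ^ k) c ∧
      Filter.Tendsto (fun ξ : ℕ => ∏ p ∈ (Finset.range (ξ + 1)).filter Nat.Prime,
        (1 - (polyRootCountMod f (p ^ k) : ℝ) / (p : ℝ) ^ k)) Filter.atTop (nhds c) := by
  set t : ℕ → ℝ := fun p => (polyRootCountMod f (p ^ k) : ℝ) / (p : ℝ) ^ k with ht
  have ht1 : ∀ p : ℕ, p.Prime → t p < 1 := by
    intro p hp
    have hp0 : (0 : ℝ) < p := by exact_mod_cast hp.pos
    simp only [ht]
    rw [div_lt_one (by positivity)]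
    exact_mod_cast hloc p hp
  have ht0 : ∀ p, 0 ≤ t p := fun p => by simp only [ht]; positivity
  have hle : ∀ p : ℕ, p.Prime → t p ≤ ((D : ℝ) + (P0 : ℝ) ^ 2) * ((p : ℝ) ^ 2)⁻¹ := by
    intro p hp
    have hp0 : (0 : ℝ) < p := by exact_mod_cast hp.pos
    have hp1 : (1 : ℝ) ≤ p := by exact_mod_cast hp.one_le
    rw [← div_eq_mul_inv]
    by_cases h : P0 ≤ p
    · have h1 : (polyRootCountMod f (p ^ k) : ℝ) ≤ D := by exact_mod_cast hD p hp h
      simp only [ht]
      have h2 : (p : ℝ) ^ 2 ≤ (p : ℝ) ^ k := pow_le_pow_right₀ hp1 hk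
      refine div_le_div₀ (by positivity) (by nlinarith [sq_nonneg (P0 : ℝ)]) (by positivity) h2
    · refine (ht1 p hp).le.trans ?_
      rw [one_le_div (by positivity)]
      have h1 : (p : ℝ) ≤ P0 := by exact_mod_cast (not_le.1 h).le
      have : (0 : ℝ) ≤ D := Nat.cast_nonneg D
      nlinarith
  have hsum : Summable (fun p : Nat.Primes => t p) := by
    refine Summable.of_nonneg_of_le (fun p => ht0 p) (fun p => hle p p.2) ?_
    refine Summable.mul_left _ ?_
    exact (Real.summable_nat_pow_inv.2 one_lt_two).comp_injective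
      (Subtype.val_injective (p := Nat.Prime))
  have hlog := Real.summable_log_one_add_of_summable hsum.neg
  have hprod := Real.hasProd_of_hasSum_log (f := fun p : Nat.Primes => 1 + -t p)
    (fun p => by linarith [ht1 p p.2]) hlog.hasSum
  simp only [← sub_eq_add_neg] at hprod
  refine ⟨_, Real.exp_pos _, hprod, ?_⟩
  have h1 : Filter.Tendsto (fun ξ : ℕ => ((Finset.range (ξ + 1)).subtype Nat.Prime :
      Finset Nat.Primes)) Filter.atTop Filter.atTop := by
    refine Filter.tendsto_atTop_finset_of_monotone ?_ ?_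
    · intro a b hab x hx
      rw [Finset.mem_subtype, Finset.mem_range] at hx ⊢
      omega
    · intro x
      exact ⟨x, Finset.mem_subtype.2 (Finset.mem_range.2 (Nat.lt_succ_self _))⟩
  have h2 := Filter.Tendsto.comp hprod h1
  refine h2.congr fun ξ => ?_
  exact Finset.prod_subtype_eq_prod_filter (fun p => 1 - t p)

end Crest.Agent.R22
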