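import Crest.Agent.R22.NFBasic
import Crest.Agent.R22.Sol1Aux

namespace Crest.Agent.R22

open Polynomial

variable {d : ℕ}

/-- Pigeonhole: among the `(⌊P^(1/d)⌋ + 1)^d > P` vectors with coordinates in `[0, P^(1/d)]` two have
the same value of `∑ β s n^s` mod `P`; divide the difference by its content `g` (`0 < g < P`, so `g` is
prime to `P`; `Finset.gcd`, Bezout `Finset.gcd_eq_sum_mul` gives `Prim`). -/
theorem exists_beta (hd : 2 ≤ d) (P : ℕ) (hP : P.Prime) (n : ℤ) : ∃ β : Fin d → ℤ, Prim β ∧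
    ‖β‖ ^ d ≤ (P : ℝ) ∧ (P : ℤ) ∣ ∑ s, β s * n ^ (s : ℕ) := by
  classical
  set B := Nat.nthRoot d P with hB
  have hB1 : B ^ d ≤ P := Nat.pow_nthRoot_le (Or.inl (by omega))
  have hB2 : P < (B + 1) ^ d := Nat.lt_pow_nthRoot_add_one (by omega) P
  have hBP : B < P := by
    by_contra hcon
    push Not at hcon
    have h2 := hP.two_le
    have h3 : P ^ 2 ≤ B ^ d :=
      (Nat.pow_le_pow_left hcon 2).trans (Nat.pow_le_pow_right (by omega) hd)
    nlinarith
  have : NeZero P := ⟨hP.ne_zero⟩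
  let φ : (Fin d → Fin (B + 1)) → ZMod P := fun x => ((∑ s, ((x s : ℕ) : ℤ) * n ^ (s : ℕ) : ℤ) : ZMod P)
  obtain ⟨x, y, hxy, hφ⟩ := Fintype.exists_ne_map_eq_of_card_lt φ (by
    simpa [ZMod.card] using hB2)
  let v : Fin d → ℤ := fun s => ((x s : ℕ) : ℤ) - ((y s : ℕ) : ℤ)
  have hv : ∀ s, |v s| ≤ B := by
    intro s
    have h1 := (x s).2
    have h2 := (y s).2
    simp only [v]
    rw [abs_le]; constructor <;> omega
  obtain ⟨s0, hs0⟩ := Function.ne_iff.1 hxy
  have hv0 : v s0 ≠ 0 := by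
    intro h
    apply hs0
    apply Fin.ext
    simp only [v] at h
    omega
  have hdv : (P : ℤ) ∣ ∑ s, v s * n ^ (s : ℕ) := by
    have := (ZMod.intCast_eq_intCast_iff_dvd_sub _ _ _).1 hφ.symm
    rw [← Finset.sum_sub_distrib] at this
    convert this using 2 with s
    simp only [v]; ring
  set g := Finset.univ.gcd v with hg
  have hgd : ∀ s, g ∣ v s := fun s => Finset.gcd_dvd (Finset.mem_univ s)
  choose β hβ using hgd
  have hg0 : g ≠ 0 := by
    intro h
    apply hv0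
    rw [hβ s0, h, zero_mul]
  have hg1 : 1 ≤ |g| := Int.one_le_abs hg0
  have hgB : |g| ≤ B := (Int.le_of_dvd (abs_pos.2 hv0) ((abs_dvd_abs _ _).2 ⟨_, hβ s0⟩)).trans (hv s0)
  refine ⟨β, ?_, ?_, ?_⟩
  · obtain ⟨u, hu⟩ := Finset.gcd_eq_sum_mul Finset.univ v
    refine ⟨u, mul_left_cancel₀ hg0 ?_⟩
    rw [mul_one, Finset.mul_sum]
    conv_rhs => rw [hg, hu]
    refine Finset.sum_congr rfl fun s _ => ?_
    rw [hβ s]; ring
  · have h1 : ‖β‖ ≤ B := by
      refine (pi_norm_le_iff_of_nonneg (by positivity)).2 fun s => ?_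
      have h2 : |β s| ≤ B := by
        refine le_trans ?_ (hv s)
        rw [hβ s, abs_mul]
        nlinarith [abs_nonneg (β s)]
      rw [Int.norm_eq_abs]
      exact_mod_cast h2
    calc ‖β‖ ^ d ≤ (B : ℝ) ^ d := pow_le_pow_left₀ (norm_nonneg _) h1 d
      _ ≤ P := by exact_mod_cast hB1
  · have h1 : ∑ s, v s * n ^ (s : ℕ) = g * ∑ s, β s * n ^ (s : ℕ) := by
      rw [Finset.mul_sum]
      refine Finset.sum_congr rfl fun s _ => ?_
      rw [hβ s]; ring
    rw [h1] at hdv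
    rcases (Int.prime_iff_natAbs_prime.2 (by simpa using hP) : Prime (P : ℤ)).dvd_or_dvd hdv with h | h
    · exfalso
      have := Int.le_of_dvd (by omega) ((dvd_abs _ _).2 h)
      omega
    · exact h

/-- There is `D ≠ 0` with `U F + V F' = D` in `ℤ[X]` (`F` is separable over `ℚ`; clear denominators). -/
theorem NF.exists_disc (N : NF d) : ∃ D : ℤ, D ≠ 0 ∧ ∀ P n : ℤ, P ∣ N.F.eval n →
    P ∣ (derivative N.F).eval n → P ∣ D :=
  exists_int_disc N.F N.irr

/-- The norm of `β` is a multiple of `β` in `ℤ[θ]`. -/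
theorem NF.exists_adj (N : NF d) (β : Fin d → ℤ) :
    ∃ w : Fin d → ℤ, ∀ i, N.emb β i * N.emb w i = ∏ j, N.emb β j := by
  have hc : ∀ t : Fin d, ∃ c : Fin d → ℤ, N.emb c = N.emb β * N.θ ^ (t : ℕ) := fun t =>
    (N.mem_R _).1 (N.R.mul_mem ((N.mem_R _).2 ⟨β, rfl⟩) (N.R.pow_mem N.theta_mem_R t))
  choose c hc using hc
  let M : Matrix (Fin d) (Fin d) ℤ := Matrix.of fun s t => c t s
  have hV : (Matrix.vandermonde N.θ).det ≠ 0 := Matrix.det_vandermonde_ne_zero_iff.2 N.inj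
  have h1 : Matrix.vandermonde N.θ * (Int.castRingHom ℂ).mapMatrix M
      = Matrix.diagonal (N.emb β) * Matrix.vandermonde N.θ := by
    ext i t
    rw [Matrix.diagonal_mul, Matrix.mul_apply]
    have := congrFun (hc t) i
    simp only [NF.emb, Pi.mul_apply, Pi.pow_apply] at this
    simp only [Matrix.vandermonde_apply, NF.emb, ← this]
    refine Finset.sum_congr rfl fun s _ => ?_
    simp [M, mul_comm]
  have h2 := congrArg Matrix.det h1
  rw [Matrix.det_mul, Matrix.det_mul, Matrix.det_diagonal, ← RingHom.map_det, mul_comm] at h2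
  have h3 := mul_right_cancel₀ hV h2
  have h4 := N.four_le
  let z : Fin d := ⟨0, by omega⟩
  refine ⟨fun s => M.adjugate s z, fun i => ?_⟩
  have h5 : Matrix.diagonal (N.emb β) * (Matrix.vandermonde N.θ *
      (Int.castRingHom ℂ).mapMatrix M.adjugate) = (∏ j, N.emb β j) • Matrix.vandermonde N.θ := by
    rw [← Matrix.mul_assoc, ← h1, Matrix.mul_assoc, ← map_mul, Matrix.mul_adjugate, ← h3]
    have h7 : (Int.castRingHom ℂ).mapMatrix (M.det • (1 : Matrix (Fin d) (Fin d) ℤ))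
        = (Int.castRingHom ℂ) M.det • (1 : Matrix (Fin d) (Fin d) ℂ) := by
      ext a b
      rw [RingHom.mapMatrix_apply, Matrix.map_apply, Matrix.smul_apply, Matrix.smul_apply,
        Matrix.one_apply, Matrix.one_apply]
      split_ifs <;> simp
    rw [h7, Matrix.mul_smul, Matrix.mul_one]
  have h6 := congrFun (congrFun h5 i) z
  rw [Matrix.diagonal_mul, Matrix.mul_apply] at h6
  simp only [Matrix.smul_apply, Matrix.vandermonde_apply, z, pow_zero, smul_eq_mul, mul_one] at h6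
  rw [← h6]
  congr 1
  unfold NF.emb
  refine Finset.sum_congr rfl fun s _ => ?_
  rw [mul_comm]
  simp [z]

/-- `P ∣ N β`: `N β = β β*` with `β* ∈ ℤ[θ]` (adjugate of the multiplication matrix applied to `1`,
or Cayley–Hamilton), then `psi`. -/
theorem NF.dvd_norm (N : NF d) {P n M : ℤ} {β : Fin d → ℤ} (hF : P ∣ N.F.eval n)
    (hβ : P ∣ ∑ s, β s * n ^ (s : ℕ)) (hM : ∏ i, N.emb β i = (M : ℂ)) : P ∣ M := by
  obtain ⟨w, hw⟩ := N.exists_adj β
  have := N.psi_lin (U := M) (V := 0) (w := w) hF hβ fun i => by rw [hw i, hM]; simp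
  simpa using this

end Crest.Agent.R22
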