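import Crest.Agent.R22.NFBasic

namespace Crest.Agent.R22

open Polynomial

variable {d : ℕ}

namespace S2

lemma emb_single (N : NF d) (t : Fin d) (c : ℤ) (i : Fin d) :
    N.emb (Pi.single t c) i = (c : ℂ) * N.θ i ^ (t : ℕ) := by
  unfold NF.emb
  rw [Finset.sum_eq_single t]
  · simp
  · intro s _ hs; simp [Pi.single_eq_of_ne hs]
  · simp

lemma sum_single (t : Fin d) (c n : ℤ) :
    ∑ s : Fin d, (Pi.single t c : Fin d → ℤ) s * n ^ (s : ℕ) = c * n ^ (t : ℕ) := by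
  rw [Finset.sum_eq_single t]
  · simp
  · intro s _ hs; simp [Pi.single_eq_of_ne hs]
  · simp

lemma dvd_det (M : Matrix (Fin d) (Fin d) ℤ) (r : Fin d → ℤ) (i0 : Fin d) (h0 : r i0 = 1) (P : ℤ)
    (h : ∀ t, P ∣ ∑ s, M s t * r s) : P ∣ M.det := by
  have e : Matrix.vecMul (Matrix.vecMul r M) M.adjugate i0 = M.det := by
    rw [Matrix.vecMul_vecMul, Matrix.mul_adjugate, Matrix.vecMul_smul, Matrix.vecMul_one]
    simp [h0]
  rw [← e]
  unfold Matrix.vecMul dotProduct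
  refine Finset.dvd_sum fun t _ => Dvd.dvd.mul_right ?_ _
  simpa only [mul_comm] using h t

lemma taylor (F : ℤ[X]) (n : ℤ) : ∃ H : ℤ[X],
    F = C (F.eval n) + C ((derivative F).eval n) * (X - C n) + H * (X - C n) ^ 2 := by
  obtain ⟨H, hH⟩ := Polynomial.binomExpansion (F.map C) (C n) (X - C n)
  refine ⟨H, ?_⟩
  rw [add_sub_cancel, derivative_map, eval_map, eval_map, eval_map, eval₂_C_X, eval₂_hom,
    eval₂_hom] at hH
  exact hH

end S2

open S2 in
/-- `𝔭 = ker (ℤ[θ] → ℤ/P, θ ↦ n)` has index `P`, `β ℤ[θ] ⊆ 𝔭` has index `|N β| = P |m|`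
(`Submodule.natAbs_det_equiv` / `AddSubgroup.index_eq_natAbs_det` for the integer matrix of
multiplication by `β`, whose determinant is `∏ emb β i`), so `𝔭 / β ℤ[θ]` has order `|m|` and
`m 𝔭 ⊆ β ℤ[θ]`. -/
theorem NF.mul_mem_of_norm (N : NF d) {P : ℕ} (hP : P.Prime) {n m : ℤ} {β : Fin d → ℤ}
    (hF : (P : ℤ) ∣ N.F.eval n) (hβ : (P : ℤ) ∣ ∑ s, β s * n ^ (s : ℕ)) (hβ0 : β ≠ 0)
    (hm : ∏ i, N.emb β i = ((P : ℤ) * m : ℤ)) (a : Fin d → ℤ)
    (ha : (P : ℤ) ∣ ∑ s, a s * n ^ (s : ℕ)) :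
    ∃ w : Fin d → ℤ, ∀ i, N.emb β i * N.emb w i = (m : ℂ) * N.emb a i := by
  classical
  have hd := N.four_le
  choose c hc using fun t : Fin d => N.exists_mul β (Pi.single t 1)
  simp only [emb_single, Int.cast_one, one_mul] at hc
  set B : Matrix (Fin d) (Fin d) ℤ := Matrix.of fun s t => c t s with hB
  have hdet : B.det = (P : ℤ) * m := by
    have e : Matrix.vandermonde N.θ * B.map (Int.castRingHom ℂ) =
        Matrix.diagonal (N.emb β) * Matrix.vandermonde N.θ := by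
      ext i t
      rw [Matrix.diagonal_mul, Matrix.vandermonde_apply, ← hc, Matrix.mul_apply]
      unfold NF.emb
      refine Finset.sum_congr rfl fun s _ => ?_
      simp [hB, mul_comm]
    have e2 := congrArg Matrix.det e
    rw [Matrix.det_mul, Matrix.det_mul, Matrix.det_diagonal, hm, mul_comm] at e2
    have e3 := mul_right_cancel₀ (Matrix.det_vandermonde_ne_zero_iff.2 N.inj) e2
    have e4 := (Int.castRingHom ℂ).map_det B
    rw [RingHom.mapMatrix_apply, e3] at e4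
    exact Int.cast_injective (α := ℂ) e4
  have hmul : ∀ w : Fin d → ℤ, ∀ i, N.emb (B.mulVec w) i = N.emb β i * N.emb w i := by
    intro w i
    have : N.emb β i * N.emb w i = ∑ t, (w t : ℂ) * N.emb (c t) i := by
      simp only [hc]
      conv_lhs => rw [NF.emb.eq_1 N w i]
      rw [Finset.mul_sum]
      refine Finset.sum_congr rfl fun s _ => ?_
      ring
    rw [this]
    unfold NF.emb
    simp only [Matrix.mulVec, dotProduct, hB, Matrix.of_apply, Int.cast_sum, Int.cast_mul,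
      Finset.sum_mul, Finset.mul_sum]
    rw [Finset.sum_comm]
    refine Finset.sum_congr rfl fun s _ => Finset.sum_congr rfl fun t _ => ?_
    ring
  have hcol : ∀ t, (P : ℤ) ∣ ∑ s, c t s * n ^ (s : ℕ) := fun t =>
    N.psi (w := Pi.single t 1) hF hβ (fun i => by rw [hc, emb_single]; simp)
  have hcr : ∀ t, (P : ℤ) ∣ B.cramer a t := by
    intro t
    rw [Matrix.cramer_apply]
    refine dvd_det _ (fun s => n ^ (s : ℕ)) ⟨0, by omega⟩ (by simp) _ fun t' => ?_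
    by_cases h : t' = t
    · subst h
      simpa only [Matrix.updateCol_self] using ha
    · simpa only [Matrix.updateCol_ne h, hB, Matrix.of_apply] using hcol t'
  choose w hw using hcr
  refine ⟨w, fun i => ?_⟩
  have h1 : B.cramer a = (P : ℤ) • w := funext fun t => by rw [hw t]; simp
  have h2 := B.mulVec_cramer a
  rw [h1, hdet] at h2
  have h3 := hmul ((P : ℤ) • w) i
  rw [h2, N.emb_smul, N.emb_smul] at h3
  have hP0 : ((P : ℤ) : ℂ) ≠ 0 := by exact_mod_cast hP.ne_zero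
  apply mul_left_cancel₀ hP0
  push_cast at h3 ⊢
  linear_combination -h3

open S2 in
/-- `m^k (n - θ) ∈ β^k ℤ[θ]`.  In the ring `N.R` let `𝔭 = (P, θ - n)`.  Write
`F = F(n) + (X - n) F'(n) + (X - n)² H`; at `θ`: `(θ - n) F'(n) = - F(n) - (θ - n)² H(θ)`.  With
`u F'(n) = 1 + t P`, induction on `j ≤ k` gives `θ - n ∈ 𝔭^j`.  By `mul_mem_of_norm` (for `a = P` and
`a = θ - n`), `m 𝔭 ⊆ β R`, so `m^k 𝔭^k ⊆ β^k R`. -/
theorem NF.exists_alpha (N : NF d) {P k : ℕ} (hP : P.Prime) (hk : 1 ≤ k) {n m : ℤ}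
    {β : Fin d → ℤ} (hF : (P : ℤ) ^ k ∣ N.F.eval n) (hF' : ¬ (P : ℤ) ∣ (derivative N.F).eval n)
    (hβ : (P : ℤ) ∣ ∑ s, β s * n ^ (s : ℕ)) (hβ0 : β ≠ 0)
    (hm : ∏ i, N.emb β i = ((P : ℤ) * m : ℤ)) :
    ∃ w : Fin d → ℤ, ∀ i, N.emb w i * N.emb β i ^ k = (m : ℂ) ^ k * ((n : ℂ) - N.θ i) := by
  classical
  have hd := N.four_le
  have hF1 : (P : ℤ) ∣ N.F.eval n := (dvd_pow_self _ (by omega)).trans hF
  let i0 : Fin d := ⟨0, by omega⟩
  let i1 : Fin d := ⟨1, by omega⟩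
  obtain ⟨A, hA⟩ := N.mul_mem_of_norm hP hF1 hβ hβ0 hm (Pi.single i0 P)
    (by rw [sum_single]; exact Dvd.intro _ rfl)
  obtain ⟨B, hB⟩ := N.mul_mem_of_norm hP hF1 hβ hβ0 hm (Pi.single i0 n + Pi.single i1 (-1))
    (by
      simp only [Pi.add_apply, add_mul, Finset.sum_add_distrib, sum_single]
      simp [i0, i1])
  simp only [N.emb_add, emb_single, i0, i1, pow_zero, pow_one, mul_one] at hA hB
  obtain ⟨H, hH⟩ := S2.taylor N.F n
  obtain ⟨h, hh⟩ := N.exists_aeval H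
  obtain ⟨t, u, htu⟩ := (Nat.prime_iff_prime_int.1 hP).coprime_iff_not_dvd.2 hF'
  have hT : ∀ i, ((N.F.eval n : ℤ) : ℂ) + (((derivative N.F).eval n : ℤ) : ℂ) * (N.θ i - n) +
      N.emb h i * (N.θ i - n) ^ 2 = 0 := by
    intro i
    have h1 := N.root i
    rw [hH] at h1
    rw [hh]
    simpa using h1
  have htu' : (t : ℂ) * P + u * (((derivative N.F).eval n : ℤ) : ℂ) = 1 := by exact_mod_cast htu
  have key : ∀ j, j + 1 ≤ k → ∃ w ∈ N.R, ∀ i,
      w i * N.emb β i ^ (j + 1) = (m : ℂ) ^ (j + 1) * ((n : ℂ) - N.θ i) := by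
    intro j
    induction j with
    | zero =>
      intro _
      refine ⟨N.emb B, ⟨B, rfl⟩, fun i => ?_⟩
      have := hB i
      push_cast at this
      linear_combination this
    | succ j ih =>
      intro hj
      obtain ⟨w, hwR, hw⟩ := ih (by omega)
      obtain ⟨f, hf⟩ := (pow_dvd_pow (P : ℤ) hj).trans hF
      have hAR : N.emb A ∈ N.R := ⟨A, rfl⟩
      have hBR : N.emb B ∈ N.R := ⟨B, rfl⟩
      have hhR : N.emb h ∈ N.R := ⟨h, rfl⟩
      refine ⟨((u * f : ℤ) : Fin d → ℂ) * N.emb A ^ (j + 1 + 1) +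
          ((u : ℤ) : Fin d → ℂ) * N.emb h * N.emb B * w + ((t : ℤ) : Fin d → ℂ) * N.emb A * w,
        add_mem (add_mem (mul_mem (intCast_mem _ _) (pow_mem hAR _))
          (mul_mem (mul_mem (mul_mem (intCast_mem _ _) hhR) hBR) hwR))
          (mul_mem (mul_mem (intCast_mem _ _) hAR) hwR), fun i => ?_⟩
      have a1 := hA i
      have a2 := hB i
      have a3 := hw i
      have a4 := hT i
      have a5 : N.emb A i ^ (j + 1 + 1) * N.emb β i ^ (j + 1 + 1) =
          (m : ℂ) ^ (j + 1 + 1) * (P : ℂ) ^ (j + 1 + 1) := by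
        rw [← mul_pow, ← mul_pow, mul_comm (N.emb A i), a1]
        push_cast
        rfl
      rw [hf] at a4
      simp only [Pi.add_apply, Pi.mul_apply, Pi.pow_apply, Pi.intCast_apply]
      push_cast at a1 a2 a4 ⊢
      have b1 : N.emb B i * w i * N.emb β i ^ (j + 1 + 1) =
          (m : ℂ) ^ (j + 1 + 1) * ((n : ℂ) - N.θ i) ^ 2 := by
        calc _ = (N.emb β i * N.emb B i) * (w i * N.emb β i ^ (j + 1)) := by ring
          _ = _ := by rw [a2, a3]; ring
      have b2 : N.emb A i * w i * N.emb β i ^ (j + 1 + 1) =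
          (m : ℂ) ^ (j + 1 + 1) * (P * ((n : ℂ) - N.θ i)) := by
        calc _ = (N.emb β i * N.emb A i) * (w i * N.emb β i ^ (j + 1)) := by ring
          _ = _ := by rw [a1, a3]; ring
      linear_combination (u * f : ℂ) * a5 + (u * N.emb h i : ℂ) * b1 + (t : ℂ) * b2 +
        (m : ℂ) ^ (j + 1 + 1) * u * a4 + (m : ℂ) ^ (j + 1 + 1) * ((n : ℂ) - N.θ i) * htu'
  obtain ⟨j, rfl⟩ : ∃ j, k = j + 1 := ⟨k - 1, by omega⟩
  obtain ⟨w, ⟨w', rfl⟩, hw⟩ := key j le_rfl
  exact ⟨w', hw⟩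

end Crest.Agent.R22
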