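import Crest.Agent.R22.NFBasic
import Crest.Agent.R22.Sol1
import Crest.Agent.R22.Sol2

namespace Crest.Agent.R22

open Polynomial

variable {d : ℕ}

theorem sol3_prim {w : Fin d → ℤ} (hw : w ≠ 0) : ∃ (g : ℤ) (α : Fin d → ℤ), g ≠ 0 ∧ Prim α ∧
    w = g • α := by
  obtain ⟨u, hu⟩ := Finset.gcd_eq_sum_mul Finset.univ w
  have hg : Finset.univ.gcd w ≠ 0 := fun h =>
    hw (funext fun s => Finset.gcd_eq_zero_iff.1 h s (Finset.mem_univ s))
  choose α hα using fun s => (Finset.gcd_dvd (f := w) (Finset.mem_univ s) : Finset.univ.gcd w ∣ w s)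
  refine ⟨_, α, hg, ⟨u, mul_left_cancel₀ hg ?_⟩, funext hα⟩
  rw [mul_one, Finset.mul_sum]
  refine Eq.trans (Finset.sum_congr rfl fun s _ => ?_) hu.symm
  rw [mul_left_comm, ← hα, mul_comm]

theorem sol3_mul_pow (N : NF d) (α β : Fin d → ℤ) (k : ℕ) :
    ∃ γ : Fin d → ℤ, ∀ i, N.emb γ i = N.emb α i * N.emb β i ^ k := by
  induction k with
  | zero => exact ⟨α, fun i => by simp⟩
  | succ k ih =>
    obtain ⟨γ, hγ⟩ := ih
    obtain ⟨γ', hγ'⟩ := N.exists_mul γ β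
    exact ⟨γ', fun i => by rw [hγ', hγ, pow_succ, mul_assoc]⟩

theorem sol3_low {x : Fin d → ℝ} {C B : ℝ} (hC : 1 ≤ C) (hB : 0 < B) (h0 : ∀ i, 0 ≤ x i)
    (h1 : ∀ i, x i ≤ C * B) (h2 : B ^ d ≤ ∏ i, x i) (i : Fin d) : B ≤ C ^ d * x i := by
  obtain ⟨e, rfl⟩ : ∃ e, d = e + 1 := ⟨d - 1, by have := i.pos; omega⟩
  have h3 : ∏ j ∈ Finset.univ.erase i, x j ≤ (C * B) ^ e := by
    simpa using Finset.prod_le_prod (s := Finset.univ.erase i) (fun j _ => h0 j)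
      (fun j _ => h1 j)
  rw [← Finset.mul_prod_erase _ _ (Finset.mem_univ i)] at h2
  have h4 : B * B ^ e ≤ C ^ e * x i * B ^ e :=
    calc B * B ^ e = B ^ (e + 1) := by ring
      _ ≤ x i * (C * B) ^ e := h2.trans (mul_le_mul_of_nonneg_left h3 (h0 i))
      _ = _ := by ring
  exact (le_of_mul_le_mul_right h4 (pow_pos hB e)).trans
    (mul_le_mul_of_nonneg_right (pow_le_pow_right₀ hC (Nat.le_succ e)) (h0 i))

/-- Existence of the solutions.  `β` from `exists_beta`; `N β = P m ≠ 0` (`norm_int`, `dvd_norm`),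
`|β̂ i| ≤ C ‖β‖ ≤ C P^(1/d)`, so `|m| ≤ C^d`, `P ≤ (C ‖β‖)^d` and every `|β̂ i| ≥ c ‖β‖` (the product of
the conjugates is `≥ P ≥ ‖β‖^d`).  `w` from `exists_alpha` (`P > |D|` as `P > X ≥ X0`); `w = g α` with `α`
primitive; `α β^k` is the conjugate vector of an integer vector, equal to `(m^k / g)(n - θ)`, whose
coordinate `1` is `- m^k / g` (`co_emb`, `co_lin`), so `μ = m^k / g` is an integer, `|μ| ≤ |m|^k`.
Finally `|α̂ i| = |μ| |n - θ i| / |β̂ i|^k` are all comparable (`|n - θ i| ∈ [X/2, 3X]`), so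
`‖α‖ ≤ C max |α̂ j| ≤ C' |α̂ i|`.  Take `c` smaller than all these constants and `1/8`. -/
theorem NF.exists_sol (N : NF d) : ∃ c X0 : ℝ, 0 < c ∧ c ≤ 1 / 8 ∧ ∀ X ≥ X0, ∀ (n : ℤ) (P : ℕ),
    X ≤ |(n : ℝ)| → |(n : ℝ)| ≤ 2 * X → P.Prime → X < c ^ 2 * (P : ℝ) →
    (P : ℤ) ^ (d - 2) ∣ N.F.eval n →
    ∃ (μ : ℤ) (α β : Fin d → ℤ), SolSet N c X μ {n} (fun _ => α) (fun _ => β) (fun _ => P) := by
  obtain ⟨C, hC, hθ, -, hup, hdown, -⟩ := N.exists_C
  obtain ⟨D, hD, hdisc⟩ := N.exists_disc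
  have hd := N.four_le
  obtain ⟨k, hk⟩ : ∃ k, k = d - 2 := ⟨_, rfl⟩
  have hk1 : 1 ≤ k := by omega
  have hC0 : 0 < C := by linarith
  obtain ⟨T, hT⟩ : ∃ T, T = C * (C ^ d) ^ k * C ^ k := ⟨_, rfl⟩
  have hCd : 1 ≤ C ^ d := one_le_pow₀ hC
  have hT1 : (C ^ d) ^ k ≤ T := by
    rw [hT]
    exact (le_mul_of_one_le_left (by positivity) hC).trans
      (le_mul_of_one_le_right (by positivity) (one_le_pow₀ hC))
  have hT2 : C ^ d ≤ T := (le_self_pow₀ hCd (by omega)).trans hT1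
  have hT0 : 0 < T := by linarith
  have hc : ∀ a b : ℝ, 0 ≤ b → a ≤ 8 * T * b → 1 / (8 * T) * a ≤ b := fun a b _ h => by
    rwa [one_div_mul_eq_div, div_le_iff₀' (by positivity)]
  have hc8 : 1 / (8 * T) ≤ 1 / 8 := one_div_le_one_div_of_le (by norm_num) (by linarith)
  refine ⟨1 / (8 * T), |(D : ℝ)| + 2 * C, by positivity, hc8, fun X hX n P hn1 hn2 hP hXP hF => ?_⟩
  have hP0 : (0 : ℝ) < P := by exact_mod_cast hP.pos
  have hXP' : X < P := hXP.trans_le (mul_le_of_le_one_left hP0.le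
    (pow_le_one₀ (by positivity) (by linarith)))
  have hF1 : (P : ℤ) ∣ N.F.eval n := (dvd_pow_self _ (by omega)).trans hF
  have hF' : ¬ (P : ℤ) ∣ (derivative N.F).eval n := fun h => by
    have h1 : ((P : ℤ) : ℝ) ≤ |(D : ℝ)| := by
      exact_mod_cast Int.le_of_dvd (abs_pos.2 hD) ((dvd_abs _ _).2 (hdisc _ n hF1 h))
    push_cast at h1
    linarith
  obtain ⟨β, hβp, hβs, hβ⟩ := exists_beta (d := d) (by omega) P hP n
  have hβ0 := hβp.ne_zero
  have hB : 0 < ‖β‖ := norm_pos_iff.2 hβ0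
  obtain ⟨M, hM⟩ := N.norm_int β
  obtain ⟨m, rfl⟩ := N.dvd_norm hF1 hβ hM
  have hm0 : m ≠ 0 := by
    rintro rfl
    exact Finset.prod_ne_zero_iff.2 (fun i _ => N.emb_ne_zero hβ0 i) (by simpa using hM)
  have hm1 : (1 : ℝ) ≤ |(m : ℝ)| := by exact_mod_cast Int.one_le_abs hm0
  have hprod : ∏ i, ‖N.emb β i‖ = P * |(m : ℝ)| := by
    rw [← norm_prod, hM, Complex.norm_intCast]
    push_cast
    rw [abs_mul, abs_of_pos hP0]
  have hprod' : P * |(m : ℝ)| ≤ C ^ d * ‖β‖ ^ d := by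
    rw [← hprod, ← mul_pow]
    simpa using Finset.prod_le_prod (s := Finset.univ) (fun j _ => norm_nonneg (N.emb β j))
      (fun j _ => hup β j)
  have hPm : (P : ℝ) ≤ P * |(m : ℝ)| := le_mul_of_one_le_right hP0.le hm1
  have hmle : |(m : ℝ)| ≤ C ^ d := by
    refine le_of_mul_le_mul_left (hprod'.trans ?_) hP0
    rw [mul_comm]
    exact mul_le_mul_of_nonneg_right hβs (by positivity)
  have hlow := sol3_low hC hB (fun i => norm_nonneg (N.emb β i)) (hup β)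
    (hβs.trans (hPm.trans hprod.ge))
  rw [← hk] at hF
  obtain ⟨w, hw⟩ := N.exists_alpha hP hk1 hF hF' hβ hβ0 hM
  have hw0 : w ≠ 0 := by
    rintro rfl
    have h1 := hw ⟨0, by omega⟩
    rw [show N.emb 0 ⟨0, by omega⟩ = 0 by simp [NF.emb], zero_mul] at h1
    exact mul_ne_zero (pow_ne_zero _ (Int.cast_ne_zero.2 hm0))
      (sub_ne_zero.2 (N.theta_ne_int n _)) h1.symm
  obtain ⟨g, α, hg, hαp, rfl⟩ := sol3_prim hw0
  obtain ⟨γ, hγ⟩ := sol3_mul_pow N α β k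
  have hgμ : g * - γ ⟨1, by omega⟩ = m ^ k := by
    have h1 : N.emb (g • γ) = fun i => (m : ℂ) ^ k * n + - (m : ℂ) ^ k * algebraMap ℂ ℂ (N.θ i) := by
      funext i
      have h2 := hw i
      rw [N.emb_smul] at h2 ⊢
      rw [hγ, Algebra.algebraMap_self_apply]
      linear_combination h2
    have h2 := N.co_emb (g • γ) ⟨1, by omega⟩
    rw [h1, N.co_lin] at h2
    simp only [one_ne_zero, if_false, if_true, Pi.smul_apply, smul_eq_mul] at h2
    have h3 : - m ^ k = g * γ ⟨1, by omega⟩ := by exact_mod_cast h2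
    linear_combination h3
  generalize - γ ⟨1, by omega⟩ = μ at hgμ
  have hμ0 : μ ≠ 0 := by
    rintro rfl
    exact pow_ne_zero k hm0 (by simpa using hgμ.symm)
  have hμle : |(μ : ℝ)| ≤ (C ^ d) ^ k := by
    have h1 : (1 : ℝ) ≤ |(g : ℝ)| := by exact_mod_cast Int.one_le_abs hg
    have h2 : |(g : ℝ)| * |(μ : ℝ)| = |(m : ℝ)| ^ k := by
      rw [← abs_mul, ← abs_pow]
      exact_mod_cast congrArg abs hgμ
    exact (le_mul_of_one_le_left (abs_nonneg _) h1).trans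
      (h2.trans_le (pow_le_pow_left₀ (abs_nonneg _) hmle k))
  have heq : ∀ i, N.emb α i * N.emb β i ^ k = (μ : ℂ) * ((n : ℂ) - N.θ i) := fun i => by
    have h1 := hw i
    have h2 : (g : ℂ) * μ = (m : ℂ) ^ k := by exact_mod_cast hgμ
    rw [N.emb_smul] at h1
    refine mul_left_cancel₀ (Int.cast_ne_zero.2 hg : (g : ℂ) ≠ 0) ?_
    linear_combination h1 - ((n : ℂ) - N.θ i) * h2
  have hnrm : ∀ i, ‖N.emb α i‖ * ‖N.emb β i‖ ^ k = |(μ : ℝ)| * ‖(n : ℂ) - N.θ i‖ := fun i => by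
    rw [← norm_pow, ← norm_mul, heq, norm_mul, Complex.norm_intCast]
  have hDn := abs_nonneg (D : ℝ)
  have hn3 : ∀ i, ‖(n : ℂ) - N.θ i‖ ≤ 3 * X := fun i => by
    have h1 := norm_sub_le (n : ℂ) (N.θ i)
    rw [Complex.norm_intCast] at h1
    linarith [hθ i]
  have hn4 : ∀ i, X ≤ 2 * ‖(n : ℂ) - N.θ i‖ := fun i => by
    have h1 := norm_sub_norm_le (n : ℂ) (N.θ i)
    rw [Complex.norm_intCast] at h1
    linarith [hθ i]
  have hlowA : ∀ i, ‖α‖ ≤ 6 * T * ‖N.emb α i‖ := fun i => by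
    have h1 : ∀ j, ‖N.emb α j‖ ≤ 6 * (C ^ d) ^ k * C ^ k * ‖N.emb α i‖ := fun j => by
      refine le_of_mul_le_mul_right ?_ (pow_pos hB k)
      have h2 := hn3 j
      have h3 := hn4 i
      calc ‖N.emb α j‖ * ‖β‖ ^ k ≤ ‖N.emb α j‖ * (C ^ d * ‖N.emb β j‖) ^ k := by
            gcongr
            exact hlow j
        _ = (C ^ d) ^ k * (|(μ : ℝ)| * ‖(n : ℂ) - N.θ j‖) := by rw [← hnrm, mul_pow]; ring
        _ ≤ (C ^ d) ^ k * (|(μ : ℝ)| * (6 * ‖(n : ℂ) - N.θ i‖)) := by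
            gcongr
            linarith
        _ = 6 * (C ^ d) ^ k * (‖N.emb α i‖ * ‖N.emb β i‖ ^ k) := by rw [hnrm]; ring
        _ ≤ 6 * (C ^ d) ^ k * (‖N.emb α i‖ * (C * ‖β‖) ^ k) := by
            gcongr
            exact hup β i
        _ = _ := by rw [mul_pow]; ring
    refine (hdown α _ h1).trans (le_of_eq ?_)
    rw [hT]
    ring
  refine ⟨μ, α, β, hμ0, hc _ _ zero_le_one (by linarith), fun n' hn' => ?_, fun n' hn' i => ?_,
    fun _ _ => hαp, fun _ _ => hβp, fun _ _ => hP, fun _ _ => hXP, fun n' hn' => ?_,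
    fun n' hn' => ?_, fun _ _ i => hc _ _ (norm_nonneg _) ?_, fun _ _ i => hc _ _ (norm_nonneg _) ?_,
    fun _ _ => hc _ _ (by positivity) ?_⟩
  · rw [Finset.mem_singleton.1 hn']
    exact ⟨hn1, hn2⟩
  · rw [Finset.mem_singleton.1 hn', ← hk]
    exact heq i
  · rw [Finset.mem_singleton.1 hn']
    exact hF1
  · rw [Finset.mem_singleton.1 hn']
    exact hβ
  · exact (hlowA i).trans (mul_le_mul_of_nonneg_right (by linarith) (norm_nonneg _))
  · exact (hlow i).trans (mul_le_mul_of_nonneg_right (by linarith) (norm_nonneg _))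
  · exact (hPm.trans hprod').trans (mul_le_mul_of_nonneg_right (by linarith) (by positivity))

end Crest.Agent.R22
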