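import Crest.Agent.R22.Three
import Crest.Agent.R22.Zero
import Crest.Agent.R22.Ker

namespace Crest.Agent.R22

open MvPolynomial

/-- the nodal weights -/
noncomputable def spec1w (N : NF 4) (i : Fin 4) : ℂ := ∏ l ∈ Finset.univ.erase i, (N.θ i - N.θ l)⁻¹

theorem spec1_sum (N : NF 4) (s : ℕ) (hs : s < 4) :
    ∑ i, spec1w N i * N.θ i ^ s = if s = 3 then 1 else 0 := by
  have h := Lagrange.coeff_eq_sum (s := Finset.univ) (v := N.θ) N.inj.injOn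
    (P := Polynomial.X ^ s) (by
      rw [Polynomial.degree_X_pow, Finset.card_univ, Fintype.card_fin]; exact_mod_cast hs)
  rw [Finset.card_univ, Fintype.card_fin, Polynomial.coeff_X_pow] at h
  have e : ∑ i, spec1w N i * N.θ i ^ s = ∑ i, Polynomial.eval (N.θ i) (Polynomial.X ^ s) /
      ∏ j ∈ Finset.univ.erase i, (N.θ i - N.θ j) := by
    refine Finset.sum_congr rfl fun i _ => ?_
    rw [spec1w, Finset.prod_inv_distrib, Polynomial.eval_pow, Polynomial.eval_X, div_eq_inv_mul]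
  rw [e, ← h]
  simp only [eq_comm]

theorem spec1_det (N : NF 4) (e1 e2 : Fin 4 → ℤ) {Ω : Type} [CommRing Ω] [Algebra ℂ Ω]
    (y : Fin 4 → Ω) : quart N e1 e2 y =
      (∑ i, algebraMap ℂ Ω (spec1w N i) * (algebraMap ℂ Ω (N.emb e1 i) * y i ^ 2)) *
        (∑ i, algebraMap ℂ Ω (spec1w N i) *
          (algebraMap ℂ Ω (N.θ i) * (algebraMap ℂ Ω (N.emb e2 i) * y i ^ 2))) -
      (∑ i, algebraMap ℂ Ω (spec1w N i) * (algebraMap ℂ Ω (N.emb e2 i) * y i ^ 2)) *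
        (∑ i, algebraMap ℂ Ω (spec1w N i) *
          (algebraMap ℂ Ω (N.θ i) * (algebraMap ℂ Ω (N.emb e1 i) * y i ^ 2))) := by
  have e : quart N e1 e2 y = ∑ i, ∑ j, if i < j then
      algebraMap ℂ Ω (spec1w N i * spec1w N j * (N.θ j - N.θ i) * N.PP e1 e2 i j) *
        (y i ^ 2 * y j ^ 2) else 0 := rfl
  rw [e]
  simp only [NF.PP, map_mul, map_sub]
  simp [Fin.sum_univ_four]
  ring

theorem spec1_int (N : NF 4) {z : Fin 4 → ℂ} (hz : z ∈ N.R) :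
    ∃ m : ℤ, ∑ i, spec1w N i * z i = m := by
  obtain ⟨a, rfl⟩ := (N.mem_R z).1 hz
  refine ⟨a 3, ?_⟩
  have e : ∑ i, spec1w N i * N.emb a i =
      ∑ s : Fin 4, (a s : ℂ) * ∑ i, spec1w N i * N.θ i ^ (s : ℕ) := by
    simp only [NF.emb, Finset.mul_sum]
    rw [Finset.sum_comm]
    exact Finset.sum_congr rfl fun s _ => Finset.sum_congr rfl fun i _ => by ring
  rw [e]
  simp only [spec1_sum N _ (Fin.is_lt _)]
  simp [Fin.sum_univ_four]

/-- With `w i = ∏_{l ≠ i} (θ i - θ l)⁻¹`: `∑ w i = ∑ w i θ i = ∑ w i θ i² = 0`, so the two linear equations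
`∑ w i Y i (A i x + B i) = 0`, `∑ w i θ i Y i (A i x + B i) = 0` (`Y = b²`) have the solution `(x, 1)`; their
determinant `(∑ w A Y)(∑ w θ B Y) - (∑ w B Y)(∑ w θ A Y)` is `quart`. -/
theorem Rel.quart_eq_zero {N : NF 4} {e1 e2 : Fin 4 → ℤ} {Ω : Type} [Field Ω] [Algebra ℂ Ω]
    {x nn : Ω} {b : Fin 4 → Ω} (h : Rel N 2 1 e1 e2 x nn b) : quart N e1 e2 b = 0 := by
  have hs : ∀ s < 4, ∑ i, algebraMap ℂ Ω (spec1w N i) * algebraMap ℂ Ω (N.θ i) ^ s =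
      if s = 3 then 1 else 0 := fun s hs => by
    have := congrArg (algebraMap ℂ Ω) (spec1_sum N s hs)
    simp only [map_sum, map_mul, map_pow] at this
    rw [this]
    split_ifs <;> simp
  have h0 := hs 0 (by norm_num)
  have h1 := hs 1 (by norm_num)
  have h2 := hs 2 (by norm_num)
  have r0 := h 0
  have r1 := h 1
  have r2 := h 2
  have r3 := h 3
  rw [spec1_det]
  simp only [Fin.sum_univ_four] at h0 h1 h2 ⊢
  norm_num at h0 h1 h2 r0 r1 r2 r3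
  generalize algebraMap ℂ Ω = φ at *
  have k1 : (φ (spec1w N 0) * (φ (N.emb e2 0) * b 0 ^ 2) + φ (spec1w N 1) * (φ (N.emb e2 1) * b 1 ^ 2) +
      φ (spec1w N 2) * (φ (N.emb e2 2) * b 2 ^ 2) + φ (spec1w N 3) * (φ (N.emb e2 3) * b 3 ^ 2)) =
      -x * (φ (spec1w N 0) * (φ (N.emb e1 0) * b 0 ^ 2) + φ (spec1w N 1) * (φ (N.emb e1 1) * b 1 ^ 2) +
      φ (spec1w N 2) * (φ (N.emb e1 2) * b 2 ^ 2) + φ (spec1w N 3) * (φ (N.emb e1 3) * b 3 ^ 2)) := by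
    linear_combination φ (spec1w N 0) * r0 + φ (spec1w N 1) * r1 + φ (spec1w N 2) * r2 +
      φ (spec1w N 3) * r3 + nn * h0 - h1
  have k2 : (φ (spec1w N 0) * (φ (N.θ 0) * (φ (N.emb e2 0) * b 0 ^ 2)) +
      φ (spec1w N 1) * (φ (N.θ 1) * (φ (N.emb e2 1) * b 1 ^ 2)) +
      φ (spec1w N 2) * (φ (N.θ 2) * (φ (N.emb e2 2) * b 2 ^ 2)) +
      φ (spec1w N 3) * (φ (N.θ 3) * (φ (N.emb e2 3) * b 3 ^ 2))) =
      -x * (φ (spec1w N 0) * (φ (N.θ 0) * (φ (N.emb e1 0) * b 0 ^ 2)) +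
      φ (spec1w N 1) * (φ (N.θ 1) * (φ (N.emb e1 1) * b 1 ^ 2)) +
      φ (spec1w N 2) * (φ (N.θ 2) * (φ (N.emb e1 2) * b 2 ^ 2)) +
      φ (spec1w N 3) * (φ (N.θ 3) * (φ (N.emb e1 3) * b 3 ^ 2))) := by
    linear_combination φ (spec1w N 0) * φ (N.θ 0) * r0 + φ (spec1w N 1) * φ (N.θ 1) * r1 +
      φ (spec1w N 2) * φ (N.θ 2) * r2 + φ (spec1w N 3) * φ (N.θ 3) * r3 + nn * h1 - h2
  rw [k1, k2]
  ring

/-- `quart` takes integer values at integer vectors: `∑ i, w i * ẑ i` is the coordinate `3` of `z`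
(`w i = cinv 3 i`, since `∑ w i θ i^s = δ_{s,3}`), and `quart` is the determinant above, whose entries are such
sums for the integer vectors `e1 γ², θ e2 γ², e2 γ², θ e1 γ²` (`N.R`). -/
theorem NF.quart_int (N : NF 4) (e1 e2 γ : Fin 4 → ℤ) : ∃ m : ℤ, quart N e1 e2 (N.emb γ) = (m : ℂ) := by
  have m1 : N.emb e1 ∈ N.R := (N.mem_R _).2 ⟨_, rfl⟩
  have m2 : N.emb e2 ∈ N.R := (N.mem_R _).2 ⟨_, rfl⟩
  have m3 : N.emb γ ^ 2 ∈ N.R := N.R.pow_mem ((N.mem_R _).2 ⟨_, rfl⟩) 2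
  obtain ⟨a, ha⟩ := spec1_int N (N.R.mul_mem m1 m3)
  obtain ⟨b, hb⟩ := spec1_int N (N.R.mul_mem N.theta_mem_R (N.R.mul_mem m2 m3))
  obtain ⟨c, hc⟩ := spec1_int N (N.R.mul_mem m2 m3)
  obtain ⟨e, he⟩ := spec1_int N (N.R.mul_mem N.theta_mem_R (N.R.mul_mem m1 m3))
  refine ⟨a * b - c * e, ?_⟩
  rw [spec1_det]
  simp only [Pi.mul_apply, Pi.pow_apply] at ha hb hc he
  simp only [Algebra.algebraMap_self, RingHom.id_apply]
  rw [ha, hb, hc, he]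
  push_cast
  rfl

end Crest.Agent.R22
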