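import Crest.Agent.R22.Three
import Crest.Agent.R22.Zero
import Crest.Agent.R22.Ker

namespace Crest.Agent.R22

open MvPolynomial

theorem spec2_core {q01 q02 q03 q12 q13 q23 a b c e : ℂ} (ha : a ≠ 0) (hb : b ≠ 0) (hc : c ≠ 0)
    (he : e ≠ 0) (hΔ : a * e - b * c ≠ 0)
    (h : ∀ S T : ℂ, q01 * (S ^ 2 * T ^ 2) + q02 * (S ^ 2 * (a * S + b * T) ^ 2) +
      q03 * (S ^ 2 * (c * S + e * T) ^ 2) + q12 * (T ^ 2 * (a * S + b * T) ^ 2) +
      q13 * (T ^ 2 * (c * S + e * T) ^ 2) + q23 * ((a * S + b * T) ^ 2 * (c * S + e * T) ^ 2) = 0) :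
    q02 * (a * e - b * c) = q23 * b * c ^ 3 ∧ q03 * (a * e - b * c) = -(q23 * a ^ 3 * e) ∧
      q12 * (a * e - b * c) = -(q23 * a * e ^ 3) ∧ q13 * (a * e - b * c) = q23 * b ^ 3 * c ∧
      q01 = q23 * (a * e - b * c) ^ 2 := by
  have c4 : q02 * a ^ 2 + q03 * c ^ 2 + q23 * a ^ 2 * c ^ 2 = 0 := by linear_combination h 1 0
  have c0 : q12 * b ^ 2 + q13 * e ^ 2 + q23 * b ^ 2 * e ^ 2 = 0 := by linear_combination h 0 1
  have c1 : q12 * a * b + q13 * c * e + q23 * b * e * (a * e + b * c) = 0 := by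
    linear_combination (1 / 24 : ℂ) * (h 1 2 - h 1 (-2) - 2 * (h 1 1 - h 1 (-1)))
  have c3 : q02 * a * b + q03 * c * e + q23 * a * c * (a * e + b * c) = 0 := by
    linear_combination (1 / 4 : ℂ) * (h 1 1 - h 1 (-1)) - c1
  have c2 : q01 + q02 * b ^ 2 + q03 * e ^ 2 + q12 * a ^ 2 + q13 * c ^ 2 +
      q23 * ((a * e + b * c) ^ 2 + 2 * a * b * c * e) = 0 := by
    linear_combination (1 / 2 : ℂ) * (h 1 1 + h 1 (-1)) - c4 - c0
  have k02 : q02 * (a * e - b * c) = q23 * b * c ^ 3 :=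
    mul_left_cancel₀ ha (by linear_combination e * c4 - c * c3)
  have k03 : q03 * (a * e - b * c) = -(q23 * a ^ 3 * e) :=
    mul_left_cancel₀ hc (by linear_combination a * c3 - b * c4)
  have k12 : q12 * (a * e - b * c) = -(q23 * a * e ^ 3) :=
    mul_left_cancel₀ hb (by linear_combination e * c1 - c * c0)
  have k13 : q13 * (a * e - b * c) = q23 * b ^ 3 * c :=
    mul_left_cancel₀ he (by linear_combination a * c0 - b * c1)
  refine ⟨k02, k03, k12, k13, mul_right_cancel₀ hΔ ?_⟩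
  linear_combination (a * e - b * c) * c2 - b ^ 2 * k02 - e ^ 2 * k03 - a ^ 2 * k12 - c ^ 2 * k13

theorem spec2_tri {p q r x y z : ℂ} (hp : p ≠ 0) (hq : q ≠ 0) (hr : r ≠ 0)
    (h : p * (x ^ 2 * y ^ 2) + q * (x ^ 2 * z ^ 2) + r * (y ^ 2 * z ^ 2) = 0)
    (hxy : ¬(x = 0 ∧ y = 0)) (hxz : ¬(x = 0 ∧ z = 0)) (hyz : ¬(y = 0 ∧ z = 0)) :
    x ≠ 0 ∧ y ≠ 0 ∧ z ≠ 0 := by
  refine ⟨?_, ?_, ?_⟩
  · rintro rfl
    have : r * (y ^ 2 * z ^ 2) = 0 := by linear_combination h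
    simp only [mul_eq_zero, pow_eq_zero_iff two_ne_zero] at this
    tauto
  · rintro rfl
    have : q * (x ^ 2 * z ^ 2) = 0 := by linear_combination h
    simp only [mul_eq_zero, pow_eq_zero_iff two_ne_zero] at this
    tauto
  · rintro rfl
    have : p * (x ^ 2 * y ^ 2) = 0 := by linear_combination h
    simp only [mul_eq_zero, pow_eq_zero_iff two_ne_zero] at this
    tauto

/-- the constant part of the coefficients of `quart` -/
noncomputable def spec2w (N : NF 4) (i j : Fin 4) : ℂ :=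
  (∏ l ∈ Finset.univ.erase i, (N.θ i - N.θ l)⁻¹) *
    (∏ l ∈ Finset.univ.erase j, (N.θ j - N.θ l)⁻¹) * (N.θ j - N.θ i)

theorem spec2w_ne (N : NF 4) {i j : Fin 4} (h : i ≠ j) : spec2w N i j ≠ 0 := by
  have key : ∀ i : Fin 4, ∏ l ∈ Finset.univ.erase i, (N.θ i - N.θ l)⁻¹ ≠ 0 := fun i =>
    Finset.prod_ne_zero_iff.2 fun l hl => inv_ne_zero (sub_ne_zero.2 fun e =>
      (Finset.mem_erase.1 hl).1 (N.inj e).symm)
  exact mul_ne_zero (mul_ne_zero (key i) (key j)) (sub_ne_zero.2 fun e => h (N.inj e).symm)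

theorem spec2_quart (N : NF 4) (e1 e2 : Fin 4 → ℤ) (y : Fin 4 → ℂ) :
    quart N e1 e2 y = spec2w N 0 1 * N.PP e1 e2 0 1 * (y 0 ^ 2 * y 1 ^ 2) +
      spec2w N 0 2 * N.PP e1 e2 0 2 * (y 0 ^ 2 * y 2 ^ 2) +
      spec2w N 0 3 * N.PP e1 e2 0 3 * (y 0 ^ 2 * y 3 ^ 2) +
      spec2w N 1 2 * N.PP e1 e2 1 2 * (y 1 ^ 2 * y 2 ^ 2) +
      spec2w N 1 3 * N.PP e1 e2 1 3 * (y 1 ^ 2 * y 3 ^ 2) +
      spec2w N 2 3 * N.PP e1 e2 2 3 * (y 2 ^ 2 * y 3 ^ 2) := by
  have e : quart N e1 e2 y = ∑ i, ∑ j, if i < j then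
      spec2w N i j * N.PP e1 e2 i j * (y i ^ 2 * y j ^ 2) else 0 := rfl
  rw [e]
  simp [Fin.sum_univ_four]
  ring

theorem spec2_poly {A B D : ℂ} (hA : A ≠ 0) (hB : B ≠ 0) :
    ∃ T : Finset ℂ, ∀ r : ℂ, B * D * (r - 1) ^ 4 - A * D + A * B * r ^ 4 = 0 → r ∈ T := by
  classical
  let p : Polynomial ℂ := Polynomial.C (B * D) * (Polynomial.X - 1) ^ 4 - Polynomial.C (A * D) +
    Polynomial.C (A * B) * Polynomial.X ^ 4
  have hev : ∀ r, p.eval r = B * D * (r - 1) ^ 4 - A * D + A * B * r ^ 4 := fun r => by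
    simp [p]
  have hp : p ≠ 0 := by
    intro h0
    have h1 := hev 0
    have h2 := hev 2
    rw [h0, Polynomial.eval_zero] at h1 h2
    exact mul_ne_zero hA hB (by linear_combination (1 / 16 : ℂ) * (h1 - h2))
  refine ⟨p.roots.toFinset, fun r hr => ?_⟩
  rw [Multiset.mem_toFinset, Polynomial.mem_roots hp, Polynomial.IsRoot, hev, hr]

/-- Rational lines on the quartic.  Let `m i = s m̂1 i + t m̂2 i`, `z i j = PP m1 m2 i j`, `q i j ≠ 0` the
coefficients of `quart`.  If some `z i j = 0` and the two other `z i k, z i l` are nonzero, evaluate at the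
zero of `m i`: only `q k l m k² m l² ≠ 0` survives, a contradiction; if two of the `z i ·` vanish, `three`
contradicts independence.  So all `z i j ≠ 0`.  Use `S = m 0`, `T = m 1` as coordinates, `m 2 = a S + b T`,
`m 3 = c S + e T` with `a, b, c, e ≠ 0`, `Δ = a e - b c ≠ 0`.  Comparing the five coefficients gives (with
`q23 = 1`) `q02 = b c³ / Δ`, `q03 = - a³ e / Δ`, `q12 = - a e³ / Δ`, `q13 = b³ c / Δ`, `q01 = Δ²`; so with `U = a e`,
`V = b c`: `q01 q23 : q02 q13 : q03 q12 = (U - V)⁴ : V⁴ : U⁴`.  Let `A' = (θ1-θ0)(θ3-θ2)`, `B' = (θ2-θ0)(θ3-θ1)`,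
`C' = (θ3-θ0)(θ2-θ1)`.  The Plücker relation `P01 P23 - P02 P13 + P03 P12 = 0` shows that `r = U / V` is a root
of `(r-1)⁴ / A' - 1 / B' + r⁴ / C'`, a nonzero polynomial (coefficient of `r` is `-4 / A'`), and
`P01 P23 = (r-1)⁴ (B' / A') P02 P13`.  `𝒮` is the image of the root set. -/
theorem NF.special_of_line (N : NF 4) : ∃ 𝒮 : Finset ℂ, ∀ e1 e2 m1 m2 : Fin 4 → ℤ,
    (∀ i j, i ≠ j → N.PP e1 e2 i j ≠ 0) → (∃ s t, minor m1 m2 s t ≠ 0) →
    (∀ s t : ℂ, quart N e1 e2 (fun i => s * N.emb m1 i + t * N.emb m2 i) = 0) →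
    Special N 𝒮 e1 e2 := by
  classical
  have w01 := spec2w_ne N (show (0 : Fin 4) ≠ 1 by decide)
  have w02 := spec2w_ne N (show (0 : Fin 4) ≠ 2 by decide)
  have w03 := spec2w_ne N (show (0 : Fin 4) ≠ 3 by decide)
  have w12 := spec2w_ne N (show (1 : Fin 4) ≠ 2 by decide)
  have w13 := spec2w_ne N (show (1 : Fin 4) ≠ 3 by decide)
  have w23 := spec2w_ne N (show (2 : Fin 4) ≠ 3 by decide)
  obtain ⟨T, hT⟩ := spec2_poly (D := spec2w N 0 3 * spec2w N 1 2) (mul_ne_zero w01 w23)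
    (mul_ne_zero w02 w13)
  refine ⟨T.image fun r => (r - 1) ^ 4 * (spec2w N 0 2 * spec2w N 1 3) / (spec2w N 0 1 * spec2w N 2 3),
    fun e1 e2 m1 m2 hP hm hq => ?_⟩
  have hm1 : m1 ≠ 0 := by
    rintro rfl
    obtain ⟨s, t, h⟩ := hm
    exact h (by simp [minor])
  have h3 : ∀ i j l : Fin 4, i ≠ j → i ≠ l → j ≠ l →
      ¬(N.PP m1 m2 i j = 0 ∧ N.PP m1 m2 i l = 0) := by
    rintro i j l hij hil hjl ⟨h, h'⟩
    obtain ⟨s, t, hst⟩ := hm
    exact hst (N.three hm1 hij hil hjl h h' s t)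
  simp only [spec2_quart] at hq
  have P01 := hP 0 1 (by decide)
  have P02 := hP 0 2 (by decide)
  have P03 := hP 0 3 (by decide)
  have P12 := hP 1 2 (by decide)
  have P13 := hP 1 3 (by decide)
  have P23 := hP 2 3 (by decide)
  have hpl : N.PP e1 e2 0 1 * N.PP e1 e2 2 3 - N.PP e1 e2 0 2 * N.PP e1 e2 1 3 +
      N.PP e1 e2 0 3 * N.PP e1 e2 1 2 = 0 := by simp only [NF.PP]; ring
  obtain ⟨z01, z02, z03⟩ := spec2_tri (mul_ne_zero w12 P12) (mul_ne_zero w13 P13)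
    (mul_ne_zero w23 P23) (x := N.PP m1 m2 0 1) (y := N.PP m1 m2 0 2) (z := N.PP m1 m2 0 3)
    (by have := hq (N.emb m2 0) (-N.emb m1 0)
        generalize N.PP e1 e2 = P at this ⊢
        simp only [NF.PP]
        linear_combination this)
    (h3 0 1 2 (by decide) (by decide) (by decide)) (h3 0 1 3 (by decide) (by decide) (by decide))
    (h3 0 2 3 (by decide) (by decide) (by decide))
  obtain ⟨-, z12, z13⟩ := spec2_tri (mul_ne_zero w02 P02) (mul_ne_zero w03 P03)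
    (mul_ne_zero w23 P23) (x := N.PP m1 m2 1 0) (y := N.PP m1 m2 1 2) (z := N.PP m1 m2 1 3)
    (by have := hq (N.emb m2 1) (-N.emb m1 1)
        generalize N.PP e1 e2 = P at this ⊢
        simp only [NF.PP]
        linear_combination this)
    (h3 1 0 2 (by decide) (by decide) (by decide)) (h3 1 0 3 (by decide) (by decide) (by decide))
    (h3 1 2 3 (by decide) (by decide) (by decide))
  obtain ⟨-, -, z23⟩ := spec2_tri (mul_ne_zero w01 P01) (mul_ne_zero w03 P03)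
    (mul_ne_zero w13 P13) (x := N.PP m1 m2 2 0) (y := N.PP m1 m2 2 1) (z := N.PP m1 m2 2 3)
    (by have := hq (N.emb m2 2) (-N.emb m1 2)
        generalize N.PP e1 e2 = P at this ⊢
        simp only [NF.PP]
        linear_combination this)
    (h3 2 0 1 (by decide) (by decide) (by decide)) (h3 2 0 3 (by decide) (by decide) (by decide))
    (h3 2 1 3 (by decide) (by decide) (by decide))
  have hΔ : -N.PP m1 m2 1 2 * N.PP m1 m2 0 3 - N.PP m1 m2 0 2 * -N.PP m1 m2 1 3 ≠ 0 := by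
    have : -N.PP m1 m2 1 2 * N.PP m1 m2 0 3 - N.PP m1 m2 0 2 * -N.PP m1 m2 1 3 =
        N.PP m1 m2 0 1 * N.PP m1 m2 2 3 := by simp only [NF.PP]; ring
    rw [this]; exact mul_ne_zero z01 z23
  obtain ⟨k02, k03, k12, k13, k01⟩ := spec2_core
    (q01 := spec2w N 0 1 * N.PP e1 e2 0 1 * N.PP m1 m2 0 1 ^ 4)
    (q02 := spec2w N 0 2 * N.PP e1 e2 0 2 * N.PP m1 m2 0 1 ^ 2)
    (q03 := spec2w N 0 3 * N.PP e1 e2 0 3 * N.PP m1 m2 0 1 ^ 2)
    (q12 := spec2w N 1 2 * N.PP e1 e2 1 2 * N.PP m1 m2 0 1 ^ 2)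
    (q13 := spec2w N 1 3 * N.PP e1 e2 1 3 * N.PP m1 m2 0 1 ^ 2)
    (q23 := spec2w N 2 3 * N.PP e1 e2 2 3) (neg_ne_zero.2 z12) z02 (neg_ne_zero.2 z13) z03 hΔ
    (fun S T => by
      have := hq (S * N.emb m2 1 - T * N.emb m2 0) (T * N.emb m1 0 - S * N.emb m1 1)
      have e0 : (S * N.emb m2 1 - T * N.emb m2 0) * N.emb m1 0 +
          (T * N.emb m1 0 - S * N.emb m1 1) * N.emb m2 0 = S * N.PP m1 m2 0 1 := by
        simp only [NF.PP]; ring
      have e1' : (S * N.emb m2 1 - T * N.emb m2 0) * N.emb m1 1 +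
          (T * N.emb m1 0 - S * N.emb m1 1) * N.emb m2 1 = T * N.PP m1 m2 0 1 := by
        simp only [NF.PP]; ring
      have e2' : (S * N.emb m2 1 - T * N.emb m2 0) * N.emb m1 2 +
          (T * N.emb m1 0 - S * N.emb m1 1) * N.emb m2 2 =
          -N.PP m1 m2 1 2 * S + N.PP m1 m2 0 2 * T := by
        simp only [NF.PP]; ring
      have e3 : (S * N.emb m2 1 - T * N.emb m2 0) * N.emb m1 3 +
          (T * N.emb m1 0 - S * N.emb m1 1) * N.emb m2 3 =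
          -N.PP m1 m2 1 3 * S + N.PP m1 m2 0 3 * T := by
        simp only [NF.PP]; ring
      rw [e0, e1', e2', e3] at this
      linear_combination this)
  have hb := z02
  have hc := neg_ne_zero.2 z13
  have hκ := mul_ne_zero w23 P23
  unfold Special
  generalize -N.PP m1 m2 1 2 = a at *
  generalize N.PP m1 m2 0 2 = b at *
  generalize -N.PP m1 m2 1 3 = c at *
  generalize N.PP m1 m2 0 3 = e at *
  generalize N.PP m1 m2 0 1 = Z at *
  generalize N.PP e1 e2 = P at *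
  generalize spec2w N = w at *
  have hV : b * c ≠ 0 := mul_ne_zero hb hc
  -- the three products
  have j1 : Z ^ 4 * (a * e - b * c) ^ 2 * (w 0 1 * w 2 3) * (P 0 1 * P 2 3) =
      (w 2 3 * P 2 3) ^ 2 * (a * e - b * c) ^ 4 := by
    linear_combination (w 2 3 * P 2 3 * (a * e - b * c) ^ 2) * k01
  have j2 : Z ^ 4 * (a * e - b * c) ^ 2 * (w 0 2 * w 1 3) * (P 0 2 * P 1 3) =
      (w 2 3 * P 2 3) ^ 2 * (b * c) ^ 4 := by
    linear_combination (w 1 3 * P 1 3 * Z ^ 2 * (a * e - b * c)) * k02 +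
      (w 2 3 * P 2 3 * b * c ^ 3) * k13
  have j3 : Z ^ 4 * (a * e - b * c) ^ 2 * (w 0 3 * w 1 2) * (P 0 3 * P 1 2) =
      (w 2 3 * P 2 3) ^ 2 * (a * e) ^ 4 := by
    linear_combination (w 1 2 * P 1 2 * Z ^ 2 * (a * e - b * c)) * k03 -
      (w 2 3 * P 2 3 * a ^ 3 * e) * k12
  have hL : Z ^ 4 * (a * e - b * c) ^ 2 ≠ 0 := mul_ne_zero (pow_ne_zero _ z01) (pow_ne_zero _ hΔ)
  have hA := mul_ne_zero w01 w23
  obtain ⟨r, hr⟩ : ∃ r : ℂ, a * e = r * (b * c) := ⟨a * e / (b * c), by field_simp⟩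
  generalize Z ^ 4 * (a * e - b * c) ^ 2 = L at *
  rw [hr] at j1 j3
  generalize b * c = V at *
  generalize w 2 3 * P 2 3 = κ at *
  generalize w 0 1 * w 2 3 = A at *
  generalize w 0 2 * w 1 3 = B at *
  generalize w 0 3 * w 1 2 = D at *
  refine ⟨_, Finset.mem_image.2 ⟨r, hT r ?_, rfl⟩, ?_⟩
  · refine mul_left_cancel₀ (mul_ne_zero (pow_ne_zero 2 hκ) (pow_ne_zero 4 hV)) ?_
    linear_combination (L * A * B * D) * hpl - B * D * j1 + A * D * j2 - A * B * j3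
  · rw [div_mul_eq_mul_div, eq_div_iff hA]
    refine mul_left_cancel₀ hL ?_
    linear_combination j1 - (r - 1) ^ 4 * j2

end Crest.Agent.R22
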