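import Crest.Agent.R22.Three
import Crest.Agent.R22.Zero
import Crest.Agent.R22.Ker

namespace Crest.Agent.R22

open MvPolynomial

theorem spec3_ker (n : Fin 3 → ℤ) : ∃ u v : Fin 3 → ℤ, (∃ s t, minor u v s t ≠ 0) ∧
    ∑ i, n i * u i = 0 ∧ ∑ i, n i * v i = 0 := by
  by_cases h0 : n 0 = 0
  · by_cases h1 : n 1 = 0
    · exact ⟨![1, 0, 0], ![0, 1, 0], ⟨0, 1, by simp [minor]⟩, by simp [Fin.sum_univ_three, h0],
        by simp [Fin.sum_univ_three, h1]⟩
    · exact ⟨![1, 0, 0], ![0, n 2, -n 1], ⟨0, 2, by simp [minor, h1]⟩,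
        by simp [Fin.sum_univ_three, h0], by simp [Fin.sum_univ_three]; ring⟩
  · exact ⟨![n 1, -n 0, 0], ![n 2, 0, -n 0], ⟨1, 2, by simp [minor, h0]⟩,
      by simp [Fin.sum_univ_three]; ring, by simp [Fin.sum_univ_three]; ring⟩

theorem spec3_pt (P : MvPolynomial (Fin 3) ℤ) (hP0 : P ≠ 0) (e : Fin 3 → ℤ) :
    ∃ f : Fin 3 → ℤ, eval f P ≠ 0 ∧ eval (f + e) P ≠ 0 := by
  by_contra hc
  push Not at hc
  have hev : ∀ f : Fin 3 → ℤ, eval f (aeval (fun i => X i + C (e i)) P) = eval (f + e) P := by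
    intro f
    rw [← MvPolynomial.aeval_eq_eval, ← AlgHom.comp_apply, MvPolynomial.comp_aeval,
      MvPolynomial.aeval_eq_eval]
    congr 2
    funext i
    simp
  have h1 : P * aeval (fun i => X i + C (e i)) P = 0 := MvPolynomial.funext fun f => by
    rw [map_mul, hev, map_zero]
    by_cases h : eval f P = 0
    · rw [h, zero_mul]
    · rw [hc f h, mul_zero]
  have h2 := (mul_eq_zero.1 h1).resolve_left hP0
  refine hP0 (MvPolynomial.funext fun f => ?_)
  have := hev (f - e)
  rw [h2, sub_add_cancel] at this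
  exact this.symm

/-- A ternary quartic with integer values, divisible by a cubic form with integer coefficients, vanishes
on a rational line.  `G = P L` with `L` a complex linear form (if `G = 0` take any line).  `G` has rational
coefficients (integer-valued; or argue with values): `L(f) = G(f) / P(f)` is rational at every integer
point with `P(f) ≠ 0`, and such points span `ℚ³` (a nonzero polynomial `P * (linear form)` does not vanish on
`ℤ³`: `MvPolynomial.funext_set`); so `L` has rational coefficients, and its kernel contains two independent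
integer vectors. -/
theorem exists_rational_line (G : MvPolynomial (Fin 3) ℂ) (hG : G.IsHomogeneous 4)
    (hint : ∀ f : Fin 3 → ℤ, ∃ m : ℤ, eval (fun r => (f r : ℂ)) G = m)
    (P : MvPolynomial (Fin 3) ℤ) (hP : P.IsHomogeneous 3) (hP0 : P ≠ 0)
    (hdvd : map (Int.castRingHom ℂ) P ∣ G) : ∃ u v : Fin 3 → ℤ, (∃ s t, minor u v s t ≠ 0) ∧
      ∀ s t : ℂ, eval (fun r => s * u r + t * v r) G = 0 := by
  classical
  obtain ⟨L, hL⟩ := hdvd
  have hP' : (map (Int.castRingHom ℂ) P).IsHomogeneous 3 := hP.map _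
  have hG1 : G = map (Int.castRingHom ℂ) P * homogeneousComponent 1 L := by
    have e1 : G = homogeneousComponent 4 G := by
      rw [homogeneousComponent_of_mem ((mem_homogeneousSubmodule _ _).2 hG), if_pos rfl]
    rw [e1, hL]
    nth_rewrite 1 [← sum_homogeneousComponent L]
    rw [Finset.mul_sum, map_sum, Finset.sum_eq_single 1]
    · rw [homogeneousComponent_of_mem ((mem_homogeneousSubmodule _ _).2
        (hP'.mul (homogeneousComponent_isHomogeneous 1 L))), if_pos rfl]
    · intro n _ hn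
      rw [homogeneousComponent_of_mem ((mem_homogeneousSubmodule _ _).2
        (hP'.mul (homogeneousComponent_isHomogeneous n L))), if_neg (by omega)]
    · intro h
      rw [homogeneousComponent_eq_zero 1 L (by simpa using h), mul_zero, map_zero]
  obtain ⟨c, hc⟩ : ∃ c : Fin 3 → ℂ, ∑ i, c i • X i = homogeneousComponent 1 L := by
    have := homogeneousComponent_mem 1 L
    rw [homogeneousSubmodule_one_eq_span_X] at this
    exact (Submodule.mem_span_range_iff_exists_fun ℂ).1 this
  have hev : ∀ y : Fin 3 → ℂ, eval y G = eval y (map (Int.castRingHom ℂ) P) * ∑ i, c i * y i := by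
    intro y
    rw [hG1, map_mul, ← hc]
    simp
  have hrat : ∀ f : Fin 3 → ℤ, eval f P ≠ 0 → ∃ q : ℚ, ∑ i, c i * f i = q := by
    intro f hf
    obtain ⟨m, hm⟩ := hint f
    have e : eval (fun r => (f r : ℂ)) (map (Int.castRingHom ℂ) P) = (eval f P : ℤ) := by
      rw [eval_map]
      exact (eval₂_comp_left (Int.castRingHom ℂ) (RingHom.id ℤ) f P).symm
    rw [hev, e] at hm
    have hf' : ((eval f P : ℤ) : ℂ) ≠ 0 := by exact_mod_cast hf
    refine ⟨(m : ℚ) / (eval f P : ℤ), ?_⟩
    push_cast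
    rw [eq_div_iff hf', mul_comm, hm]
  have hq : ∀ i, ∃ q : ℚ, c i = q := by
    intro i
    obtain ⟨f, h1, h2⟩ := spec3_pt P hP0 (Pi.single i 1)
    obtain ⟨q1, hq1⟩ := hrat f h1
    obtain ⟨q2, hq2⟩ := hrat _ h2
    refine ⟨q2 - q1, ?_⟩
    push_cast
    rw [← hq1, ← hq2, ← Finset.sum_sub_distrib, Finset.sum_eq_single i]
    · simp; ring
    · intro j _ hj
      simp [Pi.single_eq_of_ne hj]
    · simp
  choose q hq using hq
  have hd : ∀ i, ((q i).den : ℂ) ≠ 0 := fun i => by exact_mod_cast (q i).den_nz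
  have hn : ∀ i, c i * (q i).den = (q i).num := fun i => by
    rw [hq]; exact_mod_cast Rat.mul_den_eq_num (q i)
  obtain ⟨u, v, hm, hu, hv⟩ := spec3_ker ![(q 0).num * (q 1).den * (q 2).den,
    (q 0).den * (q 1).num * (q 2).den, (q 0).den * (q 1).den * (q 2).num]
  refine ⟨u, v, hm, fun s t => ?_⟩
  rw [hev]
  refine mul_eq_zero_of_right _ ?_
  have hu' := congrArg (Int.cast : ℤ → ℂ) hu
  have hv' := congrArg (Int.cast : ℤ → ℂ) hv
  simp only [Fin.sum_univ_three, Matrix.cons_val_zero, Matrix.cons_val_one, Matrix.cons_val] at hu' hv' ⊢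
  push_cast at hu' hv'
  rw [← hn, ← hn, ← hn] at hu' hv'
  refine mul_left_cancel₀ (mul_ne_zero (mul_ne_zero (hd 0) (hd 1)) (hd 2)) ?_
  linear_combination s * hu' + t * hv'

end Crest.Agent.R22
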