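import Crest.Agent.R22.Three
import Crest.Agent.R22.Zero
import Crest.Agent.R22.Ker
import Crest.Agent.R22.Spec1
import Crest.Agent.R22.Spec2
import Crest.Agent.R22.Spec3

namespace Crest.Agent.R22

open MvPolynomial

theorem spec4_eval_smul {P : MvPolynomial (Fin 3) ℂ} {e : ℕ} (hP : P.IsHomogeneous e) (c : ℂ)
    (z : Fin 3 → ℂ) : eval (fun r => c * z r) P = c ^ e * eval z P := by
  rw [eval_eq', eval_eq', Finset.mul_sum]
  refine Finset.sum_congr rfl fun m hm => ?_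
  have h : ∑ r, m r = e := by
    rw [hP.degree_eq_sum_deg_support hm]
    exact (Finset.sum_subset (Finset.subset_univ _) fun r _ hr => Finsupp.notMem_support_iff.1 hr).symm
  simp only [mul_pow, Finset.prod_mul_distrib, Finset.prod_pow_eq_pow_sum, h]
  ring

theorem spec4_quart_map (N : NF 4) (e1 e2 : Fin 4 → ℤ) {Ω Ω' : Type} [CommRing Ω] [Algebra ℂ Ω]
    [CommRing Ω'] [Algebra ℂ Ω'] (ψ : Ω →ₐ[ℂ] Ω') (y : Fin 4 → Ω) :
    ψ (quart N e1 e2 y) = quart N e1 e2 fun i => ψ (y i) := by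
  simp only [quart, map_sum]
  refine Finset.sum_congr rfl fun i _ => Finset.sum_congr rfl fun j _ => ?_
  split_ifs
  · rw [map_mul ψ, AlgHom.commutes, map_mul ψ, map_pow ψ, map_pow ψ]
  · exact map_zero ψ

theorem spec4_quart_hom (N : NF 4) (e1 e2 : Fin 4 → ℤ) {y : Fin 4 → MvPolynomial (Fin 3) ℂ}
    (hy : ∀ i, (y i).IsHomogeneous 1) : (quart N e1 e2 y).IsHomogeneous 4 := by
  refine IsHomogeneous.sum _ _ _ fun i _ => IsHomogeneous.sum _ _ _ fun j _ => ?_
  split_ifs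
  · exact (((hy i).pow 2).mul ((hy j).pow 2)).C_mul _
  · exact isHomogeneous_zero _ _ _

theorem spec4_emb_sum (N : NF 4) (β : Fin 3 → Fin 4 → ℤ) (u : Fin 3 → ℤ) (i : Fin 4) :
    N.emb (∑ r, u r • β r) i = ∑ r, N.emb (β r) i * u r := by
  simp only [Fin.sum_univ_three, N.emb_add, N.emb_smul]
  ring

theorem spec4_int_form {P : MvPolynomial (Fin 3) ℂ} {e : ℕ} (hP : P.IsHomogeneous e) (hP0 : P ≠ 0)
    (S : Finset ℤ) (φ : Fin 3 → ℤ → ℤ) (h : ∀ n ∈ S, eval (fun r => (φ r n : ℂ)) P = 0) :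
    ∃ P' : MvPolynomial (Fin 3) ℤ, P'.IsHomogeneous e ∧ P' ≠ 0 ∧
      ∀ n ∈ S, eval (fun r => (φ r n : ℂ)) (map (Int.castRingHom ℂ) P') = 0 := by
  classical
  let A : ℤ → P.support → ℤ := fun n m => ∏ r, φ r n ^ m.1 r
  obtain ⟨t, ht0, ht, -⟩ := exists_int_ker S A (1 + ∑ n ∈ S, ∑ j, |(A n j : ℝ)|)
    (le_add_of_nonneg_right (by positivity))
    (fun n hn j => by
      have h1 : |(A n j : ℝ)| ≤ ∑ j, |(A n j : ℝ)| :=
        Finset.single_le_sum (f := fun j => |(A n j : ℝ)|) (fun _ _ => abs_nonneg _) (Finset.mem_univ j)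
      have h2 : ∑ j, |(A n j : ℝ)| ≤ ∑ n ∈ S, ∑ j, |(A n j : ℝ)| :=
        Finset.single_le_sum (f := fun n => ∑ j, |(A n j : ℝ)|) (fun _ _ => by positivity) hn
      linarith)
    (fun m => coeff m.1 P)
    (fun h0 => by
      obtain ⟨m, hm⟩ := support_nonempty.2 hP0
      exact mem_support_iff.1 hm (congrFun h0 ⟨m, hm⟩))
    (fun n hn => by
      rw [← h n hn, eval_eq', ← Finset.sum_coe_sort P.support]
      refine Finset.sum_congr rfl fun m _ => ?_
      simp only [A]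
      push_cast
      ring)
  refine ⟨∑ m : P.support, monomial m.1 (t m), IsHomogeneous.sum _ _ _ fun m _ =>
    isHomogeneous_monomial _ (hP.degree_eq_sum_deg_support m.2).symm, fun h0 => ht0 ?_, fun n hn => ?_⟩
  · funext m
    have := congrArg (coeff m.1) h0
    rw [coeff_sum, Finset.sum_eq_single m (fun m' _ hm' => by
      rw [coeff_monomial, if_neg fun h => hm' (Subtype.ext h)]) (by simp)] at this
    simpa using this
  · have := congrArg (Int.cast : ℤ → ℂ) (ht n hn)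
    simp only [A] at this
    push_cast at this
    rw [← this]
    simp only [map_sum, map_monomial, eval_monomial]
    refine Finset.sum_congr rfl fun m _ => ?_
    rw [Finsupp.prod_fintype _ _ fun r => pow_zero _]
    simp [mul_comm]

theorem spec4_minor {β : Fin 3 → Fin 4 → ℤ} (hβ : LinearIndependent ℤ β) {u v : Fin 3 → ℤ}
    (h : ∃ s t, minor u v s t ≠ 0) : ∃ s t, minor (∑ r, u r • β r) (∑ r, v r • β r) s t ≠ 0 := by
  obtain ⟨s, t, hst⟩ := h
  by_contra hcon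
  push Not at hcon
  have hli := Fintype.linearIndependent_iff.1 hβ
  have key : ∀ s0 r, (∑ r, u r • β r) s0 * v r - (∑ r, v r • β r) s0 * u r = 0 := fun s0 => by
    refine hli _ (funext fun t0 => ?_)
    have := hcon s0 t0
    simp only [minor, Fin.sum_univ_three, Pi.add_apply, Pi.smul_apply, smul_eq_mul,
      Pi.zero_apply] at this ⊢
    linear_combination this
  have h1 : ∑ r, u r • β r = 0 := funext fun s0 => by
    refine (mul_eq_zero.1 ?_).resolve_right hst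
    simp only [minor]
    linear_combination u s * key s0 t - u t * key s0 s
  exact hst (by simp [minor, hli u h1 s, hli u h1 t])

/-- A plane cubic.  The curve lies in the plane spanned by three independent integer vectors `β r`:
`co b = ∑ f r β r`, where `f r = lf (M r) b`, and at the points `lf (M r) γ̂ = φ r n / δ` is rational.  The cubic
`P` generating the relations vanishes at the points (V), so `exists_int_ker` (columns: cubic monomials; rows:
the integer vectors `φ · n`) gives a nonzero integer cubic `P'` vanishing at the points; if there are more than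
`3 C0` points it vanishes at `f` (`VG.zero`), so `P ∣ P'` and `P' ∣ P` (equal degrees).  The quartic
`G(f) = quart (∑ f r β̂ r)` vanishes at `f` (`quart_eq_zero`, `sum_co`), so `P' ∣ G`; `exists_rational_line` and
`special_of_line` conclude. -/
theorem NF.special_of_cubic (N : NF 4) : ∃ 𝒮 : Finset ℂ, ∀ (C0 : ℕ) (μ : ℤ) (e1 e2 : Fin 4 → ℤ)
    (S : Finset ℤ) (l1 l2 : ℤ → ℤ) (g : ℤ → Fin 4 → ℤ) (Ω : Type) [Field Ω] [Algebra ℂ Ω]
    (x nn : Ω) (b : Fin 4 → Ω) (κ : ℤ → ℂ), CurveCfg N 2 1 μ e1 e2 S l1 l2 g x nn b κ C0 →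
    (∀ i j, i ≠ j → N.PP e1 e2 i j ≠ 0) → 3 * C0 < S.card →
    ∀ (β : Fin 3 → Fin 4 → ℤ) (M : Fin 3 → Fin 4 → ℂ) (δ : ℤ) (φ : Fin 3 → ℤ → ℤ), δ ≠ 0 →
    LinearIndependent ℤ β → (∀ s, N.co b s = ∑ r, (β r s : Ω) * lf (M r) b) →
    (∀ n ∈ S, ∀ r, (δ : ℂ) * lf (M r) (N.emb (g n)) = φ r n) →
    ∀ P : MvPolynomial (Fin 3) ℂ, P.IsHomogeneous 3 → P ≠ 0 → aeval (fun r => lf (M r) b) P = 0 →
    (∀ (e' : ℕ) (Ψ : MvPolynomial (Fin 3) ℂ), Ψ.IsHomogeneous e' →
      aeval (fun r => lf (M r) b) Ψ = 0 → P ∣ Ψ) → (∀ n ∈ S, κ n ≠ 0) → Special N 𝒮 e1 e2 := by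
  obtain ⟨𝒮, h𝒮⟩ := N.special_of_line
  refine ⟨𝒮, fun C0 μ e1 e2 S l1 l2 g Ω _ _ x nn b κ hC hPP hS β M δ φ hδ hβ hco hφ P hP hP0 hPf hgen hκ => ?_⟩
  have hδ' : (δ : ℂ) ≠ 0 := by exact_mod_cast hδ
  let Lp : Fin 3 → MvPolynomial (Fin 2 ⊕ Fin 4) ℂ := fun r => ∑ i, C (M r i) * X (Sum.inr i)
  have hL1 : ∀ Ψ : MvPolynomial (Fin 3) ℂ,
      aeval (gens x nn b) (aeval Lp Ψ) = aeval (fun r => lf (M r) b) Ψ := fun Ψ => by
    rw [comp_aeval_apply]
    congr 2
    funext r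
    simp [Lp, lf, gens]
  have hL2 : ∀ Ψ : MvPolynomial (Fin 3) ℂ, Ψ.IsHomogeneous 3 → ∀ n ∈ S,
      eval (ptv N l1 l2 g κ n) (aeval Lp Ψ) =
        (κ n / δ) ^ 3 * eval (fun r => (φ r n : ℂ)) Ψ := fun Ψ hΨ n hn => by
    rw [← spec4_eval_smul hΨ, ← aeval_eq_eval, comp_aeval_apply, aeval_eq_eval, aeval_eq_eval]
    congr 2
    funext r
    rw [← hφ n hn r, div_mul_eq_mul_div, mul_left_comm, mul_div_cancel_left₀ _ hδ']
    simp [Lp, lf, ptv, gens, Finset.mul_sum, mul_left_comm]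
  obtain ⟨P', hP', hP'0, hP'z⟩ := spec4_int_form hP hP0 S φ fun n hn => by
    have := hC.vg.V _ ((hL1 P).trans hPf) n hn
    rw [hL2 P hP n hn] at this
    exact (mul_eq_zero.1 this).resolve_left (pow_ne_zero _ (div_ne_zero (hκ n hn) hδ'))
  have hP'c := hP'.map (Int.castRingHom ℂ)
  have hP'c0 : map (Int.castRingHom ℂ) P' ≠ 0 := fun h0 =>
    hP'0 (map_injective (Int.castRingHom ℂ) Int.cast_injective (by rw [h0, map_zero]))
  have hf : aeval (fun r => lf (M r) b) (map (Int.castRingHom ℂ) P') = 0 := by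
    by_contra hne
    have hL : ∀ r, (Lp r).IsHomogeneous 1 := fun r =>
      IsHomogeneous.sum _ _ _ fun i _ => isHomogeneous_C_mul_X _ _
    have := hC.vg.zero (aeval Lp (map (Int.castRingHom ℂ) P')) 3
      (by simpa using (hP'c.aeval Lp hL).totalDegree_le) (by rwa [hL1]) S subset_rfl
      fun n hn => by rw [hL2 _ hP'c n hn, hP'z n hn, mul_zero]
    omega
  have hdvd : map (Int.castRingHom ℂ) P' ∣ P := by
    obtain ⟨Q, hQ⟩ := hgen 3 _ hP'c hf
    have hQ0 : Q ≠ 0 := fun h0 => hP'c0 (by rw [hQ, h0, mul_zero])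
    have h1 := totalDegree_mul_of_isDomain hP0 hQ0
    rw [← hQ, hP'c.totalDegree hP'c0, hP.totalDegree hP0] at h1
    have h2 : Q = C (coeff 0 Q) := totalDegree_eq_zero_iff_eq_C.1 (by omega)
    have h3 : coeff 0 Q ≠ 0 := fun h0 => hQ0 (by rw [h2, h0, C_0])
    refine ⟨C (coeff 0 Q)⁻¹, ?_⟩
    rw [hQ, mul_assoc]
    nth_rewrite 1 [h2]
    rw [← C_mul, mul_inv_cancel₀ h3, C_1, mul_one]
  let y : Fin 4 → MvPolynomial (Fin 3) ℂ := fun i => ∑ r, C (N.emb (β r) i) * X r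
  have hy : ∀ i, (y i).IsHomogeneous 1 := fun i =>
    IsHomogeneous.sum _ _ _ fun r _ => isHomogeneous_C_mul_X _ _
  have hG := spec4_quart_hom N e1 e2 hy
  have hev : ∀ z : Fin 3 → ℂ, eval z (quart N e1 e2 y) =
      quart N e1 e2 fun i => ∑ r, N.emb (β r) i * z r := fun z => by
    rw [← aeval_eq_eval, spec4_quart_map]
    congr 1
    funext i
    simp [y]
  have hGf : aeval (fun r => lf (M r) b) (quart N e1 e2 y) = 0 := by
    rw [spec4_quart_map, ← hC.rel.quart_eq_zero]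
    congr 1
    funext i
    rw [← N.sum_co b i]
    simp only [y, hco, map_sum, map_mul, aeval_C, aeval_X, NF.emb, Finset.mul_sum, Finset.sum_mul,
      map_intCast]
    rw [Finset.sum_comm]
    exact Finset.sum_congr rfl fun s _ => Finset.sum_congr rfl fun r _ => by ring
  obtain ⟨u, v, huv, hz⟩ := exists_rational_line _ hG (fun f => by
    obtain ⟨m, hm⟩ := N.quart_int e1 e2 (∑ r, f r • β r)
    refine ⟨m, ?_⟩
    rw [hev, ← hm]
    congr 1
    funext i
    rw [spec4_emb_sum]) P' hP' hP'0 (hdvd.trans (hgen 4 _ hG hGf))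
  refine h𝒮 e1 e2 _ _ hPP (spec4_minor hβ huv) fun s t => ?_
  rw [← hz s t, hev]
  congr 1
  funext i
  rw [spec4_emb_sum, spec4_emb_sum]
  simp only [Fin.sum_univ_three]
  ring

end Crest.Agent.R22
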