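import Crest.Agent.R22.Box
import Crest.Agent.R22.Red
import Crest.Agent.R22.Gain
import Crest.Agent.R22.Ideal

namespace Crest.Agent.R22

/-- Numerics.  Let `σ = s2 - Hh / 3 > 0`, `n = E + 4`, `H = 2 n² + 2`, `T = ⌈3 σ n / 2⌉`.  The difference of the
two sides is `n³ σ (-1 + (9/16) σ² / m) + O(n²)`. -/
theorem surf4_num (s2 Hh m : ℝ) (hH : 0 ≤ Hh) (hσ : Hh / 3 < s2) (hm : 0 < m)
    (h : 9 / 16 * (s2 - Hh / 3) ^ 2 < m) : ∃ E T : ℕ,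
      ((2 * (E + 4) ^ 2 + 2 : ℕ) : ℝ) * (((E + 4 : ℕ) : ℝ) * s2) - (T : ℝ) * ((2 * (E + 4) ^ 2 + 2 : ℕ) : ℝ)
        + ((T : ℝ) + 2) ^ 3 / (6 * m) < 4 * Hh * ((E + 1) * (E + 2) * (E + 3) / 6) := by
  set σ := s2 - Hh / 3 with hσd
  have hσ0 : 0 < σ := by linarith
  set f : ℝ → ℝ := fun x => (2 + 2 * x ^ 2) * s2 - 3 * σ + (3 * σ / 2 + 3 * x) ^ 3 / (6 * m) -
    2 / 3 * Hh * ((1 - 3 * x) * (1 - 2 * x) * (1 - x)) with hf
  have hc : Continuous f := by fun_prop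
  have h0 : f 0 < 0 := by
    have e : f 0 = σ * (9 / 16 * σ ^ 2 - m) / m := by
      simp only [hf, hσd]
      field_simp
      ring
    rw [e]
    exact div_neg_of_neg_of_pos (mul_neg_of_pos_of_neg hσ0 (by linarith)) hm
  have ht : Filter.Tendsto (fun E : ℕ => (((E + 4 : ℕ) : ℝ))⁻¹) Filter.atTop (nhds 0) :=
    tendsto_inv_atTop_zero.comp
      (tendsto_natCast_atTop_atTop.comp (Filter.tendsto_add_atTop_nat 4))
  obtain ⟨E, hE⟩ := (((hc.tendsto 0).comp ht).eventually (gt_mem_nhds h0)).exists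
  refine ⟨E, ⌈3 * σ * ((E + 4 : ℕ) : ℝ) / 2⌉₊, ?_⟩
  have hn : (0 : ℝ) < ((E + 4 : ℕ) : ℝ) := by positivity
  have e1 : ((2 * (E + 4) ^ 2 + 2 : ℕ) : ℝ) = 2 * ((E + 4 : ℕ) : ℝ) ^ 2 + 2 := by push_cast; ring
  have e2 : (E : ℝ) = ((E + 4 : ℕ) : ℝ) - 4 := by push_cast; ring
  have hT1 := Nat.le_ceil (3 * σ * ((E + 4 : ℕ) : ℝ) / 2)
  have hT2 := (Nat.ceil_lt_add_one (show 0 ≤ 3 * σ * ((E + 4 : ℕ) : ℝ) / 2 by positivity)).le
  simp only [Function.comp_apply] at hE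
  rw [e1, e2]
  generalize (⌈3 * σ * ((E + 4 : ℕ) : ℝ) / 2⌉₊ : ℝ) = T at hT1 hT2 ⊢
  generalize ((E + 4 : ℕ) : ℝ) = n at *
  have h1 : 3 * σ * n ^ 3 ≤ T * (2 * n ^ 2 + 2) := by
    have : 0 ≤ 3 * σ * n / 2 := by positivity
    nlinarith [mul_le_mul_of_nonneg_right hT1 (sq_nonneg n)]
  have h2 : (T + 2) ^ 3 / (6 * m) ≤ (3 * σ * n / 2 + 3) ^ 3 / (6 * m) := by
    have : 0 ≤ 3 * σ * n / 2 := by positivity
    exact div_le_div_of_nonneg_right (pow_le_pow_left₀ (by linarith) (by linarith) 3)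
      (by positivity)
  have h3 : n ^ 3 * f n⁻¹ < 0 := mul_neg_of_pos_of_neg (by positivity) hE
  have e3 : n ^ 3 * f n⁻¹ = (2 * n ^ 2 + 2) * (n * s2) - 3 * σ * n ^ 3 +
      (3 * σ * n / 2 + 3) ^ 3 / (6 * m) -
      4 * Hh * ((n - 4 + 1) * (n - 4 + 2) * (n - 4 + 3) / 6) := by
    simp only [hf]
    field_simp
    ring
  linarith

end Crest.Agent.R22
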