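import Crest.Agent.R22.Box
import Crest.Agent.R22.Red
import Crest.Agent.R22.Gain
import Crest.Agent.R22.Ideal
import Crest.Agent.R22.Surf4A

namespace Crest.Agent.R22

/-- As `NF.surf`, with `a = 0`, `U = Umat w`, rows the standard monomials of degree `E + 4`
(`ι = Std (E + 4)`, `card_Std`), independence from `std_indep` (`gain` applied to `(l1, l2) = (x, 1)`,
`U = nn`, `V = -1`).  The integer points `Z = Umat w γ` lie on `G0 = 0` (`gain` over `ℂ`, `co_emb`), so by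
`det_std_dvd` a nonzero determinant is `≥ |c0|^N' ≥ (c' X^(4 Hh))^N' ≥ X^G` for `G` strictly between the
two sides of `surf4_num` and `X` large (`6 N' = (E+1)(E+2)(E+3)`). -/
theorem NF.surf4 (N : NF 4) {c m : ℝ} (s1 s2 Hh : ℝ) (hc : 0 < c) (hH : 0 ≤ Hh) (hσ : Hh / 3 < s2)
    (hm : 0 < m) (hm1 : m ≤ 1) (h : 9 / 16 * (s2 - Hh / 3) ^ 2 < m) :
    ∃ (C0 : ℕ) (C X0 : ℝ), 0 ≤ C ∧ ∀ X ≥ X0, ∀ (μ : ℤ) (e1 e2 : Fin 4 → ℤ) (S : Finset ℤ)
    (l1 l2 : ℤ → ℤ) (g : ℤ → Fin 4 → ℤ), LineCfg N 1 2 c X s1 s2 μ e1 e2 S l1 l2 g →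
    (∃ u : Fin 4 → Fin 4 → ℤ, ∑ s, ∑ t, u s t * minor e1 e2 s t = 1) →
    (∃ s t, ‖e1‖ * ‖e2‖ ≤ 2 * |(minor e1 e2 s t : ℝ)|) → X ^ Hh ≤ ‖e1‖ * ‖e2‖ →
    ∀ B : ℝ, 0 ≤ B →
    (∀ T ⊆ S, Diam e1 e2 l1 l2 X m T → HasCurve N 1 2 μ e1 e2 l1 l2 g C0 T → (T.card : ℝ) ≤ B) →
    (S.card : ℝ) ≤ C * X ^ m * B := by
  classical
  obtain ⟨E, T, hineq⟩ := surf4_num s2 Hh m hH hσ hm h
  obtain ⟨G, hG1, hG2⟩ := exists_between hineq
  obtain ⟨c', hc', hgain⟩ := N.gain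
  set N' : ℕ := (Finset.piAntidiag (Finset.univ : Finset (Fin 4)) E).card with hN'
  have hN'r : (N' : ℝ) = ((E : ℝ) + 1) * (E + 2) * (E + 3) / 6 := by
    have := card_piAntidiag_four E
    rw [← hN'] at this
    have h2 : (6 : ℝ) * N' = ((E : ℝ) + 1) * (E + 2) * (E + 3) := by exact_mod_cast this
    linarith
  obtain ⟨X1, hbox⟩ := N.box 1 2 0 (E + 4) (2 * (E + 4) ^ 2 + 2) T le_rfl (by omega) s1 s2 G 5 hc hm
    hm1 (by simpa using hG1)
  obtain ⟨C0, M, hcur⟩ := curves_of_rel 4 1 2 0 (E + 4) le_rfl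
  -- for large `X`, `X ^ G ≤ (c' X^(4 Hh))^N'`
  obtain ⟨X2, hX2⟩ : ∃ X2 : ℝ, ∀ X ≥ X2, 1 ≤ c' ^ N' * X ^ (4 * Hh * N' - G) := by
    have hpos : 0 < 4 * Hh * N' - G := by rw [hN'r]; linarith
    have := (tendsto_rpow_atTop hpos).eventually_ge_atTop ((c' ^ N')⁻¹)
    obtain ⟨X2, hX2⟩ := Filter.eventually_atTop.1 this
    refine ⟨X2, fun X hX => ?_⟩
    have h1 := hX2 X hX
    have h3 : 0 < c' ^ N' := by positivity
    calc (1 : ℝ) = c' ^ N' * (c' ^ N')⁻¹ := by field_simp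
      _ ≤ _ := by gcongr
  refine ⟨C0, 4 * M, max (max X1 X2) 1, by positivity, ?_⟩
  intro X hX μ e1 e2 S l1 l2 g hL hgcd hbig hHh B hB0 hB
  have hX1 : X1 ≤ X := le_trans (le_trans (le_max_left _ _) (le_max_left _ _)) hX
  have hX2' : X2 ≤ X := le_trans (le_trans (le_max_right _ _) (le_max_left _ _)) hX
  have hX0 : 1 ≤ X := le_trans (le_max_right _ _) hX
  have hXp : 0 < X := by linarith
  obtain ⟨Ω, _, _, x, nn, b, hs⟩ := N.exists_surf 1 2 le_rfl e2 hL.e1ne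
  obtain ⟨w, G0, hw, hG0, hprim, hc0, hvan⟩ := hgain e1 e2 hgcd hbig
  have hlow : c' * X ^ (4 * Hh) ≤ |((G0.coeff (Finsupp.single 0 4) : ℤ) : ℝ)| := by
    refine le_trans ?_ hc0
    have : X ^ (4 * Hh) = (X ^ Hh) ^ 4 := by
      rw [mul_comm, Real.rpow_mul hXp.le]; norm_num
    rw [this]
    gcongr
  have hc0ne : G0.coeff (Finsupp.single 0 4) ≠ 0 := by
    intro h0
    rw [h0] at hlow
    have : 0 < c' * X ^ (4 * Hh) := by positivity
    simp at hlow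
    linarith
  have hsurf0 : MvPolynomial.aeval (N.coU (Umat w) b) G0 = 0 := by
    refine hvan Ω b x 1 nn (-1) (Or.inr one_ne_zero) fun i => ?_
    have := hs.rel i
    rw [pow_one] at this
    rw [mul_one, this]; ring
  have hli := hs.std_indep hL.e1ne hL.nd w G0 hG0 hc0ne hsurf0 (E + 4)
  have hU : ∀ s t : Fin 4, |((Umat w s t : ℤ) : ℝ)| ≤ 5 := by
    intro s t
    have h1 := hw s
    have : |Umat w s t| ≤ 5 := by
      simp only [Umat, Matrix.of_apply]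
      split_ifs <;> (rw [abs_le]; constructor <;> omega)
    exact_mod_cast this
  have him : ∀ r : Std (E + 4), (0 : ℕ) ≤ 0 ∧ ∑ s, (r : Fin 4 → ℕ) s = E + 4 := by
    intro r
    refine ⟨le_rfl, ?_⟩
    have := r.2
    simp only [Std, Finset.mem_filter, Finset.mem_piAntidiag] at this
    exact this.1.1
  have hpt : ∀ n ∈ S, MvPolynomial.eval ((Umat w).mulVec (g n)) G0 = 0 := by
    intro n hn
    have h1 := hvan ℂ (N.emb (g n)) (l1 n) (l2 n) (μ * n) (-μ)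
      (Or.inr (by exact_mod_cast hL.l2_ne n hn)) fun i => by
        have := hL.eq n hn i
        rw [pow_one] at this
        simp only [Algebra.algebraMap_self, RingHom.id_apply]
        rw [this]; ring
    have h2 : N.coU (Umat w) (N.emb (g n)) = fun s => (((Umat w).mulVec (g n) s : ℤ) : ℂ) := by
      funext s
      simp [NF.coU, N.co_emb, Matrix.mulVec, dotProduct]
    rw [h2] at h1
    have h3 : ((MvPolynomial.eval ((Umat w).mulVec (g n)) G0 : ℤ) : ℂ) = 0 := by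
      rw [← h1]
      have := MvPolynomial.eval₂_comp_left (Int.castRingHom ℂ) (RingHom.id ℤ)
        ((Umat w).mulVec (g n)) G0
      rw [MvPolynomial.aeval_def]
      rw [RingHom.comp_id] at this
      exact this
    exact_mod_cast h3
  have key := hL.card_le_of_diam hX0 hm.le (((1 : ℕ) : ℝ) ^ 4 * (M * B)) (by positivity) ?_
  · calc _ ≤ _ := key
      _ = _ := by push_cast; ring
  intro T1 hT1 hd1
  refine hbox X hX1 μ e1 e2 T1 l1 l2 g (hL.mono hT1) hd1 (Umat w) hU (Std (E + 4))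
    (by rw [Fintype.card_coe, card_Std]) (fun _ => 0) (fun r => r) him ?_ (M * B) (by positivity) ?_
  · intro P hP hdet
    have hdv := det_std_dvd E G0 hG0 hprim hc0ne (fun r => (Umat w).mulVec (g (P r)))
      (fun r => hpt _ (hT1 (hP r)))
    have heq : (Matrix.of fun r r' : Std (E + 4) => rowv (Umat w) l1 l2 g 0 0 r (P r')) =
        Matrix.of fun r P' : Std (E + 4) => ∏ s, (Umat w).mulVec (g (P P')) s ^ (r : Fin 4 → ℕ) s := by
      ext r r'
      simp [rowv]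
    rw [heq] at hdet ⊢
    rw [← hN'] at hdv
    have h1 := Int.le_of_dvd (abs_pos.2 hdet) ((dvd_abs _ _).2 ((abs_dvd _ _).2 hdv))
    rw [abs_pow] at h1
    have h2 : |((G0.coeff (Finsupp.single 0 4) : ℤ) : ℝ)| ^ N' ≤ |(((Matrix.of fun r P' : Std (E + 4) =>
        ∏ s, (Umat w).mulVec (g (P P')) s ^ (r : Fin 4 → ℕ) s).det : ℤ) : ℝ)| := by
      exact_mod_cast h1
    refine le_trans ?_ h2
    calc X ^ G ≤ X ^ G * (c' ^ N' * X ^ (4 * Hh * N' - G)) :=
          le_mul_of_one_le_right (by positivity) (hX2 X hX2')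
      _ = (c' * X ^ (4 * Hh)) ^ N' := by
          rw [mul_pow, ← Real.rpow_natCast (X ^ (4 * Hh)), ← Real.rpow_mul hXp.le, mul_left_comm,
            ← Real.rpow_add hXp]
          congr 2; ring
      _ ≤ _ := by gcongr
  · rintro T2 hT2 ⟨cf, hcf, hrel⟩
    refine hcur N c X s1 s2 μ e1 e2 T2 l1 l2 g hc (hL.mono (hT2.trans hT1)) Ω x nn b hs (Umat w)
      (Std (E + 4)) (fun _ => 0) (fun r => r) him (by simpa using hli) cf hcf hrel B hB0 ?_
    intro T3 hT3 hc3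
    exact hB T3 (hT3.trans (hT2.trans hT1))
      (fun n hn n' hn' => hd1 n (hT2 (hT3 hn)) n' (hT2 (hT3 hn'))) hc3

end Crest.Agent.R22
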