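import Crest.Agent.R22.Box
import Crest.Agent.R22.Red

namespace Crest.Agent.R22

variable {d : ℕ}

/-- Numerics.  Let `σ = a1 s1 + p e' s2 > 0`, `V = p^(d-1) (2 a1 e' + (d-2) q e'²)`.  For `D → ∞` take
`a = a1 D + q`, `E' = e' D`, `T = ⌈3 σ D / 2⌉`, `H = ⌊p^(d-1) (2 (a+1)(E'+1) + (d-2) q E' (E'+1)) / 2⌋
≥ V D² / 2 - 1`.  The size `a s1 + p (E' + d) s2` is `σ D + O(1)`, so the left side is
`≤ D³ (- V σ / 4 + (9/16) σ³ / m) + O(D²)`, and `SurfIneq` says that the bracket is negative. -/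
theorem surf_num (d p q a1 e' : ℕ) (hd : 4 ≤ d) (hp : 1 ≤ p) (he : 1 ≤ e') (s1 s2 m : ℝ)
    (hs1 : 0 ≤ s1) (hs2 : 0 < s2) (hm : 0 < m) (h : SurfIneq d p q a1 e' s1 s2 m) :
    ∃ a E H T : ℕ, q ≤ a + 1 ∧ 1 ≤ H ∧
      2 * H ≤ p ^ (d - 1) * (2 * ((a + 1) * (E + 1)) + (d - 2) * q * (E * (E + 1))) ∧
      H * (a * s1 + ((p * (E + d) : ℕ) : ℝ) * s2) - (T : ℝ) * H + ((T : ℝ) + 2) ^ 3 / (6 * m) < 0 := by
  set V : ℕ := p ^ (d - 1) * (2 * a1 * e' + (d - 2) * q * e' ^ 2) with hV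
  set σ : ℝ := a1 * s1 + p * e' * s2 with hσ
  set c0 : ℝ := q * s1 + p * d * s2 with hc0
  have hp' : (0 : ℝ) < p := by exact_mod_cast hp
  have he' : (0 : ℝ) < e' := by exact_mod_cast he
  have hσ0 : 0 < σ := by positivity
  have h1 : 9 / 4 * σ ^ 2 < m * V := by
    unfold SurfIneq at h
    rw [hV]
    push_cast [Nat.cast_sub (show 2 ≤ d by omega)]
    exact h
  have hV0 : 0 < V := by
    rcases Nat.eq_zero_or_pos V with h0 | h0
    · rw [h0] at h1; simp only [Nat.cast_zero, mul_zero] at h1; nlinarith [sq_nonneg σ]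
    · exact h0
  set f : ℝ → ℝ := fun x => -(2 * V * σ) + 2 * V * c0 * x + (3 * σ + 3 * x) ^ 3 / (6 * m) with hf
  have hf0 : f 0 < 0 := by
    simp only [hf, mul_zero, add_zero]
    rw [neg_add_lt_iff_lt_add, add_zero, div_lt_iff₀ (by positivity)]
    nlinarith
  have hfc : Continuous f := by simp only [hf]; fun_prop
  have h2 := (hfc.tendsto 0).comp (tendsto_inv_atTop_nhds_zero_nat (𝕜 := ℝ))
  obtain ⟨k, hk, hk1⟩ := ((h2.eventually (gt_mem_nhds hf0)).and (Filter.eventually_ge_atTop 1)).exists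
  have hk0 : (0 : ℝ) < k := by exact_mod_cast hk1
  refine ⟨a1 * (2 * k) + q, e' * (2 * k), 2 * V * k ^ 2, ⌈3 * σ * k⌉₊, by omega,
    Nat.succ_le_of_lt (by positivity), ?_, ?_⟩
  · calc 2 * (2 * V * k ^ 2) = p ^ (d - 1) * (2 * ((a1 * (2 * k)) * (e' * (2 * k))) +
          (d - 2) * q * ((e' * (2 * k)) * (e' * (2 * k)))) := by rw [hV]; ring
      _ ≤ _ := by gcongr <;> omega
  · have a1' : 3 * σ * k ≤ (⌈3 * σ * k⌉₊ : ℝ) := Nat.le_ceil _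
    have a2 : (⌈3 * σ * k⌉₊ : ℝ) < 3 * σ * k + 1 := Nat.ceil_lt_add_one (by positivity)
    set T : ℝ := (⌈3 * σ * k⌉₊ : ℝ)
    have a3 : (T + 2) ^ 3 / (6 * m) ≤ (3 * σ * k + 3) ^ 3 / (6 * m) := by
      have : 0 ≤ T + 2 := by
        have : 0 < 3 * σ * k := by positivity
        linarith
      have : T + 2 ≤ 3 * σ * k + 3 := by linarith
      gcongr
    have a4 : (3 * σ * k) * (2 * V * k ^ 2) ≤ T * (2 * V * k ^ 2) := by gcongr
    have a5 : (k : ℝ) ^ 3 * f (k : ℝ)⁻¹ < 0 := mul_neg_of_pos_of_neg (by positivity) hk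
    have a6 : (k : ℝ) ^ 3 * f (k : ℝ)⁻¹ = 2 * V * k ^ 2 * (2 * σ * k + c0) -
        (3 * σ * k) * (2 * V * k ^ 2) + (3 * σ * k + 3) ^ 3 / (6 * m) := by
      simp only [hf]; field_simp; ring
    have a7 : ((a1 * (2 * k) + q : ℕ) : ℝ) * s1 + ((p * (e' * (2 * k) + d) : ℕ) : ℝ) * s2 =
        2 * σ * k + c0 := by
      rw [hσ, hc0]; push_cast; ring
    rw [a7]
    push_cast
    linarith

end Crest.Agent.R22
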