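import Crest.Agent.R22.Box
import Crest.Agent.R22.Red
import Crest.Agent.R22.SurfA

namespace Crest.Agent.R22

variable {d : ℕ}

theorem NF.coU_one (N : NF d) {Ω : Type} [CommRing Ω] [Algebra ℂ Ω] (z : Fin d → Ω) :
    N.coU 1 z = N.co z := by
  funext s
  simp [NF.coU, Matrix.one_apply]

/-- The points on a line lie on `O(X^m)` curves, each within a box.  `card_le_of_diam`; on a box use
`exists_surf`, `fam`, `Wsp_co`, `exists_rows` (with `c = N.co b = N.coU 1 b`), then `box` with `U = 1`,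
`G = 0` (a nonzero integer has absolute value `≥ 1`) and `curves_of_rel`. -/
theorem NF.surf (N : NF d) (p q a1 e' : ℕ) (hp : 1 ≤ p) (he : 1 ≤ e') {c m : ℝ} (s1 s2 : ℝ)
    (hc : 0 < c) (hs1 : 0 ≤ s1) (hs2 : 0 < s2) (hm : 0 < m) (hm1 : m ≤ 1)
    (h : SurfIneq d p q a1 e' s1 s2 m) : ∃ (C0 : ℕ) (C X0 : ℝ), 0 ≤ C ∧ ∀ X ≥ X0, ∀ (μ : ℤ)
    (e1 e2 : Fin d → ℤ) (S : Finset ℤ) (l1 l2 : ℤ → ℤ) (g : ℤ → Fin d → ℤ),
    LineCfg N p q c X s1 s2 μ e1 e2 S l1 l2 g → ∀ B : ℝ, 0 ≤ B →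
    (∀ T ⊆ S, Diam e1 e2 l1 l2 X m T → HasCurve N p q μ e1 e2 l1 l2 g C0 T → (T.card : ℝ) ≤ B) →
    (S.card : ℝ) ≤ C * X ^ m * B := by
  obtain ⟨a, E, H, T, hq, hH, h2H, hineq⟩ := surf_num d p q a1 e' N.four_le hp he s1 s2 m hs1 hs2 hm h
  obtain ⟨X1, hbox⟩ := N.box p q a (p * (E + d)) H T hp hH s1 s2 0 1 hc hm hm1 hineq
  obtain ⟨C0, M, hcur⟩ := curves_of_rel d p q a (p * (E + d)) hp
  refine ⟨C0, 4 * (p : ℝ) ^ d * M, max X1 1, by positivity, ?_⟩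
  intro X hX μ e1 e2 S l1 l2 g hL B hB0 hB
  have hX1 : X1 ≤ X := le_trans (le_max_left _ _) hX
  have hX0 : 1 ≤ X := le_trans (le_max_right _ _) hX
  obtain ⟨Ω, _, _, x, nn, b, hs⟩ := N.exists_surf p q hp e2 hL.e1ne
  have hfam := hs.fam hp hL.e1ne hL.nd a E hq
  rw [← N.Wsp_co, ← N.coU_one] at hfam
  obtain ⟨i, mm, him, hli⟩ := exists_rows x (N.coU 1 b) a (p * (E + d)) H (by omega)
  have hU : ∀ s t : Fin d, |(((1 : Matrix (Fin d) (Fin d) ℤ) s t : ℤ) : ℝ)| ≤ 1 := by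
    intro s t
    rw [Matrix.one_apply]
    split_ifs <;> simp
  have key := hL.card_le_of_diam hX0 hm.le ((p : ℝ) ^ d * (M * B)) (by positivity) ?_
  · calc _ ≤ _ := key
      _ = _ := by ring
  intro T1 hT1 hd1
  refine hbox X hX1 μ e1 e2 T1 l1 l2 g (hL.mono hT1) hd1 1 hU (Fin H) (Fintype.card_fin H) i mm him
    ?_ (M * B) (by positivity) ?_
  · intro P _ hdet
    rw [Real.rpow_zero]
    exact_mod_cast Int.one_le_abs hdet
  · rintro T2 hT2 ⟨cf, hcf, hrel⟩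
    refine hcur N c X s1 s2 μ e1 e2 T2 l1 l2 g hc (hL.mono (hT2.trans hT1)) Ω x nn b hs 1 (Fin H) i mm
      him hli cf hcf hrel B hB0 ?_
    intro T3 hT3 hc3
    exact hB T3 (hT3.trans (hT2.trans hT1))
      (fun n hn n' hn' => hd1 n (hT2 (hT3 hn)) n' (hT2 (hT3 hn'))) hc3

end Crest.Agent.R22
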