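import Crest.Agent.R22.NFBasic

namespace Crest.Agent.R22

theorem three_rat {a b : ℂ}
    (h : ∀ t : ℤ, (a - t) ^ 3 * (b - t) ∈ (Rat.castHom ℂ).fieldRange) :
    a ∈ (Rat.castHom ℂ).fieldRange := by
  set K := (Rat.castHom ℂ).fieldRange
  have hq : ∀ q : ℚ, (q : ℂ) ∈ K := fun q => ⟨q, rfl⟩
  have h0 := h 0
  have h1 := h 1
  have h2 := h 2
  have h1' := h (-1)
  have h2' := h (-2)
  have e1 : 3 * a + b ∈ K := by
    have := K.mul_mem (hq (-1 / 12)) (K.sub_mem (K.sub_mem h2 h2') (K.mul_mem (hq 2) (K.sub_mem h1 h1')))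
    convert this using 1
    push_cast; ring
  have e3 : a ^ 3 + 3 * a ^ 2 * b ∈ K := by
    have := K.sub_mem (K.mul_mem (hq (-1 / 2)) (K.sub_mem h1 h1')) e1
    convert this using 1
    push_cast; ring
  have e2 : 3 * a ^ 2 + 3 * a * b ∈ K := by
    have := K.sub_mem (K.sub_mem (K.mul_mem (hq (1 / 2)) (K.add_mem h1 h1')) K.one_mem) h0
    convert this using 1
    push_cast; ring
  have d2 : (a - b) ^ 2 ∈ K := by
    have := K.sub_mem (K.mul_mem e1 e1) (K.mul_mem (hq (8 / 3)) e2)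
    convert this using 1
    push_cast; ring
  have d3 : (a - b) ^ 3 ∈ K := by
    have := K.sub_mem (K.add_mem (K.mul_mem (hq (-8)) e3) (K.mul_mem (hq 4) (K.mul_mem e1 e2)))
      (K.mul_mem e1 (K.mul_mem e1 e1))
    convert this using 1
    push_cast; ring
  have d1 : a - b ∈ K := by
    by_cases hab : a - b = 0
    · rw [hab]; exact K.zero_mem
    · have := K.div_mem d3 d2
      convert this using 1
      field_simp
  have := K.mul_mem (hq (1 / 4)) (K.add_mem e1 d1)
  convert this using 1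
  push_cast; ring

theorem three_fourth : ∀ i j l : Fin 4, i ≠ j → i ≠ l → j ≠ l →
    ∃ k : Fin 4, i ≠ k ∧ j ≠ k ∧ l ≠ k ∧ (Finset.univ : Finset (Fin 4)) = {i, j, l, k} := by
  intro i j l
  fin_cases i <;> fin_cases j <;> fin_cases l <;> decide

/-- `d = 4`: if three conjugates of `m2 / m1` agree then `m2 / m1` is rational.
Proof: let `K = ℚ[X]/(F)` (`AdjoinRoot`, a field of degree `4`), `γ = m2(θ)/m1(θ) ∈ K`, and
`σ i : K →ₐ[ℚ] ℂ` the lifts `θ ↦ θ i` (distinct).  Three distinct embeddings agree on `ℚ⟮γ⟯`, so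
`[K : ℚ⟮γ⟯] ≥ 3` (embeddings of `K` over `ℚ⟮γ⟯` are at most `finrank`: `AlgHom.card_le`,
or: `θ i, θ j, θ l` are roots of the image of `minpoly ℚ⟮γ⟯ θ`); it divides `4`, so it is `4`,
`γ = r ∈ ℚ`, `m2 - r m1` has a vanishing conjugate, so `m2 = r m1` (`emb_ne_zero` after clearing the
denominator).  An elementary variant: with `γ i = γ j = γ l = a`, fourth conjugate `b`, the power sums
`3a + b, 3a² + b², 3a³ + b³` are rational, whence `a - b` and `a` are rational. -/
theorem NF.three (N : NF 4) {m1 m2 : Fin 4 → ℤ} (h1 : m1 ≠ 0) {i j l : Fin 4}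
    (hij : i ≠ j) (hil : i ≠ l) (hjl : j ≠ l) (h : N.PP m1 m2 i j = 0) (h' : N.PP m1 m2 i l = 0) :
    ∀ s t, minor m1 m2 s t = 0 := by
  obtain ⟨k, hik, hjk, hlk, hu⟩ := three_fourth i j l hij hil hjl
  have hp : ∀ f : Fin 4 → ℂ, ∏ r, f r = f i * f j * f l * f k := fun f => by
    rw [hu, Finset.prod_insert (by simp [hij, hil, hik]), Finset.prod_insert (by simp [hjl, hjk]),
      Finset.prod_insert (by simp [hlk]), Finset.prod_singleton]
    ring
  have hne := N.emb_ne_zero h1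
  obtain ⟨a, ha⟩ : ∃ a : ℂ, N.emb m2 i = a * N.emb m1 i :=
    ⟨N.emb m2 i / N.emb m1 i, by field_simp [hne i]⟩
  obtain ⟨b, hb⟩ : ∃ b : ℂ, N.emb m2 k = b * N.emb m1 k :=
    ⟨N.emb m2 k / N.emb m1 k, by field_simp [hne k]⟩
  simp only [NF.PP] at h h'
  have haj : N.emb m2 j = a * N.emb m1 j :=
    mul_left_cancel₀ (hne i) (by linear_combination h + N.emb m1 j * ha)
  have hal : N.emb m2 l = a * N.emb m1 l :=
    mul_left_cancel₀ (hne i) (by linear_combination h' + N.emb m1 l * ha)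
  obtain ⟨n1, hn1⟩ := N.norm_int m1
  have hn0 : (n1 : ℂ) ≠ 0 := hn1 ▸ Finset.prod_ne_zero_iff.2 fun r _ => hne r
  obtain ⟨q, hq⟩ := three_rat (a := a) (b := b) fun t => by
    obtain ⟨n2, hn2⟩ := N.norm_int (m2 + (-t) • m1)
    refine ⟨(n2 : ℚ) / n1, ?_⟩
    simp only [N.emb_add, N.emb_smul] at hn2
    rw [hp] at hn1 hn2
    rw [ha, hb, haj, hal] at hn2
    simp only [Rat.coe_castHom, Rat.cast_div, Rat.cast_intCast]
    rw [div_eq_iff hn0, ← hn1, ← hn2]
    push_cast; ring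
  have hz : (q.den : ℤ) • m2 + (-q.num) • m1 = 0 := by
    by_contra hc
    refine N.emb_ne_zero hc i ?_
    rw [N.emb_add, N.emb_smul, N.emb_smul, ha, ← hq]
    simp only [Rat.coe_castHom]
    have : (q.den : ℂ) * q = q.num := by
      rw [mul_comm]; exact_mod_cast Rat.mul_den_eq_num q
    push_cast
    linear_combination N.emb m1 i * this
  intro s t
  have hs := congrFun hz s
  have ht := congrFun hz t
  simp only [Pi.add_apply, Pi.smul_apply, smul_eq_mul, Pi.zero_apply] at hs ht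
  have hd : (q.den : ℤ) ≠ 0 := by exact_mod_cast q.den_nz
  refine mul_left_cancel₀ hd ?_
  simp only [minor]
  linear_combination m1 s * ht - m1 t * hs

end Crest.Agent.R22
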