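import Crest.Agent.R22.Defs

namespace Crest.Agent.R22

open MvPolynomial

variable {ι κ Ω : Type} [Field Ω] [Algebra ℂ Ω]

theorem VG.mono {y : ι → Ω} {S T : Finset κ} {v : κ → ι → ℂ} {C0 : ℕ} (h : VG y S v C0)
    (hT : T ⊆ S) : VG y T v C0 :=
  ⟨fun Ψ hΨ P hP => h.V Ψ hΨ P (hT hP), h.G, h.sep.imp fun _ hi => hi.mono (by exact_mod_cast hT)⟩

private theorem zero1_step [Fintype ι] {y : ι → Ω} {T : Finset κ} {v : κ → ι → ℂ} {C0 : ℕ}
    (h : VG y T v C0) (Ψ : MvPolynomial ι ℂ) (D : ℕ) (hD : Ψ.totalDegree ≤ D)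
    (hΨ : aeval y Ψ ≠ 0) (hz : ∀ P ∈ T, eval (v P) Ψ = 0) {s : ℕ} (hs : T.card ≤ s) :
    T.card + Module.finrank ℂ ((restrictTotalDegree ι ℂ s).map (aeval (R := ℂ) y).toLinearMap) ≤
      Module.finrank ℂ ((restrictTotalDegree ι ℂ (s + D)).map (aeval (R := ℂ) y).toLinearMap) := by
  classical
  obtain ⟨i, hi⟩ := h.sep
  set e : κ → MvPolynomial ι ℂ := fun P => ∏ P' ∈ T.erase P, (X i - C (v P' i)) with he
  have he1 : ∀ P, (e P).totalDegree ≤ s := fun P => by
    refine (totalDegree_finsetProd _ _).trans ((Finset.sum_le_card_nsmul _ _ 1 fun P' _ =>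
      (totalDegree_sub_C_le _ _).trans (totalDegree_X i).le).trans ?_)
    rw [smul_eq_mul, mul_one]
    exact Finset.card_erase_le.trans hs
  have he2 : ∀ P ∈ T, eval (v P) (e P) ≠ 0 := fun P hP => by
    rw [he, map_prod]
    refine Finset.prod_ne_zero_iff.2 fun P' hP' h0 => (Finset.mem_erase.1 hP').1 ?_
    rw [map_sub, eval_X, eval_C, sub_eq_zero] at h0
    exact (hi hP (Finset.mem_erase.1 hP').2 h0).symm
  have he3 : ∀ P, ∀ P' ∈ T, P' ≠ P → eval (v P') (e P) = 0 := fun P P' hP' hne => by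
    rw [he, map_prod]
    exact Finset.prod_eq_zero (Finset.mem_erase.2 ⟨hne, hP'⟩) (by simp)
  set W := (restrictTotalDegree ι ℂ s).map (aeval (R := ℂ) y).toLinearMap with hW
  let Θ : ((T → ℂ) × W) →ₗ[ℂ] Ω :=
    (Fintype.linearCombination ℂ fun P : T => aeval y (e P)).coprod
      ((LinearMap.mulLeft ℂ (aeval y Ψ)).comp W.subtype)
  have hΘ : ∀ (c : T → ℂ) (G : MvPolynomial ι ℂ) (hG : aeval y G ∈ W),
      Θ (c, ⟨_, hG⟩) = aeval y (∑ P : T, c P • e P + Ψ * G) := fun c G hG => by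
    simp [Θ, Fintype.linearCombination_apply]
  have h1 : Function.Injective Θ := (injective_iff_map_eq_zero _).2 (by
    rintro ⟨c, _, G, hG, rfl⟩ h0
    have h2 := (hΘ c G ⟨G, hG, rfl⟩).symm.trans h0
    have h3 : c = 0 := funext fun P => by
      have h4 := h.V _ h2 P P.2
      rw [map_add, map_mul, hz P P.2, zero_mul, add_zero, map_sum,
        Finset.sum_eq_single P (fun P' _ hne => by
          rw [smul_eval, he3 P' P P.2 fun h5 => hne (Subtype.ext h5).symm, mul_zero]) (by simp),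
        smul_eval] at h4
      exact (mul_eq_zero.1 h4).resolve_right (he2 P P.2)
    rw [h3] at h2 ⊢
    simp only [Pi.zero_apply, zero_smul, Finset.sum_const_zero, zero_add, map_mul] at h2
    exact Prod.ext rfl (Subtype.ext ((mul_eq_zero.1 h2).resolve_left hΨ)))
  have h2 : LinearMap.range Θ ≤
      (restrictTotalDegree ι ℂ (s + D)).map (aeval (R := ℂ) y).toLinearMap := by
    rintro _ ⟨⟨c, _, G, hG, rfl⟩, rfl⟩
    refine ⟨_, ?_, (hΘ c G ⟨G, hG, rfl⟩).symm⟩
    refine add_mem (Submodule.sum_mem _ fun P _ => Submodule.smul_mem _ _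
      ((mem_restrictTotalDegree _ _ _).2 ((he1 P).trans (Nat.le_add_right _ _))))
      ((mem_restrictTotalDegree _ _ _).2 ((totalDegree_mul _ _).trans ?_))
    have := (mem_restrictTotalDegree _ _ _).1 hG
    omega
  have h3 := Submodule.finrank_mono h2
  rwa [LinearMap.finrank_range_of_inj h1, Module.finrank_prod, Module.finrank_fintype_fun_eq_card,
    Fintype.card_coe] at h3

/-- Let `W s` be the image in `Ω` of the polynomials of degree `≤ s`, and `T` the set of the `M` zeros.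
By (V) evaluation at `T` is a well-defined linear map `W s → (T → ℂ)`; for `s ≥ M` it is onto (products
of `X i - v P' i`, `i` the separating coordinate), and its kernel contains `Ψ(y) * W (s - D)`, of
dimension `dim W (s - D)`.  So `dim W (M + (t+1) D) ≥ dim W (M + t D) + M`, and
`t M ≤ C0 (M + t D + 1)` for all `t`, whence `M ≤ C0 D`.  (To avoid quotients, work with the linear map
from `restrictTotalDegree` and compare kernels.) -/
theorem VG.zero [Fintype ι] {y : ι → Ω} {S : Finset κ} {v : κ → ι → ℂ} {C0 : ℕ} (h : VG y S v C0)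
    (Ψ : MvPolynomial ι ℂ) (D : ℕ) (hD : Ψ.totalDegree ≤ D) (hΨ : aeval y Ψ ≠ 0) (T : Finset κ)
    (hT : T ⊆ S) (hz : ∀ P ∈ T, eval (v P) Ψ = 0) : T.card ≤ C0 * D := by
  have h1 : ∀ t : ℕ, t * T.card ≤ Module.finrank ℂ
      ((restrictTotalDegree ι ℂ (T.card + t * D)).map (aeval (R := ℂ) y).toLinearMap) := fun t => by
    induction t with
    | zero => simp
    | succ t ih =>
      have := zero1_step (h.mono hT) Ψ D hD hΨ hz (Nat.le_add_right T.card (t * D))
      rw [Nat.succ_mul, Nat.succ_mul, ← add_assoc]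
      omega
  have h2 := (h1 (C0 * (T.card + 1) + 1)).trans (h.G _)
  by_contra h3
  have h4 := Nat.mul_le_mul_left (C0 * (T.card + 1) + 1) (not_le.1 h3)
  nlinarith

theorem CurveCfg.mono {d : ℕ} {N : NF d} {p q : ℕ} {μ : ℤ} {e1 e2 : Fin d → ℤ} {S T : Finset ℤ}
    {l1 l2 : ℤ → ℤ} {g : ℤ → Fin d → ℤ} {x nn : Ω} {b : Fin d → Ω} {κ : ℤ → ℂ} {C0 : ℕ}
    (h : CurveCfg N p q μ e1 e2 S l1 l2 g x nn b κ C0) (hT : T ⊆ S) :
    CurveCfg N p q μ e1 e2 T l1 l2 g x nn b κ C0 :=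
  ⟨h.rel, h.bne, fun n hn => h.kap n (hT hn), h.vg.mono hT⟩

end Crest.Agent.R22
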