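import Crest.Agent.R22.Defs

namespace Crest.Agent.R22

open MvPolynomial

variable {ι κ Ω : Type} [Field Ω] [Algebra ℂ Ω]

private theorem zero2_congr {τ : Type} {u w : τ → Ω} (h : LinearIndependent ℂ u)
    (e : ∀ t, u t = w t) : LinearIndependent ℂ w := _root_.funext e ▸ h

private theorem zero2_card [Fintype ι] {y : ι → Ω} {S : Finset κ} {v : κ → ι → ℂ} {C0 : ℕ}
    (h : VG y S v C0) {τ : Type} [Fintype τ] (u : τ → MvPolynomial ι ℂ) {s : ℕ}
    (hu : ∀ t, (u t).totalDegree ≤ s) (hli : LinearIndependent ℂ fun t => aeval y (u t)) :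
    Fintype.card τ ≤ C0 * (s + 1) := by
  rw [← finrank_span_eq_card hli]
  refine (Submodule.finrank_mono (Submodule.span_le.2 ?_)).trans (h.G s)
  rintro _ ⟨t, rfl⟩
  exact ⟨u t, (mem_restrictTotalDegree _ _ _).2 (hu t), rfl⟩

private theorem zero2_deg {f g : MvPolynomial ι ℂ} {D : ℕ} (hf : f.totalDegree ≤ D)
    (hg : g.totalDegree ≤ D) {j s : ℕ} (hj : j ≤ s) :
    (f ^ j * g ^ (s - j)).totalDegree ≤ s * D := by
  refine (totalDegree_mul _ _).trans ((add_le_add
    ((totalDegree_pow _ _).trans (Nat.mul_le_mul_left _ hf))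
    ((totalDegree_pow _ _).trans (Nat.mul_le_mul_left _ hg))).trans ?_)
  rw [← add_mul, Nat.add_sub_cancel' hj]

omit [Algebra ℂ Ω] in
private theorem zero2_pow {a b : Ω} (hb : b ≠ 0) {j s : ℕ} (hj : j ≤ s) :
    a ^ j * b ^ (s - j) = b ^ s * (a / b) ^ j := by
  rw [← Nat.add_sub_cancel' hj, Nat.add_sub_cancel_left, pow_add, div_pow]
  field_simp

/-- Uniform bound for degrees.  Write `ω i = f i (y) / g i (y)` (`IntermediateField.mem_adjoin_iff`) and
multiply by the common denominator, so that all `ω i` are values of polynomials of degree `≤ s0`.  The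
elements `ω i * f(y)^j * g(y)^(s-j)`, `j ≤ s`, are `ℂ`-linearly independent (`z` is transcendental) and lie
in `W (s0 + D s)`; so `r (s + 1) ≤ C0 (s0 + D s + 1)` for every `s`. -/
theorem VG.deg_le [Fintype ι] {y : ι → Ω} {S : Finset κ} {v : κ → ι → ℂ} {C0 : ℕ}
    (h : VG y S v C0) (f g : MvPolynomial ι ℂ) (D : ℕ) (hf : f.totalDegree ≤ D)
    (hg : g.totalDegree ≤ D) (hg0 : aeval y g ≠ 0)
    (hz : Transcendental ℂ (aeval y f / aeval y g)) (r : ℕ) (ω : Fin r → Ω)
    (hω : ∀ i, ω i ∈ IntermediateField.adjoin ℂ (Set.range y))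
    (hli : LinearIndependent (IntermediateField.adjoin ℂ {aeval y f / aeval y g}) ω) :
    r ≤ C0 * D := by
  choose p q hpq using fun i => (IntermediateField.mem_adjoin_range_iff ℂ y (ω i)).1 (hω i)
  have hq : ∀ i, aeval y (q i) ≠ 0 := fun i h0 => hli.ne_zero i (by rw [hpq, h0, div_zero])
  have hQ : aeval y (∏ i, q i) ≠ 0 := by
    rw [map_prod]
    exact Finset.prod_ne_zero_iff.2 fun i _ => hq i
  set p' : Fin r → MvPolynomial ι ℂ := fun i => p i * ∏ j ∈ Finset.univ.erase i, q j with hp'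
  have h1 : ∀ i, aeval y (p' i) = aeval y (∏ i, q i) * ω i := fun i => by
    rw [← Finset.mul_prod_erase _ _ (Finset.mem_univ i), hp', map_mul, map_mul, hpq,
      mul_right_comm, mul_div_cancel₀ _ (hq i)]
  have h2 : LinearIndependent ℂ fun j : ℕ => (⟨_, IntermediateField.mem_adjoin_simple_self ℂ
      (aeval y f / aeval y g)⟩ : IntermediateField.adjoin ℂ {aeval y f / aeval y g}) ^ j := by
    refine LinearIndependent.of_comp (IntermediateField.val _).toLinearMap ?_
    have := (Polynomial.basisMonomials ℂ).linearIndependent.map'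
      (Polynomial.aeval (aeval y f / aeval y g)).toLinearMap
      (LinearMap.ker_eq_bot.2 (transcendental_iff_injective.1 hz))
    refine zero2_congr this fun j => ?_
    simp
  have h3 : ∀ s : ℕ, (s + 1) * r ≤ C0 * (Finset.univ.sup (fun i => (p' i).totalDegree) + s * D + 1) :=
    fun s => by
      have h4 := (linearIndependent_smul
        (h2.comp (Fin.val : Fin (s + 1) → ℕ) Fin.val_injective) hli).map'
        (LinearMap.mulLeft ℂ (aeval y (∏ i, q i) * aeval y g ^ s))
        (LinearMap.ker_eq_bot.2 (mul_right_injective₀ (mul_ne_zero hQ (pow_ne_zero _ hg0))))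
      have h5 := zero2_card h (fun t : Fin (s + 1) × Fin r =>
          p' t.2 * (f ^ t.1.val * g ^ (s - t.1.val)))
        (s := Finset.univ.sup (fun i => (p' i).totalDegree) + s * D)
        (fun t => (totalDegree_mul _ _).trans (add_le_add
          (Finset.le_sup (f := fun i => (p' i).totalDegree) (Finset.mem_univ _))
          (zero2_deg hf hg (Nat.lt_succ_iff.1 t.1.2)))) (by
          refine zero2_congr h4 fun t => ?_
          rw [map_mul _ (p' t.2), h1, map_mul _ (f ^ _), map_pow, map_pow,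
            zero2_pow hg0 (Nat.lt_succ_iff.1 t.1.2)]
          simp only [Function.comp_apply, LinearMap.mulLeft_apply, IntermediateField.smul_def,
            smul_eq_mul, SubmonoidClass.coe_pow]
          ring)
      rwa [Fintype.card_prod, Fintype.card_fin, Fintype.card_fin] at h5
  generalize Finset.univ.sup (fun i => (p' i).totalDegree) = s0 at h3
  have h4 := h3 (C0 * (s0 + 1))
  by_contra h5
  have h6 := Nat.mul_le_mul_left (C0 * (s0 + 1) + 1) (not_le.1 h5)
  nlinarith [Nat.zero_le (C0 * D)]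

/-- Consequence: a subfield `K ∋ z` of the function field is finite over `ℂ(z)`, of degree in
`[1, C0 D]` (`IntermediateField.relfinrank`, `rank_le` via `deg_le`). -/
theorem VG.dg_le [Fintype ι] {y : ι → Ω} {S : Finset κ} {v : κ → ι → ℂ} {C0 : ℕ}
    (h : VG y S v C0) (f g : MvPolynomial ι ℂ) (D : ℕ) (hf : f.totalDegree ≤ D)
    (hg : g.totalDegree ≤ D) (hg0 : aeval y g ≠ 0)
    (hz : Transcendental ℂ (aeval y f / aeval y g)) (K : IntermediateField ℂ Ω)
    (hK : K ≤ IntermediateField.adjoin ℂ (Set.range y)) (hzK : aeval y f / aeval y g ∈ K) :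
    0 < dg (aeval y f / aeval y g) K ∧ dg (aeval y f / aeval y g) K ≤ C0 * D := by
  have hle : IntermediateField.adjoin ℂ {aeval y f / aeval y g} ≤ K :=
    IntermediateField.adjoin_simple_le_iff.2 hzK
  have h1 : Module.rank (IntermediateField.adjoin ℂ {aeval y f / aeval y g})
      (IntermediateField.extendScalars hle) ≤ (C0 * D : ℕ) := rank_le fun s hs =>
    h.deg_le f g D hf hg hg0 hz s.card (fun i => ((s.equivFin.symm i).1 : Ω))
      (fun i => hK (s.equivFin.symm i).1.2)
      ((hs.comp _ s.equivFin.symm.injective).map' (IntermediateField.val _).toLinearMap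
        (LinearMap.ker_eq_bot.2 Subtype.val_injective))
  have h2 : Module.Finite (IntermediateField.adjoin ℂ {aeval y f / aeval y g})
      (IntermediateField.extendScalars hle) :=
    Module.rank_lt_aleph0_iff.1 (h1.trans_lt Cardinal.natCast_lt_aleph0)
  rw [dg, IntermediateField.relfinrank_eq_finrank_of_le hle]
  exact ⟨Module.finrank_pos, Module.finrank_le_of_rank_le h1⟩

/-- Two functions on a curve satisfy a relation in a box of bounded size: the `(R + 1)²` elements
`f1^i g1^(R-i) f2^j g2^(R-j)` lie in `W (2 D R)`, of dimension `≤ C0 (2 D R + 1) < (R + 1)²` for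
`R = 2 C0 D + C0`. -/
theorem VG.exists_rel [Fintype ι] {y : ι → Ω} {S : Finset κ} {v : κ → ι → ℂ} {C0 : ℕ}
    (h : VG y S v C0) (f1 g1 f2 g2 : MvPolynomial ι ℂ) (D : ℕ) (hf1 : f1.totalDegree ≤ D)
    (hg1 : g1.totalDegree ≤ D) (hf2 : f2.totalDegree ≤ D) (hg2 : g2.totalDegree ≤ D)
    (h1 : aeval y g1 ≠ 0) (h2 : aeval y g2 ≠ 0) :
    ∃ ψ : ℕ → ℕ → ℂ, (∃ i ≤ 2 * C0 * D + C0, ∃ j ≤ 2 * C0 * D + C0, ψ i j ≠ 0) ∧
      ∑ i ∈ Finset.range (2 * C0 * D + C0 + 1), ∑ j ∈ Finset.range (2 * C0 * D + C0 + 1),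
        algebraMap ℂ Ω (ψ i j) * (aeval y f1 / aeval y g1) ^ i * (aeval y f2 / aeval y g2) ^ j = 0 := by
  generalize hR : 2 * C0 * D + C0 = R
  have h3 : ¬ LinearIndependent ℂ fun t : Fin (R + 1) × Fin (R + 1) =>
      aeval y ((f1 ^ t.1.val * g1 ^ (R - t.1.val)) * (f2 ^ t.2.val * g2 ^ (R - t.2.val))) :=
    fun hli => by
      have h4 := zero2_card h _ (s := R * D + R * D) (fun t => (totalDegree_mul _ _).trans
        (add_le_add (zero2_deg hf1 hg1 (Nat.lt_succ_iff.1 t.1.2))
          (zero2_deg hf2 hg2 (Nat.lt_succ_iff.1 t.2.2)))) hli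
      rw [Fintype.card_prod, Fintype.card_fin] at h4
      have h5 : 2 * C0 * D * R ≤ R * R := Nat.mul_le_mul_right _ (by omega)
      have h6 : C0 ≤ R := by omega
      nlinarith
  obtain ⟨c, h4, t, h5⟩ := Fintype.not_linearIndependent_iff.1 h3
  refine ⟨fun i j => if hij : i < R + 1 ∧ j < R + 1 then c (⟨i, hij.1⟩, ⟨j, hij.2⟩) else 0,
    ⟨t.1, Nat.lt_succ_iff.1 t.1.2, t.2, Nat.lt_succ_iff.1 t.2.2, by
      beta_reduce
      rw [dif_pos ⟨t.1.2, t.2.2⟩]
      exact h5⟩, ?_⟩
  refine (mul_eq_zero.1 (?_ : (aeval y g1 ^ R * aeval y g2 ^ R) * _ = 0)).resolve_left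
    (mul_ne_zero (pow_ne_zero _ h1) (pow_ne_zero _ h2))
  rw [← h4, Fintype.sum_prod_type, Finset.sum_range, Finset.mul_sum]
  refine Finset.sum_congr rfl fun i _ => ?_
  rw [Finset.sum_range, Finset.mul_sum]
  refine Finset.sum_congr rfl fun j _ => ?_
  beta_reduce
  rw [dif_pos ⟨i.2, j.2⟩, Algebra.smul_def]
  simp only [map_mul, map_pow]
  rw [zero2_pow h1 (Nat.lt_succ_iff.1 i.2), zero2_pow h2 (Nat.lt_succ_iff.1 j.2)]
  ring

end Crest.Agent.R22
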